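import Crest.Agent.S0047F_Game

/-!
Kernel-evaluable certificate checker for S0047 (Snaky).

Cells of the 32-column strip are coded by naturals `c = 32 * y + x` (`x < 32`); sets of cells are
bitsets (naturals).  A certificate is a forest of *Maker moves only*.  The zone of a tree is the set
of all cells occurring in it; a tree is a valid win for Maker against every Breaker set disjoint
from its zone.  An inner node is correct when its children are correct and their zones have empty
intersection.
-/

set_option autoImplicit false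

namespace Crest.Agent.S0047FC

open Crest.CombinatoricsR.PolyominoGame Crest.Agent.S0047FG

/-- Certificates: forests in first-child / next-sibling form. -/
inductive F : Type
  | nil : F
  | leaf (m s o : ℕ) (rest : F) : F
  | node (m : ℕ) (kids rest : F) : F
  | ref (i : ℕ) (rest : F) : F

/-- Result of a check: failure, or union of zones and coded intersection of zones
(`0` = no tree yet, `I + 1` = intersection `I`). -/
inductive R : Type
  | fail : R
  | ok (U I : ℕ) : R

/-- Force evaluation of a natural number (for the kernel). -/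
def strict {α : Type} (x : ℕ) (k : ℕ → α) : α := Nat.casesOn x (k 0) (fun n => k (Nat.succ n))

theorem strict_eq {α : Type} (x : ℕ) (k : ℕ → α) : strict x k = k x := by
  cases x <;> rfl

def inter (z I : ℕ) : ℕ := Nat.casesOn I (Nat.succ z) (fun J => Nat.succ (Nat.land z J))

def tb (Z c : ℕ) : Bool := Nat.beq (Nat.land (Nat.shiftRight Z c) 1) 1

/-- Position of the "salt" bit of a cell.  Bits `0 … 63` of all bitsets are junk without any meaning:
they only serve to give the literals well distributed low bits (the kernel hashes literals by their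
low bits, and its caches degenerate otherwise). -/
def sg (m : ℕ) : ℕ := Nat.add (Nat.mod m 8) (Nat.mul 8 (Nat.mod (Nat.div m 32) 8))

/-- The bitset of a single cell (with its salt bit). -/
def bt (m : ℕ) : ℕ := Nat.lor (Nat.shiftLeft 1 m) (Nat.shiftLeft 1 (sg m))

/-- Is the coded intersection (`J + 1`) empty, junk bits ignored? -/
def emp (I : ℕ) : Bool := Nat.casesOn I false (fun J => Nat.beq (Nat.shiftRight J 64) 0)

/-- Masks of the eight orientations (normalised to the corner). -/
def mask : ℕ → ℕ
  | 0 => 103079215119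
  | 1 => 12884901918
  | 2 => 64424509464
  | 3 => 128849018883
  | 4 => 680564734079561414487988971722172792833
  | 5 => 340282367158622951043061108368409100290
  | 6 => 340282367000166625996085689111906615298
  | 7 => 680564734000333251992171378210928328705
  | _ => 0

/-- Widths of the eight orientations (`33` = invalid). -/
def wd : ℕ → ℕ
  | 0 => 5 | 1 => 5 | 2 => 5 | 3 => 5 | 4 => 2 | 5 => 2 | 6 => 2 | 7 => 2
  | _ => 33

/-- Does the bitset `X` contain the copy with orientation `o` at shift `s`? -/
def winOK (X s o : ℕ) : Bool :=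
  Nat.ble 64 s && Nat.ble (Nat.add (Nat.mod s 32) (wd o)) 32 &&
    Nat.beq (Nat.land (Nat.shiftRight X s) (mask o)) (mask o)

/-- Table lookup. -/
def look : List (ℕ × ℕ × ℕ) → ℕ → Option (ℕ × ℕ × ℕ)
  | [], _ => none
  | e :: l, i => Nat.casesOn i (some e) (fun j => look l j)

/-- The checker.  `tbl` = table of already proved entries `(Mb, Z, d)`; `d` = number of claims
Maker may still make; `Mb` = Maker's cells. -/
def chk (tbl : List (ℕ × ℕ × ℕ)) : F → ℕ → ℕ → R
  | .nil, _, _ => .ok 0 0
  | .leaf m s o rest, d, Mb =>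
    match d with
    | 0 => .fail
    | Nat.succ _ =>
      bif tb Mb m || Nat.blt m 64 then .fail else
      strict (bt m) fun bm =>
      bif winOK (Nat.lor Mb bm) s o then
        match chk tbl rest d Mb with
        | .ok U I => .ok (Nat.lor bm U) (inter bm I)
        | .fail => .fail
      else .fail
  | .node m kids rest, d, Mb =>
    match d with
    | 0 => .fail
    | Nat.succ d' =>
      bif tb Mb m || Nat.blt m 64 then .fail else
      strict (bt m) fun bm =>
      strict (Nat.lor Mb bm) fun Mb' =>
      match chk tbl kids d' Mb' with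
      | .fail => .fail
      | .ok U I =>
        bif emp I then
          strict (Nat.lor bm U) fun z =>
          match chk tbl rest d Mb with
          | .ok U2 I2 => .ok (Nat.lor z U2) (inter z I2)
          | .fail => .fail
        else .fail
  | .ref i rest, d, Mb =>
    match look tbl i with
    | none => .fail
    | some (Mb0, Z0, d0) =>
      bif Nat.beq Mb0 Mb && Nat.ble d0 d then
        match chk tbl rest d Mb with
        | .ok U2 I2 => .ok (Nat.lor Z0 U2) (inter Z0 I2)
        | .fail => .fail
      else .fail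

/-- Top-level test: the forest is non-empty, correct, and the union of its zones is `Z`. -/
def top (tbl : List (ℕ × ℕ × ℕ)) (f : F) (d Mb Z : ℕ) : Bool :=
  match chk tbl f d Mb with
  | .ok U I => Nat.beq U Z && Nat.blt 0 I
  | .fail => false

/-! ### Semantics -/

/-- Decoding of cell codes. -/
def dec (c : ℕ) : Cell := (((c % 32 : ℕ) : ℤ), ((c / 32 : ℕ) : ℤ))

theorem dec_inj {a b : ℕ} (h : dec a = dec b) : a = b := by
  simp only [dec, Prod.mk.injEq, Nat.cast_inj] at h
  omega

/-- Meaningful bits: those at positions `≥ 64`. -/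
def hb (Z c : ℕ) : Prop := 64 ≤ c ∧ Z.testBit c = true

theorem hb_or {a b c : ℕ} : hb (a ||| b) c ↔ hb a c ∨ hb b c := by
  simp only [hb, Nat.testBit_or, Bool.or_eq_true]
  tauto

theorem hb_and {a b c : ℕ} : hb (a &&& b) c ↔ hb a c ∧ hb b c := by
  simp only [hb, Nat.testBit_and, Bool.and_eq_true]
  tauto

theorem testBit_bit (m c : ℕ) : (1 <<< m).testBit c = true ↔ c = m := by
  rw [Nat.one_shiftLeft, Nat.testBit_two_pow]
  simp [eq_comm]

theorem sg_lt (m : ℕ) : sg m < 64 := by
  have : sg m = m % 8 + 8 * (m / 32 % 8) := rfl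
  omega

theorem hb_bt {m c : ℕ} (hm : 64 ≤ m) : hb (bt m) c ↔ c = m := by
  have h0 : bt m = 1 <<< m ||| 1 <<< sg m := rfl
  rw [h0, hb_or]
  simp only [hb, testBit_bit]
  have := sg_lt m
  constructor
  · rintro (h | h)
    · exact h.2
    · omega
  · rintro rfl
    exact Or.inl ⟨hm, rfl⟩

theorem not_hb_of_shift {J c : ℕ} (h : J >>> 64 = 0) : ¬ hb J c := by
  rintro ⟨h1, h2⟩
  have h3 : (J >>> 64).testBit (c - 64) = J.testBit c := by
    rw [Nat.testBit_shiftRight]; congr 1; omega
  rw [h, h2] at h3
  simp at h3

def Rep (Mb : ℕ) (M : Finset Cell) : Prop := ∀ p, p ∈ M ↔ ∃ c, hb Mb c ∧ dec c = p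

def Avoids (Z : ℕ) (B : Finset Cell) : Prop := ∀ c, hb Z c → dec c ∉ B

/-- Maker with cells `Mb`, to move, wins within `d` claims against every Breaker set avoiding `Z`. -/
def Valid (d Mb Z : ℕ) : Prop := ∀ M B, Rep Mb M → Avoids Z B → MW d M B

def AvI (I : ℕ) (r : Cell) : Prop := ∃ J, I = J + 1 ∧ ∀ c, hb J c → dec c ≠ r

def FOK (d Mb U I : ℕ) : Prop :=
  ∀ M B, Rep Mb M → Avoids U B → ∀ r, AvI I r → MW d M (insert r B)

theorem tb_eq (Z c : ℕ) : tb Z c = Z.testBit c := by
  have h1 : tb Z c = Nat.beq ((Z >>> c) &&& 1) 1 := rfl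
  rw [h1, Nat.testBit, Nat.and_comm]
  have : 1 &&& (Z >>> c) = 0 ∨ 1 &&& (Z >>> c) = 1 := by
    rw [Nat.and_comm, Nat.and_one_is_mod]; omega
  rcases this with h | h <;> rw [h] <;> rfl

theorem MW_anti {n : ℕ} {M B' : Finset Cell} (h : MW n M B') :
    ∀ B : Finset Cell, B ⊆ B' → MW n M B := by
  induction h with
  | win m hM hB hc => intro B hBB; exact MW.win m hM (fun h => hB (hBB h)) hc
  | @step n M B' m hM hB hr ih =>
    intro B hBB
    refine MW.step m hM (fun h => hB (hBB h)) (fun r h1 h2 => ?_)
    by_cases hr' : r ∈ B'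
    · obtain ⟨r2, h2'⟩ := exists_fresh (insert m M ∪ B')
      rw [Finset.mem_union, not_or] at h2'
      refine ih r2 h2'.1 h2'.2 _ ?_
      intro x hx
      rcases Finset.mem_insert.1 hx with rfl | hx
      · exact Finset.mem_insert_of_mem hr'
      · exact Finset.mem_insert_of_mem (hBB hx)
    · exact ih r h1 hr' _ (Finset.insert_subset_insert r hBB)

theorem rep_insert {Mb m : ℕ} {M : Finset Cell} (h : Rep Mb M) (hm : 64 ≤ m) :
    Rep (Mb ||| bt m) (insert (dec m) M) := by
  intro p
  rw [Finset.mem_insert, h p]
  constructor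
  · rintro (rfl | ⟨c, hc, rfl⟩)
    · exact ⟨m, hb_or.2 (Or.inr ((hb_bt hm).2 rfl)), rfl⟩
    · exact ⟨c, hb_or.2 (Or.inl hc), rfl⟩
  · rintro ⟨c, hc, rfl⟩
    rcases hb_or.1 hc with hc | hc
    · exact Or.inr ⟨c, hc, rfl⟩
    · exact Or.inl (by rw [(hb_bt hm).1 hc])

theorem notMem_of_rep {Mb m : ℕ} {M : Finset Cell} (h : Rep Mb M) (hm : Mb.testBit m = false) :
    dec m ∉ M := by
  intro hmem
  obtain ⟨c, hc, hcm⟩ := (h _).1 hmem
  rw [dec_inj hcm] at hc
  rw [hc.2] at hm
  exact Bool.noConfusion hm

theorem avoids_or {a b : ℕ} {B : Finset Cell} (h : Avoids (a ||| b) B) :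
    Avoids a B ∧ Avoids b B :=
  ⟨fun c hc => h c (hb_or.2 (Or.inl hc)), fun c hc => h c (hb_or.2 (Or.inr hc))⟩

theorem combine {d Mb z U2 I2 : ℕ} (hz : Valid d Mb z) (hf : FOK d Mb U2 I2) :
    FOK d Mb (z ||| U2) (inter z I2) := by
  intro M B hM hB r hr
  obtain ⟨hBz, hBU⟩ := avoids_or hB
  have useZ : (∀ c, hb z c → dec c ≠ r) → MW d M (insert r B) := by
    intro h
    refine hz M _ hM (fun c hc hmem => ?_)
    rcases Finset.mem_insert.1 hmem with h1 | h1
    · exact h c hc h1
    · exact hBz c hc h1
  obtain ⟨J, hJ, hJr⟩ := hr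
  cases I2 with
  | zero =>
    have : z = J := by
      have : inter z 0 = z + 1 := rfl
      omega
    subst this
    exact useZ hJr
  | succ J2 =>
    have hJ' : J = z &&& J2 := by
      have : inter z (J2 + 1) = (z &&& J2) + 1 := rfl
      omega
    subst hJ'
    by_cases h : ∀ c, hb z c → dec c ≠ r
    · exact useZ h
    · push Not at h
      obtain ⟨c0, hc0, rfl⟩ := h
      refine hf M B hM hBU _ ⟨J2, rfl, fun c hc hcc => ?_⟩
      have := dec_inj hcc
      subst this
      exact hJr c (hb_and.2 ⟨hc0, hc⟩) rfl

theorem fok_nil (d Mb : ℕ) : FOK d Mb 0 0 := by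
  intro M B _ _ r hr
  obtain ⟨J, hJ, _⟩ := hr
  omega

/-- From a correct non-empty forest to validity against the union of the zones. -/
theorem valid_of_fok {d Mb U J : ℕ} (h : FOK d Mb U (J + 1)) : Valid d Mb U := by
  intro M B hM hB
  refine MW_anti (h M B hM hB ((-1 : ℤ), (0 : ℤ)) ⟨J, rfl, fun c _ hc => ?_⟩) B
    (Finset.subset_insert _ _)
  simp only [dec, Prod.mk.injEq] at hc
  omega

theorem valid_mono {d d' Mb Z : ℕ} (h : Valid d Mb Z) (hd : d ≤ d') : Valid d' Mb Z :=
  fun M B hM hB => (h M B hM hB).mono_le hd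

theorem dec_add (s dx dy : ℕ) (h : s % 32 + dx < 32) :
    dec (s + (32 * dy + dx)) = (((s % 32 : ℕ) : ℤ) + (dx : ℤ), ((s / 32 : ℕ) : ℤ) + (dy : ℤ)) := by
  have h1 : (s + (32 * dy + dx)) % 32 = s % 32 + dx := by omega
  have h2 : (s + (32 * dy + dx)) / 32 = s / 32 + dy := by omega
  simp only [dec, h1, h2]
  push_cast
  rfl

theorem copy_of_winOK {X s o : ℕ} (h : winOK X s o = true) {M : Finset Cell} (hM : Rep X M) :
    ContainsCopy (↑M : Set Cell) := by
  rw [winOK, Bool.and_eq_true, Bool.and_eq_true] at h
  obtain ⟨⟨h0, h1⟩, h2⟩ := h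
  have h0' : 64 ≤ s := Nat.le_of_ble_eq_true h0
  have h1' : s % 32 + wd o ≤ 32 := Nat.le_of_ble_eq_true h1
  have h2' : (X >>> s) &&& mask o = mask o := Nat.eq_of_beq_eq_true h2
  have bit : ∀ j, (mask o).testBit j = true → X.testBit (s + j) = true := by
    intro j hj
    have := congrArg (fun n => Nat.testBit n j) h2'
    simp only [Nat.testBit_and, Nat.testBit_shiftRight, hj, Bool.and_true] at this
    exact this
  have mem : ∀ dx dy : ℕ, (mask o).testBit (32 * dy + dx) = true → dx < wd o →
      ((((s % 32 : ℕ) : ℤ) + (dx : ℤ), ((s / 32 : ℕ) : ℤ) + (dy : ℤ)) : Cell) ∈ (↑M : Set Cell) := by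
    intro dx dy hb' hw
    exact Finset.mem_coe.2 ((hM _).2 ⟨s + (32 * dy + dx), ⟨by omega, bit _ hb'⟩,
      dec_add s dx dy (by omega)⟩)
  have ho : o < 8 := by
    by_contra hcon
    have : wd o = 33 := by
      rcases o with _ | _ | _ | _ | _ | _ | _ | _ | o
      all_goals first | omega | rfl
    omega
  clear h0 h1 h2 h2' bit h1' h0'
  interval_cases o
  · -- orientation 0
    refine ⟨(((s % 32 : ℕ) : ℤ) + 0, ((s / 32 : ℕ) : ℤ) + 0), 1, 1, by norm_num, by norm_num, Or.inl ?_⟩
    intro p hp
    simp only [snaky, Finset.mem_insert, Finset.mem_singleton] at hp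
    rcases hp with rfl | rfl | rfl | rfl | rfl | rfl
    · convert mem 0 0 (by decide) (by decide) using 2 <;> push_cast <;> ring
    · convert mem 1 0 (by decide) (by decide) using 2 <;> push_cast <;> ring
    · convert mem 2 0 (by decide) (by decide) using 2 <;> push_cast <;> ring
    · convert mem 3 0 (by decide) (by decide) using 2 <;> push_cast <;> ring
    · convert mem 3 1 (by decide) (by decide) using 2 <;> push_cast <;> ring
    · convert mem 4 1 (by decide) (by decide) using 2 <;> push_cast <;> ring
  · -- orientation 1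
    refine ⟨(((s % 32 : ℕ) : ℤ) + 4, ((s / 32 : ℕ) : ℤ) + 0), -1, 1, by norm_num, by norm_num, Or.inl ?_⟩
    intro p hp
    simp only [snaky, Finset.mem_insert, Finset.mem_singleton] at hp
    rcases hp with rfl | rfl | rfl | rfl | rfl | rfl
    · convert mem 4 0 (by decide) (by decide) using 2 <;> push_cast <;> ring
    · convert mem 3 0 (by decide) (by decide) using 2 <;> push_cast <;> ring
    · convert mem 2 0 (by decide) (by decide) using 2 <;> push_cast <;> ring
    · convert mem 1 0 (by decide) (by decide) using 2 <;> push_cast <;> ring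
    · convert mem 1 1 (by decide) (by decide) using 2 <;> push_cast <;> ring
    · convert mem 0 1 (by decide) (by decide) using 2 <;> push_cast <;> ring
  · -- orientation 2
    refine ⟨(((s % 32 : ℕ) : ℤ) + 0, ((s / 32 : ℕ) : ℤ) + 1), 1, -1, by norm_num, by norm_num, Or.inl ?_⟩
    intro p hp
    simp only [snaky, Finset.mem_insert, Finset.mem_singleton] at hp
    rcases hp with rfl | rfl | rfl | rfl | rfl | rfl
    · convert mem 0 1 (by decide) (by decide) using 2 <;> push_cast <;> ring
    · convert mem 1 1 (by decide) (by decide) using 2 <;> push_cast <;> ring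
    · convert mem 2 1 (by decide) (by decide) using 2 <;> push_cast <;> ring
    · convert mem 3 1 (by decide) (by decide) using 2 <;> push_cast <;> ring
    · convert mem 3 0 (by decide) (by decide) using 2 <;> push_cast <;> ring
    · convert mem 4 0 (by decide) (by decide) using 2 <;> push_cast <;> ring
  · -- orientation 3
    refine ⟨(((s % 32 : ℕ) : ℤ) + 4, ((s / 32 : ℕ) : ℤ) + 1), -1, -1, by norm_num, by norm_num, Or.inl ?_⟩
    intro p hp
    simp only [snaky, Finset.mem_insert, Finset.mem_singleton] at hp
    rcases hp with rfl | rfl | rfl | rfl | rfl | rfl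
    · convert mem 4 1 (by decide) (by decide) using 2 <;> push_cast <;> ring
    · convert mem 3 1 (by decide) (by decide) using 2 <;> push_cast <;> ring
    · convert mem 2 1 (by decide) (by decide) using 2 <;> push_cast <;> ring
    · convert mem 1 1 (by decide) (by decide) using 2 <;> push_cast <;> ring
    · convert mem 1 0 (by decide) (by decide) using 2 <;> push_cast <;> ring
    · convert mem 0 0 (by decide) (by decide) using 2 <;> push_cast <;> ring
  · -- orientation 4
    refine ⟨(((s % 32 : ℕ) : ℤ) + 0, ((s / 32 : ℕ) : ℤ) + 0), 1, 1, by norm_num, by norm_num, Or.inr ?_⟩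
    intro p hp
    simp only [snaky, Finset.mem_insert, Finset.mem_singleton] at hp
    rcases hp with rfl | rfl | rfl | rfl | rfl | rfl
    · convert mem 0 0 (by decide) (by decide) using 2 <;> push_cast <;> ring
    · convert mem 0 1 (by decide) (by decide) using 2 <;> push_cast <;> ring
    · convert mem 0 2 (by decide) (by decide) using 2 <;> push_cast <;> ring
    · convert mem 0 3 (by decide) (by decide) using 2 <;> push_cast <;> ring
    · convert mem 1 3 (by decide) (by decide) using 2 <;> push_cast <;> ring
    · convert mem 1 4 (by decide) (by decide) using 2 <;> push_cast <;> ring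
  · -- orientation 5
    refine ⟨(((s % 32 : ℕ) : ℤ) + 1, ((s / 32 : ℕ) : ℤ) + 0), -1, 1, by norm_num, by norm_num, Or.inr ?_⟩
    intro p hp
    simp only [snaky, Finset.mem_insert, Finset.mem_singleton] at hp
    rcases hp with rfl | rfl | rfl | rfl | rfl | rfl
    · convert mem 1 0 (by decide) (by decide) using 2 <;> push_cast <;> ring
    · convert mem 1 1 (by decide) (by decide) using 2 <;> push_cast <;> ring
    · convert mem 1 2 (by decide) (by decide) using 2 <;> push_cast <;> ring
    · convert mem 1 3 (by decide) (by decide) using 2 <;> push_cast <;> ring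
    · convert mem 0 3 (by decide) (by decide) using 2 <;> push_cast <;> ring
    · convert mem 0 4 (by decide) (by decide) using 2 <;> push_cast <;> ring
  · -- orientation 6
    refine ⟨(((s % 32 : ℕ) : ℤ) + 0, ((s / 32 : ℕ) : ℤ) + 4), 1, -1, by norm_num, by norm_num, Or.inr ?_⟩
    intro p hp
    simp only [snaky, Finset.mem_insert, Finset.mem_singleton] at hp
    rcases hp with rfl | rfl | rfl | rfl | rfl | rfl
    · convert mem 0 4 (by decide) (by decide) using 2 <;> push_cast <;> ring
    · convert mem 0 3 (by decide) (by decide) using 2 <;> push_cast <;> ring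
    · convert mem 0 2 (by decide) (by decide) using 2 <;> push_cast <;> ring
    · convert mem 0 1 (by decide) (by decide) using 2 <;> push_cast <;> ring
    · convert mem 1 1 (by decide) (by decide) using 2 <;> push_cast <;> ring
    · convert mem 1 0 (by decide) (by decide) using 2 <;> push_cast <;> ring
  · -- orientation 7
    refine ⟨(((s % 32 : ℕ) : ℤ) + 1, ((s / 32 : ℕ) : ℤ) + 4), -1, -1, by norm_num, by norm_num, Or.inr ?_⟩
    intro p hp
    simp only [snaky, Finset.mem_insert, Finset.mem_singleton] at hp
    rcases hp with rfl | rfl | rfl | rfl | rfl | rfl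
    · convert mem 1 4 (by decide) (by decide) using 2 <;> push_cast <;> ring
    · convert mem 1 3 (by decide) (by decide) using 2 <;> push_cast <;> ring
    · convert mem 1 2 (by decide) (by decide) using 2 <;> push_cast <;> ring
    · convert mem 1 1 (by decide) (by decide) using 2 <;> push_cast <;> ring
    · convert mem 0 1 (by decide) (by decide) using 2 <;> push_cast <;> ring
    · convert mem 0 0 (by decide) (by decide) using 2 <;> push_cast <;> ring

theorem look_mem : ∀ (tbl : List (ℕ × ℕ × ℕ)) (i : ℕ) (e : ℕ × ℕ × ℕ), look tbl i = some e → e ∈ tbl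
  | [], _, _, h => by simp [look] at h
  | a :: l, 0, e, h => by
    have : some a = some e := h
    rw [Option.some.injEq] at this
    rw [this]; exact List.mem_cons_self
  | a :: l, (j + 1), e, h => by
    have : look l j = some e := h
    exact List.mem_cons_of_mem _ (look_mem l j e this)

theorem guard_spec {Mb m : ℕ} (h : (tb Mb m || Nat.blt m 64) = false) :
    Mb.testBit m = false ∧ 64 ≤ m := by
  rw [Bool.or_eq_false_iff, tb_eq] at h
  refine ⟨h.1, ?_⟩
  by_contra hcon
  have h3 : Nat.ble (Nat.succ m) 64 = true := Nat.ble_eq_true_of_le (by omega)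
  have h4 : Nat.blt m 64 = true := h3
  rw [h4] at h
  exact Bool.noConfusion h.2

theorem valid_leaf {d Mb m s o : ℕ} (hg : (tb Mb m || Nat.blt m 64) = false)
    (hw : winOK (Mb ||| bt m) s o = true) :
    Valid (d + 1) Mb (bt m) := by
  intro M B hM hB
  obtain ⟨hb', hm⟩ := guard_spec hg
  refine MW.win (dec m) (notMem_of_rep hM hb') (hB m ((hb_bt hm).2 rfl)) ?_
  exact copy_of_winOK hw (rep_insert hM hm)

theorem emp_spec {I : ℕ} (h : emp I = true) : ∃ J, I = J + 1 ∧ J >>> 64 = 0 := by
  cases I with
  | zero => exact Bool.noConfusion h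
  | succ J => exact ⟨J, rfl, Nat.eq_of_beq_eq_true h⟩

theorem valid_node {d Mb m U I : ℕ} (hg : (tb Mb m || Nat.blt m 64) = false)
    (hI : emp I = true) (hk : FOK d (Mb ||| bt m) U I) : Valid (d + 1) Mb (bt m ||| U) := by
  intro M B hM hB
  obtain ⟨hb', hm⟩ := guard_spec hg
  obtain ⟨J, rfl, hJ⟩ := emp_spec hI
  obtain ⟨hB1, hB2⟩ := avoids_or hB
  refine MW.step (dec m) (notMem_of_rep hM hb') (hB1 m ((hb_bt hm).2 rfl)) ?_
  intro r _ _
  exact hk _ B (rep_insert hM hm) hB2 r ⟨J, rfl, fun c hc => absurd hc (not_hb_of_shift hJ)⟩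

theorem lor_eq' (a b : ℕ) : Nat.lor a b = a ||| b := rfl

theorem chk_sound (tbl : List (ℕ × ℕ × ℕ)) (H : ∀ e ∈ tbl, Valid e.2.2 e.1 e.2.1) :
    ∀ (f : F) (d Mb U I : ℕ), chk tbl f d Mb = .ok U I → FOK d Mb U I := by
  intro f
  induction f with
  | nil =>
    intro d Mb U I h
    simp only [chk, R.ok.injEq] at h
    obtain ⟨rfl, rfl⟩ := h
    exact fok_nil d Mb
  | leaf m s o rest ih =>
    intro d Mb U I h
    cases d with
    | zero => simp [chk] at h
    | succ d =>
      simp only [chk, strict_eq, lor_eq'] at h
      cases hg : (tb Mb m || Nat.blt m 64) with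
      | true => simp [hg] at h
      | false =>
        cases hw : winOK (Mb ||| bt m) s o with
        | false => simp [hg, hw] at h
        | true =>
          cases hr : chk tbl rest (d + 1) Mb with
          | fail => simp [hg, hw, hr] at h
          | ok U2 I2 =>
            simp only [hg, hw, hr, cond_false, cond_true, R.ok.injEq] at h
            obtain ⟨rfl, rfl⟩ := h
            exact combine (valid_leaf hg hw) (ih _ _ _ _ hr)
  | node m kids rest ihk ihr =>
    intro d Mb U I h
    cases d with
    | zero => simp [chk] at h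
    | succ d =>
      simp only [chk, strict_eq, lor_eq'] at h
      cases hg : (tb Mb m || Nat.blt m 64) with
      | true => simp [hg] at h
      | false =>
        cases hk : chk tbl kids d (Mb ||| bt m) with
        | fail => simp [hg, hk] at h
        | ok Uk Ik =>
          cases hI : emp Ik with
          | false => simp [hg, hk, hI] at h
          | true =>
            cases hr : chk tbl rest (d + 1) Mb with
            | fail => simp [hg, hk, hI, hr] at h
            | ok U2 I2 =>
              simp only [hg, hk, hI, hr, cond_false, cond_true, R.ok.injEq] at h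
              obtain ⟨rfl, rfl⟩ := h
              exact combine (valid_node hg hI (ihk _ _ _ _ hk)) (ihr _ _ _ _ hr)
  | ref i rest ih =>
    intro d Mb U I h
    simp only [chk, lor_eq'] at h
    cases hl : look tbl i with
    | none => simp [hl] at h
    | some e =>
      obtain ⟨Mb0, Z0, d0⟩ := e
      cases hc : (Nat.beq Mb0 Mb && Nat.ble d0 d) with
      | false => simp [hl, hc] at h
      | true =>
        cases hr : chk tbl rest d Mb with
        | fail => simp [hl, hc, hr] at h
        | ok U2 I2 =>
          simp only [hl, hc, hr, cond_true, R.ok.injEq] at h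
          obtain ⟨rfl, rfl⟩ := h
          rw [Bool.and_eq_true] at hc
          have h1 : Mb0 = Mb := Nat.eq_of_beq_eq_true hc.1
          have h2 : d0 ≤ d := Nat.le_of_ble_eq_true hc.2
          subst h1
          exact combine (valid_mono (H _ (look_mem _ _ _ hl)) h2) (ih _ _ _ _ hr)

/-- Soundness of the top-level test. -/
theorem valid_of_top (tbl : List (ℕ × ℕ × ℕ)) (H : ∀ e ∈ tbl, Valid e.2.2 e.1 e.2.1)
    (f : F) (d Mb Z : ℕ) (h : top tbl f d Mb Z = true) : Valid d Mb Z := by
  rw [top] at h
  cases hc : chk tbl f d Mb with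
  | fail => simp [hc] at h
  | ok U I =>
    simp only [hc, Bool.and_eq_true] at h
    have h1 : U = Z := Nat.eq_of_beq_eq_true h.1
    have h2 : 0 < I := by
      have h3 : Nat.ble (Nat.succ 0) I = true := h.2
      exact Nat.le_of_ble_eq_true h3
    subst h1
    obtain ⟨J, rfl⟩ : ∃ J, I = J + 1 := ⟨I - 1, by omega⟩
    exact valid_of_fok (chk_sound tbl H f d Mb U (J + 1) hc)

/-- Validity at the empty position gives the abstract win. -/
theorem MW_of_valid {Z : ℕ} (h : Valid 21 0 Z) : MW 21 ∅ ∅ :=
  h ∅ ∅ (fun p => by simp [hb]) (fun c _ => by simp)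

end Crest.Agent.S0047FC
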