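import Crest.Statements.S0047

/-!
Abstract game-theoretic part for S0047 (Snaky): an inductive notion `MW n M B`
("Maker, to move, with own cells `M` and Breaker cells `B`, completes a copy within `n` further
claims") and the extraction of a policy from `MW 21 ∅ ∅`.
-/

set_option autoImplicit false

namespace Crest.Agent.S0047FG

open Crest.CombinatoricsR.PolyominoGame

abbrev Cell := ℤ × ℤ

/-- Maker (to move) wins within `n` further claims. -/
inductive MW : ℕ → Finset Cell → Finset Cell → Prop
  | win {n : ℕ} {M B : Finset Cell} (m : Cell) (hM : m ∉ M) (hB : m ∉ B)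
      (hc : ContainsCopy (↑(insert m M) : Set Cell)) : MW (n + 1) M B
  | step {n : ℕ} {M B : Finset Cell} (m : Cell) (hM : m ∉ M) (hB : m ∉ B)
      (hr : ∀ r : Cell, r ∉ insert m M → r ∉ B → MW n (insert m M) (insert r B)) :
      MW (n + 1) M B

theorem MW.mono {n : ℕ} {M B : Finset Cell} (h : MW n M B) : MW (n + 1) M B := by
  induction h with
  | win m hM hB hc => exact MW.win m hM hB hc
  | step m hM hB _ ih => exact MW.step m hM hB ih

theorem MW.mono_le {n k : ℕ} {M B : Finset Cell} (h : MW n M B) (hk : n ≤ k) : MW k M B := by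
  induction hk with
  | refl => exact h
  | step _ ih => exact ih.mono

theorem not_MW_zero (M B : Finset Cell) : ¬ MW 0 M B := by
  intro h
  cases h

theorem copy_mono {X Y : Set Cell} (h : ContainsCopy X) (hXY : X ⊆ Y) :
    ContainsCopy Y := by
  obtain ⟨t, e1, e2, h1, h2, h3⟩ := h
  refine ⟨t, e1, e2, h1, h2, ?_⟩
  rcases h3 with h3 | h3
  · exact Or.inl fun p hp => hXY (h3 p hp)
  · exact Or.inr fun p hp => hXY (h3 p hp)

theorem exists_fresh (S : Finset Cell) : ∃ c : Cell, c ∉ S := Infinite.exists_notMem_finset S

/-- What a good move achieves. -/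
def Good (n : ℕ) (M B : Finset Cell) (m : Cell) : Prop :=
  ContainsCopy (↑(insert m M) : Set Cell) ∨
    ∀ r : Cell, r ∉ insert m M → r ∉ B → MW n (insert m M) (insert r B)

theorem exists_move (M B : Finset Cell) :
    ∃ m : Cell, m ∉ M ∧ m ∉ B ∧ ∀ n : ℕ, MW (n + 1) M B → Good n M B m := by
  classical
  by_cases h : ∃ n, MW n M B
  · -- take the least n
    have hn := Nat.find_spec h
    have hmin := fun k => Nat.find_min' h (m := k)
    generalize Nat.find h = n0 at hn hmin
    cases hn with
    | @win n _ _ m hM hB hc =>
      exact ⟨m, hM, hB, fun _ _ => Or.inl hc⟩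
    | @step n _ _ m hM hB hr =>
      refine ⟨m, hM, hB, fun k hk => Or.inr fun r h1 h2 => ?_⟩
      have : n + 1 ≤ k + 1 := hmin _ hk
      exact (hr r h1 h2).mono_le (by omega)
  · obtain ⟨m, hm⟩ := exists_fresh (M ∪ B)
    rw [Finset.mem_union, not_or] at hm
    exact ⟨m, hm.1, hm.2, fun n hn => absurd ⟨_, hn⟩ h⟩

/-- The move chosen at a position. -/
noncomputable def pick (M B : Finset Cell) : Cell := (exists_move M B).choose

theorem pick_notMem_M (M B : Finset Cell) : pick M B ∉ M := (exists_move M B).choose_spec.1
theorem pick_notMem_B (M B : Finset Cell) : pick M B ∉ B := (exists_move M B).choose_spec.2.1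
theorem pick_good (M B : Finset Cell) (n : ℕ) (h : MW (n + 1) M B) : Good n M B (pick M B) :=
  (exists_move M B).choose_spec.2.2 n h

open Classical in
/-- One round: Maker plays `pick`, Breaker replies `r`. -/
noncomputable def stepSt (s : Finset Cell × Finset Cell) (r : Cell) : Finset Cell × Finset Cell :=
  (insert (pick s.1 s.2) s.1, insert r s.2)

/-- State after a list of replies. -/
noncomputable def stateL (l : List Cell) : Finset Cell × Finset Cell :=
  l.foldl stepSt (∅, ∅)

/-- The policy. -/
noncomputable def policy (l : List Cell) : Cell := pick (stateL l).1 (stateL l).2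

theorem stateL_range_succ (b : ℕ → Cell) (k : ℕ) :
    stateL ((List.range (k + 1)).map b) = stepSt (stateL ((List.range k).map b)) (b k) := by
  simp [stateL, List.range_succ, List.foldl_append]

theorem mem_state_M (b : ℕ → Cell) (k : ℕ) (c : Cell) :
    c ∈ (stateL ((List.range k).map b)).1 ↔ ∃ j, j < k ∧ c = makerClaim policy b j := by
  induction k with
  | zero => simp [stateL]
  | succ k ih =>
    rw [stateL_range_succ]
    simp only [stepSt, Finset.mem_insert, ih]
    constructor
    · rintro (h | ⟨j, hj, h⟩)
      · exact ⟨k, Nat.lt_succ_self k, h⟩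
      · exact ⟨j, Nat.lt_succ_of_lt hj, h⟩
    · rintro ⟨j, hj, h⟩
      rcases Nat.lt_succ_iff_lt_or_eq.mp hj with hj | rfl
      · exact Or.inr ⟨j, hj, h⟩
      · exact Or.inl h

theorem mem_state_B (b : ℕ → Cell) (k : ℕ) (c : Cell) :
    c ∈ (stateL ((List.range k).map b)).2 ↔ ∃ j, j < k ∧ c = b j := by
  induction k with
  | zero => simp [stateL]
  | succ k ih =>
    rw [stateL_range_succ]
    simp only [stepSt, Finset.mem_insert, ih]
    constructor
    · rintro (h | ⟨j, hj, h⟩)
      · exact ⟨k, Nat.lt_succ_self k, h⟩
      · exact ⟨j, Nat.lt_succ_of_lt hj, h⟩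
    · rintro ⟨j, hj, h⟩
      rcases Nat.lt_succ_iff_lt_or_eq.mp hj with hj | rfl
      · exact Or.inr ⟨j, hj, h⟩
      · exact Or.inl h

/-- Main extraction theorem. -/
theorem result_of_MW (h : MW 21 ∅ ∅) :
    ∃ σ : List (ℤ × ℤ) → ℤ × ℤ, ∀ b : ℕ → ℤ × ℤ,
      (∀ k : ℕ, k < 20 →
        (∀ j : ℕ, j ≤ k → b k ≠ makerClaim σ b j) ∧
        (∀ j : ℕ, j < k → b k ≠ b j)) →
      (∀ k : ℕ, k ≤ 20 →
        (∀ j : ℕ, j < k → makerClaim σ b k ≠ makerClaim σ b j) ∧
        (∀ j : ℕ, j < k → makerClaim σ b k ≠ b j)) ∧
      ContainsCopy {c | ∃ j : ℕ, j ≤ 20 ∧ c = makerClaim σ b j} := by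
  classical
  refine ⟨policy, fun b hb => ⟨fun k _ => ⟨fun j hj he => ?_, fun j hj he => ?_⟩, ?_⟩⟩
  · have := pick_notMem_M (stateL ((List.range k).map b)).1 (stateL ((List.range k).map b)).2
    exact this ((mem_state_M b k _).2 ⟨j, hj, he⟩)
  · have := pick_notMem_B (stateL ((List.range k).map b)).1 (stateL ((List.range k).map b)).2
    exact this ((mem_state_B b k _).2 ⟨j, hj, he⟩)
  · -- invariant
    have inv : ∀ k, k ≤ 20 →
        ContainsCopy (↑(stateL ((List.range k).map b)).1 : Set Cell) ∨
          MW (21 - k) (stateL ((List.range k).map b)).1 (stateL ((List.range k).map b)).2 := by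
      intro k
      induction k with
      | zero => intro _; right; simpa [stateL] using h
      | succ k ih =>
        intro hk
        have hk' : k < 20 := hk
        rw [stateL_range_succ]
        rcases ih (by omega) with hc | hw
        · left
          refine copy_mono hc ?_
          simp only [stepSt, Finset.coe_insert]
          exact Set.subset_insert _ _
        · have e : 21 - k = (21 - (k + 1)) + 1 := by omega
          rw [e] at hw
          rcases pick_good _ _ _ hw with hc | hr
          · left; exact hc
          · right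
            refine hr (b k) ?_ ?_
            · rw [Finset.mem_insert, not_or]
              refine ⟨(hb k hk').1 k le_rfl, fun hmem => ?_⟩
              obtain ⟨j, hj, hj'⟩ := (mem_state_M b k _).1 hmem
              exact (hb k hk').1 j hj.le hj'
            · intro hmem
              obtain ⟨j, hj, hj'⟩ := (mem_state_B b k _).1 hmem
              exact (hb k hk').2 j hj hj'
    have key : ContainsCopy (↑(stateL ((List.range 21).map b)).1 : Set Cell) := by
      rw [stateL_range_succ]
      rcases inv 20 le_rfl with hc | hw
      · refine copy_mono hc ?_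
        simp only [stepSt, Finset.coe_insert]
        exact Set.subset_insert _ _
      · have hw' : MW (0 + 1) (stateL ((List.range 20).map b)).1
            (stateL ((List.range 20).map b)).2 := hw
        rcases pick_good _ _ _ hw' with hc | hr
        · exact hc
        · exfalso
          obtain ⟨r, hr'⟩ := exists_fresh
            (insert (pick (stateL ((List.range 20).map b)).1 (stateL ((List.range 20).map b)).2)
              (stateL ((List.range 20).map b)).1 ∪ (stateL ((List.range 20).map b)).2)
          rw [Finset.mem_union, not_or] at hr'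
          exact not_MW_zero _ _ (hr r hr'.1 hr'.2)
    refine copy_mono key ?_
    intro c hc
    obtain ⟨j, hj, hj'⟩ := (mem_state_M b 21 c).1 (by simpa using hc)
    exact ⟨j, by omega, hj'⟩

end Crest.Agent.S0047FG
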