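import Crest.Agent.S0047F_Check

/-!
In-kernel parser for certificates.  A certificate is a list of pages; a page is a natural number
holding `2 ^ 8` 41-bit slots (lowest slot first); a slot is `token * 2^16 + salt` (the salt has no
meaning, it only gives all intermediate literals well distributed low bits).
Token layout: bits 0-1 tag (0 = end of forest, 1 = node, 2 = leaf, 3 = ref),
bits 2-11 `m` (or bits 2-24 the index of a ref), bits 12-21 `s`, bits 22-24 `o`.
The parser needs no correctness proof: the checker is run on whatever forest it returns.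
-/

set_option autoImplicit false

namespace Crest.Agent.S0047FC

/-- Lazy divide-and-conquer unpacking of `2 ^ l` slots into a list of tokens. -/
def unpack : ℕ → ℕ → List ℕ → List ℕ
  | 0, x, acc => Nat.shiftRight x 16 :: acc
  | Nat.succ l, x, acc =>
    strict (Nat.shiftLeft 41 l) fun k =>
    strict (Nat.shiftRight x k) fun hi =>
    strict (Nat.sub x (Nat.shiftLeft hi k)) fun lo =>
    unpack l lo (unpack l hi acc)

/-- Lazy unpacking of a list of pages of `2 ^ 8` slots. -/
def unpackAll : List ℕ → List ℕ
  | [] => []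
  | x :: xs => unpack 8 x (unpackAll xs)

/-- Parser result. -/
structure PR where
  f : F
  ts : List ℕ

/-- Parse a forest from a list of tokens. -/
def parse : ℕ → List ℕ → PR
  | 0, ts => ⟨.nil, ts⟩
  | Nat.succ fuel, ts =>
    match ts with
    | [] => ⟨.nil, []⟩
    | t :: ts1 =>
      strict t fun tok =>
      match Nat.land tok 3 with
      | 0 => ⟨.nil, ts1⟩
      | 1 =>
        match parse fuel ts1 with
        | ⟨k, ts2⟩ =>
          match parse fuel ts2 with
          | ⟨r, ts3⟩ => ⟨.node (Nat.shiftRight tok 2) k r, ts3⟩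
      | 2 =>
        match parse fuel ts1 with
        | ⟨r, ts2⟩ =>
          ⟨.leaf (Nat.land (Nat.shiftRight tok 2) 1023) (Nat.land (Nat.shiftRight tok 12) 1023)
            (Nat.shiftRight tok 22) r, ts2⟩
      | _ =>
        match parse fuel ts1 with
        | ⟨r, ts2⟩ => ⟨.ref (Nat.shiftRight tok 2) r, ts2⟩

/-- Check a packed certificate. -/
def topP (tbl : List (ℕ × ℕ × ℕ)) (fuel : ℕ) (pages : List ℕ) (d Mb Z : ℕ) : Bool :=
  top tbl (parse fuel (unpackAll pages)).f d Mb Z

theorem valid_of_topP (tbl : List (ℕ × ℕ × ℕ)) (H : ∀ e ∈ tbl, Valid e.2.2 e.1 e.2.1)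
    (fuel : ℕ) (pages : List ℕ) (d Mb Z : ℕ) (h : topP tbl fuel pages d Mb Z = true) :
    Valid d Mb Z :=
  valid_of_top tbl H _ d Mb Z h

/-- All entries of a table are proved. -/
def AllV (tbl : List (ℕ × ℕ × ℕ)) : Prop := ∀ e ∈ tbl, Valid e.2.2 e.1 e.2.1

theorem allV_nil : AllV [] := fun _ h => absurd h List.not_mem_nil

theorem allV_cons {Mb Z d : ℕ} {tbl : List (ℕ × ℕ × ℕ)} (h : Valid d Mb Z) (H : AllV tbl) :
    AllV ((Mb, Z, d) :: tbl) := by
  intro e he
  rcases List.mem_cons.1 he with rfl | he
  · exact h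
  · exact H e he

end Crest.Agent.S0047FC
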