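import Mathlib
import Crest.Prelude.Def_PolyominoGame

/-!
Row 35 (S0047, Snaky): the abstract game part.

`Win k M B` : Maker (to move, owning the cells `M`, Breaker owning `B`) can force a copy of Snaky
within `k` further Maker moves.  `result_of_win` : `Win 21 ∅ ∅` implies the frozen statement.
-/

set_option autoImplicit false

namespace Crest.Agent.S0047G

open Crest.CombinatoricsR.PolyominoGame

abbrev Cell := ℤ × ℤ

/-- `Good k M B m`: the Maker move `m` is legal and either wins at once or leads, after every legal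
Breaker reply, to a position won in `k` moves (`W` is the recursive predicate). -/
def GoodOf (W : Set Cell → Set Cell → Prop) (M B : Set Cell) (m : Cell) : Prop :=
  m ∉ M ∧ m ∉ B ∧
    (ContainsCopy (insert m M) ∨ ∀ r, r ∉ insert m M → r ∉ B → W (insert m M) (insert r B))

/-- Maker to move wins within `k` moves. -/
def Win : ℕ → Set Cell → Set Cell → Prop
  | 0 => fun _ _ => False
  | k + 1 => fun M B => ∃ m, GoodOf (Win k) M B m

theorem win_succ (k : ℕ) (M B : Set Cell) : Win (k + 1) M B ↔ ∃ m, GoodOf (Win k) M B m := Iff.rfl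

theorem containsCopy_mono {X Y : Set Cell} (h : X ⊆ Y) (hX : ContainsCopy X) : ContainsCopy Y := by
  obtain ⟨t, e1, e2, h1, h2, h3⟩ := hX
  refine ⟨t, e1, e2, h1, h2, ?_⟩
  rcases h3 with h3 | h3
  · exact Or.inl fun p hp => h (h3 p hp)
  · exact Or.inr fun p hp => h (h3 p hp)

theorem exists_fresh (M B : Finset Cell) : ∃ c : Cell, c ∉ M ∧ c ∉ B := by
  obtain ⟨c, hc⟩ := Infinite.exists_notMem_finset (M ∪ B)
  exact ⟨c, fun h => hc (Finset.mem_union_left _ h), fun h => hc (Finset.mem_union_right _ h)⟩

open Classical in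
/-- Maker's move in the position `(M, B)` when `k` more moves remain after this one. -/
noncomputable def mv (k : ℕ) (M B : Finset Cell) : Cell :=
  if h : ∃ m, GoodOf (Win k) (M : Set Cell) (B : Set Cell) m then h.choose
  else (exists_fresh M B).choose

theorem mv_notMem (k : ℕ) (M B : Finset Cell) : mv k M B ∉ M ∧ mv k M B ∉ B := by
  unfold mv
  split_ifs with h
  · have := h.choose_spec
    exact ⟨by simpa using this.1, by simpa using this.2.1⟩
  · exact (exists_fresh M B).choose_spec

theorem mv_good (k : ℕ) (M B : Finset Cell) (h : Win (k + 1) (M : Set Cell) (B : Set Cell)) :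
    GoodOf (Win k) (M : Set Cell) (B : Set Cell) (mv k M B) := by
  have h' : ∃ m, GoodOf (Win k) (M : Set Cell) (B : Set Cell) m := h
  unfold mv
  rw [dif_pos h']
  exact h'.choose_spec

/-- game state: number of Maker moves still allowed, Maker's cells, Breaker's cells. -/
structure St where
  k : ℕ
  M : Finset Cell
  B : Finset Cell

open Classical in
noncomputable def step (s : St) (r : Cell) : St :=
  ⟨s.k - 1, insert (mv (s.k - 1) s.M s.B) s.M, insert r s.B⟩

def init : St := ⟨21, ∅, ∅⟩

noncomputable def sigma (l : List Cell) : Cell :=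
  mv ((l.foldl step init).k - 1) (l.foldl step init).M (l.foldl step init).B

noncomputable def S (b : ℕ → Cell) (j : ℕ) : St := ((List.range j).map b).foldl step init

theorem S_zero (b : ℕ → Cell) : S b 0 = init := by simp [S]

theorem S_succ (b : ℕ → Cell) (j : ℕ) : S b (j + 1) = step (S b j) (b j) := by
  simp [S, List.range_succ]

theorem claim_eq (b : ℕ → Cell) (j : ℕ) :
    makerClaim sigma b j = mv ((S b j).k - 1) (S b j).M (S b j).B := rfl

theorem S_k (b : ℕ → Cell) (j : ℕ) : (S b j).k = 21 - j := by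
  induction j with
  | zero => simp [S_zero, init]
  | succ j ih => rw [S_succ]; simp only [step, ih]; omega

theorem S_M (b : ℕ → Cell) (j : ℕ) (x : Cell) :
    x ∈ (S b j).M ↔ ∃ i, i < j ∧ x = makerClaim sigma b i := by
  induction j with
  | zero => simp [S_zero, init]
  | succ j ih =>
    rw [S_succ]
    simp only [step, Finset.mem_insert, ih, ← claim_eq]
    constructor
    · rintro (h | ⟨i, hi, h⟩)
      · exact ⟨j, Nat.lt_succ_self j, h⟩
      · exact ⟨i, Nat.lt_succ_of_lt hi, h⟩
    · rintro ⟨i, hi, h⟩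
      rcases Nat.lt_succ_iff_lt_or_eq.mp hi with h' | h'
      · exact Or.inr ⟨i, h', h⟩
      · subst h'; exact Or.inl h

theorem S_B (b : ℕ → Cell) (j : ℕ) (x : Cell) :
    x ∈ (S b j).B ↔ ∃ i, i < j ∧ x = b i := by
  induction j with
  | zero => simp [S_zero, init]
  | succ j ih =>
    rw [S_succ]
    simp only [step, Finset.mem_insert, ih]
    constructor
    · rintro (h | ⟨i, hi, h⟩)
      · exact ⟨j, Nat.lt_succ_self j, h⟩
      · exact ⟨i, Nat.lt_succ_of_lt hi, h⟩
    · rintro ⟨i, hi, h⟩
      rcases Nat.lt_succ_iff_lt_or_eq.mp hi with h' | h'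
      · exact Or.inr ⟨i, h', h⟩
      · subst h'; exact Or.inl h

theorem S_M_succ (b : ℕ → Cell) (j : ℕ) :
    ((S b (j + 1)).M : Set Cell) = insert (makerClaim sigma b j) ((S b j).M : Set Cell) := by
  rw [S_succ]; simp [step, claim_eq]

theorem S_B_succ (b : ℕ → Cell) (j : ℕ) :
    ((S b (j + 1)).B : Set Cell) = insert (b j) ((S b j).B : Set Cell) := by
  rw [S_succ]; simp [step]

theorem invariant (hw : Win 21 ∅ ∅) (b : ℕ → Cell)
    (hb : ∀ k : ℕ, k < 20 →
        (∀ j : ℕ, j ≤ k → b k ≠ makerClaim sigma b j) ∧ (∀ j : ℕ, j < k → b k ≠ b j))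
    (j : ℕ) (hj : j ≤ 20) :
    ContainsCopy ((S b j).M : Set Cell) ∨
      Win (21 - j) ((S b j).M : Set Cell) ((S b j).B : Set Cell) := by
  induction j with
  | zero => right; simpa [S_zero, init] using hw
  | succ j ih =>
    have hj' : j < 20 := hj
    rcases ih (by omega) with h | h
    · left
      rw [S_M_succ]
      exact containsCopy_mono (Set.subset_insert _ _) h
    · have e : 21 - j = (20 - j) + 1 := by omega
      rw [e] at h
      have hg := mv_good _ _ _ h
      have ek : (S b j).k - 1 = 20 - j := by rw [S_k]; omega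
      rw [← ek, ← claim_eq] at hg
      rcases hg.2.2 with h1 | h1
      · left; rw [S_M_succ]; exact h1
      · right
        rw [S_M_succ, S_B_succ]
        have e2 : 21 - (j + 1) = (S b j).k - 1 := by rw [ek]; omega
        rw [e2]
        apply h1
        · intro hmem
          rcases Set.mem_insert_iff.mp hmem with h2 | h2
          · exact (hb j hj').1 j le_rfl h2
          · obtain ⟨i, hi, h3⟩ := (S_M b j (b j)).mp (by simpa using h2)
            exact (hb j hj').1 i hi.le h3
        · intro hmem
          obtain ⟨i, hi, h3⟩ := (S_B b j (b j)).mp (by simpa using hmem)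
          exact (hb j hj').2 i hi h3

theorem result_of_win (hw : Win 21 ∅ ∅) :
    ∃ σ : List (ℤ × ℤ) → ℤ × ℤ, ∀ b : ℕ → ℤ × ℤ,
      (∀ k : ℕ, k < 20 →
        (∀ j : ℕ, j ≤ k → b k ≠ Crest.CombinatoricsR.PolyominoGame.makerClaim σ b j) ∧
        (∀ j : ℕ, j < k → b k ≠ b j)) →
      (∀ k : ℕ, k ≤ 20 →
        (∀ j : ℕ, j < k → Crest.CombinatoricsR.PolyominoGame.makerClaim σ b k ≠
          Crest.CombinatoricsR.PolyominoGame.makerClaim σ b j) ∧
        (∀ j : ℕ, j < k → Crest.CombinatoricsR.PolyominoGame.makerClaim σ b k ≠ b j)) ∧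
      Crest.CombinatoricsR.PolyominoGame.ContainsCopy
        {c | ∃ j : ℕ, j ≤ 20 ∧ c = Crest.CombinatoricsR.PolyominoGame.makerClaim σ b j} := by
  refine ⟨sigma, fun b hb => ⟨fun k _ => ⟨fun j hj h => ?_, fun j hj h => ?_⟩, ?_⟩⟩
  · have h1 := (mv_notMem ((S b k).k - 1) (S b k).M (S b k).B).1
    rw [← claim_eq] at h1
    exact h1 ((S_M b k _).mpr ⟨j, hj, h⟩)
  · have h1 := (mv_notMem ((S b k).k - 1) (S b k).M (S b k).B).2
    rw [← claim_eq] at h1
    exact h1 ((S_B b k _).mpr ⟨j, hj, h⟩)
  · have hset : {c | ∃ j : ℕ, j ≤ 20 ∧ c = makerClaim sigma b j} = ((S b 21).M : Set Cell) := by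
      ext x
      simp only [Set.mem_setOf_eq, Finset.mem_coe, S_M]
      constructor
      · rintro ⟨j, hj, h⟩; exact ⟨j, by omega, h⟩
      · rintro ⟨j, hj, h⟩; exact ⟨j, by omega, h⟩
    rw [hset, S_M_succ]
    rcases invariant hw b hb 20 le_rfl with h | h
    · exact containsCopy_mono (Set.subset_insert _ _) h
    · have hg := mv_good 0 _ _ h
      have ek : (S b 20).k - 1 = 0 := by rw [S_k]
      rw [← ek, ← claim_eq] at hg
      rcases hg.2.2 with h1 | h1
      · exact h1
      · exfalso
        obtain ⟨c, hc1, hc2⟩ := exists_fresh (S b 21).M (S b 20).B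
        have : Win ((S b 20).k - 1) _ _ := h1 c (by
          rw [← S_M_succ]; simpa using hc1) (by simpa using hc2)
        rw [ek] at this
        exact this

end Crest.Agent.S0047G
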