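import Mathlib
import Crest.Agent.S0047_Game

/-!
Row 35 (S0047, Snaky): a kernel-evaluable checker for proof trees with relevance zones.

Cells of the window are coded `x + 64 * y` (`0 ≤ x, y < 64`); sets of cells are bit masks (`ℕ`).
A proof tree is a stream of 13-bit tokens packed in one natural number (least significant first):

* `m + 1` (`m < 4096`)            : Maker plays the cell coded `m`; then either
  * `4097 + o`, `s`               : leaf: the copy with orientation `o` and shift `s` is complete, or
  * kid, kid, …, `0`              : the kids; the intersection of their zones must be empty;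
* `8191`, `k`                     : reference to the `k`-th externally proved tree `(d, M, z)`.

The zone of a tree is the set of all Maker moves occurring in it.
-/

set_option autoImplicit false

namespace Crest.Agent.S0047C

open Crest.Agent.S0047G Crest.CombinatoricsR.PolyominoGame

/-- the cell coded by `i`. -/
def cell (i : ℕ) : Cell := (((i % 64 : ℕ) : ℤ), ((i / 64 : ℕ) : ℤ))

theorem cell_inj {i j : ℕ} (h : cell i = cell j) : i = j := by
  simp only [cell, Prod.mk.injEq, Nat.cast_inj] at h
  omega

/-- the set of cells of a bit mask. -/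
def cells (z : ℕ) : Set Cell := {c | ∃ i, z.testBit i = true ∧ c = cell i}

theorem cell_mem_cells {z i : ℕ} : cell i ∈ cells z ↔ z.testBit i = true := by
  constructor
  · rintro ⟨j, hj, h⟩
    rw [cell_inj h]; exact hj
  · intro h; exact ⟨i, h, rfl⟩

theorem cells_zero : cells 0 = ∅ := by
  ext c; simp [cells]

theorem testBit_bit (m j : ℕ) : (1 <<< m).testBit j = decide (m = j) := by
  rw [Nat.one_shiftLeft, Nat.testBit_two_pow]

theorem cells_lor_bit (M m : ℕ) : cells (M ||| (1 <<< m)) = insert (cell m) (cells M) := by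
  ext c
  simp only [cells, Set.mem_insert_iff, Nat.testBit_lor, testBit_bit, Bool.or_eq_true,
    decide_eq_true_eq]
  constructor
  · rintro ⟨i, hi | hi, rfl⟩
    · exact Or.inr ⟨i, hi, rfl⟩
    · exact Or.inl (by rw [hi])
  · rintro (rfl | ⟨i, hi, rfl⟩)
    · exact ⟨m, Or.inr rfl, rfl⟩
    · exact ⟨i, Or.inl hi, rfl⟩

theorem mem_cells_of (M s dx dy : ℕ) (hb : M.testBit (s + (dx + 64 * dy)) = true)
    (hs : s % 64 + dx < 64) (X Y : ℤ) (hX : X = ((s % 64 : ℕ) : ℤ) + dx)
    (hY : Y = ((s / 64 : ℕ) : ℤ) + dy) : (X, Y) ∈ cells M := by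
  refine ⟨_, hb, ?_⟩
  have h1 : (s + (dx + 64 * dy)) % 64 = s % 64 + dx := by omega
  have h2 : (s + (dx + 64 * dy)) / 64 = s / 64 + dy := by omega
  simp only [cell, h1, h2, hX, hY]
  push_cast
  rfl

/-- the eight orientations of Snaky, normalised to nonnegative offsets. -/
def orient : List (List (ℕ × ℕ)) :=
  [[(0, 0), (1, 0), (2, 0), (3, 0), (3, 1), (4, 1)],
   [(4, 0), (3, 0), (2, 0), (1, 0), (1, 1), (0, 1)],
   [(0, 1), (1, 1), (2, 1), (3, 1), (3, 0), (4, 0)],
   [(4, 1), (3, 1), (2, 1), (1, 1), (1, 0), (0, 0)],
   [(0, 0), (0, 1), (0, 2), (0, 3), (1, 3), (1, 4)],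
   [(1, 0), (1, 1), (1, 2), (1, 3), (0, 3), (0, 4)],
   [(0, 4), (0, 3), (0, 2), (0, 1), (1, 1), (1, 0)],
   [(1, 4), (1, 3), (1, 2), (1, 1), (0, 1), (0, 0)]]

theorem copy_of_orient (M s : ℕ) (hs : s % 64 < 60) (offs : List (ℕ × ℕ)) (ho : offs ∈ orient)
    (h : ∀ q ∈ offs, M.testBit (s + (q.1 + 64 * q.2)) = true) : ContainsCopy (cells M) := by
  simp only [orient, List.mem_cons, List.not_mem_nil, or_false] at ho
  rcases ho with rfl | rfl | rfl | rfl | rfl | rfl | rfl | rfl
  · refine ⟨(((s % 64 : ℕ) : ℤ) + 0, ((s / 64 : ℕ) : ℤ) + 0), 1, 1, by norm_num, by norm_num, Or.inl ?_⟩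
    intro p hp
    simp only [snaky, Finset.mem_insert, Finset.mem_singleton] at hp
    rcases hp with rfl | rfl | rfl | rfl | rfl | rfl
    · exact mem_cells_of M s 0 0 (h (0, 0) (by simp)) (by omega) _ _ (by push_cast; ring) (by push_cast; ring)
    · exact mem_cells_of M s 1 0 (h (1, 0) (by simp)) (by omega) _ _ (by push_cast; ring) (by push_cast; ring)
    · exact mem_cells_of M s 2 0 (h (2, 0) (by simp)) (by omega) _ _ (by push_cast; ring) (by push_cast; ring)
    · exact mem_cells_of M s 3 0 (h (3, 0) (by simp)) (by omega) _ _ (by push_cast; ring) (by push_cast; ring)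
    · exact mem_cells_of M s 3 1 (h (3, 1) (by simp)) (by omega) _ _ (by push_cast; ring) (by push_cast; ring)
    · exact mem_cells_of M s 4 1 (h (4, 1) (by simp)) (by omega) _ _ (by push_cast; ring) (by push_cast; ring)
  · refine ⟨(((s % 64 : ℕ) : ℤ) + 4, ((s / 64 : ℕ) : ℤ) + 0), -1, 1, by norm_num, by norm_num, Or.inl ?_⟩
    intro p hp
    simp only [snaky, Finset.mem_insert, Finset.mem_singleton] at hp
    rcases hp with rfl | rfl | rfl | rfl | rfl | rfl
    · exact mem_cells_of M s 4 0 (h (4, 0) (by simp)) (by omega) _ _ (by push_cast; ring) (by push_cast; ring)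
    · exact mem_cells_of M s 3 0 (h (3, 0) (by simp)) (by omega) _ _ (by push_cast; ring) (by push_cast; ring)
    · exact mem_cells_of M s 2 0 (h (2, 0) (by simp)) (by omega) _ _ (by push_cast; ring) (by push_cast; ring)
    · exact mem_cells_of M s 1 0 (h (1, 0) (by simp)) (by omega) _ _ (by push_cast; ring) (by push_cast; ring)
    · exact mem_cells_of M s 1 1 (h (1, 1) (by simp)) (by omega) _ _ (by push_cast; ring) (by push_cast; ring)
    · exact mem_cells_of M s 0 1 (h (0, 1) (by simp)) (by omega) _ _ (by push_cast; ring) (by push_cast; ring)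
  · refine ⟨(((s % 64 : ℕ) : ℤ) + 0, ((s / 64 : ℕ) : ℤ) + 1), 1, -1, by norm_num, by norm_num, Or.inl ?_⟩
    intro p hp
    simp only [snaky, Finset.mem_insert, Finset.mem_singleton] at hp
    rcases hp with rfl | rfl | rfl | rfl | rfl | rfl
    · exact mem_cells_of M s 0 1 (h (0, 1) (by simp)) (by omega) _ _ (by push_cast; ring) (by push_cast; ring)
    · exact mem_cells_of M s 1 1 (h (1, 1) (by simp)) (by omega) _ _ (by push_cast; ring) (by push_cast; ring)
    · exact mem_cells_of M s 2 1 (h (2, 1) (by simp)) (by omega) _ _ (by push_cast; ring) (by push_cast; ring)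
    · exact mem_cells_of M s 3 1 (h (3, 1) (by simp)) (by omega) _ _ (by push_cast; ring) (by push_cast; ring)
    · exact mem_cells_of M s 3 0 (h (3, 0) (by simp)) (by omega) _ _ (by push_cast; ring) (by push_cast; ring)
    · exact mem_cells_of M s 4 0 (h (4, 0) (by simp)) (by omega) _ _ (by push_cast; ring) (by push_cast; ring)
  · refine ⟨(((s % 64 : ℕ) : ℤ) + 4, ((s / 64 : ℕ) : ℤ) + 1), -1, -1, by norm_num, by norm_num, Or.inl ?_⟩
    intro p hp
    simp only [snaky, Finset.mem_insert, Finset.mem_singleton] at hp
    rcases hp with rfl | rfl | rfl | rfl | rfl | rfl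
    · exact mem_cells_of M s 4 1 (h (4, 1) (by simp)) (by omega) _ _ (by push_cast; ring) (by push_cast; ring)
    · exact mem_cells_of M s 3 1 (h (3, 1) (by simp)) (by omega) _ _ (by push_cast; ring) (by push_cast; ring)
    · exact mem_cells_of M s 2 1 (h (2, 1) (by simp)) (by omega) _ _ (by push_cast; ring) (by push_cast; ring)
    · exact mem_cells_of M s 1 1 (h (1, 1) (by simp)) (by omega) _ _ (by push_cast; ring) (by push_cast; ring)
    · exact mem_cells_of M s 1 0 (h (1, 0) (by simp)) (by omega) _ _ (by push_cast; ring) (by push_cast; ring)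
    · exact mem_cells_of M s 0 0 (h (0, 0) (by simp)) (by omega) _ _ (by push_cast; ring) (by push_cast; ring)
  · refine ⟨(((s % 64 : ℕ) : ℤ) + 0, ((s / 64 : ℕ) : ℤ) + 0), 1, 1, by norm_num, by norm_num, Or.inr ?_⟩
    intro p hp
    simp only [snaky, Finset.mem_insert, Finset.mem_singleton] at hp
    rcases hp with rfl | rfl | rfl | rfl | rfl | rfl
    · exact mem_cells_of M s 0 0 (h (0, 0) (by simp)) (by omega) _ _ (by push_cast; ring) (by push_cast; ring)
    · exact mem_cells_of M s 0 1 (h (0, 1) (by simp)) (by omega) _ _ (by push_cast; ring) (by push_cast; ring)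
    · exact mem_cells_of M s 0 2 (h (0, 2) (by simp)) (by omega) _ _ (by push_cast; ring) (by push_cast; ring)
    · exact mem_cells_of M s 0 3 (h (0, 3) (by simp)) (by omega) _ _ (by push_cast; ring) (by push_cast; ring)
    · exact mem_cells_of M s 1 3 (h (1, 3) (by simp)) (by omega) _ _ (by push_cast; ring) (by push_cast; ring)
    · exact mem_cells_of M s 1 4 (h (1, 4) (by simp)) (by omega) _ _ (by push_cast; ring) (by push_cast; ring)
  · refine ⟨(((s % 64 : ℕ) : ℤ) + 1, ((s / 64 : ℕ) : ℤ) + 0), -1, 1, by norm_num, by norm_num, Or.inr ?_⟩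
    intro p hp
    simp only [snaky, Finset.mem_insert, Finset.mem_singleton] at hp
    rcases hp with rfl | rfl | rfl | rfl | rfl | rfl
    · exact mem_cells_of M s 1 0 (h (1, 0) (by simp)) (by omega) _ _ (by push_cast; ring) (by push_cast; ring)
    · exact mem_cells_of M s 1 1 (h (1, 1) (by simp)) (by omega) _ _ (by push_cast; ring) (by push_cast; ring)
    · exact mem_cells_of M s 1 2 (h (1, 2) (by simp)) (by omega) _ _ (by push_cast; ring) (by push_cast; ring)
    · exact mem_cells_of M s 1 3 (h (1, 3) (by simp)) (by omega) _ _ (by push_cast; ring) (by push_cast; ring)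
    · exact mem_cells_of M s 0 3 (h (0, 3) (by simp)) (by omega) _ _ (by push_cast; ring) (by push_cast; ring)
    · exact mem_cells_of M s 0 4 (h (0, 4) (by simp)) (by omega) _ _ (by push_cast; ring) (by push_cast; ring)
  · refine ⟨(((s % 64 : ℕ) : ℤ) + 0, ((s / 64 : ℕ) : ℤ) + 4), 1, -1, by norm_num, by norm_num, Or.inr ?_⟩
    intro p hp
    simp only [snaky, Finset.mem_insert, Finset.mem_singleton] at hp
    rcases hp with rfl | rfl | rfl | rfl | rfl | rfl
    · exact mem_cells_of M s 0 4 (h (0, 4) (by simp)) (by omega) _ _ (by push_cast; ring) (by push_cast; ring)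
    · exact mem_cells_of M s 0 3 (h (0, 3) (by simp)) (by omega) _ _ (by push_cast; ring) (by push_cast; ring)
    · exact mem_cells_of M s 0 2 (h (0, 2) (by simp)) (by omega) _ _ (by push_cast; ring) (by push_cast; ring)
    · exact mem_cells_of M s 0 1 (h (0, 1) (by simp)) (by omega) _ _ (by push_cast; ring) (by push_cast; ring)
    · exact mem_cells_of M s 1 1 (h (1, 1) (by simp)) (by omega) _ _ (by push_cast; ring) (by push_cast; ring)
    · exact mem_cells_of M s 1 0 (h (1, 0) (by simp)) (by omega) _ _ (by push_cast; ring) (by push_cast; ring)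
  · refine ⟨(((s % 64 : ℕ) : ℤ) + 1, ((s / 64 : ℕ) : ℤ) + 4), -1, -1, by norm_num, by norm_num, Or.inr ?_⟩
    intro p hp
    simp only [snaky, Finset.mem_insert, Finset.mem_singleton] at hp
    rcases hp with rfl | rfl | rfl | rfl | rfl | rfl
    · exact mem_cells_of M s 1 4 (h (1, 4) (by simp)) (by omega) _ _ (by push_cast; ring) (by push_cast; ring)
    · exact mem_cells_of M s 1 3 (h (1, 3) (by simp)) (by omega) _ _ (by push_cast; ring) (by push_cast; ring)
    · exact mem_cells_of M s 1 2 (h (1, 2) (by simp)) (by omega) _ _ (by push_cast; ring) (by push_cast; ring)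
    · exact mem_cells_of M s 1 1 (h (1, 1) (by simp)) (by omega) _ _ (by push_cast; ring) (by push_cast; ring)
    · exact mem_cells_of M s 0 1 (h (0, 1) (by simp)) (by omega) _ _ (by push_cast; ring) (by push_cast; ring)
    · exact mem_cells_of M s 0 0 (h (0, 0) (by simp)) (by omega) _ _ (by push_cast; ring) (by push_cast; ring)


/-- leaf test: the copy with orientation `o` shifted by `s` lies in `M`. -/
def leafOK (M s o : ℕ) : Bool :=
  match orient[o]? with
  | none => false
  | some offs => decide (s % 64 < 60) && offs.all (fun q => M.testBit (s + (q.1 + 64 * q.2)))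

theorem leafOK_sound {M s o : ℕ} (h : leafOK M s o = true) : ContainsCopy (cells M) := by
  unfold leafOK at h
  cases ho : orient[o]? with
  | none => rw [ho] at h; simp at h
  | some offs =>
    rw [ho] at h
    simp only [Bool.and_eq_true, decide_eq_true_eq, List.all_eq_true] at h
    exact copy_of_orient M s h.1 offs (List.mem_of_getElem? ho) h.2


/-- all cells of the window. -/
def full : ℕ := 2 ^ 4096 - 1

theorem testBit_full {j : ℕ} (h : j < 4096) : full.testBit j = true := by
  unfold full
  rw [Nat.testBit_two_pow_sub_one]; simpa using h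

/-- The checker.  `go f true d M s _ _ ext` reads one tree from the stream `s` (Maker to move, owning
the mask `M`, at most `d` moves) and returns `(zone, 0, rest)`;  `go f false d M s i u ext` reads
trees up to the end marker and returns (`i` ∧ all zones, `u` ∨ all zones, rest). -/
def go (ext : List (ℕ × ℕ × ℕ)) : ℕ → Bool → ℕ → ℕ → ℕ → ℕ → ℕ → Option (ℕ × ℕ × ℕ)
  | 0, _, _, _, _, _, _ => none
  | f + 1, true, d, M, s, _, _ =>
    if s % 8192 = 8191 then
      match ext[(s / 8192) % 8192]? with
      | none => none
      | some (d0, M0, z0) =>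
        if d0 ≤ d ∧ M0 = M ∧ z0 ≤ full then some (z0, 0, s / 8192 / 8192) else none
    else
      match d with
      | 0 => none
      | d' + 1 =>
        if s % 8192 = 0 ∨ 4096 < s % 8192 then none
        else if M.testBit (s % 8192 - 1) = true then none
        else if 4096 < (s / 8192) % 8192 then
          if leafOK (M ||| (1 <<< (s % 8192 - 1))) ((s / 8192 / 8192) % 8192)
              ((s / 8192) % 8192 - 4097) = true then
            some (1 <<< (s % 8192 - 1), 0, s / 8192 / 8192 / 8192)
          else none
        else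
          match go ext f false d' (M ||| (1 <<< (s % 8192 - 1))) (s / 8192) full 0 with
          | none => none
          | some (i, u, r) => if i = 0 then some (u ||| (1 <<< (s % 8192 - 1)), 0, r) else none
  | f + 1, false, d, M, s, i, u =>
    if s % 8192 = 0 then some (i, u, s / 8192)
    else
      match go ext f true d M s 0 0 with
      | none => none
      | some (z, _, r) => go ext f false d M r (i &&& z) (u ||| z)

/-- Maker (to move, owning `M`) wins within `d` moves against every Breaker set missing `z`. -/
def WinsZ (d M z : ℕ) : Prop := ∀ B : Set Cell, (∀ c ∈ cells z, c ∉ B) → Win d (cells M) B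

theorem goodOf_mono {W W' : Set Cell → Set Cell → Prop} (h : ∀ M B, W M B → W' M B)
    {M B : Set Cell} {m : Cell} (hg : GoodOf W M B m) : GoodOf W' M B m :=
  ⟨hg.1, hg.2.1, hg.2.2.imp id fun h1 r hr1 hr2 => h _ _ (h1 r hr1 hr2)⟩

theorem win_succ_mono : ∀ (k : ℕ) (M B : Set Cell), Win k M B → Win (k + 1) M B
  | 0, _, _, h => h.elim
  | k + 1, _, _, ⟨m, hm⟩ => ⟨m, goodOf_mono (win_succ_mono k) hm⟩

theorem win_mono {k k' : ℕ} (h : k ≤ k') (M B : Set Cell) (hw : Win k M B) : Win k' M B := by
  induction h with
  | refl => exact hw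
  | step _ ih => exact win_succ_mono _ _ _ ih

/-- zones live in the window. -/
def Bdd (z : ℕ) : Prop := ∀ j, z.testBit j = true → j < 4096

theorem bdd_of_le_full {z : ℕ} (h : z ≤ full) : Bdd z := by
  intro j hj
  by_contra hlt
  have h1 : z < 2 ^ j := by
    have h2 : (2 : ℕ) ^ 4096 ≤ 2 ^ j := Nat.pow_le_pow_right (by norm_num) (by omega)
    have h3 : 0 < 2 ^ 4096 := by positivity
    unfold full at h
    omega
  rw [Nat.testBit_eq_false_of_lt h1] at hj
  exact Bool.false_ne_true hj

/-- the specification of the kid loop. -/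
def KidsSpec (d M i u i' u' : ℕ) : Prop :=
  (∀ j, u.testBit j = true → u'.testBit j = true) ∧
  (∀ j, u'.testBit j = true → u.testBit j = true ∨ j < 4096) ∧
  (∀ j, i'.testBit j = false → i.testBit j = false ∨
    ∃ z, WinsZ d M z ∧ z.testBit j = false ∧ (∀ j', z.testBit j' = true → u'.testBit j' = true) ∧
      Bdd z)

theorem winsZ_node {d M m u : ℕ} (hm : M.testBit m = false)
    (hk : KidsSpec d (M ||| (1 <<< m)) full 0 0 u) : WinsZ (d + 1) M (u ||| (1 <<< m)) := by
  intro B hB
  have hzone : ∀ j, u.testBit j = true → cell j ∉ B := fun j hj =>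
    hB _ (cell_mem_cells.mpr (by simp [Nat.testBit_lor, hj]))
  refine ⟨cell m, ?_, ?_, Or.inr ?_⟩
  · intro h; rw [cell_mem_cells, hm] at h; exact Bool.false_ne_true h
  · exact hB _ (cell_mem_cells.mpr (by simp [Nat.testBit_lor, testBit_bit]))
  · intro r _ hrB
    -- a kid whose zone misses `r`
    have key : ∃ z, WinsZ d (M ||| (1 <<< m)) z ∧ r ∉ cells z ∧
        (∀ j', z.testBit j' = true → u.testBit j' = true) := by
      by_cases hr : ∃ j, j < 4096 ∧ r = cell j
      · obtain ⟨j, hj, rfl⟩ := hr
        rcases hk.2.2 j (by simp) with h | ⟨z, hz, hzj, hzu, _⟩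
        · rw [testBit_full hj] at h; exact absurd h (by simp)
        · refine ⟨z, hz, ?_, hzu⟩
          intro h; rw [cell_mem_cells, hzj] at h; exact Bool.false_ne_true h
      · rcases hk.2.2 0 (by simp) with h | ⟨z, hz, _, hzu, hb⟩
        · rw [testBit_full (by norm_num)] at h; exact absurd h (by simp)
        · refine ⟨z, hz, ?_, hzu⟩
          rintro ⟨j, hj, rfl⟩
          exact hr ⟨j, hb j hj, rfl⟩
    obtain ⟨z, hz, hrz, hzu⟩ := key
    have := hz (insert r B) (by
      rintro c hc (rfl | hcB)
      · exact hrz hc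
      · obtain ⟨j, hj, rfl⟩ := hc
        exact hzone j (hzu j hj) hcB)
    rwa [cells_lor_bit] at this

theorem winsZ_leaf {d M m : ℕ} (hm : M.testBit m = false)
    (hc : ContainsCopy (cells (M ||| (1 <<< m)))) : WinsZ (d + 1) M (1 <<< m) := by
  intro B hB
  refine ⟨cell m, ?_, ?_, Or.inl ?_⟩
  · intro h; rw [cell_mem_cells, hm] at h; exact Bool.false_ne_true h
  · exact hB _ (cell_mem_cells.mpr (by simp [testBit_bit]))
  · rwa [cells_lor_bit] at hc

theorem ext_case (ext : List (ℕ × ℕ × ℕ)) (hext : ∀ e ∈ ext, WinsZ e.1 e.2.1 e.2.2)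
    {k d M r0 z x r : ℕ}
    (h : (match ext[k]? with
      | none => none
      | some (d0, M0, z0) =>
        if d0 ≤ d ∧ M0 = M ∧ z0 ≤ full then some (z0, 0, r0) else none) = some (z, x, r)) :
    WinsZ d M z ∧ Bdd z := by
  cases he : ext[k]? with
  | none => rw [he] at h; simp at h
  | some e =>
    obtain ⟨d0, M0, z0⟩ := e
    rw [he] at h
    simp only at h
    split_ifs at h with h2
    obtain ⟨h2a, h2b, h2c⟩ := h2
    simp only [Option.some.injEq, Prod.mk.injEq] at h
    obtain ⟨rfl, -, -⟩ := h
    subst h2b
    have := hext _ (List.mem_of_getElem? he)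
    exact ⟨fun B hB => win_mono h2a _ _ (this B hB), bdd_of_le_full h2c⟩

theorem go_sound (ext : List (ℕ × ℕ × ℕ)) (hext : ∀ e ∈ ext, WinsZ e.1 e.2.1 e.2.2) :
    ∀ f : ℕ,
      (∀ d M s a b z x r, go ext f true d M s a b = some (z, x, r) → WinsZ d M z ∧ Bdd z) ∧
      (∀ d M s i u i' u' r, go ext f false d M s i u = some (i', u', r) →
        KidsSpec d M i u i' u') := by
  intro f
  induction f with
  | zero =>
    constructor
    · intro d M s a b z x r h; simp [go] at h
    · intro d M s i u i' u' r h; simp [go] at h
  | succ f ih =>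
    constructor
    · intro d M s a b z x r h
      cases d with
      | zero =>
        rw [go] at h
        split_ifs at h with h1
        exact ext_case ext hext h
      | succ d' =>
        rw [go] at h
        split_ifs at h with h1 h2 h3 h4 h5
        · exact ext_case ext hext h
        · -- leaf
          simp only [Option.some.injEq, Prod.mk.injEq] at h
          obtain ⟨rfl, -, -⟩ := h
          have hm : M.testBit (s % 8192 - 1) = false := by simpa using h3
          refine ⟨winsZ_leaf hm (leafOK_sound h5), ?_⟩
          intro j hj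
          rw [testBit_bit] at hj
          have : s % 8192 - 1 = j := by simpa using hj
          omega
        · -- internal node
          cases hk : go ext f false d' (M ||| (1 <<< (s % 8192 - 1))) (s / 8192) full 0 with
          | none => rw [hk] at h; simp at h
          | some e =>
            obtain ⟨i, u, r'⟩ := e
            rw [hk] at h
            simp only at h
            split_ifs at h with h6
            simp only [Option.some.injEq, Prod.mk.injEq] at h
            obtain ⟨rfl, -, -⟩ := h
            subst h6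
            have hm : M.testBit (s % 8192 - 1) = false := by simpa using h3
            have hs := ih.2 _ _ _ _ _ _ _ _ hk
            refine ⟨winsZ_node hm hs, ?_⟩
            intro j hj
            rw [Nat.testBit_lor, Bool.or_eq_true, testBit_bit] at hj
            rcases hj with hj | hj
            · rcases hs.2.1 j hj with h7 | h7
              · simp at h7
              · exact h7
            · have : s % 8192 - 1 = j := by simpa using hj
              omega
    · intro d M s i u i' u' r h
      rw [go] at h
      split_ifs at h with h1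
      · simp only [Option.some.injEq, Prod.mk.injEq] at h
        obtain ⟨rfl, rfl, -⟩ := h
        exact ⟨fun j hj => hj, fun j hj => Or.inl hj, fun j hj => Or.inl hj⟩
      · cases hk : go ext f true d M s 0 0 with
        | none => rw [hk] at h; simp at h
        | some e =>
          obtain ⟨z, x, r'⟩ := e
          rw [hk] at h
          simp only at h
          obtain ⟨hz, hzb⟩ := ih.1 _ _ _ _ _ _ _ _ hk
          obtain ⟨k1, k2, k3⟩ := ih.2 _ _ _ _ _ _ _ _ h
          refine ⟨fun j hj => k1 j (by simp [Nat.testBit_lor, hj]), fun j hj => ?_, fun j hj => ?_⟩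
          · rcases k2 j hj with h7 | h7
            · rw [Nat.testBit_lor, Bool.or_eq_true] at h7
              rcases h7 with h7 | h7
              · exact Or.inl h7
              · exact Or.inr (hzb j h7)
            · exact Or.inr h7
          · rcases k3 j hj with h7 | h7
            · rw [Nat.testBit_land, Bool.and_eq_false_iff] at h7
              rcases h7 with h7 | h7
              · exact Or.inl h7
              · exact Or.inr ⟨z, hz, h7, fun j' hj' => k1 j' (by simp [Nat.testBit_lor, hj']), hzb⟩
            · exact Or.inr h7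

/-- Boolean form used for the certificates: the stream `s` proves `WinsZ d M z`. -/
def chk (ext : List (ℕ × ℕ × ℕ)) (f d M s z : ℕ) : Bool :=
  match go ext f true d M s 0 0 with
  | none => false
  | some (z', _, _) => z' == z

theorem winsZ_of_chk {ext : List (ℕ × ℕ × ℕ)} (hext : ∀ e ∈ ext, WinsZ e.1 e.2.1 e.2.2)
    {f d M s z : ℕ} (h : chk ext f d M s z = true) : WinsZ d M z := by
  unfold chk at h
  cases hk : go ext f true d M s 0 0 with
  | none => rw [hk] at h; simp at h
  | some e =>
    obtain ⟨z', x, r⟩ := e
    rw [hk] at h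
    simp only [beq_iff_eq] at h
    subst h
    exact ((go_sound ext hext f).1 _ _ _ _ _ _ _ _ hk).1

theorem win_of_winsZ {z : ℕ} (h : WinsZ 21 0 z) : Win 21 ∅ ∅ := by
  have := h ∅ (fun _ _ => Set.notMem_empty _)
  rwa [cells_zero] at this

end Crest.Agent.S0047C
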