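import Mathlib
import Crest.Agent.S0047_Fast

/-!
Row 35 (S0047, Snaky): symmetry.  `WinsZ d M z` is transported along the eight symmetries
`(x, y) ↦ (±x + a, ±y + b)` / `(±y + a, ±x + b)` (here `a, b ∈ {0, c2}`), the images of the bit
masks being verified by a kernel-evaluable function.
-/

set_option autoImplicit false

namespace Crest.Agent.S0047S

open Crest.Agent.S0047G Crest.Agent.S0047C Crest.Agent.S0047F Crest.CombinatoricsR.PolyominoGame

/-- a symmetry of the game. -/
structure IsSym (g : Cell → Cell) : Prop where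
  bij : Function.Bijective g
  copy : ∀ X : Set Cell, ContainsCopy X → ContainsCopy (g '' X)

theorem win_image {g : Cell → Cell} (hg : IsSym g) :
    ∀ (k : ℕ) (M B : Set Cell), Win k M B → Win k (g '' M) (g '' B)
  | 0, _, _, h => h.elim
  | k + 1, M, B, ⟨m, hm1, hm2, hm3⟩ => by
    refine ⟨g m, ?_, ?_, ?_⟩
    · rwa [hg.bij.injective.mem_set_image]
    · rwa [hg.bij.injective.mem_set_image]
    · rcases hm3 with h | h
      · left
        rw [← Set.image_insert_eq]
        exact hg.copy _ h
      · right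
        intro r' hr1 hr2
        obtain ⟨r, rfl⟩ := hg.bij.surjective r'
        rw [← Set.image_insert_eq, hg.bij.injective.mem_set_image] at hr1
        rw [hg.bij.injective.mem_set_image] at hr2
        rw [← Set.image_insert_eq, ← Set.image_insert_eq]
        exact win_image hg k _ _ (h r hr1 hr2)

theorem winsZ_image {g : Cell → Cell} (hg : IsSym g) {d M z M' z' : ℕ} (h : WinsZ d M z)
    (hM : cells M' = g '' cells M) (hz : cells z' = g '' cells z) : WinsZ d M' z' := by
  intro B' hB'
  have h1 : Win d (cells M) (g ⁻¹' B') := h _ fun c hc hcB =>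
    hB' (g c) (by rw [hz]; exact Set.mem_image_of_mem g hc) hcB
  have h2 := win_image hg d _ _ h1
  rwa [Set.image_preimage_eq _ hg.bij.surjective, ← hM] at h2

/-- identity or reflection `u ↦ c - u`. -/
def fl (f : Bool) (c u : ℤ) : ℤ := if f = true then c - u else u

/-- its sign. -/
def sg (f : Bool) : ℤ := if f = true then -1 else 1

theorem fl_fl (f : Bool) (c u : ℤ) : fl f c (fl f c u) = u := by
  cases f <;> simp [fl]

theorem fl_add (f : Bool) (c t e u : ℤ) : fl f c (t + e * u) = fl f c t + (sg f * e) * u := by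
  cases f <;> simp [fl, sg] <;> ring

theorem sg_mul (f : Bool) {e : ℤ} (he : e = 1 ∨ e = -1) : sg f * e = 1 ∨ sg f * e = -1 := by
  cases f <;> rcases he with rfl | rfl <;> simp [sg]

/-- the eight symmetries. -/
def gmap (sw fx fy : Bool) (c : ℤ) (p : Cell) : Cell :=
  if sw = true then (fl fx c p.2, fl fy c p.1) else (fl fx c p.1, fl fy c p.2)

theorem gmap_bij (sw fx fy : Bool) (c : ℤ) : Function.Bijective (gmap sw fx fy c) := by
  cases sw
  · refine Function.bijective_iff_has_inverse.mpr ⟨gmap false fx fy c, ?_, ?_⟩ <;>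
      intro p <;> simp [gmap, fl_fl]
  · refine Function.bijective_iff_has_inverse.mpr ⟨gmap true fy fx c, ?_, ?_⟩ <;>
      intro p <;> simp [gmap, fl_fl]

theorem gmap_sym (sw fx fy : Bool) (c : ℤ) : IsSym (gmap sw fx fy c) := by
  refine ⟨gmap_bij sw fx fy c, ?_⟩
  rintro X ⟨t, e1, e2, h1, h2, h3⟩
  cases sw
  · refine ⟨(fl fx c t.1, fl fy c t.2), sg fx * e1, sg fy * e2, sg_mul fx h1, sg_mul fy h2, ?_⟩
    rcases h3 with h3 | h3
    · left
      intro p hp
      refine ⟨_, h3 p hp, ?_⟩
      simp [gmap, fl_add]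
    · right
      intro p hp
      refine ⟨_, h3 p hp, ?_⟩
      simp [gmap, fl_add]
  · refine ⟨(fl fx c t.2, fl fy c t.1), sg fx * e2, sg fy * e1, sg_mul fx h2, sg_mul fy h1, ?_⟩
    rcases h3 with h3 | h3
    · right
      intro p hp
      refine ⟨_, h3 p hp, ?_⟩
      simp [gmap, fl_add]
    · left
      intro p hp
      refine ⟨_, h3 p hp, ?_⟩
      simp [gmap, fl_add]

/-! ### images of masks -/

/-- `flN f c u k`: continue with the image of the coordinate `u` (fails if it is negative). -/
noncomputable def flN (f : Bool) (c u : ℕ) (k : ℕ → Bool) : Bool :=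
  iteB f (iteB (Nat.ble u c) (k (Nat.sub c u)) false) (k u)

theorem flN_sound {f : Bool} {c u : ℕ} {k : ℕ → Bool} (h : flN f c u k = true) :
    ∃ u' : ℕ, (u' : ℤ) = fl f c u ∧ k u' = true := by
  unfold flN at h
  cases f
  · exact ⟨u, by simp [fl], h⟩
  · simp only [iteB_true] at h
    obtain ⟨h1, h2⟩ := iteB_ff h
    rw [Nat.ble_eq] at h1
    refine ⟨c - u, ?_, h2⟩
    simp [fl, Nat.cast_sub h1]

/-- continue with the code of the image of the cell coded `i`. -/
noncomputable def codeN (sw fx fy : Bool) (c i : ℕ) (k : ℕ → Bool) : Bool :=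
  flN fx c (@Bool.rec (fun _ => ℕ) (Nat.mod i 64) (Nat.div i 64) sw) fun x' =>
    flN fy c (@Bool.rec (fun _ => ℕ) (Nat.div i 64) (Nat.mod i 64) sw) fun y' =>
      iteB (Nat.ble x' 63) (k (Nat.add x' (Nat.mul 64 y'))) false

theorem codeN_sound {sw fx fy : Bool} {c i : ℕ} {k : ℕ → Bool}
    (h : codeN sw fx fy c i k = true) :
    ∃ i' : ℕ, cell i' = gmap sw fx fy c (cell i) ∧ k i' = true := by
  unfold codeN at h
  obtain ⟨x', hx, h⟩ := flN_sound h
  obtain ⟨y', hy, h⟩ := flN_sound h
  obtain ⟨h1, h⟩ := iteB_ff h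
  rw [Nat.ble_eq] at h1
  refine ⟨_, ?_, h⟩
  have e1 : (Nat.add x' (Nat.mul 64 y')) % 64 = x' := by
    show (x' + 64 * y') % 64 = x'
    omega
  have e2 : (Nat.add x' (Nat.mul 64 y')) / 64 = y' := by
    show (x' + 64 * y') / 64 = y'
    omega
  cases sw
  · simp only [cell, gmap, e1, e2, hx, hy]
    rfl
  · simp only [cell, gmap, e1, e2, hx, hy]
    rfl

/-- `imgF … fuel s A acc T`: the image of `A`, joined with `acc`, is `T`; the stream `s` (12 bits per
entry) lists the bits of `A`. -/
noncomputable def imgF (sw fx fy : Bool) (c : ℕ) : ℕ → ℕ → ℕ → ℕ → ℕ → Bool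
  | 0 => fun _ _ _ _ => false
  | f + 1 => fun s A acc T =>
    iteB (Nat.beq A 0) (Nat.beq acc T)
      (iteB (Nat.beq (Nat.land A (Nat.shiftLeft 1 (Nat.mod s 4096))) 0) false
        (codeN sw fx fy c (Nat.mod s 4096) fun i' =>
          imgF sw fx fy c f (Nat.div s 4096) (Nat.xor A (Nat.shiftLeft 1 (Nat.mod s 4096)))
            (Nat.lor acc (Nat.shiftLeft 1 i')) T))

theorem cells_xor_bit {A i : ℕ} (h : A.testBit i = true) :
    cells A = insert (cell i) (cells (A ^^^ (1 <<< i))) := by
  ext c
  simp only [cells, Set.mem_insert_iff, Nat.testBit_xor, testBit_bit]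
  constructor
  · rintro ⟨j, hj, rfl⟩
    by_cases hij : i = j
    · left; rw [hij]
    · right; exact ⟨j, by simp [hj, hij], rfl⟩
  · rintro (rfl | ⟨j, hj, rfl⟩)
    · exact ⟨i, h, rfl⟩
    · refine ⟨j, ?_, rfl⟩
      by_cases hij : i = j
      · subst hij; exact h
      · simpa [hij] using hj

theorem imgF_sound (sw fx fy : Bool) (c : ℕ) : ∀ (f s A acc T : ℕ),
    imgF sw fx fy c f s A acc T = true → cells T = cells acc ∪ gmap sw fx fy c '' cells A
  | 0, _, _, _, _, h => by simp [imgF] at h
  | f + 1, s, A, acc, T, h => by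
    rw [imgF] at h
    beta_reduce at h
    cases hA : Nat.beq A 0 with
    | true =>
      rw [hA] at h
      simp only [iteB_true] at h
      rw [Nat.beq_eq] at hA h
      subst hA; subst h
      simp [cells_zero]
    | false =>
      rw [hA] at h
      simp only [iteB_false] at h
      obtain ⟨h1, h⟩ := iteB_tf h
      obtain ⟨i', hi', h⟩ := codeN_sound h
      have ih := imgF_sound sw fx fy c f _ _ _ _ h
      simp only [r_lor, r_shl] at ih
      generalize Nat.mod s 4096 = l at *
      have hbit : A.testBit l = true := by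
        by_contra hb
        have hb' : A.testBit l = false := by simpa using hb
        have : A &&& (1 <<< l) = 0 := by
          apply Nat.eq_of_testBit_eq
          intro j
          rw [Nat.testBit_land, testBit_bit]
          by_cases hj : l = j
          · subst hj; simp [hb']
          · simp [hj]
        have h2 : Nat.beq (Nat.land A (Nat.shiftLeft 1 l)) 0 = true := by
          rw [Nat.beq_eq]; exact this
        rw [h2] at h1
        exact Bool.noConfusion h1
      rw [ih, cells_lor_bit, cells_xor_bit hbit, Set.image_insert_eq, hi']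
      have : Nat.xor A (1 <<< l) = A ^^^ (1 <<< l) := rfl
      rw [this]
      ext x
      simp only [Set.mem_union, Set.mem_insert_iff]
      tauto

theorem winsZ_img (sw fx fy : Bool) (c f1 s1 f2 s2 : ℕ) {d M z M' z' : ℕ} (h : WinsZ d M z)
    (hM : imgF sw fx fy c f1 s1 M 0 M' = true) (hz : imgF sw fx fy c f2 s2 z 0 z' = true) :
    WinsZ d M' z' := by
  have e1 := imgF_sound sw fx fy c _ _ _ _ _ hM
  have e2 := imgF_sound sw fx fy c _ _ _ _ _ hz
  rw [cells_zero, Set.empty_union] at e1 e2
  exact winsZ_image (gmap_sym sw fx fy c) h e1 e2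

end Crest.Agent.S0047S
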