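import Crest.Agent.S0066_Far1

/-! # S0066, package F2 : end blocks, disjointness of the regions, farness -/

set_option autoImplicit false

namespace Crest.Agent.S0066

variable {h K F : ℕ}

theorem F2_nd_zero (z : Fin (2 ^ h)) : nd h 0 z = 0 := by
  unfold nd sz
  exact Nat.div_eq_of_lt (by simp)

theorem F2_Drel_zero (z w : Fin (2 ^ h)) : Drel h 0 z w := by
  unfold Drel
  rw [F2_nd_zero, F2_nd_zero]
  norm_num

theorem F2_lv_start : lv K 0 0 = 0 := by
  simp [lv, lev]

theorem F2_lev_end : lev K (2 * K + 1) = 0 := by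
  unfold lev
  rw [if_neg (by omega)]
  omega

theorem F2_lv_end : lv K (2 * K + 1) (2 * K + 1) = 0 := by
  simp [lv, F2_lev_end]

theorem F2_A_start (z w : Fin (2 ^ h)) :
    Amat (Line.main (ltr K 0, z) : Line h K F) (Line.main (ltr K 0, w)) = true := by
  rw [Amat_eq_true_iff, AP_main_main]
  unfold Mmain
  simp only [ltr_val (K := K) (m := 0) (by omega)]
  have hp : ∀ x : Fin (2 ^ h), pot h K 0 x = 2 * 2 ^ h := by
    intro x
    unfold pot hi lo
    rw [if_pos (by omega)]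
    have : lev K 0 = 0 := by simp [lev]
    rw [this, F2_nd_zero]
    simp [sz]
  rw [hp, hp]
  have : 0 < 2 ^ h := by positivity
  omega

theorem F2_A_end (z w : Fin (2 ^ h)) :
    Amat (Line.main (ltr K (2 * K + 1), z) : Line h K F) (Line.main (ltr K (2 * K + 1), w)) =
      false := by
  rw [Amat_eq_false_iff, AP_main_main]
  unfold Mmain
  simp only [ltr_val (K := K) (m := 2 * K + 1) le_rfl]
  have hp : ∀ x : Fin (2 ^ h), pot h K (2 * K + 1) x = 1 := by
    intro x
    unfold pot lo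
    rw [if_neg (by omega), F2_lev_end, F2_nd_zero]
    simp
  rw [hp, hp]
  have : 0 < 2 ^ h := by positivity
  omega

/-- the block (letter 0) × (letter 0) is all ones in `Amat` -/
theorem QQ_start (B : Line h K F → Line h K F → Bool) :
    (2 ^ h) ^ 2 ≤ QQ B 0 0 +
      ∑ z, ∑ w, fl B (Line.main (ltr K 0, z)) (Line.main (ltr K 0, w)) := by
  unfold QQ
  rw [F2_lv_start, pow_zero, one_mul, ← Finset.sum_add_distrib]
  have h1 : (2 ^ h) ^ 2 = ∑ _z : Fin (2 ^ h), ∑ _w : Fin (2 ^ h), 1 := by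
    simp [sq]
  rw [h1]
  refine Finset.sum_le_sum fun z _ => ?_
  rw [← Finset.sum_add_distrib]
  refine Finset.sum_le_sum fun w _ => ?_
  rw [if_pos (F2_Drel_zero z w)]
  unfold bb fl
  rw [F2_A_start]
  by_cases hB : B (Line.main (ltr K 0, z)) (Line.main (ltr K 0, w)) = true
  · rw [if_pos hB]; omega
  · rw [if_neg hB, if_pos (fun hh => hB hh.symm)]

/-- the block (letter 2K+1) × (letter 2K+1) is all zeros in `Amat` -/
theorem QQ_end (B : Line h K F → Line h K F → Bool) :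
    QQ B (2 * K + 1) (2 * K + 1) ≤
      ∑ z, ∑ w, fl B (Line.main (ltr K (2 * K + 1), z)) (Line.main (ltr K (2 * K + 1), w)) := by
  unfold QQ
  rw [F2_lv_end, pow_zero, one_mul]
  refine Finset.sum_le_sum fun z _ => Finset.sum_le_sum fun w _ => ?_
  rw [if_pos (F2_Drel_zero z w)]
  unfold bb fl
  rw [F2_A_end]
  by_cases hB : B (Line.main (ltr K (2 * K + 1), z)) (Line.main (ltr K (2 * K + 1), w)) = true
  · rw [if_pos hB, if_pos (by rw [hB]; decide)]
  · rw [if_neg hB]; omega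

theorem F2_blocks (φ : MainL h K → MainL h K → ℕ) (a b : Fin (2 * K + 2)) (hab : a ≠ b) :
    (∑ z, ∑ w, φ (a, z) (a, w)) + (∑ z, ∑ w, φ (b, z) (b, w)) ≤ ∑ p, ∑ q, φ p q := by
  rw [Fintype.sum_prod_type]
  have h1 : ∀ m : Fin (2 * K + 2), (∑ z, ∑ w, φ (m, z) (m, w)) ≤ ∑ z, ∑ q, φ (m, z) q := by
    intro m
    refine Finset.sum_le_sum fun z _ => ?_
    rw [Fintype.sum_prod_type]
    exact Finset.single_le_sum (f := fun m' => ∑ w, φ (m, z) (m', w)) (fun _ _ => Nat.zero_le _)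
      (Finset.mem_univ m)
  have h2 : (∑ m ∈ ({a, b} : Finset (Fin (2 * K + 2))), ∑ z, ∑ q, φ (m, z) q) ≤
      ∑ m, ∑ z, ∑ q, φ (m, z) q :=
    Finset.sum_le_sum_of_subset (Finset.subset_univ _)
  rw [Finset.sum_pair hab] at h2
  have := h1 a
  have := h1 b
  omega

theorem total_ge (B : Line h K F → Line h K F → Bool) :
    (∑ z, ∑ w, fl B (Line.main (ltr K 0, z)) (Line.main (ltr K 0, w))) +
      (∑ z, ∑ w, fl B (Line.main (ltr K (2 * K + 1), z)) (Line.main (ltr K (2 * K + 1), w))) +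
      ∑ τ : Link K, FL B τ ≤ ∑ r, ∑ c, fl B r c := by
  have hab : ltr K 0 ≠ ltr K (2 * K + 1) := by
    intro hh
    have := congrArg Fin.val hh
    rw [ltr_val (by omega), ltr_val le_rfl] at this
    omega
  have hbl := F2_blocks (fun p q => fl B (Line.main p) (Line.main q)) _ _ hab
  -- expand the total sum
  have hrow : ∀ r : Line h K F, ∑ c, fl B r c =
      ∑ q, fl B r (Line.main q) + ∑ τ, ∑ t, ∑ v, fl B r (Line.aux τ t v) +
        ∑ f, fl B r (Line.fill f) := fun r => sum_line _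
  rw [sum_line]
  simp only [hrow, Finset.sum_add_distrib]
  -- the three parts of FL
  have hFL : ∑ τ : Link K, FL B τ =
      (∑ τ : Link K, ∑ r : MainL h K, ∑ v, XX B τ r v) +
      (∑ τ : Link K, ∑ u, ∑ c : MainL h K, YY B τ u c) + ∑ τ : Link K, ∑ u, ∑ v, WW B τ u v := by
    simp only [FL, Finset.sum_add_distrib]
  have ha : (∑ τ : Link K, ∑ r : MainL h K, ∑ v, XX B τ r v) =
      ∑ p : MainL h K, ∑ τ : Link K, ∑ t, ∑ v, fl B (Line.main p) (Line.aux τ t v) := by
    rw [Finset.sum_comm]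
    exact Finset.sum_congr rfl fun p _ => Finset.sum_congr rfl fun τ _ => Finset.sum_comm
  have hb : (∑ τ : Link K, ∑ u, ∑ c : MainL h K, YY B τ u c) =
      ∑ τ : Link K, ∑ t, ∑ u, ∑ q : MainL h K, fl B (Line.aux τ t u) (Line.main q) := by
    refine Finset.sum_congr rfl fun τ _ => ?_
    calc (∑ u, ∑ c : MainL h K, YY B τ u c)
        = ∑ u, ∑ t, ∑ q : MainL h K, fl B (Line.aux τ t u) (Line.main q) :=
          Finset.sum_congr rfl fun u _ => Finset.sum_comm
      _ = ∑ t, ∑ u, ∑ q : MainL h K, fl B (Line.aux τ t u) (Line.main q) := Finset.sum_comm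
  have hc : (∑ τ : Link K, ∑ u, ∑ v, WW B τ u v) ≤
      ∑ τ : Link K, ∑ t, ∑ u, ∑ τ' : Link K, ∑ t', ∑ v,
        fl B (Line.aux τ t u) (Line.aux τ' t' v) := by
    refine Finset.sum_le_sum fun τ _ => ?_
    calc (∑ u, ∑ v, WW B τ u v)
        = ∑ u, ∑ t, ∑ v, ∑ t', fl B (Line.aux τ t u) (Line.aux τ t' v) :=
          Finset.sum_congr rfl fun u _ => Finset.sum_comm
      _ = ∑ t, ∑ u, ∑ v, ∑ t', fl B (Line.aux τ t u) (Line.aux τ t' v) := Finset.sum_comm
      _ = ∑ t, ∑ u, ∑ t', ∑ v, fl B (Line.aux τ t u) (Line.aux τ t' v) :=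
          Finset.sum_congr rfl fun t _ => Finset.sum_congr rfl fun u _ => Finset.sum_comm
      _ ≤ ∑ t, ∑ u, ∑ τ' : Link K, ∑ t', ∑ v, fl B (Line.aux τ t u) (Line.aux τ' t' v) :=
          Finset.sum_le_sum fun t _ => Finset.sum_le_sum fun u _ =>
            Finset.single_le_sum
              (f := fun τ' : Link K => ∑ t', ∑ v, fl B (Line.aux τ t u) (Line.aux τ' t' v))
              (fun _ _ => Nat.zero_le _) (Finset.mem_univ τ)
  rw [hFL, ha, hb]
  omega

theorem far (hK : K ≤ h) (B : Line h K F → Line h K F → Bool) (hB : ¬ HasCopy B) :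
    (2 ^ h) ^ 2 ≤ (Finset.univ.filter
      (fun rc : Line h K F × Line h K F => Amat rc.1 rc.2 ≠ B rc.1 rc.2)).card := by
  have h1 := QQ_start B
  have h2 := QQ_end B
  have h3 := chain hK B hB
  have h4 := total_ge B
  have h5 : (Finset.univ.filter
      (fun rc : Line h K F × Line h K F => Amat rc.1 rc.2 ≠ B rc.1 rc.2)).card =
      ∑ r, ∑ c, fl B r c := by
    rw [Finset.card_filter, Fintype.sum_prod_type]
    rfl
  rw [h5]
  omega

end Crest.Agent.S0066
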