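import Crest.Agent.S0066_Count

/-! # S0066, package R2 : counting the copies -/

set_option autoImplicit false

namespace Crest.Agent.S0066

variable {h K F : ℕ}

/-- the triples of lines which can start a copy -/
def R2V (r c c' : Line h K F) : Prop :=
  ∃ p q q', r = Line.main p ∧ c = Line.main q ∧ c' = Line.main q' ∧ VTriple p q q'

theorem R2_card_V (hK : K ≤ h) :
    Nat.card {t : Line h K F × Line h K F × Line h K F // R2V t.1 t.2.1 t.2.2} ≤
      2 ^ h * sz h K * sz h K := by
  classical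
  refine le_trans ?_ (card_VTriple (h := h) (K := K) hK)
  let ψ : {t : MainL h K × MainL h K × MainL h K // VTriple t.1 t.2.1 t.2.2} →
      {t : Line h K F × Line h K F × Line h K F // R2V t.1 t.2.1 t.2.2} :=
    fun t => ⟨(Line.main t.1.1, Line.main t.1.2.1, Line.main t.1.2.2),
      ⟨t.1.1, t.1.2.1, t.1.2.2, rfl, rfl, rfl, t.2⟩⟩
  have hψ : Function.Surjective ψ := by
    rintro ⟨⟨r, c, c'⟩, p, q, q', h1, h2, h3, hv⟩
    simp only at h1 h2 h3
    subst h1 h2 h3
    exact ⟨⟨(p, q, q'), hv⟩, rfl⟩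
  exact Nat.card_le_card_of_surjective ψ hψ

/-- By `copy_classify` the copies lie in the union of two sets, each bounded by `card_pairs_le`
(with `V r c c' := ∃ p q q', r = main p ∧ c = main q ∧ c' = main q' ∧ VTriple p q q'`, whose
cardinality is bounded through `card_VTriple`); the second set is the first one with `f`, `g` swapped. -/
theorem rare (hK : K ≤ h) :
    Nat.card {fg : (Fin 66 → Line h K F) × (Fin 66 → Line h K F) //
      StrictMono fg.1 ∧ StrictMono fg.2 ∧ ∀ i j, Amat (fg.1 i) (fg.2 j) = Hpat i j} ≤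
    2 * (2 ^ h * sz h K * sz h K) * Fintype.card (Line h K F) ^ 129 := by
  classical
  have hb := card_pairs_le (Λ := Line h K F) R2V _ (R2_card_V (F := F) hK)
  set T := {fg : (Fin 66 → Line h K F) × (Fin 66 → Line h K F) //
    R2V (fg.1 0) (fg.2 0) (fg.2 1)} with hT
  let φ : {fg : (Fin 66 → Line h K F) × (Fin 66 → Line h K F) //
      StrictMono fg.1 ∧ StrictMono fg.2 ∧ ∀ i j, Amat (fg.1 i) (fg.2 j) = Hpat i j} → T ⊕ T :=
    fun x =>
      if hx : R2V (x.1.1 0) (x.1.2 0) (x.1.2 1) then Sum.inl ⟨x.1, hx⟩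
      else Sum.inr ⟨(x.1.2, x.1.1),
        (copy_classify hK x.1.1 x.1.2 x.2.1 x.2.2.1 x.2.2.2).resolve_left hx⟩
  have hφ : Function.Injective φ := by
    rintro ⟨⟨f, g⟩, hx⟩ ⟨⟨f2, g2⟩, hy⟩ heq
    simp only [φ] at heq
    split_ifs at heq with h1 h2 h2
    · have h3 := congrArg Subtype.val (Sum.inl.inj heq)
      exact Subtype.ext h3
    · have h3 := congrArg Subtype.val (Sum.inr.inj heq)
      simp only [Prod.mk.injEq] at h3
      exact Subtype.ext (Prod.ext h3.2 h3.1)
  have hle := Nat.card_le_card_of_injective φ hφ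
  rw [Nat.card_sum] at hle
  calc _ ≤ Nat.card T + Nat.card T := hle
    _ ≤ 2 ^ h * sz h K * sz h K * Fintype.card (Line h K F) ^ 129 +
        2 ^ h * sz h K * sz h K * Fintype.card (Line h K F) ^ 129 := Nat.add_le_add hb hb
    _ = 2 * (2 ^ h * sz h K * sz h K) * Fintype.card (Line h K F) ^ 129 := by ring

end Crest.Agent.S0066
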