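import Crest.Agent.S0066_Defs
import Crest.Prelude.Def_OrderedMatrix

/-! # S0066, package T : transfer from a linearly ordered finite index type to `Fin n` -/

set_option autoImplicit false

namespace Crest.Agent.S0066

open Crest.CombinatoricsR.OrderedMatrix

/-- Use `σ := Fintype.orderIsoFinOfCardEq Λ hcard : Fin n ≃o Λ`, `A i j := A' (σ i) (σ j)`,
`B' r c := B (σ.symm r) (σ.symm c)`. -/
theorem transfer {Λ : Type} [LinearOrder Λ] [Fintype Λ] {n : ℕ} (hcard : Fintype.card Λ = n)
    (A' : Λ → Λ → Bool) :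
    ∃ A : Fin n → Fin n → Bool,
      (∀ B : Fin n → Fin n → Bool, orderedCopyCount Hpat B = 0 →
        ∃ B' : Λ → Λ → Bool, ¬ HasCopy B' ∧
          (Finset.univ.filter (fun rc : Fin n × Fin n => A rc.1 rc.2 ≠ B rc.1 rc.2)).card =
          (Finset.univ.filter (fun rc : Λ × Λ => A' rc.1 rc.2 ≠ B' rc.1 rc.2)).card) ∧
      orderedCopyCount Hpat A =
        Nat.card {fg : (Fin 66 → Λ) × (Fin 66 → Λ) //
          StrictMono fg.1 ∧ StrictMono fg.2 ∧ ∀ i j, A' (fg.1 i) (fg.2 j) = Hpat i j} := by
  classical
  let σ : Fin n ≃o Λ := Fintype.orderIsoFinOfCardEq Λ hcard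
  refine ⟨fun i j => A' (σ i) (σ j), ?_, ?_⟩
  · intro B hB
    refine ⟨fun r c => B (σ.symm r) (σ.symm c), ?_, ?_⟩
    · rintro ⟨f, g, hf, hg, h⟩
      have hpos : 0 < orderedCopyCount Hpat B := by
        unfold orderedCopyCount
        apply Fintype.card_pos_iff.mpr
        exact ⟨⟨(fun i => σ.symm (f i), fun i => σ.symm (g i)),
          σ.symm.strictMono.comp hf, σ.symm.strictMono.comp hg, h⟩⟩
      omega
    · apply Finset.card_bij (fun rc _ => (σ rc.1, σ rc.2))
      · intro rc hrc
        simp only [Finset.mem_filter, Finset.mem_univ, true_and] at hrc ⊢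
        simpa using hrc
      · intro a _ b _ hab
        simp only [Prod.mk.injEq, EmbeddingLike.apply_eq_iff_eq] at hab
        exact Prod.ext hab.1 hab.2
      · intro rc hrc
        refine ⟨(σ.symm rc.1, σ.symm rc.2), ?_, ?_⟩
        · simp only [Finset.mem_filter, Finset.mem_univ, true_and] at hrc ⊢
          simpa using hrc
        · simp
  · unfold orderedCopyCount
    rw [← Nat.card_eq_fintype_card]
    apply Nat.card_congr
    refine
      { toFun := fun x => ⟨(fun i => σ (x.1.1 i), fun i => σ (x.1.2 i)),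
          σ.strictMono.comp x.2.1, σ.strictMono.comp x.2.2.1, x.2.2.2⟩
        invFun := fun y => ⟨(fun i => σ.symm (y.1.1 i), fun i => σ.symm (y.1.2 i)),
          σ.symm.strictMono.comp y.2.1, σ.symm.strictMono.comp y.2.2.1, ?_⟩
        left_inv := ?_
        right_inv := ?_ }
    · intro i j
      simpa using y.2.2.2 i j
    · intro x
      apply Subtype.ext
      apply Prod.ext <;> funext i <;> simp
    · intro y
      apply Subtype.ext
      apply Prod.ext <;> funext i <;> simp

end Crest.Agent.S0066
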