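import Crest.Statements.S0066
import Crest.Agent.S0066_Transfer
import Crest.Agent.S0066_Far
import Crest.Agent.S0066_Rare

set_option autoImplicit false
open Crest Crest.CombinatoricsR

namespace Crest.Agent.S0066

/-- the numerical facts about the parameters `K = h/2 - 3`. -/
theorem params (h : ℕ) (hh : 1 ≤ h) :
    ∃ K, K ≤ h ∧ 538 * K + 270 ≤ 386 * h + 2 ∧
      2 * (sz h K * sz h K) ≤ (386 * h + 2) * 2 ^ h := by
  refine ⟨h / 2 - 3, by omega, by omega, ?_⟩
  unfold sz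
  rw [← pow_add, ← pow_succ']
  have h1 : h - (h / 2 - 3) + (h - (h / 2 - 3)) + 1 ≤ 8 + h := by omega
  calc 2 ^ (h - (h / 2 - 3) + (h - (h / 2 - 3)) + 1) ≤ 2 ^ (8 + h) :=
        Nat.pow_le_pow_right (by norm_num) h1
    _ = 256 * 2 ^ h := by rw [pow_add]; norm_num
    _ ≤ (386 * h + 2) * 2 ^ h := Nat.mul_le_mul_right _ (by omega)

theorem main_aux (h L n : ℕ) (hh : 1 ≤ h) (hL : L = 386 * h + 2) (hn : n = L * 2 ^ h) :
    ∃ A : Fin n → Fin n → Bool,
        (∀ B : Fin n → Fin n → Bool,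
          Crest.CombinatoricsR.OrderedMatrix.orderedCopyCount Hpat B = 0 →
            (2 ^ h) ^ 2 ≤ (Finset.univ.filter (fun rc : Fin n × Fin n =>
                A rc.1 rc.2 ≠ B rc.1 rc.2)).card) ∧
        Crest.CombinatoricsR.OrderedMatrix.orderedCopyCount Hpat A ≤ 2 ^ h * n ^ 130 := by
  obtain ⟨K, hK, hbud, hs⟩ := params h hh
  rw [← hL] at hbud hs
  rw [← hn] at hs
  obtain ⟨F, hF⟩ : ∃ F, (538 * K + 270) * 2 ^ h + F = n := by
    refine ⟨n - (538 * K + 270) * 2 ^ h, Nat.add_sub_cancel' ?_⟩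
    rw [hn]
    exact Nat.mul_le_mul_right _ hbud
  have hcard : Fintype.card (Line h K F) = n := by
    rw [card_line, hF]
  obtain ⟨A, hfar, hcount⟩ := transfer hcard (Amat : Line h K F → Line h K F → Bool)
  refine ⟨A, fun B hB => ?_, ?_⟩
  · obtain ⟨B', hB', hcardeq⟩ := hfar B hB
    rw [hcardeq]
    exact far hK B' hB'
  · rw [hcount]
    have h1 := rare (F := F) hK
    rw [hcard] at h1
    refine le_trans h1 ?_
    calc 2 * (2 ^ h * sz h K * sz h K) * n ^ 129
        = 2 ^ h * (2 * (sz h K * sz h K)) * n ^ 129 := by ring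
      _ ≤ 2 ^ h * n * n ^ 129 := by gcongr
      _ = 2 ^ h * n ^ 130 := by ring

theorem real_aux1 (L N : ℝ) (hL : 0 < L) : (L ^ 2)⁻¹ * (L * N) ^ 2 = N ^ 2 := by
  field_simp

theorem real_aux2 (L N c : ℝ) (hL : 0 < L) (hN : 0 < N) (hc : c ≤ N * (L * N) ^ 130) :
    c / (L * N) ^ 132 ≤ (L ^ 2)⁻¹ * N⁻¹ := by
  rw [div_le_iff₀ (by positivity)]
  refine le_trans hc (le_of_eq ?_)
  have : (L * N) ^ 132 = (L * N) ^ 130 * (L * N) ^ 2 := by ring
  rw [this]
  field_simp

/-- There is a fixed 66 × 66 binary pattern H such that for every h ≥ 1, with n = (386h + 2) · 2^h and ε = (386h + 2)⁻², some n × n binary matrix A is ε-far from free of ordered copies of H (every n × n binary matrix without an ordered copy of H differs from A in at least ε · n² cells) while the number of ordered copies of H in A is at most ε · 2^(-h) · n^132. An ordered copy picks 66 rows and 66 columns in increasing order on which A coincides with H, zeros included. -/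
theorem result :
    ∃ H : Fin 66 → Fin 66 → Bool, ∀ h : ℕ, 1 ≤ h →
      ∃ A : Fin ((386 * h + 2) * 2 ^ h) → Fin ((386 * h + 2) * 2 ^ h) → Bool,
        (∀ B : Fin ((386 * h + 2) * 2 ^ h) → Fin ((386 * h + 2) * 2 ^ h) → Bool,
          Crest.CombinatoricsR.OrderedMatrix.orderedCopyCount H B = 0 →
            ((386 * (h : ℝ) + 2) ^ 2)⁻¹ * (((386 * h + 2) * 2 ^ h : ℕ) : ℝ) ^ 2 ≤
              ((Finset.univ.filter (fun rc : Fin ((386 * h + 2) * 2 ^ h) × Fin ((386 * h + 2) * 2 ^ h) =>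
                A rc.1 rc.2 ≠ B rc.1 rc.2)).card : ℝ)) ∧
        (Crest.CombinatoricsR.OrderedMatrix.orderedCopyCount H A : ℝ) /
            (((386 * h + 2) * 2 ^ h : ℕ) : ℝ) ^ 132 ≤
          ((386 * (h : ℝ) + 2) ^ 2)⁻¹ * (2 : ℝ)⁻¹ ^ h := by
  refine ⟨Hpat, fun h hh => ?_⟩
  obtain ⟨A, hfar, hcount⟩ := main_aux h (386 * h + 2) ((386 * h + 2) * 2 ^ h) hh rfl rfl
  have hL : (0 : ℝ) < 386 * (h : ℝ) + 2 := by positivity
  have hN : (0 : ℝ) < (2 : ℝ) ^ h := by positivity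
  have hnr : (((386 * h + 2) * 2 ^ h : ℕ) : ℝ) = (386 * (h : ℝ) + 2) * 2 ^ h := by
    push_cast; ring
  refine ⟨A, fun B hB => ?_, ?_⟩
  · rw [hnr, real_aux1 _ _ hL]
    exact_mod_cast hfar B hB
  · rw [hnr, inv_pow]
    refine real_aux2 _ _ _ hL hN ?_
    rw [← hnr]
    exact_mod_cast hcount

end Crest.Agent.S0066
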