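import Crest.Agent.S0066_Dyadic

/-! # S0066, package A : no link except the junction link `(K, false, _)` is violated -/

set_option autoImplicit false

namespace Crest.Agent.S0066

variable {h K : ℕ}

/-- threshold matrices contain no `I₂` -/
theorem no_I2 (p p' q q' : MainL h K) (h1 : Mmain p q) (h2 : ¬ Mmain p q') (h3 : ¬ Mmain p' q)
    (h4 : Mmain p' q') : False := by
  unfold Mmain at *; omega

/-! ### unfolding lemmas -/

theorem A_pos_open {m : ℕ} (hm : m ≤ K) (x : ℕ) :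
    pos h K m x = 2 * (nd h m x * sz h m) + 1 := by
  simp only [pos, lo, lev, if_pos hm]

theorem A_pos_close {m : ℕ} (hm : K < m) (x : ℕ) :
    pos h K m x = 2 * (nd h (2 * K + 1 - m) x * sz h (2 * K + 1 - m) + sz h (2 * K + 1 - m)) := by
  simp only [pos, hi, lo, lev, if_neg (not_le.mpr hm)]

theorem A_pot_open {m : ℕ} (hm : m ≤ K) (x : ℕ) :
    pot h K m x = 2 * (nd h m x * sz h m + sz h m) := by
  simp only [pot, hi, lo, lev, if_pos hm]

theorem A_pot_close {m : ℕ} (hm : K < m) (x : ℕ) :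
    pot h K m x = 2 * (nd h (2 * K + 1 - m) x * sz h (2 * K + 1 - m)) + 1 := by
  simp only [pot, lo, lev, if_neg (not_le.mpr hm)]

theorem A_par_open {m : ℕ} (hm : m ≤ K) (x : ℕ) : par h K m x = nd h m x % 2 := by
  simp only [par, lev, if_pos hm]

theorem A_par_close {m : ℕ} (hm : K < m) (x : ℕ) :
    par h K m x = nd h (2 * K + 1 - m) x % 2 := by
  simp only [par, lev, if_neg (not_le.mpr hm)]

/-! ### the six arithmetic cases -/

theorem A_c1 (s M P Q b : ℕ) (hs : 0 < s)
    (hlt : 2 * (Q * (2 * s)) + 1 ≤ 2 * (b * s) + 1)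
    (h1 : 2 * (2 * M * s) + 1 < 2 * (P * (2 * s) + 2 * s) + 2 * (Q * (2 * s) + 2 * s))
    (h0 : ¬ (2 * (2 * M * s) + 1 < 2 * (P * (2 * s) + 2 * s) + 2 * (b * s + s))) : False := by
  have h0' := not_lt.mp h0
  have e1 : 2 * Q ≤ b := by
    by_contra hc
    have := Nat.mul_le_mul_right s (show b + 1 ≤ 2 * Q by omega)
    linarith
  have e2 : M + 1 ≤ P + Q + 2 := by
    by_contra hc
    have := Nat.mul_le_mul_right s (show P + Q + 2 ≤ M by omega)
    linarith
  have e3 : 2 * P + b + 3 ≤ 2 * M := by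
    by_contra hc
    have := Nat.mul_le_mul_right s (show 2 * M + 1 ≤ 2 * P + b + 3 by omega)
    linarith
  omega

theorem A_c2 (s M b Q b' cN : ℕ) (hs : 0 < s) (hb : b % 2 = cN) (hb' : b' % 2 + cN = 1)
    (hlt : 2 * (Q * (2 * s)) + 1 ≤ 2 * (b' * s) + 1)
    (h1 : 2 * (2 * M * s) + 1 < 2 * (b * s + s) + 2 * (Q * (2 * s) + 2 * s))
    (h0 : ¬ (2 * (2 * M * s) + 1 < 2 * (b * s + s) + 2 * (b' * s + s))) : False := by
  have h0' := not_lt.mp h0
  have e1 : 2 * Q ≤ b' := by
    by_contra hc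
    have := Nat.mul_le_mul_right s (show b' + 1 ≤ 2 * Q by omega)
    linarith
  have e2 : 2 * M + 1 ≤ b + 2 * Q + 3 := by
    by_contra hc
    have := Nat.mul_le_mul_right s (show b + 2 * Q + 3 ≤ 2 * M by omega)
    linarith
  have e3 : b + b' + 2 ≤ 2 * M := by
    by_contra hc
    have := Nat.mul_le_mul_right s (show 2 * M + 1 ≤ b + b' + 2 by omega)
    linarith
  omega

theorem A_c3 (s M P Q Q' : ℕ) (hs : 0 < s)
    (hlt : 2 * (Q * s) + 1 ≤ 2 * (Q' * s + s))
    (h1 : 2 * (M * s) + 1 < 2 * (P * s + s) + 2 * (Q * s + s))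
    (h0 : ¬ (2 * (M * s) + 1 < 2 * (P * s + s) + (2 * (Q' * s) + 1))) :
    Q = Q' ∧ P + Q + 1 = M := by
  have h0' := not_lt.mp h0
  have e1 : Q ≤ Q' := by
    by_contra hc
    have := Nat.mul_le_mul_right s (show Q' + 1 ≤ Q by omega)
    linarith
  have e2 : M + 1 ≤ P + Q + 2 := by
    by_contra hc
    have := Nat.mul_le_mul_right s (show P + Q + 2 ≤ M by omega)
    linarith
  have e3 : P + 1 + Q' ≤ M := by
    by_contra hc
    have := Nat.mul_le_mul_right s (show M + 1 ≤ P + 1 + Q' by omega)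
    linarith
  omega

theorem A_c4 (s M P Q Q' : ℕ) (hs : 0 < s)
    (hlt : 2 * (Q * s) + 1 ≤ 2 * (Q' * s + s))
    (h1 : 2 * (M * s) + 1 < (2 * (P * s) + 1) + 2 * (Q * s + s))
    (h0 : ¬ (2 * (M * s) + 1 < (2 * (P * s) + 1) + (2 * (Q' * s) + 1))) : False := by
  have h0' := not_lt.mp h0
  have e1 : Q ≤ Q' := by
    by_contra hc
    have := Nat.mul_le_mul_right s (show Q' + 1 ≤ Q by omega)
    linarith
  have e2 : M + 1 ≤ P + Q + 1 := by
    by_contra hc
    have := Nat.mul_le_mul_right s (show P + Q + 1 ≤ M by omega)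
    linarith
  have e3 : P + Q' + 1 ≤ M := by
    by_contra hc
    have := Nat.mul_le_mul_right s (show M ≤ P + Q' by omega)
    linarith
  omega

theorem A_c5 (s M b b1 Q' cN : ℕ) (hs : 0 < s) (hb : b % 2 = cN) (hb1 : b1 % 2 + cN = 1)
    (hlt : 2 * (b1 * s + s) ≤ 2 * (Q' * (2 * s) + 2 * s))
    (h1 : 2 * (2 * M * s) + 1 < (2 * (b * s) + 1) + (2 * (b1 * s) + 1))
    (h0 : ¬ (2 * (2 * M * s) + 1 < (2 * (b * s) + 1) + (2 * (Q' * (2 * s)) + 1))) : False := by
  have h0' := not_lt.mp h0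
  have e1 : b1 + 1 ≤ 2 * Q' + 2 := by
    by_contra hc
    have := Nat.mul_le_mul_right s (show 2 * Q' + 3 ≤ b1 + 1 by omega)
    linarith
  have e2 : 2 * M ≤ b + b1 := by
    by_contra hc
    have := Nat.mul_le_mul_right s (show b + b1 + 1 ≤ 2 * M by omega)
    linarith
  have e3 : b + 2 * Q' + 1 ≤ 2 * M := by
    by_contra hc
    have := Nat.mul_le_mul_right s (show 2 * M ≤ b + 2 * Q' by omega)
    linarith
  omega

theorem A_c6 (s M P b1 Q' : ℕ) (hs : 0 < s)
    (hlt : 2 * (b1 * s + s) ≤ 2 * (Q' * (2 * s) + 2 * s))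
    (h1 : 2 * (2 * M * s) + 1 < (2 * (P * (2 * s)) + 1) + (2 * (b1 * s) + 1))
    (h0 : ¬ (2 * (2 * M * s) + 1 < (2 * (P * (2 * s)) + 1) + (2 * (Q' * (2 * s)) + 1))) :
    False := by
  have h0' := not_lt.mp h0
  have e1 : b1 + 1 ≤ 2 * Q' + 2 := by
    by_contra hc
    have := Nat.mul_le_mul_right s (show 2 * Q' + 3 ≤ b1 + 1 by omega)
    linarith
  have e2 : 2 * M ≤ 2 * P + b1 := by
    by_contra hc
    have := Nat.mul_le_mul_right s (show 2 * P + b1 + 1 ≤ 2 * M by omega)
    linarith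
  have e3 : 2 * P + 2 * Q' + 1 ≤ 2 * M := by
    by_contra hc
    have := Nat.mul_le_mul_right s (show 2 * M ≤ 2 * P + 2 * Q' by omega)
    linarith
  omega

/-- Six cases: `τ.1 < K`, `= K`, `> K`, each with `τ.2.1 = false / true`.  In each case write all
quantities as multiples of `s' = sz h (k+1)` (resp. `sz h K`) using `nd_succ`, `sz_succ`,
`two_pow_mul_sz`, cancel `s'` and finish by `omega`.  See `notes/row47_plan.md`, section A. -/
theorem no_violation (hK : K ≤ h) (τ : Link K) (r c c' : MainL h K)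
    (hρ : memRho τ r) (hL : memL τ c) (hR : memR τ c')
    (hlt : pos h K c.1 c.2 ≤ pos h K c'.1 c'.2)
    (h1 : Mmain r c) (h0 : ¬ Mmain r c') :
    r.1.val = K ∧ c.1.val = K ∧ c'.1.val = K + 1 ∧
      nd h K c.2 = nd h K c'.2 ∧ nd h K r.2 + nd h K c.2 + 1 = 2 ^ K := by
  obtain ⟨⟨m, hm⟩, isT2, cc⟩ := τ
  obtain ⟨hr1, hr2⟩ := hρ
  obtain ⟨hc1, hc2⟩ := hL
  obtain ⟨hc'1, hc'2⟩ := hR
  unfold Mmain at h1 h0
  simp only at hr1 hr2 hc1 hc2 hc'1 hc'2
  rw [hr1] at hr2
  rw [hc1] at hc2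
  rw [hc'1] at hc'2
  rw [hc1, hc'1] at hlt
  rw [hr1, hc1] at h1
  rw [hr1, hc'1] at h0
  rw [hr1, hc1, hc'1]
  generalize (r.2 : ℕ) = rx at *
  generalize (c.2 : ℕ) = cx at *
  generalize (c'.2 : ℕ) = cx' at *
  generalize cc.toNat = cN at *
  rcases lt_trichotomy m K with hmK | hmK | hmK
  · -- `m < K`
    exfalso
    have hsz : sz h m = 2 * sz h (m + 1) := sz_succ (by omega)
    have hN : 2 ^ h = 2 * 2 ^ m * sz h (m + 1) := by
      rw [← two_pow_mul_sz (show m + 1 ≤ h by omega), pow_succ]; ring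
    cases isT2
    · simp only [Bool.toNat_false, add_zero] at *
      rw [A_pos_open hmK.le, A_pos_open (show m + 1 ≤ K by omega), hsz] at hlt
      rw [A_pot_open hmK.le, A_pot_open hmK.le, hsz, hN] at h1
      rw [A_pot_open hmK.le, A_pot_open (show m + 1 ≤ K by omega), hsz, hN] at h0
      exact A_c1 _ _ _ _ _ (sz_pos _ _) hlt h1 h0
    · simp only [Bool.toNat_true] at *
      rw [A_pos_open hmK.le, A_pos_open (show m + 1 ≤ K by omega), hsz] at hlt
      rw [A_pot_open (show m + 1 ≤ K by omega), A_pot_open hmK.le, hsz, hN] at h1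
      rw [A_pot_open (show m + 1 ≤ K by omega), A_pot_open (show m + 1 ≤ K by omega), hN] at h0
      rw [A_par_open (show m + 1 ≤ K by omega)] at hr2
      have hp := hc'2 hmK trivial
      rw [A_par_open (show m + 1 ≤ K by omega)] at hp
      exact A_c2 _ _ _ _ _ _ (sz_pos _ _) hr2 hp hlt h1 h0
  · -- `m = K`
    subst hmK
    have hN : 2 ^ h = 2 ^ m * sz h m := (two_pow_mul_sz hK).symm
    have hlev : 2 * m + 1 - (m + 1) = m := by omega
    cases isT2
    · simp only [Bool.toNat_false, add_zero] at *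
      rw [A_pos_open le_rfl, A_pos_close (show m < m + 1 by omega), hlev] at hlt
      rw [A_pot_open le_rfl, A_pot_open le_rfl, hN] at h1
      rw [A_pot_open le_rfl, A_pot_close (show m < m + 1 by omega), hlev, hN] at h0
      have := A_c3 _ _ _ _ _ (sz_pos _ _) hlt h1 h0
      exact ⟨trivial, trivial, trivial, this.1, this.2⟩
    · exfalso
      simp only [Bool.toNat_true] at *
      rw [A_pos_open le_rfl, A_pos_close (show m < m + 1 by omega), hlev] at hlt
      rw [A_pot_close (show m < m + 1 by omega), A_pot_open le_rfl, hlev, hN] at h1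
      rw [A_pot_close (show m < m + 1 by omega), A_pot_close (show m < m + 1 by omega), hlev,
        hN] at h0
      exact A_c4 _ _ _ _ _ (sz_pos _ _) hlt h1 h0
  · -- `K < m`
    exfalso
    obtain ⟨k, hk⟩ : ∃ k, 2 * K = m + k := ⟨2 * K - m, by omega⟩
    have hl1 : 2 * K + 1 - m = k + 1 := by omega
    have hl2 : 2 * K + 1 - (m + 1) = k := by omega
    have hsz : sz h k = 2 * sz h (k + 1) := sz_succ (by omega)
    have hN : 2 ^ h = 2 * 2 ^ k * sz h (k + 1) := by
      rw [← two_pow_mul_sz (show k + 1 ≤ h by omega), pow_succ]; ring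
    cases isT2
    · simp only [Bool.toNat_false, add_zero] at *
      rw [A_pos_close hmK, A_pos_close (show K < m + 1 by omega), hl1, hl2, hsz] at hlt
      rw [A_pot_close hmK, A_pot_close hmK, hl1, hN] at h1
      rw [A_pot_close hmK, A_pot_close (show K < m + 1 by omega), hl1, hl2, hsz, hN] at h0
      rw [A_par_close hmK, hl1] at hr2
      have hp := hc2 hmK trivial
      rw [A_par_close hmK, hl1] at hp
      exact A_c5 _ _ _ _ _ _ (sz_pos _ _) hr2 hp hlt h1 h0
    · simp only [Bool.toNat_true] at *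
      rw [A_pos_close hmK, A_pos_close (show K < m + 1 by omega), hl1, hl2, hsz] at hlt
      rw [A_pot_close (show K < m + 1 by omega), A_pot_close hmK, hl1, hl2, hsz, hN] at h1
      rw [A_pot_close (show K < m + 1 by omega), A_pot_close (show K < m + 1 by omega), hl2, hsz,
        hN] at h0
      exact A_c6 _ _ _ _ _ (sz_pos _ _) hlt h1 h0

end Crest.Agent.S0066
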