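import Crest.Agent.S0066_ClassifyHalf

/-! # S0066, package K2 : classification of the copies -/

set_option autoImplicit false

namespace Crest.Agent.S0066

variable {h K F : ℕ}

theorem classify (r c : Fin 4 → Line h K F) (hr : StrictMono r) (hc : StrictMono c)
    (hE : ∀ i j : Fin 4, AP (r i) (c j) ↔ Hn i.val j.val = true) :
    (∃ τ p q q', r 0 = Line.main p ∧ c 0 = Line.main q ∧ c 1 = Line.main q' ∧
      LinkViol τ p q q') ∨
    (∃ τ p q q', c 0 = Line.main p ∧ r 0 = Line.main q ∧ r 1 = Line.main q' ∧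
      LinkViol τ p q q') := by
  by_cases hr1 : ∀ p, r 1 ≠ Line.main p
  · exact Or.inl (classify_half r c hr hc hE hr1)
  by_cases hc1 : ∀ p, c 1 ≠ Line.main p
  · refine Or.inr (classify_half c r hc hr (fun i j => ?_) hc1)
    rw [AP_symm, hE, Hn_symm]
  exfalso
  push Not at hr1 hc1
  obtain ⟨p1, hp1⟩ := hr1
  obtain ⟨q1, hq1⟩ := hc1
  have hr01 : r 0 < r 1 := hr (by decide)
  have hc01 : c 0 < c 1 := hc (by decide)
  rw [hp1] at hr01
  rw [hq1] at hc01
  obtain ⟨p0, hp0⟩ := K1_lt_main hr01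
  obtain ⟨q0, hq0⟩ := K1_lt_main hc01
  have e00 := (hE 0 0).mpr (by decide)
  have e11 := (hE 1 1).mpr (by decide)
  have e01 : ¬ AP (r 0) (c 1) := fun hA => absurd ((hE 0 1).mp hA) (by decide)
  have e10 : ¬ AP (r 1) (c 0) := fun hA => absurd ((hE 1 0).mp hA) (by decide)
  rw [hp0, hq0] at e00
  rw [hp1, hq1] at e11
  rw [hp0, hq1] at e01
  rw [hp1, hq0] at e10
  exact no_I2 p0 p1 q0 q1 e00 e01 e10 e11

/-- the triples of main lines which can start a copy -/
def VTriple (p q q' : MainL h K) : Prop :=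
  p.1.val = K ∧ q.1.val = K ∧ q'.1.val = K + 1 ∧
      nd h K q.2 = nd h K q'.2 ∧ nd h K p.2 + nd h K q.2 + 1 = 2 ^ K

theorem K2_viol (hK : K ≤ h) {τ : Link K} {p q q' : MainL h K} (hv : LinkViol τ p q q')
    (hlt : (Line.main q : Line h K F) < Line.main q') : VTriple p q q' := by
  obtain ⟨h1, h2, h3, h4, h5⟩ := hv
  refine no_violation hK τ p q q' h1 h2 h3 ?_ h4 h5
  rw [main_lt_main] at hlt
  rcases hlt with hh | ⟨hh, -⟩ <;> omega

theorem copy_classify (hK : K ≤ h) (f g : Fin 66 → Line h K F) (hf : StrictMono f)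
    (hg : StrictMono g) (hA : ∀ i j, Amat (f i) (g j) = Hpat i j) :
    (∃ p q q', f 0 = Line.main p ∧ g 0 = Line.main q ∧ g 1 = Line.main q' ∧ VTriple p q q') ∨
    (∃ p q q', g 0 = Line.main p ∧ f 0 = Line.main q ∧ f 1 = Line.main q' ∧ VTriple p q q') := by
  have hemb : StrictMono (Fin.castLE (by norm_num : 4 ≤ 66)) := Fin.strictMono_castLE _
  have hE : ∀ i j : Fin 4, AP (f (Fin.castLE (by norm_num : 4 ≤ 66) i))
      (g (Fin.castLE (by norm_num : 4 ≤ 66) j)) ↔ Hn i.val j.val = true := by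
    intro i j
    rw [← Amat_eq_true_iff, hA]
    rfl
  have hf01 : f 0 < f 1 := hf (by decide)
  have hg01 : g 0 < g 1 := hg (by decide)
  rcases classify (fun i => f (Fin.castLE (by norm_num : 4 ≤ 66) i))
    (fun j => g (Fin.castLE (by norm_num : 4 ≤ 66) j)) (hf.comp hemb) (hg.comp hemb) hE with
    ⟨τ, p, q, q', h1, h2, h3, hv⟩ | ⟨τ, p, q, q', h1, h2, h3, hv⟩
  · have h1' : f 0 = Line.main p := h1
    have h2' : g 0 = Line.main q := h2
    have h3' : g 1 = Line.main q' := h3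
    refine Or.inl ⟨p, q, q', h1', h2', h3', K2_viol (F := F) hK hv ?_⟩
    rw [← h2', ← h3']; exact hg01
  · have h1' : g 0 = Line.main p := h1
    have h2' : f 0 = Line.main q := h2
    have h3' : f 1 = Line.main q' := h3
    refine Or.inr ⟨p, q, q', h1', h2', h3', K2_viol (F := F) hK hv ?_⟩
    rw [← h2', ← h3']; exact hf01

end Crest.Agent.S0066
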