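import Crest.Agent.S0066_Arith

/-! # S0066, package K1 : classification of the copies of the `4 × 4` corner -/

set_option autoImplicit false

namespace Crest.Agent.S0066

variable {h K F : ℕ}

/-- a violated instance of the link `τ` -/
def LinkViol (τ : Link K) (r c c' : MainL h K) : Prop :=
  memRho τ r ∧ memL τ c ∧ memR τ c' ∧ Mmain r c ∧ ¬ Mmain r c'

/-- the one-set of a non-pad aux letter on the main lines -/
def SS (τ : Link K) (t : ℕ) (p : MainL h K) : Prop :=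
  ((t = 0 ∨ t = 2) ∧ memR τ p) ∨ (t = 1 ∧ memL τ p) ∨ (t = 3 ∧ memRho τ p)

theorem K1_auxMain_iff (τ : Link K) {t : ℕ} (ht : t ≤ 4) (p : MainL h K) :
    auxMain τ t p ↔ SS τ t p := by
  unfold auxMain SS
  constructor
  · rintro (h5 | h')
    · omega
    · exact h'
  · exact Or.inr

theorem K1_SS_letter {τ : Link K} {t : ℕ} {p q : MainL h K} (hp : SS τ t p) (hq : SS τ t q) :
    p.1.val = q.1.val := by
  unfold SS memR memL memRho at *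
  rcases hp with ⟨h1, h2, -⟩ | ⟨h1, h2, -⟩ | ⟨h1, h2, -⟩ <;>
  rcases hq with ⟨h3, h4, -⟩ | ⟨h3, h4, -⟩ | ⟨h3, h4, -⟩ <;> omega

theorem K1_SS_par {τ : Link K} {t : ℕ} {p q : MainL h K} (hp : SS τ t p)
    (hl : q.1.val = p.1.val) (hpar : par h K q.1 q.2 = par h K p.1 p.2) : SS τ t q := by
  unfold SS memR memL memRho at *
  rw [hpar, hl]
  exact hp

theorem K1_SS_congr {τ : Link K} {t t' : ℕ} {p : MainL h K}
    (ht : t = t' ∨ ((t = 0 ∨ t = 2) ∧ (t' = 0 ∨ t' = 2))) (hp : SS τ t p) : SS τ t' p := by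
  rcases ht with rfl | ⟨h1, h2⟩
  · exact hp
  · unfold SS at *
    rcases hp with ⟨-, h3⟩ | ⟨h3, -⟩ | ⟨h3, -⟩
    · exact Or.inl ⟨h2, h3⟩
    · omega
    · omega

theorem K1_par_lt (m x : ℕ) : par h K m x < 2 := by
  unfold par; omega

theorem K1_nf_row {r c : Line h K F} (hz : ¬ AP r c) :
    (∃ p, r = Line.main p) ∨ (∃ τ t u, r = Line.aux τ t u ∧ t.val ≤ 4) := by
  cases r with
  | main p => exact Or.inl ⟨p, rfl⟩
  | aux τ t u =>
    refine Or.inr ⟨τ, t, u, rfl, ?_⟩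
    by_contra hcon
    apply hz
    cases c with
    | main q => exact Or.inl (by omega)
    | aux τ' t' u' => exact Or.inl (by omega)
    | fill f => trivial
  | fill f => exact absurd trivial hz

theorem K1_nf_col {r c : Line h K F} (hz : ¬ AP r c) :
    (∃ p, c = Line.main p) ∨ (∃ τ t u, c = Line.aux τ t u ∧ t.val ≤ 4) :=
  K1_nf_row (fun hh => hz ((AP_symm _ _).mp hh))

theorem K1_lt_main {s : Line h K F} {q : MainL h K} (hs : s < Line.main q) :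
    ∃ p, s = Line.main p := by
  cases s with
  | main p => exact ⟨p, rfl⟩
  | aux τ t u => exact absurd hs (not_aux_lt_main _ _ _ _)
  | fill f => exact absurd hs (not_fill_lt_main _ _)

theorem K1_aux_aux {τ τ' : Link K} {t t' : Fin 67} {u u' : Fin (2 ^ h)} (ht : t.val ≤ 4)
    (ht' : t'.val ≤ 4) :
    AP (Line.aux τ t u : Line h K F) (Line.aux τ' t' u') ↔ (τ = τ' ∧ auxAux t.val t'.val) := by
  rw [AP_aux_aux]
  constructor
  · rintro (h5 | h5 | h5)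
    · omega
    · omega
    · exact h5
  · exact fun h5 => Or.inr (Or.inr h5)

theorem K1_five (t1 t2 t3 a b : ℕ) (a13 : auxAux t1 b) (a23 : auxAux t2 b) (a22 : auxAux t2 a)
    (a32 : auxAux t3 a) (a12 : ¬ auxAux t1 a) (a33 : ¬ auxAux t3 b) (ho : a ≤ b) :
    t1 = 0 ∧ t2 = 1 ∧ t3 = 2 ∧ a = 3 ∧ b = 4 := by
  unfold auxAux at *
  rcases a13 with ⟨h1, h2⟩ | ⟨h1, h2⟩ | ⟨h1, h2⟩ | ⟨h1, h2⟩ | ⟨h1, h2⟩ | ⟨h1, h2⟩ | ⟨h1, h2⟩ |
    ⟨h1, h2⟩ <;> subst h1 <;> subst h2 <;>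
  rcases a22 with ⟨h1, h2⟩ | ⟨h1, h2⟩ | ⟨h1, h2⟩ | ⟨h1, h2⟩ | ⟨h1, h2⟩ | ⟨h1, h2⟩ | ⟨h1, h2⟩ |
    ⟨h1, h2⟩ <;> subst h1 <;> subst h2 <;>
  first
  | (exfalso; omega)
  | (rcases a32 with ⟨h1, h2⟩ | ⟨h1, h2⟩ | ⟨h1, h2⟩ | ⟨h1, h2⟩ | ⟨h1, h2⟩ | ⟨h1, h2⟩ | ⟨h1, h2⟩ |
      ⟨h1, h2⟩ <;> omega)

theorem K1_core (r0 r1 r2 r3 c0 c1 c2 c3 : Line h K F)
    (hr01 : r0 < r1) (hr12 : r1 < r2) (hr23 : r2 < r3)
    (hc01 : c0 < c1) (hc12 : c1 < c2) (hc23 : c2 < c3)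
    (e00 : AP r0 c0) (e01 : ¬ AP r0 c1) (e02 : AP r0 c2) (e03 : ¬ AP r0 c3)
    (e10 : ¬ AP r1 c0) (e11 : AP r1 c1) (e12 : ¬ AP r1 c2) (e13 : AP r1 c3)
    (e20 : AP r2 c0) (e21 : ¬ AP r2 c1) (e22 : AP r2 c2) (e23 : AP r2 c3)
    (e30 : ¬ AP r3 c0) (e31 : AP r3 c1) (e32 : AP r3 c2) (e33 : ¬ AP r3 c3)
    (hr1 : ∀ p, r1 ≠ Line.main p) :
    ∃ τ p q q', r0 = Line.main p ∧ c0 = Line.main q ∧ c1 = Line.main q' ∧
      LinkViol τ p q q' := by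
  -- the rows r1, r2, r3 are non-pad aux lines
  obtain ⟨τ1, t1, u1, rfl, ht1⟩ : ∃ τ t u, r1 = Line.aux τ t u ∧ t.val ≤ 4 := by
    rcases K1_nf_row e10 with ⟨p, hp⟩ | h'
    · exact absurd hp (hr1 p)
    · exact h'
  obtain ⟨τ2, t2, u2, rfl, ht2⟩ : ∃ τ t u, r2 = Line.aux τ t u ∧ t.val ≤ 4 := by
    rcases K1_nf_row e21 with ⟨p, rfl⟩ | h'
    · exact absurd hr12 (not_aux_lt_main _ _ _ _)
    · exact h'
  obtain ⟨τ3, t3, u3, rfl, ht3⟩ : ∃ τ t u, r3 = Line.aux τ t u ∧ t.val ≤ 4 := by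
    rcases K1_nf_row e30 with ⟨p, rfl⟩ | h'
    · exact absurd hr23 (not_aux_lt_main _ _ _ _)
    · exact h'
  -- step 1 : c3 is not main
  rcases K1_nf_col e03 with ⟨q3, rfl⟩ | ⟨τ', t', v', rfl, ht'⟩
  · exfalso
    obtain ⟨q2, rfl⟩ := K1_lt_main hc23
    obtain ⟨q1, rfl⟩ := K1_lt_main hc12
    obtain ⟨q0, rfl⟩ := K1_lt_main hc01
    rw [AP_aux_main, K1_auxMain_iff _ ht1] at e10 e11 e12 e13
    rw [AP_aux_main, K1_auxMain_iff _ ht2] at e20 e21 e22 e23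
    have l03 := K1_SS_letter e20 e23
    have l13 := K1_SS_letter e11 e13
    have p13 : par h K q1.1 q1.2 ≠ par h K q3.1 q3.2 := fun hh => e21 (K1_SS_par e23 l13 hh)
    have p03 : par h K q0.1 q0.2 ≠ par h K q3.1 q3.2 := fun hh => e10 (K1_SS_par e13 l03 hh)
    have p01 : par h K q0.1 q0.2 ≠ par h K q1.1 q1.2 :=
      fun hh => e10 (K1_SS_par e11 (l03.trans l13.symm) hh)
    have b0 := K1_par_lt (h := h) (K := K) q0.1 q0.2
    have b1 := K1_par_lt (h := h) (K := K) q1.1 q1.2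
    have b3 := K1_par_lt (h := h) (K := K) q3.1 q3.2
    omega
  -- step 2
  rw [K1_aux_aux ht1 ht'] at e13
  rw [K1_aux_aux ht2 ht'] at e23
  rw [K1_aux_aux ht3 ht'] at e33
  obtain ⟨rfl, a13⟩ := e13
  obtain ⟨rfl, a23⟩ := e23
  -- step 3 : c2 is not main
  rcases K1_nf_col e12 with ⟨q2, rfl⟩ | ⟨τ'', t'', v'', rfl, ht''⟩
  · exfalso
    obtain ⟨q1, rfl⟩ := K1_lt_main hc12
    obtain ⟨q0, rfl⟩ := K1_lt_main hc01
    rw [AP_aux_main, K1_auxMain_iff _ ht1] at e10 e11 e12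
    rw [AP_aux_main, K1_auxMain_iff _ ht2] at e20 e21 e22
    rw [AP_aux_main, K1_auxMain_iff _ ht3] at e30 e31 e32
    have l12 := K1_SS_letter e31 e32
    have e11' := e11
    have e22' := e22
    unfold auxAux at a13 a23
    unfold SS at e11' e22'
    unfold memR memL memRho at e11' e22'
    rcases e11' with ⟨h1, h2, -⟩ | ⟨h1, h2, -⟩ | ⟨h1, h2, -⟩ <;>
    rcases e22' with ⟨h3, h4, -⟩ | ⟨h3, h4, -⟩ | ⟨h3, h4, -⟩
    all_goals first
      | omega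
      | exact e21 (K1_SS_congr (by omega) e11)
  -- step 4
  rw [K1_aux_aux ht1 ht''] at e12
  rw [K1_aux_aux ht2 ht''] at e22
  rw [K1_aux_aux ht3 ht''] at e32
  obtain ⟨rfl, a22⟩ := e22
  obtain ⟨rfl, a32⟩ := e32
  have a12 : ¬ auxAux t1.val t''.val := fun hh => e12 ⟨rfl, hh⟩
  have a33 : ¬ auxAux t3.val t'.val := fun hh => e33 ⟨rfl, hh⟩
  have ho : t''.val ≤ t'.val := by
    rw [aux_lt_aux] at hc23
    rcases hc23 with hh | ⟨-, hh | ⟨hh, -⟩⟩ <;> omega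
  obtain ⟨T1, T2, T3, T4, T5⟩ : t1.val = 0 ∧ t2.val = 1 ∧ t3.val = 2 ∧ t''.val = 3 ∧ t'.val = 4 :=
    K1_five _ _ _ _ _ a13 a23 a22 a32 a12 a33 ho
  -- step 5 : c1 is main
  obtain ⟨q1, rfl⟩ : ∃ q, c1 = Line.main q := by
    rcases K1_nf_col e01 with hq | ⟨τc, tc, vc, rfl, htc⟩
    · exact hq
    · exfalso
      rw [K1_aux_aux ht1 htc] at e11
      obtain ⟨rfl, a11⟩ := e11
      rw [aux_lt_aux] at hc12
      unfold auxAux at a11
      rcases hc12 with hh | ⟨-, hh | ⟨hh, -⟩⟩ <;> omega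
  obtain ⟨q0, rfl⟩ := K1_lt_main hc01
  -- step 6 : r0 is main
  obtain ⟨p, rfl⟩ : ∃ p, r0 = Line.main p := by
    rcases K1_nf_row e01 with hq | ⟨τc, tc, vc, rfl, htc⟩
    · exact hq
    · exfalso
      rw [K1_aux_aux htc ht''] at e02
      obtain ⟨rfl, a02⟩ := e02
      rw [aux_lt_aux] at hr01
      unfold auxAux at a02
      rcases hr01 with hh | ⟨-, hh | ⟨hh, -⟩⟩ <;> omega
  refine ⟨τ3, p, q0, q1, rfl, rfl, rfl, ?_, ?_, ?_, e00, e01⟩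
  · rw [AP_main_aux, K1_auxMain_iff _ ht''] at e02
    unfold SS at e02
    rcases e02 with ⟨hh, -⟩ | ⟨hh, -⟩ | ⟨-, hh⟩
    · omega
    · omega
    · exact hh
  · rw [AP_aux_main, K1_auxMain_iff _ ht2] at e20
    unfold SS at e20
    rcases e20 with ⟨hh, -⟩ | ⟨-, hh⟩ | ⟨hh, -⟩
    · omega
    · exact hh
    · omega
  · rw [AP_aux_main, K1_auxMain_iff _ ht1] at e11
    unfold SS at e11
    rcases e11 with ⟨-, hh⟩ | ⟨hh, -⟩ | ⟨hh, -⟩
    · exact hh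
    · omega
    · omega

/-- See `notes/row47_plan.md`, section K. -/
theorem classify_half (r c : Fin 4 → Line h K F) (hr : StrictMono r) (hc : StrictMono c)
    (hE : ∀ i j : Fin 4, AP (r i) (c j) ↔ Hn i.val j.val = true)
    (hr1 : ∀ p, r 1 ≠ Line.main p) :
    ∃ τ p q q', r 0 = Line.main p ∧ c 0 = Line.main q ∧ c 1 = Line.main q' ∧
      LinkViol τ p q q' := by
  have T : ∀ i j : Fin 4, Hn i.val j.val = true → AP (r i) (c j) := fun i j hh => (hE i j).mpr hh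
  have N : ∀ i j : Fin 4, Hn i.val j.val = false → ¬ AP (r i) (c j) := fun i j hh hA => by
    rw [(hE i j).mp hA] at hh; exact absurd hh (by decide)
  exact K1_core (r 0) (r 1) (r 2) (r 3) (c 0) (c 1) (c 2) (c 3)
    (hr (by decide)) (hr (by decide)) (hr (by decide)) (hc (by decide)) (hc (by decide))
    (hc (by decide))
    (T 0 0 (by decide)) (N 0 1 (by decide)) (T 0 2 (by decide)) (N 0 3 (by decide))
    (N 1 0 (by decide)) (T 1 1 (by decide)) (N 1 2 (by decide)) (T 1 3 (by decide))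
    (T 2 0 (by decide)) (N 2 1 (by decide)) (T 2 2 (by decide)) (T 2 3 (by decide))
    (N 3 0 (by decide)) (T 3 1 (by decide)) (T 3 2 (by decide)) (N 3 3 (by decide)) hr1

end Crest.Agent.S0066
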