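import Crest.Agent.S0066_Dyadic
import Crest.Agent.S0066_Arith

/-! # S0066, package C : the cores used by the farness chain are legal instances of the links -/

set_option autoImplicit false

namespace Crest.Agent.S0066

variable {h K F : ℕ}

/-- the letter of the fixed line of a link -/
def mrho (τ : Link K) : ℕ := τ.1.val + τ.2.1.toNat

/-- `(z, w, w')` is a core of the link `τ` : fixed line `(mrho τ, z)`, source line `(τ.1, w)`,
target line `(τ.1 + 1, w')`. -/
def IsCore (h : ℕ) {K : ℕ} (τ : Link K) (z w w' : ℕ) : Prop :=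
  par h K (mrho τ) z = τ.2.2.toNat ∧ Drel h (lv K (mrho τ) τ.1.val) z w ∧
    Drel h (lv K (mrho τ) (τ.1.val + 1)) z w'

theorem C_lev_open {m : ℕ} (hm : m ≤ K) : lev K m = m := if_pos hm

theorem C_lev_close {m : ℕ} (hm : K < m) : lev K m = 2 * K + 1 - m := if_neg (not_le.mpr hm)

/-- if `w`, `w'` lie in the same node of level `min (lev m) (lev (m+1))` then
`(m, w) < (m+1, w')` in the physical order -/
theorem main_lt_main_succ (hK : K ≤ h) {m : ℕ} (hm : m ≤ 2 * K) (w w' : Fin (2 ^ h))
    (hww : nd h (lv K m (m + 1)) w = nd h (lv K m (m + 1)) w') :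
    (Line.main (ltr K m, w) : Line h K F) < Line.main (ltr K (m + 1), w') := by
  rw [main_lt_main]
  simp only [ltr_val (show m ≤ 2 * K + 1 by omega), ltr_val (show m + 1 ≤ 2 * K + 1 by omega)]
  suffices hle : pos h K m w ≤ pos h K (m + 1) w' by
    rcases hle.lt_or_eq with h1 | h1
    · exact Or.inl h1
    · exact Or.inr ⟨h1, Or.inl (Nat.lt_succ_self m)⟩
  generalize (w : ℕ) = x at *
  generalize (w' : ℕ) = x' at *
  unfold lv at hww
  rcases lt_trichotomy m K with hmK | hmK | hmK
  · rw [C_lev_open hmK.le, C_lev_open (show m + 1 ≤ K by omega), min_eq_left (by omega)] at hww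
    rw [A_pos_open hmK.le, A_pos_open (show m + 1 ≤ K by omega), hww,
      nd_succ (show m < h by omega), sz_succ (show m < h by omega)]
    generalize nd h (m + 1) x' = b
    generalize sz h (m + 1) = s
    have h1 : b / 2 * (2 * s) = (2 * (b / 2)) * s := by ring
    have h2 : (2 * (b / 2)) * s ≤ b * s := Nat.mul_le_mul_right s (by omega)
    omega
  · subst hmK
    have hlev : 2 * m + 1 - (m + 1) = m := by omega
    rw [C_lev_open le_rfl, C_lev_close (show m < m + 1 by omega), hlev, min_self] at hww
    rw [A_pos_open le_rfl, A_pos_close (show m < m + 1 by omega), hlev, hww]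
    have := sz_pos h m
    omega
  · obtain ⟨k, hk⟩ : ∃ k, 2 * K = m + k := ⟨2 * K - m, by omega⟩
    have hl1 : 2 * K + 1 - m = k + 1 := by omega
    have hl2 : 2 * K + 1 - (m + 1) = k := by omega
    rw [C_lev_close hmK, C_lev_close (show K < m + 1 by omega), hl1, hl2,
      min_eq_right (by omega)] at hww
    rw [A_pos_close hmK, A_pos_close (show K < m + 1 by omega), hl1, hl2, ← hww,
      nd_succ (show k < h by omega), sz_succ (show k < h by omega)]
    generalize nd h (k + 1) x = b
    generalize sz h (k + 1) = s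
    have h1 : b / 2 * (2 * s) = (2 * (b / 2)) * s := by ring
    have h2 : b * s ≤ (2 * (b / 2) + 1) * s := Nat.mul_le_mul_right s (by omega)
    have h3 : (2 * (b / 2) + 1) * s = (2 * (b / 2)) * s + s := by ring
    omega

theorem core_valid (hK : K ≤ h) (τ : Link K) (z w w' : Fin (2 ^ h)) (hc : IsCore h τ z w w') :
    memRho τ (ltr K (mrho τ), z) ∧ memL τ (ltr K τ.1.val, w) ∧ memR τ (ltr K (τ.1.val + 1), w') ∧
    (Line.main (ltr K τ.1.val, w) : Line h K F) < Line.main (ltr K (τ.1.val + 1), w') := by
  obtain ⟨⟨m, hm⟩, isT2, cc⟩ := τ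
  obtain ⟨hc1, hc2, hc3⟩ := hc
  have hm1 : m ≤ 2 * K + 1 := by omega
  have hm2 : m + 1 ≤ 2 * K + 1 := by omega
  have hT : isT2.toNat ≤ 1 := by cases isT2 <;> simp
  have hρ : m + isT2.toNat ≤ 2 * K + 1 := by omega
  simp only [mrho] at hc1 hc2 hc3 ⊢
  refine ⟨⟨?_, ?_⟩, ⟨?_, ?_⟩, ⟨?_, ?_⟩, ?_⟩
  · simp only [ltr_val hρ]
  · simp only [ltr_val hρ]; exact hc1
  · simp only [ltr_val hm1]
  · simp only [ltr_val hm1]
    intro hKm hT1
    subst hT1
    simp only [Bool.toNat_false, add_zero] at hc1 hc2
    obtain ⟨k, hk⟩ : ∃ k, 2 * K = m + k := ⟨2 * K - m, by omega⟩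
    have hl1 : 2 * K + 1 - m = k + 1 := by omega
    unfold lv at hc2
    rw [min_self, C_lev_close hKm, hl1] at hc2
    have := Drel_par hc2
    rw [A_par_close hKm, hl1] at hc1 ⊢
    omega
  · simp only [ltr_val hm2]
  · simp only [ltr_val hm2]
    intro hKm hT1
    subst hT1
    simp only [Bool.toNat_true] at hc1 hc3
    unfold lv at hc3
    rw [min_self, C_lev_open (show m + 1 ≤ K by omega)] at hc3
    have := Drel_par hc3
    rw [A_par_open (show m + 1 ≤ K by omega)] at hc1 ⊢
    omega
  · apply main_lt_main_succ hK (by omega)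
    unfold lv at hc2 hc3 ⊢
    rcases lt_trichotomy m K with hmK | hmK | hmK
    · rw [C_lev_open hmK.le, C_lev_open (show m + 1 ≤ K by omega), min_eq_left (by omega)]
      cases isT2
      · simp only [Bool.toNat_false, add_zero] at hc2 hc3
        rw [C_lev_open hmK.le, min_self] at hc2
        rw [C_lev_open hmK.le, C_lev_open (show m + 1 ≤ K by omega), min_eq_left (by omega)] at hc3
        exact Drel_same hc2 hc3
      · simp only [Bool.toNat_true] at hc2 hc3
        rw [C_lev_open hmK.le, C_lev_open (show m + 1 ≤ K by omega), min_eq_right (by omega)] at hc2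
        rw [C_lev_open (show m + 1 ≤ K by omega), min_self] at hc3
        exact Drel_same hc2 (Drel_coarsen (by omega) hc3)
    · subst hmK
      have hlev : 2 * m + 1 - (m + 1) = m := by omega
      rw [C_lev_open le_rfl, C_lev_close (show m < m + 1 by omega), hlev, min_self]
      cases isT2
      · simp only [Bool.toNat_false, add_zero] at hc2 hc3
        rw [C_lev_open le_rfl, min_self] at hc2
        rw [C_lev_open le_rfl, C_lev_close (show m < m + 1 by omega), hlev, min_self] at hc3
        exact Drel_same hc2 hc3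
      · simp only [Bool.toNat_true] at hc2 hc3
        rw [C_lev_open le_rfl, C_lev_close (show m < m + 1 by omega), hlev, min_self] at hc2
        rw [C_lev_close (show m < m + 1 by omega), hlev, min_self] at hc3
        exact Drel_same hc2 hc3
    · obtain ⟨k, hk⟩ : ∃ k, 2 * K = m + k := ⟨2 * K - m, by omega⟩
      have hl1 : 2 * K + 1 - m = k + 1 := by omega
      have hl2 : 2 * K + 1 - (m + 1) = k := by omega
      rw [C_lev_close hmK, C_lev_close (show K < m + 1 by omega), hl1, hl2,
        min_eq_right (by omega)]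
      cases isT2
      · simp only [Bool.toNat_false, add_zero] at hc2 hc3
        rw [C_lev_close hmK, hl1, min_self] at hc2
        rw [C_lev_close hmK, C_lev_close (show K < m + 1 by omega), hl1, hl2,
          min_eq_right (by omega)] at hc3
        exact Drel_same (Drel_coarsen (by omega) hc2) hc3
      · simp only [Bool.toNat_true] at hc2 hc3
        rw [C_lev_close hmK, C_lev_close (show K < m + 1 by omega), hl1, hl2,
          min_eq_left (by omega)] at hc2
        rw [C_lev_close (show K < m + 1 by omega), hl2, min_self] at hc3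
        exact Drel_same hc2 hc3

end Crest.Agent.S0066
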