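import Crest.Agent.S0066_Classify

/-! # S0066, package R1 : two counting lemmas -/

set_option autoImplicit false

namespace Crest.Agent.S0066

variable {h K F : ℕ}

/-- `(p,q,q') ↦ (p.2, q.2 % sz h K, q'.2 % sz h K)` is injective on the `VTriple`s -/
theorem card_VTriple (hK : K ≤ h) :
    Nat.card {t : MainL h K × MainL h K × MainL h K // VTriple t.1 t.2.1 t.2.2} ≤
      2 ^ h * sz h K * sz h K := by
  classical
  have hsz : 0 < sz h K := by unfold sz; positivity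
  let φ : {t : MainL h K × MainL h K × MainL h K // VTriple t.1 t.2.1 t.2.2} →
      Fin (2 ^ h) × Fin (sz h K) × Fin (sz h K) :=
    fun t => (t.1.1.2, ⟨t.1.2.1.2.val % sz h K, Nat.mod_lt _ hsz⟩,
      ⟨t.1.2.2.2.val % sz h K, Nat.mod_lt _ hsz⟩)
  have hφ : Function.Injective φ := by
    rintro ⟨⟨p, q, q'⟩, hv⟩ ⟨⟨p2, q2, q2'⟩, hv2⟩ heq
    simp only [φ, Prod.mk.injEq, Fin.mk.injEq] at heq
    obtain ⟨e1, e2, e3⟩ := heq
    obtain ⟨a1, a2, a3, a4, a5⟩ := hv
    obtain ⟨b1, b2, b3, b4, b5⟩ := hv2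
    simp only at a1 a2 a3 a4 a5 b1 b2 b3 b4 b5
    have hp : p = p2 := Prod.ext (Fin.ext (a1.trans b1.symm)) e1
    have hnq : nd h K q.2 = nd h K q2.2 := by
      rw [e1] at a5; omega
    have hnq' : nd h K q'.2 = nd h K q2'.2 := by omega
    unfold nd at hnq hnq'
    have hq2 : q.2.val = q2.2.val := by
      rw [← Nat.div_add_mod q.2.val (sz h K), ← Nat.div_add_mod q2.2.val (sz h K), hnq, e2]
    have hq2' : q'.2.val = q2'.2.val := by
      rw [← Nat.div_add_mod q'.2.val (sz h K), ← Nat.div_add_mod q2'.2.val (sz h K), hnq', e3]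
    have hq : q = q2 := Prod.ext (Fin.ext (a2.trans b2.symm)) (Fin.ext hq2)
    have hq' : q' = q2' := Prod.ext (Fin.ext (a3.trans b3.symm)) (Fin.ext hq2')
    subst hp hq hq'
    rfl
  have hle := Nat.card_le_card_of_injective φ hφ
  simpa [Nat.card_eq_fintype_card, Fintype.card_prod, mul_assoc] using hle

/-- general counting: `(f,g) ↦ ((f 0, g 0, g 1), f ∘ succ, g ∘ succ ∘ succ)` is injective -/
theorem card_pairs_le {Λ : Type} [Fintype Λ] (V : Λ → Λ → Λ → Prop) (v : ℕ)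
    (hV : Nat.card {t : Λ × Λ × Λ // V t.1 t.2.1 t.2.2} ≤ v) :
    Nat.card {fg : (Fin 66 → Λ) × (Fin 66 → Λ) // V (fg.1 0) (fg.2 0) (fg.2 1)} ≤
      v * Fintype.card Λ ^ 129 := by
  classical
  let φ : {fg : (Fin 66 → Λ) × (Fin 66 → Λ) // V (fg.1 0) (fg.2 0) (fg.2 1)} →
      {t : Λ × Λ × Λ // V t.1 t.2.1 t.2.2} × (Fin 65 → Λ) × (Fin 64 → Λ) :=
    fun x => (⟨(x.1.1 0, x.1.2 0, x.1.2 1), x.2⟩, fun i => x.1.1 i.succ,
      fun i => x.1.2 i.succ.succ)
  have hφ : Function.Injective φ := by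
    rintro ⟨⟨f, g⟩, hv⟩ ⟨⟨f2, g2⟩, hv2⟩ heq
    simp only [φ, Prod.mk.injEq, Subtype.mk.injEq] at heq
    obtain ⟨⟨e1, e2, e3⟩, e4, e5⟩ := heq
    have hf : f = f2 := by
      funext i
      refine Fin.cases e1 (fun j => ?_) i
      exact congrFun e4 j
    have hg : g = g2 := by
      funext i
      refine Fin.cases e2 (fun j => ?_) i
      refine Fin.cases e3 (fun k => ?_) j
      exact congrFun e5 k
    subst hf hg
    rfl
  have hle := Nat.card_le_card_of_injective φ hφ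
  have hcard : Nat.card ({t : Λ × Λ × Λ // V t.1 t.2.1 t.2.2} × (Fin 65 → Λ) × (Fin 64 → Λ)) =
      Nat.card {t : Λ × Λ × Λ // V t.1 t.2.1 t.2.2} * Fintype.card Λ ^ 129 := by
    rw [Nat.card_prod, Nat.card_prod, Nat.card_eq_fintype_card (α := Fin 65 → Λ),
      Nat.card_eq_fintype_card (α := Fin 64 → Λ), Fintype.card_fun, Fintype.card_fun,
      Fintype.card_fin, Fintype.card_fin, ← pow_add]
  rw [hcard] at hle
  exact le_trans hle (Nat.mul_le_mul_right _ hV)

end Crest.Agent.S0066
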