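import Mathlib

/-!
# S0066 : definitions of the construction

`N = 2^h`.  Main letters `m ∈ [0, 2K+1]` (`m ≤ K` : "Open" of level `m`, `m > K` : "Close" of level
`2K+1-m`), each with `N` lines.  Links `τ = (m, isT2, c)`, `m ∈ [0,2K]`, each with `67` auxiliary
letters of `N` lines (`t = 0,1,2` : `d1,d2,d3`; `t = 3,4` : `e2,e3`; `t ≥ 5` : all-ones pads).
Filler lines are all-ones.
-/

set_option autoImplicit false

namespace Crest.Agent.S0066

/-! ### The pattern -/

/-- the pattern on naturals: all ones except seven zeros in the top left `4 × 4` corner -/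
def Hn (i j : ℕ) : Bool :=
  !decide ((i = 0 ∧ j = 1) ∨ (i = 0 ∧ j = 3) ∨ (i = 1 ∧ j = 0) ∨ (i = 1 ∧ j = 2) ∨
    (i = 2 ∧ j = 1) ∨ (i = 3 ∧ j = 0) ∨ (i = 3 ∧ j = 3))

def Hpat : Fin 66 → Fin 66 → Bool := fun i j => Hn i.val j.val

theorem Hn_eq_true_iff (i j : ℕ) : Hn i j = true ↔
    ¬ ((i = 0 ∧ j = 1) ∨ (i = 0 ∧ j = 3) ∨ (i = 1 ∧ j = 0) ∨ (i = 1 ∧ j = 2) ∨
    (i = 2 ∧ j = 1) ∨ (i = 3 ∧ j = 0) ∨ (i = 3 ∧ j = 3)) := by
  unfold Hn
  rw [Bool.not_eq_true', decide_eq_false_iff_not]

theorem Hn_symm (i j : ℕ) : Hn i j = Hn j i := by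
  have h1 := Hn_eq_true_iff i j
  have h2 := Hn_eq_true_iff j i
  have : Hn i j = true ↔ Hn j i = true := by
    rw [h1, h2]; omega
  exact Bool.eq_iff_iff.mpr this

theorem Hpat_symm (i j : Fin 66) : Hpat i j = Hpat j i := Hn_symm _ _

/-- A matrix over a (pre)ordered index type contains an ordered copy of the pattern. -/
def HasCopy {Λ : Type} [Preorder Λ] (B : Λ → Λ → Bool) : Prop :=
  ∃ f g : Fin 66 → Λ, StrictMono f ∧ StrictMono g ∧ ∀ i j, B (f i) (g j) = Hpat i j

/-! ### Dyadic arithmetic -/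

/-- level of the main letter `m` -/
def lev (K m : ℕ) : ℕ := if m ≤ K then m else 2 * K + 1 - m
/-- size of a node of level `k` -/
def sz (h k : ℕ) : ℕ := 2 ^ (h - k)
/-- index of the level-`k` node containing `x` -/
def nd (h k x : ℕ) : ℕ := x / sz h k
/-- left end of the node of `x` for the letter `m` -/
def lo (h K m x : ℕ) : ℕ := nd h (lev K m) x * sz h (lev K m)
/-- right end of the node of `x` for the letter `m` -/
def hi (h K m x : ℕ) : ℕ := lo h K m x + sz h (lev K m)
/-- physical position (bracket order) -/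
def pos (h K m x : ℕ) : ℕ := if m ≤ K then 2 * lo h K m x + 1 else 2 * hi h K m x
/-- potential (threshold matrix) -/
def pot (h K m x : ℕ) : ℕ := if m ≤ K then 2 * hi h K m x else 2 * lo h K m x + 1
/-- parity of the node -/
def par (h K m x : ℕ) : ℕ := nd h (lev K m) x % 2

/-- `x` and `y` lie in complementary nodes of level `k`. -/
def Drel (h k x y : ℕ) : Prop := nd h k x + nd h k y + 1 = 2 ^ k

instance (h k x y : ℕ) : Decidable (Drel h k x y) := by unfold Drel; infer_instance

/-! ### Lines -/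

abbrev MainL (h K : ℕ) := Fin (2 * K + 2) × Fin (2 ^ h)
abbrev Link (K : ℕ) := Fin (2 * K + 1) × Bool × Bool

inductive Line (h K F : ℕ) : Type
  | main (p : MainL h K) : Line h K F
  | aux (τ : Link K) (t : Fin 67) (u : Fin (2 ^ h)) : Line h K F
  | fill (f : Fin F) : Line h K F
  deriving DecidableEq

variable {h K F : ℕ}

/-- the letter with number `m` (meaningful for `m ≤ 2K+1`) -/
def ltr (K m : ℕ) : Fin (2 * K + 2) := ⟨min m (2 * K + 1), by omega⟩

theorem ltr_val {m : ℕ} (hm : m ≤ 2 * K + 1) : (ltr K m).val = m := by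
  simp [ltr, hm]

def Line.equivSum : Line h K F ≃ (MainL h K ⊕ (Link K × Fin 67 × Fin (2 ^ h))) ⊕ Fin F where
  toFun r := Line.casesOn r (fun p => Sum.inl (Sum.inl p)) (fun τ t u => Sum.inl (Sum.inr (τ, t, u)))
    (fun f => Sum.inr f)
  invFun s := Sum.elim (Sum.elim Line.main (fun a => Line.aux a.1 a.2.1 a.2.2)) Line.fill s
  left_inv r := by cases r <;> rfl
  right_inv s := by rcases s with (p | a) | f <;> rfl

instance : Fintype (Line h K F) := Fintype.ofEquiv _ Line.equivSum.symm

theorem card_line : Fintype.card (Line h K F) = (538 * K + 270) * 2 ^ h + F := by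
  rw [Fintype.card_congr Line.equivSum]
  simp only [Fintype.card_sum, Fintype.card_prod, Fintype.card_fin, Fintype.card_bool]
  ring

theorem sum_line {M : Type} [AddCommMonoid M] (g : Line h K F → M) :
    ∑ r, g r = ∑ p, g (Line.main p) + ∑ τ, ∑ t, ∑ u, g (Line.aux τ t u) + ∑ f, g (Line.fill f) := by
  rw [← Equiv.sum_comp Line.equivSum.symm g, Fintype.sum_sum_type, Fintype.sum_sum_type]
  congr 1
  congr 1
  rw [Fintype.sum_prod_type]
  refine Finset.sum_congr rfl fun τ _ => ?_
  rw [Fintype.sum_prod_type]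
  rfl

/-! ### The order -/

def idx (τ : Link K) : ℕ := 4 * τ.1.val + 2 * τ.2.1.toNat + τ.2.2.toNat

theorem idx_inj {τ τ' : Link K} : idx τ = idx τ' ↔ τ = τ' := by
  constructor
  · obtain ⟨m, a, b⟩ := τ
    obtain ⟨m', a', b'⟩ := τ'
    intro hh
    simp only [idx] at hh
    have : m.val = m'.val ∧ a = a' ∧ b = b' := by
      cases a <;> cases a' <;> cases b <;> cases b' <;> simp at hh ⊢ <;> omega
    obtain ⟨h1, h2, h3⟩ := this
    rw [Fin.ext h1, h2, h3]
  · rintro rfl; rfl

def key (r : Line h K F) : ℕ ×ₗ ℕ ×ₗ ℕ ×ₗ ℕ :=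
  Line.casesOn r
    (fun p => toLex (0, toLex (pos h K p.1 p.2, toLex (p.1.val, p.2.val))))
    (fun τ t u => toLex (1, toLex (idx τ, toLex (t.val, u.val))))
    (fun f => toLex (2, toLex (f.val, toLex (0, 0))))

theorem key_injective : Function.Injective (key : Line h K F → _) := by
  intro r s hrs
  cases r with
  | main p =>
    cases s with
    | main q =>
      simp only [key, EmbeddingLike.apply_eq_iff_eq, Prod.mk.injEq, true_and] at hrs
      obtain ⟨-, h1, h2⟩ := hrs
      congr 1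
      exact Prod.ext (Fin.ext h1) (Fin.ext h2)
    | aux τ t u => simp [key] at hrs
    | fill f => simp [key] at hrs
  | aux τ t u =>
    cases s with
    | main q => simp [key] at hrs
    | aux τ' t' u' =>
      simp only [key, EmbeddingLike.apply_eq_iff_eq, Prod.mk.injEq, true_and] at hrs
      obtain ⟨h0, h1, h2⟩ := hrs
      rw [idx_inj.mp h0, Fin.ext h1, Fin.ext h2]
    | fill f => simp [key] at hrs
  | fill f =>
    cases s with
    | main q => simp [key] at hrs
    | aux τ t u => simp [key] at hrs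
    | fill f' =>
      simp only [key, EmbeddingLike.apply_eq_iff_eq, Prod.mk.injEq, true_and, and_true] at hrs
      rw [Fin.ext hrs]

noncomputable instance : LinearOrder (Line h K F) := LinearOrder.lift' key key_injective

theorem lt_iff_key (r s : Line h K F) : r < s ↔ key r < key s := Iff.rfl

theorem main_lt_main (p q : MainL h K) : (Line.main p : Line h K F) < Line.main q ↔
    pos h K p.1 p.2 < pos h K q.1 q.2 ∨ (pos h K p.1 p.2 = pos h K q.1 q.2 ∧
      (p.1.val < q.1.val ∨ (p.1.val = q.1.val ∧ p.2.val < q.2.val))) := by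
  simp [lt_iff_key, key, Prod.Lex.toLex_lt_toLex]

theorem aux_lt_aux (τ τ' : Link K) (t t' : Fin 67) (u u' : Fin (2 ^ h)) :
    (Line.aux τ t u : Line h K F) < Line.aux τ' t' u' ↔
    idx τ < idx τ' ∨ (τ = τ' ∧ (t.val < t'.val ∨ (t.val = t'.val ∧ u.val < u'.val))) := by
  simp [lt_iff_key, key, Prod.Lex.toLex_lt_toLex, idx_inj]

theorem main_lt_aux (p : MainL h K) (τ : Link K) (t : Fin 67) (u : Fin (2 ^ h)) :
    (Line.main p : Line h K F) < Line.aux τ t u := by
  simp [lt_iff_key, key, Prod.Lex.toLex_lt_toLex]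

theorem main_lt_fill (p : MainL h K) (f : Fin F) :
    (Line.main p : Line h K F) < Line.fill f := by
  simp [lt_iff_key, key, Prod.Lex.toLex_lt_toLex]

theorem aux_lt_fill (τ : Link K) (t : Fin 67) (u : Fin (2 ^ h)) (f : Fin F) :
    (Line.aux τ t u : Line h K F) < Line.fill f := by
  simp [lt_iff_key, key, Prod.Lex.toLex_lt_toLex]

theorem not_aux_lt_main (p : MainL h K) (τ : Link K) (t : Fin 67) (u : Fin (2 ^ h)) :
    ¬ (Line.aux τ t u : Line h K F) < Line.main p := (main_lt_aux p τ t u).asymm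

theorem not_fill_lt_main (p : MainL h K) (f : Fin F) :
    ¬ (Line.fill f : Line h K F) < Line.main p := (main_lt_fill p f).asymm

theorem not_fill_lt_aux (τ : Link K) (t : Fin 67) (u : Fin (2 ^ h)) (f : Fin F) :
    ¬ (Line.fill f : Line h K F) < Line.aux τ t u := (aux_lt_fill τ t u f).asymm

/-! ### Links -/

/-- the fixed line of the link -/
def memRho (τ : Link K) (p : MainL h K) : Prop :=
  p.1.val = τ.1.val + τ.2.1.toNat ∧ par h K p.1 p.2 = τ.2.2.toNat

/-- the source lines of the link -/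
def memL (τ : Link K) (p : MainL h K) : Prop :=
  p.1.val = τ.1.val ∧ (K < τ.1.val → τ.2.1 = false → par h K p.1 p.2 + τ.2.2.toNat = 1)

/-- the target lines of the link -/
def memR (τ : Link K) (p : MainL h K) : Prop :=
  p.1.val = τ.1.val + 1 ∧ (τ.1.val < K → τ.2.1 = true → par h K p.1 p.2 + τ.2.2.toNat = 1)

/-! ### The matrix -/

/-- main × main : a threshold matrix -/
def Mmain (p q : MainL h K) : Prop :=
  2 * 2 ^ h + 1 < pot h K p.1 p.2 + pot h K q.1 q.2

/-- aux letter `t` of the link `τ` against a main line -/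
def auxMain (τ : Link K) (t : ℕ) (p : MainL h K) : Prop :=
  5 ≤ t ∨ ((t = 0 ∨ t = 2) ∧ memR τ p) ∨ (t = 1 ∧ memL τ p) ∨ (t = 3 ∧ memRho τ p)

/-- aux letters `t`, `t'` of the same link -/
def auxAux (t t' : ℕ) : Prop :=
  (t = 0 ∧ t' = 4) ∨ (t = 1 ∧ t' = 3) ∨ (t = 1 ∧ t' = 4) ∨ (t = 2 ∧ t' = 3) ∨
  (t = 4 ∧ t' = 0) ∨ (t = 3 ∧ t' = 1) ∨ (t = 4 ∧ t' = 1) ∨ (t = 3 ∧ t' = 2)

/-- the matrix as a relation -/
def AP (r c : Line h K F) : Prop :=
  Line.casesOn r
    (fun p => Line.casesOn c (fun q => Mmain p q) (fun τ t _ => auxMain τ t.val p) (fun _ => True))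
    (fun τ t _ => Line.casesOn c (fun q => auxMain τ t.val q)
      (fun τ' t' _ => 5 ≤ t.val ∨ 5 ≤ t'.val ∨ (τ = τ' ∧ auxAux t.val t'.val)) (fun _ => True))
    (fun _ => True)

@[simp] theorem AP_main_main (p q : MainL h K) :
    AP (Line.main p : Line h K F) (Line.main q) ↔ Mmain p q := Iff.rfl
@[simp] theorem AP_main_aux (p : MainL h K) (τ : Link K) (t : Fin 67) (u : Fin (2 ^ h)) :
    AP (Line.main p : Line h K F) (Line.aux τ t u) ↔ auxMain τ t.val p := Iff.rfl
@[simp] theorem AP_aux_main (p : MainL h K) (τ : Link K) (t : Fin 67) (u : Fin (2 ^ h)) :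
    AP (Line.aux τ t u : Line h K F) (Line.main p) ↔ auxMain τ t.val p := Iff.rfl
@[simp] theorem AP_aux_aux (τ τ' : Link K) (t t' : Fin 67) (u u' : Fin (2 ^ h)) :
    AP (Line.aux τ t u : Line h K F) (Line.aux τ' t' u') ↔
      (5 ≤ t.val ∨ 5 ≤ t'.val ∨ (τ = τ' ∧ auxAux t.val t'.val)) := Iff.rfl
@[simp] theorem AP_fill_left (f : Fin F) (c : Line h K F) : AP (Line.fill f) c := trivial
@[simp] theorem AP_fill_right (f : Fin F) (r : Line h K F) : AP r (Line.fill f) := by
  cases r <;> trivial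

theorem auxAux_symm (t t' : ℕ) : auxAux t t' ↔ auxAux t' t := by
  unfold auxAux; omega

theorem Mmain_symm (p q : MainL h K) : Mmain p q ↔ Mmain q p := by
  unfold Mmain; omega

theorem AP_symm (r c : Line h K F) : AP r c ↔ AP c r := by
  cases r <;> cases c <;> simp [Mmain_symm, auxAux_symm, eq_comm, or_left_comm]

open Classical in
/-- the matrix -/
noncomputable def Amat (r c : Line h K F) : Bool := decide (AP r c)

theorem Amat_eq_true_iff (r c : Line h K F) : Amat r c = true ↔ AP r c := by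
  simp [Amat]

theorem Amat_eq_false_iff (r c : Line h K F) : Amat r c = false ↔ ¬ AP r c := by
  simp [Amat]

theorem Amat_symm (r c : Line h K F) : Amat r c = Amat c r :=
  Bool.eq_iff_iff.mpr (by rw [Amat_eq_true_iff, Amat_eq_true_iff, AP_symm])

/-! ### Flip indicators and the quantities of the farness proof -/

/-- indicator of a one of `B` -/
def bb (B : Line h K F → Line h K F → Bool) (r c : Line h K F) : ℕ := if B r c = true then 1 else 0

/-- indicator of a cell where `B` differs from the matrix -/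
noncomputable def fl (B : Line h K F → Line h K F → Bool) (r c : Line h K F) : ℕ :=
  if Amat r c ≠ B r c then 1 else 0

noncomputable def XX (B : Line h K F → Line h K F → Bool) (τ : Link K) (r : MainL h K)
    (v : Fin (2 ^ h)) : ℕ := ∑ t : Fin 67, fl B (Line.main r) (Line.aux τ t v)

noncomputable def YY (B : Line h K F → Line h K F → Bool) (τ : Link K) (u : Fin (2 ^ h))
    (c : MainL h K) : ℕ := ∑ t : Fin 67, fl B (Line.aux τ t u) (Line.main c)

noncomputable def WW (B : Line h K F → Line h K F → Bool) (τ : Link K) (u v : Fin (2 ^ h)) : ℕ :=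
  ∑ t : Fin 67, ∑ t' : Fin 67, fl B (Line.aux τ t u) (Line.aux τ t' v)

/-- number of flips in the region of the link `τ` -/
noncomputable def FL (B : Line h K F → Line h K F → Bool) (τ : Link K) : ℕ :=
  (∑ r : MainL h K, ∑ v, XX B τ r v) + (∑ u, ∑ c : MainL h K, YY B τ u c) + ∑ u, ∑ v, WW B τ u v

/-- level of the region (letter `a`) × (letter `b`) -/
def lv (K a b : ℕ) : ℕ := min (lev K a) (lev K b)

/-- weighted number of ones of `B` in the region (letter `a`) × (letter `b`) -/
def QQ (B : Line h K F → Line h K F → Bool) (a b : ℕ) : ℕ :=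
  2 ^ lv K a b * ∑ z : Fin (2 ^ h), ∑ w : Fin (2 ^ h),
    if Drel h (lv K a b) z w then bb B (Line.main (ltr K a, z)) (Line.main (ltr K b, w)) else 0

/-- transposed matrix -/
def tr (B : Line h K F → Line h K F → Bool) : Line h K F → Line h K F → Bool := fun r c => B c r

end Crest.Agent.S0066
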