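import Crest.Agent.S0066_Defs

/-! # S0066, package D : dyadic arithmetic toolkit -/

set_option autoImplicit false

namespace Crest.Agent.S0066

open Finset

theorem sz_pos (h k : ℕ) : 0 < sz h k := by
  unfold sz; positivity

theorem sz_succ {h k : ℕ} (hk : k < h) : sz h k = 2 * sz h (k + 1) := by
  unfold sz
  have : h - k = (h - (k + 1)) + 1 := by omega
  rw [this, pow_succ]; ring

theorem two_pow_mul_sz {h k : ℕ} (hk : k ≤ h) : 2 ^ k * sz h k = 2 ^ h := by
  unfold sz
  rw [← pow_add]
  congr 1; omega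

theorem nd_lt {h k x : ℕ} (hk : k ≤ h) (hx : x < 2 ^ h) : nd h k x < 2 ^ k := by
  unfold nd
  rw [Nat.div_lt_iff_lt_mul (sz_pos h k), two_pow_mul_sz hk]
  exact hx

theorem nd_succ {h k : ℕ} (hk : k < h) (x : ℕ) : nd h k x = nd h (k + 1) x / 2 := by
  unfold nd
  rw [sz_succ hk, Nat.div_div_eq_div_mul, mul_comm]

theorem Drel_symm {h k x y : ℕ} : Drel h k x y ↔ Drel h k y x := by
  unfold Drel; omega

theorem Drel_coarsen {h k x y : ℕ} (hk : k < h) (hD : Drel h (k + 1) x y) : Drel h k x y := by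
  unfold Drel at *
  rw [nd_succ hk x, nd_succ hk y]
  rw [pow_succ] at hD
  omega

theorem Drel_par {h k x y : ℕ} (hD : Drel h (k + 1) x y) :
    nd h (k + 1) x % 2 + nd h (k + 1) y % 2 = 1 := by
  unfold Drel at *
  rw [pow_succ] at hD
  omega

/-- two lines complementary to the same line lie in the same node -/
theorem Drel_same {h k x y y' : ℕ} (h1 : Drel h k x y) (h2 : Drel h k x y') :
    nd h k y = nd h k y' := by
  unfold Drel at *; omega

/-- number of `w < 2^h` in a given node -/
theorem D_card_nd_eq {h k : ℕ} (hk : k ≤ h) {a : ℕ} (ha : a < 2 ^ k) :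
    (univ.filter (fun w : Fin (2 ^ h) => nd h k w = a)).card = sz h k := by
  have hs := sz_pos h k
  have hN := two_pow_mul_sz hk
  have hcard : ((Finset.Ico (a * sz h k) (a * sz h k + sz h k))).card = sz h k := by
    rw [Nat.card_Ico]; omega
  rw [← hcard]
  refine Finset.card_bij (fun w _ => (w : ℕ)) ?_ ?_ ?_
  · intro w hw
    rw [Finset.mem_filter] at hw
    have h1 : (w : ℕ) / sz h k = a := hw.2
    rw [Finset.mem_Ico]
    have h2 := Nat.div_add_mod (w : ℕ) (sz h k)
    have h3 := Nat.mod_lt (w : ℕ) hs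
    rw [h1, mul_comm] at h2
    omega
  · intro w _ w' _ hww
    exact Fin.ext hww
  · intro b hb
    rw [Finset.mem_Ico] at hb
    have hb2 : b < 2 ^ h := by
      have : (a + 1) * sz h k ≤ 2 ^ k * sz h k := Nat.mul_le_mul_right _ ha
      rw [hN] at this
      have h4 : (a + 1) * sz h k = a * sz h k + sz h k := by ring
      omega
    refine ⟨⟨b, hb2⟩, ?_, rfl⟩
    rw [Finset.mem_filter]
    refine ⟨Finset.mem_univ _, ?_⟩
    show b / sz h k = a
    apply Nat.div_eq_of_lt_le
    · exact hb.1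
    · have h4 : (a + 1) * sz h k = a * sz h k + sz h k := by ring
      omega

theorem card_Drel_right {h k : ℕ} (hk : k ≤ h) (z : Fin (2 ^ h)) :
    (univ.filter (fun w : Fin (2 ^ h) => Drel h k z w)).card = sz h k := by
  have hz := nd_lt hk z.2
  have ha : 2 ^ k - 1 - nd h k z < 2 ^ k := by omega
  rw [← D_card_nd_eq hk ha]
  congr 1
  ext w
  simp only [Finset.mem_filter, Finset.mem_univ, true_and]
  unfold Drel
  omega

theorem card_Drel_left {h k : ℕ} (hk : k ≤ h) (w : Fin (2 ^ h)) :
    (univ.filter (fun z : Fin (2 ^ h) => Drel h k z w)).card = sz h k := by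
  simpa only [Drel_symm (x := _) (y := (w : ℕ))] using card_Drel_right hk w

theorem lev_le {K m : ℕ} (hm : m ≤ 2 * K + 1) : lev K m ≤ K := by
  unfold lev; split_ifs <;> omega

theorem lv_le {K a b : ℕ} (ha : a ≤ 2 * K + 1) : lv K a b ≤ K :=
  le_trans (min_le_left _ _) (lev_le ha)

end Crest.Agent.S0066
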