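import Crest.Agent.S0066_Step

/-! # S0066, package F1 : the chain -/

set_option autoImplicit false

namespace Crest.Agent.S0066

variable {h K F : ℕ}

theorem not_hasCopy_tr (B : Line h K F → Line h K F → Bool) (hB : ¬ HasCopy B) :
    ¬ HasCopy (tr B) := by
  rintro ⟨f, g, hf, hg, hfg⟩
  exact hB ⟨g, f, hg, hf, fun i j => by rw [Hpat_symm]; exact hfg j i⟩

theorem F1_bb_tr (B : Line h K F → Line h K F → Bool) (r c : Line h K F) :
    bb (tr B) r c = bb B c r := rfl

theorem F1_fl_tr (B : Line h K F → Line h K F → Bool) (r c : Line h K F) :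
    fl (tr B) r c = fl B c r := by
  unfold fl tr
  rw [Amat_symm]

theorem QQ_tr (B : Line h K F → Line h K F → Bool) (a b : ℕ) : QQ (tr B) a b = QQ B b a := by
  unfold QQ
  have hlv : lv K a b = lv K b a := by unfold lv; exact min_comm _ _
  rw [hlv, Finset.sum_comm]
  congr 1
  refine Finset.sum_congr rfl fun w _ => Finset.sum_congr rfl fun z _ => ?_
  rw [F1_bb_tr]
  by_cases hD : Drel h (lv K b a) z w
  · rw [if_pos hD, if_pos (Drel_symm.mp hD)]
  · rw [if_neg hD, if_neg (fun hh => hD (Drel_symm.mp hh))]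

theorem FL_tr (B : Line h K F → Line h K F → Bool) (τ : Link K) : FL (tr B) τ = FL B τ := by
  unfold FL
  have h1 : (∑ r : MainL h K, ∑ v, XX (tr B) τ r v) = ∑ u, ∑ c : MainL h K, YY B τ u c := by
    rw [Finset.sum_comm]
    refine Finset.sum_congr rfl fun v _ => Finset.sum_congr rfl fun r _ => ?_
    unfold XX YY
    exact Finset.sum_congr rfl fun t _ => F1_fl_tr _ _ _
  have h2 : (∑ u, ∑ c : MainL h K, YY (tr B) τ u c) = ∑ r : MainL h K, ∑ v, XX B τ r v := by
    rw [Finset.sum_comm]
    refine Finset.sum_congr rfl fun v _ => Finset.sum_congr rfl fun r _ => ?_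
    unfold XX YY
    exact Finset.sum_congr rfl fun t _ => F1_fl_tr _ _ _
  have h3 : (∑ u, ∑ v, WW (tr B) τ u v) = ∑ u, ∑ v, WW B τ u v := by
    rw [Finset.sum_comm]
    refine Finset.sum_congr rfl fun v _ => Finset.sum_congr rfl fun r _ => ?_
    unfold WW
    rw [Finset.sum_comm]
    exact Finset.sum_congr rfl fun t _ => Finset.sum_congr rfl fun t' _ => F1_fl_tr _ _ _
  rw [h1, h2, h3]
  ring

/-- both half steps: `step B m false` and `step (tr B) m true` -/
theorem full_step (hK : K ≤ h) (B : Line h K F → Line h K F → Bool) (hB : ¬ HasCopy B)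
    (m : Fin (2 * K + 1)) :
    QQ B m.val m.val ≤ QQ B (m.val + 1) (m.val + 1) + ∑ a : Bool, ∑ c : Bool, FL B (m, a, c) := by
  have h1 := step hK B hB m false
  have h2 := step hK (tr B) (not_hasCopy_tr B hB) m true
  rw [QQ_tr, QQ_tr, FL_tr, FL_tr] at h2
  simp only [Bool.toNat_false, Bool.toNat_true, add_zero] at h1 h2
  simp only [Fintype.sum_bool]
  omega

theorem chain (hK : K ≤ h) (B : Line h K F → Line h K F → Bool) (hB : ¬ HasCopy B) :
    QQ B 0 0 ≤ QQ B (2 * K + 1) (2 * K + 1) + ∑ τ : Link K, FL B τ := by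
  set G : ℕ → ℕ := fun m =>
    if hm : m < 2 * K + 1 then ∑ a : Bool, ∑ c : Bool, FL B (⟨m, hm⟩, a, c) else 0 with hG
  have key : ∀ j, j ≤ 2 * K + 1 → QQ B 0 0 ≤ QQ B j j + ∑ m ∈ Finset.range j, G m := by
    intro j
    induction j with
    | zero => intro _; simp
    | succ j ih =>
      intro hj
      have h1 := ih (by omega)
      have h2 := full_step hK B hB ⟨j, by omega⟩
      have h3 : G j = ∑ a : Bool, ∑ c : Bool, FL B (⟨j, by omega⟩, a, c) := by
        simp only [hG]
        rw [dif_pos (by omega)]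
      rw [Finset.sum_range_succ, h3]
      simp only at h2
      omega
  have h4 := key (2 * K + 1) le_rfl
  have h5 : ∑ m ∈ Finset.range (2 * K + 1), G m = ∑ τ : Link K, FL B τ := by
    rw [← Fin.sum_univ_eq_sum_range, Fintype.sum_prod_type]
    refine Finset.sum_congr rfl fun m _ => ?_
    rw [Fintype.sum_prod_type]
    simp only [hG]
    rw [dif_pos m.isLt]
  rw [h5] at h4
  exact h4

end Crest.Agent.S0066
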