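import Crest.Agent.S0066_Defs

/-! # S0066, package I : one instance of a link gives one inequality -/

set_option autoImplicit false

namespace Crest.Agent.S0066

variable {h K F : ℕ}

/-- aux letter playing the row role `i ≥ 1` -/
def I_rowL (i : Fin 66) : Fin 67 := ⟨if i.val ≤ 3 then i.val - 1 else i.val + 1, by split_ifs <;> omega⟩

/-- aux letter playing the column role `j ≥ 2` -/
def I_colL (j : Fin 66) : Fin 67 := ⟨j.val + 1, by omega⟩

def I_f (τ : Link K) (r : MainL h K) (u : Fin (2 ^ h)) (i : Fin 66) : Line h K F :=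
  if i.val = 0 then Line.main r else Line.aux τ (I_rowL i) u

def I_g (τ : Link K) (c c' : MainL h K) (v : Fin (2 ^ h)) (j : Fin 66) : Line h K F :=
  if j.val = 0 then Line.main c else if j.val = 1 then Line.main c' else Line.aux τ (I_colL j) v

theorem I_f_mono (τ : Link K) (r : MainL h K) (u : Fin (2 ^ h)) :
    StrictMono (I_f τ r u : Fin 66 → Line h K F) := by
  intro i j hij
  have hij' : i.val < j.val := hij
  unfold I_f
  have hj : j.val ≠ 0 := by omega
  rw [if_neg hj]
  split_ifs with hi
  · exact main_lt_aux _ _ _ _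
  · rw [aux_lt_aux]
    refine Or.inr ⟨rfl, Or.inl ?_⟩
    simp only [I_rowL]
    split_ifs <;> omega

theorem I_g_mono (τ : Link K) (c c' : MainL h K) (v : Fin (2 ^ h))
    (hlt : (Line.main c : Line h K F) < Line.main c') :
    StrictMono (I_g τ c c' v : Fin 66 → Line h K F) := by
  intro i j hij
  have hij' : i.val < j.val := hij
  unfold I_g
  have hj : j.val ≠ 0 := by omega
  rw [if_neg hj]
  by_cases hi0 : i.val = 0
  · rw [if_pos hi0]
    split_ifs
    · exact hlt
    · exact main_lt_aux _ _ _ _
  · rw [if_neg hi0]
    have hj1 : j.val ≠ 1 := by omega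
    rw [if_neg hj1]
    split_ifs
    · exact main_lt_aux _ _ _ _
    · rw [aux_lt_aux]
      refine Or.inr ⟨rfl, Or.inl ?_⟩
      simp only [I_colL]
      omega

theorem I_entries (τ : Link K) (r c c' : MainL h K) (hρ : memRho τ r) (hL : memL τ c)
    (hR : memR τ c') (u v : Fin (2 ^ h)) (i j : Fin 66) (hij : ¬ (i.val = 0 ∧ j.val ≤ 1)) :
    AP (I_f τ r u i : Line h K F) (I_g τ c c' v j) ↔ Hn i.val j.val = true := by
  rw [Hn_eq_true_iff]
  have hcL : ¬ memR τ c := fun hh => by
    have h1 := hh.1; have h2 := hL.1; omega
  have hcR : ¬ memL τ c' := fun hh => by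
    have h1 := hh.1; have h2 := hR.1; omega
  unfold I_f I_g
  by_cases hi : i.val = 0
  · have hj0 : j.val ≠ 0 := by omega
    have hj1 : j.val ≠ 1 := by omega
    rw [if_pos hi, if_neg hj0, if_neg hj1, AP_main_aux]
    unfold auxMain
    simp only [I_colL]
    constructor
    · intro _; omega
    · intro hh
      by_cases h5 : 5 ≤ j.val + 1
      · exact Or.inl h5
      · exact Or.inr (Or.inr (Or.inr ⟨by omega, hρ⟩))
  · rw [if_neg hi]
    by_cases hj0 : j.val = 0
    · rw [if_pos hj0, AP_aux_main]
      unfold auxMain
      simp only [I_rowL]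
      constructor
      · rintro (h5 | ⟨-, h5⟩ | ⟨h5, -⟩ | ⟨h5, -⟩)
        · split_ifs at h5 <;> omega
        · exact absurd h5 hcL
        · split_ifs at h5 <;> omega
        · split_ifs at h5 <;> omega
      · intro hh
        by_cases h3 : i.val ≤ 3
        · rw [if_pos h3]
          exact Or.inr (Or.inr (Or.inl ⟨by omega, hL⟩))
        · rw [if_neg h3]
          exact Or.inl (by omega)
    · rw [if_neg hj0]
      by_cases hj1 : j.val = 1
      · rw [if_pos hj1, AP_aux_main]
        unfold auxMain
        simp only [I_rowL]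
        constructor
        · rintro (h5 | ⟨h5, -⟩ | ⟨-, h5⟩ | ⟨h5, -⟩)
          · split_ifs at h5 <;> omega
          · split_ifs at h5 <;> omega
          · exact absurd h5 hcR
          · split_ifs at h5 <;> omega
        · intro hh
          by_cases h3 : i.val ≤ 3
          · rw [if_pos h3]
            exact Or.inr (Or.inl ⟨by omega, hR⟩)
          · rw [if_neg h3]
            exact Or.inl (by omega)
      · rw [if_neg hj1, AP_aux_aux]
        simp only [I_rowL, I_colL, true_and]
        by_cases h3 : i.val ≤ 3 ∧ j.val ≤ 3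
        · have hi' : i.val = 1 ∨ i.val = 2 ∨ i.val = 3 := by omega
          have hj' : j.val = 2 ∨ j.val = 3 := by omega
          unfold auxAux
          rcases hi' with hi' | hi' | hi' <;> rcases hj' with hj' | hj' <;> rw [hi', hj'] <;>
            norm_num
        · constructor
          · intro _; omega
          · intro _
            by_cases h4 : i.val ≤ 3
            · exact Or.inr (Or.inl (by omega))
            · rw [if_neg h4]
              exact Or.inl (by omega)

theorem instance_ineq (B : Line h K F → Line h K F → Bool) (hB : ¬ HasCopy B) (τ : Link K)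
    (r c c' : MainL h K) (hρ : memRho τ r) (hL : memL τ c) (hR : memR τ c')
    (hlt : (Line.main c : Line h K F) < Line.main c') (u v : Fin (2 ^ h)) :
    bb B (Line.main r) (Line.main c) ≤
      bb B (Line.main r) (Line.main c') + XX B τ r v + YY B τ u c + YY B τ u c' + WW B τ u v := by
  by_cases h1 : B (Line.main r) (Line.main c) = true
  swap
  · simp [bb, h1]
  by_cases h2 : B (Line.main r) (Line.main c') = true
  · simp only [bb, h1, h2, if_true]; omega
  have hbb : bb B (Line.main r) (Line.main c) = 1 := by simp [bb, h1]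
  rw [hbb]
  have hex : ∃ i j, B (I_f τ r u i) (I_g τ c c' v j) ≠ Hpat i j := by
    by_contra hcon
    push Not at hcon
    exact hB ⟨I_f τ r u, I_g τ c c' v, I_f_mono τ r u, I_g_mono τ c c' v hlt, hcon⟩
  obtain ⟨i, j, hne⟩ := hex
  have hij : ¬ (i.val = 0 ∧ j.val ≤ 1) := by
    rintro ⟨hi, hj⟩
    apply hne
    have hi' : i = 0 := Fin.ext hi
    subst hi'
    rcases Nat.le_one_iff_eq_zero_or_eq_one.mp hj with hj | hj
    · have hj' : j = 0 := Fin.ext hj
      subst hj'
      have h00 : Hpat 0 0 = true := by decide
      rw [h00]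
      simpa [I_f, I_g] using h1
    · have hj' : j = 1 := Fin.ext hj
      subst hj'
      have : B (Line.main r) (Line.main c') = false := by simpa using h2
      have h01 : Hpat 0 1 = false := by decide
      rw [h01]
      simpa [I_f, I_g] using this
  have hfl : fl B (I_f τ r u i) (I_g τ c c' v j) = 1 := by
    unfold fl
    rw [if_pos]
    intro heq
    apply hne
    rw [← heq]
    exact Bool.eq_iff_iff.mpr (by
      rw [Amat_eq_true_iff, I_entries τ r c c' hρ hL hR u v i j hij]; rfl)
  by_cases hi : i.val = 0
  · have hj0 : j.val ≠ 0 := by omega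
    have hj1 : j.val ≠ 1 := by omega
    have : fl B (Line.main r) (Line.aux τ (I_colL j) v) ≤ XX B τ r v :=
      Finset.single_le_sum (f := fun t => fl B (Line.main r) (Line.aux τ t v))
        (fun _ _ => Nat.zero_le _) (Finset.mem_univ _)
    simp only [I_f, I_g, if_pos hi, if_neg hj0, if_neg hj1] at hfl
    omega
  · by_cases hj0 : j.val = 0
    · have : fl B (Line.aux τ (I_rowL i) u) (Line.main c) ≤ YY B τ u c :=
        Finset.single_le_sum (f := fun t => fl B (Line.aux τ t u) (Line.main c))
          (fun _ _ => Nat.zero_le _) (Finset.mem_univ _)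
      simp only [I_f, I_g, if_neg hi, if_pos hj0] at hfl
      omega
    · by_cases hj1 : j.val = 1
      · have : fl B (Line.aux τ (I_rowL i) u) (Line.main c') ≤ YY B τ u c' :=
          Finset.single_le_sum (f := fun t => fl B (Line.aux τ t u) (Line.main c'))
            (fun _ _ => Nat.zero_le _) (Finset.mem_univ _)
        simp only [I_f, I_g, if_neg hi, if_neg hj0, if_pos hj1] at hfl
        omega
      · have h3 : fl B (Line.aux τ (I_rowL i) u) (Line.aux τ (I_colL j) v) ≤
            ∑ t' : Fin 67, fl B (Line.aux τ (I_rowL i) u) (Line.aux τ t' v) :=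
          Finset.single_le_sum (f := fun t' => fl B (Line.aux τ (I_rowL i) u) (Line.aux τ t' v))
            (fun _ _ => Nat.zero_le _) (Finset.mem_univ _)
        have h4 : ∑ t' : Fin 67, fl B (Line.aux τ (I_rowL i) u) (Line.aux τ t' v) ≤ WW B τ u v :=
          Finset.single_le_sum
            (f := fun t => ∑ t' : Fin 67, fl B (Line.aux τ t u) (Line.aux τ t' v))
            (fun _ _ => Nat.zero_le _) (Finset.mem_univ _)
        simp only [I_f, I_g, if_neg hi, if_neg hj0, if_neg hj1] at hfl
        omega

end Crest.Agent.S0066
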