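import Mathlib

/-! # S0066, package LS : the abstract averaging lemma for one link -/

set_option autoImplicit false

namespace Crest.Agent.S0066

open Finset

/-- Sum `hinst` over all `z w w' u v`.  Every term of the right side is then bounded using the
regularity of `D1`, `D2`; finally cancel one factor `N`. -/
theorem link_sum {N d1 d2 : ℕ} (P : Fin N → Prop) [DecidablePred P]
    (D1 D2 : Fin N → Fin N → Prop) [DecidableRel D1] [DecidableRel D2]
    (hD1r : ∀ z, (univ.filter (fun w => D1 z w)).card = d1)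
    (hD1c : ∀ w, (univ.filter (fun z => D1 z w)).card = d1)
    (hD2r : ∀ z, (univ.filter (fun w => D2 z w)).card = d2)
    (hD2c : ∀ w, (univ.filter (fun z => D2 z w)).card = d2)
    (b1 b2 X Y1 Y2 W : Fin N → Fin N → ℕ)
    (hinst : ∀ z w w' u v, P z → D1 z w → D2 z w' →
      b1 z w ≤ b2 z w' + X z v + Y1 u w + Y2 u w' + W u v) :
    N * (d2 * ∑ z, ∑ w, if P z ∧ D1 z w then b1 z w else 0) ≤
      N * (d1 * ∑ z, ∑ w, if P z ∧ D2 z w then b2 z w else 0) +
        d1 * d2 * ((∑ z, ∑ v, X z v) + (∑ u, ∑ w, Y1 u w) + (∑ u, ∑ w, Y2 u w) +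
          ∑ u, ∑ v, W u v) := by
  rcases Nat.eq_zero_or_pos N with hN | hN
  · subst hN; simp
  set F1 : Fin N → Finset (Fin N) := fun z => univ.filter (fun w => D1 z w) with hF1
  set F2 : Fin N → Finset (Fin N) := fun z => univ.filter (fun w => D2 z w) with hF2
  set Pz : Finset (Fin N) := univ.filter P with hPz
  have hS : ∀ (D : Fin N → Fin N → Prop) [DecidableRel D] (b : Fin N → Fin N → ℕ),
      (∑ z, ∑ w, if P z ∧ D z w then b z w else 0) =
        ∑ z ∈ Pz, ∑ w ∈ univ.filter (fun w => D z w), b z w := by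
    intro D _ b
    rw [hPz, Finset.sum_filter]
    apply Finset.sum_congr rfl
    intro z _
    by_cases hz : P z
    · simp [hz, Finset.sum_filter]
    · simp [hz]
  rw [hS D1 b1, hS D2 b2]
  set S1 := ∑ z ∈ Pz, ∑ w ∈ univ.filter (fun w => D1 z w), b1 z w with hS1
  set S2 := ∑ z ∈ Pz, ∑ w ∈ univ.filter (fun w => D2 z w), b2 z w with hS2
  -- regular double counting
  have hreg : ∀ (D : Fin N → Fin N → Prop) [DecidableRel D] (d : ℕ)
      (_ : ∀ w, (univ.filter (fun z => D z w)).card = d) (y : Fin N → ℕ),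
      ∑ z ∈ Pz, ∑ w ∈ univ.filter (fun w => D z w), y w ≤ d * ∑ w, y w := by
    intro D _ d hc y
    calc ∑ z ∈ Pz, ∑ w ∈ univ.filter (fun w => D z w), y w
        ≤ ∑ z, ∑ w ∈ univ.filter (fun w => D z w), y w :=
          Finset.sum_le_sum_of_subset (Finset.filter_subset _ _)
      _ = ∑ z, ∑ w, if D z w then y w else 0 := by
          apply Finset.sum_congr rfl; intro z _; rw [Finset.sum_filter]
      _ = ∑ w, ∑ z, if D z w then y w else 0 := Finset.sum_comm
      _ = ∑ w, d * y w := by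
          apply Finset.sum_congr rfl; intro w _
          rw [← Finset.sum_filter, Finset.sum_const, hc w, smul_eq_mul]
      _ = d * ∑ w, y w := by rw [Finset.mul_sum]
  have step1 : ∀ z ∈ Pz, ∀ u v,
      d2 * ∑ w ∈ univ.filter (fun w => D1 z w), b1 z w ≤
        d1 * ∑ w ∈ univ.filter (fun w => D2 z w), b2 z w + d1 * d2 * X z v +
          d2 * ∑ w ∈ univ.filter (fun w => D1 z w), Y1 u w +
          d1 * ∑ w ∈ univ.filter (fun w => D2 z w), Y2 u w + d1 * d2 * W u v := by
    intro z hz u v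
    have hPz' : P z := (Finset.mem_filter.mp hz).2
    have h : ∑ w ∈ univ.filter (fun w => D1 z w), ∑ w' ∈ univ.filter (fun w => D2 z w), b1 z w ≤
        ∑ w ∈ univ.filter (fun w => D1 z w), ∑ w' ∈ univ.filter (fun w => D2 z w),
          (b2 z w' + X z v + Y1 u w + Y2 u w' + W u v) := by
      apply Finset.sum_le_sum; intro w hw
      apply Finset.sum_le_sum; intro w' hw'
      exact hinst z w w' u v hPz' (Finset.mem_filter.mp hw).2 (Finset.mem_filter.mp hw').2
    simp only [Finset.sum_add_distrib, Finset.sum_const, hD1r z, hD2r z, smul_eq_mul,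
      ← Finset.mul_sum] at h
    nlinarith [h]
  -- sum over z
  have step2 : ∀ u v, d2 * S1 ≤ d1 * S2 + d1 * d2 * (∑ z, X z v) + d1 * d2 * (∑ w, Y1 u w) +
      d1 * d2 * (∑ w, Y2 u w) + d1 * d2 * (N * W u v) := by
    intro u v
    have h := Finset.sum_le_sum (fun z hz => step1 z hz u v)
    simp only [Finset.sum_add_distrib, ← Finset.mul_sum, Finset.sum_const, smul_eq_mul] at h
    have hX : ∑ z ∈ Pz, X z v ≤ ∑ z, X z v :=
      Finset.sum_le_sum_of_subset (Finset.filter_subset _ _)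
    have hY1 := hreg D1 d1 hD1c (fun w => Y1 u w)
    have hY2 := hreg D2 d2 hD2c (fun w => Y2 u w)
    have hc : Pz.card ≤ N := by
      calc Pz.card ≤ (univ : Finset (Fin N)).card := Finset.card_le_card (Finset.filter_subset _ _)
        _ = N := by simp
    have e1 : d1 * d2 * ∑ z ∈ Pz, X z v ≤ d1 * d2 * ∑ z, X z v := Nat.mul_le_mul_left _ hX
    have e2 : d2 * ∑ z ∈ Pz, ∑ w ∈ univ.filter (fun w => D1 z w), Y1 u w ≤
        d2 * (d1 * ∑ w, Y1 u w) := Nat.mul_le_mul_left _ hY1
    have e3 : d1 * ∑ z ∈ Pz, ∑ w ∈ univ.filter (fun w => D2 z w), Y2 u w ≤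
        d1 * (d2 * ∑ w, Y2 u w) := Nat.mul_le_mul_left _ hY2
    have e4 : Pz.card * (d1 * d2 * W u v) ≤ N * (d1 * d2 * W u v) := Nat.mul_le_mul_right _ hc
    nlinarith [h, e1, e2, e3, e4]
  -- sum over u, v
  have step3 := Finset.sum_le_sum (fun u (_ : u ∈ (univ : Finset (Fin N))) =>
    Finset.sum_le_sum (fun v (_ : v ∈ (univ : Finset (Fin N))) => step2 u v))
  simp only [Finset.sum_add_distrib, ← Finset.mul_sum, Finset.sum_const, smul_eq_mul,
    Finset.card_univ, Fintype.card_fin] at step3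
  have hcomm : ∑ v, ∑ z, X z v = ∑ z, ∑ v, X z v := Finset.sum_comm
  rw [hcomm] at step3
  apply Nat.le_of_mul_le_mul_left _ hN
  nlinarith [step3]

end Crest.Agent.S0066
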