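import Crest.Agent.S0066_Core
import Crest.Agent.S0066_Instance
import Crest.Agent.S0066_LinkSum

/-! # S0066, package S : one step of the chain -/

set_option autoImplicit false

namespace Crest.Agent.S0066

variable {h K F : ℕ}

theorem S_single_le {α β : Type} [Fintype α] [Fintype β] [DecidableEq α] (g : α × β → ℕ) (a : α) :
    ∑ z, g (a, z) ≤ ∑ r, g r := by
  rw [Fintype.sum_prod_type]
  exact Finset.single_le_sum (f := fun a => ∑ z, g (a, z)) (fun _ _ => Nat.zero_le _)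
    (Finset.mem_univ a)

theorem S_pair_le {α β : Type} [Fintype α] [Fintype β] [DecidableEq α] (g : α × β → ℕ) {a b : α}
    (hab : a ≠ b) : ∑ z, g (a, z) + ∑ z, g (b, z) ≤ ∑ r, g r := by
  rw [Fintype.sum_prod_type, ← Finset.sum_pair (f := fun a => ∑ z, g (a, z)) hab]
  exact Finset.sum_le_sum_of_subset (Finset.subset_univ _)

/-- restriction of the region sums of `FL` to the three letters used by the link -/
theorem FL_ge (B : Line h K F → Line h K F → Bool) (τ : Link K) :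
    (∑ z, ∑ v, XX B τ (ltr K (mrho τ), z) v) + (∑ u, ∑ w, YY B τ u (ltr K τ.1.val, w)) +
      (∑ u, ∑ w, YY B τ u (ltr K (τ.1.val + 1), w)) + (∑ u, ∑ v, WW B τ u v) ≤ FL B τ := by
  unfold FL
  have h1 : (∑ z, ∑ v, XX B τ (ltr K (mrho τ), z) v) ≤ ∑ r : MainL h K, ∑ v, XX B τ r v :=
    S_single_le (fun r : MainL h K => ∑ v, XX B τ r v) (ltr K (mrho τ))
  have hne : ltr K τ.1.val ≠ ltr K (τ.1.val + 1) := by
    intro hh
    have h3 := congrArg Fin.val hh
    have := τ.1.2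
    rw [ltr_val (by omega), ltr_val (by omega)] at h3
    omega
  have h2 : (∑ u, ∑ w, YY B τ u (ltr K τ.1.val, w)) +
      (∑ u, ∑ w, YY B τ u (ltr K (τ.1.val + 1), w)) ≤ ∑ u, ∑ c : MainL h K, YY B τ u c := by
    rw [← Finset.sum_add_distrib]
    exact Finset.sum_le_sum fun u _ => S_pair_le (fun c : MainL h K => YY B τ u c) hne
  omega

theorem S_mrho_le (τ : Link K) : mrho τ ≤ 2 * K + 1 := by
  have := τ.1.2
  have hT : τ.2.1.toNat ≤ 1 := by cases τ.2.1 <;> simp
  unfold mrho; omega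

/-- `link_sum` applied to the link `τ` -/
theorem link_ineq (hK : K ≤ h) (B : Line h K F → Line h K F → Bool) (hB : ¬ HasCopy B)
    (τ : Link K) :
    2 ^ h * (sz h (lv K (mrho τ) (τ.1.val + 1)) * ∑ z : Fin (2 ^ h), ∑ w : Fin (2 ^ h),
        if par h K (mrho τ) z = τ.2.2.toNat ∧ Drel h (lv K (mrho τ) τ.1.val) z w then
          bb B (Line.main (ltr K (mrho τ), z)) (Line.main (ltr K τ.1.val, w)) else 0) ≤
    2 ^ h * (sz h (lv K (mrho τ) τ.1.val) * ∑ z : Fin (2 ^ h), ∑ w : Fin (2 ^ h),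
        if par h K (mrho τ) z = τ.2.2.toNat ∧ Drel h (lv K (mrho τ) (τ.1.val + 1)) z w then
          bb B (Line.main (ltr K (mrho τ), z)) (Line.main (ltr K (τ.1.val + 1), w)) else 0) +
      sz h (lv K (mrho τ) τ.1.val) * sz h (lv K (mrho τ) (τ.1.val + 1)) * FL B τ := by
  have hk1 : lv K (mrho τ) τ.1.val ≤ h := le_trans (lv_le (S_mrho_le τ)) hK
  have hk2 : lv K (mrho τ) (τ.1.val + 1) ≤ h := le_trans (lv_le (S_mrho_le τ)) hK
  have key := link_sum (N := 2 ^ h) (d1 := sz h (lv K (mrho τ) τ.1.val))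
    (d2 := sz h (lv K (mrho τ) (τ.1.val + 1)))
    (fun z : Fin (2 ^ h) => par h K (mrho τ) z = τ.2.2.toNat)
    (fun z w : Fin (2 ^ h) => Drel h (lv K (mrho τ) τ.1.val) z w)
    (fun z w : Fin (2 ^ h) => Drel h (lv K (mrho τ) (τ.1.val + 1)) z w)
    (fun z => card_Drel_right hk1 z) (fun w => card_Drel_left hk1 w)
    (fun z => card_Drel_right hk2 z) (fun w => card_Drel_left hk2 w)
    (fun z w => bb B (Line.main (ltr K (mrho τ), z)) (Line.main (ltr K τ.1.val, w)))
    (fun z w => bb B (Line.main (ltr K (mrho τ), z)) (Line.main (ltr K (τ.1.val + 1), w)))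
    (fun z v => XX B τ (ltr K (mrho τ), z) v)
    (fun u w => YY B τ u (ltr K τ.1.val, w))
    (fun u w => YY B τ u (ltr K (τ.1.val + 1), w))
    (fun u v => WW B τ u v)
    (by
      intro z w w' u v hP hD1 hD2
      obtain ⟨a1, a2, a3, a4⟩ := core_valid (F := F) hK τ z w w' ⟨hP, hD1, hD2⟩
      exact instance_ineq B hB τ _ _ _ a1 a2 a3 a4 u v)
  refine le_trans key ?_
  exact Nat.add_le_add_left (Nat.mul_le_mul_left _ (FL_ge B τ)) _

theorem S_split (P : ℕ → ℕ) (hP : ∀ z, P z < 2) {N : ℕ} (D : Fin N → Fin N → Prop)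
    [DecidableRel D] (b : Fin N → Fin N → ℕ) :
    (∑ z : Fin N, ∑ w : Fin N, if D z w then b z w else 0) =
      (∑ z : Fin N, ∑ w : Fin N, if P z = 0 ∧ D z w then b z w else 0) +
      (∑ z : Fin N, ∑ w : Fin N, if P z = 1 ∧ D z w then b z w else 0) := by
  rw [← Finset.sum_add_distrib]
  refine Finset.sum_congr rfl fun z _ => ?_
  rw [← Finset.sum_add_distrib]
  refine Finset.sum_congr rfl fun w _ => ?_
  have := hP z
  have h01 : P z = 0 ∨ P z = 1 := by omega
  rcases h01 with h0 | h0 <;> simp [h0]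

theorem S_arith (N s1 s2 p1 p2 a0 a1 b0 b1 f0 f1 A A' : ℕ) (hs1 : 0 < s1) (hs2 : 0 < s2)
    (hN1 : p1 * s1 = N) (hN2 : p2 * s2 = N)
    (e0 : N * (s2 * a0) ≤ N * (s1 * b0) + s1 * s2 * f0)
    (e1 : N * (s2 * a1) ≤ N * (s1 * b1) + s1 * s2 * f1)
    (hA : A = a0 + a1) (hA' : A' = b0 + b1) : p1 * A ≤ p2 * A' + f0 + f1 := by
  subst hA hA'
  have hpos : 0 < s1 * s2 := Nat.mul_pos hs1 hs2
  apply Nat.le_of_mul_le_mul_left _ hpos
  calc s1 * s2 * (p1 * (a0 + a1)) = (p1 * s1) * (s2 * a0) + (p1 * s1) * (s2 * a1) := by ring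
    _ ≤ ((p2 * s2) * (s1 * b0) + s1 * s2 * f0) + ((p2 * s2) * (s1 * b1) + s1 * s2 * f1) := by
        rw [hN1, hN2]; exact Nat.add_le_add e0 e1
    _ = s1 * s2 * (p2 * (b0 + b1) + f0 + f1) := by ring

/-- add `link_ineq` for `c = false, true`, use `2^h = 2^k * sz h k` and cancel the `sz` factors -/
theorem step (hK : K ≤ h) (B : Line h K F → Line h K F → Bool) (hB : ¬ HasCopy B)
    (m : Fin (2 * K + 1)) (isT2 : Bool) :
    QQ B (m.val + isT2.toNat) m.val ≤
      QQ B (m.val + isT2.toNat) (m.val + 1) + FL B (m, isT2, false) + FL B (m, isT2, true) := by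
  have e0 := link_ineq hK B hB (m, isT2, false)
  have e1 := link_ineq hK B hB (m, isT2, true)
  have hρ : m.val + isT2.toNat ≤ 2 * K + 1 := S_mrho_le (m, isT2, false)
  simp only [mrho, Bool.toNat_false, Bool.toNat_true] at e0 e1
  unfold QQ
  have hk1 : lv K (m.val + isT2.toNat) m.val ≤ h := le_trans (lv_le hρ) hK
  have hk2 : lv K (m.val + isT2.toNat) (m.val + 1) ≤ h := le_trans (lv_le hρ) hK
  have hpar : ∀ z, par h K (m.val + isT2.toNat) z < 2 := fun z => Nat.mod_lt _ (by norm_num)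
  exact S_arith _ _ _ _ _ _ _ _ _ _ _ _ _ (sz_pos _ _) (sz_pos _ _) (two_pow_mul_sz hk1)
    (two_pow_mul_sz hk2) e0 e1
    (S_split (fun z => par h K (m.val + isT2.toNat) z) hpar
      (fun z w : Fin (2 ^ h) => Drel h (lv K (m.val + isT2.toNat) m.val) z w) _)
    (S_split (fun z => par h K (m.val + isT2.toNat) z) hpar
      (fun z w : Fin (2 ^ h) => Drel h (lv K (m.val + isT2.toNat) (m.val + 1)) z w) _)

end Crest.Agent.S0066
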