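import Crest.Agent.S0109_Swap

/-! Row 82, part A2b: cyclical monotonicity of a bounded Monge-optimal map at Lebesgue points. -/

set_option autoImplicit false
open MeasureTheory Set Metric Filter Topology
open scoped ENNReal NNReal InnerProductSpace

namespace Crest.Agent.S0109.Swap

variable {d : ℕ}

local notation "E" => EuclideanSpace ℝ (Fin d)

/-- Lebesgue point property (with off-centre balls). -/
def LP (T : E → E) (x : E) : Prop :=
  ∀ (N : ℕ) (w : ℝ → E) (δ : ℝ → ℝ), Tendsto δ (𝓝[>] 0) (𝓝[>] 0) →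
    (∀ᶠ r in 𝓝[>] (0 : ℝ), x ∈ closedBall (w r) (N * δ r)) →
    Tendsto (fun r => ⨍ y in closedBall (w r) (δ r), ‖T y - T x‖) (𝓝[>] 0) (𝓝 0)

theorem ae_LP (T : E → E) (hT : Measurable T) (R : ℝ) (hR : ∀ x, ‖T x‖ ≤ R) :
    ∀ᵐ x ∂(volume : Measure E), LP T x := by
  have hloc : LocallyIntegrable T (volume : Measure E) := by
    intro x
    refine ⟨closedBall x 1, closedBall_mem_nhds x one_pos, ?_⟩
    refine Measure.integrableOn_of_bounded (M := R) ?_ hT.aestronglyMeasurable
      (Eventually.of_forall hR)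
    exact (isCompact_closedBall x 1).measure_lt_top.ne
  unfold LP
  rw [ae_all_iff]
  intro N
  filter_upwards [IsUnifLocDoublingMeasure.ae_tendsto_average_norm_sub (volume : Measure E) hloc (N : ℝ)] with x hx
  intro w δ hδ hmem
  exact hx w δ hδ hmem



theorem setIntegral_inner_le (B : Set E) (hBm : MeasurableSet B) (hB0 : volume B ≠ 0)
    (hBfin : volume B ≠ ∞) (T : E → E) (hT : Measurable T) (R : ℝ) (hR : ∀ x, ‖T x‖ ≤ R) (v a : E) :
    ∫ y in B, ⟪v, T y⟫_ℝ ≤ (volume B).toReal * (⟪v, a⟫_ℝ + ‖v‖ * ⨍ y in B, ‖T y - a‖) := by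
  have i1 : Integrable (fun y => ‖T y - a‖) ((volume : Measure E).restrict B) :=
    integrable_of_bdd_on B hBm hBfin _ (hT.sub_const a).norm (R + ‖a‖) (fun y _ => by
      rw [abs_of_nonneg (norm_nonneg _)]
      exact (norm_sub_le _ _).trans (add_le_add (hR y) le_rfl))
  have i2 : Integrable (fun y => ⟪v, T y⟫_ℝ) ((volume : Measure E).restrict B) :=
    integrable_of_bdd_on B hBm hBfin _ (measurable_const.inner hT) (‖v‖ * R) (fun y _ =>
      (abs_real_inner_le_norm _ _).trans (mul_le_mul_of_nonneg_left (hR y) (norm_nonneg _)))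
  have hfin : IsFiniteMeasure ((volume : Measure E).restrict B) :=
    ⟨by rw [Measure.restrict_apply_univ]; exact lt_top_iff_ne_top.2 hBfin⟩
  have i3 : Integrable (fun _ : E => ⟪v, a⟫_ℝ) ((volume : Measure E).restrict B) :=
    integrable_const _
  have h1 : ∫ y in B, ⟪v, T y⟫_ℝ ≤ ∫ y in B, (⟪v, a⟫_ℝ + ‖v‖ * ‖T y - a‖) := by
    refine integral_mono i2 (i3.add (i1.const_mul _)) (fun y => ?_)
    have : ⟪v, T y⟫_ℝ = ⟪v, a⟫_ℝ + ⟪v, T y - a⟫_ℝ := by rw [← inner_add_right]; congr 1; abel
    show ⟪v, T y⟫_ℝ ≤ ⟪v, a⟫_ℝ + ‖v‖ * ‖T y - a‖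
    rw [this]
    exact add_le_add le_rfl (real_inner_le_norm _ _)
  have hV : (volume B).toReal ≠ 0 := (ENNReal.toReal_ne_zero).2 ⟨hB0, hBfin⟩
  have h2 : ∫ y in B, (⟪v, a⟫_ℝ + ‖v‖ * ‖T y - a‖)
      = (volume B).toReal * (⟪v, a⟫_ℝ + ‖v‖ * ⨍ y in B, ‖T y - a‖) := by
    rw [integral_add i3 (i1.const_mul _), integral_const_mul, setIntegral_const, setAverage_eq]
    simp only [Measure.real, smul_eq_mul]
    field_simp
  rw [← h2]
  exact h1


theorem cyc_mono_aux {n : ℕ} (x : Fin n → E) (σ : Equiv.Perm (Fin n))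
    (K : Set E) (hKm : MeasurableSet K) (hKfin : volume K ≠ ∞) (D : ℝ) (hD : ∀ x ∈ K, ‖x‖ ≤ D)
    (T : E → E) (hT : Measurable T) (R : ℝ) (hR : ∀ x, ‖T x‖ ≤ R)
    (hopt : ∀ S : E → E, Measurable S →
      ((volume : Measure E).restrict K).map S = ((volume : Measure E).restrict K).map T →
      ∫⁻ x, ‖x - T x‖ₑ ^ 2 ∂((volume : Measure E).restrict K)
        ≤ ∫⁻ x, ‖x - S x‖ₑ ^ 2 ∂((volume : Measure E).restrict K))
    (hxK : ∀ i, x i ∈ interior K) (hLP : ∀ i, LP T (x i)) :
    0 ≤ ∑ i, ⟪x (σ i) - x i, T (x (σ i))⟫_ℝ := by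
  rcases subsingleton_or_nontrivial E with hs | hn
  · refine Finset.sum_nonneg (fun i _ => ?_)
    rw [Subsingleton.elim (x (σ i)) (x i), sub_self, inner_zero_left]
  obtain ⟨e, he⟩ : ∃ e : E, ‖e‖ = 1 := exists_norm_eq E zero_le_one
  let W : ℝ → Fin n → E := fun r i => x i + (r * (i : ℝ)) • e
  have hWcont : ∀ i, Continuous (fun r => W r i) := by
    intro i
    exact continuous_const.add ((continuous_id.mul continuous_const).smul continuous_const)
  have hW0 : ∀ i, W 0 i = x i := by intro i; simp [W]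
  have hWlim : ∀ i, Tendsto (fun r => W r i) (𝓝[>] 0) (𝓝 (x i)) := by
    intro i
    have := (hWcont i).tendsto 0
    rw [hW0] at this
    exact tendsto_nhdsWithin_of_tendsto_nhds this
  have hδ : Tendsto (fun r : ℝ => r / 4) (𝓝[>] 0) (𝓝[>] 0) := by
    refine tendsto_nhdsWithin_iff.2 ⟨?_, ?_⟩
    · have : Tendsto (fun r : ℝ => r / 4) (𝓝 0) (𝓝 (0 / 4)) := (continuous_id.div_const 4).tendsto 0
      rw [zero_div] at this
      exact tendsto_nhdsWithin_of_tendsto_nhds this
    · filter_upwards [self_mem_nhdsWithin] with r hr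
      have hr' : (0 : ℝ) < r := hr
      show (0 : ℝ) < r / 4
      positivity
  have hdistW : ∀ (r : ℝ) (i : Fin n), 0 < r → dist (x i) (W r i) = r * i := by
    intro r i hr
    simp only [W, dist_eq_norm]
    rw [sub_add_cancel_left, norm_neg, norm_smul, he, mul_one, Real.norm_eq_abs,
      abs_of_nonneg (by positivity)]
  have hA : ∀ j, Tendsto (fun r => ⨍ y in closedBall (W r j) (r / 4), ‖T y - T (x j)‖)
      (𝓝[>] 0) (𝓝 0) := by
    intro j
    refine hLP j (4 * n) (fun r => W r j) (fun r => r / 4) hδ ?_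
    filter_upwards [self_mem_nhdsWithin] with r hr
    have hr' : (0 : ℝ) < r := hr
    rw [mem_closedBall, hdistW r j hr']
    have hj : (j : ℝ) ≤ n := by exact_mod_cast j.2.le
    push_cast
    nlinarith
  let F : ℝ → ℝ := fun r => ∑ i, (⟪W r (σ i) - W r i, T (x (σ i))⟫_ℝ
    + ‖W r (σ i) - W r i‖ * ⨍ y in closedBall (W r (σ i)) (r / 4), ‖T y - T (x (σ i))‖)
  have hlim : Tendsto F (𝓝[>] 0) (𝓝 (∑ i, (⟪x (σ i) - x i, T (x (σ i))⟫_ℝ
      + ‖x (σ i) - x i‖ * 0))) := by
    refine tendsto_finsetSum _ (fun i _ => ?_)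
    have h1 : Tendsto (fun r => W r (σ i) - W r i) (𝓝[>] 0) (𝓝 (x (σ i) - x i)) :=
      (hWlim (σ i)).sub (hWlim i)
    exact (h1.inner tendsto_const_nhds).add (h1.norm.mul (hA (σ i)))
  have hdisj : ∀ᶠ r in 𝓝[>] (0 : ℝ),
      Pairwise (Function.onFun Disjoint (fun i => closedBall (W r i) (r / 4))) := by
    have : ∀ᶠ r in 𝓝[>] (0 : ℝ), ∀ i j : Fin n, i ≠ j →
        Disjoint (closedBall (W r i) (r / 4)) (closedBall (W r j) (r / 4)) := by
      rw [eventually_all]; intro i
      rw [eventually_all]; intro j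
      by_cases hij : i = j
      · exact Eventually.of_forall (fun r h => absurd hij h)
      by_cases hx : x i = x j
      · filter_upwards [self_mem_nhdsWithin] with r hr _
        have hr' : (0 : ℝ) < r := hr
        apply closedBall_disjoint_closedBall
        have : dist (W r i) (W r j) = r * |(i : ℝ) - j| := by
          simp only [W, dist_eq_norm, hx]
          rw [add_sub_add_left_eq_sub, ← sub_smul, norm_smul, he, mul_one, ← mul_sub,
            Real.norm_eq_abs, abs_mul, abs_of_pos hr']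
        rw [this]
        have h1 : (1 : ℝ) ≤ |(i : ℝ) - j| := by
          have hne : (i : ℤ) - (j : ℤ) ≠ 0 := by
            intro h
            apply hij
            apply Fin.ext
            omega
          have := Int.one_le_abs hne
          have h2 : ((|(i : ℤ) - (j : ℤ)| : ℤ) : ℝ) = |(i : ℝ) - j| := by push_cast; rfl
          rw [← h2]
          exact_mod_cast this
        nlinarith
      · have hc : Continuous (fun r => dist (W r i) (W r j) - (r / 4 + r / 4)) :=
          ((hWcont i).dist (hWcont j)).sub ((continuous_id.div_const 4).add (continuous_id.div_const 4))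
        have h0 : (0 : ℝ) < dist (W 0 i) (W 0 j) - ((0 : ℝ) / 4 + 0 / 4) := by
          rw [hW0, hW0]; simp only [zero_div, add_zero, sub_zero]; exact dist_pos.2 hx
        have := (hc.tendsto 0).eventually (lt_mem_nhds h0)
        filter_upwards [nhdsWithin_le_nhds this] with r hr _
        apply closedBall_disjoint_closedBall
        linarith
    filter_upwards [this] with r hr i j hij
    exact hr i j hij
  have hsub : ∀ᶠ r in 𝓝[>] (0 : ℝ), ∀ i, closedBall (W r i) (r / 4) ⊆ K := by
    rw [eventually_all]; intro i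
    obtain ⟨ε, hε, hball⟩ := Metric.isOpen_iff.1 isOpen_interior (x i) (hxK i)
    have hc : Continuous (fun r : ℝ => ε - (r / 4 + r * i)) :=
      continuous_const.sub ((continuous_id.div_const 4).add (continuous_id.mul continuous_const))
    have h0 : (0 : ℝ) < ε - ((0 : ℝ) / 4 + 0 * i) := by simpa using hε
    have := (hc.tendsto 0).eventually (lt_mem_nhds h0)
    filter_upwards [nhdsWithin_le_nhds this, self_mem_nhdsWithin] with r hr hr0
    have hr' : (0 : ℝ) < r := hr0
    intro y hy
    apply interior_subset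
    apply hball
    rw [mem_ball]
    rw [mem_closedBall] at hy
    have h1 := dist_triangle y (W r i) (x i)
    rw [dist_comm (W r i) (x i), hdistW r i hr'] at h1
    linarith
  have hpos : ∀ᶠ r in 𝓝[>] (0 : ℝ), 0 ≤ F r := by
    filter_upwards [hdisj, hsub, self_mem_nhdsWithin] with r hd hs hr0
    have hr' : (0 : ℝ) < r := hr0
    have h1 := swap_ineq (W r) (r / 4) σ hd K hKm hKfin D hD hs T hT R hR hopt
    set V : ℝ := (volume (closedBall (0 : E) (r / 4))).toReal with hV
    have hVeq : ∀ c : E, volume (closedBall c (r / 4)) = volume (closedBall (0 : E) (r / 4)) :=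
      fun c => Measure.addHaar_closedBall_center _ _ _
    have hV0 : volume (closedBall (0 : E) (r / 4)) ≠ 0 :=
      (measure_closedBall_pos _ _ (by positivity)).ne'
    have hVfin : volume (closedBall (0 : E) (r / 4)) ≠ ∞ :=
      (isCompact_closedBall _ _).measure_lt_top.ne
    have hVpos : 0 < V := ENNReal.toReal_pos hV0 hVfin
    have h2 : ∑ i, ∫ y in closedBall (W r (σ i)) (r / 4), ⟪W r (σ i) - W r i, T y⟫_ℝ ≤ V * F r := by
      rw [Finset.mul_sum]
      refine Finset.sum_le_sum (fun i _ => ?_)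
      have := setIntegral_inner_le (closedBall (W r (σ i)) (r / 4)) measurableSet_closedBall
        (by rw [hVeq]; exact hV0) (by rw [hVeq]; exact hVfin) T hT R hR (W r (σ i) - W r i)
        (T (x (σ i)))
      rw [hVeq] at this
      exact this
    have h3 : 0 ≤ V * F r := h1.trans h2
    exact nonneg_of_mul_nonneg_right h3 hVpos
  have := ge_of_tendsto hlim hpos
  simpa using this


end Crest.Agent.S0109.Swap
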