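import Mathlib

/-! Row 82, part A3: Rockafellar's theorem (cyclically monotone, bounded => subgradient of a convex
Lipschitz function). Imports only Mathlib. -/

set_option autoImplicit false
open Set
open scoped NNReal InnerProductSpace

namespace Crest.Agent.S0109.Rock

variable {E : Type*} [NormedAddCommGroup E] [InnerProductSpace ℝ E]

/-- value at `z` of the chain `c 0, …, c n`. -/
noncomputable def chainVal (T : E → E) {n : ℕ} (c : Fin (n + 1) → E) (z : E) : ℝ :=
  ∑ i : Fin n, ⟪T (c i.castSucc), c i.succ - c i.castSucc⟫_ℝ + ⟪T (c (Fin.last n)), z - c (Fin.last n)⟫_ℝ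

theorem chainVal_self (T : E → E) {n : ℕ} (c : Fin (n + 1) → E) :
    chainVal T c (c 0) = ∑ i, ⟪T (c i), c (i + 1) - c i⟫_ℝ := by
  unfold chainVal
  rw [Fin.sum_univ_castSucc]
  simp only [Fin.coeSucc_eq_succ, Fin.last_add_one]

theorem chainVal_snoc (T : E → E) {n : ℕ} (c : Fin (n + 1) → E) (x z : E) :
    chainVal T (Fin.snoc c x : Fin (n + 2) → E) z = chainVal T c x + ⟪T x, z - x⟫_ℝ := by
  unfold chainVal
  rw [Fin.sum_univ_castSucc]
  simp only [Fin.snoc_castSucc, Fin.snoc_last, Fin.succ_last]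
  congr 2
  refine Finset.sum_congr rfl (fun i _ => ?_)
  rw [Fin.succ_castSucc, Fin.snoc_castSucc]

theorem chainVal_sub (T : E → E) {n : ℕ} (c : Fin (n + 1) → E) (z z' : E) :
    chainVal T c z - chainVal T c z' = ⟪T (c (Fin.last n)), z - z'⟫_ℝ := by
  unfold chainVal
  rw [add_sub_add_left_eq_sub, ← inner_sub_right]
  congr 1
  abel

theorem rockafellar (G : Set E) (hG : G.Nonempty) (T : E → E) (R : ℝ≥0)
    (hR : ∀ x ∈ G, ‖T x‖ ≤ R)
    (hcm : ∀ (n : ℕ) (c : Fin (n + 1) → E), (∀ i, c i ∈ G) →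
      ∑ i, ⟪T (c i), c (i + 1) - c i⟫_ℝ ≤ 0) :
    ∃ φ : E → ℝ, ConvexOn ℝ univ φ ∧ LipschitzWith R φ ∧
      ∀ x ∈ G, ∀ z, φ x + ⟪T x, z - x⟫_ℝ ≤ φ z := by
  obtain ⟨x₀, hx₀⟩ := hG
  let Idx := Σ n : ℕ, {c : Fin (n + 1) → E // c 0 = x₀ ∧ ∀ i, c i ∈ G}
  let val : Idx → E → ℝ := fun j z => chainVal T j.2.1 z
  have : Nonempty Idx := ⟨⟨0, ⟨fun _ => x₀, rfl, fun _ => hx₀⟩⟩⟩
  have hlip : ∀ (j : Idx) (z z' : E), val j z ≤ val j z' + R * ‖z - z'‖ := by
    intro j z z'
    have h1 := chainVal_sub T j.2.1 z z'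
    have h2 : ⟪T (j.2.1 (Fin.last j.1)), z - z'⟫_ℝ ≤ R * ‖z - z'‖ :=
      (real_inner_le_norm _ _).trans
        (mul_le_mul_of_nonneg_right (hR _ (j.2.2.2 _)) (norm_nonneg _))
    show chainVal T j.2.1 z ≤ chainVal T j.2.1 z' + R * ‖z - z'‖
    linarith
  have hbase : ∀ j : Idx, val j x₀ ≤ 0 := by
    intro j
    have := hcm j.1 j.2.1 j.2.2.2
    rw [← chainVal_self, j.2.2.1] at this
    exact this
  have hbdd : ∀ z, BddAbove (range fun j => val j z) := by
    intro z
    refine ⟨R * ‖z - x₀‖, ?_⟩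
    rintro _ ⟨j, rfl⟩
    have := hlip j z x₀
    have := hbase j
    show val j z ≤ _
    linarith
  refine ⟨fun z => ⨆ j, val j z, ⟨convex_univ, ?_⟩, ?_, ?_⟩
  · intro z _ z' _ a b ha hb hab
    refine ciSup_le (fun j => ?_)
    have h1 : val j (a • z + b • z') = a * val j z + b * val j z' := by
      show chainVal T j.2.1 _ = a * chainVal T j.2.1 _ + b * chainVal T j.2.1 _
      unfold chainVal
      have : a • z + b • z' - j.2.1 (Fin.last j.1)
          = a • (z - j.2.1 (Fin.last j.1)) + b • (z' - j.2.1 (Fin.last j.1)) := by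
        rw [smul_sub, smul_sub]
        have : j.2.1 (Fin.last j.1) = a • j.2.1 (Fin.last j.1) + b • j.2.1 (Fin.last j.1) := by
          rw [← add_smul, hab, one_smul]
        conv_lhs => rw [this]
        abel
      rw [this, inner_add_right, inner_smul_right, inner_smul_right]
      have hb' : b = 1 - a := by linarith
      rw [hb']
      ring
    rw [h1]
    simp only [smul_eq_mul]
    exact add_le_add (mul_le_mul_of_nonneg_left (le_ciSup (hbdd z) j) ha)
      (mul_le_mul_of_nonneg_left (le_ciSup (hbdd z') j) hb)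
  · refine LipschitzWith.of_le_add_mul R (fun z z' => ?_)
    refine ciSup_le (fun j => ?_)
    rw [dist_eq_norm]
    exact (hlip j z z').trans (add_le_add_left (le_ciSup (hbdd z') j) _)
  · intro x hx z
    rw [← le_sub_iff_add_le]
    refine ciSup_le (fun j => ?_)
    rw [le_sub_iff_add_le]
    let j' : Idx := ⟨j.1 + 1, ⟨(Fin.snoc j.2.1 x : Fin (j.1 + 2) → E), ?_, ?_⟩⟩
    · have h := le_ciSup (hbdd z) j'
      have h2 : val j' z = val j x + ⟪T x, z - x⟫_ℝ := chainVal_snoc T j.2.1 x z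
      rw [← h2]
      exact h
    · have : (0 : Fin (j.1 + 2)) = Fin.castSucc (0 : Fin (j.1 + 1)) := rfl
      rw [this, Fin.snoc_castSucc]
      exact j.2.2.1
    · intro i
      refine Fin.lastCases ?_ (fun i => ?_) i
      · rw [Fin.snoc_last]; exact hx
      · rw [Fin.snoc_castSucc]; exact j.2.2.2 i

end Crest.Agent.S0109.Rock
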