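import Crest.Agent.S0109_Basic
import Crest.Agent.S0109_Rock
import Crest.Agent.S0109_CycMono

/-! Row 82, part A: a Monge-optimal map is a.e. a subgradient of a convex Lipschitz potential
(ball swapping at Lebesgue points gives cyclical monotonicity; then Rockafellar). -/

set_option autoImplicit false
open MeasureTheory Set Filter Topology
open scoped ENNReal NNReal InnerProductSpace
open Crest.AnalysisR.OT

namespace Crest.Agent.S0109

variable {d : ℕ}

theorem exists_potential {K : Set (EE d)} (hK : IsBody K) (R : ℝ≥0) (μ : Measure (EE d))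
    (hμ : μ (Metric.closedBall 0 R)ᶜ = 0) (T : EE d → EE d)
    (hT : IsOptimalMap (uniformProbOn K) μ T) :
    ∃ φ : EE d → ℝ, IsPot (uniformProbOn K) R φ T := by
  obtain ⟨hTm, hmap, hopt⟩ := hT
  have hKm : MeasurableSet K := hK.compact.measurableSet
  have hK0 : volume K ≠ 0 := hK.volume_pos.ne'
  have hKfin : volume K ≠ ∞ := hK.volume_lt_top.ne
  set ν : Measure (EE d) := (volume : Measure (EE d)).restrict K with hν
  set c : ℝ≥0∞ := (volume K)⁻¹ with hc
  have hc0 : c ≠ 0 := ENNReal.inv_ne_zero.2 hKfin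
  have hcfin : c ≠ ∞ := ENNReal.inv_ne_top.2 hK0
  have hρ : uniformProbOn K = c • ν := rfl
  have hae : ae (uniformProbOn K) = ae ν := by rw [hρ]; exact Measure.ae_ennreal_smul_measure_eq hc0 _
  obtain ⟨D, hD⟩ := hK.compact.isBounded.exists_norm_le
  -- boundedness of T
  have hTb : ∀ᵐ x ∂ν, ‖T x‖ ≤ R := by
    rw [← hae]
    have h1 : (uniformProbOn K) (T ⁻¹' (Metric.closedBall 0 R)ᶜ) = 0 := by
      rw [← Measure.map_apply hTm Metric.isClosed_closedBall.measurableSet.compl, hmap, hμ]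
    have h2 : ∀ᵐ x ∂(uniformProbOn K), x ∉ T ⁻¹' (Metric.closedBall 0 R)ᶜ := measure_eq_zero_iff_ae_notMem.1 h1
    filter_upwards [h2] with x hx
    simpa using hx
  let T' : EE d → EE d := fun x => if ‖T x‖ ≤ R then T x else 0
  have hT'm : Measurable T' :=
    Measurable.ite (measurableSet_le hTm.norm measurable_const) hTm measurable_const
  have hT'b : ∀ x, ‖T' x‖ ≤ (R : ℝ) := by
    intro x
    simp only [T']
    split_ifs with h
    · exact h
    · simp
  have hTT' : T' =ᵐ[ν] T := by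
    filter_upwards [hTb] with x hx
    simp only [T', if_pos hx]
  have hopt' : ∀ S : EE d → EE d, Measurable S → ν.map S = ν.map T' →
      ∫⁻ x, ‖x - T' x‖ₑ ^ 2 ∂ν ≤ ∫⁻ x, ‖x - S x‖ₑ ^ 2 ∂ν := by
    intro S hS hSmap
    have h1 : (uniformProbOn K).map S = μ := by
      rw [← hmap, hρ, Measure.map_smul, Measure.map_smul, hSmap, Measure.map_congr hTT']
    have h2 := hopt S hS h1
    rw [hρ, lintegral_smul_measure, lintegral_smul_measure, smul_eq_mul, smul_eq_mul,
      ENNReal.mul_le_mul_iff_right hc0 hcfin] at h2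
    refine le_trans (le_of_eq ?_) h2
    refine lintegral_congr_ae ?_
    filter_upwards [hTT'] with x hx
    rw [hx]
  -- the good set
  let G : Set (EE d) := {x | x ∈ interior K ∧ Swap.LP T' x ∧ T x = T' x}
  have hG : ∀ᵐ x ∂ν, x ∈ G := by
    have h1 : ∀ᵐ x ∂ν, x ∈ K := ae_restrict_mem hKm
    have h2 : ∀ᵐ x ∂ν, x ∉ frontier K :=
      ae_restrict_of_ae (measure_eq_zero_iff_ae_notMem.1 (hK.convex.addHaar_frontier volume))
    have h3 : ∀ᵐ x ∂ν, Swap.LP T' x := ae_restrict_of_ae (Swap.ae_LP T' hT'm R hT'b)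
    filter_upwards [h1, h2, h3, hTT'] with x hx1 hx2 hx3 hx4
    refine ⟨?_, hx3, hx4.symm⟩
    rw [← self_sdiff_frontier]
    exact ⟨hx1, hx2⟩
  have hGne : G.Nonempty := by
    by_contra hcon
    rw [not_nonempty_iff_eq_empty] at hcon
    have : ν univ = 0 := by
      have h := measure_eq_zero_iff_ae_notMem.2 (show ∀ᵐ x ∂ν, x ∉ Gᶜ by
        filter_upwards [hG] with x hx using fun h => h hx)
      rwa [hcon, compl_empty] at h
    rw [hν, Measure.restrict_apply_univ] at this
    exact hK0 this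
  obtain ⟨φ, hφc, hφl, hφs⟩ := Rock.rockafellar G hGne T' R (fun x _ => hT'b x) (by
    intro n cc hcc
    have h := Swap.cyc_mono_aux cc (Equiv.addRight (1 : Fin (n + 1))).symm K hKm hKfin D hD T' hT'm R
      hT'b hopt' (fun i => (hcc i).1) (fun i => (hcc i).2.1)
    rw [← Equiv.sum_comp (Equiv.addRight (1 : Fin (n + 1)))] at h
    have h3 : ∀ i : Fin (n + 1), (Equiv.addRight (1 : Fin (n + 1))).symm (i + 1) = i :=
      fun i => (Equiv.symm_apply_eq _).2 rfl
    simp only [Equiv.coe_addRight, h3] at h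
    have h2 : ∑ i, ⟪T' (cc i), cc (i + 1) - cc i⟫_ℝ = - ∑ i, ⟪cc i - cc (i + 1), T' (cc i)⟫_ℝ := by
      rw [← Finset.sum_neg_distrib]
      refine Finset.sum_congr rfl (fun i _ => ?_)
      rw [real_inner_comm, ← inner_neg_left, neg_sub]
    rw [h2]
    linarith)
  refine ⟨φ, hφc, hφl, hTm, ?_⟩
  rw [hae]
  filter_upwards [hG] with x hx z
  rw [hx.2.2]
  exact hφs x hx z

end Crest.Agent.S0109
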