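import Mathlib
import Crest.Prelude.Def_QuadraticTransport

/-! # Row 82, package B: Gagliardo–Nirenberg for differences of convex functions.

Direct `d`-dimensional proof by finite differences (no slicing, no FTC).
`w = h e_k`, `a_i = (T_i ·) k`, `g = a0 - a1`, `u = φ0 - φ1 - c`.
Subgradient inequalities at `x` and `x + w`: `h a_i(x) ≤ φ_i(x+w) - φ_i(x) ≤ h a_i(x+w)`, hence
`h² g² ≤ 2 u(x+w)² + 2 u(x)² + 4 R h² e(x)` with `e(x) = ∑_i (a_i(x+w) - a_i(x)) ≥ 0`.
Integrate over the shrunken body `S = homothety x0 (1 - h/r) '' K`. -/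

set_option autoImplicit false
open MeasureTheory Set
open Crest.AnalysisR.OT

namespace Crest.Agent.S0109.GNM

variable {d : ℕ}

local notation "E" => EuclideanSpace ℝ (Fin d)

/-- points of the shrunken body can be moved by `lam * r` inside `K`. -/
theorem shrink_add_mem {K : Set E} (hKv : Convex ℝ K) {x0 : E} {r : ℝ}
    (hball : Metric.closedBall x0 r ⊆ K) {lam : ℝ} (h0 : 0 ≤ lam) (h1 : lam ≤ 1)
    {x v : E} (hx : x ∈ AffineMap.homothety x0 (1 - lam) '' K) (hv : ‖v‖ ≤ lam * r) :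
    x + v ∈ K := by
  obtain ⟨k, hk, rfl⟩ := hx
  rcases h0.eq_or_lt with rfl | hpos
  · have : v = 0 := by simpa using hv
    subst this
    simpa [AffineMap.homothety_apply] using hk
  · have hmem : x0 + lam⁻¹ • v ∈ K := by
      apply hball
      rw [Metric.mem_closedBall, dist_eq_norm]
      simp only [add_sub_cancel_left, norm_smul, norm_inv, Real.norm_eq_abs, abs_of_pos hpos]
      rw [inv_mul_le_iff₀ hpos]; exact hv
    have := hKv hk hmem (sub_nonneg.2 h1) h0 (by ring)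
    convert this using 1
    simp only [AffineMap.homothety_apply, vsub_eq_sub, vadd_eq_add, smul_add, smul_sub, smul_smul,
      mul_inv_cancel₀ hpos.ne', one_smul, sub_smul]
    abel

theorem shrink_subset {K : Set E} (hKv : Convex ℝ K) {x0 : E} {r : ℝ}
    (hball : Metric.closedBall x0 r ⊆ K) {lam : ℝ} (h0 : 0 ≤ lam) (h1 : lam ≤ 1) (hr : 0 ≤ r) :
    AffineMap.homothety x0 (1 - lam) '' K ⊆ K := by
  intro x hx
  have := shrink_add_mem hKv hball h0 h1 hx (v := 0) (by simpa using mul_nonneg h0 hr)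
  simpa using this

/-- volume of the removed layer. -/
theorem shrink_diff_le {K : Set E} (hKc : IsCompact K) (hKv : Convex ℝ K) {x0 : E} {r : ℝ}
    (hball : Metric.closedBall x0 r ⊆ K) {lam : ℝ} (h0 : 0 ≤ lam) (h1 : lam ≤ 1) (hr : 0 ≤ r) :
    volume.real (K \ (AffineMap.homothety x0 (1 - lam) '' K)) ≤ d * lam * volume.real K := by
  have hsub := shrink_subset hKv hball h0 h1 hr
  have hSc : IsCompact (AffineMap.homothety x0 (1 - lam) '' K) :=
    hKc.image (AffineMap.homothety_continuous x0 (1 - lam))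
  rw [measureReal_sdiff hsub hSc.measurableSet hKc.measure_lt_top.ne]
  have : volume.real (AffineMap.homothety x0 (1 - lam) '' K) = (1 - lam) ^ d * volume.real K := by
    rw [measureReal_def, Measure.addHaar_image_homothety, ENNReal.toReal_mul, ← measureReal_def]
    simp [abs_of_nonneg (pow_nonneg (sub_nonneg.2 h1) d)]
    exact Or.inl (pow_nonneg (sub_nonneg.2 h1) d)
  rw [this]
  have hb := one_add_mul_le_pow (a := -lam) (by linarith) d
  have hv : 0 ≤ volume.real K := measureReal_nonneg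
  have : (1 + (d:ℝ) * -lam) * volume.real K ≤ (1 - lam) ^ d * volume.real K := by
    apply mul_le_mul_of_nonneg_right _ hv
    simpa [sub_eq_add_neg] using hb
  nlinarith


/-- bounded function: the integrals over `K` and over a large subset differ little. -/
theorem abs_setIntegral_sub_le {K S : Set E} (hKfin : volume K ≠ ⊤) (hS : MeasurableSet S)
    (hSK : S ⊆ K) {f : E → ℝ} {M : ℝ} (hf : IntegrableOn f K)
    (hb : ∀ᵐ x ∂volume, x ∈ K → |f x| ≤ M) :
    |(∫ x in K, f x) - ∫ x in S, f x| ≤ M * volume.real (K \ S) := by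
  rw [← setIntegral_sdiff hS hf hSK]
  have := norm_setIntegral_le_of_norm_le_const_ae' (μ := volume) (s := K \ S) (f := f) (C := M)
    (lt_of_le_of_lt (measure_mono sdiff_subset) hKfin.lt_top)
    (by filter_upwards [hb] with x hx hxm using hx hxm.1)
  simpa using this

/-- the one-directional information extracted from a subgradient. -/
structure Dir (K : Set E) (w : E) (h R : ℝ) (φ a : E → ℝ) (x : E) : Prop where
  bd : |a x| ≤ R
  fwd : x + w ∈ K → φ x + h * a x ≤ φ (x + w)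
  bwd : x - w ∈ K → φ x - h * a x ≤ φ (x - w)

theorem pointwise {R h : ℝ} (hR : 0 ≤ R) (hh : 0 < h) {p0 p0' p1 p1' a0 a0' a1 a1' : ℝ} (c : ℝ)
    (b0 : |a0| ≤ R) (b1 : |a1| ≤ R)
    (f0 : p0 + h * a0 ≤ p0') (g0 : p0' - h * a0' ≤ p0)
    (f1 : p1 + h * a1 ≤ p1') (g1 : p1' - h * a1' ≤ p1) :
    h ^ 2 * (a0 - a1) ^ 2 ≤ 2 * (p0' - p1' - c) ^ 2 + 2 * (p0 - p1 - c) ^ 2
      + 4 * R * h ^ 2 * ((a0' - a0) + (a1' - a1)) := by
  set G := h * (a0 - a1) with hG
  set A := p0' - p1' - c with hA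
  set B := p0 - p1 - c with hB
  set e := (a0' - a0) + (a1' - a1) with he
  have hGb : |G| ≤ 2 * R * h := by
    rw [hG, abs_mul, abs_of_pos hh]
    have : |a0 - a1| ≤ 2 * R := by
      rw [abs_le] at *; constructor <;> linarith [b0.1, b0.2, b1.1, b1.2]
    nlinarith
  have hDG : |G - (A - B)| ≤ h * e := by
    rw [abs_le]; constructor <;> simp only [hG, hA, hB, he] <;> nlinarith
  have he0 : 0 ≤ h * e := le_trans (abs_nonneg _) hDG
  have h1 : G * (G - (A - B)) ≤ (2 * R * h) * (h * e) := by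
    calc G * (G - (A - B)) ≤ |G * (G - (A - B))| := le_abs_self _
      _ = |G| * |G - (A - B)| := abs_mul _ _
      _ ≤ (2 * R * h) * (h * e) := mul_le_mul hGb hDG (abs_nonneg _) (by positivity)
  have h2 : h ^ 2 * (a0 - a1) ^ 2 = G ^ 2 := by rw [hG]; ring
  rw [h2]
  nlinarith [sq_nonneg (G - (A - B)), sq_nonneg (A + B)]


theorem core_dir {K S : Set E} (hKc : IsCompact K) (hS : MeasurableSet S) (hSK : S ⊆ K) (w : E)
    (hSw : ∀ x ∈ S, x + w ∈ K) {R h : ℝ} (hR : 0 ≤ R) (hh : 0 < h)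
    {φ0 φ1 a0 a1 : E → ℝ} (c : ℝ) (hφ0 : Continuous φ0) (hφ1 : Continuous φ1)
    (ha0 : Measurable a0) (ha1 : Measurable a1)
    (h0 : ∀ᵐ x ∂volume, x ∈ K → Dir K w h R φ0 a0 x)
    (h1 : ∀ᵐ x ∂volume, x ∈ K → Dir K w h R φ1 a1 x) :
    h ^ 2 * ∫ x in K, (a0 x - a1 x) ^ 2 ≤
      4 * (∫ x in K, (φ0 x - φ1 x - c) ^ 2) + 20 * R ^ 2 * h ^ 2 * volume.real (K \ S) := by
  have hKfin : volume K ≠ ⊤ := hKc.measure_lt_top.ne
  set S' : Set E := (fun x => x + w) '' S with hS'
  have hemb : MeasurableEmbedding (fun x : E => x + w) := measurableEmbedding_addRight w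
  have hmp : MeasurePreserving (fun x : E => x + w) volume volume :=
    measurePreserving_add_right volume w
  have hS'm : MeasurableSet S' := hemb.measurableSet_image.2 hS
  have hS'K : S' ⊆ K := by rintro _ ⟨x, hx, rfl⟩; exact hSw x hx
  have hvolS' : volume S' = volume S := by
    rw [hS', image_add_right, measure_preimage_add_right]
  have hδ' : volume.real (K \ S') = volume.real (K \ S) := by
    rw [measureReal_sdiff hS'K hS'm hKfin, measureReal_sdiff hSK hS hKfin, measureReal_def,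
      measureReal_def, measureReal_def, hvolS']
  set δ := volume.real (K \ S) with hδ
  have hδ0 : 0 ≤ δ := measureReal_nonneg
  have h0' : ∀ᵐ x ∂volume, x + w ∈ K → Dir K w h R φ0 a0 (x + w) :=
    hmp.quasiMeasurePreserving.ae h0
  have h1' : ∀ᵐ x ∂volume, x + w ∈ K → Dir K w h R φ1 a1 (x + w) :=
    hmp.quasiMeasurePreserving.ae h1
  -- integrability
  have b0 : ∀ᵐ x ∂volume, x ∈ K → |a0 x| ≤ R := h0.mono fun x hx hxK => (hx hxK).bd
  have b1 : ∀ᵐ x ∂volume, x ∈ K → |a1 x| ≤ R := h1.mono fun x hx hxK => (hx hxK).bd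
  have ia0 : IntegrableOn a0 K := Measure.integrableOn_of_bounded hKfin ha0.aestronglyMeasurable
    (M := R) ((ae_restrict_iff' hKc.measurableSet).2 b0)
  have ia1 : IntegrableOn a1 K := Measure.integrableOn_of_bounded hKfin ha1.aestronglyMeasurable
    (M := R) ((ae_restrict_iff' hKc.measurableSet).2 b1)
  set u : E → ℝ := fun x => (φ0 x - φ1 x - c) ^ 2 with hu
  have hucont : Continuous u := by fun_prop
  have iu : IntegrableOn u K := hucont.continuousOn.integrableOn_compact hKc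
  set g2 : E → ℝ := fun x => (a0 x - a1 x) ^ 2 with hg2
  have bg : ∀ᵐ x ∂volume, x ∈ K → |g2 x| ≤ 4 * R ^ 2 := by
    filter_upwards [b0, b1] with x hx0 hx1 hxK
    have e0 := abs_le.1 (hx0 hxK)
    have e1 := abs_le.1 (hx1 hxK)
    rw [hg2]; simp only
    rw [abs_of_nonneg (sq_nonneg _)]
    nlinarith [e0.1, e0.2, e1.1, e1.2]
  have ig : IntegrableOn g2 K := Measure.integrableOn_of_bounded hKfin
    (by fun_prop : Measurable g2).aestronglyMeasurable
    (M := 4 * R ^ 2) ((ae_restrict_iff' hKc.measurableSet).2 bg)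
  have ia0S' : IntegrableOn (fun x => a0 (x + w)) S :=
    (hmp.integrableOn_image hemb).1 (ia0.mono_set hS'K)
  have ia1S' : IntegrableOn (fun x => a1 (x + w)) S :=
    (hmp.integrableOn_image hemb).1 (ia1.mono_set hS'K)
  have iuS' : IntegrableOn (fun x => u (x + w)) S :=
    (hmp.integrableOn_image hemb).1 (iu.mono_set hS'K)
  -- the pointwise inequality integrated over `S`
  have key : ∫ x in S, h ^ 2 * g2 x ≤ ∫ x in S, (2 * u (x + w) + 2 * u x
      + 4 * R * h ^ 2 * ((a0 (x + w) - a0 x) + (a1 (x + w) - a1 x))) := by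
    apply setIntegral_mono_on_ae ((ig.mono_set hSK).const_mul _) _ hS
    · filter_upwards [h0, h1, h0', h1'] with x e0 e1 e0' e1' hxS
      have hxK := hSK hxS
      have hxwK := hSw x hxS
      have hback : x + w - w ∈ K := by simpa using hxK
      have q0 := (e0' hxwK).bwd hback
      have q1 := (e1' hxwK).bwd hback
      simp only [add_sub_cancel_right] at q0 q1
      exact pointwise hR hh c (e0 hxK).bd (e1 hxK).bd ((e0 hxK).fwd hxwK) q0
        ((e1 hxK).fwd hxwK) q1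
    · exact ((iuS'.const_mul 2).add ((iu.mono_set hSK).const_mul 2)).add
        (((ia0S'.sub (ia0.mono_set hSK)).add (ia1S'.sub (ia1.mono_set hSK))).const_mul _)
  have split : ∫ x in S, (2 * u (x + w) + 2 * u x
      + 4 * R * h ^ 2 * ((a0 (x + w) - a0 x) + (a1 (x + w) - a1 x))) =
      2 * (∫ x in S', u x) + 2 * (∫ x in S, u x) + 4 * R * h ^ 2 *
        (((∫ x in S', a0 x) - ∫ x in S, a0 x) + ((∫ x in S', a1 x) - ∫ x in S, a1 x)) := by
    rw [hmp.setIntegral_image_emb hemb, hmp.setIntegral_image_emb hemb,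
      hmp.setIntegral_image_emb hemb]
    have I1 : Integrable (fun x => 2 * u (x + w)) (volume.restrict S) := iuS'.const_mul 2
    have I2 : Integrable (fun x => 2 * u x) (volume.restrict S) := (iu.mono_set hSK).const_mul 2
    have I3 : Integrable (fun x => a0 (x + w) - a0 x) (volume.restrict S) :=
      ia0S'.sub (ia0.mono_set hSK)
    have I4 : Integrable (fun x => a1 (x + w) - a1 x) (volume.restrict S) :=
      ia1S'.sub (ia1.mono_set hSK)
    have I5 : Integrable (fun x => (a0 (x + w) - a0 x) + (a1 (x + w) - a1 x))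
      (volume.restrict S) := I3.add I4
    have I6 : Integrable (fun x => 4 * R * h ^ 2 * ((a0 (x + w) - a0 x) + (a1 (x + w) - a1 x)))
      (volume.restrict S) := I5.const_mul _
    have I12 : Integrable (fun x => 2 * u (x + w) + 2 * u x) (volume.restrict S) := I1.add I2
    rw [integral_add I12 I6, integral_add I1 I2, integral_const_mul, integral_const_mul,
      integral_const_mul, integral_add I3 I4, integral_sub ia0S' (ia0.mono_set hSK),
      integral_sub ia1S' (ia1.mono_set hSK)]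
  have hu0 : 0 ≤ᵐ[volume.restrict K] u := ae_of_all _ fun x => sq_nonneg _
  have t1 : ∫ x in S', u x ≤ ∫ x in K, u x :=
    setIntegral_mono_set iu hu0 (LE.le.eventuallyLE hS'K)
  have t2 : ∫ x in S, u x ≤ ∫ x in K, u x :=
    setIntegral_mono_set iu hu0 (LE.le.eventuallyLE hSK)
  have t30 := abs_le.1 (abs_setIntegral_sub_le hKfin hS hSK ia0 b0)
  have t30' := abs_le.1 (abs_setIntegral_sub_le hKfin hS'm hS'K ia0 b0)
  have t31 := abs_le.1 (abs_setIntegral_sub_le hKfin hS hSK ia1 b1)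
  have t31' := abs_le.1 (abs_setIntegral_sub_le hKfin hS'm hS'K ia1 b1)
  have t4 := abs_le.1 (abs_setIntegral_sub_le hKfin hS hSK ig bg)
  rw [hδ'] at t30' t31'
  rw [integral_const_mul, split] at key
  have hRh : 0 ≤ 4 * R * h ^ 2 := by positivity
  have e3 : 4 * R * h ^ 2 *
        (((∫ x in S', a0 x) - ∫ x in S, a0 x) + ((∫ x in S', a1 x) - ∫ x in S, a1 x))
      ≤ 4 * R * h ^ 2 * (4 * (R * δ)) := by
    apply mul_le_mul_of_nonneg_left _ hRh
    linarith [t30.1, t30.2, t30'.1, t30'.2, t31.1, t31.2, t31'.1, t31'.2]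
  have e4 : h ^ 2 * ∫ x in K, g2 x ≤ h ^ 2 * ((∫ x in S, g2 x) + 4 * R ^ 2 * δ) := by
    apply mul_le_mul_of_nonneg_left _ (by positivity)
    linarith [t4.2]
  nlinarith


theorem final_real {I q A B M r : ℝ} (hr : 0 < r) (hq : 0 ≤ q) (hA : 0 ≤ A) (hB : 0 ≤ B)
    (hM : 0 ≤ M) (hI : I ≤ M) (H : ∀ h, 0 < h → h ≤ r → h ^ 2 * I ≤ A * q + B * h ^ 3) :
    I ≤ (A + B + M / r) * q ^ (1 / 3 : ℝ) := by
  rcases hq.eq_or_lt with rfl | hqpos
  · rw [Real.zero_rpow (by norm_num), mul_zero]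
    by_contra hcon
    rw [not_le] at hcon
    set h := min r (I / (2 * (B + 1))) with hh
    have hpos : 0 < h := lt_min hr (by positivity)
    have h1 := H h hpos (min_le_left _ _)
    have h2 : h ≤ I / (2 * (B + 1)) := min_le_right _ _
    rw [le_div_iff₀ (by positivity)] at h2
    have h3 : I ≤ B * h := by
      have : h ^ 2 * I ≤ h ^ 2 * (B * h) := by nlinarith
      exact le_of_mul_le_mul_left this (by positivity)
    nlinarith
  · set t := q ^ (1 / 3 : ℝ) with ht
    have htpos : 0 < t := Real.rpow_pos_of_pos hqpos _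
    have ht3 : t ^ 3 = q := by
      rw [ht, ← Real.rpow_natCast, ← Real.rpow_mul hq]; norm_num
    have hMr : 0 ≤ M / r := by positivity
    rcases le_or_gt t r with htr | htr
    · have h1 := H t htpos htr
      rw [← ht3] at h1
      have : t ^ 2 * I ≤ t ^ 2 * ((A + B) * t) := by nlinarith
      have := le_of_mul_le_mul_left this (by positivity)
      nlinarith
    · have : M ≤ M / r * t := by
        rw [div_mul_eq_mul_div, le_div_iff₀ hr]
        nlinarith
      nlinarith [mul_nonneg hA htpos.le, mul_nonneg hB htpos.le]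

theorem dir_bound {K : Set E} (hKc : IsCompact K) (hKv : Convex ℝ K) {x0 : E} {r : ℝ} (hr : 0 < r)
    (hball : Metric.closedBall x0 r ⊆ K) {R : ℝ} (hR : 0 ≤ R)
    {φ0 φ1 : E → ℝ} {T0 T1 : E → E} (c : ℝ) (hφ0 : Continuous φ0) (hφ1 : Continuous φ1)
    (hT0 : Measurable T0) (hT1 : Measurable T1)
    (h0 : ∀ᵐ x ∂volume, x ∈ K → ‖T0 x‖ ≤ R ∧ ∀ z ∈ K, φ0 x + inner ℝ (T0 x) (z - x) ≤ φ0 z)
    (h1 : ∀ᵐ x ∂volume, x ∈ K → ‖T1 x‖ ≤ R ∧ ∀ z ∈ K, φ1 x + inner ℝ (T1 x) (z - x) ≤ φ1 z)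
    (k : Fin d) {h : ℝ} (hh : 0 < h) (hhr : h ≤ r) :
    h ^ 2 * ∫ x in K, (T0 x k - T1 x k) ^ 2 ≤ 4 * (∫ x in K, (φ0 x - φ1 x - c) ^ 2)
      + 20 * R ^ 2 * h ^ 2 * (d * (h / r) * volume.real K) := by
  have hl0 : 0 ≤ h / r := by positivity
  have hl1 : h / r ≤ 1 := (div_le_one hr).2 hhr
  set S := AffineMap.homothety x0 (1 - h / r) '' K with hS
  have hSc : IsCompact S := hKc.image (AffineMap.homothety_continuous x0 (1 - h / r))
  set w : E := EuclideanSpace.single k h with hw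
  have hwn : ‖w‖ ≤ h / r * r := by
    rw [hw, PiLp.norm_single, div_mul_cancel₀ _ hr.ne', Real.norm_eq_abs, abs_of_pos hh]
  have mk : ∀ (φ : E → ℝ) (T : E → E),
      (∀ᵐ x ∂volume, x ∈ K → ‖T x‖ ≤ R ∧ ∀ z ∈ K, φ x + inner ℝ (T x) (z - x) ≤ φ z) →
      ∀ᵐ x ∂volume, x ∈ K → Dir K w h R φ (fun x => T x k) x := by
    intro φ T hT
    filter_upwards [hT] with x hx hxK
    obtain ⟨hb, hs⟩ := hx hxK
    refine ⟨le_trans ?_ hb, fun hm => ?_, fun hm => ?_⟩
    · simpa using PiLp.norm_apply_le (T x) k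
    · have := hs _ hm
      simpa [hw, EuclideanSpace.inner_single_right] using this
    · have := hs _ hm
      simp only [sub_sub_cancel_left, inner_neg_right, hw, EuclideanSpace.inner_single_right] at this
      simpa [sub_eq_add_neg] using this
  have hm : ∀ T : E → E, Measurable T → Measurable (fun x => T x k) := fun T hT =>
    (EuclideanSpace.proj k : E →L[ℝ] ℝ).continuous.measurable.comp hT
  have main := core_dir hKc hSc.measurableSet (shrink_subset hKv hball hl0 hl1 hr.le) w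
    (fun x hx => shrink_add_mem hKv hball hl0 hl1 hx hwn) hR hh c hφ0 hφ1 (hm T0 hT0) (hm T1 hT1)
    (mk φ0 T0 h0) (mk φ1 T1 h1)
  have hd := shrink_diff_le hKc hKv hball hl0 hl1 hr.le
  refine main.trans ?_
  have : 0 ≤ 20 * R ^ 2 * h ^ 2 := by positivity
  nlinarith [mul_le_mul_of_nonneg_left hd this]


/-- **Master Gagliardo–Nirenberg inequality** for differences of convex potentials. -/
theorem gn_master (K : Set E) (hKc : IsCompact K) (hKv : Convex ℝ K)
    (hKi : (interior K).Nonempty) (R : ℝ) (hR : 0 ≤ R) :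
    ∃ C : ℝ, 0 ≤ C ∧ ∀ (φ0 φ1 : E → ℝ) (T0 T1 : E → E), Continuous φ0 → Continuous φ1 →
      Measurable T0 → Measurable T1 →
      (∀ᵐ x ∂(uniformProbOn K), ‖T0 x‖ ≤ R ∧ ∀ z ∈ K, φ0 x + inner ℝ (T0 x) (z - x) ≤ φ0 z) →
      (∀ᵐ x ∂(uniformProbOn K), ‖T1 x‖ ≤ R ∧ ∀ z ∈ K, φ1 x + inner ℝ (T1 x) (z - x) ≤ φ1 z) →
      ∀ c : ℝ, ∫ x, ‖T0 x - T1 x‖ ^ 2 ∂(uniformProbOn K) ≤
        C * (∫ x, (φ0 x - φ1 x - c) ^ 2 ∂(uniformProbOn K)) ^ (1 / 3 : ℝ) := by
  obtain ⟨x0, hx0⟩ := hKi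
  obtain ⟨r, hr, hball⟩ : ∃ r > 0, Metric.closedBall x0 r ⊆ K :=
    Metric.nhds_basis_closedBall.mem_iff.1 (mem_interior_iff_mem_nhds.1 hx0)
  have hKfin : volume K ≠ ⊤ := hKc.measure_lt_top.ne
  have hVpos : 0 < volume.real K := by
    rw [measureReal_def]
    refine ENNReal.toReal_pos ?_ hKfin
    exact (lt_of_lt_of_le (Metric.measure_closedBall_pos volume x0 hr) (measure_mono hball)).ne'
  set V := volume.real K with hV
  refine ⟨d * 4 + d * (20 * R ^ 2 * d / r) + 4 * R ^ 2 / r, by positivity, ?_⟩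
  intro φ0 φ1 T0 T1 hφ0 hφ1 hT0 hT1 h0 h1 c
  have hc : (volume K)⁻¹ ≠ 0 := ENNReal.inv_ne_zero.2 hKfin
  have conv : ∀ p : E → Prop, (∀ᵐ x ∂(uniformProbOn K), p x) → ∀ᵐ x ∂volume, x ∈ K → p x := by
    intro p hp
    rw [uniformProbOn] at hp
    have hp' : ∀ᵐ x ∂(volume.restrict K), p x := by
      rw [ae_iff] at hp ⊢
      rw [Measure.smul_apply, smul_eq_mul] at hp
      exact (mul_eq_zero.1 hp).resolve_left hc
    exact (ae_restrict_iff' hKc.measurableSet).1 hp'
  have int_eq : ∀ f : E → ℝ, ∫ x, f x ∂(uniformProbOn K) = V⁻¹ * ∫ x in K, f x := by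
    intro f
    rw [uniformProbOn, integral_smul_measure]
    simp [hV, measureReal_def, ENNReal.toReal_inv]
  have h0' := conv _ h0
  have h1' := conv _ h1
  rw [int_eq, int_eq]
  have bn : ∀ᵐ x ∂volume, x ∈ K → ‖T0 x - T1 x‖ ≤ 2 * R := by
    filter_upwards [h0', h1'] with x e0 e1 hxK
    calc ‖T0 x - T1 x‖ ≤ ‖T0 x‖ + ‖T1 x‖ := norm_sub_le _ _
      _ ≤ 2 * R := by linarith [(e0 hxK).1, (e1 hxK).1]
  have hm : ∀ T : E → E, Measurable T → ∀ k : Fin d, Measurable (fun x => T x k) := fun T hT k =>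
    (EuclideanSpace.proj k : E →L[ℝ] ℝ).continuous.measurable.comp hT
  have ik : ∀ k : Fin d, IntegrableOn (fun x => (T0 x k - T1 x k) ^ 2) K := by
    intro k
    refine Measure.integrableOn_of_bounded hKfin
      (((hm T0 hT0 k).sub (hm T1 hT1 k)).pow_const 2).aestronglyMeasurable (M := 4 * R ^ 2)
      ((ae_restrict_iff' hKc.measurableSet).2 ?_)
    filter_upwards [bn] with x hx hxK
    have h2 : |T0 x k - T1 x k| ≤ 2 * R := by
      have := PiLp.norm_apply_le (T0 x - T1 x) k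
      exact le_trans (by simpa using this) (hx hxK)
    rw [Real.norm_eq_abs, abs_of_nonneg (sq_nonneg _)]
    have := abs_le.1 h2
    nlinarith [this.1, this.2]
  have hsum : ∫ x in K, ‖T0 x - T1 x‖ ^ 2 = ∑ k : Fin d, ∫ x in K, (T0 x k - T1 x k) ^ 2 := by
    rw [← integral_finsetSum _ (fun k _ => ik k)]
    congr 1
    ext x
    rw [EuclideanSpace.real_norm_sq_eq]
    simp
  have hQ0 : 0 ≤ ∫ x in K, (φ0 x - φ1 x - c) ^ 2 := integral_nonneg fun x => sq_nonneg _
  have hVi : 0 < V⁻¹ := inv_pos.2 hVpos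
  apply final_real hr (mul_nonneg hVi.le hQ0) (by positivity) (by positivity)
    (by positivity : 0 ≤ 4 * R ^ 2)
  · have := norm_setIntegral_le_of_norm_le_const_ae' (μ := volume) (s := K)
      (f := fun x => ‖T0 x - T1 x‖ ^ 2) (C := 4 * R ^ 2) hKfin.lt_top (by
        filter_upwards [bn] with x hx hxK
        rw [Real.norm_eq_abs, abs_of_nonneg (sq_nonneg _)]
        nlinarith [hx hxK, norm_nonneg (T0 x - T1 x)])
    have h3 := (le_abs_self _).trans this
    rw [inv_mul_le_iff₀ hVpos]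
    linarith
  · intro h hh hhr
    have hk : ∀ k : Fin d, h ^ 2 * ∫ x in K, (T0 x k - T1 x k) ^ 2 ≤
        4 * (∫ x in K, (φ0 x - φ1 x - c) ^ 2) + 20 * R ^ 2 * h ^ 2 * (d * (h / r) * V) :=
      fun k => dir_bound hKc hKv hr hball hR c hφ0 hφ1 hT0 hT1 h0' h1' k hh hhr
    have hs : h ^ 2 * ∫ x in K, ‖T0 x - T1 x‖ ^ 2 ≤
        d * (4 * (∫ x in K, (φ0 x - φ1 x - c) ^ 2) + 20 * R ^ 2 * h ^ 2 * (d * (h / r) * V)) := by
      rw [hsum, Finset.mul_sum]
      calc _ ≤ ∑ _k : Fin d, (4 * (∫ x in K, (φ0 x - φ1 x - c) ^ 2)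
            + 20 * R ^ 2 * h ^ 2 * (d * (h / r) * V)) := Finset.sum_le_sum fun k _ => hk k
        _ = _ := by simp; ring
    have := mul_le_mul_of_nonneg_left hs hVi.le
    calc h ^ 2 * (V⁻¹ * ∫ x in K, ‖T0 x - T1 x‖ ^ 2)
        = V⁻¹ * (h ^ 2 * ∫ x in K, ‖T0 x - T1 x‖ ^ 2) := by ring
      _ ≤ _ := this
      _ = _ := by field_simp

end Crest.Agent.S0109.GNM
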