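import Crest.Agent.S0109_Basic
import Crest.Agent.S0109_GNM

/-! Row 82, part B: Gagliardo-Nirenberg inequality for differences of convex Lipschitz functions.
Direct finite-difference proof in `S0109_GNM.lean` (`GNM.gn_master`); this file is the wrapper with
the interface of the row. -/

set_option autoImplicit false
open MeasureTheory Set Filter Topology
open scoped ENNReal NNReal InnerProductSpace
open Crest.AnalysisR.OT

namespace Crest.Agent.S0109

variable {d : ℕ}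

theorem gagliardo_nirenberg {K : Set (EE d)} (hK : IsBody K) (R : ℝ≥0) :
    ∃ C : ℝ≥0, ∀ (φ₀ φ₁ : EE d → ℝ) (T₀ T₁ : EE d → EE d),
      IsPot (uniformProbOn K) R φ₀ T₀ → IsPot (uniformProbOn K) R φ₁ T₁ → ∀ c : ℝ,
      ∫ x, ‖T₀ x - T₁ x‖ ^ 2 ∂(uniformProbOn K) ≤
        C * (∫ x, (φ₀ x - φ₁ x - c) ^ 2 ∂(uniformProbOn K)) ^ (1 / 3 : ℝ) := by
  obtain ⟨C, hC, H⟩ := GNM.gn_master K hK.compact hK.convex hK.inter (R : ℝ) R.2
  refine ⟨⟨C, hC⟩, fun φ₀ φ₁ T₀ T₁ h₀ h₁ c => ?_⟩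
  refine H φ₀ φ₁ T₀ T₁ h₀.lip.continuous h₁.lip.continuous h₀.meas h₁.meas ?_ ?_ c
  · filter_upwards [h₀.norm_le, h₀.subgrad] with x hx hs
    exact ⟨hx, fun z _ => hs z⟩
  · filter_upwards [h₁.norm_le, h₁.subgrad] with x hx hs
    exact ⟨hx, fun z _ => hs z⟩

end Crest.Agent.S0109
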