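import Crest.Agent.S0109_Basic

/-! Row 82, part C2: approximation of a potential pair by piecewise affine ones. -/

set_option autoImplicit false
open MeasureTheory Set Filter Topology
open scoped ENNReal NNReal InnerProductSpace
open Crest.AnalysisR.OT

namespace Crest.Agent.S0109

variable {d : ℕ}

namespace Approx

/-- the affine minorant with value `b` at `p` and slope `v`. -/
noncomputable def aff (b : ℝ) (p v : EE d) (x : EE d) : ℝ := b + ⟪v, x - p⟫_ℝ

open Classical in
/-- running maximum of the affine functions `a i`, together with the slope of the first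
maximising one. -/
noncomputable def apx (a : ℕ → EE d → ℝ) (v : ℕ → EE d) (n : ℕ) :
    (EE d → ℝ) × (EE d → EE d) :=
  Nat.rec (a 0, fun _ => v 0)
    (fun k p => (fun x => max (p.1 x) (a (k + 1) x),
      fun x => if a (k + 1) x ≤ p.1 x then p.2 x else v (k + 1))) n

variable {a : ℕ → EE d → ℝ} {v : ℕ → EE d}

theorem apx_zero_fst : (apx a v 0).1 = a 0 := rfl
theorem apx_zero_snd : (apx a v 0).2 = fun _ => v 0 := rfl
theorem apx_succ_fst (n : ℕ) :
    (apx a v (n + 1)).1 = fun x => max ((apx a v n).1 x) (a (n + 1) x) := rfl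
open Classical in
theorem apx_succ_snd (n : ℕ) :
    (apx a v (n + 1)).2 =
      fun x => if a (n + 1) x ≤ (apx a v n).1 x then (apx a v n).2 x else v (n + 1) := rfl

theorem apx_convex (ha : ∀ i, ConvexOn ℝ univ (a i)) (n : ℕ) :
    ConvexOn ℝ univ (apx a v n).1 := by
  induction n with
  | zero => rw [apx_zero_fst]; exact ha 0
  | succ n ih => rw [apx_succ_fst]; exact ih.sup (ha (n + 1))

theorem apx_lip {R : ℝ≥0} (ha : ∀ i, LipschitzWith R (a i)) (n : ℕ) :
    LipschitzWith R (apx a v n).1 := by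
  induction n with
  | zero => rw [apx_zero_fst]; exact ha 0
  | succ n ih => rw [apx_succ_fst]; simpa using ih.max (ha (n + 1))

theorem apx_meas {R : ℝ≥0} (ha : ∀ i, LipschitzWith R (a i)) (n : ℕ) :
    Measurable (apx a v n).2 := by
  classical
  induction n with
  | zero => rw [apx_zero_snd]; exact measurable_const
  | succ n ih =>
    rw [apx_succ_snd]
    exact Measurable.ite (measurableSet_le (ha (n + 1)).continuous.measurable
      (apx_lip ha n).continuous.measurable) ih measurable_const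

theorem apx_finite (n : ℕ) : (range (apx a v n).2).Finite := by
  classical
  induction n with
  | zero =>
    rw [apx_zero_snd]
    exact (finite_singleton (v 0)).subset (by rintro _ ⟨x, rfl⟩; rfl)
  | succ n ih =>
    rw [apx_succ_snd]
    refine (ih.union (finite_singleton (v (n + 1)))).subset ?_
    rintro _ ⟨x, rfl⟩
    dsimp only
    split_ifs
    · exact Or.inl ⟨x, rfl⟩
    · exact Or.inr rfl

theorem apx_norm_le {R : ℝ} (hv : ∀ i, ‖v i‖ ≤ R) (n : ℕ) (x : EE d) :
    ‖(apx a v n).2 x‖ ≤ R := by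
  classical
  induction n with
  | zero => rw [apx_zero_snd]; exact hv 0
  | succ n ih =>
    rw [apx_succ_snd]
    dsimp only
    split_ifs
    · exact ih
    · exact hv (n + 1)

theorem apx_subgrad (ha : ∀ i x z, a i x + ⟪v i, z - x⟫_ℝ = a i z) (n : ℕ) (x z : EE d) :
    (apx a v n).1 x + ⟪(apx a v n).2 x, z - x⟫_ℝ ≤ (apx a v n).1 z := by
  classical
  induction n with
  | zero => rw [apx_zero_fst, apx_zero_snd]; exact (ha 0 x z).le
  | succ n ih =>
    rw [apx_succ_fst, apx_succ_snd]
    dsimp only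
    split_ifs with hc
    · rw [max_eq_left hc]
      exact ih.trans (le_max_left _ _)
    · rw [max_eq_right (not_le.1 hc).le, ha]
      exact le_max_right _ _

theorem apx_le {φ : EE d → ℝ} (ha : ∀ i x, a i x ≤ φ x) (n : ℕ) (x : EE d) :
    (apx a v n).1 x ≤ φ x := by
  induction n with
  | zero => rw [apx_zero_fst]; exact ha 0 x
  | succ n ih => rw [apx_succ_fst]; exact max_le ih (ha (n + 1) x)

theorem le_apx {i n : ℕ} (hin : i ≤ n) (x : EE d) : a i x ≤ (apx a v n).1 x := by
  induction n with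
  | zero =>
    obtain rfl : i = 0 := Nat.le_zero.1 hin
    rw [apx_zero_fst]
  | succ n ih =>
    rw [apx_succ_fst]
    rcases Nat.lt_or_ge i (n + 1) with h | h
    · exact (ih (Nat.lt_succ_iff.1 h)).trans (le_max_left _ _)
    · obtain rfl : i = n + 1 := le_antisymm hin h
      exact le_max_right _ _

/-- a subgradient of an `R`-Lipschitz function has norm at most `R`. -/
theorem norm_le_of_subgrad {R : ℝ≥0} {φ : EE d → ℝ} (hl : LipschitzWith R φ) {x w : EE d}
    (hx : ∀ z, φ x + ⟪w, z - x⟫_ℝ ≤ φ z) : ‖w‖ ≤ R := by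
  have h1 := hx (x + w)
  have h2 : φ (x + w) - φ x ≤ R * ‖w‖ := by
    have := hl.dist_le_mul (x + w) x
    rw [Real.dist_eq, dist_eq_norm] at this
    simp only [add_sub_cancel_left] at this
    exact (le_abs_self _).trans this
  simp only [add_sub_cancel_left, real_inner_self_eq_norm_sq] at h1
  by_contra hlt
  rw [not_le] at hlt
  have hpos : 0 < ‖w‖ := lt_of_le_of_lt R.coe_nonneg hlt
  nlinarith

theorem aff_lip {R : ℝ≥0} {b : ℝ} {p w : EE d} (hw : ‖w‖ ≤ R) : LipschitzWith R (aff b p w) := by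
  refine LipschitzWith.of_dist_le_mul fun x y => ?_
  rw [Real.dist_eq, dist_eq_norm]
  have : aff b p w x - aff b p w y = ⟪w, x - y⟫_ℝ := by
    simp only [aff, inner_sub_right]; ring
  rw [this]
  exact (abs_real_inner_le_norm _ _).trans (mul_le_mul_of_nonneg_right hw (norm_nonneg _))

theorem aff_convex {b : ℝ} {p w : EE d} : ConvexOn ℝ univ (aff b p w) := by
  refine ⟨convex_univ, fun x _ y _ s t _ _ hst => le_of_eq ?_⟩
  simp only [aff, inner_sub_right, inner_add_right, inner_smul_right, smul_eq_mul]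
  have : t = 1 - s := by linarith
  subst this
  ring

theorem aff_add {b : ℝ} {p w : EE d} (x z : EE d) :
    aff b p w x + ⟪w, z - x⟫_ℝ = aff b p w z := by
  simp only [aff, inner_sub_right]; ring

/-- first order upper bound at a differentiability point where `w` is a subgradient. -/
theorem exists_radius {φ : EE d → ℝ} {x w : EE d} (hd : DifferentiableAt ℝ φ x)
    (hx : ∀ z, φ x + ⟪w, z - x⟫_ℝ ≤ φ z) {ε : ℝ} (hε : 0 < ε) :
    ∃ r > 0, ∀ z, dist z x < r → φ z ≤ φ x + ⟪w, z - x⟫_ℝ + ε * ‖z - x‖ := by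
  have hL := hd.hasFDerivAt
  set L := fderiv ℝ φ x with hLdef
  -- `z ↦ φ z - ⟪w, z - x⟫` has a minimum at `x`
  have h1 : HasFDerivAt (fun z => φ z - ⟪w, z - x⟫_ℝ) (L - innerSL ℝ w) x := by
    have h2 : HasFDerivAt (fun z => ⟪w, z - x⟫_ℝ) (innerSL ℝ w) x := by
      have h3 : HasFDerivAt (fun z => (innerSL ℝ w) z - ⟪w, x⟫_ℝ) (innerSL ℝ w) x :=
        (innerSL ℝ w).hasFDerivAt.sub_const _
      refine h3.congr_of_eventuallyEq (Eventually.of_forall fun z => ?_)
      simp [inner_sub_right]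
    exact hL.sub h2
  have hmin : IsLocalMin (fun z => φ z - ⟪w, z - x⟫_ℝ) x := by
    refine Eventually.of_forall fun z => ?_
    have := hx z
    simp only [sub_self, inner_zero_right, sub_zero]
    linarith
  have h0 : L - innerSL ℝ w = 0 := hmin.hasFDerivAt_eq_zero h1
  have hLw : ∀ h, L h = ⟪w, h⟫_ℝ := fun h => by
    have := congrArg (fun f => f h) h0
    simp only [sub_apply, innerSL_apply_apply, zero_apply] at this
    linarith
  have ho := hL.isLittleO.def hε
  obtain ⟨r, hr, hball⟩ := Metric.eventually_nhds_iff.1 ho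
  refine ⟨r, hr, fun z hz => ?_⟩
  have := hball hz
  rw [hLw, Real.norm_eq_abs] at this
  have := (le_abs_self _).trans this
  linarith

/-- convergence of subgradients. -/
theorem tendsto_subgrad {φ : EE d → ℝ} {x w : EE d} (hd : DifferentiableAt ℝ φ x)
    (hx : ∀ z, φ x + ⟪w, z - x⟫_ℝ ≤ φ z) {f : ℕ → EE d → ℝ} {p : ℕ → EE d}
    (hle : ∀ n z, f n z ≤ φ z) (hsub : ∀ n z, f n x + ⟪p n, z - x⟫_ℝ ≤ f n z)
    (hlim : Tendsto (fun n => f n x) atTop (𝓝 (φ x))) :
    Tendsto p atTop (𝓝 w) := by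
  rw [Metric.tendsto_atTop]
  intro ε hε
  obtain ⟨r, hr, hball⟩ := exists_radius hd hx (ε := ε / 4) (by positivity)
  have hpos : 0 < ε / 4 * (r / 2) := by positivity
  obtain ⟨N, hN⟩ := (Metric.tendsto_atTop.1 hlim) _ hpos
  refine ⟨N, fun n hn => ?_⟩
  have hδ : φ x - f n x < ε / 4 * (r / 2) := by
    have := hN n hn
    rw [Real.dist_eq, abs_sub_comm] at this
    exact (le_abs_self _).trans_lt this
  rw [dist_eq_norm]
  by_cases h0 : p n - w = 0
  · rw [h0, norm_zero]; exact hε
  have hnpos : 0 < ‖p n - w‖ := norm_pos_iff.2 h0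
  set h : EE d := ((r / 2) / ‖p n - w‖) • (p n - w) with hh
  have hnorm : ‖h‖ = r / 2 := by
    rw [hh, norm_smul, Real.norm_eq_abs, abs_of_pos (by positivity)]
    field_simp
  have hin : ⟪p n - w, h⟫_ℝ = (r / 2) * ‖p n - w‖ := by
    rw [hh, inner_smul_right, real_inner_self_eq_norm_sq]
    field_simp
  have hz : dist (x + h) x < r := by
    rw [dist_eq_norm, add_sub_cancel_left, hnorm]; linarith
  have e1 := hball (x + h) hz
  have e2 := hsub n (x + h)
  have e3 := hle n (x + h)
  rw [add_sub_cancel_left] at e1 e2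
  rw [hnorm] at e1
  rw [inner_sub_left] at hin
  have : (r / 2) * ‖p n - w‖ < (r / 2) * (ε / 2) := by nlinarith
  have := lt_of_mul_lt_mul_left this (by positivity)
  linarith

end Approx

open Approx in
theorem exists_approx {K : Set (EE d)} (hK : IsBody K) (R : ℝ≥0) (φ : EE d → ℝ) (T : EE d → EE d)
    (h : IsPot (uniformProbOn K) R φ T) :
    ∃ (φn : ℕ → EE d → ℝ) (Tn : ℕ → EE d → EE d),
      (∀ n, IsPot (uniformProbOn K) R (φn n) (Tn n)) ∧ (∀ n, (range (Tn n)).Finite) ∧
      (∀ x ∈ K, Tendsto (fun n => φn n x) atTop (𝓝 (φ x))) ∧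
      (∀ᵐ x ∂(uniformProbOn K), Tendsto (fun n => Tn n x) atTop (𝓝 (T x))) ∧
      (∀ n x z, φn n x + ⟪Tn n x, z - x⟫_ℝ ≤ φn n z) ∧ (∀ n x, ‖Tn n x‖ ≤ R) := by
  have hS := hK.isSrc
  have hprob := hS.prob
  set ρ := uniformProbOn K with hρ
  -- the good set
  set G : Set (EE d) := {x | x ∈ K ∧ ∀ z, φ x + ⟪T x, z - x⟫_ℝ ≤ φ z} with hG
  have hKae : ∀ᵐ x ∂ρ, x ∈ K := by
    rw [ae_iff]; exact hS.carried
  have hGae : ∀ᵐ x ∂ρ, x ∈ G := by
    filter_upwards [hKae, h.subgrad] with x h1 h2 using ⟨h1, h2⟩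
  -- `G` meets every open set meeting `K`
  have hGdense : ∀ U : Set (EE d), IsOpen U → (U ∩ K).Nonempty → (U ∩ G).Nonempty := by
    intro U hU hne
    have hpos := hK.measure_pos_of_open hU hne
    by_contra hemp
    rw [not_nonempty_iff_eq_empty] at hemp
    have hsub : U ⊆ Gᶜ := fun x hxU hxG => by
      have : x ∈ U ∩ G := ⟨hxU, hxG⟩
      rw [hemp] at this
      exact this
    have h0 : ρ Gᶜ = 0 := ae_iff.1 hGae
    exact hpos.ne' (measure_mono_null hsub h0)
  -- a countable subset of `G`, dense in `G`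
  obtain ⟨t, htG, htc, hGt⟩ :=
    (TopologicalSpace.IsSeparable.of_separableSpace G).exists_countable_dense_subset
  have hKne : K.Nonempty := hK.inter.mono interior_subset
  have hGne : G.Nonempty := by
    obtain ⟨x, -, hx⟩ := hGdense univ isOpen_univ (by simpa using hKne)
    exact ⟨x, hx⟩
  have htne : t.Nonempty := by
    by_contra hemp
    rw [not_nonempty_iff_eq_empty] at hemp
    obtain ⟨x, hx⟩ := hGne
    have := hGt hx
    rw [hemp, closure_empty] at this
    exact this
  obtain ⟨xs, hxs⟩ := htc.exists_eq_range htne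
  have hxsG : ∀ i, xs i ∈ G := fun i => htG (hxs ▸ mem_range_self i)
  -- density of the sequence in `K`
  have hdense : ∀ x ∈ K, ∀ ε > 0, ∃ i, dist x (xs i) < ε := by
    intro x hx ε hε
    obtain ⟨y, hyU, hyG⟩ := hGdense (Metric.ball x (ε / 2)) Metric.isOpen_ball
      ⟨x, Metric.mem_ball_self (by positivity), hx⟩
    have hycl := hGt hyG
    obtain ⟨z, hzt, hz⟩ := Metric.mem_closure_iff.1 hycl (ε / 2) (by positivity)
    rw [hxs] at hzt
    obtain ⟨i, rfl⟩ := hzt
    refine ⟨i, ?_⟩
    have h1 : dist x y < ε / 2 := by rw [dist_comm]; exact hyU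
    calc dist x (xs i) ≤ dist x y + dist y (xs i) := dist_triangle _ _ _
      _ < ε := by linarith
  -- the affine minorants
  set a : ℕ → EE d → ℝ := fun i => aff (φ (xs i)) (xs i) (T (xs i)) with ha
  set v : ℕ → EE d := fun i => T (xs i) with hv
  have hvR : ∀ i, ‖v i‖ ≤ R := fun i => norm_le_of_subgrad h.lip (hxsG i).2
  have haL : ∀ i, LipschitzWith R (a i) := fun i => aff_lip (hvR i)
  have haC : ∀ i, ConvexOn ℝ univ (a i) := fun i => aff_convex
  have haA : ∀ i x z, a i x + ⟪v i, z - x⟫_ℝ = a i z := fun i x z => aff_add x z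
  have haφ : ∀ i x, a i x ≤ φ x := fun i x => (hxsG i).2 x
  have haxs : ∀ i, a i (xs i) = φ (xs i) := fun i => by simp [ha, aff]
  have hsub := apx_subgrad (a := a) (v := v) haA
  -- pointwise convergence on `K`
  have hconv : ∀ x ∈ K, Tendsto (fun n => (apx a v n).1 x) atTop (𝓝 (φ x)) := by
    intro x hx
    rw [Metric.tendsto_atTop]
    intro ε hε
    obtain ⟨i, hi⟩ := hdense x hx (ε / (2 * (R + 1))) (by positivity)
    refine ⟨i, fun n hn => ?_⟩
    have h1 : (apx a v n).1 x ≤ φ x := apx_le haφ n x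
    have h2 : φ (xs i) ≤ (apx a v n).1 (xs i) := (haxs i) ▸ le_apx hn (xs i)
    have h3 : φ x - φ (xs i) ≤ R * dist x (xs i) := by
      have := h.lip.dist_le_mul x (xs i)
      rw [Real.dist_eq] at this
      exact (le_abs_self _).trans this
    have h4 : (apx a v n).1 (xs i) - (apx a v n).1 x ≤ R * dist x (xs i) := by
      have := (apx_lip (v := v) haL n).dist_le_mul (xs i) x
      rw [Real.dist_eq, dist_comm (xs i) x] at this
      exact (le_abs_self _).trans this
    rw [Real.dist_eq, abs_sub_comm, abs_of_nonneg (by linarith)]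
    have hR : (0 : ℝ) ≤ R := R.coe_nonneg
    have h5 : 2 * (R + 1) * dist x (xs i) < ε := by
      rw [lt_div_iff₀ (by positivity)] at hi
      linarith
    have h6 : 0 ≤ dist x (xs i) := dist_nonneg
    nlinarith
  refine ⟨fun n => (apx a v n).1, fun n => (apx a v n).2, fun n => ?_, fun n => apx_finite n,
    hconv, ?_, hsub, fun n x => apx_norm_le hvR n x⟩
  · exact ⟨apx_convex haC n, apx_lip haL n, apx_meas haL n, Eventually.of_forall fun x => hsub n x⟩
  · have hdiff : ∀ᵐ x ∂ρ, DifferentiableAt ℝ φ x := hS.ac.ae_le h.lip.ae_differentiableAt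
    filter_upwards [hGae, hdiff] with x hxG hxd
    exact tendsto_subgrad hxd hxG.2 (fun n z => apx_le haφ n z) (fun n z => hsub n x z)
      (hconv x hxG.1)

end Crest.Agent.S0109
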