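import Crest.Agent.S0109_Basic

/-! Row 82, part C1: lifting a coupling of the targets to a self-coupling of the source
(disintegration: `Measure.condKernel`). -/

set_option autoImplicit false
set_option linter.unusedSectionVars false
open MeasureTheory Set Filter Topology ProbabilityTheory
open scoped ENNReal NNReal InnerProductSpace
open Crest.AnalysisR.OT

namespace Crest.Agent.S0109

section LiftAux

variable {E : Type*} [MeasurableSpace E] [StandardBorelSpace E] [Nonempty E]

/-- the graph measure `(T x, x)`. -/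
noncomputable def liftGraph (ρ : Measure E) (T : E → E) : Measure (E × E) :=
  ρ.map (fun x => (T x, x))

theorem lift_meas_graph (T : E → E) (hT : Measurable T) : Measurable (fun x => (T x, x)) :=
  hT.prodMk measurable_id

theorem liftGraph_fst (ρ : Measure E) (T : E → E) (hT : Measurable T) :
    (liftGraph ρ T).fst = ρ.map T := by
  unfold liftGraph Measure.fst
  rw [Measure.map_map measurable_fst (lift_meas_graph T hT)]
  rfl

theorem liftGraph_prob (ρ : Measure E) [IsProbabilityMeasure ρ] (T : E → E) (hT : Measurable T) :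
    IsProbabilityMeasure (liftGraph ρ T) :=
  Measure.isProbabilityMeasure_map (lift_meas_graph T hT).aemeasurable

theorem lift_lintegral_cond (ρ : Measure E) [IsProbabilityMeasure ρ] (T : E → E)
    (hT : Measurable T) (κ : Kernel E E) [IsMarkovKernel κ]
    (h : (liftGraph ρ T).fst ⊗ₘ κ = liftGraph ρ T) (A : Set E) (hA : MeasurableSet A) :
    ∫⁻ y, κ y A ∂(ρ.map T) = ρ A := by
  have := liftGraph_prob ρ T hT
  have h2 : ((liftGraph ρ T).fst ⊗ₘ κ) (univ ×ˢ A) = ρ A := by
    rw [h]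
    unfold liftGraph
    rw [Measure.map_apply (lift_meas_graph T hT) (MeasurableSet.univ.prod hA)]
    congr 1
    ext x; simp
  rw [Measure.compProd_apply_prod MeasurableSet.univ hA, liftGraph_fst ρ T hT] at h2
  simpa using h2

theorem lift_ae_cond (ρ : Measure E) [IsProbabilityMeasure ρ] (T : E → E)
    (hT : Measurable T) (κ : Kernel E E) [IsMarkovKernel κ]
    (h : (liftGraph ρ T).fst ⊗ₘ κ = liftGraph ρ T) :
    ∀ᵐ y ∂(ρ.map T), κ y {x | T x ≠ y} = 0 := by
  have := liftGraph_prob ρ T hT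
  have hN : MeasurableSet {p : E × E | T p.2 ≠ p.1} :=
    (measurableSet_eq_fun (hT.comp measurable_snd) measurable_fst).compl
  have h2 : ((liftGraph ρ T).fst ⊗ₘ κ) {p : E × E | T p.2 ≠ p.1} = 0 := by
    rw [h]
    unfold liftGraph
    rw [Measure.map_apply (lift_meas_graph T hT) hN]
    simp
  rw [Measure.compProd_apply hN, liftGraph_fst ρ T hT] at h2
  rw [lintegral_eq_zero_iff (Kernel.measurable_kernel_prodMk_left hN)] at h2
  exact h2

theorem lift_ae_cond' (ρ : Measure E) [IsProbabilityMeasure ρ] (T : E → E)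
    (hT : Measurable T) (κ : Kernel E E) [IsMarkovKernel κ]
    (h : (liftGraph ρ T).fst ⊗ₘ κ = liftGraph ρ T) :
    ∀ᵐ y ∂(ρ.map T), ∀ A : Set E, κ y (T ⁻¹' A) = A.indicator 1 y := by
  filter_upwards [lift_ae_cond ρ T hT κ h] with y hy A
  by_cases hyA : y ∈ A
  · rw [indicator_of_mem hyA]
    have hsub : (T ⁻¹' A)ᶜ ⊆ {x | T x ≠ y} := by
      intro x hx hxy
      exact hx (by simpa [hxy] using hyA)
    have h0 : κ y (T ⁻¹' A)ᶜ = 0 := measure_mono_null hsub hy
    have h1 : κ y (T ⁻¹' A) = κ y univ :=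
      measure_of_measure_compl_eq_zero h0
    rw [h1]; simp
  · rw [indicator_of_notMem hyA]
    apply measure_mono_null _ hy
    intro x hx hxy
    exact hyA (by simpa [hxy] using hx)

theorem exists_lift_aux (ρ : Measure E) [IsProbabilityMeasure ρ] (T₀ T₁ : E → E)
    (h₀ : Measurable T₀) (h₁ : Measurable T₁) (π : Measure (E × E))
    (hπ : IsPairCoupling (ρ.map T₀) (ρ.map T₁) π) :
    ∃ γ : Measure (E × E), γ.map Prod.fst = ρ ∧ γ.map Prod.snd = ρ ∧
      γ.map (Prod.map T₀ T₁) = π := by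
  have i0 := liftGraph_prob ρ T₀ h₀
  have i1 := liftGraph_prob ρ T₁ h₁
  set κ₀ := (liftGraph ρ T₀).condKernel with hκ₀
  set κ₁ := (liftGraph ρ T₁).condKernel with hκ₁
  have d0 : (liftGraph ρ T₀).fst ⊗ₘ κ₀ = liftGraph ρ T₀ := (liftGraph ρ T₀).disintegrate κ₀
  have d1 : (liftGraph ρ T₁).fst ⊗ₘ κ₁ = liftGraph ρ T₁ := (liftGraph ρ T₁).disintegrate κ₁
  set K : Kernel (E × E) (E × E) :=
    (κ₀.comap Prod.fst measurable_fst) ×ₖ (κ₁.comap Prod.snd measurable_snd) with hK
  obtain ⟨hπ0, hπ1⟩ := hπ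
  have hπprob : IsProbabilityMeasure π := by
    constructor
    have : (π.map Prod.fst) univ = 1 := by
      rw [hπ0]
      have := Measure.isProbabilityMeasure_map (μ := ρ) h₀.aemeasurable
      exact measure_univ
    rwa [Measure.map_apply measurable_fst MeasurableSet.univ] at this
  have hrect : ∀ s t : Set E, MeasurableSet s → MeasurableSet t →
      (π.bind K) (s ×ˢ t) = ∫⁻ p, κ₀ p.1 s * κ₁ p.2 t ∂π := by
    intro s t hs ht
    rw [Measure.bind_apply (hs.prod ht) K.measurable.aemeasurable]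
    apply lintegral_congr
    intro p
    rw [hK, Kernel.prod_apply, Measure.prod_prod]
    rfl
  refine ⟨π.bind K, ?_, ?_, ?_⟩
  · ext A hA
    rw [Measure.map_apply measurable_fst hA]
    have : (Prod.fst ⁻¹' A : Set (E × E)) = A ×ˢ univ := by ext; simp
    rw [this, hrect A univ hA MeasurableSet.univ]
    simp only [measure_univ, mul_one]
    rw [← lift_lintegral_cond ρ T₀ h₀ κ₀ d0 A hA, ← hπ0,
      lintegral_map (Kernel.measurable_coe _ hA) measurable_fst]
  · ext A hA
    rw [Measure.map_apply measurable_snd hA]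
    have : (Prod.snd ⁻¹' A : Set (E × E)) = univ ×ˢ A := by ext; simp
    rw [this, hrect univ A MeasurableSet.univ hA]
    simp only [measure_univ, one_mul]
    rw [← lift_lintegral_cond ρ T₁ h₁ κ₁ d1 A hA, ← hπ1,
      lintegral_map (Kernel.measurable_coe _ hA) measurable_snd]
  · symm
    apply Measure.ext_prod
    intro s t hs ht
    rw [Measure.map_apply (h₀.prodMap h₁) (hs.prod ht)]
    have : (Prod.map T₀ T₁ ⁻¹' (s ×ˢ t)) = (T₀ ⁻¹' s) ×ˢ (T₁ ⁻¹' t) := by ext; simp
    rw [this, hrect _ _ (h₀ hs) (h₁ ht)]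
    have a0 : ∀ᵐ p ∂π, ∀ A : Set E, κ₀ p.1 (T₀ ⁻¹' A) = A.indicator 1 p.1 := by
      have := lift_ae_cond' ρ T₀ h₀ κ₀ d0
      rw [← hπ0] at this
      exact ae_of_ae_map measurable_fst.aemeasurable this
    have a1 : ∀ᵐ p ∂π, ∀ A : Set E, κ₁ p.2 (T₁ ⁻¹' A) = A.indicator 1 p.2 := by
      have := lift_ae_cond' ρ T₁ h₁ κ₁ d1
      rw [← hπ1] at this
      exact ae_of_ae_map measurable_snd.aemeasurable this
    have : ∫⁻ p, κ₀ p.1 (T₀ ⁻¹' s) * κ₁ p.2 (T₁ ⁻¹' t) ∂π
        = ∫⁻ p, (s ×ˢ t).indicator 1 p ∂π := by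
      apply lintegral_congr_ae
      filter_upwards [a0, a1] with p hp0 hp1
      rw [hp0 s, hp1 t]
      by_cases h1 : p.1 ∈ s <;> by_cases h2 : p.2 ∈ t <;> simp [indicator, h1, h2]
    rw [this, lintegral_indicator_one (hs.prod ht)]

end LiftAux


variable {d : ℕ}

theorem exists_lift (ρ : Measure (EE d)) [IsProbabilityMeasure ρ] (T₀ T₁ : EE d → EE d)
    (h₀ : Measurable T₀) (h₁ : Measurable T₁) (π : Measure (EE d × EE d))
    (hπ : IsPairCoupling (ρ.map T₀) (ρ.map T₁) π) :
    ∃ γ : Measure (EE d × EE d), γ.map Prod.fst = ρ ∧ γ.map Prod.snd = ρ ∧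
      γ.map (Prod.map T₀ T₁) = π :=
  exists_lift_aux ρ T₀ T₁ h₀ h₁ π hπ

end Crest.Agent.S0109
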