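import Crest.Agent.S0109_FinRange
import Crest.Agent.S0109_Lift
import Crest.Agent.S0109_Approx

/-! Row 82, package C4: Lipschitz stability of the potentials, general case. -/

set_option autoImplicit false
open MeasureTheory Set Filter Topology
open scoped ENNReal NNReal InnerProductSpace
open Crest.AnalysisR.OT

namespace Crest.Agent.S0109

variable {d : ℕ}

/-- A pointwise convergent sequence of `R`-Lipschitz functions is uniformly bounded on a bounded
set. -/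
theorem Stab_unif_bdd {K : Set (EE d)} {D : ℝ} (hD : K ⊆ Metric.closedBall 0 D) (R : ℝ≥0)
    (φn : ℕ → EE d → ℝ) (φ : EE d → ℝ) (hl : ∀ n, LipschitzWith R (φn n))
    (hc : ∀ x ∈ K, Tendsto (fun n => φn n x) atTop (𝓝 (φ x))) :
    ∃ B : ℝ, ∀ n, ∀ x ∈ K, |φn n x| ≤ B := by
  by_cases hne : K.Nonempty
  · obtain ⟨x₀, hx₀⟩ := hne
    obtain ⟨B₀, hB₀⟩ := (hc x₀ hx₀).abs.bddAbove_range
    refine ⟨B₀ + R * (2 * D), fun n x hx => ?_⟩
    have h1 : |φn n x₀| ≤ B₀ := hB₀ ⟨n, rfl⟩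
    have h2 := (hl n).dist_le_mul x x₀
    rw [Real.dist_eq] at h2
    have h3 : dist x x₀ ≤ 2 * D := by
      have a := hD hx
      have b := hD hx₀
      rw [Metric.mem_closedBall] at a b
      calc dist x x₀ ≤ dist x 0 + dist x₀ 0 := dist_triangle_right _ _ _
        _ ≤ 2 * D := by linarith
    have h4 : |φn n x| ≤ |φn n x - φn n x₀| + |φn n x₀| := by
      have := abs_add_le (φn n x - φn n x₀) (φn n x₀)
      simpa using this
    have h5 : (R : ℝ) * dist x x₀ ≤ R * (2 * D) := mul_le_mul_of_nonneg_left h3 R.coe_nonneg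
    linarith
  · exact ⟨0, fun n x hx => absurd ⟨x, hx⟩ hne⟩

theorem potential_stability {K : Set (EE d)} (hK : IsBody K) {D : ℝ}
    (hD : K ⊆ Metric.closedBall 0 D) (R : ℝ≥0) (φ₀ φ₁ : EE d → ℝ) (T₀ T₁ : EE d → EE d)
    (h₀ : IsPot (uniformProbOn K) R φ₀ T₀) (h₁ : IsPot (uniformProbOn K) R φ₁ T₁)
    (π : Measure (EE d × EE d))
    (hπ : IsPairCoupling ((uniformProbOn K).map T₀) ((uniformProbOn K).map T₁) π) :
    ENNReal.ofReal
        (∫ x, (φ₀ x - φ₁ x - ∫ x', (φ₀ x' - φ₁ x') ∂(uniformProbOn K)) ^ 2 ∂(uniformProbOn K))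
      ≤ ENNReal.ofReal (400 * D ^ 2) * quadCost π := by
  set ρ := uniformProbOn K with hρ
  have hS := hK.isSrc
  have hprob : IsProbabilityMeasure ρ := hS.prob
  have hKae : ∀ᵐ x ∂ρ, x ∈ K := by
    rw [ae_iff]; exact hS.carried
  obtain ⟨γ, hγ₀, hγ₁, hγπ⟩ := exists_lift ρ T₀ T₁ h₀.meas h₁.meas π hπ
  have hγprob : IsProbabilityMeasure γ := by
    constructor
    have : (γ.map Prod.fst) univ = 1 := by rw [hγ₀]; exact measure_univ
    rwa [Measure.map_apply measurable_fst MeasurableSet.univ] at this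
  obtain ⟨φa, Ta, ha, hfa, hca, hTa, -, hna⟩ := exists_approx hK R φ₀ T₀ h₀
  obtain ⟨φb, Tb, hb, hfb, hcb, hTb, -, hnb⟩ := exists_approx hK R φ₁ T₁ h₁
  -- the inequality for every `n`
  have hn : ∀ n, ∫ x, (φa n x - φb n x - ∫ x', (φa n x' - φb n x') ∂ρ) ^ 2 ∂ρ
      ≤ 400 * D ^ 2 * ∫ p, ‖Ta n p.1 - Tb n p.2‖ ^ 2 ∂γ := fun n =>
    stability_finite_range hK hD R (φa n) (φb n) (Ta n) (Tb n) (ha n) (hb n) (hfa n) (hfb n) γ
      hγ₀ hγ₁
  -- uniform bounds
  obtain ⟨Ba, hBa⟩ := Stab_unif_bdd hD R φa φ₀ (fun n => (ha n).lip) hca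
  obtain ⟨Bb, hBb⟩ := Stab_unif_bdd hD R φb φ₁ (fun n => (hb n).lip) hcb
  set B := Ba + Bb with hB
  have hu : ∀ n, ∀ x ∈ K, |φa n x - φb n x| ≤ B := by
    intro n x hx
    have := abs_sub (φa n x) (φb n x)
    have h1 := hBa n x hx
    have h2 := hBb n x hx
    linarith
  have hmeasu : ∀ n, Measurable (fun x => φa n x - φb n x) := fun n =>
    ((ha n).lip.continuous.measurable).sub ((hb n).lip.continuous.measurable)
  -- convergence of the means
  have hmean : Tendsto (fun n => ∫ x', (φa n x' - φb n x') ∂ρ) atTop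
      (𝓝 (∫ x', (φ₀ x' - φ₁ x') ∂ρ)) := by
    apply tendsto_integral_of_dominated_convergence (fun _ => B)
    · exact fun n => (hmeasu n).aestronglyMeasurable
    · exact integrable_const _
    · intro n
      filter_upwards [hKae] with x hx
      rw [Real.norm_eq_abs]; exact hu n x hx
    · filter_upwards [hKae] with x hx
      exact (hca x hx).sub (hcb x hx)
  have hmeanB : ∀ n, |∫ x', (φa n x' - φb n x') ∂ρ| ≤ B := by
    intro n
    have h1 : ‖∫ x', (φa n x' - φb n x') ∂ρ‖ ≤ B * (ρ univ).toReal := by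
      apply norm_integral_le_of_norm_le_const
      filter_upwards [hKae] with x hx
      rw [Real.norm_eq_abs]; exact hu n x hx
    simpa using h1
  have hL : Tendsto (fun n => ∫ x, (φa n x - φb n x - ∫ x', (φa n x' - φb n x') ∂ρ) ^ 2 ∂ρ) atTop
      (𝓝 (∫ x, (φ₀ x - φ₁ x - ∫ x', (φ₀ x' - φ₁ x') ∂ρ) ^ 2 ∂ρ)) := by
    apply tendsto_integral_of_dominated_convergence (fun _ => (2 * B) ^ 2)
    · exact fun n => (((hmeasu n).sub measurable_const).pow_const 2).aestronglyMeasurable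
    · exact integrable_const _
    · intro n
      filter_upwards [hKae] with x hx
      rw [Real.norm_eq_abs, abs_pow]
      have h1 := hu n x hx
      have h2 := hmeanB n
      have h3 := abs_sub (φa n x - φb n x) (∫ x', (φa n x' - φb n x') ∂ρ)
      exact pow_le_pow_left₀ (abs_nonneg _) (by linarith) 2
    · filter_upwards [hKae] with x hx
      exact (((hca x hx).sub (hcb x hx)).sub hmean).pow 2
  -- convergence of the right-hand sides
  have hTa' : ∀ᵐ p ∂γ, Tendsto (fun n => Ta n p.1) atTop (𝓝 (T₀ p.1)) := by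
    rw [← hρ, ← hγ₀] at hTa
    exact ae_of_ae_map measurable_fst.aemeasurable hTa
  have hTb' : ∀ᵐ p ∂γ, Tendsto (fun n => Tb n p.2) atTop (𝓝 (T₁ p.2)) := by
    rw [← hρ, ← hγ₁] at hTb
    exact ae_of_ae_map measurable_snd.aemeasurable hTb
  have hRn : ∀ n (p : EE d × EE d), ‖Ta n p.1 - Tb n p.2‖ ^ 2 ≤ (2 * (R : ℝ)) ^ 2 := by
    intro n p
    have h1 := hna n p.1
    have h2 := hnb n p.2
    have h3 := norm_sub_le (Ta n p.1) (Tb n p.2)
    exact pow_le_pow_left₀ (norm_nonneg _) (by linarith) 2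
  have hRt : Tendsto (fun n => ∫ p, ‖Ta n p.1 - Tb n p.2‖ ^ 2 ∂γ) atTop
      (𝓝 (∫ p, ‖T₀ p.1 - T₁ p.2‖ ^ 2 ∂γ)) := by
    apply tendsto_integral_of_dominated_convergence (fun _ => (2 * (R : ℝ)) ^ 2)
    · intro n
      exact (((((ha n).meas.comp measurable_fst).sub ((hb n).meas.comp measurable_snd)).norm).pow_const
        2).aestronglyMeasurable
    · exact integrable_const _
    · intro n
      filter_upwards with p
      rw [Real.norm_eq_abs, abs_of_nonneg (by positivity)]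
      exact hRn n p
    · filter_upwards [hTa', hTb'] with p h1 h2
      exact ((h1.sub h2).norm).pow 2
  have hlim : ∫ x, (φ₀ x - φ₁ x - ∫ x', (φ₀ x' - φ₁ x') ∂ρ) ^ 2 ∂ρ
      ≤ 400 * D ^ 2 * ∫ p, ‖T₀ p.1 - T₁ p.2‖ ^ 2 ∂γ :=
    le_of_tendsto_of_tendsto' hL (hRt.const_mul _) hn
  -- conversion to `quadCost`
  have hmT : Measurable (fun p : EE d × EE d => ‖T₀ p.1 - T₁ p.2‖ ^ 2) :=
    (((h₀.meas.comp measurable_fst).sub (h₁.meas.comp measurable_snd)).norm).pow_const 2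
  have hbT : ∀ᵐ p ∂γ, ‖T₀ p.1 - T₁ p.2‖ ^ 2 ≤ (2 * (R : ℝ)) ^ 2 := by
    filter_upwards [hTa', hTb'] with p h1 h2
    exact le_of_tendsto' (((h1.sub h2).norm).pow 2) (fun n => hRn n p)
  have hiT : Integrable (fun p : EE d × EE d => ‖T₀ p.1 - T₁ p.2‖ ^ 2) γ := by
    apply Integrable.of_bound hmT.aestronglyMeasurable ((2 * (R : ℝ)) ^ 2)
    filter_upwards [hbT] with p hp
    rw [Real.norm_eq_abs, abs_of_nonneg (by positivity)]
    exact hp
  have hq : ENNReal.ofReal (∫ p, ‖T₀ p.1 - T₁ p.2‖ ^ 2 ∂γ) = quadCost π := by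
    rw [ofReal_integral_eq_lintegral_ofReal hiT (Eventually.of_forall fun p => by positivity)]
    unfold quadCost
    rw [← hγπ, lintegral_map (by fun_prop) (h₀.meas.prodMap h₁.meas)]
    apply lintegral_congr
    intro p
    simp only [Prod.map_fst, Prod.map_snd]
    rw [ENNReal.ofReal_pow (norm_nonneg _), ofReal_norm]
  calc ENNReal.ofReal (∫ x, (φ₀ x - φ₁ x - ∫ x', (φ₀ x' - φ₁ x') ∂ρ) ^ 2 ∂ρ)
      ≤ ENNReal.ofReal (400 * D ^ 2 * ∫ p, ‖T₀ p.1 - T₁ p.2‖ ^ 2 ∂γ) :=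
        ENNReal.ofReal_le_ofReal hlim
    _ = ENNReal.ofReal (400 * D ^ 2) * quadCost π := by
        rw [ENNReal.ofReal_mul (by positivity), hq]

end Crest.Agent.S0109
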