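import Crest.Statements.S0109
import Crest.Agent.S0109_Brenier
import Crest.Agent.S0109_GN
import Crest.Agent.S0109_Stab

set_option autoImplicit false
open MeasureTheory
open scoped ENNReal NNReal
open Crest.AnalysisR.OT
open Crest Crest.AnalysisR Crest.AnalysisR.OT

namespace Crest.Agent.S0109

/-- Fix d ≥ 2, a compact convex K ⊆ ℝᵈ with nonempty interior, ρ the uniform probability measure on K, and a nonempty compact Y ⊆ ℝᵈ. There is a constant C such that for all probability measures μ, ν carried by Y, all quadratic optimal transport maps Tμ from ρ to μ and Tν from ρ to ν, and every coupling π of μ and ν, ∫ ‖Tμ - Tν‖² dρ ≤ C · (∫ ‖y - z‖² dπ)^(1/3). With the best coupling: the L²(ρ) distance of the maps is at most √C times the cube root of the Wasserstein-2 distance of the targets. -/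
theorem result
    (d : ℕ) (hd : 2 ≤ d) (K : Set (EuclideanSpace ℝ (Fin d))) (hKc : IsCompact K) (hKv : Convex ℝ K)
    (hKi : (interior K).Nonempty) (Y : Set (EuclideanSpace ℝ (Fin d))) (hYc : IsCompact Y) (hYn : Y.Nonempty) :
    ∃ C : ℝ≥0, ∀ μ ν : Measure (EuclideanSpace ℝ (Fin d)), IsProbabilityOn Y μ → IsProbabilityOn Y ν →
      ∀ Tμ Tν : EuclideanSpace ℝ (Fin d) → EuclideanSpace ℝ (Fin d),
        IsOptimalMap (uniformProbOn K) μ Tμ → IsOptimalMap (uniformProbOn K) ν Tν →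
        ∀ π : Measure (EuclideanSpace ℝ (Fin d) × EuclideanSpace ℝ (Fin d)), IsPairCoupling μ ν π →
          ∫⁻ x, ‖Tμ x - Tν x‖ₑ ^ 2 ∂(uniformProbOn K) ≤ C * quadCost π ^ (1 / 3 : ℝ) := by
  have hK : IsBody K := ⟨hKc, hKv, hKi⟩
  obtain ⟨R₀, hR₀⟩ := hYc.isBounded.subset_closedBall (0 : EE d)
  obtain ⟨D, hD⟩ := hKc.isBounded.subset_closedBall (0 : EE d)
  set R : ℝ≥0 := R₀.toNNReal with hRdef
  have hYR : Y ⊆ Metric.closedBall (0 : EE d) R := fun y hy => by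
    have := hR₀ hy
    rw [Metric.mem_closedBall] at this ⊢
    exact this.trans (Real.le_coe_toNNReal R₀)
  obtain ⟨C, hC⟩ := gagliardo_nirenberg hK R
  refine ⟨C * (400 * D ^ 2).toNNReal ^ (1 / 3 : ℝ), ?_⟩
  intro μ ν hμ hν Tμ Tν hTμ hTν π hπ
  have hS := hK.isSrc
  have := hS.prob
  have hμ0 : μ (Metric.closedBall (0 : EE d) R)ᶜ = 0 :=
    measure_mono_null (Set.compl_subset_compl.2 hYR) hμ.2
  have hν0 : ν (Metric.closedBall (0 : EE d) R)ᶜ = 0 :=
    measure_mono_null (Set.compl_subset_compl.2 hYR) hν.2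
  obtain ⟨φ₀, h₀⟩ := exists_potential hK R μ hμ0 Tμ hTμ
  obtain ⟨φ₁, h₁⟩ := exists_potential hK R ν hν0 Tν hTν
  have hπ' : IsPairCoupling ((uniformProbOn K).map Tμ) ((uniformProbOn K).map Tν) π := by
    rw [hTμ.2.1, hTν.2.1]; exact hπ
  have hstab := potential_stability hK hD R φ₀ φ₁ Tμ Tν h₀ h₁ π hπ'
  set V : ℝ := ∫ x, (φ₀ x - φ₁ x - ∫ x', (φ₀ x' - φ₁ x') ∂(uniformProbOn K)) ^ 2 ∂(uniformProbOn K)
    with hV
  have hV0 : 0 ≤ V := integral_nonneg fun x => sq_nonneg _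
  have hgn := hC φ₀ φ₁ Tμ Tν h₀ h₁ (∫ x', (φ₀ x' - φ₁ x') ∂(uniformProbOn K))
  rw [← hV] at hgn
  -- the left-hand side as a Bochner integral
  have hint : Integrable (fun x => ‖Tμ x - Tν x‖ ^ 2) (uniformProbOn K) := by
    refine Integrable.of_bound
      ((h₀.meas.sub h₁.meas).norm.pow_const 2).aestronglyMeasurable ((2 * R) ^ 2 : ℝ) ?_
    filter_upwards [h₀.norm_le, h₁.norm_le] with x hx0 hx1
    rw [Real.norm_eq_abs, abs_of_nonneg (sq_nonneg _)]
    have : ‖Tμ x - Tν x‖ ≤ 2 * R := (norm_sub_le _ _).trans (by linarith)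
    exact pow_le_pow_left₀ (norm_nonneg _) this 2
  have hL : ∫⁻ x, ‖Tμ x - Tν x‖ₑ ^ 2 ∂(uniformProbOn K)
      = ENNReal.ofReal (∫ x, ‖Tμ x - Tν x‖ ^ 2 ∂(uniformProbOn K)) := by
    rw [ofReal_integral_eq_lintegral_ofReal hint (Filter.Eventually.of_forall fun x => sq_nonneg _)]
    refine lintegral_congr fun x => ?_
    rw [ENNReal.ofReal_pow (norm_nonneg _), ofReal_norm]
  rw [hL]
  refine le_trans (b := (C : ℝ≥0∞) * (ENNReal.ofReal (400 * D ^ 2) * quadCost π) ^ (1 / 3 : ℝ)) ?_ (le_of_eq ?_)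
  swap
  · rw [ENNReal.mul_rpow_of_nonneg _ _ (by norm_num : (0 : ℝ) ≤ 1 / 3), ← mul_assoc]
    congr 1
    rw [ENNReal.coe_mul, ENNReal.coe_rpow_of_nonneg _ (by norm_num : (0 : ℝ) ≤ 1 / 3)]
    rfl
  calc ENNReal.ofReal (∫ x, ‖Tμ x - Tν x‖ ^ 2 ∂(uniformProbOn K))
      ≤ ENNReal.ofReal (C * V ^ (1 / 3 : ℝ)) := ENNReal.ofReal_le_ofReal hgn
    _ = C * ENNReal.ofReal V ^ (1 / 3 : ℝ) := by
        rw [ENNReal.ofReal_mul C.coe_nonneg, ENNReal.ofReal_coe_nnreal,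
          ENNReal.ofReal_rpow_of_nonneg hV0 (by norm_num)]
    _ ≤ C * (ENNReal.ofReal (400 * D ^ 2) * quadCost π) ^ (1 / 3 : ℝ) := by
        gcongr

end Crest.Agent.S0109
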