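import Crest.Agent.S0109_Defs

/-! Row 82, package E4a: the pointwise algebra behind `mom_close` (see notes/row82_plan.md, E4).
`wq D x = (8D²-|x|²)/2`, `fa D p x = wq/2 - ⟪p,x⟫/8`,
`fb D p θ x = [wq/2 + ⟪p,x⟫/8 - |p|²/16 - fa (θ-1) - (9/4) D² (θ-1)²]/θ`  (`4 La² = 9D²/4`). -/

set_option autoImplicit false
open scoped InnerProductSpace

namespace Crest.Agent.S0109

variable {d : ℕ}

noncomputable def wq (D : ℝ) (x : EE d) : ℝ := (8 * D ^ 2 - ‖x‖ ^ 2) / 2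

noncomputable def fa (D : ℝ) (p x : EE d) : ℝ := wq D x / 2 - ⟪p, x⟫_ℝ / 8

noncomputable def fb (D : ℝ) (p : EE d) (θ : ℝ) (x : EE d) : ℝ :=
  (wq D x / 2 + ⟪p, x⟫_ℝ / 8 - ‖p‖ ^ 2 / 16 - fa D p x * (θ - 1) - 9 / 4 * D ^ 2 * (θ - 1) ^ 2) / θ

theorem wq_mid (D : ℝ) (x x' : EE d) :
    wq D ((1 / 2 : ℝ) • (x + x')) = wq D x / 2 + wq D x' / 2 + ‖x - x'‖ ^ 2 / 8 := by
  unfold wq
  have h1 : ‖(1 / 2 : ℝ) • (x + x')‖ ^ 2 = ‖x + x'‖ ^ 2 / 4 := by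
    rw [norm_smul, mul_pow]; norm_num; ring
  rw [h1, norm_add_sq_real, norm_sub_sq_real]
  ring

theorem wq_nonneg {D : ℝ} {x : EE d} (hx : ‖x‖ ≤ D) : 0 ≤ wq D x := by
  unfold wq
  have h0 := norm_nonneg x
  nlinarith

theorem wq_le (D : ℝ) (x : EE d) : wq D x ≤ 4 * D ^ 2 := by
  unfold wq
  have h0 := sq_nonneg ‖x‖
  linarith

private theorem abs_inner_le' {D : ℝ} {p x : EE d} (hp : ‖p‖ ≤ 2 * D) (hx : ‖x‖ ≤ D) :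
    |⟪p, x⟫_ℝ| ≤ 2 * D ^ 2 := by
  have h := abs_real_inner_le_norm p x
  have h0 := norm_nonneg x
  have h1 := norm_nonneg p
  nlinarith

private theorem wq_ge {D : ℝ} {x : EE d} (hx : ‖x‖ ≤ D) : 7 / 2 * D ^ 2 ≤ wq D x := by
  unfold wq
  have h0 := norm_nonneg x
  nlinarith

theorem fa_nonneg {D : ℝ} {p x : EE d} (hp : ‖p‖ ≤ 2 * D) (hx : ‖x‖ ≤ D) : 0 ≤ fa D p x := by
  unfold fa
  have h := abs_le.1 (abs_inner_le' hp hx)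
  have h2 := wq_ge hx
  nlinarith [sq_nonneg D]

theorem fa_le {D : ℝ} {p x : EE d} (hp : ‖p‖ ≤ 2 * D) (hx : ‖x‖ ≤ D) : fa D p x ≤ 9 / 4 * D ^ 2 := by
  unfold fa
  have h := abs_le.1 (abs_inner_le' hp hx)
  have h2 := wq_le D x
  linarith

theorem abs_fa_sub_le {D : ℝ} {p x x' : EE d} (hp : ‖p‖ ≤ 2 * D) (hx : ‖x‖ ≤ D) (hx' : ‖x'‖ ≤ D) :
    |fa D p x - fa D p x'| ≤ 3 / 4 * D * ‖x - x'‖ := by
  have e : fa D p x - fa D p x' = -(⟪x + x', x - x'⟫_ℝ) / 4 - ⟪p, x - x'⟫_ℝ / 8 := by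
    unfold fa wq
    rw [inner_sub_right, inner_sub_right, inner_add_left, inner_add_left,
      real_inner_self_eq_norm_sq, real_inner_self_eq_norm_sq, real_inner_comm x x']
    ring
  rw [e]
  have h1 := abs_real_inner_le_norm (x + x') (x - x')
  have h2 := abs_real_inner_le_norm p (x - x')
  have h3 : ‖x + x'‖ ≤ 2 * D := (norm_add_le x x').trans (by linarith)
  have h0 := norm_nonneg (x - x')
  have h4 : |⟪x + x', x - x'⟫_ℝ| ≤ 2 * D * ‖x - x'‖ :=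
    h1.trans (mul_le_mul_of_nonneg_right h3 h0)
  have h5 : |⟪p, x - x'⟫_ℝ| ≤ 2 * D * ‖x - x'‖ :=
    h2.trans (mul_le_mul_of_nonneg_right hp h0)
  have h4' := abs_le.1 h4
  have h5' := abs_le.1 h5
  rw [abs_le]
  constructor <;> nlinarith

private theorem theta_bounds {θ : ℝ} (hθ : 0 < θ) (h1 : 1 / 2 ≤ θ ^ 2) (h2 : θ ^ 2 ≤ 3 / 2) :
    7 / 10 ≤ θ ∧ θ ≤ 5 / 4 := by
  constructor
  · by_contra h
    rw [not_le] at h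
    nlinarith
  · by_contra h
    rw [not_le] at h
    nlinarith

/-- `θ = √(1+g)`, `|g| ≤ 1/2`. -/
theorem fb_nonneg {D θ : ℝ} {p x : EE d} (hp : ‖p‖ ≤ 2 * D) (hx : ‖x‖ ≤ D) (hθ : 0 < θ)
    (h1 : 1 / 2 ≤ θ ^ 2) (h2 : θ ^ 2 ≤ 3 / 2) : 0 ≤ fb D p θ x := by
  unfold fb
  apply div_nonneg _ hθ.le
  obtain ⟨t1, t2⟩ := theta_bounds hθ h1 h2
  have h := abs_le.1 (abs_inner_le' hp hx)
  have hw := wq_ge hx
  have hf0 := fa_nonneg hp hx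
  have hf1 := fa_le hp hx
  have hpp : ‖p‖ ^ 2 ≤ 4 * D ^ 2 := by
    have := norm_nonneg p
    nlinarith
  have hD := sq_nonneg D
  have a1 : fa D p x * (θ - 1) ≤ 9 / 4 * D ^ 2 * (1 / 4) := by
    have : fa D p x * (θ - 1) ≤ fa D p x * (1 / 4) :=
      mul_le_mul_of_nonneg_left (by linarith) hf0
    nlinarith
  have a2 : (θ - 1) ^ 2 ≤ 9 / 100 := by nlinarith
  have a3 : 9 / 4 * D ^ 2 * (θ - 1) ^ 2 ≤ 9 / 4 * D ^ 2 * (9 / 100) :=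
    mul_le_mul_of_nonneg_left a2 (by positivity)
  nlinarith

theorem fb_le {D θ : ℝ} {p x : EE d} (hp : ‖p‖ ≤ 2 * D) (hx : ‖x‖ ≤ D) (hθ : 0 < θ)
    (h1 : 1 / 2 ≤ θ ^ 2) (h2 : θ ^ 2 ≤ 3 / 2) : fb D p θ x ≤ 8 * D ^ 2 := by
  unfold fb
  rw [div_le_iff₀ hθ]
  obtain ⟨t1, t2⟩ := theta_bounds hθ h1 h2
  have h := abs_le.1 (abs_inner_le' hp hx)
  have hw := wq_le D x
  have hf0 := fa_nonneg hp hx
  have hf1 := fa_le hp hx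
  have hD := sq_nonneg D
  have hpp := sq_nonneg ‖p‖
  have a1 : -(fa D p x * (θ - 1)) ≤ 9 / 4 * D ^ 2 * (3 / 10) := by
    have : fa D p x * (1 - θ) ≤ fa D p x * (3 / 10) :=
      mul_le_mul_of_nonneg_left (by linarith) hf0
    nlinarith
  have a3 : 0 ≤ 9 / 4 * D ^ 2 * (θ - 1) ^ 2 := by positivity
  have a4 : 8 * D ^ 2 * (7 / 10) ≤ 8 * D ^ 2 * θ :=
    mul_le_mul_of_nonneg_left t1 (by positivity)
  nlinarith

/-- POINTWISE inequality. -/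
theorem fa_add_fb_mul_le {D θ : ℝ} {p x x' : EE d} (hp : ‖p‖ ≤ 2 * D) (hx : ‖x‖ ≤ D)
    (hx' : ‖x'‖ ≤ D) (hθ : 0 < θ) :
    (fa D p x + fb D p θ x') * θ ≤ wq D ((1 / 2 : ℝ) • (x + x')) := by
  rw [wq_mid]
  have e : (fa D p x + fb D p θ x') * θ = wq D x / 2 + wq D x' / 2 - ⟪p, x - x'⟫_ℝ / 8
      - ‖p‖ ^ 2 / 16 + (fa D p x - fa D p x') * (θ - 1) - 9 / 4 * D ^ 2 * (θ - 1) ^ 2 := by
    have : fb D p θ x' * θ = wq D x' / 2 + ⟪p, x'⟫_ℝ / 8 - ‖p‖ ^ 2 / 16 - fa D p x' * (θ - 1)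
        - 9 / 4 * D ^ 2 * (θ - 1) ^ 2 := by
      unfold fb
      field_simp
    rw [add_mul, this, inner_sub_right]
    unfold fa
    ring
  rw [e]
  have h1 : -⟪p, x - x'⟫_ℝ / 8 ≤ ‖p‖ ^ 2 / 16 + ‖x - x'‖ ^ 2 / 16 := by
    have := sq_nonneg ‖p + (x - x')‖
    rw [norm_add_sq_real] at this
    linarith
  have h2 := abs_fa_sub_le hp hx hx'
  have h3 : (fa D p x - fa D p x') * (θ - 1) ≤ ‖x - x'‖ ^ 2 / 16 + 9 / 4 * D ^ 2 * (θ - 1) ^ 2 := by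
    have a : (fa D p x - fa D p x') * (θ - 1) ≤ |fa D p x - fa D p x'| * |θ - 1| := by
      rw [← abs_mul]; exact le_abs_self _
    have b : |fa D p x - fa D p x'| * |θ - 1| ≤ 3 / 4 * D * ‖x - x'‖ * |θ - 1| :=
      mul_le_mul_of_nonneg_right h2 (abs_nonneg _)
    have c := sq_nonneg (‖x - x'‖ / 4 - 3 / 2 * D * |θ - 1|)
    have dd : |θ - 1| ^ 2 = (θ - 1) ^ 2 := sq_abs _
    nlinarith
  linarith

theorem fb_mul_sq (D : ℝ) {θ : ℝ} (p x : EE d) (hθ : 0 < θ) :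
    fb D p θ x * θ ^ 2 = wq D x / 2 * (1 - (θ - 1) ^ 2) + θ ^ 2 * ⟪p, x⟫_ℝ / 8 - ‖p‖ ^ 2 / 16 * θ
      - 9 / 4 * D ^ 2 * (θ * (θ - 1) ^ 2) := by
  have : fb D p θ x * θ = wq D x / 2 + ⟪p, x⟫_ℝ / 8 - ‖p‖ ^ 2 / 16 - fa D p x * (θ - 1)
      - 9 / 4 * D ^ 2 * (θ - 1) ^ 2 := by
    unfold fb
    field_simp
  have e : fb D p θ x * θ ^ 2 = (fb D p θ x * θ) * θ := by ring
  rw [e, this]
  unfold fa
  ring

/-- scalar facts about `θ = √(1+g)`. -/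
theorem sqrt_one_add_facts {g : ℝ} (hg : |g| ≤ 1 / 2) :
    0 < √(1 + g) ∧ √(1 + g) ^ 2 = 1 + g ∧ (√(1 + g) - 1) ^ 2 ≤ g ^ 2 ∧
      √(1 + g) ≤ 5 / 4 ∧ √(1 + g) ≤ 3 / 2 * (1 + g) := by
  obtain ⟨g1, g2⟩ := abs_le.1 hg
  have hpos : 0 < 1 + g := by linarith
  have h0 : 0 < √(1 + g) := Real.sqrt_pos.2 hpos
  have hsq : √(1 + g) ^ 2 = 1 + g := Real.sq_sqrt hpos.le
  set θ := √(1 + g) with hθ
  obtain ⟨t1, t2⟩ := theta_bounds h0 (by rw [hsq]; linarith) (by rw [hsq]; linarith)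
  refine ⟨h0, hsq, ?_, t2, ?_⟩
  · have e : g = (θ - 1) * (θ + 1) := by nlinarith
    rw [e, mul_pow]
    have : 1 ≤ (θ + 1) ^ 2 := by nlinarith
    nlinarith [sq_nonneg (θ - 1)]
  · rw [← hsq]
    nlinarith

end Crest.Agent.S0109
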