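import Crest.Agent.S0109_Defs

/-! Row 82, package D1: the twisted Prekopa-Leindler inequality on the line, via quantile functions. -/

set_option autoImplicit false
open MeasureTheory Set Filter Topology
open scoped ENNReal NNReal

namespace Crest.Agent.S0109.TPL1

theorem integrable_of_nice {F : ℝ → ℝ} (hF : Nice F) : Integrable F := by
  obtain ⟨M, hM⟩ := hF.bdd
  obtain ⟨L, hL⟩ := hF.supp
  have h1 : IntegrableOn F (Icc (-L) L) := by
    refine Measure.integrableOn_of_bounded (M := M) (by simp) hF.meas.aestronglyMeasurable ?_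
    filter_upwards with x
    rw [Real.norm_eq_abs, abs_of_nonneg (hF.nonneg x)]
    exact hM x
  have h2 : F = (Icc (-L) L).indicator F := by
    funext x
    by_cases hx : x ∈ Icc (-L) L
    · simp [hx]
    · rw [indicator_of_notMem hx]
      apply hL
      rw [Real.norm_eq_abs]
      by_contra hcon
      rw [not_lt] at hcon
      exact hx (abs_le.mp hcon)
  rw [h2]
  exact h1.integrable_indicator measurableSet_Icc

theorem exists_quantile (F : ℝ → ℝ) (hF : Nice F) (hm : 0 < ∫ x, F x) :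
    ∃ u : ℝ → ℝ, StrictMonoOn u (Ioo 0 1) ∧
      (∀ f : ℝ → ℝ≥0∞, Measurable f →
        ∫⁻ t in Ioo (0:ℝ) 1, f (u t)
          = ENNReal.ofReal (∫ x, F x)⁻¹ * ∫⁻ x, f x * ENNReal.ofReal (F x)) ∧
      (∀ᵐ t, t ∈ Ioo (0:ℝ) 1 → 0 < F (u t) ∧ HasDerivAt u ((∫ x, F x) / F (u t)) t) := by
  classical
  have hint : Integrable F := integrable_of_nice hF
  set m : ℝ := ∫ x, F x with hmdef
  obtain ⟨L, hL⟩ := hF.supp
  set L' : ℝ := |L| + 1 with hL'
  have hL'pos : 0 < L' := by positivity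
  have hzero : ∀ x, L' ≤ |x| → F x = 0 := by
    intro x hx
    apply hL
    rw [Real.norm_eq_abs]
    have := le_abs_self L
    linarith
  set P : ℝ → ℝ := fun x => ∫ y in Iic x, F y with hP
  have hPmono : Monotone P := by
    intro a b hab
    exact setIntegral_mono_set hint.integrableOn (Eventually.of_forall fun x => hF.nonneg x)
      (Iic_subset_Iic.2 hab).eventuallyLE
  have hPeq : ∀ x, P x = P 0 + ∫ y in (0:ℝ)..x, F y := by
    intro x
    have := intervalIntegral.integral_Iic_sub_Iic (μ := volume) (f := F) (a := 0) (b := x)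
      hint.integrableOn hint.integrableOn
    simp only [hP]
    linarith
  have hPcont : Continuous P := by
    have : P = fun x => P 0 + ∫ y in (0:ℝ)..x, F y := funext hPeq
    rw [this]
    exact continuous_const.add (hint.continuous_primitive 0)
  have hPlow : ∀ x, x ≤ -L' → P x = 0 := by
    intro x hx
    apply setIntegral_eq_zero_of_forall_eq_zero
    intro y hy
    apply hzero
    have hy' : y ≤ x := hy
    rw [abs_of_nonpos (by linarith)]
    linarith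
  have hPhigh : ∀ x, L' ≤ x → P x = m := by
    intro x hx
    apply setIntegral_eq_integral_of_forall_compl_eq_zero
    intro y hy
    apply hzero
    have hy' : x < y := by simpa using hy
    rw [abs_of_nonneg (by linarith)]
    linarith
  have hPnonneg : ∀ x, 0 ≤ P x := fun x => setIntegral_nonneg measurableSet_Iic fun y _ => hF.nonneg y
  have hPle : ∀ x, P x ≤ m := fun x => by
    rw [← hPhigh (max x L') (le_max_right _ _)]
    exact hPmono (le_max_left _ _)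
  set u : ℝ → ℝ := fun t => sInf {x | m * t ≤ P x} with hu
  have hne : ∀ t ∈ Ioo (0:ℝ) 1, {x | m * t ≤ P x}.Nonempty := by
    intro t ht
    refine ⟨L', ?_⟩
    show m * t ≤ P L'
    rw [hPhigh L' le_rfl]
    nlinarith [ht.2]
  have hbdd : ∀ t ∈ Ioo (0:ℝ) 1, BddBelow {x | m * t ≤ P x} := by
    intro t ht
    refine ⟨-L', ?_⟩
    intro x hx
    by_contra hcon
    rw [not_le] at hcon
    have hx' : m * t ≤ P x := hx
    rw [hPlow x hcon.le] at hx'
    have := mul_pos hm ht.1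
    linarith
  have hclosed : ∀ t, IsClosed {x | m * t ≤ P x} := fun t => isClosed_le continuous_const hPcont
  have hmem : ∀ t ∈ Ioo (0:ℝ) 1, m * t ≤ P (u t) := fun t ht =>
    (hclosed t).csInf_mem (hne t ht) (hbdd t ht)
  have hgal : ∀ t ∈ Ioo (0:ℝ) 1, ∀ x, u t ≤ x ↔ m * t ≤ P x := by
    intro t ht x
    constructor
    · intro h
      exact (hmem t ht).trans (hPmono h)
    · intro h
      exact csInf_le (hbdd t ht) h
  have hPu : ∀ t ∈ Ioo (0:ℝ) 1, P (u t) = m * t := by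
    intro t ht
    refine le_antisymm ?_ (hmem t ht)
    obtain ⟨x0, hx0⟩ : m * t ∈ range P := by
      refine mem_range_of_exists_le_of_exists_ge hPcont ⟨-L', ?_⟩ ⟨L', ?_⟩
      · rw [hPlow _ le_rfl]; exact (mul_pos hm ht.1).le
      · rw [hPhigh _ le_rfl]; nlinarith [ht.2]
    rw [← hx0]
    exact hPmono ((hgal t ht x0).2 hx0.ge)
  have hstrict : StrictMonoOn u (Ioo 0 1) := by
    intro t ht t' ht' htt'
    have hle : u t ≤ u t' := by
      rw [hgal t ht]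
      have := hmem t' ht'
      nlinarith
    refine lt_of_le_of_ne hle ?_
    intro heq
    have h1 := hPu t ht
    have h2 := hPu t' ht'
    rw [heq, h2] at h1
    have := mul_left_cancel₀ hm.ne' h1
    linarith
  have humeas : AEMeasurable u (volume.restrict (Ioo (0:ℝ) 1)) :=
    aemeasurable_restrict_of_monotoneOn measurableSet_Ioo hstrict.monotoneOn
  have hFm : Measurable fun x => ENNReal.ofReal (F x) := hF.meas.ennreal_ofReal
  have hpush : (volume.restrict (Ioo (0:ℝ) 1)).map u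
      = ENNReal.ofReal m⁻¹ • volume.withDensity (fun x => ENNReal.ofReal (F x)) := by
    apply Measure.ext_of_Iic
    intro a
    rw [Measure.map_apply_of_aemeasurable humeas measurableSet_Iic,
      Measure.restrict_apply' measurableSet_Ioo, Measure.smul_apply,
      withDensity_apply _ measurableSet_Iic,
      ← ofReal_integral_eq_lintegral_ofReal hint.integrableOn
        (Eventually.of_forall fun x => hF.nonneg x), smul_eq_mul,
      ← ENNReal.ofReal_mul (inv_nonneg.2 hm.le)]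
    have hc0 : 0 ≤ m⁻¹ * P a := mul_nonneg (inv_nonneg.2 hm.le) (hPnonneg a)
    have hc1 : m⁻¹ * P a ≤ 1 := by
      rw [inv_mul_le_iff₀ hm]; simpa using hPle a
    have hset : u ⁻¹' Iic a ∩ Ioo 0 1 = Iic (m⁻¹ * P a) ∩ Ioo 0 1 := by
      ext t
      simp only [mem_inter_iff, mem_preimage, mem_Iic]
      constructor
      · rintro ⟨h1, h2⟩
        refine ⟨?_, h2⟩
        rw [le_inv_mul_iff₀ hm]
        exact (hgal t h2 a).1 h1
      · rintro ⟨h1, h2⟩
        refine ⟨(hgal t h2 a).2 ?_, h2⟩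
        rwa [le_inv_mul_iff₀ hm] at h1
    rw [hset]
    apply le_antisymm
    · calc volume (Iic (m⁻¹ * P a) ∩ Ioo 0 1) ≤ volume (Ioc 0 (m⁻¹ * P a)) := by
            apply measure_mono
            rintro t ⟨h1, h2⟩
            exact ⟨h2.1, h1⟩
        _ = _ := by rw [Real.volume_Ioc, sub_zero]
    · calc ENNReal.ofReal (m⁻¹ * P a) = volume (Ioo 0 (m⁻¹ * P a)) := by
            rw [Real.volume_Ioo, sub_zero]
        _ ≤ _ := by
            apply measure_mono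
            rintro t ⟨h1, h2⟩
            exact ⟨h2.le, h1, lt_of_lt_of_le h2 hc1⟩
  refine ⟨u, hstrict, ?_, ?_⟩
  · intro f hf
    rw [← lintegral_map' hf.aemeasurable humeas, hpush, lintegral_smul_measure,
      lintegral_withDensity_eq_lintegral_mul _ hFm hf, smul_eq_mul]
    congr 1
    apply lintegral_congr
    intro x
    simp [mul_comm]
  · have hderivP : ∀ᵐ x, HasDerivAt P (F x) x := by
      filter_upwards [LocallyIntegrable.ae_hasDerivAt_integral hint.locallyIntegrable] with x hx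
      have : P = fun x => P 0 + ∫ y in (0:ℝ)..x, F y := funext hPeq
      rw [this]
      exact (hx 0).const_add _
    have hac : (volume.restrict (Ioo (0:ℝ) 1)).map u ≪ volume := by
      rw [hpush]
      exact (withDensity_absolutelyContinuous _ _).smul_left _
    have h1 : ∀ᵐ t ∂(volume.restrict (Ioo (0:ℝ) 1)), HasDerivAt P (F (u t)) (u t) :=
      ae_of_ae_map humeas (hac.ae_le hderivP)
    rw [ae_restrict_iff' measurableSet_Ioo] at h1
    filter_upwards [h1, hstrict.monotoneOn.ae_differentiableWithinAt_of_mem] with t ht1 ht2 ht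
    have hd : DifferentiableAt ℝ u t := (ht2 ht).differentiableAt (Ioo_mem_nhds ht.1 ht.2)
    have hcomp : HasDerivAt (P ∘ u) (F (u t) * deriv u t) t := (ht1 ht).comp t hd.hasDerivAt
    have hlin : HasDerivAt (P ∘ u) m t := by
      have : HasDerivAt (fun s : ℝ => m * s) m t := by
        simpa using (hasDerivAt_id t).const_mul m
      refine this.congr_of_eventuallyEq ?_
      filter_upwards [Ioo_mem_nhds ht.1 ht.2] with s hs
      exact hPu s hs
    have heq : F (u t) * deriv u t = m := hcomp.unique hlin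
    have hFpos : 0 < F (u t) := by
      rcases (hF.nonneg (u t)).eq_or_lt with h0 | h0
      · rw [← h0, zero_mul] at heq
        exact absurd heq hm.ne
      · exact h0
    refine ⟨hFpos, ?_⟩
    have : deriv u t = m / F (u t) := by
      rw [eq_div_iff hFpos.ne', mul_comm]; exact heq
    rw [← this]
    exact hd.hasDerivAt

theorem pointwise_ineq (m0 m1 f0 f1 g0 g1 hz : ℝ) (hm0 : 0 < m0) (hm1 : 0 < m1) (hf0 : 0 < f0)
    (hf1 : 0 < f1) (hg0 : 0 ≤ g0) (hg1 : 0 ≤ g1)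
    (hh : g0 * √(f1 / f0) + g1 * √(f0 / f1) ≤ hz) :
    √(m0 * m1) * (g0 / f0 + g1 / f1) ≤ |(1 / 2) * (m0 / f0 + m1 / f1)| * hz := by
  obtain ⟨a, ha, rfl⟩ : ∃ a : ℝ, 0 < a ∧ m0 = a ^ 2 :=
    ⟨√m0, Real.sqrt_pos.2 hm0, (Real.sq_sqrt hm0.le).symm⟩
  obtain ⟨b, hb, rfl⟩ : ∃ a : ℝ, 0 < a ∧ m1 = a ^ 2 :=
    ⟨√m1, Real.sqrt_pos.2 hm1, (Real.sq_sqrt hm1.le).symm⟩
  obtain ⟨c, hc, rfl⟩ : ∃ a : ℝ, 0 < a ∧ f0 = a ^ 2 :=
    ⟨√f0, Real.sqrt_pos.2 hf0, (Real.sq_sqrt hf0.le).symm⟩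
  obtain ⟨e, he, rfl⟩ : ∃ a : ℝ, 0 < a ∧ f1 = a ^ 2 :=
    ⟨√f1, Real.sqrt_pos.2 hf1, (Real.sq_sqrt hf1.le).symm⟩
  have s1 : √(a ^ 2 * b ^ 2) = a * b := by
    rw [← mul_pow, Real.sqrt_sq (by positivity)]
  have s2 : √(e ^ 2 / c ^ 2) = e / c := by
    rw [← div_pow, Real.sqrt_sq (by positivity)]
  have s3 : √(c ^ 2 / e ^ 2) = c / e := by
    rw [← div_pow, Real.sqrt_sq (by positivity)]
  rw [s2, s3] at hh
  rw [s1, abs_of_pos (by positivity)]
  have hz0 : 0 ≤ hz := le_trans (by positivity) hh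
  have amgm : a * b / (c * e) ≤ (1 / 2) * (a ^ 2 / c ^ 2 + b ^ 2 / e ^ 2) := by
    have : 0 ≤ (a / c - b / e) ^ 2 := sq_nonneg _
    have e1 : (a / c - b / e) ^ 2 = a ^ 2 / c ^ 2 + b ^ 2 / e ^ 2 - 2 * (a * b / (c * e)) := by
      field_simp
      ring
    linarith
  calc a * b * (g0 / c ^ 2 + g1 / e ^ 2) = a * b / (c * e) * (g0 * (e / c) + g1 * (c / e)) := by
        field_simp
    _ ≤ a * b / (c * e) * hz := by
        apply mul_le_mul_of_nonneg_left hh (by positivity)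
    _ ≤ _ := mul_le_mul_of_nonneg_right amgm hz0

theorem final_algebra (m0 m1 A0 A1 : ℝ) (hm0 : 0 < m0) (hm1 : 0 < m1) :
    A0 * √(m1 / m0) + A1 * √(m0 / m1) = √(m0 * m1) * (m0⁻¹ * A0 + m1⁻¹ * A1) := by
  obtain ⟨a, ha, rfl⟩ : ∃ a : ℝ, 0 < a ∧ m0 = a ^ 2 :=
    ⟨√m0, Real.sqrt_pos.2 hm0, (Real.sq_sqrt hm0.le).symm⟩
  obtain ⟨b, hb, rfl⟩ : ∃ a : ℝ, 0 < a ∧ m1 = a ^ 2 :=
    ⟨√m1, Real.sqrt_pos.2 hm1, (Real.sq_sqrt hm1.le).symm⟩
  have s1 : √(a ^ 2 * b ^ 2) = a * b := by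
    rw [← mul_pow, Real.sqrt_sq (by positivity)]
  have s2 : √(b ^ 2 / a ^ 2) = b / a := by
    rw [← div_pow, Real.sqrt_sq (by positivity)]
  have s3 : √(a ^ 2 / b ^ 2) = a / b := by
    rw [← div_pow, Real.sqrt_sq (by positivity)]
  rw [s1, s2, s3]
  field_simp

theorem ratio_mul (F G : ℝ → ℝ) (hF : Nice F) (hG : Nice G) (hGF : ∃ M : ℝ, ∀ x, G x ≤ M * F x)
    (x : ℝ) : ENNReal.ofReal (G x / F x) * ENNReal.ofReal (F x) = ENNReal.ofReal (G x) := by
  rcases (hF.nonneg x).eq_or_lt with h0 | h0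
  · obtain ⟨M, hM⟩ := hGF
    have h1 := hM x
    rw [← h0, mul_zero] at h1
    have h2 : G x = 0 := le_antisymm h1 (hG.nonneg x)
    rw [← h0, h2]
    simp
  · rw [← ENNReal.ofReal_mul (div_nonneg (hG.nonneg x) h0.le), div_mul_cancel₀ _ h0.ne']

theorem tpl_real' (F₀ F₁ G₀ G₁ h : ℝ → ℝ) (hF₀ : Nice F₀) (hF₁ : Nice F₁) (hG₀ : Nice G₀)
    (hG₁ : Nice G₁) (hh : Nice h)
    (hGF₀ : ∃ M : ℝ, ∀ x, G₀ x ≤ M * F₀ x) (hGF₁ : ∃ M : ℝ, ∀ x, G₁ x ≤ M * F₁ x)
    (hyp : ∀ x x', 0 < F₀ x → 0 < F₁ x' →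
      G₀ x * √(F₁ x' / F₀ x) + G₁ x' * √(F₀ x / F₁ x') ≤ h ((1 / 2 : ℝ) • (x + x')))
    (hm₀ : 0 < ∫ x, F₀ x) (hm₁ : 0 < ∫ x, F₁ x) :
    (∫ x, G₀ x) * √((∫ x, F₁ x) / ∫ x, F₀ x) + (∫ x, G₁ x) * √((∫ x, F₀ x) / ∫ x, F₁ x)
      ≤ ∫ x, h x := by
  classical
  obtain ⟨u0, hu0s, hu0p, hu0d⟩ := exists_quantile F₀ hF₀ hm₀
  obtain ⟨u1, hu1s, hu1p, hu1d⟩ := exists_quantile F₁ hF₁ hm₁
  set m0 : ℝ := ∫ x, F₀ x with hm0def
  set m1 : ℝ := ∫ x, F₁ x with hm1def
  rw [final_algebra m0 m1 _ _ hm₀ hm₁]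
  have hgoodae : ∀ᵐ t, t ∈ Ioo (0:ℝ) 1 → (0 < F₀ (u0 t) ∧ HasDerivAt u0 (m0 / F₀ (u0 t)) t) ∧
      (0 < F₁ (u1 t) ∧ HasDerivAt u1 (m1 / F₁ (u1 t)) t) := by
    filter_upwards [hu0d, hu1d] with t h0 h1 ht using ⟨h0 ht, h1 ht⟩
  set N : Set ℝ := {t | ¬ (t ∈ Ioo (0:ℝ) 1 → (0 < F₀ (u0 t) ∧ HasDerivAt u0 (m0 / F₀ (u0 t)) t) ∧
      (0 < F₁ (u1 t) ∧ HasDerivAt u1 (m1 / F₁ (u1 t)) t))} with hNdef
  have hN : volume N = 0 := hgoodae
  set s : Set ℝ := Ioo 0 1 \ toMeasurable volume N with hsdef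
  have hs : MeasurableSet s := measurableSet_Ioo.diff (measurableSet_toMeasurable _ _)
  have hsub : s ⊆ Ioo 0 1 := sdiff_subset
  have hsgood : ∀ t ∈ s, (0 < F₀ (u0 t) ∧ HasDerivAt u0 (m0 / F₀ (u0 t)) t) ∧
      (0 < F₁ (u1 t) ∧ HasDerivAt u1 (m1 / F₁ (u1 t)) t) := by
    intro t ht
    have h1 : t ∉ N := fun hcon => ht.2 (subset_toMeasurable _ _ hcon)
    have h2 := not_not.1 h1
    exact h2 ht.1
  have hsae : volume.restrict s = volume.restrict (Ioo (0:ℝ) 1) := by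
    apply Measure.restrict_congr_set
    apply sdiff_null_ae_eq_self
    rw [measure_toMeasurable, hN]
  set z : ℝ → ℝ := fun t => (1 / 2 : ℝ) • (u0 t + u1 t) with hz
  set z' : ℝ → ℝ := fun t => (1 / 2) * (m0 / F₀ (u0 t) + m1 / F₁ (u1 t)) with hz'
  have hzd : ∀ t ∈ s, HasDerivWithinAt z (z' t) s t := by
    intro t ht
    obtain ⟨⟨_, h0⟩, ⟨_, h1⟩⟩ := hsgood t ht
    have := (h0.add h1).const_smul (1 / 2 : ℝ)
    exact this.hasDerivWithinAt
  have hzinj : InjOn z s := by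
    have : StrictMonoOn z (Ioo 0 1) := by
      intro t ht t' ht' htt'
      have h0 := hu0s ht ht' htt'
      have h1 := hu1s ht ht' htt'
      simp only [hz, smul_eq_mul]
      linarith
    exact this.injOn.mono hsub
  set a0 : ℝ → ℝ≥0∞ := fun x => ENNReal.ofReal (G₀ x / F₀ x) with ha0
  set a1 : ℝ → ℝ≥0∞ := fun x => ENNReal.ofReal (G₁ x / F₁ x) with ha1
  have ha0m : Measurable a0 := (hG₀.meas.div hF₀.meas).ennreal_ofReal
  have ha1m : Measurable a1 := (hG₁.meas.div hF₁.meas).ennreal_ofReal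
  have hu0m : AEMeasurable u0 (volume.restrict (Ioo (0:ℝ) 1)) :=
    aemeasurable_restrict_of_monotoneOn measurableSet_Ioo hu0s.monotoneOn
  have hG0i := integrable_of_nice hG₀
  have hG1i := integrable_of_nice hG₁
  have hhi := integrable_of_nice hh
  have hI0 : 0 ≤ ∫ x, G₀ x := integral_nonneg hG₀.nonneg
  have hI1 : 0 ≤ ∫ x, G₁ x := integral_nonneg hG₁.nonneg
  have hIh : 0 ≤ ∫ x, h x := integral_nonneg hh.nonneg
  rw [← ENNReal.ofReal_le_ofReal_iff hIh]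
  have e0 : ∫⁻ t in Ioo (0:ℝ) 1, a0 (u0 t) = ENNReal.ofReal (m0⁻¹ * ∫ x, G₀ x) := by
    rw [hu0p a0 ha0m, ENNReal.ofReal_mul (inv_nonneg.2 hm₀.le),
      ofReal_integral_eq_lintegral_ofReal hG0i (Eventually.of_forall hG₀.nonneg)]
    congr 1
    exact lintegral_congr fun x => ratio_mul F₀ G₀ hF₀ hG₀ hGF₀ x
  have e1 : ∫⁻ t in Ioo (0:ℝ) 1, a1 (u1 t) = ENNReal.ofReal (m1⁻¹ * ∫ x, G₁ x) := by
    rw [hu1p a1 ha1m, ENNReal.ofReal_mul (inv_nonneg.2 hm₁.le),
      ofReal_integral_eq_lintegral_ofReal hG1i (Eventually.of_forall hG₁.nonneg)]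
    congr 1
    exact lintegral_congr fun x => ratio_mul F₁ G₁ hF₁ hG₁ hGF₁ x
  calc ENNReal.ofReal (√(m0 * m1) * (m0⁻¹ * (∫ x, G₀ x) + m1⁻¹ * ∫ x, G₁ x))
      = ENNReal.ofReal √(m0 * m1) * ((∫⁻ t in Ioo (0:ℝ) 1, a0 (u0 t)) + ∫⁻ t in Ioo (0:ℝ) 1, a1 (u1 t)) := by
        rw [e0, e1, ENNReal.ofReal_mul (Real.sqrt_nonneg _),
          ENNReal.ofReal_add (mul_nonneg (inv_nonneg.2 hm₀.le) hI0)
            (mul_nonneg (inv_nonneg.2 hm₁.le) hI1)]
    _ = ∫⁻ t in Ioo (0:ℝ) 1, ENNReal.ofReal √(m0 * m1) * (a0 (u0 t) + a1 (u1 t)) := by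
        rw [lintegral_const_mul' _ _ ENNReal.ofReal_ne_top,
          lintegral_add_left' (f := fun t => a0 (u0 t)) (ha0m.comp_aemeasurable hu0m)]
    _ = ∫⁻ t in s, ENNReal.ofReal √(m0 * m1) * (a0 (u0 t) + a1 (u1 t)) := by rw [hsae]
    _ ≤ ∫⁻ t in s, ENNReal.ofReal |z' t| * ENNReal.ofReal (h (z t)) := by
        apply setLIntegral_mono' hs
        intro t ht
        obtain ⟨⟨f0pos, _⟩, ⟨f1pos, _⟩⟩ := hsgood t ht
        have hp := pointwise_ineq m0 m1 (F₀ (u0 t)) (F₁ (u1 t)) (G₀ (u0 t)) (G₁ (u1 t)) (h (z t))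
          hm₀ hm₁ f0pos f1pos (hG₀.nonneg _) (hG₁.nonneg _) (hyp _ _ f0pos f1pos)
        rw [← ENNReal.ofReal_mul (abs_nonneg _), ha0, ha1]
        simp only
        rw [← ENNReal.ofReal_add (div_nonneg (hG₀.nonneg _) f0pos.le)
          (div_nonneg (hG₁.nonneg _) f1pos.le), ← ENNReal.ofReal_mul (Real.sqrt_nonneg _)]
        exact ENNReal.ofReal_le_ofReal hp
    _ = ∫⁻ x in z '' s, ENNReal.ofReal (h x) :=
        (lintegral_image_eq_lintegral_abs_deriv_mul hs hzd hzinj (fun x => ENNReal.ofReal (h x))).symm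
    _ ≤ ∫⁻ x, ENNReal.ofReal (h x) := setLIntegral_le_lintegral _ _
    _ = ENNReal.ofReal (∫ x, h x) :=
        (ofReal_integral_eq_lintegral_ofReal hhi (Eventually.of_forall hh.nonneg)).symm

end Crest.Agent.S0109.TPL1
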