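import Crest.Agent.S0109_Defs

/-! Row 82, parts D2 + D3: the twisted Prekopa-Leindler inequality in dimension `n`
(induction on the dimension + Fubini) and on Euclidean space, *given* the statement on the line. -/

set_option autoImplicit false
set_option linter.unusedSectionVars false
open MeasureTheory Set Filter Topology
open scoped ENNReal NNReal InnerProductSpace

namespace Crest.Agent.S0109

namespace TPLpi

/-- The statement of the twisted Prekopa-Leindler inequality on `X`. -/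
def Stmt (X : Type*) [MeasureSpace X] [Norm X] [Add X] [SMul ℝ X] : Prop :=
  ∀ (F₀ F₁ G₀ G₁ h : X → ℝ), Nice F₀ → Nice F₁ → Nice G₀ → Nice G₁ → Nice h →
    (∃ M : ℝ, ∀ x, G₀ x ≤ M * F₀ x) → (∃ M : ℝ, ∀ x, G₁ x ≤ M * F₁ x) →
    (∀ x x', 0 < F₀ x → 0 < F₁ x' →
      G₀ x * √(F₁ x' / F₀ x) + G₁ x' * √(F₀ x / F₁ x') ≤ h ((1 / 2 : ℝ) • (x + x'))) →
    0 < ∫ x, F₀ x → 0 < ∫ x, F₁ x →
    (∫ x, G₀ x) * √((∫ x, F₁ x) / ∫ x, F₀ x) + (∫ x, G₁ x) * √((∫ x, F₀ x) / ∫ x, F₁ x)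
      ≤ ∫ x, h x

section general

variable {X : Type*} [NormedAddCommGroup X] [ProperSpace X] [MeasureSpace X] [BorelSpace X]
  [IsFiniteMeasureOnCompacts (volume : Measure X)]

theorem integrable_of_nice {f : X → ℝ} (hf : Nice f) : Integrable f := by
  obtain ⟨M, hM⟩ := hf.bdd
  obtain ⟨L, hL⟩ := hf.supp
  have hsub : Function.support f ⊆ Metric.closedBall (0 : X) L := by
    intro x hx
    by_contra hcon
    apply hx
    apply hL
    simpa using hcon
  rw [← integrableOn_iff_integrable_of_support_subset hsub]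
  apply Measure.integrableOn_of_bounded (M := M) measure_closedBall_lt_top.ne
    hf.meas.aestronglyMeasurable
  filter_upwards with x
  rw [Real.norm_eq_abs, abs_of_nonneg (hf.nonneg x)]
  exact hM x

theorem integral_le_of_nice {f : X → ℝ} (hf : Nice f) {M L : ℝ} (hM : ∀ x, f x ≤ M)
    (hL : ∀ x, L < ‖x‖ → f x = 0) :
    ∫ x, f x ≤ M * (volume (Metric.closedBall (0 : X) L)).toReal := by
  have hsub : ∀ x, x ∉ Metric.closedBall (0 : X) L → f x = 0 := by
    intro x hx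
    apply hL
    simpa using hx
  rw [← setIntegral_eq_integral_of_forall_compl_eq_zero hsub]
  have h1 : ∫ x in Metric.closedBall (0 : X) L, f x ≤ ∫ _x in Metric.closedBall (0 : X) L, M := by
    apply setIntegral_mono_on (integrable_of_nice hf).integrableOn _
      measurableSet_closedBall (fun x _ => hM x)
    exact integrableOn_const measure_closedBall_lt_top.ne
  refine h1.trans (le_of_eq ?_)
  rw [setIntegral_const, smul_eq_mul, mul_comm]
  rfl

end general

/-! ### slices -/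

section slices

variable {n : ℕ}

/-- `(s, y) ↦ (s, y₀, …, y_{n-1})`. -/
def econs (n : ℕ) (p : ℝ × (Fin n → ℝ)) : Fin (n + 1) → ℝ := Fin.cons p.1 p.2

theorem econs_eq (p : ℝ × (Fin n → ℝ)) :
    econs n p = (MeasurableEquiv.piFinSuccAbove (fun _ : Fin (n + 1) => ℝ) 0).symm p := by
  obtain ⟨s, y⟩ := p
  simp [MeasurableEquiv.piFinSuccAbove, econs]
  rfl

theorem measurable_econs : Measurable (econs n) := by
  have : econs n = (MeasurableEquiv.piFinSuccAbove (fun _ : Fin (n + 1) => ℝ) 0).symm := by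
    funext p; exact econs_eq p
  rw [this]
  exact MeasurableEquiv.measurable _

theorem mp_econs : MeasurePreserving (econs n) (volume.prod volume) volume := by
  have : econs n = (MeasurableEquiv.piFinSuccAbove (fun _ : Fin (n + 1) => ℝ) 0).symm := by
    funext p; exact econs_eq p
  rw [this]
  exact (volume_preserving_piFinSuccAbove (fun _ : Fin (n + 1) => ℝ) 0).symm

theorem me_econs : MeasurableEmbedding (econs n) := by
  have : econs n = (MeasurableEquiv.piFinSuccAbove (fun _ : Fin (n + 1) => ℝ) 0).symm := by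
    funext p; exact econs_eq p
  rw [this]
  exact MeasurableEquiv.measurableEmbedding _

theorem abs_le_norm_econs (s : ℝ) (y : Fin n → ℝ) : |s| ≤ ‖econs n (s, y)‖ := by
  have := norm_le_pi_norm (econs n (s, y)) 0
  simpa [econs] using this

theorem norm_le_norm_econs (s : ℝ) (y : Fin n → ℝ) : ‖y‖ ≤ ‖econs n (s, y)‖ := by
  rw [pi_norm_le_iff_of_nonneg (norm_nonneg _)]
  intro i
  have := norm_le_pi_norm (econs n (s, y)) i.succ
  simpa [econs] using this

theorem econs_mid (s s' : ℝ) (y y' : Fin n → ℝ) :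
    (1 / 2 : ℝ) • (econs n (s, y) + econs n (s', y'))
      = econs n ((1 / 2 : ℝ) • (s + s'), (1 / 2 : ℝ) • (y + y')) := by
  funext i
  refine Fin.cases ?_ (fun j => ?_) i <;> simp [econs, mul_add]

/-- the slice of `f` at height `s`. -/
def sl (f : (Fin (n + 1) → ℝ) → ℝ) (s : ℝ) (y : Fin n → ℝ) : ℝ := f (econs n (s, y))

/-- the integral of the slice. -/
noncomputable def isl (f : (Fin (n + 1) → ℝ) → ℝ) (s : ℝ) : ℝ := ∫ y, sl f s y

theorem nice_sl {f : (Fin (n + 1) → ℝ) → ℝ} (hf : Nice f) (s : ℝ) : Nice (sl f s) where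
  meas := hf.meas.comp (measurable_econs.comp (measurable_const.prodMk measurable_id))
  nonneg := fun y => hf.nonneg _
  bdd := by
    obtain ⟨M, hM⟩ := hf.bdd
    exact ⟨M, fun y => hM _⟩
  supp := by
    obtain ⟨L, hL⟩ := hf.supp
    exact ⟨L, fun y hy => hL _ (lt_of_lt_of_le hy (norm_le_norm_econs s y))⟩

theorem nice_isl {f : (Fin (n + 1) → ℝ) → ℝ} (hf : Nice f) : Nice (isl f) where
  meas := by
    have h1 : StronglyMeasurable (fun p : ℝ × (Fin n → ℝ) => f (econs n p)) :=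
      (hf.meas.comp measurable_econs).stronglyMeasurable
    exact h1.integral_prod_right'.measurable
  nonneg := fun s => integral_nonneg (fun y => hf.nonneg _)
  bdd := by
    obtain ⟨M, hM⟩ := hf.bdd
    obtain ⟨L, hL⟩ := hf.supp
    refine ⟨M * (volume (Metric.closedBall (0 : Fin n → ℝ) L)).toReal, fun s => ?_⟩
    exact integral_le_of_nice (nice_sl hf s) (fun y => hM _)
      (fun y hy => hL _ (lt_of_lt_of_le hy (norm_le_norm_econs s y)))
  supp := by
    obtain ⟨L, hL⟩ := hf.supp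
    refine ⟨L, fun s hs => ?_⟩
    have : ∀ y, sl f s y = 0 := fun y =>
      hL _ (lt_of_lt_of_le hs (by simpa using abs_le_norm_econs s y))
    simp [isl, this]

theorem integral_isl {f : (Fin (n + 1) → ℝ) → ℝ} (hf : Nice f) :
    ∫ s, isl f s = ∫ x, f x := by
  have hint : Integrable f := integrable_of_nice hf
  have h1 : Integrable (fun p : ℝ × (Fin n → ℝ) => f (econs n p)) (volume.prod volume) :=
    (mp_econs.integrable_comp_emb me_econs).2 hint
  rw [← mp_econs.integral_comp me_econs f, integral_prod _ h1]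
  rfl

end slices

/-! ### dimension zero -/

theorem stmt_zero : Stmt (Fin 0 → ℝ) := by
  intro F₀ F₁ G₀ G₁ h _ _ _ _ _ _ _ hyp hm₀ hm₁
  have key : ∀ f : (Fin 0 → ℝ) → ℝ, ∫ x, f x = f 0 := by
    intro f
    rw [Measure.volume_pi_eq_dirac (0 : Fin 0 → ℝ)]
    exact integral_dirac f 0
  simp only [key] at hm₀ hm₁ ⊢
  have := hyp 0 0 hm₀ hm₁
  simpa using this

/-! ### the induction step -/

theorem stmt_succ (H1 : Stmt ℝ) (n : ℕ) (ih : Stmt (Fin n → ℝ)) : Stmt (Fin (n + 1) → ℝ) := by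
  intro F₀ F₁ G₀ G₁ h hF₀ hF₁ hG₀ hG₁ hh hGF₀ hGF₁ hyp hm₀ hm₁
  rw [← integral_isl hF₀] at hm₀ ⊢
  rw [← integral_isl hF₁] at hm₁ ⊢
  rw [← integral_isl hG₀, ← integral_isl hG₁, ← integral_isl hh]
  have hle : ∀ (G F : (Fin (n + 1) → ℝ) → ℝ), Nice G → Nice F → (∃ M : ℝ, ∀ x, G x ≤ M * F x) →
      ∃ M : ℝ, ∀ s, isl G s ≤ M * isl F s := by
    intro G F hG hF ⟨M, hM⟩
    refine ⟨M, fun s => ?_⟩
    unfold isl
    rw [← integral_const_mul]
    exact integral_mono (integrable_of_nice (nice_sl hG s))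
      ((integrable_of_nice (nice_sl hF s)).const_mul M) (fun y => hM _)
  refine H1 (isl F₀) (isl F₁) (isl G₀) (isl G₁) (isl h) (nice_isl hF₀) (nice_isl hF₁)
    (nice_isl hG₀) (nice_isl hG₁) (nice_isl hh) (hle G₀ F₀ hG₀ hF₀ hGF₀) (hle G₁ F₁ hG₁ hF₁ hGF₁)
    ?_ hm₀ hm₁
  intro s s' hs hs'
  obtain ⟨M₀, hM₀⟩ := hGF₀
  obtain ⟨M₁, hM₁⟩ := hGF₁
  refine ih (sl F₀ s) (sl F₁ s') (sl G₀ s) (sl G₁ s') (sl h ((1 / 2 : ℝ) • (s + s')))
    (nice_sl hF₀ s) (nice_sl hF₁ s') (nice_sl hG₀ s) (nice_sl hG₁ s') (nice_sl hh _)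
    ⟨M₀, fun y => hM₀ _⟩ ⟨M₁, fun y => hM₁ _⟩ ?_ hs hs'
  intro y y' hy hy'
  have := hyp (econs n (s, y)) (econs n (s', y')) hy hy'
  rw [econs_mid] at this
  exact this

theorem stmt_pi (H1 : Stmt ℝ) (n : ℕ) : Stmt (Fin n → ℝ) := by
  induction n with
  | zero => exact stmt_zero
  | succ n ih => exact stmt_succ H1 n ih

/-! ### Euclidean space -/

theorem nice_comp_toLp {d : ℕ} {f : EE d → ℝ} (hf : Nice f) :
    Nice (fun x : Fin d → ℝ => f (WithLp.toLp 2 x)) where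
  meas := hf.meas.comp (MeasurableEquiv.toLp 2 (Fin d → ℝ)).measurable
  nonneg := fun x => hf.nonneg _
  bdd := by
    obtain ⟨M, hM⟩ := hf.bdd
    exact ⟨M, fun x => hM _⟩
  supp := by
    obtain ⟨L, hL⟩ := hf.supp
    refine ⟨L, fun x hx => hL _ (lt_of_lt_of_le hx ?_)⟩
    rw [pi_norm_le_iff_of_nonneg (norm_nonneg _)]
    intro i
    exact PiLp.norm_apply_le (WithLp.toLp 2 x) i

theorem integral_comp_toLp {d : ℕ} (f : EE d → ℝ) :
    ∫ x : Fin d → ℝ, f (WithLp.toLp 2 x) = ∫ x, f x :=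
  (PiLp.volume_preserving_toLp (Fin d)).integral_comp
    (MeasurableEquiv.toLp 2 (Fin d → ℝ)).measurableEmbedding f

theorem stmt_euclid (H1 : Stmt ℝ) (d : ℕ) : Stmt (EE d) := by
  intro F₀ F₁ G₀ G₁ h hF₀ hF₁ hG₀ hG₁ hh hGF₀ hGF₁ hyp hm₀ hm₁
  rw [← integral_comp_toLp F₀] at hm₀ ⊢
  rw [← integral_comp_toLp F₁] at hm₁ ⊢
  rw [← integral_comp_toLp G₀, ← integral_comp_toLp G₁, ← integral_comp_toLp h]
  obtain ⟨M₀, hM₀⟩ := hGF₀
  obtain ⟨M₁, hM₁⟩ := hGF₁
  refine stmt_pi H1 d _ _ _ _ _ (nice_comp_toLp hF₀) (nice_comp_toLp hF₁) (nice_comp_toLp hG₀)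
    (nice_comp_toLp hG₁) (nice_comp_toLp hh) ⟨M₀, fun x => hM₀ _⟩ ⟨M₁, fun x => hM₁ _⟩ ?_ hm₀ hm₁
  intro x x' hx hx'
  have := hyp (WithLp.toLp 2 x) (WithLp.toLp 2 x') hx hx'
  simpa using this

end TPLpi

end Crest.Agent.S0109
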