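import Crest.Agent.S0109_Defs
import Crest.Agent.S0109_TPLpi
import Crest.Agent.S0109_TPL1

/-! Row 82, part D: the twisted Prekopa-Leindler inequality (midpoint version). -/

set_option autoImplicit false
open MeasureTheory Set Filter Topology
open scoped ENNReal NNReal InnerProductSpace
open Crest.AnalysisR.OT

namespace Crest.Agent.S0109

variable {d : ℕ}

/-- Twisted Prekopa-Leindler on the line. -/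
theorem tpl_real (F₀ F₁ G₀ G₁ h : ℝ → ℝ) (hF₀ : Nice F₀) (hF₁ : Nice F₁) (hG₀ : Nice G₀)
    (hG₁ : Nice G₁) (hh : Nice h)
    (hGF₀ : ∃ M : ℝ, ∀ x, G₀ x ≤ M * F₀ x) (hGF₁ : ∃ M : ℝ, ∀ x, G₁ x ≤ M * F₁ x)
    (hyp : ∀ x x', 0 < F₀ x → 0 < F₁ x' →
      G₀ x * √(F₁ x' / F₀ x) + G₁ x' * √(F₀ x / F₁ x') ≤ h ((1 / 2 : ℝ) • (x + x')))
    (hm₀ : 0 < ∫ x, F₀ x) (hm₁ : 0 < ∫ x, F₁ x) :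
    (∫ x, G₀ x) * √((∫ x, F₁ x) / ∫ x, F₀ x) + (∫ x, G₁ x) * √((∫ x, F₀ x) / ∫ x, F₁ x)
      ≤ ∫ x, h x :=
  TPL1.tpl_real' F₀ F₁ G₀ G₁ h hF₀ hF₁ hG₀ hG₁ hh hGF₀ hGF₁ hyp hm₀ hm₁

/-- Twisted Prekopa-Leindler on `Fin n → ℝ` (induction on `n`, Fubini + `tpl_real`). -/
theorem tpl_pi (n : ℕ) (F₀ F₁ G₀ G₁ h : (Fin n → ℝ) → ℝ) (hF₀ : Nice F₀) (hF₁ : Nice F₁)
    (hG₀ : Nice G₀) (hG₁ : Nice G₁) (hh : Nice h)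
    (hGF₀ : ∃ M : ℝ, ∀ x, G₀ x ≤ M * F₀ x) (hGF₁ : ∃ M : ℝ, ∀ x, G₁ x ≤ M * F₁ x)
    (hyp : ∀ x x', 0 < F₀ x → 0 < F₁ x' →
      G₀ x * √(F₁ x' / F₀ x) + G₁ x' * √(F₀ x / F₁ x') ≤ h ((1 / 2 : ℝ) • (x + x')))
    (hm₀ : 0 < ∫ x, F₀ x) (hm₁ : 0 < ∫ x, F₁ x) :
    (∫ x, G₀ x) * √((∫ x, F₁ x) / ∫ x, F₀ x) + (∫ x, G₁ x) * √((∫ x, F₀ x) / ∫ x, F₁ x)
      ≤ ∫ x, h x :=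
  TPLpi.stmt_pi tpl_real n F₀ F₁ G₀ G₁ h hF₀ hF₁ hG₀ hG₁ hh hGF₀ hGF₁ hyp hm₀ hm₁

/-- Twisted Prekopa-Leindler on Euclidean space. -/
theorem tpl (F₀ F₁ G₀ G₁ h : EE d → ℝ) (hF₀ : Nice F₀) (hF₁ : Nice F₁)
    (hG₀ : Nice G₀) (hG₁ : Nice G₁) (hh : Nice h)
    (hGF₀ : ∃ M : ℝ, ∀ x, G₀ x ≤ M * F₀ x) (hGF₁ : ∃ M : ℝ, ∀ x, G₁ x ≤ M * F₁ x)
    (hyp : ∀ x x', 0 < F₀ x → 0 < F₁ x' →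
      G₀ x * √(F₁ x' / F₀ x) + G₁ x' * √(F₀ x / F₁ x') ≤ h ((1 / 2 : ℝ) • (x + x')))
    (hm₀ : 0 < ∫ x, F₀ x) (hm₁ : 0 < ∫ x, F₁ x) :
    (∫ x, G₀ x) * √((∫ x, F₁ x) / ∫ x, F₀ x) + (∫ x, G₁ x) * √((∫ x, F₀ x) / ∫ x, F₁ x)
      ≤ ∫ x, h x :=
  TPLpi.stmt_euclid tpl_real d F₀ F₁ G₀ G₁ h hF₀ hF₁ hG₀ hG₁ hh hGF₀ hGF₁ hyp hm₀ hm₁

end Crest.Agent.S0109
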