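import Crest.Agent.S0109_Dual
import Crest.Agent.S0109_TPL
import Crest.Agent.S0109_BaryA

/-! Row 82, package E4b: the per-cell inequality, from the twisted Prekopa-Leindler inequality `tpl`.

`tpl` with `F₀ = 1_A`, `G₀ = fa·1_A`, `F₁ = (1+g)·1_B`, `G₁ = fb·(1+g)·1_B`, `h = wq·1_M`, where
`A = cell y c₀ k ∩ K`, `B = cell y c₁ k ∩ K`, `M = cell y ((c₀+c₁)/2) k ∩ K`; `θ = √(1+g)`;
for `x ∈ A`, `x' ∈ B`: `G₀ x √(F₁ x'/F₀ x) + G₁ x' √(F₀ x/F₁ x') = (fa x + fb x') θ(x') ≤ wq(mid)`
(`fa_add_fb_mul_le`), and the midpoint lies in `M` (`K` convex; add the two cell inequalities).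
Equal masses: `∫F₀ = |K| mk = ∫F₁`, so both square roots are `1`.  Finally divide by `|K|`
(`integral_uniformProbOn` applied to indicators / `Measure.restrict` of `uniformProbOn`). -/

set_option autoImplicit false
set_option linter.unusedSectionVars false
open MeasureTheory Set Filter Topology
open scoped ENNReal NNReal InnerProductSpace
open Crest.AnalysisR.OT

namespace Crest.Agent.S0109

variable {d : ℕ}

variable {ι : Type*} [Fintype ι] [Nonempty ι]

/-- midpoints of corresponding cells lie in the cell of the averaged weights. -/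
theorem midpoint_mem_cell {y : ι → EE d} {c₀ c₁ : ι → ℝ} {k : ι} {x x' : EE d}
    (hx : x ∈ cell y c₀ k) (hx' : x' ∈ cell y c₁ k) :
    (1 / 2 : ℝ) • (x + x') ∈ cell y (fun l => (c₀ l + c₁ l) / 2) k := by
  intro l
  have h1 := hx l
  have h2 := hx' l
  simp only [real_inner_smul_left, inner_add_left]
  linarith

/-- set integrals against a tilt. -/
theorem setIntegral_tilt {ρ : Measure (EE d)} {g : EE d → ℝ} (hg : Measurable g)
    (hb : ∀ x, |g x| ≤ 1 / 2) {F : Type*} [NormedAddCommGroup F] [NormedSpace ℝ F] (f : EE d → F)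
    (s : Set (EE d)) (hs : MeasurableSet s) :
    ∫ x in s, f x ∂(tilt ρ g) = ∫ x in s, (1 + g x) • f x ∂ρ := by
  have h : (tilt ρ g).restrict s = tilt (ρ.restrict s) g := by
    rw [tilt, tilt, restrict_withDensity hs]
  rw [h, integral_tilt hg hb]

namespace BaryB

/-- set integrals against the uniform measure. -/
theorem setIntegral_uniformProbOn {K : Set (EE d)} (f : EE d → ℝ) {s : Set (EE d)}
    (hs : MeasurableSet s) :
    ∫ x in s, f x ∂(uniformProbOn K) = (volume K).toReal⁻¹ * ∫ x in s ∩ K, f x := by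
  rw [uniformProbOn, Measure.restrict_smul, integral_smul_measure, ENNReal.toReal_inv,
    Measure.restrict_restrict hs, smul_eq_mul]

theorem nice_indicator {K S : Set (EE d)} {D : ℝ} (hD : K ⊆ Metric.closedBall 0 D)
    (hS : MeasurableSet S) (hSK : S ⊆ K) {f : EE d → ℝ} (hf : Measurable f) {M : ℝ}
    (h0 : ∀ x ∈ S, 0 ≤ f x) (hM : ∀ x ∈ S, f x ≤ M) (hM0 : 0 ≤ M) : Nice (S.indicator f) := by
  refine ⟨hf.indicator hS, fun x => indicator_nonneg h0 x, ⟨M, fun x => ?_⟩, ⟨D, fun x hx => ?_⟩⟩
  · by_cases hx : x ∈ S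
    · rw [indicator_of_mem hx]; exact hM x hx
    · rw [indicator_of_notMem hx]; exact hM0
  · apply indicator_of_notMem
    intro hxS
    have := hD (hSK hxS)
    rw [mem_closedBall_zero_iff] at this
    linarith

theorem measurable_wq (D : ℝ) : Measurable (wq (d := d) D) := by
  unfold wq
  fun_prop

theorem measurable_fa (D : ℝ) (p : EE d) : Measurable (fa D p) := by
  unfold fa wq
  fun_prop

theorem measurable_fb (D : ℝ) (p : EE d) {θ : EE d → ℝ} (hθ : Measurable θ) :
    Measurable (fun x => fb D p (θ x) x) := by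
  unfold fb fa wq
  fun_prop

end BaryB

open BaryB in
theorem cell_ineq {K : Set (EE d)} (hK : IsBody K) {D : ℝ} (hD : K ⊆ Metric.closedBall 0 D)
    (y : ι → EE d) (c₀ c₁ : ι → ℝ) (k : ι)
    {g : EE d → ℝ} (hg : Measurable g) (hb : ∀ x, |g x| ≤ 1 / 2) {mk : ℝ} (hmk : 0 < mk)
    (h₀ : uniformProbOn K (cell y c₀ k) = ENNReal.ofReal mk)
    (h₁ : tilt (uniformProbOn K) g (cell y c₁ k) = ENNReal.ofReal mk)
    {p : EE d} (hp : ‖p‖ ≤ 2 * D) :
    ∫ x in cell y c₀ k, fa D p x ∂(uniformProbOn K)
      + ∫ x in cell y c₁ k, fb D p (√(1 + g x)) x * (1 + g x) ∂(uniformProbOn K)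
      ≤ ∫ x in cell y (fun l => (c₀ l + c₁ l) / 2) k, wq D x ∂(uniformProbOn K) := by
  classical
  have hKm : MeasurableSet K := hK.compact.measurableSet
  have hAm : MeasurableSet (cell y c₀ k ∩ K) := (measurableSet_cell y c₀ k).inter hKm
  have hBm : MeasurableSet (cell y c₁ k ∩ K) := (measurableSet_cell y c₁ k).inter hKm
  have hMm : MeasurableSet (cell y (fun l => (c₀ l + c₁ l) / 2) k ∩ K) :=
    (measurableSet_cell y _ k).inter hKm
  have hD0 : 0 ≤ D := hK.nonneg_of_subset hD
  have hnorm : ∀ x ∈ K, ‖x‖ ≤ D := fun x hx => by simpa using hD hx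
  have hθm : Measurable (fun x => √(1 + g x)) := (measurable_const.add hg).sqrt
  have hfacts := fun x => sqrt_one_add_facts (hb x)
  have hg1 : ∀ x, 1 / 2 ≤ 1 + g x := fun x => by have := (abs_le.1 (hb x)).1; linarith
  have hg2 : ∀ x, 1 + g x ≤ 3 / 2 := fun x => by have := (abs_le.1 (hb x)).2; linarith
  have hV : 0 < (volume K).toReal := ENNReal.toReal_pos hK.volume_pos.ne' hK.volume_lt_top.ne
  have hfb0 : ∀ x ∈ K, 0 ≤ fb D p (√(1 + g x)) x := fun x hx => by
    obtain ⟨f1, f2, -, -, -⟩ := hfacts x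
    exact fb_nonneg hp (hnorm x hx) f1 (by rw [f2]; exact hg1 x) (by rw [f2]; exact hg2 x)
  have hfb1 : ∀ x ∈ K, fb D p (√(1 + g x)) x ≤ 8 * D ^ 2 := fun x hx => by
    obtain ⟨f1, f2, -, -, -⟩ := hfacts x
    exact fb_le hp (hnorm x hx) f1 (by rw [f2]; exact hg1 x) (by rw [f2]; exact hg2 x)
  -- the five functions
  have nF₀ : Nice ((cell y c₀ k ∩ K).indicator (fun _ : EE d => (1 : ℝ))) :=
    nice_indicator hD hAm inter_subset_right measurable_const (M := 1)
      (fun _ _ => zero_le_one) (fun _ _ => le_rfl) zero_le_one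
  have nG₀ : Nice ((cell y c₀ k ∩ K).indicator (fa D p)) :=
    nice_indicator hD hAm inter_subset_right (measurable_fa D p) (M := 9 / 4 * D ^ 2)
      (fun x hx => fa_nonneg hp (hnorm x hx.2)) (fun x hx => fa_le hp (hnorm x hx.2)) (by positivity)
  have nF₁ : Nice ((cell y c₁ k ∩ K).indicator (fun x => 1 + g x)) :=
    nice_indicator hD hBm inter_subset_right (measurable_const.add hg) (M := 3 / 2)
      (fun x _ => by have := hg1 x; linarith) (fun x _ => hg2 x) (by norm_num)
  have nG₁ : Nice ((cell y c₁ k ∩ K).indicator (fun x => fb D p (√(1 + g x)) x * (1 + g x))) :=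
    nice_indicator hD hBm inter_subset_right
      ((measurable_fb D p hθm).mul (measurable_const.add hg)) (M := 8 * D ^ 2 * (3 / 2))
      (fun x hx => mul_nonneg (hfb0 x hx.2) (by have := hg1 x; linarith))
      (fun x hx => mul_le_mul (hfb1 x hx.2) (hg2 x) (by have := hg1 x; linarith) (by positivity))
      (by positivity)
  have nh : Nice ((cell y (fun l => (c₀ l + c₁ l) / 2) k ∩ K).indicator (wq D)) :=
    nice_indicator hD hMm inter_subset_right (measurable_wq D) (M := 4 * D ^ 2)
      (fun x hx => wq_nonneg (hnorm x hx.2)) (fun x _ => wq_le D x) (by positivity)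
  -- masses
  have e₀ : ∫ x, (cell y c₀ k ∩ K).indicator (fun _ : EE d => (1 : ℝ)) x
      = (volume K).toReal * mk := by
    have h := setIntegral_uniformProbOn (K := K) (fun _ => (1 : ℝ)) (measurableSet_cell y c₀ k)
    rw [setIntegral_const, smul_eq_mul, mul_one, Measure.real, h₀,
      ENNReal.toReal_ofReal hmk.le] at h
    rw [integral_indicator hAm, h]
    field_simp
  have e₁ : ∫ x, (cell y c₁ k ∩ K).indicator (fun x => 1 + g x) x = (volume K).toReal * mk := by
    have h := setIntegral_tilt (ρ := uniformProbOn K) hg hb (fun _ => (1 : ℝ)) _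
      (measurableSet_cell y c₁ k)
    rw [setIntegral_const, smul_eq_mul, mul_one, Measure.real, h₁,
      ENNReal.toReal_ofReal hmk.le, setIntegral_uniformProbOn _ (measurableSet_cell y c₁ k)] at h
    simp only [smul_eq_mul, mul_one] at h
    rw [integral_indicator hBm, h]
    field_simp
  have hpos : 0 < (volume K).toReal * mk := mul_pos hV hmk
  have key := tpl _ _ _ _ _ nF₀ nF₁ nG₀ nG₁ nh
    ⟨9 / 4 * D ^ 2, fun x => by
      by_cases hx : x ∈ cell y c₀ k ∩ K
      · rw [indicator_of_mem hx, indicator_of_mem hx, mul_one]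
        exact fa_le hp (hnorm x hx.2)
      · rw [indicator_of_notMem hx, indicator_of_notMem hx, mul_zero]⟩
    ⟨8 * D ^ 2, fun x => by
      by_cases hx : x ∈ cell y c₁ k ∩ K
      · rw [indicator_of_mem hx, indicator_of_mem hx]
        exact mul_le_mul_of_nonneg_right (hfb1 x hx.2) (by have := hg1 x; linarith)
      · rw [indicator_of_notMem hx, indicator_of_notMem hx, mul_zero]⟩
    (fun x x' hx hx' => by
      have hxA : x ∈ cell y c₀ k ∩ K := by
        by_contra hcon
        rw [indicator_of_notMem hcon] at hx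
        exact lt_irrefl _ hx
      have hxB : x' ∈ cell y c₁ k ∩ K := by
        by_contra hcon
        rw [indicator_of_notMem hcon] at hx'
        exact lt_irrefl _ hx'
      have hmid : (1 / 2 : ℝ) • (x + x') ∈ cell y (fun l => (c₀ l + c₁ l) / 2) k ∩ K := by
        refine ⟨midpoint_mem_cell hxA.1 hxB.1, ?_⟩
        have := hK.convex hxA.2 hxB.2 (a := 1 / 2) (b := 1 / 2) (by norm_num) (by norm_num)
          (by norm_num)
        rwa [← smul_add] at this
      rw [indicator_of_mem hxA, indicator_of_mem hxA, indicator_of_mem hxB, indicator_of_mem hxB,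
        indicator_of_mem hmid]
      obtain ⟨f1, f2, -, -, -⟩ := hfacts x'
      have s1 : √((1 + g x') / 1) = √(1 + g x') := by rw [div_one]
      have s2 : √(1 / (1 + g x')) = (√(1 + g x'))⁻¹ := by
        rw [one_div, Real.sqrt_inv]
      rw [s1, s2]
      have h3 := fa_add_fb_mul_le (θ := √(1 + g x')) hp (hnorm x hxA.2) (hnorm x' hxB.2) f1
      have h4 : fb D p (√(1 + g x')) x' * (1 + g x') * (√(1 + g x'))⁻¹
          = fb D p (√(1 + g x')) x' * √(1 + g x') := by
        have f3 : (1 + g x') * (√(1 + g x'))⁻¹ = √(1 + g x') := by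
          nth_rewrite 1 [← f2]
          field_simp
        rw [mul_assoc, f3]
      rw [h4]
      linarith)
    (by rw [e₀]; exact hpos) (by rw [e₁]; exact hpos)
  rw [e₀, e₁, div_self hpos.ne', Real.sqrt_one, mul_one, mul_one, integral_indicator hAm,
    integral_indicator hBm, integral_indicator hMm] at key
  rw [setIntegral_uniformProbOn _ (measurableSet_cell y c₀ k),
    setIntegral_uniformProbOn _ (measurableSet_cell y c₁ k),
    setIntegral_uniformProbOn _ (measurableSet_cell y _ k), ← mul_add]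
  exact mul_le_mul_of_nonneg_left key (inv_nonneg.2 hV.le)

end Crest.Agent.S0109
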