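import Crest.Agent.S0109_Dual
import Crest.Agent.S0109_TPL
import Crest.Agent.S0109_BaryB

/-! Row 82, package E4 (the heart): the first moments of corresponding cells for the sources
`ρ` and `(1+g)ρ` are close.  Uses the twisted Prekopa-Leindler inequality cell by cell. -/

set_option autoImplicit false
open MeasureTheory Set Filter Topology
open scoped ENNReal NNReal InnerProductSpace
open Crest.AnalysisR.OT

namespace Crest.Agent.S0109

variable {d : ℕ}

variable {ι : Type*} [Fintype ι] [Nonempty ι]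

namespace Bary

theorem ae_mem {K : Set (EE d)} (hK : IsBody K) : ∀ᵐ x ∂(uniformProbOn K), x ∈ K := by
  have := hK.isSrc.carried
  rw [← mem_ae_iff] at this
  exact this

theorem integrable_of_bdd {K : Set (EE d)} (hK : IsBody K) {F : Type*} [NormedAddCommGroup F]
    {f : EE d → F} (hf : AEStronglyMeasurable f (uniformProbOn K)) (C : ℝ)
    (h : ∀ x ∈ K, ‖f x‖ ≤ C) : Integrable f (uniformProbOn K) := by
  have := hK.isSrc.prob
  exact Integrable.of_bound hf C ((ae_mem hK).mono fun x hx => h x hx)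

theorem measurable_wq (D : ℝ) : Measurable (wq (d := d) D) := by
  unfold wq; fun_prop

end Bary

open Bary in
theorem mom_close {K : Set (EE d)} (hK : IsBody K) {D : ℝ} (hD : K ⊆ Metric.closedBall 0 D)
    {y : ι → EE d} (hy : Function.Injective y) {m : ι → ℝ} (hm : ∀ k, 0 < m k)
    {g : EE d → ℝ} (hg : Measurable g) (hb : ∀ x, |g x| ≤ 1 / 2) {c₀ c₁ : ι → ℝ}
    (h₀ : IsBal (uniformProbOn K) y m c₀) (h₁ : IsBal (tilt (uniformProbOn K) g) y m c₁) :
    ∑ k, (m k)⁻¹ * ‖mom (tilt (uniformProbOn K) g) y c₁ k - mom (uniformProbOn K) y c₀ k‖ ^ 2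
      ≤ 400 * D ^ 2 * ∫ x, g x ^ 2 ∂(uniformProbOn K) := by
  set ρ := uniformProbOn K with hρ
  have hprob : IsProbabilityMeasure ρ := hK.isSrc.prob
  have hac : ρ ≪ volume := hK.isSrc.ac
  have hnorm : ∀ x ∈ K, ‖x‖ ≤ D := fun x hx => by simpa using hD hx
  have hD0 : 0 ≤ D := by
    obtain ⟨x, hx⟩ := hK.inter
    exact (norm_nonneg x).trans (hnorm x (interior_subset hx))
  set θ : EE d → ℝ := fun x => √(1 + g x) with hθ
  have hθm : Measurable θ := (measurable_const.add hg).sqrt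
  have hfacts := fun x => sqrt_one_add_facts (hb x)
  have hmc : ∀ (c : ι → ℝ) k, MeasurableSet (cell y c k) := fun c k => (isClosed_cell y c k).measurableSet
  -- integrability facts
  have hid : Integrable (fun x : EE d => x) ρ :=
    integrable_of_bdd hK measurable_id.aestronglyMeasurable D hnorm
  have hwq : Integrable (wq D) ρ := by
    refine integrable_of_bdd hK (measurable_wq D).aestronglyMeasurable (4 * D ^ 2) fun x hx => ?_
    rw [Real.norm_eq_abs, abs_of_nonneg (wq_nonneg (hnorm x hx))]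
    exact wq_le D x
  have hgid : Integrable (fun x : EE d => (1 + g x) • x) ρ := by
    refine integrable_of_bdd hK ((measurable_const.add hg).smul measurable_id).aestronglyMeasurable
      (3 / 2 * D) fun x hx => ?_
    rw [norm_smul, Real.norm_eq_abs]
    have h1 : |1 + g x| ≤ 3 / 2 := by
      have := abs_le.1 (hb x); rw [abs_le]; constructor <;> linarith [this.1, this.2]
    exact mul_le_mul h1 (hnorm x hx) (norm_nonneg _) (by norm_num)
  have hg1 : Integrable (fun x : EE d => 1 + g x) ρ := by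
    refine integrable_of_bdd hK (measurable_const.add hg).aestronglyMeasurable (3 / 2) fun x _ => ?_
    rw [Real.norm_eq_abs]
    have := abs_le.1 (hb x); rw [abs_le]; constructor <;> linarith [this.1, this.2]
  have hθi : Integrable θ ρ := by
    refine integrable_of_bdd hK hθm.aestronglyMeasurable (5 / 4) fun x _ => ?_
    rw [Real.norm_eq_abs, abs_of_pos (hfacts x).1]
    exact (hfacts x).2.2.2.1
  have hg2 : Integrable (fun x => g x ^ 2) ρ := by
    refine integrable_of_bdd hK (hg.pow_const 2).aestronglyMeasurable (1 / 4) fun x _ => ?_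
    rw [Real.norm_eq_abs, abs_of_nonneg (sq_nonneg _)]
    have := hb x
    calc g x ^ 2 = |g x| ^ 2 := (sq_abs _).symm
      _ ≤ (1 / 2) ^ 2 := by gcongr
      _ = 1 / 4 := by norm_num
  -- the error function
  set e : EE d → ℝ := fun x => wq D x / 2 * (θ x - 1) ^ 2 + 9 / 4 * D ^ 2 * (θ x * (θ x - 1) ^ 2) with he
  have hem : Measurable e := by
    have := measurable_wq (d := d) D
    simp only [he]; fun_prop
  have hele : ∀ x ∈ K, e x ≤ 77 / 16 * D ^ 2 * g x ^ 2 := by
    intro x hx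
    obtain ⟨f1, f2, f3, f4, f5⟩ := hfacts x
    have w1 := wq_le D x
    have w0 := wq_nonneg (hnorm x hx)
    have s0 : 0 ≤ (θ x - 1) ^ 2 := sq_nonneg _
    have a1 : wq D x / 2 * (θ x - 1) ^ 2 ≤ 2 * D ^ 2 * g x ^ 2 := by
      calc wq D x / 2 * (θ x - 1) ^ 2 ≤ (2 * D ^ 2) * (θ x - 1) ^ 2 := by gcongr; linarith
        _ ≤ 2 * D ^ 2 * g x ^ 2 := by gcongr
    have a2 : 9 / 4 * D ^ 2 * (θ x * (θ x - 1) ^ 2) ≤ 45 / 16 * D ^ 2 * g x ^ 2 := by
      calc 9 / 4 * D ^ 2 * (θ x * (θ x - 1) ^ 2) ≤ 9 / 4 * D ^ 2 * (5 / 4 * g x ^ 2) := by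
            gcongr
        _ = 45 / 16 * D ^ 2 * g x ^ 2 := by ring
    simp only [he]; linarith
  have he0 : ∀ x ∈ K, 0 ≤ e x := by
    intro x hx
    have w0 := wq_nonneg (hnorm x hx)
    have := (hfacts x).1
    simp only [he]; positivity
  have hei : Integrable e ρ := by
    refine integrable_of_bdd hK hem.aestronglyMeasurable (77 / 16 * D ^ 2 * (1 / 4)) fun x hx => ?_
    rw [Real.norm_eq_abs, abs_of_nonneg (he0 x hx)]
    refine (hele x hx).trans ?_
    have : g x ^ 2 ≤ 1 / 4 := by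
      calc g x ^ 2 = |g x| ^ 2 := (sq_abs _).symm
        _ ≤ (1 / 2) ^ 2 := by gcongr; exact hb x
        _ = 1 / 4 := by norm_num
    gcongr
  -- masses and moments of the tilted source
  have hmass1 : ∀ k, ∫ x in cell y c₁ k, (1 + g x) ∂ρ = m k := by
    intro k
    have h := setIntegral_tilt (ρ := ρ) hg hb (fun _ => (1 : ℝ)) (cell y c₁ k) (hmc _ k)
    simp only [smul_eq_mul, mul_one] at h
    rw [← h, setIntegral_const, smul_eq_mul, mul_one, Measure.real, h₁ k,
      ENNReal.toReal_ofReal (hm k).le]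
  have hmom1 : ∀ k, mom (tilt ρ g) y c₁ k = ∫ x in cell y c₁ k, (1 + g x) • x ∂ρ := fun k =>
    setIntegral_tilt hg hb (fun x => x) _ (hmc _ k)
  -- norm bounds
  have hn0 : ∀ k, ‖mom ρ y c₀ k‖ ≤ D * m k := fun k =>
    norm_mom_le hK hK.isSrc hD h₀ (fun k => (hm k).le) k
  have hn1 : ∀ k, ‖mom (tilt ρ g) y c₁ k‖ ≤ D * m k := by
    intro k
    rw [hmom1 k, ← hmass1 k, ← integral_const_mul]
    refine norm_integral_le_of_norm_le (hg1.const_mul D).integrableOn ?_
    refine (ae_restrict_of_ae (ae_mem hK)).mono fun x hx => ?_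
    rw [norm_smul, Real.norm_eq_abs, abs_of_nonneg (by have := (abs_le.1 (hb x)).1; linarith),
      mul_comm]
    exact mul_le_mul_of_nonneg_right (hnorm x hx) (by have := (abs_le.1 (hb x)).1; linarith)
  set Δ : ι → EE d := fun k => mom (tilt ρ g) y c₁ k - mom ρ y c₀ k with hΔ
  set p : ι → EE d := fun k => (m k)⁻¹ • Δ k with hp
  have hpn : ∀ k, ‖p k‖ ≤ 2 * D := by
    intro k
    simp only [hp, norm_smul, norm_inv, Real.norm_eq_abs, abs_of_pos (hm k)]
    have : ‖Δ k‖ ≤ 2 * D * m k := by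
      calc ‖Δ k‖ ≤ ‖mom (tilt ρ g) y c₁ k‖ + ‖mom ρ y c₀ k‖ := norm_sub_le _ _
        _ ≤ D * m k + D * m k := add_le_add (hn1 k) (hn0 k)
        _ = 2 * D * m k := by ring
    rw [inv_mul_le_iff₀ (hm k)]
    linarith
  -- the per-cell inequality
  have hcell := fun k => cell_ineq hK hD y c₀ c₁ k hg hb (hm k) (h₀ k) (h₁ k) (hpn k)
  -- first integral
  have hA : ∀ k, ∫ x in cell y c₀ k, fa D (p k) x ∂ρ
      = (∫ x in cell y c₀ k, wq D x ∂ρ) / 2 - ⟪p k, mom ρ y c₀ k⟫_ℝ / 8 := by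
    intro k
    have i1 : Integrable (fun x => wq D x / 2) (ρ.restrict (cell y c₀ k)) :=
      (hwq.div_const 2).integrableOn
    have i2 : Integrable (fun x => ⟪p k, x⟫_ℝ / 8) (ρ.restrict (cell y c₀ k)) :=
      ((hid.const_inner (p k)).div_const 8).integrableOn
    simp only [fa]
    rw [integral_sub i1 i2, integral_div, integral_div, integral_inner hid.integrableOn]
    rfl
  -- second integral
  have hB : ∀ k, (∫ x in cell y c₁ k, wq D x ∂ρ) / 2 - ∫ x in cell y c₁ k, e x ∂ρ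
      + ⟪p k, mom (tilt ρ g) y c₁ k⟫_ℝ / 8 - ‖p k‖ ^ 2 / 16 * (3 / 2 * m k)
      ≤ ∫ x in cell y c₁ k, fb D (p k) (√(1 + g x)) x * (1 + g x) ∂ρ := by
    intro k
    have i1 : Integrable (fun x => wq D x / 2) (ρ.restrict (cell y c₁ k)) :=
      (hwq.div_const 2).integrableOn
    have i2 : Integrable e (ρ.restrict (cell y c₁ k)) := hei.integrableOn
    have i3 : Integrable (fun x => ⟪p k, (1 + g x) • x⟫_ℝ / 8) (ρ.restrict (cell y c₁ k)) :=
      ((hgid.const_inner (p k)).div_const 8).integrableOn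
    have i4 : Integrable (fun x => ‖p k‖ ^ 2 / 16 * θ x) (ρ.restrict (cell y c₁ k)) :=
      (hθi.const_mul _).integrableOn
    have heq : ∀ x, fb D (p k) (√(1 + g x)) x * (1 + g x)
        = wq D x / 2 - e x + ⟪p k, (1 + g x) • x⟫_ℝ / 8 - ‖p k‖ ^ 2 / 16 * θ x := by
      intro x
      obtain ⟨f1, f2, -⟩ := hfacts x
      have := fb_mul_sq D (p k) x f1
      rw [f2] at this
      rw [this, real_inner_smul_right]
      simp only [he, hθ]
      ring
    simp only [heq]
    have j12 : Integrable (fun x => wq D x / 2 - e x) (ρ.restrict (cell y c₁ k)) := i1.sub i2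
    have j123 : Integrable (fun x => wq D x / 2 - e x + ⟪p k, (1 + g x) • x⟫_ℝ / 8)
        (ρ.restrict (cell y c₁ k)) := j12.add i3
    rw [integral_sub j123 i4, integral_add j12 i3, integral_sub i1 i2,
      integral_div, integral_div, integral_inner hgid.integrableOn, ← hmom1 k, integral_const_mul]
    have hθle : ∫ x in cell y c₁ k, θ x ∂ρ ≤ 3 / 2 * m k := by
      rw [← hmass1 k, ← integral_const_mul]
      exact integral_mono hθi.integrableOn (hg1.const_mul _).integrableOn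
        fun x => (hfacts x).2.2.2.2
    have : ‖p k‖ ^ 2 / 16 * ∫ x in cell y c₁ k, θ x ∂ρ ≤ ‖p k‖ ^ 2 / 16 * (3 / 2 * m k) := by
      gcongr
    linarith
  -- tilings
  have t0 := integral_eq_sum_cell hac hy c₀ (wq D) hwq
  have t1 := integral_eq_sum_cell hac hy c₁ (wq D) hwq
  have tm := integral_eq_sum_cell hac hy (fun l => (c₀ l + c₁ l) / 2) (wq D) hwq
  have te := integral_eq_sum_cell hac hy c₁ e hei
  have hebound : ∫ x, e x ∂ρ ≤ 77 / 16 * D ^ 2 * ∫ x, g x ^ 2 ∂ρ := by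
    rw [← integral_const_mul]
    exact integral_mono_ae hei (hg2.const_mul _) ((ae_mem hK).mono fun x hx => hele x hx)
  -- per-cell consequence
  have hk : ∀ k, (m k)⁻¹ * ‖Δ k‖ ^ 2 / 32 ≤ ∫ x in cell y (fun l => (c₀ l + c₁ l) / 2) k, wq D x ∂ρ
      - (∫ x in cell y c₀ k, wq D x ∂ρ) / 2 - (∫ x in cell y c₁ k, wq D x ∂ρ) / 2
      + ∫ x in cell y c₁ k, e x ∂ρ := by
    intro k
    have h1 := hcell k
    rw [hA k] at h1
    have h2 := hB k
    have h3 : ⟪p k, mom (tilt ρ g) y c₁ k⟫_ℝ - ⟪p k, mom ρ y c₀ k⟫_ℝ = (m k)⁻¹ * ‖Δ k‖ ^ 2 := by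
      rw [← inner_sub_right]
      simp only [hp, real_inner_smul_left, real_inner_self_eq_norm_sq, hΔ]
    have h4 : ‖p k‖ ^ 2 * m k = (m k)⁻¹ * ‖Δ k‖ ^ 2 := by
      simp only [hp, norm_smul, norm_inv, Real.norm_eq_abs, abs_of_pos (hm k)]
      have := (hm k).ne'
      field_simp
    nlinarith [h1, h2, h3, h4]
  have hsum : ∑ k, (m k)⁻¹ * ‖Δ k‖ ^ 2 / 32 ≤ ∫ x, e x ∂ρ := by
    calc ∑ k, (m k)⁻¹ * ‖Δ k‖ ^ 2 / 32
        ≤ ∑ k, (∫ x in cell y (fun l => (c₀ l + c₁ l) / 2) k, wq D x ∂ρ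
          - (∫ x in cell y c₀ k, wq D x ∂ρ) / 2 - (∫ x in cell y c₁ k, wq D x ∂ρ) / 2
          + ∫ x in cell y c₁ k, e x ∂ρ) := Finset.sum_le_sum fun k _ => hk k
      _ = ∫ x, e x ∂ρ := by
        rw [Finset.sum_add_distrib, Finset.sum_sub_distrib, Finset.sum_sub_distrib,
          ← Finset.sum_div, ← Finset.sum_div, ← t0, ← t1, ← tm, ← te]
        ring
  have hI0 : 0 ≤ ∫ x, g x ^ 2 ∂ρ := integral_nonneg fun x => sq_nonneg _
  rw [← Finset.sum_div] at hsum
  have : 0 ≤ D ^ 2 * ∫ x, g x ^ 2 ∂ρ := by positivity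
  nlinarith [hsum, hebound]

end Crest.Agent.S0109
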