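import Crest.Agent.S0109_Defs

/-! Row 82, package T0: basic toolkit (uniform measure on a convex body, tilts, potential pairs). -/

set_option autoImplicit false
open MeasureTheory Set Filter Topology
open scoped ENNReal NNReal InnerProductSpace
open Crest.AnalysisR.OT

namespace Crest.Agent.S0109

variable {d : ℕ}

theorem IsBody.volume_pos {K : Set (EE d)} (hK : IsBody K) : 0 < volume K :=
  lt_of_lt_of_le (isOpen_interior.measure_pos volume hK.inter) (measure_mono interior_subset)

theorem IsBody.volume_lt_top {K : Set (EE d)} (hK : IsBody K) : volume K < ∞ :=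
  hK.compact.measure_lt_top

theorem IsBody.isSrc {K : Set (EE d)} (hK : IsBody K) : IsSrc K (uniformProbOn K) := by
  refine ⟨⟨?_⟩, ?_, ?_⟩
  · simp only [uniformProbOn, Measure.smul_apply, Measure.restrict_apply MeasurableSet.univ,
      univ_inter, smul_eq_mul]
    exact ENNReal.inv_mul_cancel hK.volume_pos.ne' hK.volume_lt_top.ne
  · exact Measure.smul_absolutelyContinuous.trans Measure.restrict_le_self.absolutelyContinuous
  · simp only [uniformProbOn, Measure.smul_apply, smul_eq_mul]
    rw [Measure.restrict_apply hK.compact.measurableSet.compl]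
    simp

/-- Integrals against the uniform measure. -/
theorem integral_uniformProbOn {K : Set (EE d)} {F : Type*} [NormedAddCommGroup F] [NormedSpace ℝ F]
    (f : EE d → F) :
    ∫ x, f x ∂(uniformProbOn K) = (volume K).toReal⁻¹ • ∫ x in K, f x := by
  rw [uniformProbOn, integral_smul_measure, ENNReal.toReal_inv]

/-- Nonempty relatively open subsets of a convex body have positive mass. -/
theorem IsBody.measure_pos_of_open {K : Set (EE d)} (hK : IsBody K) {U : Set (EE d)} (hU : IsOpen U)
    (hne : (U ∩ K).Nonempty) : 0 < uniformProbOn K U := by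
  obtain ⟨x, hxU, hxK⟩ := hne
  -- `x` is in the closure of the interior of `K`
  have hcl : x ∈ closure (interior K) := by
    rw [hK.convex.closure_interior_eq_closure_of_nonempty_interior hK.inter]
    exact subset_closure hxK
  obtain ⟨z, hzU, hzK⟩ := mem_closure_iff.1 hcl U hU hxU
  have hopen : IsOpen (U ∩ interior K) := hU.inter isOpen_interior
  have hpos : 0 < volume (U ∩ interior K) := hopen.measure_pos volume ⟨z, hzU, hzK⟩
  have hle : volume (U ∩ interior K) ≤ volume.restrict K U := by
    rw [Measure.restrict_apply hU.measurableSet]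
    exact measure_mono (inter_subset_inter_right _ interior_subset)
  simp only [uniformProbOn, Measure.smul_apply, smul_eq_mul]
  exact ENNReal.mul_pos (ENNReal.inv_ne_zero.2 hK.volume_lt_top.ne) (lt_of_lt_of_le hpos hle).ne'

/-- Integrals against a tilt. -/
theorem integral_tilt {ρ : Measure (EE d)} {g : EE d → ℝ} (hg : Measurable g)
    (hb : ∀ x, |g x| ≤ 1 / 2) {F : Type*} [NormedAddCommGroup F] [NormedSpace ℝ F] (f : EE d → F) :
    ∫ x, f x ∂(tilt ρ g) = ∫ x, (1 + g x) • f x ∂ρ := by
  have hm : Measurable (fun x => ENNReal.ofReal (1 + g x)) :=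
    (measurable_const.add hg).ennreal_ofReal
  rw [tilt, integral_withDensity_eq_integral_toReal_smul hm
    (Eventually.of_forall fun x => ENNReal.ofReal_lt_top)]
  refine integral_congr_ae (Eventually.of_forall fun x => ?_)
  have : 0 ≤ 1 + g x := by have := (abs_le.1 (hb x)).1; linarith
  simp only [ENNReal.toReal_ofReal this]

/-- The tilt of the uniform measure by a bounded mean-zero function is an admissible source. -/
theorem IsBody.isSrc_tilt {K : Set (EE d)} (hK : IsBody K) {g : EE d → ℝ} (hg : Measurable g)
    (hb : ∀ x, |g x| ≤ 1 / 2) (h0 : ∫ x, g x ∂(uniformProbOn K) = 0) :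
    IsSrc K (tilt (uniformProbOn K) g) := by
  have hS := hK.isSrc
  have := hS.prob
  have hgi : Integrable g (uniformProbOn K) :=
    Integrable.of_bound hg.aestronglyMeasurable (1 / 2) (Eventually.of_forall fun x => by
      simpa [Real.norm_eq_abs] using hb x)
  refine ⟨⟨?_⟩, ?_, ?_⟩
  · have h1 : Integrable (fun x => 1 + g x) (uniformProbOn K) := (integrable_const 1).add hgi
    have h2 : 0 ≤ᵐ[uniformProbOn K] fun x => 1 + g x := Eventually.of_forall fun x => by
      have := (abs_le.1 (hb x)).1
      show (0 : ℝ) ≤ 1 + g x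
      linarith
    rw [tilt, withDensity_apply _ MeasurableSet.univ, Measure.restrict_univ,
      ← ofReal_integral_eq_lintegral_ofReal h1 h2, integral_add (integrable_const 1) hgi, h0]
    simp
  · exact (withDensity_absolutelyContinuous _ _).trans hS.ac
  · exact withDensity_absolutelyContinuous _ _ hS.carried

/-- Subgradients of an `R`-Lipschitz function have norm at most `R`. -/
theorem IsPot.norm_le {ρ : Measure (EE d)} {R : ℝ≥0} {φ : EE d → ℝ} {T : EE d → EE d}
    (h : IsPot ρ R φ T) : ∀ᵐ x ∂ρ, ‖T x‖ ≤ R := by
  filter_upwards [h.subgrad] with x hx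
  have h1 := hx (x + T x)
  have h2 : φ (x + T x) - φ x ≤ R * ‖T x‖ := by
    have := h.lip.dist_le_mul (x + T x) x
    rw [Real.dist_eq, dist_eq_norm] at this
    simp only [add_sub_cancel_left] at this
    exact (le_abs_self _).trans this
  simp only [add_sub_cancel_left, real_inner_self_eq_norm_sq] at h1
  by_contra hlt
  rw [not_le] at hlt
  have hpos : 0 < ‖T x‖ := lt_of_le_of_lt R.coe_nonneg hlt
  nlinarith

end Crest.Agent.S0109
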