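import Mathlib

/-! Row 82, package E3: two convex functions on [0,1] whose subgradients are `L`-close off a finite set. -/

set_option autoImplicit false
open Set

namespace Crest.Agent.S0109

private lemma conv1d_step (g h p q : ℝ → ℝ) (G : Set ℝ) (L η : ℝ)
    (hg : ∀ t ∈ G, ∀ t' ∈ G, g t + p t * (t' - t) ≤ g t')
    (hh : ∀ t ∈ G, ∀ t' ∈ G, h t + q t * (t' - t) ≤ h t')
    (hpq : ∀ t ∈ G, |p t - q t| ≤ L)
    {t t' : ℝ} (ht : t ∈ G) (ht' : t' ∈ G) (hle : t ≤ t') (hη : t' - t ≤ η) :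
    g t' - h t' - L * t' - η * q t' ≤ g t - h t - L * t - η * q t := by
  have h1 := hg t' ht' t ht
  have h2 := hh t ht t' ht'
  have h3 := hh t' ht' t ht
  have h4 := (abs_le.mp (hpq t' ht')).2
  rcases hle.eq_or_lt with rfl | hlt
  · exact le_rfl
  have hmono : q t ≤ q t' := by
    by_contra hcon
    rw [not_le] at hcon
    nlinarith
  nlinarith [mul_nonneg (sub_nonneg.2 h4) (sub_nonneg.2 hle),
    mul_nonneg (sub_nonneg.2 hmono) (sub_nonneg.2 hη)]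

private lemma conv1d_one_sided (g h p q : ℝ → ℝ) (Fbad : Set ℝ) (hF : Fbad.Finite) (L B : ℝ)
    (hgc : ContinuousOn g (Icc 0 1)) (hhc : ContinuousOn h (Icc 0 1))
    (hg : ∀ t ∈ Icc (0 : ℝ) 1 \ Fbad, ∀ t' ∈ Icc (0 : ℝ) 1, g t + p t * (t' - t) ≤ g t')
    (hh : ∀ t ∈ Icc (0 : ℝ) 1 \ Fbad, ∀ t' ∈ Icc (0 : ℝ) 1, h t + q t * (t' - t) ≤ h t')
    (hpq : ∀ t ∈ Icc (0 : ℝ) 1 \ Fbad, |p t - q t| ≤ L)
    (hq : ∀ t ∈ Icc (0 : ℝ) 1 \ Fbad, |q t| ≤ B) :
    (g 1 - h 1) - (g 0 - h 0) ≤ L := by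
  classical
  set S : Set ℝ := ⋃ N : ℕ, ⋃ k : ℕ, (fun θ : ℝ => ((k : ℝ) + θ) / ((N : ℝ) + 1)) ⁻¹' Fbad with hS
  have hScount : S.Countable := by
    refine countable_iUnion fun N => countable_iUnion fun k => ?_
    refine (hF.preimage ?_).countable
    intro a _ b _ hab
    have hN : ((N : ℝ) + 1) ≠ 0 := by positivity
    have hab' : ((k : ℝ) + a) / ((N : ℝ) + 1) = ((k : ℝ) + b) / ((N : ℝ) + 1) := hab
    rw [div_left_inj' hN] at hab'
    linarith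
  obtain ⟨θ, hθS, hθ0, hθ1⟩ := (hScount.dense_compl ℝ).exists_between (zero_lt_one' ℝ)
  set τ : ℕ → ℕ → ℝ := fun N k => ((k : ℝ) + θ) / ((N : ℝ) + 1) with hτ
  have hgood : ∀ N k, k ≤ N → τ N k ∈ Icc (0 : ℝ) 1 \ Fbad := by
    intro N k hk
    have hN : (0 : ℝ) < (N : ℝ) + 1 := by positivity
    have hk' : (k : ℝ) ≤ N := by exact_mod_cast hk
    refine ⟨⟨by positivity, ?_⟩, ?_⟩
    · rw [hτ]; simp only; rw [div_le_one hN]; linarith
    · intro hbad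
      apply hθS
      rw [hS]
      exact mem_iUnion.2 ⟨N, mem_iUnion.2 ⟨k, hbad⟩⟩
  have hL : 0 ≤ L := (abs_nonneg _).trans (hpq _ (hgood 0 0 le_rfl))
  set G : Set ℝ := Icc (0 : ℝ) 1 \ Fbad with hG
  have hg' : ∀ t ∈ G, ∀ t' ∈ G, g t + p t * (t' - t) ≤ g t' := fun t ht t' ht' => hg t ht t' ht'.1
  have hh' : ∀ t ∈ G, ∀ t' ∈ G, h t + q t * (t' - t) ≤ h t' := fun t ht t' ht' => hh t ht t' ht'.1
  have chain : ∀ N k, k ≤ N →
      g (τ N k) - h (τ N k) - L * τ N k - (1 / ((N : ℝ) + 1)) * q (τ N k)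
        ≤ g (τ N 0) - h (τ N 0) - L * τ N 0 - (1 / ((N : ℝ) + 1)) * q (τ N 0) := by
    intro N k
    induction k with
    | zero => intro _; exact le_rfl
    | succ k ih =>
      intro hk
      refine le_trans ?_ (ih (Nat.le_of_succ_le hk))
      have hN : (0 : ℝ) < (N : ℝ) + 1 := by positivity
      have hdiff : τ N (k + 1) - τ N k = 1 / ((N : ℝ) + 1) := by
        rw [hτ]; simp only; push_cast; field_simp; ring
      refine conv1d_step g h p q G L _ hg' hh' hpq (hgood N k (Nat.le_of_succ_le hk))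
        (hgood N (k + 1) hk) ?_ hdiff.le
      have : 0 < 1 / ((N : ℝ) + 1) := by positivity
      linarith
  have key : ∀ N : ℕ, (g (τ N N) - h (τ N N)) - (g (τ N 0) - h (τ N 0))
      ≤ L + 2 * B * (1 / ((N : ℝ) + 1)) := by
    intro N
    have h1 := chain N N le_rfl
    have hη : 0 < 1 / ((N : ℝ) + 1) := by positivity
    have hq1 := (abs_le.mp (hq _ (hgood N N le_rfl))).2
    have hq0 := (abs_le.mp (hq _ (hgood N 0 (Nat.zero_le _)))).1
    have ht1 := (hgood N N le_rfl).1.2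
    have ht0 := (hgood N 0 (Nat.zero_le _)).1.1
    have e1 : L * (τ N N - τ N 0) ≤ L * 1 := mul_le_mul_of_nonneg_left (by linarith) hL
    have e2 : (1 / ((N : ℝ) + 1)) * (q (τ N N) - q (τ N 0)) ≤ (1 / ((N : ℝ) + 1)) * (2 * B) :=
      mul_le_mul_of_nonneg_left (by linarith) hη.le
    nlinarith
  have hlim0 : Filter.Tendsto (fun N : ℕ => 1 / ((N : ℝ) + 1)) Filter.atTop (nhds 0) :=
    tendsto_one_div_add_atTop_nhds_zero_nat
  have ht0 : Filter.Tendsto (fun N : ℕ => τ N 0) Filter.atTop (nhdsWithin 0 (Icc 0 1)) := by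
    refine tendsto_nhdsWithin_iff.2 ⟨?_, Filter.Eventually.of_forall fun N =>
      (hgood N 0 (Nat.zero_le _)).1⟩
    have : (fun N : ℕ => τ N 0) = fun N : ℕ => θ * (1 / ((N : ℝ) + 1)) := by
      funext N; rw [hτ]; simp only; push_cast; ring
    rw [this]
    simpa using hlim0.const_mul θ
  have ht1 : Filter.Tendsto (fun N : ℕ => τ N N) Filter.atTop (nhdsWithin 1 (Icc 0 1)) := by
    refine tendsto_nhdsWithin_iff.2 ⟨?_, Filter.Eventually.of_forall fun N =>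
      (hgood N N le_rfl).1⟩
    have : (fun N : ℕ => τ N N) = fun N : ℕ => 1 - (1 - θ) * (1 / ((N : ℝ) + 1)) := by
      funext N
      have hN : ((N : ℝ) + 1) ≠ 0 := by positivity
      rw [hτ]; simp only; field_simp; ring
    rw [this]
    simpa using (hlim0.const_mul (1 - θ)).const_sub 1
  have hg0 := (hgc 0 (left_mem_Icc.2 zero_le_one)).tendsto.comp ht0
  have hg1 := (hgc 1 (right_mem_Icc.2 zero_le_one)).tendsto.comp ht1
  have hh0 := (hhc 0 (left_mem_Icc.2 zero_le_one)).tendsto.comp ht0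
  have hh1 := (hhc 1 (right_mem_Icc.2 zero_le_one)).tendsto.comp ht1
  have hlhs := (hg1.sub hh1).sub (hg0.sub hh0)
  have hrhs : Filter.Tendsto (fun N : ℕ => L + 2 * B * (1 / ((N : ℝ) + 1))) Filter.atTop (nhds L) := by
    simpa using (hlim0.const_mul (2 * B)).const_add L
  exact le_of_tendsto_of_tendsto' hlhs hrhs key

theorem abs_diff_le_of_subgrad_close (g h p q : ℝ → ℝ) (Fbad : Set ℝ) (hF : Fbad.Finite) (L B : ℝ)
    (hgc : ContinuousOn g (Icc 0 1)) (hhc : ContinuousOn h (Icc 0 1))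
    (hg : ∀ t ∈ Icc (0 : ℝ) 1 \ Fbad, ∀ t' ∈ Icc (0 : ℝ) 1, g t + p t * (t' - t) ≤ g t')
    (hh : ∀ t ∈ Icc (0 : ℝ) 1 \ Fbad, ∀ t' ∈ Icc (0 : ℝ) 1, h t + q t * (t' - t) ≤ h t')
    (hpq : ∀ t ∈ Icc (0 : ℝ) 1 \ Fbad, |p t - q t| ≤ L)
    (hp : ∀ t ∈ Icc (0 : ℝ) 1 \ Fbad, |p t| ≤ B) (hq : ∀ t ∈ Icc (0 : ℝ) 1 \ Fbad, |q t| ≤ B) :
    |(g 1 - h 1) - (g 0 - h 0)| ≤ L := by
  have h1 := conv1d_one_sided g h p q Fbad hF L B hgc hhc hg hh hpq hq
  have h2 := conv1d_one_sided h g q p Fbad hF L B hhc hgc hh hg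
    (fun t ht => by rw [abs_sub_comm]; exact hpq t ht) hp
  rw [abs_le]
  constructor <;> linarith

end Crest.Agent.S0109
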