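import Crest.Agent.S0109_Dual

/-! Row 82, package E5: balanced weights depend continuously on the tilt (connectedness of `K`). -/

set_option autoImplicit false
open MeasureTheory Set Filter Topology
open scoped ENNReal NNReal InnerProductSpace
open Crest.AnalysisR.OT

namespace Crest.Agent.S0109

variable {d : ℕ}

variable {ι : Type*} [Fintype ι] [Nonempty ι]

namespace Wt

/-- partial maximum over a finset of sites -/
noncomputable def ps (y : ι → EE d) (c : ι → ℝ) (S : Finset ι) (hS : S.Nonempty) (x : EE d) : ℝ :=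
  S.sup' hS (fun k => ⟪x, y k⟫_ℝ - c k)

omit [Fintype ι] [Nonempty ι] in
theorem continuous_ps (y : ι → EE d) (c : ι → ℝ) (S : Finset ι) (hS : S.Nonempty) :
    Continuous (ps y c S hS) := by
  unfold ps
  apply Continuous.finset_sup'_apply
  intro k _
  fun_prop

omit [Fintype ι] [Nonempty ι] in
theorem le_ps (y : ι → EE d) (c : ι → ℝ) (S : Finset ι) (hS : S.Nonempty) (x : EE d) {k : ι}
    (hk : k ∈ S) : ⟪x, y k⟫_ℝ - c k ≤ ps y c S hS x :=
  Finset.le_sup' (fun k => ⟪x, y k⟫_ℝ - c k) hk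

omit [Fintype ι] [Nonempty ι] in
theorem exists_ps (y : ι → EE d) (c : ι → ℝ) (S : Finset ι) (hS : S.Nonempty) (x : EE d) :
    ∃ k ∈ S, ps y c S hS x = ⟪x, y k⟫_ℝ - c k :=
  Finset.exists_mem_eq_sup' hS _

/-- the open transition layer -/
def O (y : ι → EE d) (c : ι → ℝ) (S T : Finset ι) (hS : S.Nonempty) (hT : T.Nonempty) (η : ℝ) :
    Set (EE d) :=
  {x | 0 < ps y c S hS x - ps y c T hT x ∧ ps y c S hS x - ps y c T hT x < η}

omit [Fintype ι] [Nonempty ι] in
theorem isOpen_O (y : ι → EE d) (c : ι → ℝ) (S T : Finset ι) (hS : S.Nonempty) (hT : T.Nonempty)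
    (η : ℝ) : IsOpen (O y c S T hS hT η) := by
  have h : Continuous (fun x => ps y c S hS x - ps y c T hT x) :=
    (continuous_ps y c S hS).sub (continuous_ps y c T hT)
  exact (isOpen_lt continuous_const h).inter (isOpen_lt h continuous_const)

/-- Some point of `K` lies strictly on the `S` side. -/
theorem exists_lt {K : Set (EE d)} (hK : IsBody K)
    {y : ι → EE d} (hy : Function.Injective y) {m : ι → ℝ} (hm : ∀ k, 0 < m k) {c₀ : ι → ℝ}
    (h₀ : IsBal (uniformProbOn K) y m c₀) (S T : Finset ι) (hS : S.Nonempty) (hT : T.Nonempty)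
    (hd : Disjoint S T) (hcov : ∀ k, k ∈ S ∨ k ∈ T) :
    ∃ x ∈ K, ps y c₀ T hT x < ps y c₀ S hS x := by
  by_contra hcon
  push Not at hcon
  obtain ⟨k, hk⟩ := hS
  have hsub : cell y c₀ k ⊆ Kᶜ ∪ ⋃ l, ⋃ (_ : l ≠ k), (cell y c₀ k ∩ cell y c₀ l) := by
    intro x hx
    by_cases hxK : x ∈ K
    · right
      obtain ⟨l, hl, hle⟩ := exists_ps y c₀ T hT x
      have h1 := hcon x hxK
      have h2 := le_ps y c₀ S ⟨k, hk⟩ x hk
      have hlk : l ≠ k := fun h => (Finset.disjoint_left.mp hd) hk (h ▸ hl)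
      simp only [mem_iUnion]
      refine ⟨l, hlk, hx, fun j => ?_⟩
      have := hx j
      linarith
    · left; exact hxK
  have hz : uniformProbOn K (cell y c₀ k) = 0 := by
    apply measure_mono_null hsub
    apply measure_union_null hK.isSrc.carried
    refine measure_iUnion_null (fun l => measure_iUnion_null (fun hl => ?_))
    exact measure_cell_inter hK.isSrc.ac hy c₀ (Ne.symm hl)
  rw [h₀ k] at hz
  have := hm k
  simp only [ENNReal.ofReal_eq_zero] at hz
  linarith

theorem measure_O_pos {K : Set (EE d)} (hK : IsBody K)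
    {y : ι → EE d} (hy : Function.Injective y) {m : ι → ℝ} (hm : ∀ k, 0 < m k) {c₀ : ι → ℝ}
    (h₀ : IsBal (uniformProbOn K) y m c₀) (S T : Finset ι) (hS : S.Nonempty) (hT : T.Nonempty)
    (hd : Disjoint S T) (hcov : ∀ k, k ∈ S ∨ k ∈ T) {η : ℝ} (hη : 0 < η) :
    0 < uniformProbOn K (O y c₀ S T hS hT η) := by
  apply hK.measure_pos_of_open (isOpen_O y c₀ S T hS hT η)
  obtain ⟨x₁, hx₁, h₁⟩ := exists_lt hK hy hm h₀ S T hS hT hd hcov
  obtain ⟨x₂, hx₂, h₂⟩ := exists_lt hK hy hm h₀ T S hT hS hd.symm (fun k => (hcov k).symm)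
  set ξ : EE d → ℝ := fun x => ps y c₀ S hS x - ps y c₀ T hT x with hξ
  have hc : Continuous ξ := (continuous_ps y c₀ S hS).sub (continuous_ps y c₀ T hT)
  have hv : min (η / 2) (ξ x₁) ∈ Icc (ξ x₂) (ξ x₁) := by
    have h3 : ξ x₂ < 0 := by simp only [hξ]; linarith
    have h4 : 0 < ξ x₁ := by simp only [hξ]; linarith
    refine ⟨?_, min_le_right _ _⟩
    have : 0 < min (η / 2) (ξ x₁) := lt_min (by linarith) h4
    linarith
  obtain ⟨x, hxK, hx⟩ := hK.convex.isPreconnected.intermediate_value hx₂ hx₁ hc.continuousOn hv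
  refine ⟨x, ⟨?_, ?_⟩, hxK⟩
  · have h4 : 0 < ξ x₁ := by simp only [hξ]; linarith
    have : 0 < min (η / 2) (ξ x₁) := lt_min (by linarith) h4
    change 0 < ξ x
    rw [hx]; exact this
  · change ξ x < η
    rw [hx]
    exact lt_of_le_of_lt (min_le_left _ _) (by linarith)

theorem measure_biUnion_cell {σ : Measure (EE d)} (hσ : σ ≪ volume) {y : ι → EE d}
    (hy : Function.Injective y) {m : ι → ℝ} {c : ι → ℝ} (hb : IsBal σ y m c) (S : Finset ι) :
    σ (⋃ k ∈ S, cell y c k) = ∑ k ∈ S, ENNReal.ofReal (m k) := by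
  rw [measure_biUnion_finset₀]
  · exact Finset.sum_congr rfl (fun k _ => hb k)
  · intro k _ l _ hkl
    exact measure_cell_inter hσ hy c hkl
  · intro k _
    exact (isClosed_cell y c k).measurableSet.nullMeasurableSet

theorem tilt_le {ρ : Measure (EE d)} [IsProbabilityMeasure ρ] {f : EE d → ℝ} {B : ℝ}
    (hB : ∀ x, |f x| ≤ B) {s : ℝ} (hs : 0 ≤ s) {A : Set (EE d)} (hA : MeasurableSet A) :
    tilt ρ (fun x => s * f x) A ≤ ρ A + ENNReal.ofReal (s * B) := by
  have hB0 : 0 ≤ B := le_trans (abs_nonneg _) (hB 0)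
  unfold tilt
  rw [withDensity_apply _ hA]
  calc ∫⁻ x in A, ENNReal.ofReal (1 + s * f x) ∂ρ
      ≤ ∫⁻ _x in A, ENNReal.ofReal (1 + s * B) ∂ρ := by
        apply lintegral_mono
        intro x
        apply ENNReal.ofReal_le_ofReal
        have := (abs_le.mp (hB x)).2
        nlinarith
    _ = ENNReal.ofReal (1 + s * B) * ρ A := by
        rw [lintegral_const, Measure.restrict_apply MeasurableSet.univ, univ_inter]
    _ = ρ A + ENNReal.ofReal (s * B) * ρ A := by
        rw [ENNReal.ofReal_add zero_le_one (mul_nonneg hs hB0), ENNReal.ofReal_one, add_mul, one_mul]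
    _ ≤ ρ A + ENNReal.ofReal (s * B) := by
        gcongr
        calc ENNReal.ofReal (s * B) * ρ A ≤ ENNReal.ofReal (s * B) * 1 := by
              gcongr; exact prob_le_one
          _ = _ := mul_one _

/-- The key estimate: a gap `≥ η` between the weight changes on `S` and on `T` forces the
transition layer to be small. -/
theorem key {K : Set (EE d)} (hK : IsBody K)
    {y : ι → EE d} (hy : Function.Injective y) {m : ι → ℝ} {c₀ : ι → ℝ}
    (h₀ : IsBal (uniformProbOn K) y m c₀) {f : EE d → ℝ} {B : ℝ}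
    (hB : ∀ x, |f x| ≤ B) {s : ℝ} (hs : 0 ≤ s) {c : ι → ℝ}
    (hc : IsBal (tilt (uniformProbOn K) (fun x => s * f x)) y m c)
    (S T : Finset ι) (hS : S.Nonempty) (hT : T.Nonempty) (hcov : ∀ k, k ∈ S ∨ k ∈ T) {η : ℝ} (hη : 0 < η)
    (hgap : ∀ k ∈ S, ∀ l ∈ T, η ≤ (c k - c₀ k) - (c l - c₀ l)) :
    uniformProbOn K (O y c₀ S T hS hT η) ≤ ENNReal.ofReal (s * B) := by
  have hprob : IsProbabilityMeasure (uniformProbOn K) := hK.isSrc.prob
  set ρ := uniformProbOn K with hρ
  set σ := tilt ρ (fun x => s * f x) with hσ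
  have hσac : σ ≪ volume := (withDensity_absolutelyContinuous _ _).trans hK.isSrc.ac
  set U : Set (EE d) := ⋃ k ∈ S, cell y c k with hU
  set P : Set (EE d) := ⋃ k ∈ S, cell y c₀ k with hP
  have hUm : MeasurableSet U :=
    Finset.measurableSet_biUnion _ (fun k _ => (isClosed_cell y c k).measurableSet)
  have hOm : MeasurableSet (O y c₀ S T hS hT η) := (isOpen_O y c₀ S T hS hT η).measurableSet
  have h1 : ∀ x ∈ U, η ≤ ps y c₀ S hS x - ps y c₀ T hT x := by
    intro x hx
    simp only [hU, mem_iUnion] at hx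
    obtain ⟨k, hk, hxk⟩ := hx
    obtain ⟨l, hl, hle⟩ := exists_ps y c₀ T hT x
    have h2 := le_ps y c₀ S hS x hk
    have h3 := hxk l
    have h4 := hgap k hk l hl
    linarith
  have hdisj : Disjoint U (O y c₀ S T hS hT η) := by
    rw [Set.disjoint_left]
    intro x hx hxO
    have := h1 x hx
    have := hxO.2
    linarith
  have hsub : U ∪ O y c₀ S T hS hT η ⊆ P := by
    have hgen : ∀ x, 0 ≤ ps y c₀ S hS x - ps y c₀ T hT x → x ∈ P := by
      intro x hx
      obtain ⟨k, hk, hke⟩ := exists_ps y c₀ S hS x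
      simp only [hP, mem_iUnion]
      refine ⟨k, hk, fun j => ?_⟩
      rcases hcov j with hj | hj
      · have := le_ps y c₀ S hS x hj
        linarith
      · have := le_ps y c₀ T hT x hj
        linarith
    intro x hx
    rcases hx with hx | hx
    · exact hgen x (le_trans hη.le (h1 x hx))
    · exact hgen x hx.1.le
  have e1 : σ U = ∑ k ∈ S, ENNReal.ofReal (m k) := measure_biUnion_cell hσac hy hc S
  have e2 : ρ P = ∑ k ∈ S, ENNReal.ofReal (m k) := measure_biUnion_cell hK.isSrc.ac hy h₀ S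
  have e3 : ρ U + ρ (O y c₀ S T hS hT η) ≤ ρ U + ENNReal.ofReal (s * B) := by
    calc ρ U + ρ (O y c₀ S T hS hT η) = ρ (U ∪ O y c₀ S T hS hT η) :=
          (measure_union hdisj hOm).symm
      _ ≤ ρ P := measure_mono hsub
      _ = σ U := by rw [e1, e2]
      _ ≤ ρ U + ENNReal.ofReal (s * B) := tilt_le hB hs hUm
  exact (ENNReal.add_le_add_iff_left (measure_ne_top _ _)).1 e3

end Wt

open Wt in
theorem weights_close {K : Set (EE d)} (hK : IsBody K)
    {y : ι → EE d} (hy : Function.Injective y) {m : ι → ℝ} (hm : ∀ k, 0 < m k) {c₀ : ι → ℝ}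
    (h₀ : IsBal (uniformProbOn K) y m c₀) {f : EE d → ℝ} (hf : Measurable f) {B : ℝ}
    (hB : ∀ x, |f x| ≤ B) {ε : ℝ} (hε : 0 < ε) :
    ∃ s₀ > 0, ∀ s ∈ Ioo (0 : ℝ) s₀, ∀ c : ι → ℝ,
      IsBal (tilt (uniformProbOn K) (fun x => s * f x)) y m c → ∃ τ : ℝ, ∀ k, |c k - c₀ k - τ| ≤ ε := by
  classical
  have hprob : IsProbabilityMeasure (uniformProbOn K) := hK.isSrc.prob
  have hB0 : 0 ≤ B := le_trans (abs_nonneg _) (hB 0)
  set n : ℕ := Fintype.card ι with hn
  have hn0 : 0 < n := Fintype.card_pos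
  set η : ℝ := ε / n with hη
  have hη0 : 0 < η := div_pos hε (by exact_mod_cast hn0)
  -- the threshold
  set g : Finset ι → ℝ := fun S =>
    if h : S.Nonempty ∧ Sᶜ.Nonempty then
      (uniformProbOn K (O y c₀ S Sᶜ h.1 h.2 η)).toReal / (B + 1) else 1 with hg
  have hgpos : ∀ S, 0 < g S := by
    intro S
    simp only [hg]
    split_ifs with h
    · apply div_pos _ (by linarith)
      apply ENNReal.toReal_pos _ (measure_ne_top _ _)
      exact (measure_O_pos hK hy hm h₀ S Sᶜ h.1 h.2 disjoint_compl_right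
        (fun k => by simp [em]) hη0).ne'
    · exact one_pos
  obtain ⟨S₀, hS₀⟩ := Finite.exists_min g
  refine ⟨g S₀, hgpos S₀, ?_⟩
  intro s hs c hc
  set δ : ι → ℝ := fun k => c k - c₀ k with hδ
  -- no large gap
  have hnogap : ∀ S : Finset ι, S.Nonempty → Sᶜ.Nonempty → ∃ k ∈ S, ∃ l ∈ Sᶜ, δ k - δ l < η := by
    intro S hS hS'
    by_contra hcon
    push Not at hcon
    have h1 := key hK hy h₀ hB hs.1.le hc S Sᶜ hS hS' (fun k => by simp [em]) hη0 hcon
    have h2 : g S = (uniformProbOn K (O y c₀ S Sᶜ hS hS' η)).toReal / (B + 1) := by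
      simp only [hg]
      rw [dif_pos ⟨hS, hS'⟩]
    have h3 : s < (uniformProbOn K (O y c₀ S Sᶜ hS hS' η)).toReal / (B + 1) := by
      rw [← h2]; exact lt_of_lt_of_le hs.2 (hS₀ S)
    rw [lt_div_iff₀ (by linarith)] at h3
    have h4 : (uniformProbOn K (O y c₀ S Sᶜ hS hS' η)).toReal ≤ s * B :=
      (ENNReal.le_ofReal_iff_toReal_le (measure_ne_top _ _) (mul_nonneg hs.1.le hB0)).1 h1
    nlinarith [hs.1]
  obtain ⟨k₀, hk₀⟩ := Finite.exists_min δ
  set A : ℕ → Finset ι := fun j => Finset.univ.filter (fun k => δ k ≤ δ k₀ + j * η) with hA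
  have hAmono : ∀ j, A j ⊆ A (j + 1) := by
    intro j k hk
    simp only [hA, Finset.mem_filter, Finset.mem_univ, true_and] at hk ⊢
    push_cast
    nlinarith
  have hind : ∀ j : ℕ, j + 1 ≤ (A j).card ∨ A j = Finset.univ := by
    intro j
    induction j with
    | zero =>
      left
      have : k₀ ∈ A 0 := by simp [hA]
      exact Finset.card_pos.mpr ⟨k₀, this⟩
    | succ j ih =>
      by_cases hfull : A j = Finset.univ
      · right
        apply Finset.eq_univ_of_forall
        intro k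
        exact hAmono j (hfull ▸ Finset.mem_univ k)
      · left
        have hcard : j + 1 ≤ (A j).card := ih.resolve_right hfull
        have hne : (A j)ᶜ.Nonempty := by
          rw [Finset.nonempty_iff_ne_empty]
          intro h
          exact hfull (Finset.compl_eq_empty_iff _ |>.mp h)
        have hne' : ((A j)ᶜ)ᶜ.Nonempty := by
          rw [compl_compl]
          exact ⟨k₀, by simp only [hA, Finset.mem_filter, Finset.mem_univ, true_and]; nlinarith [hη0, (Nat.cast_nonneg j : (0:ℝ) ≤ j)]⟩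
        obtain ⟨k, hk, l, hl, hkl⟩ := hnogap (A j)ᶜ hne hne'
        rw [compl_compl] at hl
        have hl2 : δ l ≤ δ k₀ + j * η := by
          simpa only [hA, Finset.mem_filter, Finset.mem_univ, true_and] using hl
        have hk2 : k ∈ A (j + 1) := by
          simp only [hA, Finset.mem_filter, Finset.mem_univ, true_and]
          push_cast
          nlinarith
        have hk3 : k ∉ A j := Finset.mem_compl.mp hk
        have hss : A j ⊂ A (j + 1) := by
          rw [Finset.ssubset_iff_of_subset (hAmono j)]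
          exact ⟨k, hk2, hk3⟩
        have := Finset.card_lt_card hss
        omega
  have hfin : A n = Finset.univ := by
    rcases hind n with h | h
    · have : (A n).card ≤ n := Finset.card_le_univ _
      omega
    · exact h
  refine ⟨δ k₀, fun k => ?_⟩
  have h1 : k ∈ A n := hfin ▸ Finset.mem_univ k
  have h2 : δ k ≤ δ k₀ + n * η := by
    simpa only [hA, Finset.mem_filter, Finset.mem_univ, true_and] using h1
  have h3 : (n : ℝ) * η = ε := by
    simp only [hη]
    field_simp
  have h4 := hk₀ k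
  rw [abs_le]
  simp only [hδ] at h2 h4 ⊢
  constructor <;> linarith

end Crest.Agent.S0109
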