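import Crest.Agent.S0109_SD
import Crest.Agent.S0109_Conv1D
import Crest.Agent.S0109_Bary
import Crest.Agent.S0109_Weights

/-! Row 82, package E6: Lipschitz stability of the potentials, semi-discrete case. -/

set_option autoImplicit false
open MeasureTheory Set Filter Topology
open scoped ENNReal NNReal InnerProductSpace
open Crest.AnalysisR.OT

namespace Crest.Agent.S0109

variable {d : ℕ}

namespace Core

/-- The interpolated sites. -/
noncomputable def Yt {I J P : Type} (y : I → EE d) (z : J → EE d) (r₁ : P → I) (r₂ : P → J)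
    (t : ℝ) (p : P) : EE d :=
  (1 - t) • y (r₁ p) + t • z (r₂ p)

theorem Yt_sub {I J P : Type} (y : I → EE d) (z : J → EE d) (r₁ : P → I) (r₂ : P → J)
    (t t' : ℝ) (p : P) :
    Yt y z r₁ r₂ t' p - Yt y z r₁ r₂ t p = (t' - t) • (z (r₂ p) - y (r₁ p)) := by
  simp only [Yt]
  module

theorem Yt_zero {I J P : Type} (y : I → EE d) (z : J → EE d) (r₁ : P → I) (r₂ : P → J) :
    Yt y z r₁ r₂ 0 = y ∘ r₁ := by
  funext p
  simp [Yt]

theorem Yt_one {I J P : Type} (y : I → EE d) (z : J → EE d) (r₁ : P → I) (r₂ : P → J) :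
    Yt y z r₁ r₂ 1 = z ∘ r₂ := by
  funext p
  simp [Yt]

theorem finite_bad {I J P : Type} [Finite P] {y : I → EE d} (hy : Function.Injective y)
    {z : J → EE d} (hz : Function.Injective z) (r₁ : P → I) (r₂ : P → J)
    (hinj : Function.Injective fun p => (r₁ p, r₂ p)) :
    {t : ℝ | ¬ Function.Injective (Yt y z r₁ r₂ t)}.Finite := by
  have hsub : {t : ℝ | ¬ Function.Injective (Yt y z r₁ r₂ t)} ⊆
      ⋃ pq : P × P, {t : ℝ | pq.1 ≠ pq.2 ∧ Yt y z r₁ r₂ t pq.1 = Yt y z r₁ r₂ t pq.2} := by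
    intro t ht
    simp only [Set.mem_ofPred_eq, Function.Injective, not_forall] at ht
    obtain ⟨p, q, hpq, hne⟩ := ht
    exact mem_iUnion.2 ⟨(p, q), hne, hpq⟩
  refine (Set.finite_iUnion fun pq => ?_).subset hsub
  refine Set.Subsingleton.finite ?_
  rintro t ⟨hne, h1⟩ t' ⟨-, h2⟩
  by_contra htt
  apply hne
  apply hinj
  simp only [Yt] at h1 h2
  have hd : t' - t ≠ 0 := sub_ne_zero.2 (Ne.symm htt)
  have ha : (t' - t) • (y (r₁ pq.1) - y (r₁ pq.2)) = 0 := by
    linear_combination (norm := module) t' • h1 - t • h2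
  have hb : (t' - t) • (z (r₂ pq.1) - z (r₂ pq.2)) = 0 := by
    linear_combination (norm := module) (1 - t) • h2 - (1 - t') • h1
  have ha' := (smul_eq_zero.1 ha).resolve_left hd
  have hb' := (smul_eq_zero.1 hb).resolve_left hd
  exact Prod.ext (hy (sub_eq_zero.1 ha')) (hz (sub_eq_zero.1 hb'))

theorem D_nonneg {K : Set (EE d)} (hK : IsBody K) {D : ℝ} (hD : K ⊆ Metric.closedBall 0 D) :
    0 ≤ D := by
  obtain ⟨x, hx⟩ := hK.inter
  have := hD (interior_subset hx)
  rw [mem_closedBall_zero_iff] at this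
  exact (norm_nonneg x).trans this

theorem continuous_Dval_Yt {K : Set (EE d)} (hK : IsBody K) {σ : Measure (EE d)} (hσ : IsSrc K σ)
    {D : ℝ} (hD : K ⊆ Metric.closedBall 0 D)
    {I J P : Type} [Fintype P] [Nonempty P] (y : I → EE d) (z : J → EE d) (r₁ : P → I) (r₂ : P → J)
    {m : P → ℝ} (hm : ∀ k, 0 ≤ m k) (hs : ∑ k, m k = 1) :
    Continuous fun t => Dval σ (Yt y z r₁ r₂ t) m := by
  have hDnn := D_nonneg hK hD
  have hC : 0 ≤ D * ∑ p, ‖z (r₂ p) - y (r₁ p)‖ :=
    mul_nonneg hDnn (Finset.sum_nonneg fun _ _ => norm_nonneg _)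
  refine (LipschitzWith.of_dist_le_mul
    (K := Real.toNNReal (D * ∑ p, ‖z (r₂ p) - y (r₁ p)‖)) ?_).continuous
  intro t t'
  rw [Real.dist_eq, Real.dist_eq, Real.coe_toNNReal _ hC]
  refine (abs_Dval_sub_le hK hσ hD _ _ hm hs).trans (le_of_eq ?_)
  rw [mul_assoc, Finset.sum_mul]
  congr 1
  refine Finset.sum_congr rfl fun p _ => ?_
  rw [Yt_sub, norm_smul, Real.norm_eq_abs, mul_comm]

/-- Weighted Cauchy-Schwarz. -/
theorem abs_sum_inner_le {P : Type} [Fintype P] (a v : P → EE d) (m : P → ℝ) (hm : ∀ p, 0 < m p) :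
    |∑ p, ⟪a p, v p⟫_ℝ| ≤ √(∑ p, (m p)⁻¹ * ‖a p‖ ^ 2) * √(∑ p, m p * ‖v p‖ ^ 2) := by
  calc |∑ p, ⟪a p, v p⟫_ℝ| ≤ ∑ p, |⟪a p, v p⟫_ℝ| := Finset.abs_sum_le_sum_abs _ _
    _ ≤ ∑ p, ((√(m p))⁻¹ * ‖a p‖) * (√(m p) * ‖v p‖) := by
        refine Finset.sum_le_sum fun p _ => ?_
        have h1 : √(m p) ≠ 0 := (Real.sqrt_pos.2 (hm p)).ne'
        have h2 : ((√(m p))⁻¹ * ‖a p‖) * (√(m p) * ‖v p‖) = ‖a p‖ * ‖v p‖ := by
          field_simp
        rw [h2]
        exact abs_real_inner_le_norm _ _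
    _ ≤ √(∑ p, ((√(m p))⁻¹ * ‖a p‖) ^ 2) * √(∑ p, (√(m p) * ‖v p‖) ^ 2) :=
        Real.sum_mul_le_sqrt_mul_sqrt _ _ _
    _ = √(∑ p, (m p)⁻¹ * ‖a p‖ ^ 2) * √(∑ p, m p * ‖v p‖ ^ 2) := by
        congr 2
        · refine Finset.sum_congr rfl fun p _ => ?_
          rw [mul_pow, inv_pow, Real.sq_sqrt (hm p).le]
        · refine Finset.sum_congr rfl fun p _ => ?_
          rw [mul_pow, Real.sq_sqrt (hm p).le]

theorem core_step {K : Set (EE d)} (hK : IsBody K) {D : ℝ} (hD : K ⊆ Metric.closedBall 0 D)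
    {I J P : Type} [Fintype I] [Nonempty I] [Fintype J] [Nonempty J] [Fintype P] [Nonempty P]
    [DecidableEq I] [DecidableEq J]
    {y : I → EE d} (hy : Function.Injective y) {z : J → EE d} (hz : Function.Injective z)
    (r₁ : P → I) (r₂ : P → J) (hr₁ : Function.Surjective r₁) (hr₂ : Function.Surjective r₂)
    (hinj : Function.Injective fun p => (r₁ p, r₂ p))
    (m : P → ℝ) (hm : ∀ p, 0 < m p) (hs : ∑ p, m p = 1)
    (c : I → ℝ) (hc : IsBal (uniformProbOn K) y (fun i => ∑ p with r₁ p = i, m p) c)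
    {g : EE d → ℝ} (hg : Measurable g) (hb : ∀ x, |g x| ≤ 1 / 2)
    (h0 : ∫ x, g x ∂(uniformProbOn K) = 0)
    (e' : J → ℝ) (he' : IsBal (tilt (uniformProbOn K) g) z (fun j => ∑ p with r₂ p = j, m p) e') :
    ∫ x, pot z e' x * g x ∂(uniformProbOn K) - ∫ x, pot y c x * g x ∂(uniformProbOn K)
      ≤ 20 * D * √(∫ x, g x ^ 2 ∂(uniformProbOn K)) * √(∑ p, m p * ‖z (r₂ p) - y (r₁ p)‖ ^ 2) := by
  set ρ := uniformProbOn K with hρdef
  set σ := tilt ρ g with hσdef
  have hρ : IsSrc K ρ := hK.isSrc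
  have hσ : IsSrc K σ := hK.isSrc_tilt hg hb h0
  have hDnn := D_nonneg hK hD
  have hm0 : ∀ p, 0 ≤ m p := fun p => (hm p).le
  have hrow0 : ∀ i, 0 ≤ ∑ p with r₁ p = i, m p := fun i => Finset.sum_nonneg fun p _ => hm0 p
  have hcol0 : ∀ j, 0 ≤ ∑ p with r₂ p = j, m p := fun j => Finset.sum_nonneg fun p _ => hm0 p
  have hrows : ∑ i, ∑ p with r₁ p = i, m p = 1 := by
    rw [Finset.sum_fiberwise]; exact hs
  have hcols : ∑ j, ∑ p with r₂ p = j, m p = 1 := by
    rw [Finset.sum_fiberwise]; exact hs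
  -- balanced weights at good times
  have hexσ : ∀ t, Function.Injective (Yt y z r₁ r₂ t) → ∃ c', IsBal σ (Yt y z r₁ r₂ t) m c' :=
    fun t ht => exists_isBal hK hσ ht hm hs
  have hexρ : ∀ t, Function.Injective (Yt y z r₁ r₂ t) → ∃ c', IsBal ρ (Yt y z r₁ r₂ t) m c' :=
    fun t ht => exists_isBal hK hρ ht hm hs
  choose! cs hcs using hexσ
  choose! c0 hc0 using hexρ
  set v : P → EE d := fun p => z (r₂ p) - y (r₁ p) with hv
  set pf : ℝ → ℝ := fun t => ∑ p, ⟪mom σ (Yt y z r₁ r₂ t) (cs t) p, v p⟫_ℝ with hpf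
  set qf : ℝ → ℝ := fun t => ∑ p, ⟪mom ρ (Yt y z r₁ r₂ t) (c0 t) p, v p⟫_ℝ with hqf
  set Fbad : Set ℝ := {t : ℝ | ¬ Function.Injective (Yt y z r₁ r₂ t)} with hFbad
  have hgood : ∀ t ∈ Icc (0 : ℝ) 1 \ Fbad, Function.Injective (Yt y z r₁ r₂ t) := by
    intro t ht
    have := ht.2
    simpa [hFbad] using this
  set L : ℝ := 20 * D * √(∫ x, g x ^ 2 ∂ρ) * √(∑ p, m p * ‖v p‖ ^ 2) with hL
  set B : ℝ := ∑ p, D * m p * ‖v p‖ with hB
  have key := abs_diff_le_of_subgrad_close (fun t => Dval σ (Yt y z r₁ r₂ t) m)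
    (fun t => Dval ρ (Yt y z r₁ r₂ t) m) pf qf Fbad (finite_bad hy hz r₁ r₂ hinj) L B
    (continuous_Dval_Yt hK hσ hD y z r₁ r₂ hm0 hs).continuousOn
    (continuous_Dval_Yt hK hρ hD y z r₁ r₂ hm0 hs).continuousOn
    (by
      intro t ht t' _
      have h := Dval_subgrad hK hσ (hgood t ht) (hcs t (hgood t ht)) hm0 hs (Yt y z r₁ r₂ t')
      have h2 : ∑ k, ⟪mom σ (Yt y z r₁ r₂ t) (cs t) k, Yt y z r₁ r₂ t' k - Yt y z r₁ r₂ t k⟫_ℝ
          = pf t * (t' - t) := by
        rw [hpf, Finset.sum_mul]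
        refine Finset.sum_congr rfl fun p _ => ?_
        rw [Yt_sub, inner_smul_right, mul_comm]
      rw [h2] at h
      exact h)
    (by
      intro t ht t' _
      have h := Dval_subgrad hK hρ (hgood t ht) (hc0 t (hgood t ht)) hm0 hs (Yt y z r₁ r₂ t')
      have h2 : ∑ k, ⟪mom ρ (Yt y z r₁ r₂ t) (c0 t) k, Yt y z r₁ r₂ t' k - Yt y z r₁ r₂ t k⟫_ℝ
          = qf t * (t' - t) := by
        rw [hqf, Finset.sum_mul]
        refine Finset.sum_congr rfl fun p _ => ?_
        rw [Yt_sub, inner_smul_right, mul_comm]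
      rw [h2] at h
      exact h)
    (by
      intro t ht
      have hmc := mom_close hK hD (hgood t ht) hm hg hb (hc0 t (hgood t ht)) (hcs t (hgood t ht))
      have h1 : pf t - qf t = ∑ p, ⟪mom σ (Yt y z r₁ r₂ t) (cs t) p
          - mom ρ (Yt y z r₁ r₂ t) (c0 t) p, v p⟫_ℝ := by
        rw [hpf, hqf, ← Finset.sum_sub_distrib]
        refine Finset.sum_congr rfl fun p _ => ?_
        rw [inner_sub_left]
      rw [h1]
      refine (abs_sum_inner_le _ v m hm).trans ?_
      rw [hL]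
      refine mul_le_mul_of_nonneg_right ?_ (Real.sqrt_nonneg _)
      refine (Real.sqrt_le_sqrt hmc).trans (le_of_eq ?_)
      rw [show 400 * D ^ 2 * ∫ x, g x ^ 2 ∂ρ = (20 * D) ^ 2 * ∫ x, g x ^ 2 ∂ρ by ring,
        Real.sqrt_mul (sq_nonneg _), Real.sqrt_sq (by positivity)])
    (by
      intro t ht
      rw [hpf, hB]
      refine (Finset.abs_sum_le_sum_abs _ _).trans (Finset.sum_le_sum fun p _ => ?_)
      refine (abs_real_inner_le_norm _ _).trans ?_
      exact mul_le_mul_of_nonneg_right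
        (norm_mom_le hK hσ hD (hcs t (hgood t ht)) hm0 p) (norm_nonneg _))
    (by
      intro t ht
      rw [hqf, hB]
      refine (Finset.abs_sum_le_sum_abs _ _).trans (Finset.sum_le_sum fun p _ => ?_)
      refine (abs_real_inner_le_norm _ _).trans ?_
      exact mul_le_mul_of_nonneg_right
        (norm_mom_le hK hρ hD (hc0 t (hgood t ht)) hm0 p) (norm_nonneg _))
  simp only [Yt_zero, Yt_one] at key
  rw [Dval_comp hK hσ y r₁ hr₁ m hm0 hs, Dval_comp hK hρ y r₁ hr₁ m hm0 hs,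
    Dval_comp hK hσ z r₂ hr₂ m hm0 hs, Dval_comp hK hρ z r₂ hr₂ m hm0 hs] at key
  have e1 : Dval σ y (fun i => ∑ p with r₁ p = i, m p)
      ≤ Phi ρ y (fun i => ∑ p with r₁ p = i, m p) c + ∫ x, pot y c x * g x ∂ρ := by
    rw [← Phi_tilt hK hg hb]
    exact Dval_le_Phi hK hσ y hrow0 hrows c
  have e2 : Dval ρ y (fun i => ∑ p with r₁ p = i, m p)
      = Phi ρ y (fun i => ∑ p with r₁ p = i, m p) c :=
    Dval_eq_of_isBal hK hρ hy hc hrow0 hrows
  have e3 : Dval σ z (fun j => ∑ p with r₂ p = j, m p)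
      = Phi ρ z (fun j => ∑ p with r₂ p = j, m p) e' + ∫ x, pot z e' x * g x ∂ρ := by
    rw [← Phi_tilt hK hg hb]
    exact Dval_eq_of_isBal hK hσ hz he' hcol0 hcols
  have e4 : Dval ρ z (fun j => ∑ p with r₂ p = j, m p)
      ≤ Phi ρ z (fun j => ∑ p with r₂ p = j, m p) e' :=
    Dval_le_Phi hK hρ z hcol0 hcols e'
  have := (abs_le.1 key).2
  linarith

theorem core_aux {K : Set (EE d)} (hK : IsBody K) {D : ℝ} (hD : K ⊆ Metric.closedBall 0 D)
    {I J P : Type} [Fintype I] [Nonempty I] [Fintype J] [Nonempty J] [Fintype P] [Nonempty P]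
    [DecidableEq I] [DecidableEq J]
    {y : I → EE d} (hy : Function.Injective y) {z : J → EE d} (hz : Function.Injective z)
    (r₁ : P → I) (r₂ : P → J) (hr₁ : Function.Surjective r₁) (hr₂ : Function.Surjective r₂)
    (hinj : Function.Injective fun p => (r₁ p, r₂ p))
    (m : P → ℝ) (hm : ∀ p, 0 < m p) (hs : ∑ p, m p = 1)
    (c : I → ℝ) (hc : IsBal (uniformProbOn K) y (fun i => ∑ p with r₁ p = i, m p) c)
    (e : J → ℝ) (he : IsBal (uniformProbOn K) z (fun j => ∑ p with r₂ p = j, m p) e) :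
    ∫ x, (pot y c x - pot z e x - ∫ x', (pot y c x' - pot z e x') ∂(uniformProbOn K)) ^ 2
        ∂(uniformProbOn K)
      ≤ 400 * D ^ 2 * ∑ p, m p * ‖z (r₂ p) - y (r₁ p)‖ ^ 2 := by
  set ρ := uniformProbOn K with hρdef
  have hρ : IsSrc K ρ := hK.isSrc
  have := hρ.prob
  have hDnn := D_nonneg hK hD
  have hcolpos : ∀ j, 0 < ∑ p with r₂ p = j, m p := by
    intro j
    obtain ⟨p, hp⟩ := hr₂ j
    exact Finset.sum_pos (fun q _ => hm q) ⟨p, by simp [hp]⟩
  have hcols : ∑ j, ∑ p with r₂ p = j, m p = 1 := by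
    rw [Finset.sum_fiberwise]; exact hs
  set u : EE d → ℝ := fun x => pot z e x - pot y c x with hu
  have hucont : Continuous u := (continuous_pot z e).sub (continuous_pot y c)
  have hiz : Integrable (pot z e) ρ := integrable_pot hK hρ z e
  have hiy : Integrable (pot y c) ρ := integrable_pot hK hρ y c
  have hui : Integrable u ρ := hiz.sub hiy
  set ub : ℝ := ∫ x, u x ∂ρ with hub
  set f : EE d → ℝ := K.indicator (fun x => u x - ub) with hf
  have hfm : Measurable f :=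
    (hucont.measurable.sub_const ub).indicator hK.compact.measurableSet
  obtain ⟨C, hC⟩ := hK.compact.exists_bound_of_continuousOn
    (f := fun x => u x - ub) (hucont.sub continuous_const).continuousOn
  set Bf : ℝ := |C| + 1 with hBfdef
  have hBfpos : 0 < Bf := by positivity
  have hBf : ∀ x, |f x| ≤ Bf := by
    intro x
    by_cases hx : x ∈ K
    · rw [hf, indicator_of_mem hx]
      have := hC x hx
      rw [Real.norm_eq_abs] at this
      have h2 := le_abs_self C
      linarith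
    · rw [hf, indicator_of_notMem hx]
      simpa using hBfpos.le
  have hfae : f =ᵐ[ρ] fun x => u x - ub := by
    filter_upwards [SD.ae_mem hρ] with x hx
    rw [hf, indicator_of_mem hx]
  have hfi : Integrable f ρ :=
    Integrable.of_bound hfm.aestronglyMeasurable Bf (Eventually.of_forall fun x => by
      simpa [Real.norm_eq_abs] using hBf x)
  have hf0 : ∫ x, f x ∂ρ = 0 := by
    rw [integral_congr_ae hfae, integral_sub hui (integrable_const _)]
    simp [hub]
  have hbdd : ∀ᵐ x ∂ρ, ‖f x‖ ≤ Bf := Eventually.of_forall fun x => by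
    simpa [Real.norm_eq_abs] using hBf x
  have hizf : Integrable (fun x => pot z e x * f x) ρ :=
    hiz.mul_bdd hfm.aestronglyMeasurable hbdd
  have hiyf : Integrable (fun x => pot y c x * f x) ρ :=
    hiy.mul_bdd hfm.aestronglyMeasurable hbdd
  have hff : Integrable (fun x => f x ^ 2) ρ := by
    have := hfi.mul_bdd hfm.aestronglyMeasurable hbdd
    simpa [sq] using this
  have hfabs : Integrable (fun x => |f x|) ρ := hfi.abs
  set Nf : ℝ := √(∫ x, f x ^ 2 ∂ρ) with hNf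
  set W : ℝ := √(∑ p, m p * ‖z (r₂ p) - y (r₁ p)‖ ^ 2) with hW
  -- the main inequality, up to `ε`
  have claim : ∀ ε > 0, ∫ x, pot z e x * f x ∂ρ - ∫ x, pot y c x * f x ∂ρ
      ≤ 20 * D * Nf * W + ε * ∫ x, |f x| ∂ρ := by
    intro ε hε
    obtain ⟨s₀, hs₀, H⟩ := weights_close hK hz hcolpos he hfm hBf hε
    set s : ℝ := min (s₀ / 2) (1 / (2 * Bf)) with hsdef
    have hspos : 0 < s := lt_min (by positivity) (by positivity)
    have hslt : s < s₀ := lt_of_le_of_lt (min_le_left _ _) (by linarith)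
    have hsB : s * Bf ≤ 1 / 2 := by
      have : s ≤ 1 / (2 * Bf) := min_le_right _ _
      calc s * Bf ≤ 1 / (2 * Bf) * Bf := mul_le_mul_of_nonneg_right this hBfpos.le
        _ = 1 / 2 := by field_simp
    have hgm : Measurable (fun x => s * f x) := hfm.const_mul s
    have hgb : ∀ x, |s * f x| ≤ 1 / 2 := by
      intro x
      rw [abs_mul, abs_of_pos hspos]
      exact (mul_le_mul_of_nonneg_left (hBf x) hspos.le).trans hsB
    have hg0 : ∫ x, s * f x ∂ρ = 0 := by
      rw [integral_const_mul, hf0, mul_zero]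
    have hσ : IsSrc K (tilt ρ (fun x => s * f x)) := hK.isSrc_tilt hgm hgb hg0
    obtain ⟨e', he'⟩ := exists_isBal hK hσ hz hcolpos hcols
    obtain ⟨τ, hτ⟩ := H s ⟨hspos, hslt⟩ e' he'
    have step := core_step hK hD hy hz r₁ r₂ hr₁ hr₂ hinj m hm hs c hc hgm hgb hg0 e' he'
    have hie' : Integrable (pot z e') ρ := integrable_pot hK hρ z e'
    have hie'f : Integrable (fun x => pot z e' x * f x) ρ :=
      hie'.mul_bdd hfm.aestronglyMeasurable hbdd
    have r1 : ∫ x, pot z e' x * (s * f x) ∂ρ = s * ∫ x, pot z e' x * f x ∂ρ := by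
      rw [← integral_const_mul]
      refine integral_congr_ae (Eventually.of_forall fun x => ?_)
      simp only; ring
    have r2 : ∫ x, pot y c x * (s * f x) ∂ρ = s * ∫ x, pot y c x * f x ∂ρ := by
      rw [← integral_const_mul]
      refine integral_congr_ae (Eventually.of_forall fun x => ?_)
      simp only; ring
    have r3 : √(∫ x, (s * f x) ^ 2 ∂ρ) = s * Nf := by
      have : ∫ x, (s * f x) ^ 2 ∂ρ = s ^ 2 * ∫ x, f x ^ 2 ∂ρ := by
        rw [← integral_const_mul]
        refine integral_congr_ae (Eventually.of_forall fun x => ?_)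
        simp only; ring
      rw [this, Real.sqrt_mul (sq_nonneg _), Real.sqrt_sq hspos.le]
    rw [r1, r2, r3] at step
    -- compare `pot z e'` and `pot z e`
    have cmp : ∫ x, pot z e x * f x ∂ρ - ε * ∫ x, |f x| ∂ρ ≤ ∫ x, pot z e' x * f x ∂ρ := by
      have hi1 : Integrable (fun x => pot z e x * f x - τ * f x) ρ := hizf.sub (hfi.const_mul τ)
      have hi2 : Integrable (fun x => pot z e x * f x - τ * f x - ε * |f x|) ρ :=
        hi1.sub (hfabs.const_mul ε)
      have h1 : ∫ x, pot z e x * f x ∂ρ - ε * ∫ x, |f x| ∂ρ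
          = ∫ x, (pot z e x * f x - τ * f x - ε * |f x|) ∂ρ := by
        rw [integral_sub hi1 (hfabs.const_mul ε),
          integral_sub hizf (hfi.const_mul τ), integral_const_mul, integral_const_mul, hf0]
        ring
      rw [h1]
      refine integral_mono hi2 hie'f ?_
      intro x
      have hx := abs_pot_sub_le z e e' τ ε hτ x
      have h3 : |(pot z e' x - pot z e x + τ) * f x| ≤ ε * |f x| := by
        rw [abs_mul]
        exact mul_le_mul_of_nonneg_right hx (abs_nonneg _)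
      have h4 := (abs_le.1 h3).1
      simp only
      nlinarith
    have hdiv : s * (∫ x, pot z e x * f x ∂ρ - ε * ∫ x, |f x| ∂ρ - ∫ x, pot y c x * f x ∂ρ)
        ≤ s * (20 * D * Nf * W) := by
      have : s * (∫ x, pot z e x * f x ∂ρ - ε * ∫ x, |f x| ∂ρ) ≤ s * ∫ x, pot z e' x * f x ∂ρ :=
        mul_le_mul_of_nonneg_left cmp hspos.le
      nlinarith
    have := le_of_mul_le_mul_left hdiv hspos
    linarith
  -- `∫ u f = ∫ f²`
  have huf : ∫ x, pot z e x * f x ∂ρ - ∫ x, pot y c x * f x ∂ρ = ∫ x, f x ^ 2 ∂ρ := by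
    rw [← integral_sub hizf hiyf]
    have h1 : (fun x => pot z e x * f x - pot y c x * f x) =ᵐ[ρ] fun x => f x ^ 2 + ub * f x := by
      filter_upwards [hfae] with x hx
      have : u x = f x + ub := by rw [hx]; ring
      have h2 : pot z e x - pot y c x = f x + ub := this
      calc pot z e x * f x - pot y c x * f x = (pot z e x - pot y c x) * f x := by ring
        _ = f x ^ 2 + ub * f x := by rw [h2]; ring
    rw [integral_congr_ae h1, integral_add hff (hfi.const_mul ub), integral_const_mul, hf0]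
    ring
  rw [huf] at claim
  have hA : 0 ≤ ∫ x, |f x| ∂ρ := integral_nonneg fun x => abs_nonneg _
  have hmain : ∫ x, f x ^ 2 ∂ρ ≤ 20 * D * Nf * W := by
    by_contra hcon
    rw [not_le] at hcon
    set A := ∫ x, |f x| ∂ρ
    set a := ∫ x, f x ^ 2 ∂ρ
    have hε : 0 < (a - 20 * D * Nf * W) / (2 * (A + 1)) := by
      apply div_pos (by linarith) (by positivity)
    have := claim _ hε
    have h2 : (a - 20 * D * Nf * W) / (2 * (A + 1)) * A ≤ (a - 20 * D * Nf * W) / 2 := by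
      rw [div_mul_eq_mul_div, div_le_div_iff₀ (by positivity) (by norm_num)]
      nlinarith
    linarith
  have hsq0 : 0 ≤ ∫ x, f x ^ 2 ∂ρ := integral_nonneg fun x => sq_nonneg _
  have hNsq : Nf ^ 2 = ∫ x, f x ^ 2 ∂ρ := Real.sq_sqrt hsq0
  have hWsq : W ^ 2 = ∑ p, m p * ‖z (r₂ p) - y (r₁ p)‖ ^ 2 :=
    Real.sq_sqrt (Finset.sum_nonneg fun p _ => mul_nonneg (hm p).le (sq_nonneg _))
  have hN0 : 0 ≤ Nf := Real.sqrt_nonneg _
  have hW0 : 0 ≤ W := Real.sqrt_nonneg _
  have hfin : ∫ x, f x ^ 2 ∂ρ ≤ 400 * D ^ 2 * ∑ p, m p * ‖z (r₂ p) - y (r₁ p)‖ ^ 2 := by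
    rw [← hWsq, ← hNsq]
    rw [← hNsq] at hmain
    have hb0 : 0 ≤ 20 * D * W := by positivity
    by_cases hle : Nf ≤ 20 * D * W
    · nlinarith
    · rw [not_le] at hle
      nlinarith
  refine le_trans (le_of_eq ?_) hfin
  refine integral_congr_ae ?_
  have hneg : ∫ x', (pot y c x' - pot z e x') ∂ρ = - ub := by
    rw [hub, ← integral_neg]
    refine integral_congr_ae (Eventually.of_forall fun x => ?_)
    simp only [hu]; ring
  filter_upwards [hfae] with x hx
  rw [hneg, hx]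
  simp only [hu]; ring

theorem sum_eq_one_of_isBal {K : Set (EE d)} {σ : Measure (EE d)} (hσ : IsSrc K σ)
    {ι : Type} [Fintype ι] [Nonempty ι] {y : ι → EE d} (hy : Function.Injective y) {m c : ι → ℝ}
    (hb : IsBal σ y m c) (hm : ∀ k, 0 ≤ m k) : ∑ k, m k = 1 := by
  have := hσ.prob
  have h := integral_eq_sum_cell hσ.ac hy c (fun _ => (1 : ℝ)) (integrable_const 1)
  simp only [integral_const, smul_eq_mul, mul_one,
    MeasurableSet.univ, measureReal_restrict_apply, univ_inter] at h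
  have h1 : σ.real univ = 1 := by simp [measureReal_def]
  rw [h1] at h
  rw [h]
  refine Finset.sum_congr rfl fun k _ => ?_
  rw [measureReal_def, hb k, ENNReal.toReal_ofReal (hm k)]

theorem sum_subtype_pos {I J : Type} [Fintype I] [Fintype J] (w : I → J → ℝ)
    (hw : ∀ i j, 0 ≤ w i j) [Fintype {p : I × J // 0 < w p.1 p.2}] (G : I → J → ℝ) :
    ∑ p : {p : I × J // 0 < w p.1 p.2}, w p.1.1 p.1.2 * G p.1.1 p.1.2
      = ∑ i, ∑ j, w i j * G i j := by
  classical
  rw [← Fintype.sum_prod_type' (f := fun i j => w i j * G i j)]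
  rw [← Finset.sum_subtype (Finset.univ.filter fun p : I × J => 0 < w p.1 p.2)
    (by intro x; simp) (fun p => w p.1 p.2 * G p.1 p.2)]
  rw [Finset.sum_filter]
  refine Finset.sum_congr rfl fun p _ => ?_
  split_ifs with h
  · rfl
  · have : w p.1 p.2 = 0 := le_antisymm (not_lt.1 h) (hw _ _)
    rw [this, zero_mul]

end Core

open _root_.Crest.Agent.S0109.Core in
theorem core {K : Set (EE d)} (hK : IsBody K) {D : ℝ} (hD : K ⊆ Metric.closedBall 0 D)
    {I J : Type} [Fintype I] [Nonempty I] [Fintype J] [Nonempty J]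
    {y : I → EE d} (hy : Function.Injective y) {z : J → EE d} (hz : Function.Injective z)
    (c : I → ℝ) (e : J → ℝ) (w : I → J → ℝ) (hw : ∀ i j, 0 ≤ w i j)
    (hrow : ∀ i, 0 < ∑ j, w i j) (hcol : ∀ j, 0 < ∑ i, w i j)
    (hc : IsBal (uniformProbOn K) y (fun i => ∑ j, w i j) c)
    (he : IsBal (uniformProbOn K) z (fun j => ∑ i, w i j) e) :
    ∫ x, (pot y c x - pot z e x - ∫ x', (pot y c x' - pot z e x') ∂(uniformProbOn K)) ^ 2
        ∂(uniformProbOn K)
      ≤ 400 * D ^ 2 * ∑ i, ∑ j, w i j * ‖y i - z j‖ ^ 2 := by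
  classical
  have hρ : IsSrc K (uniformProbOn K) := hK.isSrc
  have hex₁ : ∀ i, ∃ j, 0 < w i j := by
    intro i
    have h : ∑ j : J, (0 : ℝ) < ∑ j, w i j := by simpa using hrow i
    obtain ⟨j, -, hj⟩ := Finset.exists_lt_of_sum_lt h
    exact ⟨j, hj⟩
  have hex₂ : ∀ j, ∃ i, 0 < w i j := by
    intro j
    have h : ∑ i : I, (0 : ℝ) < ∑ i, w i j := by simpa using hcol j
    obtain ⟨i, -, hi⟩ := Finset.exists_lt_of_sum_lt h
    exact ⟨i, hi⟩
  let P := {p : I × J // 0 < w p.1 p.2}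
  have : Nonempty P := by
    obtain ⟨i⟩ := ‹Nonempty I›
    obtain ⟨j, hj⟩ := hex₁ i
    exact ⟨⟨(i, j), hj⟩⟩
  let r₁ : P → I := fun p => p.1.1
  let r₂ : P → J := fun p => p.1.2
  let m : P → ℝ := fun p => w p.1.1 p.1.2
  have hr₁ : Function.Surjective r₁ := fun i => by
    obtain ⟨j, hj⟩ := hex₁ i
    exact ⟨⟨(i, j), hj⟩, rfl⟩
  have hr₂ : Function.Surjective r₂ := fun j => by
    obtain ⟨i, hi⟩ := hex₂ j
    exact ⟨⟨(i, j), hi⟩, rfl⟩
  have hinj : Function.Injective fun p : P => (r₁ p, r₂ p) := by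
    intro p q hpq
    exact Subtype.ext hpq
  have hm : ∀ p, 0 < m p := fun p => p.2
  have hrows : (fun i => ∑ p with r₁ p = i, m p) = fun i => ∑ j, w i j := by
    funext i
    rw [Finset.sum_filter]
    have h := sum_subtype_pos w hw (fun i' _ => if i' = i then 1 else 0)
    have h1 : ∑ p : P, (if r₁ p = i then m p else 0)
        = ∑ p : P, w p.1.1 p.1.2 * (if p.1.1 = i then 1 else 0) := by
      refine Finset.sum_congr rfl fun p _ => ?_
      simp [r₁, m]
    rw [h1, h]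
    simp
  have hcols : (fun j => ∑ p with r₂ p = j, m p) = fun j => ∑ i, w i j := by
    funext j
    rw [Finset.sum_filter]
    have h := sum_subtype_pos w hw (fun _ j' => if j' = j then 1 else 0)
    have h1 : ∑ p : P, (if r₂ p = j then m p else 0)
        = ∑ p : P, w p.1.1 p.1.2 * (if p.1.2 = j then 1 else 0) := by
      refine Finset.sum_congr rfl fun p _ => ?_
      simp [r₂, m]
    rw [h1, h]
    simp
  have hs : ∑ p, m p = 1 := by
    have h := sum_subtype_pos w hw (fun _ _ => 1)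
    simp only [mul_one] at h
    rw [show ∑ p, m p = ∑ p : P, w p.1.1 p.1.2 from rfl, h]
    exact sum_eq_one_of_isBal hρ hy hc (fun i => (hrow i).le)
  have main := core_aux hK hD hy hz r₁ r₂ hr₁ hr₂ hinj m hm hs c (by rw [hrows]; exact hc) e
    (by rw [hcols]; exact he)
  refine main.trans (le_of_eq ?_)
  congr 1
  have h := sum_subtype_pos w hw (fun i j => ‖y i - z j‖ ^ 2)
  rw [← h]
  refine Finset.sum_congr rfl fun p _ => ?_
  simp only [m, r₁, r₂]
  rw [norm_sub_rev]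

end Crest.Agent.S0109
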