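import Mathlib
import Crest.Prelude.Def_QuadraticTransport

/-!
# Row 82 (S0109): shared definitions.   See `notes/row82_plan.md`.
Do not edit this file without telling `lead` on the board.
-/

set_option autoImplicit false
open MeasureTheory Set
open scoped ENNReal NNReal InnerProductSpace
open Crest.AnalysisR.OT

namespace Crest.Agent.S0109

/-- The ambient Euclidean space. -/
abbrev EE (d : ℕ) := EuclideanSpace ℝ (Fin d)

variable {d : ℕ}

/-- `(φ, T)` is a potential pair for the source `ρ`: `φ` is convex and `R`-Lipschitz on the whole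
space, `T` is measurable and `T x` is a (global) subgradient of `φ` at `x` for `ρ`-a.e. `x`. -/
structure IsPot (ρ : Measure (EE d)) (R : ℝ≥0) (φ : EE d → ℝ) (T : EE d → EE d) : Prop where
  convex : ConvexOn ℝ univ φ
  lip : LipschitzWith R φ
  meas : Measurable T
  subgrad : ∀ᵐ x ∂ρ, ∀ z, φ x + ⟪T x, z - x⟫_ℝ ≤ φ z

/-- The hypotheses on `K`, bundled. -/
structure IsBody (K : Set (EE d)) : Prop where
  compact : IsCompact K
  convex : Convex ℝ K
  inter : (interior K).Nonempty

/-- An admissible source: a probability measure, absolutely continuous, carried by `K`. -/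
structure IsSrc (K : Set (EE d)) (σ : Measure (EE d)) : Prop where
  prob : IsProbabilityMeasure σ
  ac : σ ≪ volume
  carried : σ Kᶜ = 0

/-- The tilted source `(1 + g) ρ`. -/
noncomputable def tilt (ρ : Measure (EE d)) (g : EE d → ℝ) : Measure (EE d) :=
  ρ.withDensity (fun x => ENNReal.ofReal (1 + g x))

section discrete
variable {ι : Type*}

/-- The piecewise affine convex potential `max_k (⟪x, y k⟫ - c k)`. -/
noncomputable def pot [Fintype ι] [Nonempty ι] (y : ι → EE d) (c : ι → ℝ) (x : EE d) : ℝ :=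
  Finset.univ.sup' Finset.univ_nonempty (fun k => ⟪x, y k⟫_ℝ - c k)

/-- The (closed) Laguerre cell of the site `k`. -/
def cell (y : ι → EE d) (c : ι → ℝ) (k : ι) : Set (EE d) :=
  {x | ∀ l, ⟪x, y l⟫_ℝ - c l ≤ ⟪x, y k⟫_ℝ - c k}

/-- The weights `c` are balanced for `(σ, y, m)`: the cell of `k` has `σ`-mass `m k`. -/
def IsBal (σ : Measure (EE d)) (y : ι → EE d) (m : ι → ℝ) (c : ι → ℝ) : Prop :=
  ∀ k, σ (cell y c k) = ENNReal.ofReal (m k)

/-- Kantorovich functional. -/
noncomputable def Phi [Fintype ι] [Nonempty ι] (σ : Measure (EE d)) (y : ι → EE d) (m : ι → ℝ)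
    (c : ι → ℝ) : ℝ :=
  ∫ x, pot y c x ∂σ + ∑ k, m k * c k

/-- Its infimum over the weights (= maximal correlation between `σ` and `∑ m k δ_{y k}`). -/
noncomputable def Dval [Fintype ι] [Nonempty ι] (σ : Measure (EE d)) (y : ι → EE d) (m : ι → ℝ) : ℝ :=
  ⨅ c : ι → ℝ, Phi σ y m c

/-- First moment of `σ` on the cell of `k` (= mass times barycentre). -/
noncomputable def mom (σ : Measure (EE d)) (y : ι → EE d) (c : ι → ℝ) (k : ι) : EE d :=
  ∫ x in cell y c k, x ∂σ

end discrete

/-- Bounded, measurable, nonnegative, boundedly supported. -/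
structure Nice {X : Type*} [MeasurableSpace X] [Norm X] (F : X → ℝ) : Prop where
  meas : Measurable F
  nonneg : ∀ x, 0 ≤ F x
  bdd : ∃ M : ℝ, ∀ x, F x ≤ M
  supp : ∃ L : ℝ, ∀ x, L < ‖x‖ → F x = 0

end Crest.Agent.S0109
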