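import Crest.Agent.S0109_Basic

/-! Row 82, package E1: pot / cell / Phi / Dval toolkit (weak duality for semi-discrete transport). -/

set_option autoImplicit false
open MeasureTheory Set Filter Topology
open scoped ENNReal NNReal InnerProductSpace
open Crest.AnalysisR.OT

namespace Crest.Agent.S0109

variable {d : ℕ}

variable {ι : Type*} [Fintype ι] [Nonempty ι]

theorem le_pot (y : ι → EE d) (c : ι → ℝ) (x : EE d) (k : ι) : ⟪x, y k⟫_ℝ - c k ≤ pot y c x :=
  Finset.le_sup' (fun k => ⟪x, y k⟫_ℝ - c k) (Finset.mem_univ k)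

theorem pot_le {y : ι → EE d} {c : ι → ℝ} {x : EE d} {a : ℝ} (h : ∀ k, ⟪x, y k⟫_ℝ - c k ≤ a) :
    pot y c x ≤ a :=
  Finset.sup'_le _ _ (fun l _ => h l)

theorem pot_eq_of_mem_cell {y : ι → EE d} {c : ι → ℝ} {x : EE d} {k : ι} (hx : x ∈ cell y c k) :
    pot y c x = ⟪x, y k⟫_ℝ - c k :=
  le_antisymm (pot_le fun l => hx l) (le_pot y c x k)

theorem exists_mem_cell (y : ι → EE d) (c : ι → ℝ) (x : EE d) : ∃ k, x ∈ cell y c k := by
  obtain ⟨k, _, hk⟩ := Finset.exists_max_image Finset.univ (fun k => ⟪x, y k⟫_ℝ - c k)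
    Finset.univ_nonempty
  exact ⟨k, fun l => hk l (Finset.mem_univ l)⟩

omit [Fintype ι] [Nonempty ι] in
theorem isClosed_cell (y : ι → EE d) (c : ι → ℝ) (k : ι) : IsClosed (cell y c k) := by
  have : cell y c k = ⋂ l, {x | ⟪x, y l⟫_ℝ - c l ≤ ⟪x, y k⟫_ℝ - c k} := by
    ext x; simp [cell]
  rw [this]
  exact isClosed_iInter fun l => isClosed_le (by fun_prop) (by fun_prop)

omit [Fintype ι] [Nonempty ι] in
theorem convex_cell (y : ι → EE d) (c : ι → ℝ) (k : ι) : Convex ℝ (cell y c k) := by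
  intro x hx z hz a b ha hb hab l
  have h1 := hx l
  have h2 := hz l
  simp only [inner_add_left, real_inner_smul_left]
  have e1 : c l = a * c l + b * c l := by rw [← add_mul, hab, one_mul]
  have e2 : c k = a * c k + b * c k := by rw [← add_mul, hab, one_mul]
  rw [e1, e2]
  nlinarith

theorem continuous_pot (y : ι → EE d) (c : ι → ℝ) : Continuous (pot y c) := by
  unfold pot
  exact Continuous.finset_sup'_apply _ (fun k _ => by fun_prop)

theorem convexOn_pot (y : ι → EE d) (c : ι → ℝ) : ConvexOn ℝ univ (pot y c) := by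
  refine ⟨convex_univ, fun x _ z _ a b ha hb hab => pot_le fun k => ?_⟩
  have h1 := le_pot y c x k
  have h2 := le_pot y c z k
  simp only [inner_add_left, real_inner_smul_left, smul_eq_mul]
  have e2 : c k = a * c k + b * c k := by rw [← add_mul, hab, one_mul]
  rw [e2]
  nlinarith

theorem lipschitzWith_pot (y : ι → EE d) (c : ι → ℝ) (R : ℝ≥0) (hR : ∀ k, ‖y k‖ ≤ R) :
    LipschitzWith R (pot y c) := by
  refine LipschitzWith.of_le_add_mul R fun x z => pot_le fun k => ?_
  have h2 := le_pot y c z k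
  have h3 : ⟪x - z, y k⟫_ℝ ≤ ‖x - z‖ * ‖y k‖ := real_inner_le_norm _ _
  have h4 : ‖x - z‖ * ‖y k‖ ≤ R * dist x z := by
    rw [dist_eq_norm, mul_comm]
    exact mul_le_mul_of_nonneg_right (hR k) (norm_nonneg _)
  rw [inner_sub_left] at h3
  linarith

/-- Changing the weights by at most `ε` (up to a common shift `τ`) moves the potential by at most `ε`. -/
theorem abs_pot_sub_le (y : ι → EE d) (c c' : ι → ℝ) (τ ε : ℝ) (h : ∀ k, |c' k - c k - τ| ≤ ε)
    (x : EE d) : |pot y c' x - pot y c x + τ| ≤ ε := by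
  rw [abs_le]
  constructor
  · have : pot y c x ≤ pot y c' x + τ + ε := pot_le fun k => by
      have h1 := le_pot y c' x k
      have h2 := (abs_le.1 (h k)).2
      linarith
    linarith
  · have : pot y c' x ≤ pot y c x - τ + ε := pot_le fun k => by
      have h1 := le_pot y c x k
      have h2 := (abs_le.1 (h k)).1
      linarith
    linarith

omit [Fintype ι] [Nonempty ι] in
/-- Two different cells meet in a null set (a hyperplane). -/
theorem measure_cell_inter {σ : Measure (EE d)} (hσ : σ ≪ volume) {y : ι → EE d}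
    (hy : Function.Injective y) (c : ι → ℝ) {k l : ι} (hkl : k ≠ l) :
    σ (cell y c k ∩ cell y c l) = 0 := by
  apply hσ
  rcases (cell y c k ∩ cell y c l).eq_empty_or_nonempty with h | ⟨x0, hx0⟩
  · rw [h]; simp
  set v : EE d := y k - y l with hv
  have hv0 : v ≠ 0 := sub_ne_zero.2 (fun h => hkl (hy h))
  set f : EE d →ₗ[ℝ] ℝ := (innerSL ℝ v).toLinearMap with hf
  have hker : LinearMap.ker f ≠ ⊤ := by
    intro htop
    have : v ∈ LinearMap.ker f := by rw [htop]; trivial
    rw [LinearMap.mem_ker] at this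
    simp only [hf, ContinuousLinearMap.coe_coe, innerSL_apply_apply] at this
    exact hv0 (inner_self_eq_zero.1 this)
  have h0 : volume (LinearMap.ker f : Set (EE d)) = 0 := Measure.addHaar_submodule volume _ hker
  have hsub : cell y c k ∩ cell y c l ⊆ (fun x => x + (-x0)) ⁻¹' (LinearMap.ker f : Set (EE d)) := by
    intro x hx
    have a1 := hx.1 l
    have a2 := hx.2 k
    have b1 := hx0.1 l
    have b2 := hx0.2 k
    simp only [mem_preimage, SetLike.mem_coe, LinearMap.mem_ker, hf, ContinuousLinearMap.coe_coe,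
      innerSL_apply_apply, hv, inner_add_right, inner_neg_right, inner_sub_left]
    rw [real_inner_comm x (y k), real_inner_comm x (y l), real_inner_comm x0 (y k),
      real_inner_comm x0 (y l)]
    linarith
  refine measure_mono_null hsub ?_
  rw [measure_preimage_add_right]
  exact h0

theorem iUnion_cell (y : ι → EE d) (c : ι → ℝ) : ⋃ k, cell y c k = univ :=
  eq_univ_of_forall fun x => mem_iUnion.2 (exists_mem_cell y c x)

omit [Fintype ι] [Nonempty ι] in
theorem measurableSet_cell (y : ι → EE d) (c : ι → ℝ) (k : ι) : MeasurableSet (cell y c k) :=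
  (isClosed_cell y c k).measurableSet

/-- Splitting an integral over the cells. -/
theorem integral_eq_sum_cell {σ : Measure (EE d)} (hσ : σ ≪ volume) {y : ι → EE d}
    (hy : Function.Injective y) (c : ι → ℝ) {F : Type*} [NormedAddCommGroup F] [NormedSpace ℝ F]
    (f : EE d → F) (hf : Integrable f σ) :
    ∫ x, f x ∂σ = ∑ k, ∫ x in cell y c k, f x ∂σ := by
  have h := integral_iUnion_ae (μ := σ) (f := f) (s := fun k => cell y c k)
    (fun k => (measurableSet_cell y c k).nullMeasurableSet)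
    (fun k l hkl => measure_cell_inter hσ hy c hkl) hf.integrableOn
  rw [iUnion_cell, setIntegral_univ, tsum_fintype] at h
  exact h

theorem IsSrc.ae_mem {K : Set (EE d)} {σ : Measure (EE d)} (hσ : IsSrc K σ) : ∀ᵐ x ∂σ, x ∈ K := by
  rw [ae_iff]
  exact hσ.carried

theorem IsSrc.integrable_of_continuous {K : Set (EE d)} (hK : IsBody K) {σ : Measure (EE d)}
    (hσ : IsSrc K σ) {F : Type*} [NormedAddCommGroup F] {f : EE d → F} (hf : Continuous f) :
    Integrable f σ := by
  have := hσ.prob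
  have h1 : σ.restrict K = σ := Measure.restrict_eq_self_of_ae_mem hσ.ae_mem
  have h2 : IntegrableOn f K σ := hf.continuousOn.integrableOn_compact hK.compact
  rwa [IntegrableOn, h1] at h2

theorem integrable_pot {K : Set (EE d)} (hK : IsBody K) {σ : Measure (EE d)} (hσ : IsSrc K σ)
    (y : ι → EE d) (c : ι → ℝ) : Integrable (pot y c) σ :=
  hσ.integrable_of_continuous hK (continuous_pot y c)

omit [Fintype ι] [Nonempty ι] in
theorem IsBal.toReal {σ : Measure (EE d)} {y : ι → EE d} {m c : ι → ℝ} (hb : IsBal σ y m c)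
    (hm : ∀ k, 0 ≤ m k) (k : ι) : (σ (cell y c k)).toReal = m k := by
  rw [hb k, ENNReal.toReal_ofReal (hm k)]

omit [Fintype ι] [Nonempty ι] in
/-- The integral of an affine function over a balanced cell. -/
theorem setIntegral_affine_cell {K : Set (EE d)} (hK : IsBody K) {σ : Measure (EE d)}
    (hσ : IsSrc K σ) {y : ι → EE d} {m c : ι → ℝ} (hb : IsBal σ y m c) (hm : ∀ k, 0 ≤ m k)
    (k : ι) (v : EE d) (a : ℝ) :
    ∫ x in cell y c k, (⟪x, v⟫_ℝ - a) ∂σ = ⟪mom σ y c k, v⟫_ℝ - m k * a := by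
  have := hσ.prob
  have hid : Integrable (fun x : EE d => x) σ := hσ.integrable_of_continuous hK continuous_id
  have h1 : Integrable (fun x : EE d => ⟪x, v⟫_ℝ) σ :=
    hσ.integrable_of_continuous hK (by fun_prop)
  rw [integral_sub h1.integrableOn (integrable_const a).integrableOn]
  congr 1
  · rw [mom, real_inner_comm, ← integral_inner hid.integrableOn v]
    exact integral_congr_ae (Eventually.of_forall fun x => real_inner_comm _ _)
  · rw [setIntegral_const, smul_eq_mul, Measure.real, hb.toReal hm k]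

/-- Weak duality: a balanced family of cells gives a lower bound for every `Phi σ y' m c'`. -/
theorem sum_inner_mom_le_Phi {K : Set (EE d)} (hK : IsBody K) {σ : Measure (EE d)} (hσ : IsSrc K σ)
    {y : ι → EE d} (hy : Function.Injective y) {m c : ι → ℝ} (hb : IsBal σ y m c) (hm : ∀ k, 0 ≤ m k)
    (y' : ι → EE d) (c' : ι → ℝ) :
    ∑ k, ⟪mom σ y c k, y' k⟫_ℝ ≤ Phi σ y' m c' := by
  have := hσ.prob
  have hp := integrable_pot hK hσ y' c'
  rw [Phi, integral_eq_sum_cell hσ.ac hy c _ hp, ← Finset.sum_add_distrib]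
  refine Finset.sum_le_sum fun k _ => ?_
  have h1 : ∫ x in cell y c k, (⟪x, y' k⟫_ℝ - c' k) ∂σ ≤ ∫ x in cell y c k, pot y' c' x ∂σ := by
    refine integral_mono ?_ hp.integrableOn fun x => le_pot y' c' x k
    exact (hσ.integrable_of_continuous hK (by fun_prop)).integrableOn
  rw [setIntegral_affine_cell hK hσ hb hm] at h1
  linarith

theorem Phi_eq_of_isBal {K : Set (EE d)} (hK : IsBody K) {σ : Measure (EE d)} (hσ : IsSrc K σ)
    {y : ι → EE d} (hy : Function.Injective y) {m c : ι → ℝ} (hb : IsBal σ y m c) (hm : ∀ k, 0 ≤ m k) :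
    Phi σ y m c = ∑ k, ⟪mom σ y c k, y k⟫_ℝ := by
  have hp := integrable_pot hK hσ y c
  rw [Phi, integral_eq_sum_cell hσ.ac hy c _ hp, ← Finset.sum_add_distrib]
  refine Finset.sum_congr rfl fun k _ => ?_
  have h1 : ∫ x in cell y c k, pot y c x ∂σ = ∫ x in cell y c k, (⟪x, y k⟫_ℝ - c k) ∂σ :=
    setIntegral_congr_fun (measurableSet_cell y c k) fun x hx => pot_eq_of_mem_cell hx
  rw [h1, setIntegral_affine_cell hK hσ hb hm]
  ring

/-- `Phi σ y m` is bounded below (as soon as `m ≥ 0`, `∑ m = 1`). -/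
theorem bddBelow_Phi {K : Set (EE d)} (hK : IsBody K) {σ : Measure (EE d)} (hσ : IsSrc K σ)
    (y : ι → EE d) {m : ι → ℝ} (hm : ∀ k, 0 ≤ m k) (hs : ∑ k, m k = 1) :
    BddBelow (range (Phi σ y m)) := by
  have := hσ.prob
  refine ⟨∫ x, ∑ k, m k * ⟪x, y k⟫_ℝ ∂σ, ?_⟩
  rintro _ ⟨c, rfl⟩
  have h1 : ∫ x, ((∑ k, m k * ⟪x, y k⟫_ℝ) - ∑ k, m k * c k) ∂σ ≤ ∫ x, pot y c x ∂σ := by
    refine integral_mono ?_ (integrable_pot hK hσ y c) fun x => ?_
    · exact hσ.integrable_of_continuous hK (by fun_prop)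
    · show (∑ k, m k * ⟪x, y k⟫_ℝ) - ∑ k, m k * c k ≤ pot y c x
      rw [← Finset.sum_sub_distrib]
      calc ∑ k, (m k * ⟪x, y k⟫_ℝ - m k * c k) ≤ ∑ k, m k * pot y c x := by
            refine Finset.sum_le_sum fun k _ => ?_
            rw [← mul_sub]
            exact mul_le_mul_of_nonneg_left (le_pot y c x k) (hm k)
        _ = pot y c x := by rw [← Finset.sum_mul, hs, one_mul]
  rw [integral_sub (hσ.integrable_of_continuous hK (by fun_prop)) (integrable_const _)] at h1
  simp only [integral_const, probReal_univ, one_smul] at h1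
  rw [Phi]
  linarith

theorem Dval_le_Phi {K : Set (EE d)} (hK : IsBody K) {σ : Measure (EE d)} (hσ : IsSrc K σ)
    (y : ι → EE d) {m : ι → ℝ} (hm : ∀ k, 0 ≤ m k) (hs : ∑ k, m k = 1) (c : ι → ℝ) :
    Dval σ y m ≤ Phi σ y m c :=
  ciInf_le (bddBelow_Phi hK hσ y hm hs) c

theorem Dval_eq_of_isBal {K : Set (EE d)} (hK : IsBody K) {σ : Measure (EE d)} (hσ : IsSrc K σ)
    {y : ι → EE d} (hy : Function.Injective y) {m c : ι → ℝ} (hb : IsBal σ y m c) (hm : ∀ k, 0 ≤ m k)
    (hs : ∑ k, m k = 1) :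
    Dval σ y m = Phi σ y m c := by
  refine le_antisymm (Dval_le_Phi hK hσ y hm hs c) (le_ciInf fun c' => ?_)
  rw [Phi_eq_of_isBal hK hσ hy hb hm]
  exact sum_inner_mom_le_Phi hK hσ hy hb hm y c'

/-- Subgradient inequality of `y ↦ Dval σ y m` at a point with balanced weights. -/
theorem Dval_subgrad {K : Set (EE d)} (hK : IsBody K) {σ : Measure (EE d)} (hσ : IsSrc K σ)
    {y : ι → EE d} (hy : Function.Injective y) {m c : ι → ℝ} (hb : IsBal σ y m c) (hm : ∀ k, 0 ≤ m k)
    (hs : ∑ k, m k = 1) (y' : ι → EE d) :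
    Dval σ y m + ∑ k, ⟪mom σ y c k, y' k - y k⟫_ℝ ≤ Dval σ y' m := by
  refine le_ciInf fun c' => ?_
  rw [Dval_eq_of_isBal hK hσ hy hb hm hs, Phi_eq_of_isBal hK hσ hy hb hm, ← Finset.sum_add_distrib]
  refine le_trans (le_of_eq ?_) (sum_inner_mom_le_Phi hK hσ hy hb hm y' c')
  refine Finset.sum_congr rfl fun k _ => ?_
  rw [inner_sub_right]
  ring

theorem IsBody.nonneg_of_subset {K : Set (EE d)} (hK : IsBody K) {D : ℝ}
    (hD : K ⊆ Metric.closedBall 0 D) : 0 ≤ D := by
  obtain ⟨x, hx⟩ := hK.inter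
  have := hD (interior_subset hx)
  rw [mem_closedBall_zero_iff] at this
  exact (norm_nonneg x).trans this

theorem Phi_le_Phi_add {K : Set (EE d)} (hK : IsBody K) {σ : Measure (EE d)} (hσ : IsSrc K σ)
    {D : ℝ} (hD : K ⊆ Metric.closedBall 0 D) (y y' : ι → EE d) (m c : ι → ℝ) :
    Phi σ y m c ≤ Phi σ y' m c + D * ∑ k, ‖y k - y' k‖ := by
  have := hσ.prob
  have hD0 := hK.nonneg_of_subset hD
  have h1 : ∫ x, pot y c x ∂σ ≤ ∫ x, (pot y' c x + D * ∑ k, ‖y k - y' k‖) ∂σ := by
    refine integral_mono_ae (integrable_pot hK hσ y c)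
      ((integrable_pot hK hσ y' c).add (integrable_const _)) ?_
    filter_upwards [hσ.ae_mem] with x hx
    refine pot_le fun k => ?_
    have hx' : ‖x‖ ≤ D := by simpa using hD hx
    have h2 := le_pot y' c x k
    have h3 : ⟪x, y k - y' k⟫_ℝ ≤ ‖x‖ * ‖y k - y' k‖ := real_inner_le_norm _ _
    have h4 : ‖x‖ * ‖y k - y' k‖ ≤ D * ‖y k - y' k‖ :=
      mul_le_mul_of_nonneg_right hx' (norm_nonneg _)
    have h5 : ‖y k - y' k‖ ≤ ∑ k, ‖y k - y' k‖ :=
      Finset.single_le_sum (f := fun k => ‖y k - y' k‖) (fun i _ => norm_nonneg _)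
        (Finset.mem_univ k)
    have h6 : D * ‖y k - y' k‖ ≤ D * ∑ k, ‖y k - y' k‖ := mul_le_mul_of_nonneg_left h5 hD0
    rw [inner_sub_right] at h3
    linarith
  rw [integral_add (integrable_pot hK hσ y' c) (integrable_const _)] at h1
  simp only [integral_const, probReal_univ, one_smul] at h1
  rw [Phi, Phi]
  linarith

/-- `y ↦ Dval σ y m` is Lipschitz. -/
theorem abs_Dval_sub_le {K : Set (EE d)} (hK : IsBody K) {σ : Measure (EE d)} (hσ : IsSrc K σ)
    {D : ℝ} (hD : K ⊆ Metric.closedBall 0 D) (y y' : ι → EE d) {m : ι → ℝ} (hm : ∀ k, 0 ≤ m k)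
    (hs : ∑ k, m k = 1) :
    |Dval σ y m - Dval σ y' m| ≤ D * ∑ k, ‖y k - y' k‖ := by
  have key : ∀ y y' : ι → EE d, Dval σ y m - D * ∑ k, ‖y k - y' k‖ ≤ Dval σ y' m := by
    intro y y'
    refine le_ciInf fun c => ?_
    have h1 := Dval_le_Phi hK hσ y hm hs c
    have h2 := Phi_le_Phi_add hK hσ hD y y' m c
    linarith
  rw [abs_le]
  constructor
  · have := key y' y
    simp only [norm_sub_rev (y' _) (y _)] at this
    linarith
  · have := key y y'
    linarith

omit [Fintype ι] [Nonempty ι] in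
theorem norm_mom_le {K : Set (EE d)} (hK : IsBody K) {σ : Measure (EE d)} (hσ : IsSrc K σ)
    {D : ℝ} (hD : K ⊆ Metric.closedBall 0 D) {y : ι → EE d} {m c : ι → ℝ} (hb : IsBal σ y m c)
    (hm : ∀ k, 0 ≤ m k) (k : ι) : ‖mom σ y c k‖ ≤ D * m k := by
  have := hσ.prob
  have h := norm_setIntegral_le_of_norm_le_const_ae (μ := σ) (s := cell y c k) (C := D)
    (f := fun x : EE d => x) (measure_lt_top σ _)
    (ae_restrict_of_ae (hσ.ae_mem.mono fun x hx => by simpa using hD hx))
  rwa [Measure.real, hb.toReal hm k] at h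

/-- Merging repeated sites does not change the value. -/
theorem Dval_comp {κ : Type*} [Fintype κ] [Nonempty κ] [DecidableEq ι]
    {K : Set (EE d)} (hK : IsBody K) {σ : Measure (EE d)}
    (hσ : IsSrc K σ) (y : ι → EE d) (r : κ → ι) (hr : Function.Surjective r) (w : κ → ℝ)
    (hw : ∀ p, 0 ≤ w p) (hs : ∑ p, w p = 1) :
    Dval σ (y ∘ r) w = Dval σ y (fun i => ∑ p with r p = i, w p) := by
  set wb : ι → ℝ := fun i => ∑ p with r p = i, w p with hwb
  have hwb0 : ∀ i, 0 ≤ wb i := fun i => Finset.sum_nonneg fun p _ => hw p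
  have hsum : ∀ f : ι → ℝ, ∑ p, w p * f (r p) = ∑ i, wb i * f i := by
    intro f
    rw [← Finset.sum_fiberwise Finset.univ r (fun p => w p * f (r p))]
    refine Finset.sum_congr rfl fun i _ => ?_
    rw [hwb, Finset.sum_mul]
    refine Finset.sum_congr rfl fun p hp => ?_
    rw [(Finset.mem_filter.1 hp).2]
  have hwbs : ∑ i, wb i = 1 := by
    have := hsum (fun _ => 1)
    simp only [mul_one] at this
    rw [← this, hs]
  apply le_antisymm
  · refine le_ciInf fun cb => ?_
    have h1 := Dval_le_Phi hK hσ (y ∘ r) hw hs (cb ∘ r)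
    have h2 : Phi σ (y ∘ r) w (cb ∘ r) = Phi σ y wb cb := by
      have e1 : pot (y ∘ r) (cb ∘ r) = pot y cb := by
        ext x
        apply le_antisymm
        · exact pot_le fun p => le_pot y cb x (r p)
        · exact pot_le fun i => by
            obtain ⟨p, rfl⟩ := hr i
            exact le_pot (y ∘ r) (cb ∘ r) x p
      rw [Phi, Phi, e1]
      congr 1
      exact hsum cb
    linarith
  · refine le_ciInf fun c => ?_
    have hne : ∀ i, (Finset.univ.filter (fun p => r p = i)).Nonempty := fun i => by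
      obtain ⟨p, hp⟩ := hr i
      exact ⟨p, by simp [hp]⟩
    set cb : ι → ℝ := fun i => (Finset.univ.filter (fun p => r p = i)).inf' (hne i) c with hcbdef
    have hcb : ∀ p, cb (r p) ≤ c p := fun p => Finset.inf'_le _ (by simp)
    have h1 := Dval_le_Phi hK hσ y hwb0 hwbs cb
    have h2 : Phi σ y wb cb ≤ Phi σ (y ∘ r) w c := by
      have e1 : pot y cb = pot (y ∘ r) c := by
        ext x
        apply le_antisymm
        · refine pot_le fun i => ?_
          obtain ⟨p, hp, hpe⟩ := Finset.exists_mem_eq_inf' (hne i) c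
          have hpi : r p = i := (Finset.mem_filter.1 hp).2
          have h := le_pot (y ∘ r) c x p
          simp only [Function.comp, hpi] at h
          have : cb i = c p := hpe
          rw [this]
          exact h
        · refine pot_le fun p => ?_
          have h3 := le_pot y cb x (r p)
          have h4 := hcb p
          simp only [Function.comp]
          linarith
      rw [Phi, Phi, e1, ← hsum cb]
      have : ∑ p, w p * cb (r p) ≤ ∑ p, w p * c p :=
        Finset.sum_le_sum fun p _ => mul_le_mul_of_nonneg_left (hcb p) (hw p)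
      linarith
    linarith

/-- Dependence of `Phi` on the source. -/
theorem Phi_tilt {K : Set (EE d)} (hK : IsBody K) {g : EE d → ℝ} (hg : Measurable g)
    (hb : ∀ x, |g x| ≤ 1 / 2) (y : ι → EE d) (m c : ι → ℝ) :
    Phi (tilt (uniformProbOn K) g) y m c =
      Phi (uniformProbOn K) y m c + ∫ x, pot y c x * g x ∂(uniformProbOn K) := by
  have hS := hK.isSrc
  have := hS.prob
  have hp := integrable_pot hK hS y c
  have hgp : Integrable (fun x => g x * pot y c x) (uniformProbOn K) :=
    hp.bdd_mul (c := 1 / 2) hg.aestronglyMeasurable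
      (Eventually.of_forall fun x => by simpa [Real.norm_eq_abs] using hb x)
  have h1 : ∫ x, (1 + g x) • pot y c x ∂(uniformProbOn K) =
      ∫ x, pot y c x ∂(uniformProbOn K) + ∫ x, pot y c x * g x ∂(uniformProbOn K) := by
    simp only [smul_eq_mul, add_mul, one_mul]
    rw [integral_add hp hgp]
    congr 1
    exact integral_congr_ae (Eventually.of_forall fun x => mul_comm _ _)
  rw [Phi, Phi, integral_tilt hg hb, h1]
  ring

end Crest.Agent.S0109
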