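import Crest.Agent.S0109_Core

/-! Row 82, package C3: stability for potential pairs whose maps take finitely many values. -/

set_option autoImplicit false
open MeasureTheory Set Filter Topology
open scoped ENNReal NNReal InnerProductSpace
open Crest.AnalysisR.OT

namespace Crest.Agent.S0109

variable {d : ℕ}

/-- A potential pair whose map has finite range is (a.e.) a balanced max-affine potential. -/
theorem finrange_data {K : Set (EE d)} (hK : IsBody K) (R : ℝ≥0) (φ : EE d → ℝ) (T : EE d → EE d)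
    (h : IsPot (uniformProbOn K) R φ T) (hf : (range T).Finite) :
    ∃ (I : Type) (_ : Fintype I) (_ : Nonempty I) (y : I → EE d) (c : I → ℝ),
      Function.Injective y ∧ (∀ i, 0 < uniformProbOn K (T ⁻¹' {y i})) ∧
      (∀ᵐ x ∂(uniformProbOn K), ∃ i, T x = y i) ∧
      (∀ᵐ x ∂(uniformProbOn K), pot y c x = φ x) ∧
      IsBal (uniformProbOn K) y (fun i => (uniformProbOn K (T ⁻¹' {y i})).toReal) c := by
  classical
  have hS := hK.isSrc
  have := hS.prob
  set ρ := uniformProbOn K with hρ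
  set S : Finset (EE d) := hf.toFinset.filter (fun v => 0 < ρ (T ⁻¹' {v})) with hSdef
  -- a.e. point is mapped into `S`
  have hae : ∀ᵐ x ∂ρ, T x ∈ S := by
    have hnull : ρ (⋃ v ∈ hf.toFinset.filter (fun v => ¬ 0 < ρ (T ⁻¹' {v})), T ⁻¹' {v}) = 0 := by
      refine (measure_biUnion_null_iff (Finset.countable_toSet _)).2 ?_
      intro v hv
      have hv' := (Finset.mem_filter.1 (Finset.mem_coe.1 hv)).2
      exact le_antisymm (not_lt.1 hv') zero_le
    rw [ae_iff]
    refine measure_mono_null ?_ hnull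
    intro x hx
    simp only [mem_ofPred_eq, hSdef, Finset.mem_filter, Set.Finite.mem_toFinset, mem_range,
      exists_apply_eq_apply, true_and] at hx
    simp only [mem_iUnion, Finset.mem_filter, Set.Finite.mem_toFinset, mem_range, mem_preimage,
      mem_singleton_iff, exists_prop]
    exact ⟨T x, ⟨⟨x, rfl⟩, hx⟩, rfl⟩
  have hne : S.Nonempty := by
    obtain ⟨x, hx⟩ := hae.exists
    exact ⟨T x, hx⟩
  have hpos : ∀ v : S, 0 < ρ (T ⁻¹' {v.1}) := fun v => (Finset.mem_filter.1 v.2).2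
  -- good points
  have hgood : ∀ v : S, ∃ x, T x = v.1 ∧ ∀ z, φ x + ⟪T x, z - x⟫_ℝ ≤ φ z := by
    intro v
    by_contra hcon
    push Not at hcon
    have : ρ (T ⁻¹' {v.1}) = 0 := by
      refine measure_mono_null ?_ (ae_iff.1 h.subgrad)
      intro x hx
      obtain ⟨z, hz⟩ := hcon x hx
      simp only [mem_ofPred_eq, not_forall, not_le]
      exact ⟨z, hz⟩
    exact (hpos v).ne' this
  choose xg hxT hxg using hgood
  have : Nonempty S := hne.to_subtype
  set y : S → EE d := fun v => v.1 with hy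
  set c : S → ℝ := fun v => ⟪xg v, v.1⟫_ℝ - φ (xg v) with hc
  have hyinj : Function.Injective y := Subtype.val_injective
  -- every affine piece is below `φ`
  have hle : ∀ (x : EE d) (l : S), ⟪x, y l⟫_ℝ - c l ≤ φ x := by
    intro x l
    have h1 := hxg l x
    rw [hxT l, inner_sub_right] at h1
    simp only [hy, hc]
    rw [real_inner_comm l.1 x, real_inner_comm l.1 (xg l)]
    linarith
  -- at a good point the piece of `T x` touches `φ`
  have heq : ∀ (x : EE d) (hx : T x ∈ S), (∀ z, φ x + ⟪T x, z - x⟫_ℝ ≤ φ z) →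
      ⟪x, y ⟨T x, hx⟩⟫_ℝ - c ⟨T x, hx⟩ = φ x := by
    intro x hx hsub
    refine le_antisymm (hle x _) ?_
    have h1 := hsub (xg ⟨T x, hx⟩)
    rw [inner_sub_right] at h1
    simp only [hy, hc]
    rw [real_inner_comm (T x) x, real_inner_comm (T x) (xg ⟨T x, hx⟩)]
    linarith
  have hcell : ∀ (x : EE d) (hx : T x ∈ S), (∀ z, φ x + ⟪T x, z - x⟫_ℝ ≤ φ z) →
      x ∈ cell y c ⟨T x, hx⟩ := by
    intro x hx hsub l
    rw [heq x hx hsub]
    exact hle x l
  refine ⟨S, inferInstance, this, y, c, hyinj, hpos, ?_, ?_, ?_⟩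
  · filter_upwards [hae] with x hx using ⟨⟨T x, hx⟩, rfl⟩
  · filter_upwards [hae, h.subgrad] with x hx hsub
    rw [pot_eq_of_mem_cell (hcell x hx hsub), heq x hx hsub]
  · intro i
    have hfin : ρ (T ⁻¹' {y i}) ≠ ∞ := measure_ne_top _ _
    rw [ENNReal.ofReal_toReal hfin]
    refine measure_congr ?_
    have hnull : ∀ᵐ x ∂ρ, ∀ j, j ≠ i → x ∉ cell y c i ∩ cell y c j := by
      rw [ae_all_iff]
      intro j
      by_cases hj : j = i
      · exact Eventually.of_forall fun x hji => absurd hj hji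
      · have := measure_cell_inter hS.ac hyinj c (k := i) (l := j) (Ne.symm hj)
        filter_upwards [measure_eq_zero_iff_ae_notMem.1 this] with x hx _ using hx
    filter_upwards [hae, h.subgrad, hnull] with x hx hsub hn
    apply propext
    constructor
    · intro hxi
      by_contra hne'
      have hji : (⟨T x, hx⟩ : S) ≠ i := by
        intro hji
        apply hne'
        show T x = y i
        rw [← hji]
      exact hn _ hji ⟨hxi, hcell x hx hsub⟩
    · intro hxi
      have hxi' : T x = y i := hxi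
      have : (⟨T x, hx⟩ : S) = i := Subtype.ext hxi'
      rw [← this]
      exact hcell x hx hsub

theorem stability_finite_range {K : Set (EE d)} (hK : IsBody K) {D : ℝ}
    (hD : K ⊆ Metric.closedBall 0 D) (R : ℝ≥0) (φ₀ φ₁ : EE d → ℝ) (T₀ T₁ : EE d → EE d)
    (h₀ : IsPot (uniformProbOn K) R φ₀ T₀) (h₁ : IsPot (uniformProbOn K) R φ₁ T₁)
    (hf₀ : (range T₀).Finite) (hf₁ : (range T₁).Finite) (γ : Measure (EE d × EE d))
    (hγ₀ : γ.map Prod.fst = uniformProbOn K) (hγ₁ : γ.map Prod.snd = uniformProbOn K) :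
    ∫ x, (φ₀ x - φ₁ x - ∫ x', (φ₀ x' - φ₁ x') ∂(uniformProbOn K)) ^ 2 ∂(uniformProbOn K)
      ≤ 400 * D ^ 2 * ∫ p, ‖T₀ p.1 - T₁ p.2‖ ^ 2 ∂γ := by
  classical
  have hS := hK.isSrc
  have := hS.prob
  obtain ⟨I, _, _, y, c, hy, hypos, hyae, hypot, hybal⟩ := finrange_data hK R φ₀ T₀ h₀ hf₀
  obtain ⟨J, _, _, z, e, hz, hzpos, hzae, hzpot, hzbal⟩ := finrange_data hK R φ₁ T₁ h₁ hf₁
  set ρ := uniformProbOn K with hρ
  have hγp : IsProbabilityMeasure γ := ⟨by
    have h1 : (γ.map Prod.fst) univ = 1 := by rw [hγ₀]; exact measure_univ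
    rwa [Measure.map_apply measurable_fst MeasurableSet.univ, preimage_univ] at h1⟩
  have hq₀ : Measure.QuasiMeasurePreserving Prod.fst γ ρ :=
    ⟨measurable_fst, by rw [hγ₀]⟩
  have hq₁ : Measure.QuasiMeasurePreserving Prod.snd γ ρ :=
    ⟨measurable_snd, by rw [hγ₁]⟩
  have hae₀ : ∀ᵐ p ∂γ, ∃ i, T₀ p.1 = y i := hq₀.ae hyae
  have hae₁ : ∀ᵐ p ∂γ, ∃ j, T₁ p.2 = z j := hq₁.ae hzae
  have hmA : ∀ i, MeasurableSet (T₀ ⁻¹' {y i}) := fun i => h₀.meas (measurableSet_singleton _)
  have hmB : ∀ j, MeasurableSet (T₁ ⁻¹' {z j}) := fun j => h₁.meas (measurableSet_singleton _)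
  set Q : I → J → Set (EE d × EE d) := fun i j => (T₀ ⁻¹' {y i}) ×ˢ (T₁ ⁻¹' {z j}) with hQ
  have hmQ : ∀ i j, MeasurableSet (Q i j) := fun i j => (hmA i).prod (hmB j)
  set w : I → J → ℝ := fun i j => (γ (Q i j)).toReal with hw
  have hw0 : ∀ i j, 0 ≤ w i j := fun i j => ENNReal.toReal_nonneg
  -- row sums
  have hrow : ∀ i, ∑ j, w i j = (ρ (T₀ ⁻¹' {y i})).toReal := by
    intro i
    have hdisj : Pairwise (Function.onFun Disjoint (Q i)) := by
      intro j j' hjj'
      refine Set.disjoint_left.2 fun p hp hp' => hjj' (hz ?_)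
      have h1 : T₁ p.2 = z j := hp.2
      have h2 : T₁ p.2 = z j' := hp'.2
      rw [← h1, h2]
    have h1 : γ (⋃ j, Q i j) = ∑ j, γ (Q i j) := by
      rw [measure_iUnion hdisj (hmQ i), tsum_fintype]
    have h2 : γ (⋃ j, Q i j) = γ (Prod.fst ⁻¹' (T₀ ⁻¹' {y i})) := by
      refine measure_congr ?_
      filter_upwards [hae₁] with p hp
      obtain ⟨j, hj⟩ := hp
      apply propext
      constructor
      · intro hpu
        obtain ⟨j', hj'⟩ := mem_iUnion.1 hpu
        exact hj'.1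
      · intro hpa
        exact mem_iUnion.2 ⟨j, hpa, hj⟩
    have h3 : γ (Prod.fst ⁻¹' (T₀ ⁻¹' {y i})) = ρ (T₀ ⁻¹' {y i}) := by
      rw [← hγ₀, Measure.map_apply measurable_fst (hmA i)]
    simp only [hw]
    rw [← ENNReal.toReal_sum (fun j _ => measure_ne_top _ _), ← h1, h2, h3]
  have hcol : ∀ j, ∑ i, w i j = (ρ (T₁ ⁻¹' {z j})).toReal := by
    intro j
    have hdisj : Pairwise (Function.onFun Disjoint (fun i => Q i j)) := by
      intro i i' hii'
      refine Set.disjoint_left.2 fun p hp hp' => hii' (hy ?_)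
      have h1 : T₀ p.1 = y i := hp.1
      have h2 : T₀ p.1 = y i' := hp'.1
      rw [← h1, h2]
    have h1 : γ (⋃ i, Q i j) = ∑ i, γ (Q i j) := by
      rw [measure_iUnion hdisj (fun i => hmQ i j), tsum_fintype]
    have h2 : γ (⋃ i, Q i j) = γ (Prod.snd ⁻¹' (T₁ ⁻¹' {z j})) := by
      refine measure_congr ?_
      filter_upwards [hae₀] with p hp
      obtain ⟨i, hi⟩ := hp
      apply propext
      constructor
      · intro hpu
        obtain ⟨i', hi'⟩ := mem_iUnion.1 hpu
        exact hi'.2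
      · intro hpa
        exact mem_iUnion.2 ⟨i, hi, hpa⟩
    have h3 : γ (Prod.snd ⁻¹' (T₁ ⁻¹' {z j})) = ρ (T₁ ⁻¹' {z j}) := by
      rw [← hγ₁, Measure.map_apply measurable_snd (hmB j)]
    simp only [hw]
    rw [← ENNReal.toReal_sum (fun i _ => measure_ne_top _ _), ← h1, h2, h3]
  have hrowpos : ∀ i, 0 < ∑ j, w i j := fun i => by
    rw [hrow i]; exact ENNReal.toReal_pos (hypos i).ne' (measure_ne_top _ _)
  have hcolpos : ∀ j, 0 < ∑ i, w i j := fun j => by
    rw [hcol j]; exact ENNReal.toReal_pos (hzpos j).ne' (measure_ne_top _ _)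
  have hc : IsBal ρ y (fun i => ∑ j, w i j) c := by
    have : (fun i => ∑ j, w i j) = fun i => (ρ (T₀ ⁻¹' {y i})).toReal := funext hrow
    rw [this]; exact hybal
  have he : IsBal ρ z (fun j => ∑ i, w i j) e := by
    have : (fun j => ∑ i, w i j) = fun j => (ρ (T₁ ⁻¹' {z j})).toReal := funext hcol
    rw [this]; exact hzbal
  have hcore := core hK hD hy hz c e w hw0 hrowpos hcolpos hc he
  -- left-hand side
  have hmean : ∫ x', (pot y c x' - pot z e x') ∂ρ = ∫ x', (φ₀ x' - φ₁ x') ∂ρ := by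
    refine integral_congr_ae ?_
    filter_upwards [hypot, hzpot] with x hx0 hx1
    rw [hx0, hx1]
  have hL : ∫ x, (pot y c x - pot z e x - ∫ x', (pot y c x' - pot z e x') ∂ρ) ^ 2 ∂ρ
      = ∫ x, (φ₀ x - φ₁ x - ∫ x', (φ₀ x' - φ₁ x') ∂ρ) ^ 2 ∂ρ := by
    rw [hmean]
    refine integral_congr_ae ?_
    filter_upwards [hypot, hzpot] with x hx0 hx1
    rw [hx0, hx1]
  -- right-hand side
  have hRr : ∫ p, ‖T₀ p.1 - T₁ p.2‖ ^ 2 ∂γ = ∑ i, ∑ j, w i j * ‖y i - z j‖ ^ 2 := by
    have h1 : ∀ᵐ p ∂γ, ‖T₀ p.1 - T₁ p.2‖ ^ 2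
        = ∑ i, ∑ j, (Q i j).indicator (fun _ => ‖y i - z j‖ ^ 2) p := by
      filter_upwards [hae₀, hae₁] with p hp0 hp1
      obtain ⟨i, hi⟩ := hp0
      obtain ⟨j, hj⟩ := hp1
      rw [Finset.sum_eq_single i, Finset.sum_eq_single j]
      · rw [indicator_of_mem (show p ∈ Q i j from ⟨hi, hj⟩), hi, hj]
      · intro j' _ hj'
        refine indicator_of_notMem (fun hp => hj' (hz ?_)) _
        have h2 : T₁ p.2 = z j' := hp.2
        rw [← h2, hj]
      · intro hj'; exact absurd (Finset.mem_univ j) hj'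
      · intro i' _ hi'
        refine Finset.sum_eq_zero fun j' _ => indicator_of_notMem (fun hp => hi' (hy ?_)) _
        have h2 : T₀ p.1 = y i' := hp.1
        rw [← h2, hi]
      · intro hi'; exact absurd (Finset.mem_univ i) hi'
    rw [integral_congr_ae h1, integral_finsetSum]
    · refine Finset.sum_congr rfl fun i _ => ?_
      rw [integral_finsetSum]
      · refine Finset.sum_congr rfl fun j _ => ?_
        rw [integral_indicator_const _ (hmQ i j)]
        simp only [hw, smul_eq_mul, Measure.real]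
      · intro j _
        exact (integrable_const _).indicator (hmQ i j)
    · intro i _
      exact integrable_finsetSum _ fun j _ => (integrable_const _).indicator (hmQ i j)
  rw [← hL, hRr]
  exact hcore

end Crest.Agent.S0109
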