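import Mathlib

set_option autoImplicit false
open MeasureTheory Set
open scoped ENNReal NNReal Pointwise

namespace Crest.Agent.S0109.PL

/-- 1-D Brunn–Minkowski for nonempty compact sets. -/
theorem bm_compact {K L : Set ℝ} (hK : IsCompact K) (hL : IsCompact L)
    (hKn : K.Nonempty) (hLn : L.Nonempty) :
    volume K + volume L ≤ volume (K + L) := by
  obtain ⟨a, haK, ha⟩ := hK.exists_isGreatest hKn
  obtain ⟨b, hbL, hb⟩ := hL.exists_isLeast hLn
  -- `K + b ⊆ (-∞, a+b]`, `a + L ⊆ [a+b, ∞)`.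
  have h1 : (fun x => x + b) '' K ⊆ K + L := by
    rintro _ ⟨x, hx, rfl⟩
    exact Set.add_mem_add hx hbL
  have h2 : (fun y => a + y) '' (L \ {b}) ⊆ K + L := by
    rintro _ ⟨y, hy, rfl⟩
    exact Set.add_mem_add haK hy.1
  have hdisj : Disjoint ((fun x => x + b) '' K) ((fun y => a + y) '' (L \ {b})) := by
    rw [Set.disjoint_left]
    rintro _ ⟨x, hx, rfl⟩ ⟨y, hy, hxy⟩
    have hxa : x ≤ a := ha hx
    have hby : b ≤ y := hb hy.1
    have hne : y ≠ b := hy.2
    have : b < y := lt_of_le_of_ne hby (Ne.symm hne)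
    simp only at hxy
    linarith
  have hm2 : MeasurableSet ((fun y => a + y) '' (L \ {b})) := by
    have : (fun y => a + y) '' (L \ {b}) = (fun y => -a + y) ⁻¹' (L \ {b}) := by
      ext z
      simp only [mem_image, mem_preimage]
      constructor
      · rintro ⟨y, hy, rfl⟩
        simpa using hy
      · intro hz
        exact ⟨-a + z, hz, by ring⟩
    rw [this]
    exact (measurable_const_add (-a)) (hL.measurableSet.diff (measurableSet_singleton b))
  have hv1 : volume ((fun x => x + b) '' K) = volume K := by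
    simp
  have hv2 : volume ((fun y => a + y) '' (L \ {b})) = volume L := by
    have : volume ((fun y => a + y) '' (L \ {b})) = volume (L \ {b}) := by
      rw [Set.image_add_left]
      exact measure_preimage_add volume (-a) _
    rw [this]
    exact measure_sdiff_null (by simp)
  calc volume K + volume L
      = volume ((fun x => x + b) '' K) + volume ((fun y => a + y) '' (L \ {b})) := by
        rw [hv1, hv2]
    _ = volume ((fun x => x + b) '' K ∪ (fun y => a + y) '' (L \ {b})) :=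
        (measure_union hdisj hm2).symm
    _ ≤ volume (K + L) := measure_mono (union_subset h1 h2)

/-- 1-D Brunn–Minkowski for nonempty measurable sets (the sumset only needs to be contained in
`C`, no measurability of the sumset is needed). -/
theorem bm_measurable {A B C : Set ℝ} (hA : MeasurableSet A) (hB : MeasurableSet B)
    (hAn : A.Nonempty) (hBn : B.Nonempty) (hC : A + B ⊆ C) :
    volume A + volume B ≤ volume C := by
  obtain ⟨a0, ha0⟩ := hAn
  obtain ⟨b0, hb0⟩ := hBn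
  -- key: for compact `K ⊆ A`, `L ⊆ B`
  have key : ∀ K L : Set ℝ, K ⊆ A → L ⊆ B → IsCompact K → IsCompact L →
      volume K + volume L ≤ volume C := by
    intro K L hKA hLB hK hL
    have hK' : IsCompact (insert a0 K) := hK.insert a0
    have hL' : IsCompact (insert b0 L) := hL.insert b0
    calc volume K + volume L ≤ volume (insert a0 K) + volume (insert b0 L) := by
          gcongr <;> exact subset_insert _ _
      _ ≤ volume (insert a0 K + insert b0 L) :=
          bm_compact hK' hL' (insert_nonempty _ _) (insert_nonempty _ _)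
      _ ≤ volume C := by
          apply measure_mono
          refine (Set.add_subset_add ?_ ?_).trans hC
          · exact insert_subset ha0 hKA
          · exact insert_subset hb0 hLB
  by_contra hcon
  rw [not_le] at hcon
  rcases eq_or_ne (volume A) 0 with h | h
  · simp only [h, zero_add] at hcon
    rcases MeasurableSet.exists_lt_isCompact hB hcon with ⟨L, hLB, hL, h'L⟩
    have := key ∅ L (empty_subset _) hLB isCompact_empty hL
    simp only [measure_empty, zero_add] at this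
    exact absurd this (not_le.2 h'L)
  rcases eq_or_ne (volume B) 0 with h' | h'
  · simp only [h', add_zero] at hcon
    rcases MeasurableSet.exists_lt_isCompact hA hcon with ⟨K, hKA, hK, h'K⟩
    have := key K ∅ hKA (empty_subset _) hK isCompact_empty
    simp only [measure_empty, add_zero] at this
    exact absurd this (not_le.2 h'K)
  rcases ENNReal.exists_lt_add_of_lt_add hcon h h' with ⟨u, hu, v, hv, huv⟩
  rcases MeasurableSet.exists_lt_isCompact hA hu with ⟨K, hKA, hK, h'K⟩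
  rcases MeasurableSet.exists_lt_isCompact hB hv with ⟨L, hLB, hL, h'L⟩
  have := key K L hKA hLB hK hL
  exact absurd (huv.trans_le ((add_le_add h'K.le h'L.le).trans this)) (lt_irrefl _)

/-- truncated super-level sets -/
def lev {α : Type*} (φ : α → ℝ≥0∞) (t : ℝ) : Set α := {x | t < (min (φ x) 1).toReal}

theorem mem_lev {α : Type*} (φ : α → ℝ≥0∞) {t : ℝ} (ht : 0 ≤ t) (x : α) :
    x ∈ lev φ t ↔ ENNReal.ofReal t < φ x ∧ t < 1 := by
  unfold lev
  simp only [Set.mem_ofPred_eq]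
  have hfin : min (φ x) 1 ≠ ∞ := ne_top_of_le_ne_top ENNReal.one_ne_top (min_le_right _ _)
  rw [← ENNReal.ofReal_lt_iff_lt_toReal ht hfin, lt_min_iff]
  constructor
  · rintro ⟨h1, h2⟩
    refine ⟨h1, ?_⟩
    by_contra hcon
    rw [not_lt] at hcon
    have : (1 : ℝ≥0∞) ≤ ENNReal.ofReal t := by
      rw [← ENNReal.ofReal_one]; exact ENNReal.ofReal_le_ofReal hcon
    exact absurd h2 (not_lt.2 this)
  · rintro ⟨h1, h2⟩
    refine ⟨h1, ?_⟩
    rw [← ENNReal.ofReal_one]
    exact (ENNReal.ofReal_lt_ofReal_iff one_pos).2 h2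

theorem measurableSet_lev {α : Type*} [MeasurableSpace α] {φ : α → ℝ≥0∞} (hφ : Measurable φ)
    (t : ℝ) : MeasurableSet (lev φ t) := by
  unfold lev
  exact measurableSet_lt measurable_const (hφ.min measurable_const).ennreal_toReal

theorem lintegral_lev {α : Type*} [MeasurableSpace α] (μ : Measure α) {φ : α → ℝ≥0∞}
    (hφ : Measurable φ) :
    ∫⁻ t in Ioi (0 : ℝ), μ (lev φ t) = ∫⁻ x, min (φ x) 1 ∂μ := by
  have h := lintegral_eq_lintegral_meas_lt μ (f := fun x => (min (φ x) 1).toReal)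
    (Filter.Eventually.of_forall fun x => ENNReal.toReal_nonneg)
    (hφ.min measurable_const).ennreal_toReal.aemeasurable
  unfold lev
  rw [← h]
  apply lintegral_congr
  intro x
  exact ENNReal.ofReal_toReal
    (ne_top_of_le_ne_top ENNReal.one_ne_top (min_le_right _ _))

theorem measurable_measure_lev {α : Type*} [MeasurableSpace α] (μ : Measure α) (φ : α → ℝ≥0∞) :
    Measurable (fun t : ℝ => μ (lev φ t)) := by
  apply Antitone.measurable
  intro s t hst
  apply measure_mono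
  intro x hx
  exact lt_of_le_of_lt hst hx

/-- normalised 1-D Prékopa–Leindler -/
theorem pl1_norm {f g h : ℝ → ℝ≥0∞} (hf : Measurable f) (hg : Measurable g) (hh : Measurable h)
    (H : ∀ x y, f x * g y ≤ h ((1 / 2 : ℝ) * (x + y)) ^ 2)
    (hf1 : ⨆ x, f x = 1) (hg1 : ⨆ x, g x = 1) :
    (∫⁻ x, f x) + ∫⁻ x, g x ≤ 2 * ∫⁻ x, h x := by
  have key : ∀ t : ℝ, 0 < t → volume (lev f t) + volume (lev g t) ≤ 2 * volume (lev h t) := by
    intro t ht
    by_cases ht1 : t < 1
    · have hlt : ENNReal.ofReal t < 1 := by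
        rw [← ENNReal.ofReal_one]
        exact (ENNReal.ofReal_lt_ofReal_iff one_pos).2 ht1
      have hAn : (lev f t).Nonempty := by
        rw [← hf1, lt_iSup_iff] at hlt
        obtain ⟨x, hx⟩ := hlt
        exact ⟨x, (mem_lev f ht.le x).2 ⟨hx, ht1⟩⟩
      have hBn : (lev g t).Nonempty := by
        rw [← hg1, lt_iSup_iff] at hlt
        obtain ⟨x, hx⟩ := hlt
        exact ⟨x, (mem_lev g ht.le x).2 ⟨hx, ht1⟩⟩
      have hC : lev f t + lev g t ⊆ (fun z : ℝ => (1 / 2 : ℝ) * z) ⁻¹' (lev h t) := by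
        rintro _ ⟨x, hx, y, hy, rfl⟩
        rw [mem_preimage, mem_lev h ht.le]
        refine ⟨?_, ht1⟩
        have hx' := ((mem_lev f ht.le x).1 hx).1
        have hy' := ((mem_lev g ht.le y).1 hy).1
        have h1 : ENNReal.ofReal t * ENNReal.ofReal t < f x * g y :=
          ENNReal.mul_lt_mul hx' hy'
        have h2 : ENNReal.ofReal t ^ 2 < h ((1 / 2 : ℝ) * (x + y)) ^ 2 := by
          rw [sq]; exact h1.trans_le (H x y)
        exact lt_of_not_ge fun hle => absurd (pow_le_pow_left' hle 2) (not_le.2 h2)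
      have hbm := bm_measurable (measurableSet_lev hf t) (measurableSet_lev hg t) hAn hBn hC
      rw [Real.volume_preimage_mul_left (by norm_num : (1 / 2 : ℝ) ≠ 0)] at hbm
      have : ENNReal.ofReal |(1 / 2 : ℝ)⁻¹| = 2 := by
        norm_num
      rwa [this] at hbm
    · have e1 : lev f t = ∅ := by
        ext x; simp only [mem_lev f ht.le x, mem_empty_iff_false, iff_false, not_and]
        intro _; exact ht1
      have e2 : lev g t = ∅ := by
        ext x; simp only [mem_lev g ht.le x, mem_empty_iff_false, iff_false, not_and]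
        intro _; exact ht1
      simp [e1, e2]
  have hfle : ∀ x, f x ≤ 1 := fun x => hf1 ▸ le_iSup f x
  have hgle : ∀ x, g x ≤ 1 := fun x => hg1 ▸ le_iSup g x
  calc (∫⁻ x, f x) + ∫⁻ x, g x
      = (∫⁻ x, min (f x) 1) + ∫⁻ x, min (g x) 1 := by
        congr 1 <;> · apply lintegral_congr; intro x; simp [hfle x, hgle x]
    _ = (∫⁻ t in Ioi (0 : ℝ), volume (lev f t)) + ∫⁻ t in Ioi (0 : ℝ), volume (lev g t) := by
        rw [lintegral_lev volume hf, lintegral_lev volume hg]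
    _ = ∫⁻ t in Ioi (0 : ℝ), (volume (lev f t) + volume (lev g t)) :=
        (lintegral_add_left (measurable_measure_lev volume f) _).symm
    _ ≤ ∫⁻ t in Ioi (0 : ℝ), 2 * volume (lev h t) := by
        apply setLIntegral_mono' measurableSet_Ioi
        intro t ht
        exact key t ht
    _ = 2 * ∫⁻ t in Ioi (0 : ℝ), volume (lev h t) :=
        lintegral_const_mul _ (measurable_measure_lev volume h)
    _ = 2 * ∫⁻ x, min (h x) 1 := by rw [lintegral_lev volume hh]
    _ ≤ 2 * ∫⁻ x, h x := by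
        gcongr with x
        exact min_le_left _ _

theorem four_mul_le_sq_add (a b : ℝ≥0∞) : 4 * (a * b) ≤ (a + b) ^ 2 := by
  rcases eq_or_ne a ∞ with rfl | ha
  · simp
  rcases eq_or_ne b ∞ with rfl | hb
  · simp
  lift a to ℝ≥0 using ha
  lift b to ℝ≥0 using hb
  have h : (4 * ((a : ℝ) * b)) ≤ ((a : ℝ) + b) ^ 2 := by nlinarith [sq_nonneg ((a : ℝ) - b)]
  have h' : 4 * (a * b) ≤ (a + b) ^ 2 := by exact_mod_cast h
  exact_mod_cast h'

/-- 1-D Prékopa–Leindler for bounded `f`, `g`. -/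
theorem pl1_bdd {f g h : ℝ → ℝ≥0∞} (hf : Measurable f) (hg : Measurable g) (hh : Measurable h)
    (H : ∀ x y, f x * g y ≤ h ((1 / 2 : ℝ) * (x + y)) ^ 2)
    (hF : ⨆ x, f x ≠ ∞) (hG : ⨆ x, g x ≠ ∞) :
    (∫⁻ x, f x) * ∫⁻ x, g x ≤ (∫⁻ x, h x) ^ 2 := by
  set F := ⨆ x, f x with hFdef
  set G := ⨆ x, g x with hGdef
  rcases eq_or_ne F 0 with hF0 | hF0
  · have : ∀ x, f x = 0 := fun x => le_antisymm (hF0 ▸ le_iSup f x) zero_le
    simp [this]
  rcases eq_or_ne G 0 with hG0 | hG0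
  · have : ∀ x, g x = 0 := fun x => le_antisymm (hG0 ▸ le_iSup g x) zero_le
    simp [this]
  set u : ℝ≥0∞ := F⁻¹ * G⁻¹ with hu
  have hu0 : u ≠ 0 := mul_ne_zero (ENNReal.inv_ne_zero.2 hF) (ENNReal.inv_ne_zero.2 hG)
  have hut : u ≠ ∞ := ENNReal.mul_ne_top (ENNReal.inv_ne_top.2 hF0) (ENNReal.inv_ne_top.2 hG0)
  set k : ℝ≥0∞ := ENNReal.ofReal (Real.sqrt u.toReal) with hk
  have hk2 : k ^ 2 = u := by
    rw [hk, ← ENNReal.ofReal_pow (Real.sqrt_nonneg _), Real.sq_sqrt ENNReal.toReal_nonneg,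
      ENNReal.ofReal_toReal hut]
  have H' : ∀ x y, (F⁻¹ * f x) * (G⁻¹ * g y) ≤ (k * h ((1 / 2 : ℝ) * (x + y))) ^ 2 := by
    intro x y
    calc (F⁻¹ * f x) * (G⁻¹ * g y) = u * (f x * g y) := by rw [hu]; ring
      _ ≤ u * h ((1 / 2 : ℝ) * (x + y)) ^ 2 := by gcongr; exact H x y
      _ = (k * h ((1 / 2 : ℝ) * (x + y))) ^ 2 := by rw [mul_pow, hk2]
  have hf1 : ⨆ x, F⁻¹ * f x = 1 := by
    rw [← ENNReal.mul_iSup, ← hFdef]; exact ENNReal.inv_mul_cancel hF0 hF
  have hg1 : ⨆ x, G⁻¹ * g x = 1 := by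
    rw [← ENNReal.mul_iSup, ← hGdef]; exact ENNReal.inv_mul_cancel hG0 hG
  have hn := pl1_norm (hf.const_mul F⁻¹) (hg.const_mul G⁻¹) (hh.const_mul k) H' hf1 hg1
  rw [lintegral_const_mul _ hf, lintegral_const_mul _ hg, lintegral_const_mul _ hh] at hn
  set If := ∫⁻ x, f x
  set Ig := ∫⁻ x, g x
  set Ih := ∫⁻ x, h x
  have h4 : 4 * ((F⁻¹ * If) * (G⁻¹ * Ig)) ≤ 4 * (k * Ih) ^ 2 := by
    calc 4 * ((F⁻¹ * If) * (G⁻¹ * Ig)) ≤ (F⁻¹ * If + G⁻¹ * Ig) ^ 2 := four_mul_le_sq_add _ _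
      _ ≤ (2 * (k * Ih)) ^ 2 := by gcongr
      _ = 4 * (k * Ih) ^ 2 := by rw [mul_pow]; norm_num
  have h5 : (F⁻¹ * If) * (G⁻¹ * Ig) ≤ (k * Ih) ^ 2 :=
    (ENNReal.mul_le_mul_iff_right (by norm_num) (by norm_num)).1 h4
  have h6 : u * (If * Ig) ≤ u * Ih ^ 2 := by
    calc u * (If * Ig) = (F⁻¹ * If) * (G⁻¹ * Ig) := by rw [hu]; ring
      _ ≤ (k * Ih) ^ 2 := h5
      _ = u * Ih ^ 2 := by rw [mul_pow, hk2]
  exact (ENNReal.mul_le_mul_iff_right hu0 hut).1 h6

theorem iSup_min_natCast (a : ℝ≥0∞) : ⨆ n : ℕ, min a (n : ℝ≥0∞) = a := by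
  have : ⨆ n : ℕ, min a (n : ℝ≥0∞) = min a (⨆ n : ℕ, (n : ℝ≥0∞)) := (inf_iSup_eq _ _).symm
  rw [this, ENNReal.iSup_natCast]
  simp

theorem lintegral_eq_iSup_min {α : Type*} [MeasurableSpace α] (μ : Measure α) {f : α → ℝ≥0∞}
    (hf : Measurable f) : ∫⁻ x, f x ∂μ = ⨆ n : ℕ, ∫⁻ x, min (f x) (n : ℝ≥0∞) ∂μ := by
  rw [← lintegral_iSup (fun n => hf.min measurable_const)]
  · simp_rw [iSup_min_natCast]
  · intro m n hmn x
    exact min_le_min le_rfl (by exact_mod_cast hmn)

/-- 1-D Prékopa–Leindler (`θ = 1/2`), `ℝ≥0∞`-valued measurable functions. -/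
theorem pl1 {f g h : ℝ → ℝ≥0∞} (hf : Measurable f) (hg : Measurable g) (hh : Measurable h)
    (H : ∀ x y, f x * g y ≤ h ((1 / 2 : ℝ) * (x + y)) ^ 2) :
    (∫⁻ x, f x) * ∫⁻ x, g x ≤ (∫⁻ x, h x) ^ 2 := by
  rw [lintegral_eq_iSup_min volume hf, lintegral_eq_iSup_min volume hg, ENNReal.iSup_mul]
  refine iSup_le fun n => ?_
  rw [ENNReal.mul_iSup]
  refine iSup_le fun m => ?_
  apply pl1_bdd (hf.min measurable_const) (hg.min measurable_const) hh
  · intro x y
    exact (mul_le_mul' (min_le_left _ _) (min_le_left _ _)).trans (H x y)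
  · exact ne_top_of_le_ne_top (ENNReal.natCast_ne_top n) (iSup_le fun x => min_le_right _ _)
  · exact ne_top_of_le_ne_top (ENNReal.natCast_ne_top m) (iSup_le fun x => min_le_right _ _)

/-- Prékopa–Leindler (`θ = 1/2`) on `Fin d → ℝ`. -/
theorem pl_pi (d : ℕ) : ∀ {f g h : (Fin d → ℝ) → ℝ≥0∞}, Measurable f → Measurable g →
    Measurable h → (∀ x y, f x * g y ≤ h ((1 / 2 : ℝ) • (x + y)) ^ 2) →
    (∫⁻ x, f x) * ∫⁻ x, g x ≤ (∫⁻ x, h x) ^ 2 := by
  induction d with
  | zero =>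
    intro f g h hf hg hh H
    rw [Measure.volume_pi_eq_dirac (0 : Fin 0 → ℝ), lintegral_dirac' _ hf, lintegral_dirac' _ hg,
      lintegral_dirac' _ hh]
    have := H 0 0
    rwa [Subsingleton.elim ((1 / 2 : ℝ) • ((0 : Fin 0 → ℝ) + 0)) 0] at this
  | succ d ih =>
    intro f g h hf hg hh H
    set e := MeasurableEquiv.piFinSuccAbove (fun _ : Fin (d + 1) => ℝ) 0 with he
    have mp : MeasurePreserving e.symm (volume.prod volume) volume :=
      (volume_preserving_piFinSuccAbove (fun _ : Fin (d + 1) => ℝ) 0).symm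
    have hlin : ∀ (s t : ℝ) (x y : Fin d → ℝ),
        (1 / 2 : ℝ) • (e.symm (s, x) + e.symm (t, y))
          = e.symm ((1 / 2 : ℝ) * (s + t), (1 / 2 : ℝ) • (x + y)) := by
      intro s t x y
      funext i
      refine Fin.cases ?_ (fun j => ?_) i
      · simp [he, MeasurableEquiv.piFinSuccAbove_symm_apply, Fin.insertNthEquiv]
      · simp [he, MeasurableEquiv.piFinSuccAbove_symm_apply, Fin.insertNthEquiv, mul_add]
    have hint : ∀ φ : (Fin (d + 1) → ℝ) → ℝ≥0∞, Measurable φ →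
        ∫⁻ x, φ x = ∫⁻ s : ℝ, ∫⁻ x : Fin d → ℝ, φ (e.symm (s, x)) := by
      intro φ hφ
      rw [← mp.lintegral_comp hφ]
      exact lintegral_prod _ (hφ.comp e.symm.measurable).aemeasurable
    have hmeas : ∀ φ : (Fin (d + 1) → ℝ) → ℝ≥0∞, Measurable φ →
        Measurable (fun s : ℝ => ∫⁻ x : Fin d → ℝ, φ (e.symm (s, x))) := by
      intro φ hφ
      exact (hφ.comp e.symm.measurable).lintegral_prod_right'
    have hsec : ∀ φ : (Fin (d + 1) → ℝ) → ℝ≥0∞, Measurable φ → ∀ s : ℝ,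
        Measurable (fun x : Fin d → ℝ => φ (e.symm (s, x))) := by
      intro φ hφ s
      exact (hφ.comp e.symm.measurable).comp measurable_prodMk_left
    rw [hint f hf, hint g hg, hint h hh]
    apply pl1 (hmeas f hf) (hmeas g hg) (hmeas h hh)
    intro s t
    apply ih (hsec f hf s) (hsec g hg t) (hsec h hh _)
    intro x y
    rw [← hlin]
    exact H _ _

/-- Prékopa–Leindler (`θ = 1/2`) on `EuclideanSpace ℝ (Fin d)`. -/
theorem pl_euclid {d : ℕ} {f g h : EuclideanSpace ℝ (Fin d) → ℝ≥0∞} (hf : Measurable f)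
    (hg : Measurable g) (hh : Measurable h)
    (H : ∀ x y, f x * g y ≤ h ((1 / 2 : ℝ) • (x + y)) ^ 2) :
    (∫⁻ x, f x) * ∫⁻ x, g x ≤ (∫⁻ x, h x) ^ 2 := by
  have mp := PiLp.volume_preserving_toLp (Fin d)
  rw [← mp.lintegral_comp hf, ← mp.lintegral_comp hg, ← mp.lintegral_comp hh]
  apply pl_pi d (hf.comp mp.measurable) (hg.comp mp.measurable) (hh.comp mp.measurable)
  intro x y
  have := H (WithLp.toLp 2 x) (WithLp.toLp 2 y)
  simpa using this

end Crest.Agent.S0109.PL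

namespace Crest.Agent.S0109

open MeasureTheory
open scoped ENNReal

/-- PL1: one-dimensional Brunn–Minkowski in the form needed. -/
theorem bm_real {A B S : Set ℝ} (hA : MeasurableSet A) (hB : MeasurableSet B) (hS : MeasurableSet S)
    (hAn : A.Nonempty) (hBn : B.Nonempty) (H : ∀ x ∈ A, ∀ y ∈ B, (x + y) / 2 ∈ S) :
    volume A + volume B ≤ 2 * volume S := by
  have hC : A + B ⊆ (fun z : ℝ => (1 / 2 : ℝ) * z) ⁻¹' S := by
    rintro _ ⟨x, hx, y, hy, rfl⟩
    have := H x hx y hy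
    rw [Set.mem_preimage]
    convert this using 1
    ring
  have hbm := PL.bm_measurable hA hB hAn hBn hC
  rw [Real.volume_preimage_mul_left (by norm_num : (1 / 2 : ℝ) ≠ 0)] at hbm
  have : ENNReal.ofReal |(1 / 2 : ℝ)⁻¹| = 2 := by
    norm_num
  rwa [this] at hbm

/-- PL2: Prékopa–Leindler on `ℝ`. -/
theorem pl_real {f g h : ℝ → ℝ≥0∞} (hf : Measurable f) (hg : Measurable g) (hh : Measurable h)
    (H : ∀ x y, f x * g y ≤ h ((x + y) / 2) ^ 2) :
    (∫⁻ x, f x) * (∫⁻ x, g x) ≤ (∫⁻ x, h x) ^ 2 := by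
  apply PL.pl1 hf hg hh
  intro x y
  have := H x y
  rwa [show (x + y) / 2 = (1 / 2 : ℝ) * (x + y) by ring] at this

/-- PL3: Prékopa–Leindler on `Fin n → ℝ`. -/
theorem pl_pi (n : ℕ) {f g h : (Fin n → ℝ) → ℝ≥0∞} (hf : Measurable f) (hg : Measurable g)
    (hh : Measurable h) (H : ∀ x y, f x * g y ≤ h ((1 / 2 : ℝ) • (x + y)) ^ 2) :
    (∫⁻ x, f x) * (∫⁻ x, g x) ≤ (∫⁻ x, h x) ^ 2 :=
  PL.pl_pi n hf hg hh H

/-- PL4: Prékopa–Leindler on `EuclideanSpace ℝ (Fin n)`. -/
theorem pl_euclid (n : ℕ) {f g h : EuclideanSpace ℝ (Fin n) → ℝ≥0∞} (hf : Measurable f)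
    (hg : Measurable g) (hh : Measurable h)
    (H : ∀ x y, f x * g y ≤ h ((1 / 2 : ℝ) • (x + y)) ^ 2) :
    (∫⁻ x, f x) * (∫⁻ x, g x) ≤ (∫⁻ x, h x) ^ 2 :=
  PL.pl_euclid hf hg hh H

end Crest.Agent.S0109
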