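import Crest.Agent.S0109_Dual

/-! Row 82, package E2: existence of balanced Laguerre weights (finite-dimensional minimisation). -/

set_option autoImplicit false
open MeasureTheory Set Filter Topology
open scoped ENNReal NNReal InnerProductSpace
open Crest.AnalysisR.OT

namespace Crest.Agent.S0109

variable {d : ℕ}

variable {ι : Type*} [Fintype ι] [Nonempty ι]

namespace SD

theorem pot_le {y : ι → EE d} {c : ι → ℝ} {x : EE d} {a : ℝ}
    (h : ∀ l, ⟪x, y l⟫_ℝ - c l ≤ a) : pot y c x ≤ a := by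
  unfold pot
  exact Finset.sup'_le _ _ (fun l _ => h l)

theorem pot_add_const (y : ι → EE d) (c : ι → ℝ) (t : ℝ) (x : EE d) :
    pot y (fun k => c k + t) x = pot y c x - t := by
  have h := abs_pot_sub_le y c (fun k => c k + t) t 0 (by intro k; simp) x
  have h2 : pot y (fun k => c k + t) x - pot y c x + t = 0 :=
    abs_eq_zero.mp (le_antisymm h (abs_nonneg _))
  linarith

theorem Phi_add_const {K : Set (EE d)} (hK : IsBody K) {σ : Measure (EE d)} (hσ : IsSrc K σ)
    (y : ι → EE d) {m : ι → ℝ} (hs : ∑ k, m k = 1) (c : ι → ℝ) (t : ℝ) :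
    Phi σ y m (fun k => c k + t) = Phi σ y m c := by
  have := hσ.prob
  unfold Phi
  simp_rw [pot_add_const]
  rw [integral_sub (integrable_pot hK hσ y c) (integrable_const t)]
  simp only [integral_const, mul_add, Finset.sum_add_distrib, ← Finset.sum_mul, hs]
  simp

theorem ae_mem {K : Set (EE d)} {σ : Measure (EE d)} (hσ : IsSrc K σ) : ∀ᵐ x ∂σ, x ∈ K := by
  have := hσ.carried
  rw [measure_eq_zero_iff_ae_notMem] at this
  filter_upwards [this] with x hx
  simpa using hx

theorem abs_Phi_sub_le {K : Set (EE d)} (hK : IsBody K) {σ : Measure (EE d)} (hσ : IsSrc K σ)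
    (y : ι → EE d) {m : ι → ℝ} (hm : ∀ k, 0 ≤ m k) (hs : ∑ k, m k = 1) (c c' : ι → ℝ) (ε : ℝ)
    (h : ∀ k, |c' k - c k| ≤ ε) :
    |Phi σ y m c' - Phi σ y m c| ≤ 2 * ε := by
  have := hσ.prob
  unfold Phi
  have h1 : |∫ x, pot y c' x ∂σ - ∫ x, pot y c x ∂σ| ≤ ε := by
    rw [← integral_sub (integrable_pot hK hσ y c') (integrable_pot hK hσ y c)]
    have := norm_integral_le_of_norm_le_const (μ := σ) (f := fun x => pot y c' x - pot y c x)
      (C := ε) (Eventually.of_forall (fun x => by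
        have := abs_pot_sub_le y c c' 0 ε (by simpa using h) x
        simpa using this))
    simpa using this
  have h2 : |∑ k, m k * c' k - ∑ k, m k * c k| ≤ ε := by
    rw [← Finset.sum_sub_distrib]
    calc |∑ k, (m k * c' k - m k * c k)| ≤ ∑ k, |m k * c' k - m k * c k| :=
          Finset.abs_sum_le_sum_abs _ _
      _ ≤ ∑ k, m k * ε := by
          apply Finset.sum_le_sum
          intro k _
          rw [← mul_sub, abs_mul, abs_of_nonneg (hm k)]
          exact mul_le_mul_of_nonneg_left (h k) (hm k)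
      _ = ε := by rw [← Finset.sum_mul, hs, one_mul]
  have h3 : (∫ x, pot y c' x ∂σ + ∑ k, m k * c' k) - (∫ x, pot y c x ∂σ + ∑ k, m k * c k)
      = (∫ x, pot y c' x ∂σ - ∫ x, pot y c x ∂σ) + (∑ k, m k * c' k - ∑ k, m k * c k) := by ring
  rw [h3]
  calc _ ≤ _ := abs_add_le _ _
    _ ≤ 2 * ε := by linarith

theorem continuous_Phi {K : Set (EE d)} (hK : IsBody K) {σ : Measure (EE d)} (hσ : IsSrc K σ)
    (y : ι → EE d) {m : ι → ℝ} (hm : ∀ k, 0 ≤ m k) (hs : ∑ k, m k = 1) :
    Continuous (Phi σ y m) := by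
  have : LipschitzWith 2 (Phi σ y m) := by
    apply LipschitzWith.of_dist_le_mul
    intro c' c
    rw [Real.dist_eq]
    have := abs_Phi_sub_le hK hσ y hm hs c c' (dist c' c) (fun k => by
      have := dist_le_pi_dist c' c k
      rwa [Real.dist_eq] at this)
    simpa using this
  exact this.continuous

/-- A global minimiser of the Kantorovich functional exists. -/
theorem exists_min {K : Set (EE d)} (hK : IsBody K) {σ : Measure (EE d)} (hσ : IsSrc K σ)
    (y : ι → EE d) {m : ι → ℝ} (hm : ∀ k, 0 < m k) (hs : ∑ k, m k = 1) :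
    ∃ c : ι → ℝ, ∀ c', Phi σ y m c ≤ Phi σ y m c' := by
  have := hσ.prob
  obtain ⟨D, hD⟩ := hK.compact.isBounded.subset_closedBall (0 : EE d)
  obtain ⟨x0, hx0⟩ := hK.inter
  have hD0 : 0 ≤ D := by
    have := hD (interior_subset hx0)
    simp only [Metric.mem_closedBall, dist_zero_right] at this
    exact le_trans (norm_nonneg _) this
  set R : ℝ := ∑ k, ‖y k‖ with hR
  have hyR : ∀ k, ‖y k‖ ≤ R := fun k =>
    Finset.single_le_sum (f := fun k => ‖y k‖) (fun _ _ => norm_nonneg _) (Finset.mem_univ k)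
  have hR0 : 0 ≤ R := le_trans (norm_nonneg _) (hyR (Classical.arbitrary ι))
  have hin : ∀ x ∈ K, ∀ k, |⟪x, y k⟫_ℝ| ≤ D * R := by
    intro x hx k
    have h1 : ‖x‖ ≤ D := by simpa using hD hx
    calc |⟪x, y k⟫_ℝ| ≤ ‖x‖ * ‖y k‖ := abs_real_inner_le_norm _ _
      _ ≤ D * R := mul_le_mul h1 (hyR k) (norm_nonneg _) hD0
  -- upper bound at 0
  have hzero : Phi σ y m 0 ≤ D * R := by
    unfold Phi
    have h1 : ∫ x, pot y 0 x ∂σ ≤ ∫ _x, D * R ∂σ := by
      apply integral_mono_ae (integrable_pot hK hσ y 0) (integrable_const _)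
      filter_upwards [ae_mem hσ] with x hx
      apply pot_le
      intro l
      have := (abs_le.mp (hin x hx l)).2
      simpa using this
    simp only [integral_const, probReal_univ, smul_eq_mul, one_mul] at h1
    simpa using h1
  -- lower bound
  have hlow : ∀ c : ι → ℝ, (∀ k, 0 ≤ c k) → (∃ k0, c k0 = 0) → ∀ j, - (D * R) + m j * c j ≤ Phi σ y m c := by
    intro c hc ⟨k0, hk0⟩ j
    unfold Phi
    have h1 : ∫ _x, - (D * R) ∂σ ≤ ∫ x, pot y c x ∂σ := by
      apply integral_mono_ae (integrable_const _) (integrable_pot hK hσ y c)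
      filter_upwards [ae_mem hσ] with x hx
      have h2 := le_pot y c x k0
      have h3 := (abs_le.mp (hin x hx k0)).1
      rw [hk0] at h2
      linarith
    simp only [integral_const, probReal_univ, smul_eq_mul, one_mul] at h1
    have h2 : m j * c j ≤ ∑ k, m k * c k :=
      Finset.single_le_sum (f := fun k => m k * c k) (fun k _ => mul_nonneg (hm k).le (hc k))
        (Finset.mem_univ j)
    linarith
  set B : ι → ℝ := fun j => (2 * (D * R) + 1) / m j with hB
  have hB0 : ∀ j, 0 ≤ B j := fun j => div_nonneg (by positivity) (hm j).le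
  obtain ⟨c, hcmem, hcmin⟩ := (isCompact_Icc (a := (0 : ι → ℝ)) (b := B)).exists_isMinOn
    ⟨0, le_refl _, fun j => hB0 j⟩ (continuous_Phi hK hσ y (fun k => (hm k).le) hs).continuousOn
  refine ⟨c, fun c' => ?_⟩
  obtain ⟨k0, hk0⟩ := Finite.exists_min c'
  set c'' : ι → ℝ := fun k => c' k + (- c' k0) with hc''
  have e1 : Phi σ y m c'' = Phi σ y m c' := Phi_add_const hK hσ y hs c' _
  have hpos : ∀ k, 0 ≤ c'' k := fun k => by simp only [hc'']; linarith [hk0 k]
  rw [← e1]
  by_cases hbox : c'' ∈ Icc (0 : ι → ℝ) B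
  · exact hcmin hbox
  · have : ∃ j, B j < c'' j := by
      by_contra hcon
      push Not at hcon
      exact hbox ⟨fun k => hpos k, fun k => hcon k⟩
    obtain ⟨j, hj⟩ := this
    have h1 := hlow c'' hpos ⟨k0, by simp [hc'']⟩ j
    have h2 : 2 * (D * R) + 1 < m j * c'' j := by
      have := mul_lt_mul_of_pos_left hj (hm j)
      simp only [hB] at this
      rwa [mul_div_cancel₀ _ (hm j).ne'] at this
    have h3 : Phi σ y m c ≤ Phi σ y m 0 := hcmin ⟨le_refl _, fun j => hB0 j⟩
    linarith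

/-- The shrunk cell. -/
def V (y : ι → EE d) (c : ι → ℝ) (k : ι) (ε : ℝ) : Set (EE d) :=
  {x | ∀ l, l ≠ k → ⟪x, y l⟫_ℝ - c l ≤ ⟪x, y k⟫_ℝ - c k - ε}

theorem measurableSet_V (y : ι → EE d) (c : ι → ℝ) (k : ι) (ε : ℝ) : MeasurableSet (V y c k ε) := by
  have : V y c k ε = ⋂ l, ⋂ (_ : l ≠ k), {x | ⟪x, y l⟫_ℝ - c l ≤ ⟪x, y k⟫_ℝ - c k - ε} := by
    ext x; simp [V]
  rw [this]
  refine MeasurableSet.iInter (fun l => MeasurableSet.iInter (fun _ => ?_))
  apply IsClosed.measurableSet
  apply isClosed_le <;> fun_prop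

theorem measure_V_le {K : Set (EE d)} (hK : IsBody K) {σ : Measure (EE d)} (hσ : IsSrc K σ)
    (y : ι → EE d) {m : ι → ℝ} {c : ι → ℝ} (hc : ∀ c', Phi σ y m c ≤ Phi σ y m c') (k : ι)
    {ε : ℝ} (hε : 0 < ε) : σ.real (V y c k ε) ≤ m k := by
  classical
  have := hσ.prob
  set c' : ι → ℝ := fun l => c l + if l = k then ε else 0 with hc'
  have h1 : ∀ x, pot y c' x ≤ pot y c x - (V y c k ε).indicator (fun _ => ε) x := by
    intro x
    by_cases hx : x ∈ V y c k ε
    · rw [indicator_of_mem hx]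
      apply pot_le
      intro l
      have h2 := le_pot y c x k
      by_cases hl : l = k
      · subst hl
        simp only [hc', if_true]
        linarith
      · have h3 := hx l hl
        simp only [hc', if_neg hl]
        linarith
    · rw [indicator_of_notMem hx]
      apply pot_le
      intro l
      have h2 := le_pot y c x l
      have h3 : (0:ℝ) ≤ if l = k then ε else 0 := by split_ifs <;> linarith
      simp only [hc']
      linarith
  have hint : Integrable ((V y c k ε).indicator (fun _ => ε)) σ :=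
    (integrable_const ε).indicator (measurableSet_V y c k ε)
  have h2 : ∫ x, pot y c' x ∂σ ≤ ∫ x, pot y c x ∂σ - ε * σ.real (V y c k ε) := by
    have h3 : ∫ x, pot y c' x ∂σ ≤ ∫ x, (pot y c x - (V y c k ε).indicator (fun _ => ε) x) ∂σ :=
      integral_mono (integrable_pot hK hσ y c') ((integrable_pot hK hσ y c).sub hint) h1
    rw [integral_sub (integrable_pot hK hσ y c) hint,
      integral_indicator_const _ (measurableSet_V y c k ε)] at h3
    simpa [mul_comm] using h3
  have h4 : ∑ l, m l * c' l = ∑ l, m l * c l + m k * ε := by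
    simp only [hc', mul_add, Finset.sum_add_distrib]
    simp
  have h5 := hc c'
  unfold Phi at h5
  rw [h4] at h5
  have h6 : ε * σ.real (V y c k ε) ≤ ε * m k := by linarith
  exact le_of_mul_le_mul_left h6 hε

theorem cell_subset (y : ι → EE d) (c : ι → ℝ) (k : ι) :
    cell y c k ⊆ (⋃ n : ℕ, V y c k (1 / ((n : ℝ) + 1))) ∪ ⋃ l, ⋃ (_ : l ≠ k), (cell y c k ∩ cell y c l) := by
  classical
  intro x hx
  by_cases h : ∃ l, l ≠ k ∧ ⟪x, y k⟫_ℝ - c k ≤ ⟪x, y l⟫_ℝ - c l
  · obtain ⟨l, hl, hle⟩ := h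
    right
    simp only [mem_iUnion]
    exact ⟨l, hl, hx, fun j => le_trans (hx j) hle⟩
  · push Not at h
    left
    have h2 : ∀ l, ∃ n : ℕ, l ≠ k → 1 / ((n : ℝ) + 1) < (⟪x, y k⟫_ℝ - c k) - (⟪x, y l⟫_ℝ - c l) := by
      intro l
      by_cases hl : l = k
      · exact ⟨0, fun h => absurd hl h⟩
      · obtain ⟨n, hn⟩ := exists_nat_one_div_lt (sub_pos.mpr (h l hl))
        exact ⟨n, fun _ => hn⟩
    choose n hn using h2
    simp only [mem_iUnion]
    refine ⟨Finset.univ.sup n, fun l hl => ?_⟩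
    have h3 : n l ≤ Finset.univ.sup n := Finset.le_sup (Finset.mem_univ l)
    have h4 : 1 / (((Finset.univ.sup n : ℕ) : ℝ) + 1) ≤ 1 / ((n l : ℝ) + 1) := by
      apply one_div_le_one_div_of_le (by positivity)
      have : (n l : ℝ) ≤ ((Finset.univ.sup n : ℕ) : ℝ) := by exact_mod_cast h3
      linarith
    have h5 := hn l hl
    linarith

theorem V_mono (y : ι → EE d) (c : ι → ℝ) (k : ι) :
    Monotone (fun n : ℕ => V y c k (1 / ((n : ℝ) + 1))) := by
  intro a b hab x hx l hl
  have h1 := hx l hl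
  have h4 : 1 / ((b : ℝ) + 1) ≤ 1 / ((a : ℝ) + 1) := by
    apply one_div_le_one_div_of_le (by positivity)
    have : (a : ℝ) ≤ (b : ℝ) := by exact_mod_cast hab
    linarith
  linarith

end SD

open SD in
theorem exists_isBal {K : Set (EE d)} (hK : IsBody K) {σ : Measure (EE d)} (hσ : IsSrc K σ)
    {y : ι → EE d} (hy : Function.Injective y) {m : ι → ℝ} (hm : ∀ k, 0 < m k) (hs : ∑ k, m k = 1) :
    ∃ c : ι → ℝ, IsBal σ y m c := by
  classical
  have := hσ.prob
  obtain ⟨c, hc⟩ := exists_min hK hσ y hm hs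
  refine ⟨c, ?_⟩
  have hle : ∀ k, σ (cell y c k) ≤ ENNReal.ofReal (m k) := by
    intro k
    have h1 : σ (⋃ n : ℕ, V y c k (1 / ((n : ℝ) + 1))) ≤ ENNReal.ofReal (m k) := by
      rw [(V_mono y c k).measure_iUnion]
      apply iSup_le
      intro n
      have := measure_V_le hK hσ y hc k (ε := 1 / ((n : ℝ) + 1)) (by positivity)
      exact (ENNReal.le_ofReal_iff_toReal_le (measure_ne_top _ _) (hm k).le).2 this
    have h2 : σ (⋃ l, ⋃ (_ : l ≠ k), (cell y c k ∩ cell y c l)) = 0 := by
      refine measure_iUnion_null (fun l => measure_iUnion_null (fun hl => ?_))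
      exact measure_cell_inter hσ.ac hy c (Ne.symm hl)
    calc σ (cell y c k) ≤ _ := measure_mono (cell_subset y c k)
      _ ≤ _ := measure_union_le _ _
      _ ≤ ENNReal.ofReal (m k) := by rw [h2, add_zero]; exact h1
  have hler : ∀ k, σ.real (cell y c k) ≤ m k := fun k =>
    (ENNReal.le_ofReal_iff_toReal_le (measure_ne_top _ _) (hm k).le).1 (hle k)
  have hcov : (1 : ℝ) ≤ ∑ k, σ.real (cell y c k) := by
    have h1 : (univ : Set (EE d)) ⊆ ⋃ k ∈ (Finset.univ : Finset ι), cell y c k := by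
      intro x _
      obtain ⟨k, hk⟩ := exists_mem_cell y c x
      simp only [Finset.mem_univ, iUnion_true, mem_iUnion]
      exact ⟨k, hk⟩
    have h2 : σ.real univ ≤ σ.real (⋃ k ∈ (Finset.univ : Finset ι), cell y c k) :=
      measureReal_mono h1 (measure_ne_top _ _)
    have h3 := measureReal_biUnion_finset_le (μ := σ) (Finset.univ : Finset ι) (fun k => cell y c k)
    simp only [probReal_univ] at h2
    linarith
  have heq : ∀ k, σ.real (cell y c k) = m k := by
    have h1 : ∑ k, σ.real (cell y c k) = ∑ k, m k :=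
      le_antisymm (Finset.sum_le_sum (fun k _ => hler k)) (by rw [hs]; exact hcov)
    have h2 := (Finset.sum_eq_sum_iff_of_le (fun k _ => hler k)).1 h1
    exact fun k => h2 k (Finset.mem_univ k)
  intro k
  rw [← heq k, ofReal_measureReal]

end Crest.Agent.S0109
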