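import Mathlib

/-! Row 82, part A2a: permuting finitely many disjoint equal balls by translations preserves
Lebesgue measure restricted to any measurable set containing the balls. Imports only Mathlib. -/

set_option autoImplicit false
open MeasureTheory Set Metric
open scoped ENNReal NNReal InnerProductSpace

namespace Crest.Agent.S0109.Swap

variable {d : ℕ}

local notation "E" => EuclideanSpace ℝ (Fin d)

/-- the piecewise translation carrying the ball `i` onto the ball `σ i`. -/
noncomputable def tau {n : ℕ} (w : Fin n → E) (δ : ℝ) (σ : Equiv.Perm (Fin n)) (x : E) : E :=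
  x + ∑ i, (closedBall (w i) δ).indicator (fun _ => w (σ i) - w i) x

theorem measurable_tau {n : ℕ} (w : Fin n → E) (δ : ℝ) (σ : Equiv.Perm (Fin n)) :
    Measurable (tau w δ σ) := by
  unfold tau
  refine measurable_id.add (Finset.measurable_sum _ (fun i _ => ?_))
  exact measurable_const.indicator measurableSet_closedBall

theorem tau_of_mem {n : ℕ} (w : Fin n → E) (δ : ℝ) (σ : Equiv.Perm (Fin n))
    (hd : Pairwise (Function.onFun Disjoint (fun i => closedBall (w i) δ))) {i : Fin n} {x : E}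
    (hx : x ∈ closedBall (w i) δ) : tau w δ σ x = x + (w (σ i) - w i) := by
  unfold tau
  rw [Finset.sum_eq_single i]
  · rw [indicator_of_mem hx]
  · intro j _ hji
    rw [indicator_of_notMem]
    intro hxj
    exact (Set.disjoint_left.1 (hd hji) hxj) hx
  · intro h; exact absurd (Finset.mem_univ i) h

theorem tau_of_notMem {n : ℕ} (w : Fin n → E) (δ : ℝ) (σ : Equiv.Perm (Fin n)) {x : E}
    (hx : ∀ i, x ∉ closedBall (w i) δ) : tau w δ σ x = x := by
  unfold tau
  rw [Finset.sum_eq_zero, add_zero]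
  intro i _
  exact indicator_of_notMem (hx i) _

theorem map_translate_restrict_ball (a b : E) (δ : ℝ) :
    ((volume : Measure E).restrict (closedBall a δ)).map (fun x => x + (b - a))
      = (volume : Measure E).restrict (closedBall b δ) := by
  have hm : Measurable (fun x : E => x + (b - a)) := measurable_id.add_const _
  have h1 := Measure.restrict_map (μ := (volume : Measure E)) hm
    (measurableSet_closedBall (x := b) (ε := δ))
  rw [map_add_right_eq_self] at h1
  rw [h1]
  congr 2
  ext x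
  simp only [mem_preimage, mem_closedBall, dist_eq_norm]
  congr! 2
  abel

theorem map_tau {n : ℕ} (w : Fin n → E) (δ : ℝ) (σ : Equiv.Perm (Fin n))
    (hd : Pairwise (Function.onFun Disjoint (fun i => closedBall (w i) δ)))
    (K : Set E) (hsub : ∀ i, closedBall (w i) δ ⊆ K) :
    ((volume : Measure E).restrict K).map (tau w δ σ) = (volume : Measure E).restrict K := by
  set U : Set E := ⋃ i, closedBall (w i) δ with hU
  have hUm : MeasurableSet U := MeasurableSet.iUnion (fun i => measurableSet_closedBall)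
  have hUK : U ⊆ K := iUnion_subset hsub
  have hK : K = (K \ U) ∪ U := (sdiff_union_of_subset hUK).symm
  have hdec : (volume : Measure E).restrict K
      = (volume : Measure E).restrict (K \ U) + Measure.sum (fun i => (volume : Measure E).restrict (closedBall (w i) δ)) := by
    conv_lhs => rw [hK]
    rw [Measure.restrict_union disjoint_sdiff_left hUm, hU,
      Measure.restrict_iUnion hd (fun i => measurableSet_closedBall)]
  have hτ := measurable_tau w δ σ
  have h1 : ((volume : Measure E).restrict (K \ U)).map (tau w δ σ)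
      = (volume : Measure E).restrict (K \ U) := by
    have : tau w δ σ =ᵐ[(volume : Measure E).restrict (K \ U)] id := by
      have hsub' : ∀ᵐ x ∂((volume : Measure E).restrict Uᶜ), x ∈ Uᶜ := ae_restrict_mem hUm.compl
      have hle : (volume : Measure E).restrict (K \ U) ≤ (volume : Measure E).restrict Uᶜ :=
        Measure.restrict_mono (fun x hx => hx.2) le_rfl
      have hsub'' : ∀ᵐ x ∂((volume : Measure E).restrict (K \ U)), x ∈ Uᶜ :=
        ae_mono hle hsub'
      filter_upwards [hsub''] with x hx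
      refine tau_of_notMem w δ σ (fun i hi => hx ?_)
      exact mem_iUnion.2 ⟨i, hi⟩
    rw [Measure.map_congr this, Measure.map_id]
  have h2 : ∀ i, ((volume : Measure E).restrict (closedBall (w i) δ)).map (tau w δ σ)
      = (volume : Measure E).restrict (closedBall (w (σ i)) δ) := by
    intro i
    have : tau w δ σ =ᵐ[(volume : Measure E).restrict (closedBall (w i) δ)]
        (fun x => x + (w (σ i) - w i)) := by
      filter_upwards [ae_restrict_mem (measurableSet_closedBall (x := w i) (ε := δ))] with x hx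
      exact tau_of_mem w δ σ hd hx
    rw [Measure.map_congr this, map_translate_restrict_ball]
  conv_lhs => rw [hdec]
  rw [Measure.map_add _ _ hτ, h1, Measure.map_sum hτ.aemeasurable, hdec]
  congr 1
  simp only [h2]
  rw [Measure.sum_fintype, Measure.sum_fintype]
  exact Equiv.sum_comp σ (fun j => (volume : Measure E).restrict (closedBall (w j) δ))



theorem integral_comp_tau {n : ℕ} (w : Fin n → E) (δ : ℝ) (σ : Equiv.Perm (Fin n))
    (hd : Pairwise (Function.onFun Disjoint (fun i => closedBall (w i) δ)))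
    (K : Set E) (hsub : ∀ i, closedBall (w i) δ ⊆ K) (f : E → ℝ) (hf : Measurable f) :
    ∫ x, f (tau w δ σ x) ∂((volume : Measure E).restrict K) = ∫ x, f x ∂((volume : Measure E).restrict K) := by
  have h := integral_map (μ := (volume : Measure E).restrict K) (measurable_tau w δ σ).aemeasurable
    (f := f) hf.aestronglyMeasurable
  rw [map_tau w δ σ hd K hsub] at h
  exact h.symm

theorem integral_piece {n : ℕ} (w : Fin n → E) (δ : ℝ) (σ : Equiv.Perm (Fin n))
    (hd : Pairwise (Function.onFun Disjoint (fun i => closedBall (w i) δ)))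
    (K : Set E) (hsub : ∀ i, closedBall (w i) δ ⊆ K) (T : E → E) (hT : Measurable T) (i : Fin n) :
    ∫ x, ⟪(closedBall (w i) δ).indicator (fun _ => w (σ i) - w i) x, T (tau w δ σ x)⟫_ℝ
        ∂((volume : Measure E).restrict K)
      = ∫ y in closedBall (w (σ i)) δ, ⟪w (σ i) - w i, T y⟫_ℝ := by
  have h1 : (fun x => ⟪(closedBall (w i) δ).indicator (fun _ => w (σ i) - w i) x, T (tau w δ σ x)⟫_ℝ)
      = (closedBall (w i) δ).indicator (fun x => ⟪w (σ i) - w i, T (tau w δ σ x)⟫_ℝ) := by
    funext x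
    by_cases hx : x ∈ closedBall (w i) δ
    · rw [indicator_of_mem hx, indicator_of_mem hx]
    · rw [indicator_of_notMem hx, indicator_of_notMem hx, inner_zero_left]
  rw [h1, integral_indicator measurableSet_closedBall,
    Measure.restrict_restrict measurableSet_closedBall, inter_eq_left.2 (hsub i)]
  have h2 : ∫ x in closedBall (w i) δ, ⟪w (σ i) - w i, T (tau w δ σ x)⟫_ℝ
      = ∫ x in closedBall (w i) δ, ⟪w (σ i) - w i, T (x + (w (σ i) - w i))⟫_ℝ := by
    refine setIntegral_congr_fun measurableSet_closedBall (fun x hx => ?_)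
    simp only [tau_of_mem w δ σ hd hx]
  rw [h2, ← map_translate_restrict_ball (w i) (w (σ i)) δ]
  have hg : Measurable (fun y : E => ⟪w (σ i) - w i, T y⟫_ℝ) := measurable_const.inner hT
  have hm : Measurable (fun x : E => x + (w (σ i) - w i)) := measurable_id.add_const _
  rw [integral_map hm.aemeasurable hg.aestronglyMeasurable]


theorem integrable_of_bdd_on (K : Set E) (hKm : MeasurableSet K) (hKfin : volume K ≠ ∞)
    (f : E → ℝ) (hf : Measurable f) (C : ℝ) (hC : ∀ x ∈ K, |f x| ≤ C) :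
    Integrable f ((volume : Measure E).restrict K) := by
  have : IsFiniteMeasure ((volume : Measure E).restrict K) :=
    ⟨by rw [Measure.restrict_apply_univ]; exact lt_top_iff_ne_top.2 hKfin⟩
  refine Integrable.of_bound hf.aestronglyMeasurable C ?_
  filter_upwards [ae_restrict_mem hKm] with x hx
  rw [Real.norm_eq_abs]
  exact hC x hx

theorem lintegral_cost_eq (K : Set E) (hKm : MeasurableSet K) (hKfin : volume K ≠ ∞)
    (D : ℝ) (hD : ∀ x ∈ K, ‖x‖ ≤ D) (P : E → E) (hP : Measurable P) (R : ℝ) (hR : ∀ x, ‖P x‖ ≤ R) :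
    ∫⁻ x, ‖x - P x‖ₑ ^ 2 ∂((volume : Measure E).restrict K)
      = ENNReal.ofReal (∫ x, ‖x - P x‖ ^ 2 ∂((volume : Measure E).restrict K)) := by
  have hint : Integrable (fun x => ‖x - P x‖ ^ 2) ((volume : Measure E).restrict K) := by
    refine integrable_of_bdd_on K hKm hKfin _ ((measurable_id.sub hP).norm.pow_const 2) ((D + R) ^ 2) ?_
    intro x hx
    rw [abs_of_nonneg (by positivity)]
    have : ‖x - P x‖ ≤ D + R := (norm_sub_le _ _).trans (add_le_add (hD x hx) (hR x))
    exact pow_le_pow_left₀ (norm_nonneg _) this 2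
  rw [ofReal_integral_eq_lintegral_ofReal hint (Filter.Eventually.of_forall (fun x => by positivity))]
  refine lintegral_congr (fun x => ?_)
  rw [ENNReal.ofReal_pow (norm_nonneg _), ofReal_norm]

theorem swap_ineq {n : ℕ} (w : Fin n → E) (δ : ℝ) (σ : Equiv.Perm (Fin n))
    (hd : Pairwise (Function.onFun Disjoint (fun i => closedBall (w i) δ)))
    (K : Set E) (hKm : MeasurableSet K) (hKfin : volume K ≠ ∞) (D : ℝ) (hD : ∀ x ∈ K, ‖x‖ ≤ D)
    (hsub : ∀ i, closedBall (w i) δ ⊆ K) (T : E → E) (hT : Measurable T) (R : ℝ)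
    (hR : ∀ x, ‖T x‖ ≤ R)
    (hopt : ∀ S : E → E, Measurable S →
      ((volume : Measure E).restrict K).map S = ((volume : Measure E).restrict K).map T →
      ∫⁻ x, ‖x - T x‖ₑ ^ 2 ∂((volume : Measure E).restrict K)
        ≤ ∫⁻ x, ‖x - S x‖ₑ ^ 2 ∂((volume : Measure E).restrict K)) :
    0 ≤ ∑ i, ∫ y in closedBall (w (σ i)) δ, ⟪w (σ i) - w i, T y⟫_ℝ := by
  set ν : Measure E := (volume : Measure E).restrict K with hν
  have hτ := measurable_tau w δ σ
  have hS : Measurable (fun x => T (tau w δ σ x)) := hT.comp hτ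
  have hmap : ν.map (fun x => T (tau w δ σ x)) = ν.map T := by
    have := Measure.map_map (μ := ν) hT hτ
    rw [map_tau w δ σ hd K hsub] at this
    exact this.symm
  have h0 := hopt _ hS hmap
  rw [lintegral_cost_eq K hKm hKfin D hD T hT R hR,
    lintegral_cost_eq K hKm hKfin D hD _ hS R (fun x => hR _)] at h0
  have h1 : ∫ x, ‖x - T x‖ ^ 2 ∂ν ≤ ∫ x, ‖x - T (tau w δ σ x)‖ ^ 2 ∂ν :=
    (ENNReal.ofReal_le_ofReal_iff (integral_nonneg (fun x => by positivity))).1 h0
  have hR0 : 0 ≤ R := (norm_nonneg _).trans (hR 0)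
  -- integrability facts
  have iA : Integrable (fun x : E => ‖x‖ ^ 2) ν := by
    refine integrable_of_bdd_on K hKm hKfin _ (measurable_norm.pow_const 2) (D ^ 2) ?_
    intro x hx
    rw [abs_of_nonneg (by positivity)]
    exact pow_le_pow_left₀ (norm_nonneg _) (hD x hx) 2
  have iB : ∀ P : E → E, Measurable P → (∀ x, ‖P x‖ ≤ R) → Integrable (fun x : E => ⟪x, P x⟫_ℝ) ν := by
    intro P hP hPR
    refine integrable_of_bdd_on K hKm hKfin _ (measurable_id.inner hP) (D * R) ?_
    intro x hx
    exact (abs_real_inner_le_norm _ _).trans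
      (mul_le_mul (hD x hx) (hPR x) (norm_nonneg _) ((norm_nonneg _).trans (hD x hx)))
  have iC : ∀ P : E → E, Measurable P → (∀ x, ‖P x‖ ≤ R) → Integrable (fun x : E => ‖P x‖ ^ 2) ν := by
    intro P hP hPR
    refine integrable_of_bdd_on K hKm hKfin _ (hP.norm.pow_const 2) (R ^ 2) ?_
    intro x _
    rw [abs_of_nonneg (by positivity)]
    exact pow_le_pow_left₀ (norm_nonneg _) (hPR x) 2
  have hexp : ∀ P : E → E, Measurable P → (∀ x, ‖P x‖ ≤ R) →
      ∫ x, ‖x - P x‖ ^ 2 ∂ν = ∫ x, ‖x‖ ^ 2 ∂ν - 2 * ∫ x, ⟪x, P x⟫_ℝ ∂ν + ∫ x, ‖P x‖ ^ 2 ∂ν := by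
    intro P hP hPR
    have e1 : ∫ x, ‖x - P x‖ ^ 2 ∂ν = ∫ x, ((‖x‖ ^ 2 - 2 * ⟪x, P x⟫_ℝ) + ‖P x‖ ^ 2) ∂ν :=
      integral_congr_ae (Filter.Eventually.of_forall (fun x => norm_sub_sq_real _ _))
    have i1 : Integrable (fun x : E => 2 * ⟪x, P x⟫_ℝ) ν := (iB P hP hPR).const_mul 2
    have i2 : Integrable (fun x : E => ‖x‖ ^ 2 - 2 * ⟪x, P x⟫_ℝ) ν := iA.sub i1
    rw [e1, integral_add i2 (iC P hP hPR), integral_sub iA i1, integral_const_mul]
  rw [hexp T hT hR, hexp _ hS (fun x => hR _)] at h1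
  have h2 : ∫ x, ‖T (tau w δ σ x)‖ ^ 2 ∂ν = ∫ x, ‖T x‖ ^ 2 ∂ν :=
    integral_comp_tau w δ σ hd K hsub (fun y => ‖T y‖ ^ 2) (hT.norm.pow_const 2)
  have h3 : ∫ x, ⟪tau w δ σ x, T (tau w δ σ x)⟫_ℝ ∂ν = ∫ x, ⟪x, T x⟫_ℝ ∂ν :=
    integral_comp_tau w δ σ hd K hsub (fun y => ⟪y, T y⟫_ℝ) (measurable_id.inner hT)
  have iP : ∀ i, Integrable (fun x => ⟪(closedBall (w i) δ).indicator (fun _ => w (σ i) - w i) x,
      T (tau w δ σ x)⟫_ℝ) ν := by
    intro i
    refine integrable_of_bdd_on K hKm hKfin _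
      ((measurable_const.indicator measurableSet_closedBall).inner hS) (‖w (σ i) - w i‖ * R) ?_
    intro x _
    refine (abs_real_inner_le_norm _ _).trans (mul_le_mul ?_ (hR _) (norm_nonneg _) (norm_nonneg _))
    by_cases hx : x ∈ closedBall (w i) δ
    · rw [indicator_of_mem hx]
    · rw [indicator_of_notMem hx, norm_zero]; exact norm_nonneg _
  have h4 : ∫ x, ⟪tau w δ σ x, T (tau w δ σ x)⟫_ℝ ∂ν
      = ∫ x, ⟪x, T (tau w δ σ x)⟫_ℝ ∂ν
        + ∑ i, ∫ x, ⟪(closedBall (w i) δ).indicator (fun _ => w (σ i) - w i) x,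
            T (tau w δ σ x)⟫_ℝ ∂ν := by
    rw [← integral_finsetSum _ (fun i _ => iP i), ← integral_add (iB _ hS (fun x => hR _))
      (integrable_finsetSum _ (fun i _ => iP i))]
    refine integral_congr_ae (Filter.Eventually.of_forall (fun x => ?_))
    show ⟪tau w δ σ x, T (tau w δ σ x)⟫_ℝ = ⟪x, T (tau w δ σ x)⟫_ℝ
      + ∑ i, ⟪(closedBall (w i) δ).indicator (fun _ => w (σ i) - w i) x, T (tau w δ σ x)⟫_ℝ
    generalize T (tau w δ σ x) = y
    rw [tau, inner_add_left, sum_inner]
  have hp : ∀ i, ∫ x, ⟪(closedBall (w i) δ).indicator (fun _ => w (σ i) - w i) x,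
      T (tau w δ σ x)⟫_ℝ ∂ν = ∫ y in closedBall (w (σ i)) δ, ⟪w (σ i) - w i, T y⟫_ℝ :=
    fun i => integral_piece w δ σ hd K hsub T hT i
  simp only [hp] at h4
  linarith


end Crest.Agent.S0109.Swap
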