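import Mathlib
import Crest.Prelude.Def_QuadraticTransport

/-! Row 82, S0110: geometry of the cube `[-1,1]^d` (volumes of boxes, reflections). -/

set_option autoImplicit false
open MeasureTheory Set
open scoped ENNReal NNReal
open Crest.AnalysisR.OT

namespace Crest.Agent.S0110.Geom

variable {d : ℕ}

/-- The cube of the statement. -/
def cube (d : ℕ) : Set (EuclideanSpace ℝ (Fin d)) := {x | ∀ i, |x i| ≤ 1}

/-- A closed box. -/
def box (a b : Fin d → ℝ) : Set (EuclideanSpace ℝ (Fin d)) := {x | ∀ i, a i ≤ x i ∧ x i ≤ b i}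

theorem cube_eq_box : cube d = box (fun _ => -1) (fun _ => 1) := by
  ext x
  simp only [cube, box, mem_ofPred_eq, abs_le]

theorem box_eq_preimage (a b : Fin d → ℝ) :
    box a b = (WithLp.ofLp : EuclideanSpace ℝ (Fin d) → (Fin d → ℝ)) ⁻¹' (Icc a b) := by
  ext x
  simp only [box, mem_ofPred_eq, mem_preimage, mem_Icc, Pi.le_def]
  exact forall_and

theorem measurableSet_box (a b : Fin d → ℝ) : MeasurableSet (box a b) := by
  rw [box_eq_preimage]
  exact (PiLp.volume_preserving_ofLp (Fin d)).measurable measurableSet_Icc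

theorem measurableSet_cube : MeasurableSet (cube d) := by
  rw [cube_eq_box]; exact measurableSet_box _ _

theorem volume_box (a b : Fin d → ℝ) : volume (box a b) = ∏ i, ENNReal.ofReal (b i - a i) := by
  rw [box_eq_preimage, (PiLp.volume_preserving_ofLp (Fin d)).measure_preimage
    measurableSet_Icc.nullMeasurableSet, Real.volume_Icc_pi]

theorem volume_cube : volume (cube d) = 2 ^ d := by
  rw [cube_eq_box, volume_box]
  simp only [sub_neg_eq_add, Finset.prod_const, Finset.card_univ, Fintype.card_fin]
  norm_num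

theorem box_subset_cube {a b : Fin d → ℝ} (h : ∀ i, -1 ≤ a i ∧ b i ≤ 1) : box a b ⊆ cube d := by
  intro x hx i
  rw [abs_le]
  exact ⟨(h i).1.trans (hx i).1, (hx i).2.trans (h i).2⟩

/-- Mass of a box inside the cube. -/
theorem uniform_box {a b : Fin d → ℝ} (h : ∀ i, -1 ≤ a i ∧ a i ≤ b i ∧ b i ≤ 1) :
    uniformProbOn (cube d) (box a b) = ENNReal.ofReal (∏ i, (b i - a i) / 2) := by
  have hsub : box a b ⊆ cube d := box_subset_cube fun i => ⟨(h i).1, (h i).2.2⟩
  simp only [uniformProbOn, Measure.smul_apply, smul_eq_mul]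
  rw [Measure.restrict_apply (measurableSet_box a b), inter_eq_left.2 hsub, volume_box, volume_cube,
    ENNReal.ofReal_prod_of_nonneg (fun i _ => by have := (h i).2.1; linarith)]
  have h2 : ((2 : ℝ≥0∞) ^ d)⁻¹ = ∏ _i : Fin d, (2 : ℝ≥0∞)⁻¹ := by
    simp [ENNReal.inv_pow]
  rw [h2, ← Finset.prod_mul_distrib]
  refine Finset.prod_congr rfl fun i _ => ?_
  rw [div_eq_mul_inv, ENNReal.ofReal_mul (by have := (h i).2.1; linarith), mul_comm,
    ENNReal.ofReal_inv_of_pos (by norm_num)]
  norm_num

/-- Reflection of the `i`-th coordinate. -/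
noncomputable def flip (i : Fin d) : EuclideanSpace ℝ (Fin d) ≃ₗᵢ[ℝ] EuclideanSpace ℝ (Fin d) :=
  LinearIsometryEquiv.piLpCongrRight 2
    (fun j => if j = i then LinearIsometryEquiv.neg ℝ else LinearIsometryEquiv.refl ℝ ℝ)

theorem flip_apply (i : Fin d) (x : EuclideanSpace ℝ (Fin d)) (j : Fin d) :
    flip i x j = if j = i then - x j else x j := by
  simp only [flip, LinearIsometryEquiv.piLpCongrRight_apply]
  split_ifs <;> simp

theorem flip_apply_same (i : Fin d) (x : EuclideanSpace ℝ (Fin d)) : flip i x i = - x i := by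
  rw [flip_apply, if_pos rfl]

theorem flip_apply_ne {i j : Fin d} (h : j ≠ i) (x : EuclideanSpace ℝ (Fin d)) :
    flip i x j = x j := by
  rw [flip_apply, if_neg h]

theorem flip_flip (i : Fin d) (x : EuclideanSpace ℝ (Fin d)) : flip i (flip i x) = x := by
  ext j
  by_cases h : j = i
  · subst h; simp [flip_apply_same]
  · simp [flip_apply_ne h]

theorem flip_preimage_cube (i : Fin d) : flip i ⁻¹' cube d = cube d := by
  ext x
  simp only [cube, mem_preimage, mem_ofPred_eq]
  refine forall_congr' fun j => ?_
  by_cases h : j = i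
  · subst h; rw [flip_apply_same, abs_neg]
  · rw [flip_apply_ne h]

theorem measurePreserving_flip (i : Fin d) :
    MeasurePreserving (flip i) (uniformProbOn (cube d)) (uniformProbOn (cube d)) := by
  have h1 : MeasurePreserving (flip i) volume volume := (flip i).measurePreserving
  have h2 := h1.restrict_preimage (measurableSet_cube (d := d))
  rw [flip_preimage_cube] at h2
  refine ⟨h1.measurable, ?_⟩
  rw [uniformProbOn, Measure.map_smul, h2.map_eq]

theorem uniform_flip_preimage (i : Fin d) {s : Set (EuclideanSpace ℝ (Fin d))}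
    (hs : MeasurableSet s) :
    uniformProbOn (cube d) (flip i ⁻¹' s) = uniformProbOn (cube d) s :=
  (measurePreserving_flip i).measure_preimage hs.nullMeasurableSet

theorem isCompact_cube : IsCompact (cube d) := by
  rw [cube_eq_box, box_eq_preimage]
  have h : IsCompact (Icc (fun _ : Fin d => (-1 : ℝ)) (fun _ => 1)) := isCompact_Icc
  exact (PiLp.homeomorph 2 (fun _ : Fin d => ℝ)).isCompact_preimage.2 h

theorem convex_cube : Convex ℝ (cube d) := by
  intro x hx z hz a b ha hb hab i
  have h1 := abs_le.1 (hx i)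
  have h2 := abs_le.1 (hz i)
  simp only [PiLp.add_apply, PiLp.smul_apply, smul_eq_mul]
  rw [abs_le]
  constructor <;> nlinarith

instance : IsProbabilityMeasure (uniformProbOn (cube d)) := by
  refine ⟨?_⟩
  simp only [uniformProbOn, Measure.smul_apply, Measure.restrict_apply MeasurableSet.univ,
    univ_inter, smul_eq_mul, volume_cube]
  exact ENNReal.inv_mul_cancel (by simp) (by simp)

theorem uniform_compl_cube : uniformProbOn (cube d) (cube d)ᶜ = 0 := by
  simp only [uniformProbOn, Measure.smul_apply, smul_eq_mul]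
  rw [Measure.restrict_apply measurableSet_cube.compl]
  simp

theorem uniform_ac : uniformProbOn (cube d) ≪ volume :=
  Measure.smul_absolutelyContinuous.trans Measure.restrict_le_self.absolutelyContinuous

end Crest.Agent.S0110.Geom
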