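import Crest.Agent.S0110_Defs
import Crest.Agent.S0110_Geom

/-! Row 82, S0110, package G (helper22): the uniform measure on the cube, product sets in two coordinates.
Route: `EuclideanSpace.volume_preserving_measurableEquiv` (or `PiLp.volume_preserving_ofLp`), `volume_pi`,
`Measure.pi_pi`; `{x | x i0 ∈ A ∧ x i1 ∈ B} ∩ Q d` is the product set with factors `A ∩ Icc (-1) 1`, `B ∩ Icc (-1) 1`,
`Icc (-1) 1` (all other coordinates); `volume (Q d) = 2 ^ d`; `Finset.prod_eq_mul`-type bookkeeping. -/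

set_option autoImplicit false
open MeasureTheory Set
open scoped ENNReal NNReal InnerProductSpace
open Crest.AnalysisR.OT

namespace Crest.Agent.S0110

variable {d : ℕ}

theorem isProb_cube : IsProbabilityMeasure (uniformProbOn (Q d)) :=
  inferInstanceAs (IsProbabilityMeasure (uniformProbOn (Geom.cube d)))

theorem ae_mem_cube : ∀ᵐ x ∂(uniformProbOn (Q d)), x ∈ Q d := by
  rw [ae_iff]
  exact Geom.uniform_compl_cube

theorem norm_le_of_mem_cube {x : EE d} (hx : x ∈ Q d) : ‖x‖ ≤ d := by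
  have h1 : ‖x‖ ≤ ∑ i, ‖x i‖ := by
    have hx' : x = ∑ i, EuclideanSpace.single i (x i) := by
      ext j
      simp [Finset.sum_apply]
    calc ‖x‖ = ‖∑ i, EuclideanSpace.single i (x i)‖ := by rw [← hx']
      _ ≤ ∑ i, ‖(EuclideanSpace.single i (x i) : EE d)‖ := norm_sum_le _ _
      _ = ∑ i, ‖x i‖ := by simp
  refine h1.trans ?_
  calc ∑ i, ‖x i‖ ≤ ∑ _i : Fin d, (1 : ℝ) := Finset.sum_le_sum fun i _ => hx i
    _ = d := by simp

/-- Product sets in two distinct coordinates. -/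
theorem cube_two {i0 i1 : Fin d} (h : i0 ≠ i1) {A B : Set ℝ} (hA : MeasurableSet A)
    (hB : MeasurableSet B) :
    uniformProbOn (Q d) {x | x i0 ∈ A ∧ x i1 ∈ B} =
      (volume (A ∩ Icc (-1) 1) / 2) * (volume (B ∩ Icc (-1) 1) / 2) := by
  classical
  set t : Fin d → Set ℝ := fun j =>
    if j = i0 then A ∩ Icc (-1) 1 else if j = i1 then B ∩ Icc (-1) 1 else Icc (-1) 1 with ht
  have htm : ∀ j, MeasurableSet (t j) := by
    intro j
    simp only [ht]
    split_ifs
    · exact hA.inter measurableSet_Icc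
    · exact hB.inter measurableSet_Icc
    · exact measurableSet_Icc
  have hset : {x : EE d | x i0 ∈ A ∧ x i1 ∈ B} ∩ Q d =
      (WithLp.ofLp : EE d → (Fin d → ℝ)) ⁻¹' (Set.pi univ t) := by
    ext x
    simp only [Q, mem_inter_iff, mem_ofPred_eq, mem_preimage, mem_pi, mem_univ, true_imp_iff, ht]
    constructor
    · rintro ⟨⟨h0, h1⟩, hq⟩ j
      have hj : x j ∈ Icc (-1 : ℝ) 1 := abs_le.1 (hq j)
      split_ifs with e0 e1
      · subst e0; exact ⟨h0, hj⟩
      · subst e1; exact ⟨h1, hj⟩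
      · exact hj
    · intro hall
      refine ⟨⟨?_, ?_⟩, fun j => ?_⟩
      · have := hall i0
        rw [if_pos rfl] at this
        exact this.1
      · have := hall i1
        rw [if_neg (Ne.symm h), if_pos rfl] at this
        exact this.1
      · have := hall j
        rw [abs_le]
        split_ifs at this
        · exact this.2
        · exact this.2
        · exact this
  have hmeas : MeasurableSet {x : EE d | x i0 ∈ A ∧ x i1 ∈ B} := by
    have m0 : Measurable fun x : EE d => x i0 := by fun_prop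
    have m1 : Measurable fun x : EE d => x i1 := by fun_prop
    exact (m0 hA).inter (m1 hB)
  have hvol : volume (Q d) = 2 ^ d := Geom.volume_cube
  simp only [uniformProbOn, Measure.smul_apply, smul_eq_mul]
  rw [Measure.restrict_apply hmeas, hset, (PiLp.volume_preserving_ofLp (Fin d)).measure_preimage
    (MeasurableSet.univ_pi htm).nullMeasurableSet, volume_pi_pi, hvol]
  have h2 : ((2 : ℝ≥0∞) ^ d)⁻¹ = ∏ _i : Fin d, (2 : ℝ≥0∞)⁻¹ := by
    simp [ENNReal.inv_pow]
  rw [h2, ← Finset.prod_mul_distrib]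
  rw [Finset.prod_eq_mul i0 i1 h]
  · simp only [ht, if_true, if_neg (Ne.symm h)]
    rw [div_eq_mul_inv, div_eq_mul_inv, mul_comm (2 : ℝ≥0∞)⁻¹, mul_comm (2 : ℝ≥0∞)⁻¹]
  · rintro j - ⟨hj0, hj1⟩
    simp only [ht, if_neg hj0, if_neg hj1, Real.volume_Icc]
    norm_num
    exact ENNReal.inv_mul_cancel (by simp) (by simp)
  · intro hh; exact absurd (Finset.mem_univ _) hh
  · intro hh; exact absurd (Finset.mem_univ _) hh

theorem ofReal_half_mul {u v : ℝ} (hu : 0 ≤ u) :
    ENNReal.ofReal u / 2 * (ENNReal.ofReal v / 2) = ENNReal.ofReal (u / 2 * (v / 2)) := by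
  rw [ENNReal.ofReal_mul (by positivity), ENNReal.ofReal_div_of_pos (by norm_num),
    ENNReal.ofReal_div_of_pos (by norm_num)]
  norm_num

/-- Real-number version for intervals (all four endpoints inside `[-1,1]`); `A`, `B` any of the
four kinds of intervals is obtained from `cube_two`; here closed ones and open ones. -/
theorem cube_Icc {i0 i1 : Fin d} (h : i0 ≠ i1) {a b p q : ℝ} (ha : -1 ≤ a) (hab : a ≤ b) (hb : b ≤ 1)
    (hp : -1 ≤ p) (hpq : p ≤ q) (hq : q ≤ 1) :
    uniformProbOn (Q d) {x | x i0 ∈ Icc a b ∧ x i1 ∈ Icc p q} =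
      ENNReal.ofReal ((b - a) / 2 * ((q - p) / 2)) := by
  rw [cube_two h measurableSet_Icc measurableSet_Icc,
    inter_eq_left.2 (Icc_subset_Icc ha hb), inter_eq_left.2 (Icc_subset_Icc hp hq),
    Real.volume_Icc, Real.volume_Icc, ofReal_half_mul (by linarith)]

theorem cube_Ioo_Icc {i0 i1 : Fin d} (h : i0 ≠ i1) {a b p q : ℝ} (ha : -1 ≤ a) (hab : a ≤ b) (hb : b ≤ 1)
    (hp : -1 ≤ p) (hpq : p ≤ q) (hq : q ≤ 1) :
    uniformProbOn (Q d) {x | x i0 ∈ Ioo a b ∧ x i1 ∈ Icc p q} =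
      ENNReal.ofReal ((b - a) / 2 * ((q - p) / 2)) := by
  rw [cube_two h measurableSet_Ioo measurableSet_Icc,
    inter_eq_left.2 (Ioo_subset_Icc_self.trans (Icc_subset_Icc ha hb)),
    inter_eq_left.2 (Icc_subset_Icc hp hq),
    Real.volume_Ioo, Real.volume_Icc, ofReal_half_mul (by linarith)]

/-- Half spaces in one coordinate. -/
theorem cube_Iio {i0 i1 : Fin d} (h : i0 ≠ i1) {a : ℝ} (ha : -1 ≤ a) (ha' : a ≤ 1) :
    uniformProbOn (Q d) {x | x i0 < a} = ENNReal.ofReal ((a + 1) / 2) := by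
  have h1 : {x : EE d | x i0 < a} = {x | x i0 ∈ Iio a ∧ x i1 ∈ univ} := by
    ext x; simp
  have h2 : Iio a ∩ Icc (-1 : ℝ) 1 = Ico (-1) a := by
    ext u
    simp only [mem_inter_iff, mem_Iio, mem_Icc, mem_Ico]
    constructor
    · rintro ⟨h1, h2, -⟩; exact ⟨h2, h1⟩
    · rintro ⟨h1, h2⟩; exact ⟨h2, h1, by linarith⟩
  rw [h1, cube_two h measurableSet_Iio MeasurableSet.univ, univ_inter, h2, Real.volume_Ico,
    Real.volume_Icc, ofReal_half_mul (by linarith)]
  congr 1
  ring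

theorem cube_Ioi {i0 i1 : Fin d} (h : i0 ≠ i1) {b : ℝ} (hb : -1 ≤ b) (hb' : b ≤ 1) :
    uniformProbOn (Q d) {x | b < x i0} = ENNReal.ofReal ((1 - b) / 2) := by
  have h1 : {x : EE d | b < x i0} = {x | x i0 ∈ Ioi b ∧ x i1 ∈ univ} := by
    ext x; simp
  have h2 : Ioi b ∩ Icc (-1 : ℝ) 1 = Ioc b 1 := by
    ext u
    simp only [mem_inter_iff, mem_Ioi, mem_Icc, mem_Ioc]
    constructor
    · rintro ⟨h1, -, h3⟩; exact ⟨h1, h3⟩
    · rintro ⟨h1, h2⟩; exact ⟨h1, by linarith, h2⟩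
  rw [h1, cube_two h measurableSet_Ioi MeasurableSet.univ, univ_inter, h2, Real.volume_Ioc,
    Real.volume_Icc, ofReal_half_mul (by linarith)]
  congr 1
  ring

end Crest.Agent.S0110
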