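import Crest.Agent.S0110_Disc
import Crest.Agent.S0110_Cube

/-! Row 82, S0110, package C: the two explicit configurations. -/

set_option autoImplicit false
open MeasureTheory Set Filter
open scoped ENNReal NNReal InnerProductSpace
open Crest.AnalysisR.OT

namespace Crest.Agent.S0110

variable {d : ℕ}

theorem inner_e (x : EE d) (i : Fin d) : ⟪x, EuclideanSpace.single i (1 : ℝ)⟫_ℝ = x i := by
  simp [EuclideanSpace.inner_single_right]

/-- atoms of `ν` -/
noncomputable def zn (i0 i1 : Fin d) (m : ℝ) : Fin 3 → EE d :=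
  ![- EuclideanSpace.single i0 (1 : ℝ), m • EuclideanSpace.single i1 (1 : ℝ),
    EuclideanSpace.single i0 (1 : ℝ)]

def cn (m : ℝ) : Fin 3 → ℝ := ![0, -m, 0]

noncomputable def idn (i0 i1 : Fin d) (m : ℝ) (x : EE d) : Fin 3 :=
  if |x i0| ≤ m * (1 + x i1) then 1 else if x i0 < 0 then 0 else 2

theorem aff_n (i0 i1 : Fin d) (m : ℝ) (x : EE d) (j : Fin 3) :
    ⟪x, zn i0 i1 m j⟫_ℝ - cn m j = ![- x i0, m * (1 + x i1), x i0] j := by
  fin_cases j
  · simp [zn, cn, inner_neg_right, inner_e]
  · simp [zn, cn, inner_smul_right, inner_e]; ring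
  · simp [zn, cn, inner_e]

/-- atoms of `μ` -/
noncomputable def ym (i0 : Fin d) : Fin 3 → EE d :=
  ![- EuclideanSpace.single i0 (1 : ℝ), 0, EuclideanSpace.single i0 (1 : ℝ)]

def cm (a b : ℝ) : Fin 3 → ℝ := ![-a, 0, b]

noncomputable def idm (i0 : Fin d) (a b : ℝ) (x : EE d) : Fin 3 :=
  if x i0 < a then 0 else if b < x i0 then 2 else 1

theorem aff_m (i0 : Fin d) (a b : ℝ) (x : EE d) (j : Fin 3) :
    ⟪x, ym i0 j⟫_ℝ - cm a b j = ![- x i0 + a, 0, x i0 - b] j := by
  fin_cases j
  · simp [ym, cm, inner_neg_right, inner_e]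
  · simp [ym, cm]
  · simp [ym, cm, inner_e]

theorem measurable_coord (i : Fin d) : Measurable (fun x : EE d => x i) := by
  fun_prop

theorem single_ne_zero (i : Fin d) : EuclideanSpace.single i (1 : ℝ) ≠ 0 := by
  intro h
  have := congrArg (fun v : EE d => v i) h
  simp at this

theorem config_n {i0 i1 : Fin d} (h01 : i0 ≠ i1) {m : ℝ} (hm : 0 < m) :
    Config (zn i0 i1 m) (cn m) (idn i0 i1 m) := by
  refine ⟨?_, ?_, ?_⟩
  · unfold idn
    refine Measurable.ite ?_ measurable_const (Measurable.ite ?_ measurable_const measurable_const)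
    · exact measurableSet_le (measurable_coord i0).abs
        (measurable_const.mul (measurable_const.add (measurable_coord i1)))
    · exact measurableSet_lt (measurable_coord i0) measurable_const
  · intro j k hjk
    have h0 := congrArg (fun v : EE d => v i0) hjk
    have h1 := congrArg (fun v : EE d => v i1) hjk
    fin_cases j <;> fin_cases k <;> simp [zn, h01, h01.symm] at h0 h1 ⊢ <;> linarith
  · intro x j
    rw [aff_n, aff_n]
    unfold idn
    split_ifs with h1 h2
    · have := abs_le.mp h1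
      fin_cases j <;> simp <;> linarith
    · have h3 : |x i0| = - x i0 := abs_of_neg h2
      fin_cases j <;> simp <;> linarith
    · have h3 : |x i0| = x i0 := abs_of_nonneg (not_lt.mp h2)
      fin_cases j <;> simp <;> linarith

theorem config_m (i0 : Fin d) {a b : ℝ} (hab : a ≤ b) :
    Config (ym i0) (cm a b) (idm i0 a b) := by
  refine ⟨?_, ?_, ?_⟩
  · unfold idm
    refine Measurable.ite ?_ measurable_const (Measurable.ite ?_ measurable_const measurable_const)
    · exact measurableSet_lt (measurable_coord i0) measurable_const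
    · exact measurableSet_lt measurable_const (measurable_coord i0)
  · intro j k hjk
    have h0 := congrArg (fun v : EE d => v i0) hjk
    fin_cases j <;> fin_cases k <;> simp [ym] at h0 ⊢ <;> linarith
  · intro x j
    rw [aff_m, aff_m]
    unfold idm
    split_ifs with h1 h2
    · fin_cases j <;> simp <;> linarith
    · fin_cases j <;> simp <;> linarith
    · fin_cases j <;> simp <;> linarith

/-- masses of a three-valued assignment -/
noncomputable def mass (i : EE d → Fin 3) (j : Fin 3) : ℝ := (uniformProbOn (Q d) (i ⁻¹' {j})).toReal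

theorem mass_nonneg (i : EE d → Fin 3) (j : Fin 3) : 0 ≤ mass i j := ENNReal.toReal_nonneg

theorem sum_mass {i : EE d → Fin 3} (hi : Measurable i) : ∑ j, mass i j = 1 := by
  have := isProb_cube (d := d)
  have h1 : ∑ j, (uniformProbOn (Q d)).map i {j} = (uniformProbOn (Q d)).map i Set.univ := by
    have := sum_measure_singleton (μ := (uniformProbOn (Q d)).map i) (s := (Finset.univ : Finset (Fin 3)))
    simpa using this
  rw [Measure.map_apply hi MeasurableSet.univ, preimage_univ, measure_univ] at h1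
  unfold mass
  rw [← ENNReal.toReal_sum (fun j _ => measure_ne_top _ _)]
  have h2 : ∑ j, uniformProbOn (Q d) (i ⁻¹' {j}) = 1 := by
    rw [← h1]
    exact Finset.sum_congr rfl (fun j _ => (Measure.map_apply hi (measurableSet_singleton j)).symm)
  rw [h2]; simp

theorem le_mass {i : EE d → Fin 3} {j : Fin 3} {s : Set (EE d)} {r : ℝ}
    (hs : uniformProbOn (Q d) s = ENNReal.ofReal r)
    (hsub : ∀ x ∈ Q d, x ∈ s → i x = j) : r ≤ mass i j := by
  have := isProb_cube (d := d)
  have h1 : uniformProbOn (Q d) s ≤ uniformProbOn (Q d) (i ⁻¹' {j}) := by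
    apply measure_mono_ae
    filter_upwards [ae_mem_cube] with x hx hxs
    exact hsub x hx hxs
  rw [hs] at h1
  exact (ENNReal.ofReal_le_iff_le_toReal (measure_ne_top _ _)).1 h1

theorem mass_le {i : EE d → Fin 3} {j : Fin 3} {s : Set (EE d)} {r : ℝ} (hr : 0 ≤ r)
    (hs : uniformProbOn (Q d) s = ENNReal.ofReal r)
    (hsub : ∀ x ∈ Q d, i x = j → x ∈ s) : mass i j ≤ r := by
  have := isProb_cube (d := d)
  have h1 : uniformProbOn (Q d) (i ⁻¹' {j}) ≤ uniformProbOn (Q d) s := by
    apply measure_mono_ae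
    filter_upwards [ae_mem_cube] with x hx hxs
    exact hsub x hx hxs
  rw [hs] at h1
  exact (ENNReal.le_ofReal_iff_toReal_le (measure_ne_top _ _) hr).1 h1

section nu
variable {i0 i1 : Fin d} (h01 : i0 ≠ i1) {m : ℝ} (hm : 0 < m) (hm4 : m ≤ 1 / 4)
include h01 hm hm4

theorem n1_lower : m / 2 ≤ mass (idn i0 i1 m) 1 := by
  have h := cube_Icc h01 (a := -m) (b := m) (p := 0) (q := 1) (by linarith) (by linarith)
    (by linarith) (by norm_num) (by norm_num) (by norm_num)
  have e : (m - -m) / 2 * ((1 - 0) / 2) = m / 2 := by ring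
  rw [e] at h
  apply le_mass h
  intro x _ hx
  unfold idn
  rw [if_pos]
  rw [abs_le]
  obtain ⟨⟨h1, h2⟩, ⟨h3, h4⟩⟩ := hx
  constructor <;> nlinarith

theorem n0_lower : (1 - 2 * m) / 2 ≤ mass (idn i0 i1 m) 0 := by
  have h := cube_Iio h01 (a := -(2 * m)) (by linarith) (by linarith)
  have e : (-(2 * m) + 1) / 2 = (1 - 2 * m) / 2 := by ring
  rw [e] at h
  apply le_mass h
  intro x hxQ hx
  have hx' : x i0 < -(2 * m) := hx
  have h1 := abs_le.mp (hxQ i1)
  unfold idn
  rw [if_neg, if_pos (by linarith)]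
  rw [abs_of_neg (by linarith)]
  nlinarith

theorem n0_upper : mass (idn i0 i1 m) 0 ≤ 1 / 2 := by
  have h := cube_Iio h01 (a := 0) (by linarith) (by linarith)
  have e : ((0:ℝ) + 1) / 2 = 1 / 2 := by ring
  rw [e] at h
  apply mass_le (by norm_num) h
  intro x _ hx
  unfold idn at hx
  split_ifs at hx with h1 h2
  · exact absurd hx (by decide)
  · exact h2
  · exact absurd hx (by decide)

theorem n2_lower : (1 - 2 * m) / 2 ≤ mass (idn i0 i1 m) 2 := by
  have h := cube_Ioi h01 (b := 2 * m) (by linarith) (by linarith)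
  apply le_mass h
  intro x hxQ hx
  have hx' : 2 * m < x i0 := hx
  have h1 := abs_le.mp (hxQ i1)
  unfold idn
  rw [if_neg, if_neg (by linarith)]
  rw [abs_of_pos (by linarith)]
  nlinarith

theorem n2_upper : mass (idn i0 i1 m) 2 ≤ 1 / 2 := by
  have h := cube_Ioi h01 (b := 0) (by linarith) (by linarith)
  have e : ((1:ℝ) - 0) / 2 = 1 / 2 := by ring
  rw [e] at h
  apply mass_le (by norm_num) h
  intro x hxQ hx
  have h3 := abs_le.mp (hxQ i1)
  unfold idn at hx
  split_ifs at hx with h1 h2
  · exact absurd hx (by decide)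
  · exact absurd hx (by decide)
  · change 0 < x i0
    rcases (not_lt.mp h2).lt_or_eq with h4 | h4
    · exact h4
    · exfalso
      apply h1
      rw [← h4]
      simp only [abs_zero]
      nlinarith

end nu

/-- left end of the strip -/
noncomputable def aa (i0 i1 : Fin d) (m : ℝ) : ℝ := 2 * mass (idn i0 i1 m) 0 - 1
/-- right end of the strip -/
noncomputable def bb (i0 i1 : Fin d) (m : ℝ) : ℝ := 1 - 2 * mass (idn i0 i1 m) 2

section mu
variable {i0 i1 : Fin d} (h01 : i0 ≠ i1) {m : ℝ} (hm : 0 < m) (hm4 : m ≤ 1 / 4)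
include h01 hm hm4

theorem aa_bounds : -(2 * m) ≤ aa i0 i1 m ∧ aa i0 i1 m ≤ 0 := by
  have h1 := n0_lower h01 hm hm4
  have h2 := n0_upper h01 hm hm4
  unfold aa
  constructor <;> linarith

theorem bb_bounds : 0 ≤ bb i0 i1 m ∧ bb i0 i1 m ≤ 2 * m := by
  have h1 := n2_lower h01 hm hm4
  have h2 := n2_upper h01 hm hm4
  unfold bb
  constructor <;> linarith

theorem bb_sub_aa : bb i0 i1 m - aa i0 i1 m = 2 * mass (idn i0 i1 m) 1 := by
  have h := sum_mass (config_n h01 hm).meas
  rw [Fin.sum_univ_three] at h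
  unfold aa bb
  linarith

theorem mass_eq : mass (idm i0 (aa i0 i1 m) (bb i0 i1 m)) = mass (idn i0 i1 m) := by
  have := isProb_cube (d := d)
  obtain ⟨a1, a2⟩ := aa_bounds h01 hm hm4
  obtain ⟨b1, b2⟩ := bb_bounds h01 hm hm4
  set a := aa i0 i1 m with ha
  set b := bb i0 i1 m with hb
  have e0 : mass (idm i0 a b) 0 = mass (idn i0 i1 m) 0 := by
    have h := cube_Iio h01 (a := a) (by linarith) (by linarith)
    have hset : idm i0 a b ⁻¹' {0} = {x | x i0 < a} := by
      ext x
      simp only [mem_preimage, mem_singleton_iff, mem_setOf_eq, idm]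
      split_ifs with h1 h2
      · simp [h1]
      · simp [h1]
      · simp [h1]
    unfold mass
    rw [hset, h, ENNReal.toReal_ofReal (by linarith)]
    simp only [ha, aa, mass]
    ring
  have e2 : mass (idm i0 a b) 2 = mass (idn i0 i1 m) 2 := by
    have h := cube_Ioi h01 (b := b) (by linarith) (by linarith)
    have hset : idm i0 a b ⁻¹' {2} = {x | b < x i0} := by
      ext x
      simp only [mem_preimage, mem_singleton_iff, mem_setOf_eq, idm]
      split_ifs with h1 h2
      · simp only [Fin.isValue, Fin.reduceEq, false_iff, not_lt]; linarith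
      · simp [h2]
      · simp [h2]
    unfold mass
    rw [hset, h, ENNReal.toReal_ofReal (by linarith)]
    simp only [hb, bb, mass]
    ring
  have s1 := sum_mass (config_n h01 hm).meas
  have s2 := sum_mass (config_m i0 (a := a) (b := b) (by linarith)).meas
  rw [Fin.sum_univ_three] at s1 s2
  funext j
  fin_cases j
  · exact e0
  · simp only [Fin.mk_one, Fin.isValue]
    linarith
  · exact e2

/-- the bad set -/
def bad (i0 i1 : Fin d) (m a b : ℝ) : Set (EE d) :=
  {x | x i0 ∈ Ioo a b ∧ x i1 ∈ Icc (-1) (-7 / 8)} \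
    {x | x i0 ∈ Icc (-(m / 8)) (m / 8) ∧ x i1 ∈ Icc (-1) (-7 / 8)}

omit h01 hm hm4 in
theorem measurableSet_bad (i0 i1 : Fin d) (m a b : ℝ) : MeasurableSet (bad i0 i1 m a b) := by
  unfold bad
  apply MeasurableSet.diff
  · exact ((measurable_coord i0) measurableSet_Ioo).inter ((measurable_coord i1) measurableSet_Icc)
  · exact ((measurable_coord i0) measurableSet_Icc).inter ((measurable_coord i1) measurableSet_Icc)

theorem measure_bad : ENNReal.ofReal (3 * m / 128) ≤
    uniformProbOn (Q d) (bad i0 i1 m (aa i0 i1 m) (bb i0 i1 m)) := by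
  have := isProb_cube (d := d)
  obtain ⟨a1, a2⟩ := aa_bounds h01 hm hm4
  obtain ⟨b1, b2⟩ := bb_bounds h01 hm hm4
  have hw := n1_lower h01 hm hm4
  have hba := bb_sub_aa h01 hm hm4
  set a := aa i0 i1 m with ha
  set b := bb i0 i1 m with hb
  have h1 := cube_Ioo_Icc h01 (a := a) (b := b) (p := -1) (q := -7 / 8) (by linarith) (by linarith)
    (by linarith) (by norm_num) (by norm_num) (by norm_num)
  have h2 := cube_Icc h01 (a := -(m / 8)) (b := m / 8) (p := -1) (q := -7 / 8) (by linarith)
    (by linarith) (by linarith) (by norm_num) (by norm_num) (by norm_num)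
  unfold bad
  refine le_trans ?_ (le_measure_diff)
  rw [h1, h2, ← ENNReal.ofReal_sub _ (by nlinarith)]
  apply ENNReal.ofReal_le_ofReal
  nlinarith

end mu

/-- On the bad set the two optimal maps are at distance one. -/
theorem dist_on_bad {i0 i1 : Fin d} {m a b : ℝ} (hm : 0 < m) {x : EE d}
    (hx : x ∈ bad i0 i1 m a b) {u v : EE d}
    (hu : ∃ j, u = ym i0 j ∧ ⟪x, ym i0 j⟫_ℝ - cm a b j
      = ⟪x, ym i0 (idm i0 a b x)⟫_ℝ - cm a b (idm i0 a b x))
    (hv : ∃ j, v = zn i0 i1 m j ∧ ⟪x, zn i0 i1 m j⟫_ℝ - cn m j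
      = ⟪x, zn i0 i1 m (idn i0 i1 m x)⟫_ℝ - cn m (idn i0 i1 m x)) :
    ‖u - v‖ = 1 := by
  obtain ⟨⟨⟨h1, h2⟩, ⟨h3, h4⟩⟩, hnot⟩ := hx
  have hbig : m / 8 < |x i0| := by
    by_contra hcon
    apply hnot
    exact ⟨abs_le.mp (not_lt.mp hcon), h3, h4⟩
  have hu0 : u = 0 := by
    obtain ⟨j, hj, hje⟩ := hu
    rw [aff_m, aff_m] at hje
    have hid : idm i0 a b x = 1 := by
      unfold idm
      rw [if_neg (by linarith), if_neg (by linarith)]
    rw [hid] at hje
    fin_cases j
    · simp at hje; linarith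
    · rw [hj]; simp [ym]
    · simp at hje; linarith
  have hnorm : ‖EuclideanSpace.single i0 (1 : ℝ)‖ = 1 := by simp
  obtain ⟨j, hj, hje⟩ := hv
  rw [aff_n, aff_n] at hje
  have hlt : m * (1 + x i1) < |x i0| := by nlinarith
  have hmax : ![- x i0, m * (1 + x i1), x i0] (idn i0 i1 m x) = |x i0| := by
    unfold idn
    rw [if_neg (not_le.mpr hlt)]
    split_ifs with h5
    · simp [abs_of_neg h5]
    · simp [abs_of_nonneg (not_lt.mp h5)]
  rw [hmax] at hje
  rw [hu0, hj, zero_sub, norm_neg]
  fin_cases j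
  · simp [zn]
  · simp at hje; linarith
  · simp [zn]

end Crest.Agent.S0110
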