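import Mathlib

/-! Row 82, S0110, package N: choice of the small parameter.  `3 α > 1`, so `C (2 m^3)^α / m → 0` as `m → 0+`. -/

set_option autoImplicit false
open scoped ENNReal NNReal

namespace Crest.Agent.S0110

theorem exists_small (α : ℝ) (hα : 1 / 3 < α) (C : ℝ≥0) :
    ∃ m : ℝ, 0 < m ∧ m ≤ 1 / 4 ∧
      (C : ℝ≥0∞) * (ENNReal.ofReal (2 * m ^ 3)) ^ α < ENNReal.ofReal (3 * m / 128) := by
  set β : ℝ := 3 * α - 1 with hβ
  have hβpos : 0 < β := by rw [hβ]; linarith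
  set A : ℝ := (C : ℝ) * (2 : ℝ) ^ α + 1 with hA
  have h2α : 0 < (2 : ℝ) ^ α := Real.rpow_pos_of_pos two_pos _
  have hApos : 0 < A := by
    have : 0 ≤ (C : ℝ) * (2 : ℝ) ^ α := mul_nonneg C.coe_nonneg h2α.le
    rw [hA]; linarith
  set q : ℝ := 3 / (256 * A) with hq
  have hqpos : 0 < q := by rw [hq]; positivity
  set m₀ : ℝ := q ^ (1 / β) with hm₀
  have hm₀pos : 0 < m₀ := Real.rpow_pos_of_pos hqpos _
  set m : ℝ := min (1 / 4) m₀ with hm
  have hmpos : 0 < m := lt_min (by norm_num) hm₀pos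
  have hmle : m ≤ 1 / 4 := min_le_left _ _
  have hmle₀ : m ≤ m₀ := min_le_right _ _
  refine ⟨m, hmpos, hmle, ?_⟩
  have hmβ : m ^ β ≤ q := by
    calc m ^ β ≤ m₀ ^ β := Real.rpow_le_rpow hmpos.le hmle₀ hβpos.le
      _ = q := by
        rw [hm₀, ← Real.rpow_mul hqpos.le, one_div, inv_mul_cancel₀ hβpos.ne', Real.rpow_one]
  have hpos3 : 0 < 2 * m ^ 3 := by positivity
  have hreal : (C : ℝ) * (2 * m ^ 3) ^ α < 3 * m / 128 := by
    have e1 : (2 * m ^ 3) ^ α = (2 : ℝ) ^ α * (m ^ β * m) := by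
      rw [Real.mul_rpow two_pos.le (by positivity)]
      congr 1
      rw [← Real.rpow_natCast m 3, ← Real.rpow_mul hmpos.le]
      have : m ^ β * m = m ^ (β + 1) := by
        rw [Real.rpow_add hmpos, Real.rpow_one]
      rw [this]
      congr 1
      rw [hβ]; push_cast; ring
    rw [e1]
    have e2 : (C : ℝ) * (2 : ℝ) ^ α * m ^ β ≤ A * q := by
      have h1 : (C : ℝ) * (2 : ℝ) ^ α ≤ A := by rw [hA]; linarith
      have h0 : 0 ≤ m ^ β := Real.rpow_nonneg hmpos.le _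
      exact mul_le_mul h1 hmβ h0 hApos.le
    have e3 : A * q = 3 / 256 := by
      rw [hq]; field_simp
    have e4 : (C : ℝ) * ((2 : ℝ) ^ α * (m ^ β * m)) = ((C : ℝ) * (2 : ℝ) ^ α * m ^ β) * m := by ring
    rw [e4]
    have : ((C : ℝ) * (2 : ℝ) ^ α * m ^ β) * m ≤ 3 / 256 * m :=
      mul_le_mul_of_nonneg_right (e2.trans e3.le) hmpos.le
    linarith
  rw [ENNReal.ofReal_rpow_of_pos hpos3, ← ENNReal.ofReal_coe_nnreal (p := C),
    ← ENNReal.ofReal_mul C.coe_nonneg]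
  exact (ENNReal.ofReal_lt_ofReal_iff (by positivity)).2 hreal

end Crest.Agent.S0110
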