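import Crest.Agent.S0110_Defs

/-! Row 82, S0110, package P: the atom-to-atom coupling (marginals, cost), three-atomicity.
`Fin.sum_univ_three`, `Measure.map_add`, `Measure.map_smul`, `Measure.map_dirac`, `lintegral_add_measure`,
`lintegral_smul_measure`, `lintegral_dirac'`. -/

set_option autoImplicit false
open MeasureTheory Set
open scoped ENNReal NNReal InnerProductSpace
open Crest.AnalysisR.OT

namespace Crest.Agent.S0110

variable {d : ℕ}

theorem isPairCoupling_plan (w : Fin 3 → ℝ) (y z : Fin 3 → EE d) :
    IsPairCoupling (atoms w y) (atoms w z) (plan w y z) := by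
  unfold IsPairCoupling atoms plan
  simp only [Fin.sum_univ_three]
  constructor
  · rw [Measure.map_add _ _ measurable_fst, Measure.map_add _ _ measurable_fst,
      Measure.map_smul, Measure.map_smul, Measure.map_smul,
      Measure.map_dirac' measurable_fst, Measure.map_dirac' measurable_fst,
      Measure.map_dirac' measurable_fst]
  · rw [Measure.map_add _ _ measurable_snd, Measure.map_add _ _ measurable_snd,
      Measure.map_smul, Measure.map_smul, Measure.map_smul,
      Measure.map_dirac' measurable_snd, Measure.map_dirac' measurable_snd,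
      Measure.map_dirac' measurable_snd]

theorem quadCost_plan (w : Fin 3 → ℝ) (y z : Fin 3 → EE d) :
    quadCost (plan w y z) = ∑ j, ENNReal.ofReal (w j) * ‖y j - z j‖ₑ ^ 2 := by
  unfold quadCost plan
  have hm : Measurable (fun p : EE d × EE d => ‖p.1 - p.2‖ₑ ^ 2) :=
    ((measurable_fst.sub measurable_snd).enorm).pow_const 2
  simp only [Fin.sum_univ_three]
  rw [lintegral_add_measure, lintegral_add_measure, lintegral_smul_measure,
    lintegral_smul_measure, lintegral_smul_measure, lintegral_dirac' _ hm, lintegral_dirac' _ hm,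
    lintegral_dirac' _ hm]
  simp only [smul_eq_mul]

theorem isThreeAtomic_atoms {w : Fin 3 → ℝ} (hw : ∀ j, 0 < w j) {y : Fin 3 → EE d}
    (hy : Function.Injective y) : IsThreeAtomic (atoms w y) :=
  ⟨y, hy, w, hw, rfl⟩

theorem isProbabilityOn_atoms {w : Fin 3 → ℝ} (hw : ∀ j, 0 < w j) (hs : ∑ j, w j = 1)
    {y : Fin 3 → EE d} {Y : Set (EE d)} (hY : MeasurableSet Y) (hy : ∀ j, y j ∈ Y) :
    IsProbabilityOn Y (atoms w y) := by
  unfold IsProbabilityOn atoms
  constructor
  · constructor
    simp only [Measure.coe_finsetSum, Measure.coe_smul, Finset.sum_apply, Pi.smul_apply,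
      measure_univ, smul_eq_mul, mul_one]
    rw [← ENNReal.ofReal_sum_of_nonneg (fun j _ => (hw j).le), hs, ENNReal.ofReal_one]
  · simp only [Measure.coe_finsetSum, Measure.coe_smul, Finset.sum_apply, Pi.smul_apply,
      smul_eq_mul]
    refine Finset.sum_eq_zero (fun j _ => ?_)
    rw [Measure.dirac_apply' _ hY.compl]
    simp [hy j]

end Crest.Agent.S0110
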