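-- Statement S0110 (row 82): sharpness of the exponent one third.  Proof by helper9 (+ helper22 Geom/Cube, Plan, Num packages).
import Crest.Statements.S0110
import Crest.Agent.S0110_Config
import Crest.Agent.S0110_Plan
import Crest.Agent.S0110_Num

set_option autoImplicit false
open MeasureTheory
open scoped ENNReal NNReal
open Crest.AnalysisR.OT
open Crest Crest.AnalysisR Crest.AnalysisR.OT

namespace Crest.Agent.S0110

theorem main
    (d : ℕ) (hd : 2 ≤ d) (α : ℝ) (hα : 1 / 3 < α) (C : ℝ≥0) :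
    ∃ μ ν : Measure (EE d),
      IsProbabilityOn (Q d) μ ∧
      IsProbabilityOn (Q d) ν ∧
      IsThreeAtomic μ ∧ IsThreeAtomic ν ∧
      (∃ T, IsOptimalMap (uniformProbOn (Q d)) μ T) ∧
      (∃ T, IsOptimalMap (uniformProbOn (Q d)) ν T) ∧
      ∀ Tμ Tν : EE d → EE d,
        IsOptimalMap (uniformProbOn (Q d)) μ Tμ →
        IsOptimalMap (uniformProbOn (Q d)) ν Tν →
        ∃ π : Measure (EE d × EE d), IsPairCoupling μ ν π ∧
          (C : ℝ≥0∞) * quadCost π ^ α < ∫⁻ x, ‖Tμ x - Tν x‖ₑ ^ 2 ∂(uniformProbOn (Q d)) := by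
  obtain ⟨m, hm, hm4, hnum⟩ := exists_small α hα C
  set i0 : Fin d := ⟨0, by omega⟩ with hi0
  set i1 : Fin d := ⟨1, by omega⟩ with hi1
  have h01 : i0 ≠ i1 := by simp [hi0, hi1, Fin.ext_iff]
  have hprob := isProb_cube (d := d)
  obtain ⟨a1, a2⟩ := aa_bounds h01 hm hm4
  obtain ⟨b1, b2⟩ := bb_bounds h01 hm hm4
  have hba := bb_sub_aa h01 hm hm4
  have hmeq := mass_eq h01 hm hm4
  have hbad := measure_bad h01 hm hm4
  set a := aa i0 i1 m with ha
  set b := bb i0 i1 m with hb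
  have cN := config_n h01 hm
  have cM := config_m i0 (a := a) (b := b) (by linarith)
  set w := mass (idn i0 i1 m) with hw
  have hD : ∀ᵐ x ∂(uniformProbOn (Q d)), ‖x‖ ≤ (d : ℝ) :=
    ae_mem_cube.mono (fun x hx => norm_le_of_mem_cube hx)
  have eμ : (uniformProbOn (Q d)).map (fun x => ym i0 (idm i0 a b x)) = atoms w (ym i0) := by
    rw [map_eq_atoms _ cM.meas]
    congr 1
  have eν : (uniformProbOn (Q d)).map (fun x => zn i0 i1 m (idn i0 i1 m x))
      = atoms w (zn i0 i1 m) := map_eq_atoms _ cN.meas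
  have hw1 : m / 2 ≤ w 1 := n1_lower h01 hm hm4
  have hw1' : w 1 ≤ 2 * m := by linarith
  have hwpos : ∀ j, 0 < w j := by
    intro j
    have h0 := n0_lower h01 hm hm4
    have h2 := n2_lower h01 hm hm4
    fin_cases j
    · simp only [Fin.zero_eta, Fin.isValue]; linarith
    · simp only [Fin.mk_one, Fin.isValue]; linarith
    · simp only [Fin.reduceFinMk, Fin.isValue]; linarith
  have hws : ∑ j, w j = 1 := sum_mass cN.meas
  have hQm : MeasurableSet (Q d) := Geom.measurableSet_cube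
  have hyQ : ∀ j, ym i0 j ∈ Q d := by
    intro j k
    fin_cases j
    · by_cases hk : k = i0 <;> simp [ym, hk]
    · simp [ym]
    · by_cases hk : k = i0 <;> simp [ym, hk]
  have hzQ : ∀ j, zn i0 i1 m j ∈ Q d := by
    intro j k
    fin_cases j
    · by_cases hk : k = i0 <;> simp [zn, hk]
    · by_cases hk : k = i1
      · simp only [zn, hk]
        simp only [Fin.mk_one, Fin.isValue, Matrix.cons_val_one, Matrix.cons_val_zero, PiLp.smul_apply,
          PiLp.single_apply, if_true, smul_eq_mul, mul_one]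
        rw [abs_of_pos hm]; linarith
      · simp [zn, hk]
    · by_cases hk : k = i0 <;> simp [zn, hk]
  refine ⟨atoms w (ym i0), atoms w (zn i0 i1 m), isProbabilityOn_atoms hwpos hws hQm hyQ,
    isProbabilityOn_atoms hwpos hws hQm hzQ, isThreeAtomic_atoms hwpos cM.inj,
    isThreeAtomic_atoms hwpos cN.inj, ⟨_, eμ ▸ isOptimalMap_config cM hD⟩,
    ⟨_, eν ▸ isOptimalMap_config cN hD⟩, ?_⟩
  intro Tμ Tν hTμ hTν
  refine ⟨plan w (ym i0) (zn i0 i1 m), isPairCoupling_plan _ _ _, ?_⟩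
  have hcost : quadCost (plan w (ym i0) (zn i0 i1 m)) ≤ ENNReal.ofReal (2 * m ^ 3) := by
    rw [quadCost_plan, Fin.sum_univ_three]
    have e0 : ym i0 0 - zn i0 i1 m 0 = 0 := by simp [ym, zn]
    have e2 : ym i0 2 - zn i0 i1 m 2 = 0 := by simp [ym, zn]
    have e1 : ‖ym i0 1 - zn i0 i1 m 1‖ₑ = ENNReal.ofReal m := by
      rw [← ofReal_norm]
      congr 1
      simp [ym, zn, norm_smul, abs_of_pos hm]
    rw [e0, e2, e1]
    simp only [enorm_zero, ne_eq, OfNat.ofNat_ne_zero, not_false_eq_true, zero_pow, mul_zero,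
      zero_add, add_zero]
    rw [← ENNReal.ofReal_pow hm.le, ← ENNReal.ofReal_mul (hwpos 1).le]
    apply ENNReal.ofReal_le_ofReal
    nlinarith [pow_pos hm 2]
  have hlow : ENNReal.ofReal (3 * m / 128) ≤ ∫⁻ x, ‖Tμ x - Tν x‖ₑ ^ 2 ∂(uniformProbOn (Q d)) := by
    rw [← eμ] at hTμ
    rw [← eν] at hTν
    have r1 := rigid cM hD hTμ
    have r2 := rigid cN hD hTν
    calc ENNReal.ofReal (3 * m / 128) ≤ uniformProbOn (Q d) (bad i0 i1 m a b) := hbad
      _ = ∫⁻ x, (bad i0 i1 m a b).indicator 1 x ∂(uniformProbOn (Q d)) :=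
          (lintegral_indicator_one (measurableSet_bad i0 i1 m a b)).symm
      _ ≤ ∫⁻ x, ‖Tμ x - Tν x‖ₑ ^ 2 ∂(uniformProbOn (Q d)) := by
          apply lintegral_mono_ae
          filter_upwards [r1, r2] with x hx1 hx2
          by_cases hx : x ∈ bad i0 i1 m a b
          · rw [Set.indicator_of_mem hx]
            have := dist_on_bad hm hx hx1 hx2
            rw [← ofReal_norm, this]
            simp
          · rw [Set.indicator_of_notMem hx]
            exact zero_le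
  calc (C : ℝ≥0∞) * quadCost (plan w (ym i0) (zn i0 i1 m)) ^ α
      ≤ (C : ℝ≥0∞) * (ENNReal.ofReal (2 * m ^ 3)) ^ α := by
        gcongr
    _ < ENNReal.ofReal (3 * m / 128) := hnum
    _ ≤ _ := hlow

/-- The exponent one third is optimal, even on the cube with three-atom targets: for d ≥ 2, ρ the uniform probability measure on the cube of points of ℝᵈ with all coordinates in [-1, 1], every α > 1/3 and every C ≥ 0, there are three-atomic probability measures μ, ν on that cube, each admitting a quadratic optimal transport map from ρ, such that for all such optimal maps Tμ, Tν some coupling π of μ, ν has C · (∫ ‖y - z‖² dπ)^α < ∫ ‖Tμ - Tν‖² dρ. Hence ‖Tμ - Tν‖_{L²(ρ)} > √C · W₂(μ, ν)^α. -/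
theorem result
    (d : ℕ) (hd : 2 ≤ d) (α : ℝ) (hα : 1 / 3 < α) (C : ℝ≥0) :
    ∃ μ ν : Measure (EuclideanSpace ℝ (Fin d)),
      IsProbabilityOn {x : EuclideanSpace ℝ (Fin d) | ∀ i, |x i| ≤ 1} μ ∧
      IsProbabilityOn {x : EuclideanSpace ℝ (Fin d) | ∀ i, |x i| ≤ 1} ν ∧
      IsThreeAtomic μ ∧ IsThreeAtomic ν ∧
      (∃ T, IsOptimalMap (uniformProbOn {x : EuclideanSpace ℝ (Fin d) | ∀ i, |x i| ≤ 1}) μ T) ∧
      (∃ T, IsOptimalMap (uniformProbOn {x : EuclideanSpace ℝ (Fin d) | ∀ i, |x i| ≤ 1}) ν T) ∧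
      ∀ Tμ Tν : EuclideanSpace ℝ (Fin d) → EuclideanSpace ℝ (Fin d),
        IsOptimalMap (uniformProbOn {x : EuclideanSpace ℝ (Fin d) | ∀ i, |x i| ≤ 1}) μ Tμ →
        IsOptimalMap (uniformProbOn {x : EuclideanSpace ℝ (Fin d) | ∀ i, |x i| ≤ 1}) ν Tν →
        ∃ π : Measure (EuclideanSpace ℝ (Fin d) × EuclideanSpace ℝ (Fin d)), IsPairCoupling μ ν π ∧
          (C : ℝ≥0∞) * quadCost π ^ α < ∫⁻ x, ‖Tμ x - Tν x‖ₑ ^ 2 ∂(uniformProbOn {x : EuclideanSpace ℝ (Fin d) | ∀ i, |x i| ≤ 1}) := by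
  exact main d hd α hα C

end Crest.Agent.S0110
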