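import Mathlib
import Crest.Prelude.Def_QuadraticTransport

/-! # Row 82, S0110 (sharpness): shared definitions.  Owner of the statement: helper9. -/

set_option autoImplicit false
open MeasureTheory Set
open scoped ENNReal NNReal InnerProductSpace
open Crest.AnalysisR.OT

namespace Crest.Agent.S0110

/-- The ambient Euclidean space. -/
abbrev EE (d : ℕ) := EuclideanSpace ℝ (Fin d)

/-- The cube `[-1,1]^d` (syntactically the set of the statement). -/
def Q (d : ℕ) : Set (EE d) := {x : EuclideanSpace ℝ (Fin d) | ∀ i, |x i| ≤ 1}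

/-- The discrete measure with atoms `y j` and masses `w j`. -/
noncomputable def atoms {d : ℕ} (w : Fin 3 → ℝ) (y : Fin 3 → EE d) : Measure (EE d) :=
  ∑ j, ENNReal.ofReal (w j) • Measure.dirac (y j)

/-- The atom-to-atom coupling. -/
noncomputable def plan {d : ℕ} (w : Fin 3 → ℝ) (y z : Fin 3 → EE d) : Measure (EE d × EE d) :=
  ∑ j, ENNReal.ofReal (w j) • Measure.dirac (y j, z j)

end Crest.Agent.S0110
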