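import Crest.Agent.S0110_Defs

/-! Row 82, S0110, package D: optimality and a.e. rigidity of optimal maps for finite targets (duality). -/

set_option autoImplicit false
open MeasureTheory Set Filter
open scoped ENNReal NNReal InnerProductSpace
open Crest.AnalysisR.OT

namespace Crest.Agent.S0110

variable {d : ℕ}

/-- `i x` is a maximiser of `j ↦ ⟪x, y j⟫ - c j`. -/
structure Config (y : Fin 3 → EE d) (c : Fin 3 → ℝ) (i : EE d → Fin 3) : Prop where
  meas : Measurable i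
  inj : Function.Injective y
  max : ∀ x j, ⟪x, y j⟫_ℝ - c j ≤ ⟪x, y (i x)⟫_ℝ - c (i x)

namespace Disc

/-- the dual weight as a function on the target space -/
noncomputable def psi (y : Fin 3 → EE d) (c : Fin 3 → ℝ) (v : EE d) : ℝ :=
  ∑ j, ({y j} : Set (EE d)).indicator (fun _ => c j) v

theorem measurable_psi (y : Fin 3 → EE d) (c : Fin 3 → ℝ) : Measurable (psi y c) := by
  unfold psi
  apply Finset.measurable_sum
  intro j _
  exact measurable_const.indicator (measurableSet_singleton _)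

theorem psi_apply {y : Fin 3 → EE d} (hy : Function.Injective y) (c : Fin 3 → ℝ) (j : Fin 3) :
    psi y c (y j) = c j := by
  unfold psi
  rw [Finset.sum_eq_single j]
  · simp
  · intro k _ hk
    apply indicator_of_notMem
    simp only [mem_singleton_iff]
    exact fun h => hk (hy h).symm
  · simp

theorem abs_psi_le (y : Fin 3 → EE d) (c : Fin 3 → ℝ) (v : EE d) : |psi y c v| ≤ ∑ j, |c j| := by
  unfold psi
  refine (Finset.abs_sum_le_sum_abs _ _).trans (Finset.sum_le_sum (fun j _ => ?_))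
  by_cases h : v ∈ ({y j} : Set (EE d))
  · rw [indicator_of_mem h]
  · rw [indicator_of_notMem h]; simp

end Disc

open Disc

variable {ρ : Measure (EE d)} [IsProbabilityMeasure ρ]

/-- A map with the same image measure takes its values in the atoms. -/
theorem ae_mem_range {y : Fin 3 → EE d} {i : EE d → Fin 3} (hi : Measurable i)
    {S : EE d → EE d} (hS : Measurable S) (hmap : ρ.map S = ρ.map (fun x => y (i x))) :
    ∀ᵐ x ∂ρ, ∃ j, S x = y j := by
  have hT : Measurable (fun x => y (i x)) := (measurable_of_finite y).comp hi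
  have hm : MeasurableSet (range y)ᶜ := (finite_range y).measurableSet.compl
  have h1 : ρ.map S (range y)ᶜ = 0 := by
    rw [hmap, Measure.map_apply hT hm]
    have : (fun x => y (i x)) ⁻¹' (range y)ᶜ = ∅ := by
      ext x; simp
    rw [this]; simp
  rw [Measure.map_apply hS hm, measure_eq_zero_iff_ae_notMem] at h1
  filter_upwards [h1] with x hx
  simpa [eq_comm] using hx

/-- the potential -/
noncomputable def phi (y : Fin 3 → EE d) (c : Fin 3 → ℝ) (i : EE d → Fin 3) (x : EE d) : ℝ :=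
  ⟪x, y (i x)⟫_ℝ - c (i x)

/-- the duality gap of a map -/
noncomputable def gap (y : Fin 3 → EE d) (c : Fin 3 → ℝ) (i : EE d → Fin 3) (S : EE d → EE d)
    (x : EE d) : ℝ :=
  phi y c i x + psi y c (S x) - ⟪x, S x⟫_ℝ

theorem measurable_phi {y : Fin 3 → EE d} {c : Fin 3 → ℝ} {i : EE d → Fin 3} (hi : Measurable i) :
    Measurable (phi y c i) := by
  unfold phi
  have hT : Measurable (fun x => y (i x)) := (measurable_of_finite y).comp hi
  have hc : Measurable (fun x => c (i x)) := (measurable_of_finite c).comp hi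
  exact (measurable_id.inner hT).sub hc

theorem norm_y_le (y : Fin 3 → EE d) (j : Fin 3) : ‖y j‖ ≤ ∑ k, ‖y k‖ :=
  Finset.single_le_sum (f := fun k => ‖y k‖) (fun _ _ => norm_nonneg _) (Finset.mem_univ j)

theorem abs_c_le (c : Fin 3 → ℝ) (j : Fin 3) : |c j| ≤ ∑ k, |c k| :=
  Finset.single_le_sum (f := fun k => |c k|) (fun _ _ => abs_nonneg _) (Finset.mem_univ j)

theorem sq_identity (y : Fin 3 → EE d) (c : Fin 3 → ℝ) (i : EE d → Fin 3) (S : EE d → EE d)
    (x : EE d) :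
    ‖x - S x‖ ^ 2 = (‖x‖ ^ 2 - 2 * phi y c i x) + (‖S x‖ ^ 2 - 2 * psi y c (S x))
      + 2 * gap y c i S x := by
  unfold gap
  rw [norm_sub_sq_real]
  ring

theorem cost_decomp {y : Fin 3 → EE d} {c : Fin 3 → ℝ} {i : EE d → Fin 3} (hc : Config y c i)
    {D : ℝ} (hD : ∀ᵐ x ∂ρ, ‖x‖ ≤ D) {S : EE d → EE d} (hS : Measurable S)
    (hmap : ρ.map S = ρ.map (fun x => y (i x))) :
    Integrable (fun x => ‖x - S x‖ ^ 2) ρ ∧ Integrable (gap y c i S) ρ ∧
      (∀ᵐ x ∂ρ, 0 ≤ gap y c i S x) ∧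
      ∫ x, ‖x - S x‖ ^ 2 ∂ρ = ∫ x, (‖x‖ ^ 2 - 2 * phi y c i x) ∂ρ
        + ∫ v, (‖v‖ ^ 2 - 2 * psi y c v) ∂(ρ.map (fun x => y (i x))) + 2 * ∫ x, gap y c i S x ∂ρ := by
  set Y : ℝ := ∑ k, ‖y k‖ with hY
  set Cc : ℝ := ∑ k, |c k| with hCc
  have hY0 : 0 ≤ Y := Finset.sum_nonneg (fun _ _ => norm_nonneg _)
  have hr := ae_mem_range (ρ := ρ) hc.meas hS hmap
  have hmphi := measurable_phi (y := y) (c := c) hc.meas
  have hmpsi := measurable_psi y c
  have i1 : Integrable (fun x => ‖x - S x‖ ^ 2) ρ := by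
    refine Integrable.of_bound ((measurable_id.sub hS).norm.pow_const 2).aestronglyMeasurable
      ((D + Y) ^ 2) ?_
    · filter_upwards [hD, hr] with x hx ⟨j, hj⟩
      rw [Real.norm_eq_abs, abs_of_nonneg (by positivity)]
      have h1 : ‖x - S x‖ ≤ D + Y := by
        calc ‖x - S x‖ ≤ ‖x‖ + ‖S x‖ := norm_sub_le _ _
          _ ≤ D + Y := by rw [hj]; exact add_le_add hx (norm_y_le y j)
      exact pow_le_pow_left₀ (norm_nonneg _) h1 2
  have i2 : Integrable (fun x => ‖x‖ ^ 2 - 2 * phi y c i x) ρ := by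
    refine Integrable.of_bound
      ((measurable_id.norm.pow_const 2).sub (hmphi.const_mul 2)).aestronglyMeasurable
      (D ^ 2 + 2 * (D * Y + Cc)) ?_
    · filter_upwards [hD] with x hx
      have h1 : |phi y c i x| ≤ D * Y + Cc := by
        unfold phi
        calc |⟪x, y (i x)⟫_ℝ - c (i x)| ≤ |⟪x, y (i x)⟫_ℝ| + |c (i x)| := abs_sub _ _
          _ ≤ ‖x‖ * ‖y (i x)‖ + Cc := add_le_add (abs_real_inner_le_norm _ _) (abs_c_le c _)
          _ ≤ D * Y + Cc := by
              gcongr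
              · exact le_trans (norm_nonneg _) hx
              · exact norm_y_le y _
      have h2 : ‖x‖ ^ 2 ≤ D ^ 2 := pow_le_pow_left₀ (norm_nonneg _) hx 2
      rw [Real.norm_eq_abs]
      calc |‖x‖ ^ 2 - 2 * phi y c i x| ≤ |‖x‖ ^ 2| + |2 * phi y c i x| := abs_sub _ _
        _ = ‖x‖ ^ 2 + 2 * |phi y c i x| := by
            rw [abs_of_nonneg (by positivity), abs_mul]; norm_num
        _ ≤ _ := by linarith
  have hmh : Measurable (fun v : EE d => ‖v‖ ^ 2 - 2 * psi y c v) :=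
    (measurable_id.norm.pow_const 2).sub (hmpsi.const_mul 2)
  have i3 : Integrable (fun x => ‖S x‖ ^ 2 - 2 * psi y c (S x)) ρ := by
    refine Integrable.of_bound (hmh.comp hS).aestronglyMeasurable (Y ^ 2 + 2 * Cc) ?_
    · filter_upwards [hr] with x ⟨j, hj⟩
      have h2 : ‖S x‖ ^ 2 ≤ Y ^ 2 := by
        rw [hj]; exact pow_le_pow_left₀ (norm_nonneg _) (norm_y_le y j) 2
      have h1 := abs_psi_le y c (S x)
      rw [Real.norm_eq_abs]
      calc |‖S x‖ ^ 2 - 2 * psi y c (S x)| ≤ |‖S x‖ ^ 2| + |2 * psi y c (S x)| := abs_sub _ _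
        _ = ‖S x‖ ^ 2 + 2 * |psi y c (S x)| := by
            rw [abs_of_nonneg (by positivity), abs_mul]; norm_num
        _ ≤ _ := by linarith
  have hgap : gap y c i S = fun x => (1 / 2 : ℝ) * (‖x - S x‖ ^ 2 - (‖x‖ ^ 2 - 2 * phi y c i x)
      - (‖S x‖ ^ 2 - 2 * psi y c (S x))) := by
    funext x
    rw [sq_identity y c i S x]; ring
  have i4 : Integrable (gap y c i S) ρ := by
    rw [hgap]
    exact ((i1.sub i2).sub i3).const_mul _
  refine ⟨i1, i4, ?_, ?_⟩
  · filter_upwards [hr] with x ⟨j, hj⟩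
    unfold gap phi
    rw [hj, psi_apply hc.inj]
    have := hc.max x j
    linarith
  · have e1 : ∫ v, (‖v‖ ^ 2 - 2 * psi y c v) ∂(ρ.map (fun x => y (i x)))
        = ∫ x, (‖S x‖ ^ 2 - 2 * psi y c (S x)) ∂ρ := by
      rw [← hmap, integral_map hS.aemeasurable hmh.aestronglyMeasurable]
    have i5 : Integrable (fun x => (‖x‖ ^ 2 - 2 * phi y c i x)
        + (‖S x‖ ^ 2 - 2 * psi y c (S x))) ρ := i2.add i3
    have e2 : ∫ x, ‖x - S x‖ ^ 2 ∂ρ = ∫ x, (((‖x‖ ^ 2 - 2 * phi y c i x)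
        + (‖S x‖ ^ 2 - 2 * psi y c (S x))) + 2 * gap y c i S x) ∂ρ := by
      apply integral_congr_ae
      filter_upwards with x
      exact sq_identity y c i S x
    rw [e2, integral_add i5 (i4.const_mul 2), integral_add i2 i3, integral_const_mul, e1]

omit [IsProbabilityMeasure ρ] in
theorem lintegral_cost {S : EE d → EE d} (hint : Integrable (fun x => ‖x - S x‖ ^ 2) ρ) :
    ∫⁻ x, ‖x - S x‖ₑ ^ 2 ∂ρ = ENNReal.ofReal (∫ x, ‖x - S x‖ ^ 2 ∂ρ) := by
  rw [ofReal_integral_eq_lintegral_ofReal hint (ae_of_all _ (fun x => by positivity))]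
  congr 1
  funext x
  rw [ENNReal.ofReal_pow (norm_nonneg _), ofReal_norm]

theorem gap_self {y : Fin 3 → EE d} {c : Fin 3 → ℝ} {i : EE d → Fin 3} (hc : Config y c i)
    (x : EE d) : gap y c i (fun x => y (i x)) x = 0 := by
  unfold gap phi
  rw [psi_apply hc.inj]
  ring

theorem isOptimalMap_config {y : Fin 3 → EE d} {c : Fin 3 → ℝ} {i : EE d → Fin 3}
    (hc : Config y c i) {D : ℝ} (hD : ∀ᵐ x ∂ρ, ‖x‖ ≤ D) :
    IsOptimalMap ρ (ρ.map (fun x => y (i x))) (fun x => y (i x)) := by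
  have hT : Measurable (fun x => y (i x)) := (measurable_of_finite y).comp hc.meas
  refine ⟨hT, rfl, fun S hS hmap => ?_⟩
  obtain ⟨a1, _, _, a4⟩ := cost_decomp hc hD hT rfl
  obtain ⟨b1, _, b3, b4⟩ := cost_decomp hc hD hS hmap
  rw [lintegral_cost a1, lintegral_cost b1]
  apply ENNReal.ofReal_le_ofReal
  rw [a4, b4]
  have h0 : ∫ x, gap y c i (fun x => y (i x)) x ∂ρ = 0 := by
    simp only [gap_self hc, integral_zero]
  have h1 : 0 ≤ ∫ x, gap y c i S x ∂ρ := integral_nonneg_of_ae b3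
  rw [h0]
  linarith

theorem rigid {y : Fin 3 → EE d} {c : Fin 3 → ℝ} {i : EE d → Fin 3}
    (hc : Config y c i) {D : ℝ} (hD : ∀ᵐ x ∂ρ, ‖x‖ ≤ D) {T : EE d → EE d}
    (hT : IsOptimalMap ρ (ρ.map (fun x => y (i x))) T) :
    ∀ᵐ x ∂ρ, ∃ j, T x = y j ∧ ⟪x, y j⟫_ℝ - c j = ⟪x, y (i x)⟫_ℝ - c (i x) := by
  have hT0 : Measurable (fun x => y (i x)) := (measurable_of_finite y).comp hc.meas
  obtain ⟨a1, _, _, a4⟩ := cost_decomp hc hD hT0 rfl
  obtain ⟨b1, b2, b3, b4⟩ := cost_decomp hc hD hT.1 hT.2.1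
  have h := hT.2.2 _ hT0 rfl
  rw [lintegral_cost a1, lintegral_cost b1] at h
  have h' := (ENNReal.ofReal_le_ofReal_iff (integral_nonneg (fun x => by positivity))).1 h
  rw [a4, b4] at h'
  have h0 : ∫ x, gap y c i (fun x => y (i x)) x ∂ρ = 0 := by
    simp only [gap_self hc, integral_zero]
  rw [h0] at h'
  have h1 : 0 ≤ ∫ x, gap y c i T x ∂ρ := integral_nonneg_of_ae b3
  have h2 : ∫ x, gap y c i T x ∂ρ = 0 := by linarith
  have h3 := (integral_eq_zero_iff_of_nonneg_ae b3 b2).1 h2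
  filter_upwards [h3, ae_mem_range (ρ := ρ) hc.meas hT.1 hT.2.1] with x hx ⟨j, hj⟩
  refine ⟨j, hj, ?_⟩
  simp only [gap, phi, Pi.zero_apply] at hx
  rw [hj, psi_apply hc.inj] at hx
  linarith

theorem map_eq_atoms (y : Fin 3 → EE d) {i : EE d → Fin 3} (hi : Measurable i) :
    ρ.map (fun x => y (i x)) = atoms (fun j => (ρ (i ⁻¹' {j})).toReal) y := by
  have hy : Measurable y := measurable_of_finite y
  have h1 : ρ.map (fun x => y (i x)) = (ρ.map i).map y := (Measure.map_map hy hi).symm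
  have h2 : ρ.map i = ∑ j, (ρ.map i {j}) • Measure.dirac j := by
    conv_lhs => rw [← Measure.sum_smul_dirac (ρ.map i)]
    rw [Measure.sum_fintype]
  rw [h1, h2]
  unfold atoms
  rw [Measure.map_finset_sum hy.aemeasurable]
  refine Finset.sum_congr rfl (fun j _ => ?_)
  rw [Measure.map_smul, Measure.map_dirac' hy, Measure.map_apply hi (measurableSet_singleton j),
    ENNReal.ofReal_toReal (measure_ne_top _ _)]

end Crest.Agent.S0110
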