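/-
Row 84 (S0112), package Q3: an `L¹` kernel whose Fourier transform is a bump function adapted to the
window `[s - δ, s + δ] ⊆ [s - 4δ, s + 4δ]`, with `L¹` norm bounded independently of `s, δ`.
Namespace `Crest.Agent.S0112`.  (Mathlib only.)  Proved by helper5.
-/
import Mathlib

set_option autoImplicit false

namespace Crest.Agent.S0112

open MeasureTheory
open scoped BoundedContinuousFunction FourierTransform ContDiff SchwartzMap

/-- the fixed bump -/
noncomputable def bump0 : ContDiffBump (0 : ℝ) := ⟨2, 3, by norm_num, by norm_num⟩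

noncomputable def bC (u : ℝ) : ℂ := ((bump0 u : ℝ) : ℂ)

theorem bC_contDiff : ContDiff ℝ ∞ bC :=
  Complex.ofRealCLM.contDiff.comp bump0.contDiff

theorem bC_compact : HasCompactSupport bC := by
  have := bump0.hasCompactSupport
  exact this.comp_left (g := fun x : ℝ => (x : ℂ)) (by simp)

noncomputable def bS : 𝓢(ℝ, ℂ) := bC_compact.toSchwartzMap bC_contDiff

noncomputable def Fb : ℝ → ℂ := 𝓕 bC

theorem Fb_integrable : Integrable Fb := by
  have : Fb = ((𝓕 bS : 𝓢(ℝ, ℂ)) : ℝ → ℂ) := by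
    rw [SchwartzMap.fourier_coe]
    rfl
  rw [this]
  exact (𝓕 bS).integrable

theorem inversion (v : ℝ) :
    bC v = ∫ w : ℝ, Complex.exp ((↑(2 * Real.pi * (w * v)) * Complex.I)) * Fb w := by
  have h1 : Integrable bC := bS.integrable
  have h2 := bC_contDiff.continuous.fourierInv_fourier_eq h1 Fb_integrable
  have h3 := congrFun h2 v
  rw [Real.fourierInv_eq'] at h3
  rw [← h3]
  simp [Fb, mul_comm]

theorem norm_bC_le (v : ℝ) : ‖bC v‖ ≤ 1 := by
  rw [bC, Complex.norm_real, Real.norm_eq_abs, abs_of_nonneg bump0.nonneg]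
  exact bump0.le_one

theorem exists_kernel : ∃ C₀ : ℝ, 0 < C₀ ∧ ∀ s δ : ℝ, 0 < δ →
    ∃ (g : ℝ → ℂ) (β : ℝ →ᵇ ℂ), Integrable g ∧ (∫ t, ‖g t‖) ≤ C₀ ∧
      (∀ u : ℝ, β u = ∫ t : ℝ, g t * Complex.exp (Complex.I * ((t * u : ℝ) : ℂ))) ∧
      (∀ u ∈ Set.Icc (s - δ) (s + δ), β u = 1) ∧
      (∀ u, u ∉ Set.Icc (s - 4 * δ) (s + 4 * δ) → β u = 0) ∧ ‖β‖ ≤ 1 := by
  refine ⟨(∫ w, ‖Fb w‖) + 1, by positivity, ?_⟩
  intro s δ hδ
  set a : ℝ := δ / (2 * Real.pi) with ha
  have hapos : 0 < a := by positivity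
  have hcont : Continuous (fun u : ℝ => bC ((u - s) / δ)) :=
    bC_contDiff.continuous.comp (by fun_prop)
  refine ⟨fun t => (a : ℂ) * Fb (a * t) * Complex.exp (-(Complex.I * ((t * s : ℝ) : ℂ))),
    BoundedContinuousFunction.ofNormedAddCommGroup (fun u : ℝ => bC ((u - s) / δ)) hcont 1
      (fun u => norm_bC_le _), ?_, ?_, ?_, ?_, ?_, ?_⟩
  · have h1 : Integrable (fun t => (a : ℂ) * Fb (a * t)) :=
      (Fb_integrable.comp_mul_left' hapos.ne').const_mul _
    refine h1.mul_bdd (c := 1) ?_ ?_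
    · exact (by fun_prop : Continuous fun t : ℝ =>
        Complex.exp (-(Complex.I * ((t * s : ℝ) : ℂ)))).aestronglyMeasurable
    · filter_upwards with t
      rw [Complex.norm_exp]
      simp
  · have h1 : ∀ t : ℝ, ‖(a : ℂ) * Fb (a * t) * Complex.exp (-(Complex.I * ((t * s : ℝ) : ℂ)))‖ =
        a * ‖Fb (a * t)‖ := by
      intro t
      rw [norm_mul, norm_mul, Complex.norm_exp, Complex.norm_real, Real.norm_eq_abs,
        abs_of_pos hapos]
      simp
    simp_rw [h1]
    rw [integral_const_mul, Measure.integral_comp_mul_left (fun w => ‖Fb w‖) a, abs_of_pos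
      (inv_pos.mpr hapos), smul_eq_mul, ← mul_assoc, mul_inv_cancel₀ hapos.ne', one_mul]
    linarith
  · intro u
    show bC ((u - s) / δ) = _
    rw [inversion]
    have h2 := Measure.integral_comp_mul_left
      (fun w : ℝ => Complex.exp ((↑(2 * Real.pi * (w * ((u - s) / δ))) * Complex.I)) * Fb w) a
    rw [abs_of_pos (inv_pos.mpr hapos)] at h2
    have h3 : (∫ w : ℝ, Complex.exp ((↑(2 * Real.pi * (w * ((u - s) / δ))) * Complex.I)) * Fb w) =
        a • ∫ t : ℝ, Complex.exp ((↑(2 * Real.pi * (a * t * ((u - s) / δ))) * Complex.I)) *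
          Fb (a * t) := by
      rw [h2, smul_smul, mul_inv_cancel₀ hapos.ne', one_smul]
    rw [h3, ← integral_smul]
    congr 1
    funext t
    have e1 : 2 * Real.pi * (a * t * ((u - s) / δ)) = t * u - t * s := by
      rw [ha]; field_simp
    rw [e1, Complex.real_smul]
    have e2 : Complex.exp (((t * u - t * s : ℝ) : ℂ) * Complex.I) =
        Complex.exp (-(Complex.I * ((t * s : ℝ) : ℂ))) *
          Complex.exp (Complex.I * ((t * u : ℝ) : ℂ)) := by
      rw [← Complex.exp_add]
      congr 1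
      push_cast
      ring
    rw [e2]
    ring
  · intro u hu
    show bC ((u - s) / δ) = 1
    have : bump0 ((u - s) / δ) = 1 := by
      apply bump0.one_of_mem_closedBall
      rw [Metric.mem_closedBall, dist_zero_right, Real.norm_eq_abs, abs_div, abs_of_pos hδ,
        div_le_iff₀ hδ]
      show |u - s| ≤ 2 * δ
      rw [abs_le]
      constructor <;> linarith [hu.1, hu.2]
    rw [bC, this]; simp
  · intro u hu
    show bC ((u - s) / δ) = 0
    have : bump0 ((u - s) / δ) = 0 := by
      apply bump0.zero_of_le_dist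
      rw [dist_zero_right, Real.norm_eq_abs, abs_div, abs_of_pos hδ, le_div_iff₀ hδ]
      show 3 * δ ≤ |u - s|
      rw [Set.mem_Icc, not_and_or, not_le, not_le] at hu
      rcases hu with h | h
      · rw [abs_of_neg (by linarith)]; linarith
      · rw [abs_of_pos (by linarith)]; linarith
    rw [bC, this]; simp
  · exact BoundedContinuousFunction.norm_ofNormedAddCommGroup_le _ zero_le_one _

end Crest.Agent.S0112
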