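/-
Row 84 (S0112), package Q1: toolkit for `LineCalculus` (bounded continuous functional calculus).
Namespace `Crest.Agent.S0112`.  Plan: notes/row84_plan.md.
-/
import Mathlib
import Crest.Prelude.Def_ModularData

set_option autoImplicit false

namespace Crest.Agent.S0112

open Crest.OpAlg MeasureTheory Filter
open scoped Topology BoundedContinuousFunction

variable {H : Type*} [NormedAddCommGroup H] [InnerProductSpace ℂ H] [CompleteSpace H]

/-- the calculus is contractive (`1 - |f|²/‖f‖² = g²` with `g` real, or the general C⋆ fact). -/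
theorem norm_apply_le (D : LineCalculus H) (f : ℝ →ᵇ ℂ) : ‖D.apply f‖ ≤ ‖f‖ :=
  NonUnitalStarAlgHom.norm_apply_le D.apply f

theorem norm_apply_apply_le (D : LineCalculus H) (f : ℝ →ᵇ ℂ) (x : H) :
    ‖D.apply f x‖ ≤ ‖f‖ * ‖x‖ :=
  (ContinuousLinearMap.le_opNorm _ _).trans
    (mul_le_mul_of_nonneg_right (norm_apply_le D f) (norm_nonneg _))

theorem apply_mul_apply (D : LineCalculus H) (f g : ℝ →ᵇ ℂ) (x : H) :
    D.apply (f * g) x = D.apply f (D.apply g x) := by
  rw [map_mul]; rfl

theorem apply_comm (D : LineCalculus H) (f g : ℝ →ᵇ ℂ) (x : H) :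
    D.apply f (D.apply g x) = D.apply g (D.apply f x) := by
  rw [← apply_mul_apply, ← apply_mul_apply, mul_comm]

theorem character_apply (t u : ℝ) :
    LineCalculus.character t u = Complex.exp (Complex.I * ((t * u : ℝ) : ℂ)) := rfl

theorem character_zero : LineCalculus.character 0 = 1 := by
  ext u; simp [character_apply]

theorem character_add (s t : ℝ) :
    LineCalculus.character (s + t) = LineCalculus.character s * LineCalculus.character t := by
  ext u
  simp only [character_apply, BoundedContinuousFunction.mul_apply, ← Complex.exp_add]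
  congr 1; push_cast; ring

theorem star_character (t : ℝ) :
    star (LineCalculus.character t) = LineCalculus.character (-t) := by
  ext u
  simp only [character_apply, BoundedContinuousFunction.star_apply]
  rw [Complex.star_def, ← Complex.exp_conj]
  congr 1
  simp [Complex.conj_ofReal]

theorem wave_zero (D : LineCalculus H) : D.wave 0 = 1 := by
  unfold LineCalculus.wave; rw [character_zero, map_one]

theorem wave_add (D : LineCalculus H) (s t : ℝ) : D.wave (s + t) = D.wave s * D.wave t := by
  unfold LineCalculus.wave; rw [character_add, map_mul]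

theorem star_wave (D : LineCalculus H) (t : ℝ) : star (D.wave t) = D.wave (-t) := by
  unfold LineCalculus.wave; rw [← map_star, star_character]

theorem wave_mem_unitary (D : LineCalculus H) (t : ℝ) : D.wave t ∈ unitary (H →L[ℂ] H) := by
  rw [Unitary.mem_iff, star_wave, ← wave_add, ← wave_add]
  simp [wave_zero]

theorem wave_neg_wave (D : LineCalculus H) (t : ℝ) (x : H) : D.wave (-t) (D.wave t x) = x := by
  have : D.wave (-t) * D.wave t = 1 := by rw [← wave_add]; simp [wave_zero]
  calc D.wave (-t) (D.wave t x) = (D.wave (-t) * D.wave t) x := rfl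
    _ = x := by rw [this]; rfl

theorem wave_wave_neg (D : LineCalculus H) (t : ℝ) (x : H) : D.wave t (D.wave (-t) x) = x := by
  simpa using wave_neg_wave D (-t) x

theorem norm_character_le (t : ℝ) : ‖LineCalculus.character t‖ ≤ 1 := by
  rw [BoundedContinuousFunction.norm_le zero_le_one]
  intro u
  rw [character_apply, Complex.norm_exp]; simp

theorem norm_wave_le (D : LineCalculus H) (t : ℝ) : ‖D.wave t‖ ≤ 1 :=
  (norm_apply_le D _).trans (norm_character_le t)

theorem norm_wave_apply (D : LineCalculus H) (t : ℝ) (x : H) : ‖D.wave t x‖ = ‖x‖ := by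
  apply le_antisymm
  · simpa using (D.wave t).le_of_opNorm_le (norm_wave_le D t) x
  · have := (D.wave (-t)).le_of_opNorm_le (norm_wave_le D (-t)) (D.wave t x)
    rw [wave_neg_wave] at this
    simpa using this

theorem inner_wave_left (D : LineCalculus H) (t : ℝ) (x y : H) :
    inner ℂ (D.wave t x) y = inner ℂ x (D.wave (-t) y) := by
  rw [← star_wave, ContinuousLinearMap.star_eq_adjoint, ContinuousLinearMap.adjoint_inner_right]

theorem wave_apply_comm (D : LineCalculus H) (t : ℝ) (f : ℝ →ᵇ ℂ) (x : H) :
    D.wave t (D.apply f x) = D.apply f (D.wave t x) :=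
  apply_comm D _ _ _

/-- the plateau function: `1` on `[-R, R]`, `0` off `[-R-1, R+1]`, values in `[0,1]`. -/
noncomputable def plateau (R : ℝ) : ℝ →ᵇ ℂ :=
  BoundedContinuousFunction.ofNormedAddCommGroup
    (fun u : ℝ => ((max 0 (min 1 (R + 1 - |u|)) : ℝ) : ℂ)) (by fun_prop) 1
    (fun u => by
      rw [Complex.norm_real, Real.norm_eq_abs, abs_of_nonneg (le_max_left _ _)]
      exact max_le zero_le_one (min_le_left _ _))

theorem plateau_apply (R u : ℝ) : plateau R u = ((max 0 (min 1 (R + 1 - |u|)) : ℝ) : ℂ) := rfl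

theorem norm_plateau_le (R : ℝ) : ‖plateau R‖ ≤ 1 := by
  rw [BoundedContinuousFunction.norm_le zero_le_one]
  intro u
  rw [plateau_apply, Complex.norm_real, Real.norm_eq_abs, abs_of_nonneg (le_max_left _ _)]
  exact max_le zero_le_one (min_le_left _ _)

theorem plateau_eq_one {R u : ℝ} (h : |u| ≤ R) : plateau R u = 1 := by
  rw [plateau_apply, min_eq_left (by linarith), max_eq_right zero_le_one]; simp

theorem plateau_eq_zero {R u : ℝ} (h : R + 1 ≤ |u|) : plateau R u = 0 := by
  rw [plateau_apply, max_eq_left ((min_le_right _ _).trans (by linarith))]; simp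

theorem hasCompactSupport_plateau (R : ℝ) : HasCompactSupport (plateau R : ℝ → ℂ) := by
  apply HasCompactSupport.intro (isCompact_Icc (a := -(R + 1)) (b := R + 1))
  intro u hu
  apply plateau_eq_zero
  by_contra hlt
  push Not at hlt
  exact hu ⟨(abs_lt.mp hlt).1.le, (abs_lt.mp hlt).2.le⟩

/-- cut-offs by plateaus approximate every vector -/
theorem exists_plateau (D : LineCalculus H) (x : H) (ε : ℝ) (hε : 0 < ε) :
    ∃ R : ℝ, 0 ≤ R ∧ ‖D.apply (plateau R) x - x‖ < ε := by
  obtain ⟨f, hf, hfx⟩ := D.window x (ε / 2) (half_pos hε)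
  obtain ⟨R, hR⟩ := hf.isCompact.isBounded.subset_closedBall (0 : ℝ)
  refine ⟨max R 0, le_max_right _ _, ?_⟩
  have hmul : plateau (max R 0) * f = f := by
    ext u
    rw [BoundedContinuousFunction.mul_apply]
    by_cases hu : f u = 0
    · rw [hu, mul_zero]
    · have : u ∈ tsupport (f : ℝ → ℂ) := subset_tsupport _ hu
      have h2 := hR this
      rw [mem_closedBall_zero_iff, Real.norm_eq_abs] at h2
      rw [plateau_eq_one (h2.trans (le_max_left _ _)), one_mul]
  have h1 : D.apply (plateau (max R 0)) (D.apply f x) = D.apply f x := by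
    rw [← apply_mul_apply, hmul]
  have h2 : D.apply (plateau (max R 0)) x - x
      = D.apply (plateau (max R 0)) (x - D.apply f x) + (D.apply f x - x) := by
    rw [map_sub, h1]; abel
  rw [h2]
  have h3 : ‖D.apply (plateau (max R 0)) (x - D.apply f x)‖ ≤ 1 * ‖x - D.apply f x‖ :=
    (norm_apply_apply_le D _ _).trans
      (mul_le_mul_of_nonneg_right (norm_plateau_le _) (norm_nonneg _))
  rw [one_mul, norm_sub_rev] at h3
  calc _ ≤ ‖D.apply (plateau (max R 0)) (x - D.apply f x)‖ + ‖D.apply f x - x‖ := norm_add_le _ _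
    _ < ε / 2 + ε / 2 := by linarith
    _ = ε := by ring

/-- cut-offs with sup norm at most one approximate every vector -/
theorem exists_cut (D : LineCalculus H) (x : H) (ε : ℝ) (hε : 0 < ε) :
    ∃ f : ℝ →ᵇ ℂ, HasCompactSupport (f : ℝ → ℂ) ∧ ‖f‖ ≤ 1 ∧ ‖D.apply f x - x‖ < ε := by
  obtain ⟨R, -, hR⟩ := exists_plateau D x ε hε
  exact ⟨plateau R, hasCompactSupport_plateau R, norm_plateau_le R, hR⟩

theorem norm_character_sub_le (s t u : ℝ) :
    ‖LineCalculus.character s u - LineCalculus.character t u‖ ≤ |s - t| * |u| := by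
  have h1 : LineCalculus.character s u - LineCalculus.character t u
      = LineCalculus.character t u * (Complex.exp (Complex.I * ((s - t) * u : ℝ)) - 1) := by
    rw [mul_sub, mul_one, character_apply, character_apply, ← Complex.exp_add]
    congr 2; push_cast; ring
  rw [h1, norm_mul]
  have h2 : ‖LineCalculus.character t u‖ = 1 := by
    rw [character_apply, Complex.norm_exp]; simp
  rw [h2, one_mul]
  calc _ ≤ ‖(s - t) * u‖ := Real.norm_exp_I_mul_ofReal_sub_one_le
    _ = |s - t| * |u| := by rw [Real.norm_eq_abs, abs_mul]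

/-- `t ↦ e_t χ_R` is Lipschitz into `C_b`. -/
theorem norm_character_mul_plateau_sub_le (R : ℝ) (hR : 0 ≤ R) (s t : ℝ) :
    ‖LineCalculus.character s * plateau R - LineCalculus.character t * plateau R‖
      ≤ |s - t| * (R + 1) := by
  rw [BoundedContinuousFunction.norm_le (by positivity)]
  intro u
  rw [BoundedContinuousFunction.sub_apply, BoundedContinuousFunction.mul_apply,
    BoundedContinuousFunction.mul_apply, ← sub_mul, norm_mul]
  by_cases hu : R + 1 ≤ |u|
  · rw [plateau_eq_zero hu]; simp; positivity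
  · push Not at hu
    have h1 : ‖plateau R u‖ ≤ 1 := ((plateau R).norm_coe_le_norm u).trans (norm_plateau_le R)
    calc _ ≤ (|s - t| * |u|) * 1 :=
          mul_le_mul (norm_character_sub_le s t u) h1 (norm_nonneg _) (by positivity)
      _ ≤ |s - t| * (R + 1) := by
          rw [mul_one]; exact mul_le_mul_of_nonneg_left hu.le (abs_nonneg _)

theorem continuous_character_mul_plateau (R : ℝ) (hR : 0 ≤ R) :
    Continuous fun t : ℝ => LineCalculus.character t * plateau R := by
  have : LipschitzWith (Real.toNNReal (R + 1))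
      (fun t : ℝ => LineCalculus.character t * plateau R) := by
    apply LipschitzWith.of_dist_le_mul
    intro s t
    rw [dist_eq_norm, Real.dist_eq, Real.coe_toNNReal _ (by positivity), mul_comm (R + 1)]
    exact norm_character_mul_plateau_sub_le R hR s t
  exact this.continuous

/-- strong continuity of the unitary group -/
theorem continuous_wave (D : LineCalculus H) (x : H) : Continuous fun t : ℝ => D.wave t x := by
  rw [Metric.continuous_iff]
  intro t₀ ε hε
  obtain ⟨R, hR0, hR⟩ := exists_plateau D x (ε / 4) (by positivity)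
  have hc : Continuous fun t : ℝ => D.apply (LineCalculus.character t * plateau R) x := by
    have h1 : Continuous fun F : ℝ →ᵇ ℂ => D.apply F x := by
      have : Continuous fun F : ℝ →ᵇ ℂ => D.apply F :=
        (NonUnitalStarAlgHom.instContinuousLinearMapClassComplex
          (F := (ℝ →ᵇ ℂ) →⋆ₐ[ℂ] (H →L[ℂ] H))).map_continuous D.apply
      exact this.clm_apply continuous_const
    exact h1.comp (continuous_character_mul_plateau R hR0)
  obtain ⟨d, hd, hdc⟩ := Metric.continuous_iff.mp hc t₀ (ε / 2) (half_pos hε)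
  refine ⟨d, hd, fun t ht => ?_⟩
  have h2 := hdc t ht
  rw [dist_eq_norm] at h2 ⊢
  have e : ∀ t : ℝ, D.wave t x = D.apply (LineCalculus.character t * plateau R) x
      - D.wave t (D.apply (plateau R) x - x) := by
    intro t
    rw [apply_mul_apply, map_sub]
    simp [LineCalculus.wave]
  rw [e t, e t₀]
  have n1 := norm_wave_apply D t (D.apply (plateau R) x - x)
  have n2 := norm_wave_apply D t₀ (D.apply (plateau R) x - x)
  set A := D.apply (LineCalculus.character t * plateau R) x
  set B := D.apply (LineCalculus.character t₀ * plateau R) x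
  set P := D.wave t (D.apply (plateau R) x - x)
  set Q := D.wave t₀ (D.apply (plateau R) x - x)
  calc ‖A - P - (B - Q)‖ = ‖(A - B) + (Q - P)‖ := by congr 1; abel
    _ ≤ ‖A - B‖ + (‖Q‖ + ‖P‖) := (norm_add_le _ _).trans (by gcongr; exact norm_sub_le _ _)
    _ < ε := by rw [n1, n2]; linarith

theorem apply_eq_of_supported (D : LineCalculus H) {K : Set ℝ} {x : H} (hx : D.SupportedIn K x)
    {f g : ℝ →ᵇ ℂ} (h : ∀ u ∈ K, f u = g u) : D.apply f x = D.apply g x := by
  have := hx (f - g) (fun u hu => by simp [h u hu])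
  rw [map_sub] at this
  exact sub_eq_zero.mp this

theorem apply_eq_self_of_supported (D : LineCalculus H) {K : Set ℝ} {x : H}
    (hx : D.SupportedIn K x) {f : ℝ →ᵇ ℂ} (h : ∀ u ∈ K, f u = 1) : D.apply f x = x := by
  rw [apply_eq_of_supported D hx (g := 1) (by simpa using h), map_one]; rfl

theorem supportedIn_apply (D : LineCalculus H) {K : Set ℝ} (β : ℝ →ᵇ ℂ) (hβ : ∀ u, u ∉ K → β u = 0)
    (x : H) : D.SupportedIn K (D.apply β x) := by
  intro f hf
  rw [← apply_mul_apply]
  have : f * β = 0 := by
    ext u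
    by_cases hu : u ∈ K
    · simp [hf u hu]
    · simp [hβ u hu]
  rw [this, map_zero]; rfl

/-- on a spectral subspace only the values on `K` matter for the norm -/
theorem norm_apply_le_of_supported (D : LineCalculus H) {K : Set ℝ} {x : H}
    (hx : D.SupportedIn K x) (f : ℝ →ᵇ ℂ) (C : ℝ) (hC0 : 0 ≤ C) (hC : ∀ u ∈ K, ‖f u‖ ≤ C) :
    ‖D.apply f x‖ ≤ C * ‖x‖ := by
  rcases hC0.eq_or_lt with rfl | hCpos
  · rw [hx f (fun u hu => by simpa using hC u hu)]; simp
  · -- truncate `f` radially at level `C`
    have hb : ∀ u : ℝ, ‖f u * ((C / max C ‖f u‖ : ℝ) : ℂ)‖ ≤ C := by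
      intro u
      have hm : 0 < max C ‖f u‖ := lt_max_of_lt_left hCpos
      rw [norm_mul, Complex.norm_real, Real.norm_eq_abs, abs_of_nonneg (by positivity),
        mul_div_assoc', div_le_iff₀ hm, mul_comm]
      exact mul_le_mul_of_nonneg_left (le_max_right _ _) hC0
    let g : ℝ →ᵇ ℂ := BoundedContinuousFunction.ofNormedAddCommGroup
      (fun u : ℝ => f u * ((C / max C ‖f u‖ : ℝ) : ℂ))
      (by
        apply f.continuous.mul
        apply Complex.continuous_ofReal.comp
        apply continuous_const.div (continuous_const.max f.continuous.norm)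
        intro u
        exact (lt_max_of_lt_left hCpos).ne') C hb
    have hg : ‖g‖ ≤ C := (BoundedContinuousFunction.norm_le hC0).mpr hb
    have hfg : ∀ u ∈ K, f u = g u := by
      intro u hu
      change f u = f u * ((C / max C ‖f u‖ : ℝ) : ℂ)
      rw [max_eq_left (hC u hu), div_self hCpos.ne']; simp
    rw [apply_eq_of_supported D hx hfg]
    exact (norm_apply_apply_le D g x).trans (mul_le_mul_of_nonneg_right hg (norm_nonneg _))

theorem integrable_smul_wave (D : LineCalculus H) (g : ℝ → ℂ) (hg : Integrable g) (x : H) :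
    Integrable fun t : ℝ => g t • D.wave t x := by
  refine Integrable.mono' (hg.norm.mul_const ‖x‖)
    (hg.aestronglyMeasurable.smul (continuous_wave D x).aestronglyMeasurable) ?_
  filter_upwards with t
  rw [norm_smul, norm_wave_apply]

theorem norm_integral_smul_wave_le (D : LineCalculus H) (g : ℝ → ℂ) (x : H) :
    ‖∫ t : ℝ, g t • D.wave t x‖ ≤ (∫ t : ℝ, ‖g t‖) * ‖x‖ := by
  calc _ ≤ ∫ t : ℝ, ‖g t • D.wave t x‖ := norm_integral_le_integral_norm _
    _ = ∫ t : ℝ, ‖g t‖ * ‖x‖ := by simp only [norm_smul, norm_wave_apply]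
    _ = _ := integral_mul_const _ _

/-- the vector-valued functional `F ↦ F(D) x` as a continuous linear map on `C_b(ℝ)`. -/
noncomputable def applyVec (D : LineCalculus H) (x : H) : (ℝ →ᵇ ℂ) →L[ℂ] H :=
  LinearMap.mkContinuous
    { toFun := fun F => D.apply F x
      map_add' := fun F G => by rw [map_add]; rfl
      map_smul' := fun c F => by rw [map_smul]; rfl } ‖x‖
    (fun F => by rw [mul_comm]; exact norm_apply_apply_le D F x)

theorem applyVec_apply (D : LineCalculus H) (x : H) (F : ℝ →ᵇ ℂ) :
    applyVec D x F = D.apply F x := rfl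

theorem integrable_smul_character_mul_plateau (g : ℝ → ℂ) (hg : Integrable g) (R : ℝ)
    (hR : 0 ≤ R) : Integrable fun t : ℝ => g t • (LineCalculus.character t * plateau R) := by
  refine Integrable.mono' hg.norm
    (hg.aestronglyMeasurable.smul (continuous_character_mul_plateau R hR).aestronglyMeasurable) ?_
  filter_upwards with t
  rw [norm_smul]
  have : ‖LineCalculus.character t * plateau R‖ ≤ 1 * 1 :=
    (norm_mul_le _ _).trans (mul_le_mul (norm_character_le t) (norm_plateau_le R)
      (norm_nonneg _) zero_le_one)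
  calc _ ≤ ‖g t‖ * (1 * 1) := mul_le_mul_of_nonneg_left this (norm_nonneg _)
    _ = ‖g t‖ := by ring

theorem integral_smul_character_mul_plateau (g : ℝ → ℂ) (hg : Integrable g) (β : ℝ →ᵇ ℂ)
    (hβ : ∀ u : ℝ, β u = ∫ t : ℝ, g t * Complex.exp (Complex.I * ((t * u : ℝ) : ℂ)))
    (R : ℝ) (hR : 0 ≤ R) :
    ∫ t : ℝ, g t • (LineCalculus.character t * plateau R) = β * plateau R := by
  ext u
  have h := (BoundedContinuousFunction.evalCLM ℂ u).integral_comp_comm
    (integrable_smul_character_mul_plateau g hg R hR)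
  rw [BoundedContinuousFunction.evalCLM_apply] at h
  rw [← h, BoundedContinuousFunction.mul_apply, hβ u, ← integral_mul_const]
  congr 1
  ext t
  rw [BoundedContinuousFunction.evalCLM_apply, BoundedContinuousFunction.smul_apply,
    BoundedContinuousFunction.mul_apply, character_apply, smul_eq_mul, mul_assoc]

/-- **Smearing identity**: `∫ g(t) e^{itD} x dt = ĝ(D) x`. -/
theorem integral_wave (D : LineCalculus H) (g : ℝ → ℂ) (hg : Integrable g) (β : ℝ →ᵇ ℂ)
    (hβ : ∀ u : ℝ, β u = ∫ t : ℝ, g t * Complex.exp (Complex.I * ((t * u : ℝ) : ℂ))) (x : H) :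
    ∫ t : ℝ, g t • D.wave t x = D.apply β x := by
  -- the identity on cut-off vectors
  have key : ∀ R : ℝ, 0 ≤ R → ∫ t : ℝ, g t • D.wave t (D.apply (plateau R) x)
      = D.apply β (D.apply (plateau R) x) := by
    intro R hR
    have h := (applyVec D x).integral_comp_comm (integrable_smul_character_mul_plateau g hg R hR)
    rw [integral_smul_character_mul_plateau g hg β hβ R hR, applyVec_apply, apply_mul_apply] at h
    rw [← h]
    congr 1
    ext t
    rw [map_smul, applyVec_apply, apply_mul_apply]
    rfl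
  rw [← sub_eq_zero, ← norm_eq_zero]
  apply le_antisymm _ (norm_nonneg _)
  apply le_of_forall_pos_le_add
  intro ε hε
  set C : ℝ := (∫ t : ℝ, ‖g t‖) + ‖β‖ with hC
  have hC0 : 0 ≤ C := add_nonneg (integral_nonneg fun _ => norm_nonneg _) (norm_nonneg _)
  obtain ⟨R, hR0, hR⟩ := exists_plateau D x (ε / (C + 1)) (by positivity)
  set y := D.apply (plateau R) x with hy
  have e1 : ∫ t : ℝ, g t • D.wave t x
      = (∫ t : ℝ, g t • D.wave t y) - ∫ t : ℝ, g t • D.wave t (y - x) := by
    rw [← integral_sub (integrable_smul_wave D g hg y) (integrable_smul_wave D g hg (y - x))]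
    congr 1
    ext t
    rw [map_sub, smul_sub]; abel
  have e2 : (∫ t : ℝ, g t • D.wave t x) - D.apply β x
      = D.apply β (y - x) - ∫ t : ℝ, g t • D.wave t (y - x) := by
    rw [e1, key R hR0, map_sub]; abel
  rw [e2, zero_add]
  calc _ ≤ ‖D.apply β (y - x)‖ + ‖∫ t : ℝ, g t • D.wave t (y - x)‖ := norm_sub_le _ _
    _ ≤ ‖β‖ * ‖y - x‖ + (∫ t : ℝ, ‖g t‖) * ‖y - x‖ :=
        add_le_add (norm_apply_apply_le D β _) (norm_integral_smul_wave_le D g _)
    _ = C * ‖y - x‖ := by rw [hC]; ring
    _ ≤ C * (ε / (C + 1)) := mul_le_mul_of_nonneg_left hR.le hC0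
    _ ≤ ε := by
        rw [mul_div_assoc', div_le_iff₀ (by positivity)]
        nlinarith

end Crest.Agent.S0112
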