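/-
Row 84 (S0112), package Q7: an approximate form of Haagerup's proof of the little Grothendieck
inequality (variational argument at an almost norming unitary).  Namespace `Crest.Agent.S0112`.
Only Mathlib (continuous functional calculus on `H →L[ℂ] H`).
-/
import Mathlib

set_option autoImplicit false
set_option linter.unusedSectionVars false

namespace Crest.Agent.S0112

variable {H : Type*} [NormedAddCommGroup H] [InnerProductSpace ℂ H] [CompleteSpace H]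

theorem cfc_mem (M : VonNeumannAlgebra H) (k : H →L[ℂ] H) (hk : k ∈ M) (hsa : IsSelfAdjoint k)
    (F : ℂ → ℂ) : cfc F k ∈ M := by
  rw [← M.commutant_commutant, VonNeumannAlgebra.mem_commutant_iff]
  intro g hg
  rw [VonNeumannAlgebra.mem_commutant_iff] at hg
  have h1 : Commute k g := hg k hk
  exact ((hsa.commute_cfc h1 F).eq).symm

/-- functional calculus of a function of a real variable. -/
noncomputable def Phi (k : H →L[ℂ] H) (F : ℝ → ℂ) : H →L[ℂ] H := cfc (fun z : ℂ => F z.re) k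

theorem Phi_mem (M : VonNeumannAlgebra H) (k : H →L[ℂ] H) (hk : k ∈ M) (hsa : IsSelfAdjoint k)
    (F : ℝ → ℂ) : Phi k F ∈ M := cfc_mem M k hk hsa _

theorem Phi_add (k : H →L[ℂ] H) (hsa : IsSelfAdjoint k) (F G : ℝ → ℂ) (hF : Continuous F)
    (hG : Continuous G) : Phi k (fun x => F x + G x) = Phi k F + Phi k G := by
  unfold Phi
  have : IsStarNormal k := hsa.isStarNormal
  rw [cfc_add (a := k) (fun z : ℂ => F z.re) (fun z : ℂ => G z.re)
    (by fun_prop) (by fun_prop)]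

theorem Phi_sub (k : H →L[ℂ] H) (hsa : IsSelfAdjoint k) (F G : ℝ → ℂ) (hF : Continuous F)
    (hG : Continuous G) : Phi k (fun x => F x - G x) = Phi k F - Phi k G := by
  unfold Phi
  have : IsStarNormal k := hsa.isStarNormal
  rw [cfc_sub (a := k) (fun z : ℂ => F z.re) (fun z : ℂ => G z.re)
    (by fun_prop) (by fun_prop)]

theorem Phi_smul (k : H →L[ℂ] H) (hsa : IsSelfAdjoint k) (c : ℂ) (F : ℝ → ℂ) (hF : Continuous F) :
    Phi k (fun x => c * F x) = c • Phi k F := by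
  unfold Phi
  have : IsStarNormal k := hsa.isStarNormal
  rw [cfc_const_mul c (fun z : ℂ => F z.re) k (by fun_prop)]

theorem Phi_mul (k : H →L[ℂ] H) (hsa : IsSelfAdjoint k) (F G : ℝ → ℂ) (hF : Continuous F)
    (hG : Continuous G) : Phi k (fun x => F x * G x) = Phi k F * Phi k G := by
  unfold Phi
  have : IsStarNormal k := hsa.isStarNormal
  rw [cfc_mul (fun z : ℂ => F z.re) (fun z : ℂ => G z.re) k
    (by fun_prop) (by fun_prop)]

theorem Phi_one (k : H →L[ℂ] H) (hsa : IsSelfAdjoint k) : Phi k (fun _ => 1) = 1 := by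
  unfold Phi
  have : IsStarNormal k := hsa.isStarNormal
  exact cfc_const_one ℂ k

theorem Phi_id (k : H →L[ℂ] H) (hsa : IsSelfAdjoint k) : Phi k (fun x => (x : ℂ)) = k := by
  unfold Phi
  have : IsStarNormal k := hsa.isStarNormal
  conv_rhs => rw [← cfc_id ℂ k]
  refine cfc_congr ?_
  intro z hz
  exact (hsa.mem_spectrum_eq_re hz).symm

theorem Phi_unitary (k : H →L[ℂ] H) (hsa : IsSelfAdjoint k) (R : ℝ) (hR : ‖k‖ ≤ R) (F : ℝ → ℂ)
    (hF : Continuous F) (h1 : ∀ x : ℝ, |x| ≤ R → ‖F x‖ = 1) :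
    Phi k F ∈ unitary (H →L[ℂ] H) := by
  unfold Phi
  have : IsStarNormal k := hsa.isStarNormal
  rw [cfc_unitary_iff (fun z : ℂ => F z.re) k this (by fun_prop)]
  intro z hz
  have hz1 : ‖z‖ ≤ ‖k‖ := by
    have h := spectrum.norm_le_norm_mul_of_mem hz
    have h1 : ‖(1 : H →L[ℂ] H)‖ ≤ 1 := ContinuousLinearMap.norm_id_le
    nlinarith [norm_nonneg k]
  have hz2 : |z.re| ≤ R := (Complex.abs_re_le_norm z).trans (hz1.trans hR)
  have := h1 z.re hz2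
  rw [← starRingEnd_apply, ← Complex.normSq_eq_conj_mul_self, Complex.normSq_eq_norm_sq, this]
  simp

theorem Phi_congr (k : H →L[ℂ] H) (F G : ℝ → ℂ) (h : ∀ x, F x = G x) : Phi k F = Phi k G := by
  have : F = G := funext h
  rw [this]

/-- the real functional `Ψ(z) = Re ⟪u U, u (U z)⟫`. -/
noncomputable def Psi (u : (H →L[ℂ] H) →ₗ[ℂ] H) (U z : H →L[ℂ] H) : ℝ :=
  (inner ℂ (u U) (u (U * z))).re

theorem Psi_add (u : (H →L[ℂ] H) →ₗ[ℂ] H) (U z w : H →L[ℂ] H) :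
    Psi u U (z + w) = Psi u U z + Psi u U w := by
  unfold Psi
  rw [mul_add, map_add, inner_add_right, Complex.add_re]

theorem Psi_sub (u : (H →L[ℂ] H) →ₗ[ℂ] H) (U z w : H →L[ℂ] H) :
    Psi u U (z - w) = Psi u U z - Psi u U w := by
  unfold Psi
  rw [mul_sub, map_sub, inner_sub_right, Complex.sub_re]

theorem Psi_smul (u : (H →L[ℂ] H) →ₗ[ℂ] H) (U z : H →L[ℂ] H) (c : ℝ) :
    Psi u U ((c : ℂ) • z) = c * Psi u U z := by
  unfold Psi
  rw [mul_smul_comm, map_smul, inner_smul_right, Complex.re_ofReal_mul]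

theorem Psi_one (u : (H →L[ℂ] H) →ₗ[ℂ] H) (U : H →L[ℂ] H) :
    Psi u U 1 = ‖u U‖ ^ 2 := by
  unfold Psi
  rw [mul_one, inner_self_eq_norm_sq_to_K]
  norm_cast

theorem Psi_le (u : (H →L[ℂ] H) →ₗ[ℂ] H) (U z : H →L[ℂ] H) :
    Psi u U z ≤ ‖u U‖ * ‖u (U * z)‖ := by
  unfold Psi
  exact (Complex.re_le_norm _).trans (norm_inner_le_norm _ _)

theorem abs_sub_sin_le (y : ℝ) : |y - Real.sin y| ≤ |y| ^ 3 / 4 := by
  rcases lt_trichotomy y 0 with h | h | h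
  · have h1 : 0 < -y := by linarith
    have h3 := Real.sin_gt_sub_cube h1
    have h4 := Real.sin_lt h1
    rw [Real.sin_neg] at h3 h4
    rw [abs_of_neg h, abs_of_nonpos (by linarith)]
    have : 0 < (-y) ^ 3 := by positivity
    linarith
  · subst h; simp
  · have h3 := Real.sin_gt_sub_cube h
    have h4 := Real.sin_lt h
    rw [abs_of_pos h, abs_of_nonneg (by linarith)]
    have : 0 < y ^ 3 := by positivity
    linarith

section main

variable (M : VonNeumannAlgebra H) (u : (H →L[ℂ] H) →ₗ[ℂ] H) (ε : ℝ)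
    (hε : ∀ W ∈ M, W ∈ unitary (H →L[ℂ] H) → ‖u W‖ ≤ ε)

include hε

theorem eps_nonneg : 0 ≤ ε := (norm_nonneg _).trans (hε 1 (one_mem M) (one_mem _))

theorem norm_u_unit (U : H →L[ℂ] H) (hU : U ∈ M) (hUu : U ∈ unitary (H →L[ℂ] H))
    (k : H →L[ℂ] H) (hk : k ∈ M) (hsa : IsSelfAdjoint k) (R : ℝ) (hkR : ‖k‖ ≤ R)
    (F : ℝ → ℂ) (hF : Continuous F) (h1 : ∀ x : ℝ, |x| ≤ R → ‖F x‖ = 1) :
    ‖u (U * Phi k F)‖ ≤ ε :=
  hε _ (mul_mem hU (Phi_mem M k hk hsa F)) (mul_mem hUu (Phi_unitary k hsa R hkR F hF h1))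

theorem norm_u_real (U : H →L[ℂ] H) (hU : U ∈ M) (hUu : U ∈ unitary (H →L[ℂ] H))
    (k : H →L[ℂ] H) (hk : k ∈ M) (hsa : IsSelfAdjoint k) (R : ℝ) (hkR : ‖k‖ ≤ R)
    (G : ℝ → ℝ) (hG : Continuous G) (ρ : ℝ) (hρ : 0 < ρ) (h1 : ∀ x : ℝ, |x| ≤ R → |G x| ≤ ρ) :
    ‖u (U * Phi k (fun x => (G x : ℂ)))‖ ≤ ε * ρ := by
  set Fp : ℝ → ℂ := fun x => ((G x / ρ : ℝ) : ℂ) + Complex.I * (√(1 - (G x / ρ) ^ 2) : ℝ) with hFp
  set Fm : ℝ → ℂ := fun x => ((G x / ρ : ℝ) : ℂ) - Complex.I * (√(1 - (G x / ρ) ^ 2) : ℝ) with hFm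
  have hFpc : Continuous Fp := by
    rw [hFp]; fun_prop
  have hFmc : Continuous Fm := by
    rw [hFm]; fun_prop
  have hb : ∀ x : ℝ, |x| ≤ R → |G x / ρ| ≤ 1 := by
    intro x hx
    rw [abs_div, abs_of_pos hρ, div_le_one hρ]
    exact h1 x hx
  have hp1 : ∀ x : ℝ, |x| ≤ R → ‖Fp x‖ = 1 := by
    intro x hx
    have := Complex.normSq_ofReal_add_I_mul_sqrt_one_sub (hb x hx)
    rw [Complex.normSq_eq_norm_sq] at this
    have h0 : 0 ≤ ‖Fp x‖ := norm_nonneg _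
    have h2 : ‖Fp x‖ ^ 2 = 1 := this
    nlinarith
  have hm1 : ∀ x : ℝ, |x| ≤ R → ‖Fm x‖ = 1 := by
    intro x hx
    have : Fm x = (starRingEnd ℂ) (Fp x) := by
      simp [hFm, hFp, sub_eq_add_neg]
    rw [this, Complex.norm_conj, hp1 x hx]
  have hdec : Phi k (fun x => (G x : ℂ)) = ((ρ / 2 : ℝ) : ℂ) • (Phi k Fp + Phi k Fm) := by
    rw [← Phi_add k hsa Fp Fm hFpc hFmc, ← Phi_smul k hsa _ (fun x => Fp x + Fm x) (hFpc.add hFmc)]
    apply Phi_congr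
    intro x
    simp only [hFp, hFm]
    have hρ' : (ρ : ℂ) ≠ 0 := by exact_mod_cast hρ.ne'
    push_cast
    field_simp
    ring
  rw [hdec, mul_smul_comm, map_smul, mul_add, map_add, norm_smul]
  have e1 := norm_u_unit M u ε hε U hU hUu k hk hsa R hkR Fp hFpc hp1
  have e2 := norm_u_unit M u ε hε U hU hUu k hk hsa R hkR Fm hFmc hm1
  have e3 := norm_add_le (u (U * Phi k Fp)) (u (U * Phi k Fm))
  have e4 : ‖((ρ / 2 : ℝ) : ℂ)‖ = ρ / 2 := by
    rw [Complex.norm_real, Real.norm_eq_abs, abs_of_pos (by positivity)]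
  rw [e4]
  nlinarith

set_option maxHeartbeats 1600000 in
theorem groth_sa_aux (U : H →L[ℂ] H) (hU : U ∈ M) (hUu : U ∈ unitary (H →L[ℂ] H))
    (k : H →L[ℂ] H) (hk : k ∈ M) (hsa : IsSelfAdjoint k) (R : ℝ) (hR : 0 < R) (hkR : ‖k‖ ≤ R)
    (t : ℝ) (ht : 0 < t) (γ₁ : ℝ) (hγ₁ : ε - γ₁ ≤ ‖u U‖) :
    t ^ 2 * ‖u (U * k)‖ ^ 2 ≤ 2 * t ^ 2 * Psi u U (k * k) + 4 * ε * γ₁ + t ^ 2 * R ^ 2 * ε * γ₁
      + ε ^ 2 * (t ^ 6 * R ^ 6) / 8 := by
  have hε0 : 0 ≤ ε := eps_nonneg M u ε hε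
  set N := ‖u U‖ with hN
  have hN0 : 0 ≤ N := norm_nonneg _
  have hNε : N ≤ ε := hε U hU hUu
  -- the exponentials
  set Ep : ℝ → ℂ := fun x => Complex.exp (Complex.I * ((t * x : ℝ) : ℂ)) with hEp
  set Em : ℝ → ℂ := fun x => Complex.exp (-(Complex.I * ((t * x : ℝ) : ℂ))) with hEm
  have hEpc : Continuous Ep := by rw [hEp]; fun_prop
  have hEmc : Continuous Em := by rw [hEm]; fun_prop
  have hEp1 : ∀ x : ℝ, |x| ≤ R → ‖Ep x‖ = 1 := by
    intro x _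
    simp only [hEp]
    rw [mul_comm]
    exact Complex.norm_exp_ofReal_mul_I _
  have hEm1 : ∀ x : ℝ, |x| ≤ R → ‖Em x‖ = 1 := by
    intro x _
    simp only [hEm]
    have : -(Complex.I * ((t * x : ℝ) : ℂ)) = ((-(t * x) : ℝ) : ℂ) * Complex.I := by
      push_cast; ring
    rw [this]
    exact Complex.norm_exp_ofReal_mul_I _
  set p := u (U * Phi k Ep) with hp
  set q := u (U * Phi k Em) with hq
  have hpε : ‖p‖ ≤ ε := norm_u_unit M u ε hε U hU hUu k hk hsa R hkR Ep hEpc hEp1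
  have hqε : ‖q‖ ≤ ε := norm_u_unit M u ε hε U hU hUu k hk hsa R hkR Em hEmc hEm1
  set C := Phi k (fun x => ((Real.cos (t * x) : ℝ) : ℂ)) with hC
  set Sn := Phi k (fun x => ((Real.sin (t * x) : ℝ) : ℂ)) with hSn
  have hCeq : C = (1 / 2 : ℂ) • (Phi k Ep + Phi k Em) := by
    rw [← Phi_add k hsa Ep Em hEpc hEmc, ← Phi_smul k hsa _ (fun x => Ep x + Em x) (hEpc.add hEmc)]
    apply Phi_congr
    intro x
    simp only [hEp, hEm]
    rw [Complex.ofReal_cos, Complex.cos]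
    ring_nf
  have hSeq : Sn = (-Complex.I / 2 : ℂ) • (Phi k Ep - Phi k Em) := by
    rw [← Phi_sub k hsa Ep Em hEpc hEmc, ← Phi_smul k hsa _ (fun x => Ep x - Em x) (hEpc.sub hEmc)]
    apply Phi_congr
    intro x
    simp only [hEp, hEm]
    rw [Complex.ofReal_sin, Complex.sin]
    ring_nf
  have hvC : u (U * C) = (1 / 2 : ℂ) • (p + q) := by
    rw [hCeq, mul_smul_comm, map_smul, mul_add, map_add]
  have hvS : u (U * Sn) = (-Complex.I / 2 : ℂ) • (p - q) := by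
    rw [hSeq, mul_smul_comm, map_smul, mul_sub, map_sub]
  have hpar : ‖u (U * C)‖ ^ 2 + ‖u (U * Sn)‖ ^ 2 ≤ ε ^ 2 := by
    rw [hvC, hvS, norm_smul, norm_smul]
    have h1 : ‖(1 / 2 : ℂ)‖ = 1 / 2 := by simp
    have h2 : ‖(-Complex.I / 2 : ℂ)‖ = 1 / 2 := by simp
    rw [h1, h2]
    have h3 := parallelogram_law_with_norm ℂ p q
    have h4 : ‖p‖ ^ 2 ≤ ε ^ 2 := by
      have := norm_nonneg p; nlinarith
    have h5 : ‖q‖ ^ 2 ≤ ε ^ 2 := by
      have := norm_nonneg q; nlinarith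
    nlinarith
  -- (c)
  have hc : 2 * Psi u U C - N ^ 2 ≤ ‖u (U * C)‖ ^ 2 := by
    have h1 := norm_sub_sq (𝕜 := ℂ) (u U) (u (U * C))
    have h2 : 0 ≤ ‖u U - u (U * C)‖ ^ 2 := by positivity
    have h3 : Psi u U C = RCLike.re (inner ℂ (u U) (u (U * C))) := rfl
    rw [h3]
    linarith
  -- (e)
  set ρ := t ^ 2 * R ^ 2 / 2 with hρ
  have hρ0 : 0 < ρ := by positivity
  set G : ℝ → ℝ := fun x => (ρ + 2) - t ^ 2 * (x * x) - 2 * Real.cos (t * x) with hG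
  have hGc : Continuous G := by rw [hG]; fun_prop
  have hGb : ∀ x : ℝ, |x| ≤ R → |G x| ≤ ρ := by
    intro x hx
    have h1 := Real.one_sub_sq_div_two_le_cos (x := t * x)
    have h2 := Real.cos_le_one (t * x)
    have h3 : x * x ≤ R ^ 2 := by
      have := abs_nonneg x
      calc x * x = |x| * |x| := (abs_mul_abs_self x).symm
        _ ≤ R ^ 2 := by nlinarith
    have h4 : t ^ 2 * (x * x) ≤ t ^ 2 * R ^ 2 := by
      have : 0 ≤ t ^ 2 := by positivity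
      nlinarith
    have h5 : 0 ≤ t ^ 2 * (x * x) := by
      have := mul_self_nonneg x
      positivity
    simp only [hG]
    rw [abs_le]
    constructor
    · nlinarith
    · nlinarith
  have hGeq : Phi k (fun x => (G x : ℂ)) = ((ρ + 2 : ℝ) : ℂ) • (1 : H →L[ℂ] H)
      - ((t ^ 2 : ℝ) : ℂ) • (k * k) - ((2 : ℝ) : ℂ) • C := by
    have hidc : Continuous (fun x : ℝ => (x : ℂ)) := Complex.continuous_ofReal
    have hcosc : Continuous (fun x : ℝ => ((Real.cos (t * x) : ℝ) : ℂ)) := by fun_prop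
    have e1 : ((ρ + 2 : ℝ) : ℂ) • (1 : H →L[ℂ] H) = Phi k (fun _ => ((ρ + 2 : ℝ) : ℂ) * 1) := by
      rw [Phi_smul k hsa _ (fun _ => 1) continuous_const, Phi_one k hsa]
    have e2 : ((t ^ 2 : ℝ) : ℂ) • (k * k)
        = Phi k (fun x => ((t ^ 2 : ℝ) : ℂ) * ((x : ℂ) * (x : ℂ))) := by
      rw [Phi_smul k hsa _ (fun x : ℝ => (x : ℂ) * (x : ℂ)) (hidc.mul hidc),
        Phi_mul k hsa _ _ hidc hidc, Phi_id k hsa]
    have e3 : ((2 : ℝ) : ℂ) • C
        = Phi k (fun x => ((2 : ℝ) : ℂ) * ((Real.cos (t * x) : ℝ) : ℂ)) := by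
      rw [Phi_smul k hsa _ _ hcosc]
    rw [e1, e2, e3, ← Phi_sub k hsa _ _ (by fun_prop) (by fun_prop),
      ← Phi_sub k hsa _ _ (by fun_prop) (by fun_prop)]
    apply Phi_congr
    intro x
    simp only [hG]
    push_cast
    ring
  have he : (ρ + 2) * N ^ 2 - t ^ 2 * Psi u U (k * k) - 2 * Psi u U C ≤ N * (ε * ρ) := by
    have h1 := Psi_le u U (Phi k (fun x => (G x : ℂ)))
    have h2 := norm_u_real M u ε hε U hU hUu k hk hsa R hkR G hGc ρ hρ0 hGb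
    rw [hGeq] at h1
    rw [Psi_sub, Psi_sub, Psi_smul, Psi_smul, Psi_smul, Psi_one] at h1
    rw [← hGeq] at h1
    calc _ ≤ _ := h1
      _ ≤ _ := by gcongr
  -- (f)
  set ρ₃ := t ^ 3 * R ^ 3 / 4 with hρ₃
  have hρ₃0 : 0 < ρ₃ := by positivity
  set r : ℝ → ℝ := fun x => t * x - Real.sin (t * x) with hr
  have hrc : Continuous r := by rw [hr]; fun_prop
  have hrb : ∀ x : ℝ, |x| ≤ R → |r x| ≤ ρ₃ := by
    intro x hx
    have h1 : |t * x| ≤ t * R := by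
      rw [abs_mul, abs_of_pos ht]; gcongr
    have h2 := abs_sub_sin_le (t * x)
    have h3 : |t * x| ^ 3 ≤ (t * R) ^ 3 := by gcongr
    simp only [hr, hρ₃]
    calc _ ≤ _ := h2
      _ ≤ (t * R) ^ 3 / 4 := by gcongr
      _ = _ := by ring
  have hreq : Phi k (fun x => (r x : ℂ)) = ((t : ℝ) : ℂ) • k - Sn := by
    have hidc : Continuous (fun x : ℝ => (x : ℂ)) := Complex.continuous_ofReal
    have e2 : ((t : ℝ) : ℂ) • k = Phi k (fun x => ((t : ℝ) : ℂ) * (x : ℂ)) := by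
      rw [Phi_smul k hsa _ (fun x : ℝ => (x : ℂ)) hidc, Phi_id k hsa]
    rw [e2, ← Phi_sub k hsa _ _ (by fun_prop) (by fun_prop)]
    apply Phi_congr
    intro x
    simp only [hr]
    push_cast
    ring
  have hf := norm_u_real M u ε hε U hU hUu k hk hsa R hkR r hrc ρ₃ hρ₃0 hrb
  -- (g)
  have hg1 : ((t : ℝ) : ℂ) • u (U * k) = u (U * Sn) + u (U * Phi k (fun x => (r x : ℂ))) := by
    rw [hreq, ← map_add, ← mul_add, ← map_smul, ← mul_smul_comm]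
    congr 2
    abel
  have hg2 : t ^ 2 * ‖u (U * k)‖ ^ 2
      ≤ 2 * ‖u (U * Sn)‖ ^ 2 + 2 * ‖u (U * Phi k (fun x => (r x : ℂ)))‖ ^ 2 := by
    have h1 : t * ‖u (U * k)‖ = ‖((t : ℝ) : ℂ) • u (U * k)‖ := by
      rw [norm_smul, Complex.norm_real, Real.norm_eq_abs, abs_of_pos ht]
    have h2 := norm_add_le (u (U * Sn)) (u (U * Phi k (fun x => (r x : ℂ))))
    rw [← hg1, ← h1] at h2
    have h3 : 0 ≤ t * ‖u (U * k)‖ := by positivity
    have h4 := norm_nonneg (u (U * Sn))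
    have h5 := norm_nonneg (u (U * Phi k (fun x => (r x : ℂ))))
    nlinarith [sq_nonneg (‖u (U * Sn)‖ - ‖u (U * Phi k (fun x => (r x : ℂ)))‖)]
  have hf2 : ‖u (U * Phi k (fun x => (r x : ℂ)))‖ ^ 2 ≤ (ε * ρ₃) ^ 2 := by
    have h5 := norm_nonneg (u (U * Phi k (fun x => (r x : ℂ))))
    exact pow_le_pow_left₀ h5 hf 2
  have hγ : ε - N ≤ γ₁ := by linarith
  have hγ0 : 0 ≤ γ₁ := by linarith
  have k1 : ε ^ 2 - N ^ 2 ≤ 2 * ε * γ₁ := by nlinarith
  have k2 : ρ * (N * (ε - N)) ≤ ρ * (ε * γ₁) := by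
    have : N * (ε - N) ≤ ε * γ₁ := by
      have : 0 ≤ ε - N := by linarith
      nlinarith
    gcongr
  have k3 : (ε * ρ₃) ^ 2 = ε ^ 2 * (t ^ 6 * R ^ 6) / 16 := by
    simp only [hρ₃]; ring
  have k4 : ρ * (ε * γ₁) = t ^ 2 * R ^ 2 * ε * γ₁ / 2 := by
    simp only [hρ]; ring
  linarith [hg2, hf2, hpar, hc, he, k1, k2, k3, k4]

end main

/-- **Self-adjoint step.** -/
theorem groth_sa (M : VonNeumannAlgebra H) (u : (H →L[ℂ] H) →ₗ[ℂ] H) (ε : ℝ)
    (hε : ∀ W ∈ M, W ∈ unitary (H →L[ℂ] H) → ‖u W‖ ≤ ε) (R γ : ℝ) (hR : 0 ≤ R) (hγ : 0 < γ) :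
    ∃ γ₁ : ℝ, 0 < γ₁ ∧ ∀ U ∈ M, U ∈ unitary (H →L[ℂ] H) → ε - γ₁ ≤ ‖u U‖ →
      ∀ k ∈ M, IsSelfAdjoint k → ‖k‖ ≤ R →
        ‖u (U * k)‖ ^ 2 ≤ 2 * (inner ℂ (u U) (u (U * (k * k)))).re + γ := by
  have hε0 : 0 ≤ ε := eps_nonneg M u ε hε
  set R' := R + 1 with hR'
  have hR'0 : 0 < R' := by positivity
  set K := ε ^ 2 * R' ^ 6 / 8 with hK
  have hK0 : 0 ≤ K := by positivity
  set t := min 1 (γ / (2 * (K + 1))) with ht
  have ht0 : 0 < t := by
    rw [ht]; apply lt_min one_pos; positivity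
  have ht1 : t ≤ 1 := min_le_left _ _
  have ht2 : K * t ≤ γ / 2 := by
    have h1 : t ≤ γ / (2 * (K + 1)) := min_le_right _ _
    have h2 : K * t ≤ K * (γ / (2 * (K + 1))) := by gcongr
    have h3 : K * (γ / (2 * (K + 1))) ≤ γ / 2 := by
      rw [mul_div_assoc', div_le_div_iff₀ (by positivity) (by positivity)]
      nlinarith
    linarith
  have ht4 : t ^ 4 ≤ t := by
    calc t ^ 4 ≤ t ^ 1 := pow_le_pow_of_le_one ht0.le ht1 (by norm_num)
      _ = t := pow_one t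
  have ht3 : K * t ^ 4 ≤ γ / 2 := by
    have : K * t ^ 4 ≤ K * t := by gcongr
    linarith
  set L := 4 * ε / t ^ 2 + R' ^ 2 * ε with hL
  have hL0 : 0 ≤ L := by positivity
  set γ₁ := γ / (2 * (L + 1)) with hγ₁
  have hγ₁0 : 0 < γ₁ := by positivity
  have hLγ : L * γ₁ ≤ γ / 2 := by
    rw [hγ₁, mul_div_assoc', div_le_div_iff₀ (by positivity) (by positivity)]
    nlinarith
  refine ⟨γ₁, hγ₁0, ?_⟩
  intro U hU hUu hUε k hk hsa hkR
  have haux := groth_sa_aux M u ε hε U hU hUu k hk hsa R' hR'0 (by linarith) t ht0 γ₁ hUε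
  have hPsi : Psi u U (k * k) = (inner ℂ (u U) (u (U * (k * k)))).re := rfl
  rw [hPsi] at haux
  have ht20 : 0 < t ^ 2 := by positivity
  refine le_of_mul_le_mul_left ?_ ht20
  have e1 : t ^ 2 * (L * γ₁) = 4 * ε * γ₁ + t ^ 2 * R' ^ 2 * ε * γ₁ := by
    rw [hL]; field_simp
  have e2 : t ^ 2 * (K * t ^ 4) = ε ^ 2 * (t ^ 6 * R' ^ 6) / 8 := by
    rw [hK]; ring
  have e3 : t ^ 2 * (L * γ₁) ≤ t ^ 2 * (γ / 2) := by gcongr
  have e4 : t ^ 2 * (K * t ^ 4) ≤ t ^ 2 * (γ / 2) := by gcongr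
  linarith

/-- **Approximate little Grothendieck inequality.** -/
theorem groth (M : VonNeumannAlgebra H) (u : (H →L[ℂ] H) →ₗ[ℂ] H) (ε : ℝ)
    (hε : ∀ W ∈ M, W ∈ unitary (H →L[ℂ] H) → ‖u W‖ ≤ ε) (R γ : ℝ) (hR : 0 ≤ R) (hγ : 0 < γ) :
    ∃ γ₁ : ℝ, 0 < γ₁ ∧ ∀ U ∈ M, U ∈ unitary (H →L[ℂ] H) → ε - γ₁ ≤ ‖u U‖ →
      ∀ b ∈ M, ‖b‖ ≤ R →
        ‖u b‖ ^ 2 ≤ 2 * ((inner ℂ (u U) (u (U * (star b * b)))).re +
          (inner ℂ (u U) (u (b * star b * U))).re) + γ := by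
  obtain ⟨γ₁, hγ₁0, hsa⟩ := groth_sa M u ε hε R (γ / 4) hR (by positivity)
  refine ⟨γ₁, hγ₁0, ?_⟩
  intro U hU hUu hUε b hb hbR
  have hUs : star U * U = 1 := (Unitary.mem_iff.mp hUu).1
  have hUs' : U * star U = 1 := (Unitary.mem_iff.mp hUu).2
  set y := star U * b with hy
  have hyM : y ∈ M := mul_mem (star_mem hU) hb
  have hUy : U * y = b := by rw [hy, ← mul_assoc, hUs', one_mul]
  have hyR : ‖y‖ ≤ R := by
    rw [hy, CStarRing.norm_mem_unitary_mul b (Unitary.star_mem hUu)]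
    exact hbR
  set k₁ : H →L[ℂ] H := (1 / 2 : ℂ) • (y + star y) with hk₁
  set k₂ : H →L[ℂ] H := (-Complex.I / 2 : ℂ) • (y - star y) with hk₂
  have smul_memM : ∀ (c : ℂ) (x : H →L[ℂ] H), x ∈ M → c • x ∈ M := by
    intro c x hx
    exact M.toStarSubalgebra.smul_mem hx c
  have hk₁M : k₁ ∈ M := smul_memM _ _ (add_mem hyM (star_mem hyM))
  have hk₂M : k₂ ∈ M := smul_memM _ _ (sub_mem hyM (star_mem hyM))
  have hk₁sa : IsSelfAdjoint k₁ := by
    rw [IsSelfAdjoint, hk₁, star_smul, star_add, star_star, add_comm]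
    congr 1
    simp
  have hk₂sa : IsSelfAdjoint k₂ := by
    rw [IsSelfAdjoint, hk₂, star_smul, star_sub, star_star]
    have : star (-Complex.I / 2 : ℂ) = Complex.I / 2 := by
      simp [neg_div]
    rw [this, ← neg_sub y (star y), smul_neg, ← neg_smul]
    congr 1
    ring
  have hk₁R : ‖k₁‖ ≤ R := by
    rw [hk₁, norm_smul]
    have h1 : ‖(1 / 2 : ℂ)‖ = 1 / 2 := by simp
    have h2 := norm_add_le y (star y)
    rw [norm_star] at h2
    rw [h1]; linarith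
  have hk₂R : ‖k₂‖ ≤ R := by
    rw [hk₂, norm_smul]
    have h1 : ‖(-Complex.I / 2 : ℂ)‖ = 1 / 2 := by simp
    have h2 := norm_sub_le y (star y)
    rw [norm_star] at h2
    rw [h1]; linarith
  have hdec : y = k₁ + Complex.I • k₂ := by
    rw [hk₁, hk₂, smul_smul]
    have : Complex.I * (-Complex.I / 2) = 1 / 2 := by
      rw [mul_div_assoc', mul_neg, Complex.I_mul_I]; norm_num
    rw [this, ← smul_add]
    have : y + star y + (y - star y) = (2 : ℂ) • y := by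
      rw [two_smul]; abel
    rw [this, smul_smul]
    norm_num
  have hsq : k₁ * k₁ + k₂ * k₂ = (((1 / 2 : ℝ)) : ℂ) • (star y * y + y * star y) := by
    rw [hk₁, hk₂]
    simp only [smul_mul_smul_comm, mul_add, add_mul, mul_sub, sub_mul]
    have h1 : (-Complex.I / 2) * (-Complex.I / 2) = -(1 / 4 : ℂ) := by
      have := Complex.I_mul_I
      calc (-Complex.I / 2) * (-Complex.I / 2) = (Complex.I * Complex.I) / 4 := by ring
        _ = _ := by rw [this]; ring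
    rw [h1]
    push_cast
    module
  have s1 := hsa U hU hUu hUε k₁ hk₁M hk₁sa hk₁R
  have s2 := hsa U hU hUu hUε k₂ hk₂M hk₂sa hk₂R
  have hub : u b = u (U * k₁) + Complex.I • u (U * k₂) := by
    have h1 : b = U * k₁ + Complex.I • (U * k₂) := by
      rw [← mul_smul_comm, ← mul_add, ← hdec, hUy]
    conv_lhs => rw [h1]
    rw [map_add, map_smul]
  have hnorm : ‖u b‖ ^ 2 ≤ 2 * ‖u (U * k₁)‖ ^ 2 + 2 * ‖u (U * k₂)‖ ^ 2 := by
    have h2 := norm_add_le (u (U * k₁)) (Complex.I • u (U * k₂))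
    rw [← hub, norm_smul, Complex.norm_I, one_mul] at h2
    have h3 := norm_nonneg (u b)
    nlinarith [sq_nonneg (‖u (U * k₁)‖ - ‖u (U * k₂)‖)]
  have hP : Psi u U (k₁ * k₁) + Psi u U (k₂ * k₂)
      = (1 / 2) * (Psi u U (star y * y) + Psi u U (y * star y)) := by
    rw [← Psi_add, hsq, Psi_smul, Psi_add]
  have hy1 : star y * y = star b * b := by
    rw [hy, star_mul, star_star, mul_assoc, ← mul_assoc U, hUs', one_mul]
  have hy2 : U * (y * star y) = b * star b * U := by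
    rw [← mul_assoc, hUy, hy, star_mul, star_star, mul_assoc]
  have hP1 : Psi u U (star y * y) = (inner ℂ (u U) (u (U * (star b * b)))).re := by
    rw [hy1]; rfl
  have hP2 : Psi u U (y * star y) = (inner ℂ (u U) (u (b * star b * U))).re := by
    unfold Psi; rw [hy2]
  have s1' : ‖u (U * k₁)‖ ^ 2 ≤ 2 * Psi u U (k₁ * k₁) + γ / 4 := s1
  have s2' : ‖u (U * k₂)‖ ^ 2 ≤ 2 * Psi u U (k₂ * k₂) + γ / 4 := s2
  rw [← hP1, ← hP2]
  linarith

end Crest.Agent.S0112
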