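/-
Row 84 (S0112), package Q2: toolkit for `ultraMean`.  Namespace `Crest.Agent.S0112`.
-/
import Mathlib
import Crest.Prelude.Def_ModularData

set_option autoImplicit false

namespace Crest.Agent.S0112

open Crest.OpAlg MeasureTheory Filter
open scoped Topology

/-- bounded continuous real functions (the only ones we average) -/
def BC (f : ℝ → ℝ) : Prop := Continuous f ∧ ∃ B : ℝ, ∀ t, |f t| ≤ B

theorem BC.add {f g : ℝ → ℝ} (hf : BC f) (hg : BC g) : BC (fun t => f t + g t) := by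
  obtain ⟨hfc, A, hA⟩ := hf
  obtain ⟨hgc, B, hB⟩ := hg
  exact ⟨hfc.add hgc, A + B, fun t => (abs_add_le _ _).trans (add_le_add (hA t) (hB t))⟩

theorem BC.const_mul {f : ℝ → ℝ} (hf : BC f) (c : ℝ) : BC (fun t => c * f t) := by
  obtain ⟨hfc, A, hA⟩ := hf
  refine ⟨continuous_const.mul hfc, |c| * A, fun t => ?_⟩
  rw [abs_mul]
  exact mul_le_mul_of_nonneg_left (hA t) (abs_nonneg c)

theorem bc_const (c : ℝ) : BC (fun _ => c) :=
  ⟨continuous_const, |c|, fun _ => le_rfl⟩

theorem BC.shift {f : ℝ → ℝ} (hf : BC f) (s : ℝ) : BC (fun t => f (t + s)) := by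
  obtain ⟨hfc, A, hA⟩ := hf
  exact ⟨hfc.comp (continuous_id.add continuous_const), A, fun t => hA _⟩

/-- window mean as a normalised interval integral -/
theorem windowMean_eq (f : ℝ → ℝ) (k : ℕ) :
    windowMean f k = (2 * (k : ℝ))⁻¹ * ∫ t in (-(k : ℝ))..(k : ℝ), f t := by
  have hk : -(k : ℝ) ≤ (k : ℝ) := by
    have : (0 : ℝ) ≤ k := Nat.cast_nonneg k
    linarith
  unfold windowMean
  rw [setAverage_eq, intervalIntegral.integral_of_le hk, integral_Icc_eq_integral_Ioc,
    smul_eq_mul]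
  congr 2
  rw [Measure.real, Real.volume_Icc, ENNReal.toReal_ofReal (by linarith)]
  ring

theorem abs_windowMean_le {f : ℝ → ℝ} (B : ℝ) (hB : ∀ t, |f t| ≤ B) (k : ℕ) :
    |windowMean f k| ≤ B := by
  have hB0 : 0 ≤ B := (abs_nonneg _).trans (hB 0)
  rw [windowMean_eq]
  rcases Nat.eq_zero_or_pos k with rfl | hk
  · simpa using hB0
  have hk' : (0 : ℝ) < k := by exact_mod_cast hk
  have h1 : ‖∫ t in (-(k : ℝ))..(k : ℝ), f t‖ ≤ B * |(k : ℝ) - (-(k : ℝ))| :=
    intervalIntegral.norm_integral_le_of_norm_le_const (fun t _ => by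
      simpa [Real.norm_eq_abs] using hB t)
  have h2 : |(k : ℝ) - (-(k : ℝ))| = 2 * k := by
    rw [abs_of_nonneg (by linarith)]; ring
  rw [h2, Real.norm_eq_abs] at h1
  rw [abs_mul, abs_of_pos (by positivity : (0 : ℝ) < (2 * (k : ℝ))⁻¹)]
  calc (2 * (k : ℝ))⁻¹ * |∫ t in (-(k : ℝ))..(k : ℝ), f t|
      ≤ (2 * (k : ℝ))⁻¹ * (B * (2 * k)) := by
        exact mul_le_mul_of_nonneg_left h1 (by positivity)
    _ = B := by field_simp

variable (ω : Ultrafilter ℕ)

theorem tendsto_windowMean {f : ℝ → ℝ} (hf : BC f) :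
    Tendsto (windowMean f) (ω : Filter ℕ) (𝓝 (ultraMean ω f)) := by
  obtain ⟨_, B, hB⟩ := hf
  have hmem : ((ω.map (windowMean f) : Ultrafilter ℝ) : Filter ℝ) ≤ 𝓟 (Set.Icc (-B) B) := by
    rw [le_principal_iff, Ultrafilter.mem_coe, Ultrafilter.mem_map]
    refine Filter.univ_mem' (fun k => ?_)
    exact abs_le.mp (abs_windowMean_le B hB k)
  obtain ⟨x, _, hx⟩ := isCompact_Icc.ultrafilter_le_nhds _ hmem
  have hx' : Tendsto (windowMean f) (ω : Filter ℕ) (𝓝 x) := hx
  unfold ultraMean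
  rw [hx'.limUnder_eq]
  exact hx'

theorem ultraMean_eq_of_tendsto {f : ℝ → ℝ} {x : ℝ}
    (h : Tendsto (windowMean f) (ω : Filter ℕ) (𝓝 x)) : ultraMean ω f = x :=
  h.limUnder_eq

theorem ultraMean_add (hω : (ω : Filter ℕ) ≤ atTop) {f g : ℝ → ℝ} (hf : BC f) (hg : BC g) :
    ultraMean ω (fun t => f t + g t) = ultraMean ω f + ultraMean ω g := by
  apply ultraMean_eq_of_tendsto
  have h := (tendsto_windowMean ω hf).add (tendsto_windowMean ω hg)
  refine h.congr (fun k => ?_)
  rw [windowMean_eq, windowMean_eq, windowMean_eq,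
    intervalIntegral.integral_add (hf.1.intervalIntegrable _ _) (hg.1.intervalIntegrable _ _)]
  ring

theorem ultraMean_const_mul (hω : (ω : Filter ℕ) ≤ atTop) {f : ℝ → ℝ} (hf : BC f) (c : ℝ) :
    ultraMean ω (fun t => c * f t) = c * ultraMean ω f := by
  apply ultraMean_eq_of_tendsto
  have h := (tendsto_windowMean ω hf).const_mul c
  refine h.congr (fun k => ?_)
  rw [windowMean_eq, windowMean_eq, intervalIntegral.integral_const_mul]
  ring

theorem ultraMean_const (hω : (ω : Filter ℕ) ≤ atTop) (c : ℝ) :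
    ultraMean ω (fun _ => c) = c := by
  apply ultraMean_eq_of_tendsto
  have hev : ∀ᶠ k : ℕ in (ω : Filter ℕ), c = windowMean (fun _ => c) k := by
    refine hω (eventually_atTop.mpr ⟨1, fun k hk => ?_⟩)
    have hk' : (0 : ℝ) < k := by exact_mod_cast hk
    rw [windowMean_eq, intervalIntegral.integral_const, smul_eq_mul]
    field_simp
    ring
  exact (tendsto_const_nhds).congr' hev

theorem ultraMean_mono (hω : (ω : Filter ℕ) ≤ atTop) {f g : ℝ → ℝ} (hf : BC f) (hg : BC g)
    (h : ∀ t, f t ≤ g t) : ultraMean ω f ≤ ultraMean ω g := by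
  refine le_of_tendsto_of_tendsto' (tendsto_windowMean ω hf) (tendsto_windowMean ω hg)
    (fun k => ?_)
  rw [windowMean_eq, windowMean_eq]
  have hk : -(k : ℝ) ≤ (k : ℝ) := by
    have : (0 : ℝ) ≤ k := Nat.cast_nonneg k
    linarith
  refine mul_le_mul_of_nonneg_left ?_ (by positivity)
  exact intervalIntegral.integral_mono_on hk (hf.1.intervalIntegrable _ _)
    (hg.1.intervalIntegrable _ _) (fun t _ => h t)

theorem abs_ultraMean_le (hω : (ω : Filter ℕ) ≤ atTop) {f : ℝ → ℝ} (hf : BC f) (B : ℝ)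
    (hB : ∀ t, |f t| ≤ B) : |ultraMean ω f| ≤ B := by
  have h := (tendsto_windowMean ω hf).abs
  exact le_of_tendsto' h (fun k => abs_windowMean_le B hB k)

/-- translation invariance (needs `ω` free) -/
theorem ultraMean_shift (hω : (ω : Filter ℕ) ≤ atTop) {f : ℝ → ℝ} (hf : BC f) (s : ℝ) :
    ultraMean ω (fun t => f (t + s)) = ultraMean ω f := by
  apply ultraMean_eq_of_tendsto
  obtain ⟨hfc, B, hB⟩ := hf
  have hB0 : 0 ≤ B := (abs_nonneg _).trans (hB 0)
  have hbase := tendsto_windowMean ω (⟨hfc, B, hB⟩ : BC f)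
  -- the difference tends to zero
  have hdiff : Tendsto (fun k : ℕ => windowMean (fun t => f (t + s)) k - windowMean f k)
      (ω : Filter ℕ) (𝓝 0) := by
    have hbound : ∀ k : ℕ, |windowMean (fun t => f (t + s)) k - windowMean f k|
        ≤ (B * |s|) * ((k : ℝ))⁻¹ := by
      intro k
      rw [windowMean_eq, windowMean_eq, intervalIntegral.integral_comp_add_right, ← mul_sub,
        intervalIntegral.integral_interval_sub_interval_comm (hfc.intervalIntegrable _ _)
          (hfc.intervalIntegrable _ _) (hfc.intervalIntegrable _ _)]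
      have h1 : ‖∫ t in (-(k : ℝ) + s)..(-(k : ℝ)), f t‖ ≤ B * |(-(k : ℝ)) - (-(k : ℝ) + s)| :=
        intervalIntegral.norm_integral_le_of_norm_le_const (fun t _ => by
          simpa [Real.norm_eq_abs] using hB t)
      have h2 : ‖∫ t in ((k : ℝ) + s)..((k : ℝ)), f t‖ ≤ B * |((k : ℝ)) - ((k : ℝ) + s)| :=
        intervalIntegral.norm_integral_le_of_norm_le_const (fun t _ => by
          simpa [Real.norm_eq_abs] using hB t)
      have e1 : |(-(k : ℝ)) - (-(k : ℝ) + s)| = |s| := by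
        rw [show (-(k : ℝ)) - (-(k : ℝ) + s) = -s by ring, abs_neg]
      have e2 : |((k : ℝ)) - ((k : ℝ) + s)| = |s| := by
        rw [show ((k : ℝ)) - ((k : ℝ) + s) = -s by ring, abs_neg]
      rw [e1, Real.norm_eq_abs] at h1
      rw [e2, Real.norm_eq_abs] at h2
      have hk0 : (0 : ℝ) ≤ (2 * (k : ℝ))⁻¹ := by positivity
      rw [abs_mul, abs_of_nonneg hk0]
      calc (2 * (k : ℝ))⁻¹ * |(∫ t in (-(k : ℝ) + s)..(-(k : ℝ)), f t)
              - ∫ t in ((k : ℝ) + s)..((k : ℝ)), f t|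
          ≤ (2 * (k : ℝ))⁻¹ * (B * |s| + B * |s|) := by
            refine mul_le_mul_of_nonneg_left ?_ hk0
            exact (abs_sub _ _).trans (add_le_add h1 h2)
        _ = (B * |s|) * ((k : ℝ))⁻¹ := by
            rw [mul_inv]; ring
    have hlim : Tendsto (fun k : ℕ => (B * |s|) * ((k : ℝ))⁻¹) (ω : Filter ℕ) (𝓝 0) := by
      have : Tendsto (fun k : ℕ => (B * |s|) * ((k : ℝ))⁻¹) atTop (𝓝 ((B * |s|) * 0)) :=
        (tendsto_inv_atTop_nhds_zero_nat (𝕜 := ℝ)).const_mul _
      rw [mul_zero] at this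
      exact this.mono_left hω
    exact squeeze_zero_norm (fun k => by simpa [Real.norm_eq_abs] using hbound k) hlim
  have := hdiff.add hbase
  simpa using this

end Crest.Agent.S0112
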