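/-
Row 84 (S0112), package Q4: consequences of the Tomita relation of a `ModularDatum`.
Namespace `Crest.Agent.S0112`.
-/
import Mathlib
import Crest.Prelude.Def_ModularData
import Crest.Agent.S0112_Calc

set_option autoImplicit false

namespace Crest.Agent.S0112

open Crest.OpAlg MeasureTheory Filter
open scoped Topology BoundedContinuousFunction

variable {H : Type*} [NormedAddCommGroup H] [InnerProductSpace ℂ H] [CompleteSpace H]

/-- every pair `(aξ, a⋆ξ)` satisfies the graph relation -/
theorem halfExp_of_mem (S : ModularDatum H) (a : H →L[ℂ] H) (ha : a ∈ S.M) :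
    S.D.HalfExp (a S.vac) (S.J (star a S.vac)) := by
  have h : ((a S.vac, star a S.vac) : H × H) ∈ closure (Set.range fun a : S.M =>
      ((a : H →L[ℂ] H) S.vac, star (a : H →L[ℂ] H) S.vac)) :=
    subset_closure ⟨⟨a, ha⟩, rfl⟩
  rw [S.tomita] at h
  exact h

namespace Tomita

/-- a conjugate-linear isometry conjugates inner products -/
theorem inner_conj_map (J : H ≃ₗᵢ⋆[ℂ] H) (x y : H) : inner ℂ (J x) (J y) = inner ℂ y x := by
  have h1 : ‖J x + J y‖ = ‖x + y‖ := by rw [← map_add, J.norm_map]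
  have h2 : ‖J x - J y‖ = ‖x - y‖ := by rw [← map_sub, J.norm_map]
  have h3 : ‖J x - Complex.I • J y‖ = ‖x + Complex.I • y‖ := by
    rw [← J.norm_map (x + Complex.I • y), map_add, map_smulₛₗ]
    simp [sub_eq_add_neg]
  have h4 : ‖J x + Complex.I • J y‖ = ‖x - Complex.I • y‖ := by
    rw [← J.norm_map (x - Complex.I • y), map_sub, map_smulₛₗ]
    simp [sub_eq_add_neg]
  rw [← inner_conj_symm y x, inner_eq_sum_norm_sq_div_four (𝕜 := ℂ) (J x) (J y),
    inner_eq_sum_norm_sq_div_four (𝕜 := ℂ) x y]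
  simp only [RCLike.I_to_complex]
  rw [h1, h2, h3, h4]
  simp only [map_div₀, map_add, map_sub, map_mul, map_pow, Complex.conj_ofReal, RCLike.conj_I,
    RCLike.I_to_complex, Complex.conj_I, Complex.coe_algebraMap, map_ofNat]
  ring

/-- on the Tomita graph `⟪p₂, ξ⟫ = ⟪ξ, p₁⟫` -/
theorem inner_of_halfExp (S : ModularDatum H) (x y : H) (h : S.D.HalfExp x (S.J y)) :
    inner ℂ y S.vac = inner ℂ S.vac x := by
  have hmem : ((x, y) : H × H) ∈ closure (Set.range fun a : S.M =>
      ((a : H →L[ℂ] H) S.vac, star (a : H →L[ℂ] H) S.vac)) := by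
    rw [S.tomita]; exact h
  have hclosed : IsClosed {p : H × H | inner ℂ p.2 S.vac = inner ℂ S.vac p.1} :=
    isClosed_eq (by fun_prop) (by fun_prop)
  have hsub : (Set.range fun a : S.M =>
      ((a : H →L[ℂ] H) S.vac, star (a : H →L[ℂ] H) S.vac)) ⊆
      {p : H × H | inner ℂ p.2 S.vac = inner ℂ S.vac p.1} := by
    rintro _ ⟨a, rfl⟩
    simp [ContinuousLinearMap.star_eq_adjoint, ContinuousLinearMap.adjoint_inner_left]
  exact closure_minimal hsub hclosed hmem

theorem halfExp_vac (S : ModularDatum H) : S.D.HalfExp S.vac (S.J S.vac) := by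
  have := halfExp_of_mem S 1 (one_mem _)
  simpa using this

theorem inner_apply_star (D : LineCalculus H) (f : ℝ →ᵇ ℂ) (x y : H) :
    inner ℂ (D.apply (star f) x) y = inner ℂ x (D.apply f y) := by
  rw [map_star, ContinuousLinearMap.star_eq_adjoint, ContinuousLinearMap.adjoint_inner_left]

/-- the basic identity `⟪ξ, (k e^u)(D) ξ⟫ = ⟪ξ, k(D) ξ⟫` -/
theorem inner_exp_eq (S : ModularDatum H) (k0 k1 k2 : ℝ →ᵇ ℂ)
    (h1 : ∀ u : ℝ, k1 u = k0 u * ((Real.exp (u / 2) : ℝ) : ℂ))
    (h2 : ∀ u : ℝ, k2 u = k1 u * ((Real.exp (u / 2) : ℝ) : ℂ)) :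
    inner ℂ S.vac (S.D.apply k2 S.vac) = inner ℂ S.vac (S.D.apply k0 S.vac) := by
  have hG : S.D.HalfExp (S.D.apply k0 S.vac) (S.J (S.J (S.D.apply k1 S.vac))) := by
    rw [S.J_J]
    intro f g hfg
    rw [← apply_mul_apply, ← apply_mul_apply]
    congr 2
    ext u
    simp only [BoundedContinuousFunction.mul_apply, h1, hfg]
    ring
  have e1 := inner_of_halfExp S _ _ hG
  rw [← e1]
  have e2 : inner ℂ (S.J (S.D.apply k1 S.vac)) S.vac
      = inner ℂ (S.J S.vac) (S.D.apply k1 S.vac) := by
    calc inner ℂ (S.J (S.D.apply k1 S.vac)) S.vac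
        = inner ℂ (S.J (S.D.apply k1 S.vac)) (S.J (S.J S.vac)) := by rw [S.J_J]
      _ = _ := inner_conj_map _ _ _
  rw [e2, ← inner_apply_star, ← inner_apply_star]
  congr 1
  refine (halfExp_vac S (star k1) (star k2) ?_).symm
  intro u
  simp only [BoundedContinuousFunction.star_apply, h2, Complex.star_def, map_mul,
    Complex.conj_ofReal]

theorem one_apply' (u : ℝ) : (1 : ℝ →ᵇ ℂ) u = 1 := rfl

/-- `1 / (1 + e^u)` -/
noncomputable def fa : ℝ →ᵇ ℂ :=
  BoundedContinuousFunction.ofNormedAddCommGroup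
    (fun u : ℝ => ((1 / (1 + Real.exp u) : ℝ) : ℂ))
    (by
      refine Complex.continuous_ofReal.comp ?_
      refine Continuous.div continuous_const (by fun_prop) ?_
      intro u; positivity) 1
    (fun u => by
      rw [Complex.norm_real, Real.norm_eq_abs, abs_of_pos (by positivity),
        div_le_one (by positivity)]
      linarith [Real.exp_pos u])

/-- `e^{u/2} / (1 + e^u)` -/
noncomputable def fh : ℝ →ᵇ ℂ :=
  BoundedContinuousFunction.ofNormedAddCommGroup
    (fun u : ℝ => ((Real.exp (u / 2) / (1 + Real.exp u) : ℝ) : ℂ))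
    (by
      refine Complex.continuous_ofReal.comp ?_
      refine Continuous.div (by fun_prop) (by fun_prop) ?_
      intro u; positivity) 1
    (fun u => by
      rw [Complex.norm_real, Real.norm_eq_abs, abs_of_pos (by positivity),
        div_le_one (by positivity)]
      have h : Real.exp u = Real.exp (u / 2) * Real.exp (u / 2) := by
        rw [← Real.exp_add]; congr 1; ring
      rw [h]
      nlinarith [Real.exp_pos (u / 2), sq_nonneg (Real.exp (u / 2) - 1)])

/-- `tanh (u/2) = (e^u - 1) / (e^u + 1)` -/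
noncomputable def fw : ℝ →ᵇ ℂ := 1 - fa - fa

theorem fa_apply (u : ℝ) : fa u = ((1 / (1 + Real.exp u) : ℝ) : ℂ) := rfl
theorem fh_apply (u : ℝ) : fh u = ((Real.exp (u / 2) / (1 + Real.exp u) : ℝ) : ℂ) := rfl

theorem fw_apply (u : ℝ) : fw u = (((Real.exp u - 1) / (1 + Real.exp u) : ℝ) : ℂ) := by
  have h : (1 + Real.exp u) ≠ 0 := by positivity
  simp only [fw, BoundedContinuousFunction.sub_apply, one_apply',
    fa_apply]
  rw [← Complex.ofReal_one, ← Complex.ofReal_sub, ← Complex.ofReal_sub]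
  congr 1
  field_simp
  ring

theorem star_fw : star fw = fw := by
  ext u
  rw [BoundedContinuousFunction.star_apply, fw_apply, Complex.star_def, Complex.conj_ofReal]

/-- `tanh(D/2) ξ = 0` -/
theorem apply_fw_vac (S : ModularDatum H) : S.D.apply fw S.vac = 0 := by
  have key := inner_exp_eq S (fa * fw) (fh * fw) ((1 - fa) * fw) ?_ ?_
  · have h0 : inner ℂ S.vac (S.D.apply (star fw * fw) S.vac) = 0 := by
      have : star fw * fw = (1 - fa) * fw - fa * fw := by
        rw [star_fw]; simp only [fw]; ring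
      rw [this, map_sub, sub_apply, inner_sub_right, key, sub_self]
    rw [apply_mul_apply, ← inner_apply_star, star_star] at h0
    exact inner_self_eq_zero.mp h0
  · intro u
    have h : (1 + Real.exp u) ≠ 0 := by positivity
    simp only [BoundedContinuousFunction.mul_apply, fa_apply, fh_apply]
    push_cast
    ring
  · intro u
    have h : (1 + Real.exp u) ≠ 0 := by positivity
    have h' : Real.exp u = Real.exp (u / 2) * Real.exp (u / 2) := by
      rw [← Real.exp_add]; congr 1; ring
    have e : (1 - fa) u = fh u * ((Real.exp (u / 2) : ℝ) : ℂ) := by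
      simp only [BoundedContinuousFunction.sub_apply, one_apply',
        fa_apply, fh_apply]
      rw [← Complex.ofReal_one, ← Complex.ofReal_sub, ← Complex.ofReal_mul]
      congr 1
      field_simp
      linarith
    simp only [BoundedContinuousFunction.mul_apply, e]
    ring

/-- `1 / (1 + n tanh²(u/2))` -/
noncomputable def fg (n : ℕ) : ℝ →ᵇ ℂ :=
  BoundedContinuousFunction.ofNormedAddCommGroup
    (fun u : ℝ => ((1 / (1 + n * ((Real.exp u - 1) / (1 + Real.exp u)) ^ 2) : ℝ) : ℂ))
    (by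
      refine Complex.continuous_ofReal.comp ?_
      refine Continuous.div continuous_const ?_ ?_
      · refine continuous_const.add (continuous_const.mul (Continuous.pow ?_ 2))
        refine Continuous.div (by fun_prop) (by fun_prop) ?_
        intro u; positivity
      · intro u; positivity) 1
    (fun u => by
      rw [Complex.norm_real, Real.norm_eq_abs, abs_of_pos (by positivity),
        div_le_one (by positivity)]
      have : 0 ≤ (n : ℝ) * ((Real.exp u - 1) / (1 + Real.exp u)) ^ 2 := by positivity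
      linarith)

theorem fg_apply (n : ℕ) (u : ℝ) :
    fg n u = ((1 / (1 + n * ((Real.exp u - 1) / (1 + Real.exp u)) ^ 2) : ℝ) : ℂ) := rfl

theorem apply_fg_vac (S : ModularDatum H) (n : ℕ) : S.D.apply (fg n) S.vac = S.vac := by
  have h1 : fg n * (1 + (n : ℂ) • (fw * fw)) = 1 := by
    ext u
    simp only [BoundedContinuousFunction.mul_apply, BoundedContinuousFunction.add_apply,
      one_apply', BoundedContinuousFunction.smul_apply, fg_apply,
      fw_apply, smul_eq_mul]
    have hp : (1 + (n : ℝ) * ((Real.exp u - 1) / (1 + Real.exp u)) ^ 2) ≠ 0 := by positivity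
    rw [← Complex.ofReal_natCast, ← Complex.ofReal_one, ← Complex.ofReal_mul,
      ← Complex.ofReal_mul, ← Complex.ofReal_add, ← Complex.ofReal_mul]
    congr 1
    rw [← pow_two, one_div, inv_mul_cancel₀ hp]
  have h2 : S.D.apply (1 + (n : ℂ) • (fw * fw)) S.vac = S.vac := by
    rw [map_add, map_one, map_smul, add_apply,
      smul_apply, apply_mul_apply, apply_fw_vac]
    simp
  calc S.D.apply (fg n) S.vac
      = S.D.apply (fg n) (S.D.apply (1 + (n : ℂ) • (fw * fw)) S.vac) := by rw [h2]
    _ = S.vac := by rw [← apply_mul_apply, h1, map_one]; rfl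

theorem tanh_lower (r u : ℝ) (hr : 0 < r) (hu : r ≤ |u|) :
    ((Real.exp r - 1) / (1 + Real.exp r)) ^ 2 ≤ ((Real.exp u - 1) / (1 + Real.exp u)) ^ 2 := by
  have hY : 1 < Real.exp r := by rw [← Real.exp_zero]; exact Real.exp_lt_exp.mpr hr
  have hX := Real.exp_pos u
  have h0 : 0 ≤ (Real.exp r - 1) / (1 + Real.exp r) := by
    apply div_nonneg <;> linarith
  rw [← sq_abs ((Real.exp u - 1) / (1 + Real.exp u))]
  refine pow_le_pow_left₀ h0 ?_ 2
  rcases le_abs.mp hu with h | h
  · refine le_trans ?_ (le_abs_self _)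
    have : Real.exp r ≤ Real.exp u := Real.exp_le_exp.mpr h
    rw [div_le_div_iff₀ (by positivity) (by positivity)]
    nlinarith
  · refine le_trans ?_ (neg_le_abs _)
    have h1 : Real.exp u * Real.exp r ≤ 1 := by
      rw [← Real.exp_add, ← Real.exp_zero]; exact Real.exp_le_exp.mpr (by linarith)
    rw [← neg_div, div_le_div_iff₀ (by positivity) (by positivity)]
    nlinarith

end Tomita

open Tomita in
/-- the vacuum has spectral support `{0}` -/
theorem supportedIn_vac (S : ModularDatum H) : S.D.SupportedIn {0} S.vac := by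
  intro f hf
  have hf0 : f 0 = 0 := hf 0 rfl
  rw [← norm_le_zero_iff]
  refine le_of_forall_pos_le_add ?_
  intro ε hε
  rw [zero_add]
  -- continuity at `0`
  have hcont : ContinuousAt (fun u : ℝ => f u) 0 := f.continuous.continuousAt
  obtain ⟨r, hr, hfr⟩ := Metric.continuousAt_iff.mp hcont ε hε
  set c : ℝ := ((Real.exp r - 1) / (1 + Real.exp r)) ^ 2 with hc
  have hY : 1 < Real.exp r := by rw [← Real.exp_zero]; exact Real.exp_lt_exp.mpr hr
  have hcpos : 0 < c := by
    have : 0 < (Real.exp r - 1) / (1 + Real.exp r) := by apply div_pos <;> linarith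
    positivity
  obtain ⟨n, hn⟩ := exists_nat_ge (‖f‖ / (ε * c))
  have hbound : ‖f * fg n‖ ≤ ε := by
    rw [BoundedContinuousFunction.norm_le hε.le]
    intro u
    rw [BoundedContinuousFunction.mul_apply, norm_mul, fg_apply, Complex.norm_real,
      Real.norm_eq_abs, abs_of_pos (by positivity)]
    set q : ℝ := ((Real.exp u - 1) / (1 + Real.exp u)) ^ 2 with hq
    have hq0 : 0 ≤ q := by positivity
    rw [mul_one_div, div_le_iff₀ (by positivity)]
    by_cases hu : |u| < r
    · have h1 : ‖f u‖ < ε := by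
        have := hfr (x := u) (by simpa [Real.dist_eq] using hu)
        simpa [hf0, dist_eq_norm] using this
      have : 0 ≤ ε * ((n : ℝ) * q) := by positivity
      nlinarith
    · have hq1 : c ≤ q := tanh_lower r u hr (not_lt.mp hu)
      have h1 : ‖f u‖ ≤ ‖f‖ := f.norm_coe_le_norm u
      have h2 : ‖f‖ ≤ (n : ℝ) * (ε * c) := by
        rwa [div_le_iff₀ (by positivity)] at hn
      have h3 : (n : ℝ) * (ε * c) ≤ ε * ((n : ℝ) * q) := by
        have : (n : ℝ) * (ε * c) = ε * ((n : ℝ) * c) := by ring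
        rw [this]
        gcongr
      nlinarith
  calc ‖S.D.apply f S.vac‖ = ‖S.D.apply (f * fg n) S.vac‖ := by
        rw [apply_mul_apply, apply_fg_vac]
    _ ≤ ‖f * fg n‖ * ‖S.vac‖ := norm_apply_apply_le _ _ _
    _ ≤ ε := by rw [S.norm_vac, mul_one]; exact hbound

/-- the vacuum is invariant under the modular group (`Δ ξ = ξ`).  See the plan for the proof:
`⟪p₂, ξ⟫ = ⟪ξ, p₁⟫` on the graph (true for `(aξ, a⋆ξ)`, closed condition), applied to
`p₁ = k(D) ξ`, `k` real with compact support, gives `⟪ξ, (k (e^u - 1))(D) ξ⟫ = 0`. -/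
theorem wave_vac (S : ModularDatum H) (t : ℝ) : S.D.wave t S.vac = S.vac := by
  refine apply_eq_self_of_supported S.D (supportedIn_vac S) ?_
  intro u hu
  rw [Set.mem_singleton_iff] at hu
  subst hu
  simp [LineCalculus.character]

/-- `‖a⋆ξ‖ = ‖Δ^{1/2} aξ‖ ≤ e^{b/2} ‖aξ‖` if `aξ` has spectral support in `K ⊆ (-∞, b]`. -/
theorem norm_star_vac_le (S : ModularDatum H) (a : H →L[ℂ] H) (ha : a ∈ S.M) (K : Set ℝ) (b : ℝ)
    (hK : ∀ u ∈ K, u ≤ b) (hsupp : S.D.SupportedIn K (a S.vac)) :
    ‖star a S.vac‖ ≤ Real.exp (b / 2) * ‖a S.vac‖ := by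
  have hH := halfExp_of_mem S a ha
  set y : H := S.J (star a S.vac) with hy
  have hny : ‖star a S.vac‖ = ‖y‖ := by rw [hy, S.J.norm_map]
  rw [hny]
  refine le_of_forall_pos_le_add ?_
  intro ε hε
  obtain ⟨f, hfc, hf1, hfε⟩ := exists_cut S.D y ε hε
  -- `g = f e^{u/2}`
  have hgcont : Continuous fun u : ℝ => f u * ((Real.exp (u / 2) : ℝ) : ℂ) := by
    refine f.continuous.mul (Complex.continuous_ofReal.comp (by fun_prop))
  have hgc : HasCompactSupport fun u : ℝ => f u * ((Real.exp (u / 2) : ℝ) : ℂ) :=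
    hfc.mul_right
  obtain ⟨C, hC⟩ := hgcont.bounded_above_of_compact_support hgc
  set g : ℝ →ᵇ ℂ := BoundedContinuousFunction.ofNormedAddCommGroup _ hgcont C hC with hg
  have hfg : S.D.apply f y = S.D.apply g (a S.vac) := hH f g (fun u => rfl)
  have hgb : ‖S.D.apply g (a S.vac)‖ ≤ Real.exp (b / 2) * ‖a S.vac‖ := by
    refine norm_apply_le_of_supported S.D hsupp g _ (Real.exp_pos _).le ?_
    intro u hu
    have e : g u = f u * ((Real.exp (u / 2) : ℝ) : ℂ) := rfl
    rw [e, norm_mul, Complex.norm_real, Real.norm_eq_abs, abs_of_pos (Real.exp_pos _)]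
    have h1 : ‖f u‖ ≤ 1 := (f.norm_coe_le_norm u).trans hf1
    have h2 : Real.exp (u / 2) ≤ Real.exp (b / 2) := Real.exp_le_exp.mpr (by linarith [hK u hu])
    calc ‖f u‖ * Real.exp (u / 2) ≤ 1 * Real.exp (b / 2) := by
          gcongr
      _ = Real.exp (b / 2) := one_mul _
  calc ‖y‖ = ‖S.D.apply f y - (S.D.apply f y - y)‖ := by congr 1; abel
    _ ≤ ‖S.D.apply f y‖ + ‖S.D.apply f y - y‖ := norm_sub_le _ _
    _ ≤ Real.exp (b / 2) * ‖a S.vac‖ + ε := by
        exact add_le_add (hfg ▸ hgb) hfε.le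

end Crest.Agent.S0112
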