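/-
Row 84 (S0112), package Q5: the modular flow and smearing `x ↦ ∫ g(t) σ_t(x) dt` inside `M`.
Namespace `Crest.Agent.S0112`.
-/
import Mathlib
import Crest.Prelude.Def_ModularData
import Crest.Agent.S0112_Calc
import Crest.Agent.S0112_Tomita

set_option autoImplicit false

namespace Crest.Agent.S0112

open Crest.OpAlg MeasureTheory Filter
open scoped Topology BoundedContinuousFunction

variable {H : Type*} [NormedAddCommGroup H] [InnerProductSpace ℂ H] [CompleteSpace H]

theorem flow_mem (S : ModularDatum H) (t : ℝ) {a : H →L[ℂ] H} (ha : a ∈ S.M) :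
    S.flow t a ∈ S.M := S.flow_mem t a ha

theorem flow_apply (S : ModularDatum H) (t : ℝ) (a : H →L[ℂ] H) (x : H) :
    S.flow t a x = S.D.wave t (a (S.D.wave (-t) x)) := rfl

theorem norm_flow_le (S : ModularDatum H) (t : ℝ) (a : H →L[ℂ] H) : ‖S.flow t a‖ ≤ ‖a‖ := by
  unfold ModularDatum.flow
  calc ‖S.D.wave t * a * S.D.wave (-t)‖ ≤ ‖S.D.wave t‖ * ‖a‖ * ‖S.D.wave (-t)‖ := by
        refine (norm_mul_le _ _).trans ?_
        gcongr
        exact norm_mul_le _ _
    _ ≤ 1 * ‖a‖ * 1 := by gcongr <;> exact norm_wave_le _ _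
    _ = ‖a‖ := by ring

theorem smear_wave_neg_mul_wave (D : LineCalculus H) (t : ℝ) : D.wave (-t) * D.wave t = 1 := by
  rw [← wave_add, neg_add_cancel, wave_zero]

theorem smear_wave_mul_wave_neg (D : LineCalculus H) (t : ℝ) : D.wave t * D.wave (-t) = 1 := by
  rw [← wave_add, add_neg_cancel, wave_zero]

theorem star_flow (S : ModularDatum H) (t : ℝ) (a : H →L[ℂ] H) :
    star (S.flow t a) = S.flow t (star a) := by
  unfold ModularDatum.flow
  rw [star_mul, star_mul, star_wave, star_wave, neg_neg, mul_assoc]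

theorem flow_mul (S : ModularDatum H) (t : ℝ) (a b : H →L[ℂ] H) :
    S.flow t (a * b) = S.flow t a * S.flow t b := by
  unfold ModularDatum.flow
  calc S.D.wave t * (a * b) * S.D.wave (-t)
      = S.D.wave t * a * 1 * b * S.D.wave (-t) := by simp only [mul_one, mul_assoc]
    _ = S.D.wave t * a * (S.D.wave (-t) * S.D.wave t) * b * S.D.wave (-t) := by
        rw [smear_wave_neg_mul_wave]
    _ = S.D.wave t * a * S.D.wave (-t) * (S.D.wave t * b * S.D.wave (-t)) := by
        simp only [mul_assoc]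

theorem flow_flow (S : ModularDatum H) (s t : ℝ) (a : H →L[ℂ] H) :
    S.flow s (S.flow t a) = S.flow (s + t) a := by
  unfold ModularDatum.flow
  rw [wave_add, neg_add_rev, wave_add]
  simp only [mul_assoc]

theorem flow_vac (S : ModularDatum H) (t : ℝ) (a : H →L[ℂ] H) :
    S.flow t a S.vac = S.D.wave t (a S.vac) := by
  rw [flow_apply, wave_vac]

/-- joint continuity: a strongly continuous isometric family applied to a continuous curve -/
theorem smear_continuous_wave_comp (D : LineCalculus H) {y : ℝ → H} (hy : Continuous y) :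
    Continuous fun t : ℝ => D.wave t (y t) := by
  rw [continuous_iff_continuousAt]
  intro t₀
  unfold ContinuousAt
  rw [tendsto_iff_norm_sub_tendsto_zero]
  have h1 : Tendsto (fun t => ‖y t - y t₀‖) (𝓝 t₀) (𝓝 0) := by
    have := (hy.tendsto t₀)
    rwa [tendsto_iff_norm_sub_tendsto_zero] at this
  have h2 : Tendsto (fun t => ‖D.wave t (y t₀) - D.wave t₀ (y t₀)‖) (𝓝 t₀) (𝓝 0) := by
    have := ((continuous_wave D (y t₀)).tendsto t₀)
    rwa [tendsto_iff_norm_sub_tendsto_zero] at this
  have h3 := h1.add h2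
  rw [add_zero] at h3
  refine squeeze_zero (fun _ => norm_nonneg _) (fun t => ?_) h3
  calc ‖D.wave t (y t) - D.wave t₀ (y t₀)‖
      = ‖D.wave t (y t - y t₀) + (D.wave t (y t₀) - D.wave t₀ (y t₀))‖ := by
        rw [map_sub]; congr 1; abel
    _ ≤ ‖D.wave t (y t - y t₀)‖ + ‖D.wave t (y t₀) - D.wave t₀ (y t₀)‖ := norm_add_le _ _
    _ = ‖y t - y t₀‖ + ‖D.wave t (y t₀) - D.wave t₀ (y t₀)‖ := by rw [norm_wave_apply]

theorem continuous_flow_apply (S : ModularDatum H) (a : H →L[ℂ] H) (x : H) :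
    Continuous fun t : ℝ => S.flow t a x := by
  have h1 : Continuous fun t : ℝ => a (S.D.wave (-t) x) :=
    a.continuous.comp ((continuous_wave S.D x).comp continuous_neg)
  exact smear_continuous_wave_comp S.D h1

theorem smear_norm_flow_apply_le (S : ModularDatum H) (t : ℝ) (a : H →L[ℂ] H) (y : H) :
    ‖S.flow t a y‖ ≤ ‖a‖ * ‖y‖ :=
  ((S.flow t a).le_opNorm y).trans (by gcongr; exact norm_flow_le S t a)

theorem smear_integrable_smul_flow (S : ModularDatum H) (g : ℝ → ℂ) (hg : Integrable g)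
    (x : H →L[ℂ] H) (y : H) : Integrable fun t : ℝ => g t • S.flow t x y := by
  refine Integrable.mono' (g := fun t => ‖g t‖ * (‖x‖ * ‖y‖)) (hg.norm.mul_const _) ?_ ?_
  · exact hg.aestronglyMeasurable.smul (continuous_flow_apply S x y).aestronglyMeasurable
  · refine Eventually.of_forall fun t => ?_
    rw [norm_smul]
    gcongr
    exact smear_norm_flow_apply_le S t x y

/-- **Smearing.**  For `g ∈ L¹` with `ĝ = β` and `x ∈ M` there is `v ∈ M` (`v y = ∫ g t • σ_t(x) y`) with
`‖v‖ ≤ ‖g‖₁ ‖x‖` and `v ξ = β(D) x ξ`.  (`v ∈ M` because it commutes with the commutant.) -/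
theorem exists_smear (S : ModularDatum H) (g : ℝ → ℂ) (hg : Integrable g) (β : ℝ →ᵇ ℂ)
    (hβ : ∀ u : ℝ, β u = ∫ t : ℝ, g t * Complex.exp (Complex.I * ((t * u : ℝ) : ℂ)))
    (x : H →L[ℂ] H) (hx : x ∈ S.M) :
    ∃ v : H →L[ℂ] H, v ∈ S.M ∧ ‖v‖ ≤ (∫ t, ‖g t‖) * ‖x‖ ∧ v S.vac = S.D.apply β (x S.vac) := by
  have hint := smear_integrable_smul_flow S g hg x
  let L : H →ₗ[ℂ] H :=
    { toFun := fun y => ∫ t : ℝ, g t • S.flow t x y
      map_add' := by
        intro y z
        rw [← integral_add (hint y) (hint z)]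
        congr 1
        funext t
        rw [map_add, smul_add]
      map_smul' := by
        intro c y
        simp only [RingHom.id_apply]
        rw [← integral_smul]
        congr 1
        funext t
        rw [map_smul, smul_comm] }
  have hLapp : ∀ y, L y = ∫ t : ℝ, g t • S.flow t x y := fun _ => rfl
  have hC0 : 0 ≤ (∫ t, ‖g t‖) * ‖x‖ :=
    mul_nonneg (integral_nonneg fun _ => norm_nonneg _) (norm_nonneg _)
  have hbound : ∀ y, ‖L y‖ ≤ ((∫ t, ‖g t‖) * ‖x‖) * ‖y‖ := by
    intro y
    rw [hLapp]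
    refine (norm_integral_le_integral_norm _).trans ?_
    calc ∫ t : ℝ, ‖g t • S.flow t x y‖ ≤ ∫ t : ℝ, ‖g t‖ * (‖x‖ * ‖y‖) := by
          refine integral_mono (hint y).norm (hg.norm.mul_const _) fun t => ?_
          simp only [norm_smul]
          gcongr
          exact smear_norm_flow_apply_le S t x y
      _ = ((∫ t, ‖g t‖) * ‖x‖) * ‖y‖ := by rw [integral_mul_const]; ring
  let v : H →L[ℂ] H := L.mkContinuous _ hbound
  have hvapp : ∀ y, v y = ∫ t : ℝ, g t • S.flow t x y := fun _ => rfl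
  refine ⟨v, ?_, L.mkContinuous_norm_le hC0 hbound, ?_⟩
  · rw [← S.M.commutant_commutant, VonNeumannAlgebra.mem_commutant_iff]
    intro c hc
    rw [VonNeumannAlgebra.mem_commutant_iff] at hc
    ext y
    simp only [mul_apply_eq_comp]
    rw [hvapp, hvapp, ← ContinuousLinearMap.integral_comp_comm c (hint y)]
    congr 1
    funext t
    rw [map_smul]
    congr 1
    have := hc (S.flow t x) (flow_mem S t hx)
    have h2 := congrArg (fun A : H →L[ℂ] H => A y) this
    simp only [mul_apply_eq_comp] at h2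
    exact h2.symm
  · rw [hvapp, ← integral_wave S.D g hg β hβ (x S.vac)]
    congr 1
    funext t
    rw [flow_vac]

end Crest.Agent.S0112
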