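/-
Row 84 (S0112), package Q8: the main estimate for one index `n`.  Namespace `Crest.Agent.S0112`.
-/
import Mathlib
import Crest.Prelude.Def_ModularData
import Crest.Agent.S0112_Calc
import Crest.Agent.S0112_Mean
import Crest.Agent.S0112_Tomita
import Crest.Agent.S0112_Smear
import Crest.Agent.S0112_Erg
import Crest.Agent.S0112_Groth

set_option autoImplicit false
set_option linter.unusedSectionVars false

namespace Crest.Agent.S0112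

open Crest.OpAlg MeasureTheory Filter
open scoped Topology BoundedContinuousFunction

variable {H : Type*} [NormedAddCommGroup H] [InnerProductSpace ℂ H] [CompleteSpace H]

/-- the linear map `x ↦ A (x ξ)` -/
def evalMap (A : H →L[ℂ] H) (ξ : H) : (H →L[ℂ] H) →ₗ[ℂ] H where
  toFun x := A (x ξ)
  map_add' x y := by simp
  map_smul' c x := by simp

@[simp] theorem evalMap_apply (A : H →L[ℂ] H) (ξ : H) (x : H →L[ℂ] H) :
    evalMap A ξ x = A (x ξ) := rfl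

theorem norm_unitary_apply {W : H →L[ℂ] H} (hW : W ∈ unitary (H →L[ℂ] H)) (x : H) :
    ‖W x‖ = ‖x‖ := by
  have h1 : star W * W = 1 := (Unitary.mem_iff.mp hW).1
  have h2 : inner ℂ (W x) (W x) = inner ℂ x x := by
    rw [← ContinuousLinearMap.adjoint_inner_right, ← ContinuousLinearMap.star_eq_adjoint,
      ← mul_apply_eq_comp, h1]
    rfl
  have h3 : ‖W x‖ ^ 2 = ‖x‖ ^ 2 := by
    have := congrArg Complex.re h2
    rw [inner_self_eq_norm_sq_to_K, inner_self_eq_norm_sq_to_K] at this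
    exact_mod_cast this
  exact (sq_eq_sq₀ (norm_nonneg _) (norm_nonneg _)).mp h3

theorem bc_norm_sq_wave (D : LineCalculus H) (A : H →L[ℂ] H) (x : H) :
    BC (fun τ : ℝ => ‖A (D.wave τ x)‖ ^ 2) := by
  refine ⟨?_, (‖A‖ * ‖x‖) ^ 2, fun t => ?_⟩
  · exact ((A.continuous.comp (continuous_wave D x)).norm).pow 2
  · rw [abs_of_nonneg (by positivity)]
    have : ‖A (D.wave t x)‖ ≤ ‖A‖ * ‖x‖ := by
      calc ‖A (D.wave t x)‖ ≤ ‖A‖ * ‖D.wave t x‖ := A.le_opNorm _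
        _ = ‖A‖ * ‖x‖ := by rw [norm_wave_apply]
    exact pow_le_pow_left₀ (norm_nonneg _) this 2

/-- **Main estimate** for a single vector `h` with narrow spectral support. -/
theorem key (S : ModularDatum H) (herg : S.Ergodic) (ω : Ultrafilter ℕ)
    (hω : (ω : Filter ℕ) ≤ atTop) (T : H →L[ℂ] H) (s δ c : ℝ) (hδ : 0 < δ) (hδ1 : δ ≤ 1)
    (hc : 0 < c) (h : H) (hh : ‖h‖ = 1)
    (hband : S.D.SupportedIn (Set.Icc (s - δ) (s + δ)) h)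
    (hpos : c ≤ ultraMean ω (fun t : ℝ => ‖T (S.D.wave t h)‖ ^ 2))
    (C₀ : ℝ) (g : ℝ → ℂ) (β : ℝ →ᵇ ℂ) (hg : Integrable g) (hgC : (∫ t, ‖g t‖) ≤ C₀)
    (hβ : ∀ u : ℝ, β u = ∫ t : ℝ, g t * Complex.exp (Complex.I * ((t * u : ℝ) : ℂ)))
    (hβ1 : ∀ u ∈ Set.Icc (s - δ) (s + δ), β u = 1)
    (hβ0 : ∀ u, u ∉ Set.Icc (s - 4 * δ) (s + 4 * δ) → β u = 0) (hβn : ‖β‖ ≤ 1) :
    ∃ v : H →L[ℂ] H, v ∈ S.M ∧ ‖v‖ ≤ C₀ ∧
      Real.sqrt (c / (32 * (1 + Real.exp (s + 4)))) ≤ ‖T (v S.vac)‖ ∧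
      S.D.SupportedIn (Set.Icc (s - 4 * δ) (s + 4 * δ)) (v S.vac) := by
  classical
  -- the map `u`
  obtain ⟨A, hA⟩ : ∃ A : H →L[ℂ] H, A = T * S.D.apply β := ⟨_, rfl⟩
  have hAapp : ∀ x, A x = T (S.D.apply β x) := fun x => by rw [hA]; rfl
  have hAT : ∀ x, ‖A x‖ ≤ ‖T‖ * ‖x‖ := by
    intro x
    rw [hAapp]
    calc ‖T (S.D.apply β x)‖ ≤ ‖T‖ * ‖S.D.apply β x‖ := T.le_opNorm _
      _ ≤ ‖T‖ * (‖β‖ * ‖x‖) := by gcongr; exact norm_apply_apply_le _ _ _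
      _ ≤ ‖T‖ * (1 * ‖x‖) := by gcongr
      _ = ‖T‖ * ‖x‖ := by rw [one_mul]
  obtain ⟨u, hu⟩ : ∃ u : (H →L[ℂ] H) →ₗ[ℂ] H, u = evalMap A S.vac := ⟨_, rfl⟩
  have huapp : ∀ x : H →L[ℂ] H, u x = A (x S.vac) := fun x => by rw [hu]; rfl
  -- the supremum over unitaries
  obtain ⟨Vals, hVals⟩ : ∃ Vals : Set ℝ,
      Vals = {r | ∃ W ∈ S.M, W ∈ unitary (H →L[ℂ] H) ∧ r = ‖u W‖} := ⟨_, rfl⟩
  have hbdd : BddAbove Vals := by
    refine ⟨‖T‖, ?_⟩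
    rintro r hr
    rw [hVals] at hr
    obtain ⟨W, _, hW, rfl⟩ := hr
    rw [huapp]
    calc ‖A (W S.vac)‖ ≤ ‖T‖ * ‖W S.vac‖ := hAT _
      _ = ‖T‖ := by rw [norm_unitary_apply hW, S.norm_vac, mul_one]
  have hne : Vals.Nonempty := by
    rw [hVals]
    exact ⟨_, 1, one_mem _, one_mem _, rfl⟩
  obtain ⟨ε, hεdef⟩ : ∃ ε, ε = sSup Vals := ⟨_, rfl⟩
  have hε : ∀ W ∈ S.M, W ∈ unitary (H →L[ℂ] H) → ‖u W‖ ≤ ε := by
    intro W hWM hW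
    rw [hεdef]
    apply le_csSup hbdd
    rw [hVals]
    exact ⟨W, hWM, hW, rfl⟩
  -- choice of `κ`
  obtain ⟨κ, hκ0, hκ1, hκT⟩ : ∃ κ : ℝ, 0 < κ ∧ κ ≤ 1 ∧ ‖T‖ ^ 2 * κ ^ 2 ≤ c / 8 := by
    refine ⟨min 1 (Real.sqrt (c / 8) / (‖T‖ + 1)), by positivity, min_le_left _ _, ?_⟩
    have h1 : min 1 (Real.sqrt (c / 8) / (‖T‖ + 1)) ≤ Real.sqrt (c / 8) / (‖T‖ + 1) :=
      min_le_right _ _
    have h2 : ‖T‖ * min 1 (Real.sqrt (c / 8) / (‖T‖ + 1)) ≤ Real.sqrt (c / 8) := by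
      calc ‖T‖ * min 1 (Real.sqrt (c / 8) / (‖T‖ + 1))
          ≤ (‖T‖ + 1) * (Real.sqrt (c / 8) / (‖T‖ + 1)) := by
            apply mul_le_mul (by linarith) h1 (by positivity) (by positivity)
        _ = Real.sqrt (c / 8) := by field_simp
    calc ‖T‖ ^ 2 * min 1 (Real.sqrt (c / 8) / (‖T‖ + 1)) ^ 2
        = (‖T‖ * min 1 (Real.sqrt (c / 8) / (‖T‖ + 1))) ^ 2 := by ring
      _ ≤ Real.sqrt (c / 8) ^ 2 := pow_le_pow_left₀ (by positivity) h2 2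
      _ = c / 8 := Real.sq_sqrt (by positivity)
  -- approximate `h` by `a₀ ξ`
  obtain ⟨a₀, ha₀M, ha₀⟩ : ∃ a₀ : H →L[ℂ] H, a₀ ∈ S.M ∧ ‖a₀ S.vac - h‖ < κ := by
    obtain ⟨y, ⟨a, rfl⟩, hy⟩ := S.cyclic.exists_dist_lt h hκ0
    refine ⟨a, a.2, ?_⟩
    rw [← dist_eq_norm, dist_comm]
    exact hy
  obtain ⟨a, haM, _, hav⟩ := exists_smear S g hg β hβ a₀ ha₀M
  have hβh : S.D.apply β h = h := apply_eq_self_of_supported S.D hband hβ1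
  have hβle : ∀ x, ‖S.D.apply β x‖ ≤ ‖x‖ := by
    intro x
    calc ‖S.D.apply β x‖ ≤ ‖β‖ * ‖x‖ := norm_apply_apply_le _ _ _
      _ ≤ 1 * ‖x‖ := by gcongr
      _ = ‖x‖ := one_mul _
  have hah : ‖a S.vac - h‖ ≤ κ := by
    have e : a S.vac - h = S.D.apply β (a₀ S.vac - h) := by rw [map_sub, hβh, hav]
    rw [e]
    exact (hβle _).trans ha₀.le
  have hah2 : ‖S.D.apply β (a S.vac) - h‖ ≤ κ := by
    have e : S.D.apply β (a S.vac) - h = S.D.apply β (a S.vac - h) := by rw [map_sub, hβh]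
    rw [e]
    exact (hβle _).trans hah
  have hanorm : ‖a S.vac‖ ≤ 2 := by
    calc ‖a S.vac‖ = ‖(a S.vac - h) + h‖ := by congr 1; abel
      _ ≤ ‖a S.vac - h‖ + ‖h‖ := norm_add_le _ _
      _ ≤ 2 := by rw [hh]; linarith
  have hasupp : S.D.SupportedIn (Set.Icc (s - 4 * δ) (s + 4 * δ)) (a S.vac) := by
    rw [hav]; exact supportedIn_apply S.D β hβ0 _
  have hastar : ‖star a S.vac‖ ≤ Real.exp ((s + 4) / 2) * ‖a S.vac‖ :=
    norm_star_vac_le S a haM _ (s + 4) (fun u hu => by have := hu.2; linarith) hasupp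
  -- Grothendieck
  obtain ⟨γ₁, hγ₁, hgroth⟩ := groth S.M u ε hε ‖a‖ (c / 8) (norm_nonneg _) (by positivity)
  obtain ⟨U, hUM, hU, hUε⟩ : ∃ U ∈ S.M, U ∈ unitary (H →L[ℂ] H) ∧ ε - γ₁ ≤ ‖u U‖ := by
    obtain ⟨r, hr, hr2⟩ := exists_lt_of_lt_csSup hne (show ε - γ₁ < sSup Vals by
      rw [← hεdef]; linarith)
    rw [hVals] at hr
    obtain ⟨W, hWM, hW, rfl⟩ := hr
    exact ⟨W, hWM, hW, hr2.le⟩
  have hG := hgroth U hUM hU hUε
  obtain ⟨ζ, hζ⟩ : ∃ ζ, ζ = u U := ⟨_, rfl⟩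
  rw [← hζ] at hG
  -- the three functions of `τ`
  obtain ⟨χ₁, hχ₁⟩ : ∃ χ₁ : H, χ₁ = ContinuousLinearMap.adjoint (A * U) ζ := ⟨_, rfl⟩
  obtain ⟨χ₂, hχ₂⟩ : ∃ χ₂ : H, χ₂ = ContinuousLinearMap.adjoint A ζ := ⟨_, rfl⟩
  have hF1 : ∀ τ : ℝ, (inner ℂ ζ (u (U * (star (S.flow τ a) * S.flow τ a)))).re =
      (inner ℂ χ₁ (S.flow τ (star a * a) S.vac)).re := by
    intro τ
    rw [hχ₁, ContinuousLinearMap.adjoint_inner_left, huapp, star_flow, ← flow_mul]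
    rfl
  have hF2 : ∀ τ : ℝ, (inner ℂ ζ (u (S.flow τ a * star (S.flow τ a) * U))).re =
      (inner ℂ χ₂ (S.flow τ (a * star a) (U S.vac))).re := by
    intro τ
    rw [hχ₂, ContinuousLinearMap.adjoint_inner_left, huapp, star_flow, ← flow_mul]
    rfl
  have hm1 := mean_flow S herg ω hω (star a * a) (mul_mem (star_mem haM) haM) S.vac χ₁
  have hm2 := mean_flow S herg ω hω (a * star a) (mul_mem haM (star_mem haM)) (U S.vac) χ₂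
  have hv1 : (inner ℂ S.vac ((star a * a) S.vac) * inner ℂ χ₁ S.vac).re
      = ‖a S.vac‖ ^ 2 * ‖ζ‖ ^ 2 := by
    have e1 : inner ℂ S.vac ((star a * a) S.vac) = ((‖a S.vac‖ ^ 2 : ℝ) : ℂ) := by
      rw [mul_apply_eq_comp, ContinuousLinearMap.star_eq_adjoint,
        ContinuousLinearMap.adjoint_inner_right, inner_self_eq_norm_sq_to_K]
      norm_cast
    have e2 : inner ℂ χ₁ S.vac = ((‖ζ‖ ^ 2 : ℝ) : ℂ) := by
      rw [hχ₁, ContinuousLinearMap.adjoint_inner_left, mul_apply_eq_comp, ← huapp, ← hζ,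
        inner_self_eq_norm_sq_to_K]
      norm_cast
    rw [e1, e2, ← Complex.ofReal_mul, Complex.ofReal_re]
  have hv2 : (inner ℂ S.vac ((a * star a) S.vac) * inner ℂ χ₂ (U S.vac)).re
      = ‖star a S.vac‖ ^ 2 * ‖ζ‖ ^ 2 := by
    have e1 : inner ℂ S.vac ((a * star a) S.vac) = ((‖star a S.vac‖ ^ 2 : ℝ) : ℂ) := by
      rw [mul_apply_eq_comp, ← ContinuousLinearMap.adjoint_inner_left,
        ← ContinuousLinearMap.star_eq_adjoint, inner_self_eq_norm_sq_to_K]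
      norm_cast
    have e2 : inner ℂ χ₂ (U S.vac) = ((‖ζ‖ ^ 2 : ℝ) : ℂ) := by
      rw [hχ₂, ContinuousLinearMap.adjoint_inner_left, ← huapp, ← hζ,
        inner_self_eq_norm_sq_to_K]
      norm_cast
    rw [e1, e2, ← Complex.ofReal_mul, Complex.ofReal_re]
  rw [hv1] at hm1
  rw [hv2] at hm2
  have hbc1 := bc_re_inner_flow S (star a * a) S.vac χ₁
  have hbc2 := bc_re_inner_flow S (a * star a) (U S.vac) χ₂
  -- `A(τ) = ‖u (σ_τ a)‖²`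
  have huflow : ∀ τ : ℝ, u (S.flow τ a) = T (S.D.wave τ (S.D.apply β (a S.vac))) := by
    intro τ
    rw [huapp, flow_vac, hAapp, wave_apply_comm]
  have hbcA : BC (fun τ : ℝ => ‖u (S.flow τ a)‖ ^ 2) := by
    simp_rw [huflow]
    exact bc_norm_sq_wave S.D T _
  have hbcB : BC (fun τ : ℝ => ‖T (S.D.wave τ h)‖ ^ 2) := bc_norm_sq_wave S.D T h
  have hAB : ∀ τ : ℝ, ‖T (S.D.wave τ h)‖ ^ 2 ≤ 2 * ‖u (S.flow τ a)‖ ^ 2 + c / 4 := by
    intro τ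
    have h1 : ‖T (S.D.wave τ h) - u (S.flow τ a)‖ ≤ ‖T‖ * κ := by
      rw [huflow, ← map_sub, ← map_sub]
      calc ‖T (S.D.wave τ (h - S.D.apply β (a S.vac)))‖
          ≤ ‖T‖ * ‖S.D.wave τ (h - S.D.apply β (a S.vac))‖ := T.le_opNorm _
        _ = ‖T‖ * ‖S.D.apply β (a S.vac) - h‖ := by rw [norm_wave_apply, norm_sub_rev]
        _ ≤ ‖T‖ * κ := by gcongr
    have h2 : ‖T (S.D.wave τ h)‖ ≤ ‖u (S.flow τ a)‖ + ‖T‖ * κ := by
      calc ‖T (S.D.wave τ h)‖ = ‖u (S.flow τ a) + (T (S.D.wave τ h) - u (S.flow τ a))‖ := by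
            congr 1; abel
        _ ≤ ‖u (S.flow τ a)‖ + ‖T (S.D.wave τ h) - u (S.flow τ a)‖ := norm_add_le _ _
        _ ≤ _ := by linarith
    have h3 : ‖T (S.D.wave τ h)‖ ^ 2 ≤ (‖u (S.flow τ a)‖ + ‖T‖ * κ) ^ 2 :=
      pow_le_pow_left₀ (norm_nonneg _) h2 2
    have h4 : (‖T‖ * κ) ^ 2 ≤ c / 8 := by rw [mul_pow]; exact hκT
    nlinarith [sq_nonneg (‖u (S.flow τ a)‖ - ‖T‖ * κ)]
  have hGτ : ∀ τ : ℝ, ‖u (S.flow τ a)‖ ^ 2 ≤
      2 * (inner ℂ χ₁ (S.flow τ (star a * a) S.vac)).re +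
        (2 * (inner ℂ χ₂ (S.flow τ (a * star a) (U S.vac))).re + c / 8) := by
    intro τ
    have := hG (S.flow τ a) (flow_mem S τ haM) (norm_flow_le S τ a)
    rw [hF1, hF2] at this
    linarith
  -- take means
  have hM1 : c ≤ 2 * ultraMean ω (fun τ : ℝ => ‖u (S.flow τ a)‖ ^ 2) + c / 4 := by
    refine hpos.trans ?_
    have := ultraMean_mono ω hω hbcB ((hbcA.const_mul 2).add (bc_const (c / 4))) hAB
    rwa [ultraMean_add ω hω (hbcA.const_mul 2) (bc_const _), ultraMean_const_mul ω hω hbcA,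
      ultraMean_const ω hω] at this
  have hM2 : ultraMean ω (fun τ : ℝ => ‖u (S.flow τ a)‖ ^ 2) ≤
      2 * (‖a S.vac‖ ^ 2 * ‖ζ‖ ^ 2) + (2 * (‖star a S.vac‖ ^ 2 * ‖ζ‖ ^ 2) + c / 8) := by
    have := ultraMean_mono ω hω hbcA
      ((hbc1.const_mul 2).add ((hbc2.const_mul 2).add (bc_const (c / 8)))) hGτ
    rwa [ultraMean_add ω hω (hbc1.const_mul 2) ((hbc2.const_mul 2).add (bc_const _)),
      ultraMean_add ω hω (hbc2.const_mul 2) (bc_const _), ultraMean_const_mul ω hω hbc1,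
      ultraMean_const_mul ω hω hbc2, ultraMean_const ω hω, hm1, hm2] at this
  -- lower bound for `‖ζ‖`
  obtain ⟨E, hE⟩ : ∃ E, E = Real.exp (s + 4) := ⟨_, rfl⟩
  have hE0 : 0 < E := by rw [hE]; exact Real.exp_pos _
  have hastar2 : ‖star a S.vac‖ ^ 2 ≤ E * ‖a S.vac‖ ^ 2 := by
    have h1 : ‖star a S.vac‖ ^ 2 ≤ (Real.exp ((s + 4) / 2) * ‖a S.vac‖) ^ 2 :=
      pow_le_pow_left₀ (norm_nonneg _) hastar 2
    have h2 : Real.exp ((s + 4) / 2) ^ 2 = E := by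
      rw [hE, ← Real.exp_nat_mul]; congr 1; push_cast; ring
    rw [mul_pow, h2] at h1
    exact h1
  have ha4 : ‖a S.vac‖ ^ 2 ≤ 4 := by
    have := pow_le_pow_left₀ (norm_nonneg _) hanorm 2
    linarith
  have hζlow : c / (32 * (1 + E)) ≤ ‖ζ‖ ^ 2 := by
    rw [div_le_iff₀ (by positivity)]
    have hz : 0 ≤ ‖ζ‖ ^ 2 := by positivity
    have h1 : ‖a S.vac‖ ^ 2 * ‖ζ‖ ^ 2 ≤ 4 * ‖ζ‖ ^ 2 := by gcongr
    have h2 : ‖star a S.vac‖ ^ 2 * ‖ζ‖ ^ 2 ≤ (E * 4) * ‖ζ‖ ^ 2 := by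
      have : ‖star a S.vac‖ ^ 2 ≤ E * 4 := hastar2.trans (by gcongr)
      gcongr
    nlinarith
  -- the final operator
  obtain ⟨v, hvM, hvn, hvv⟩ := exists_smear S g hg β hβ U hUM
  refine ⟨v, hvM, ?_, ?_, ?_⟩
  · have hUn : ‖U‖ ≤ 1 := by
      apply ContinuousLinearMap.opNorm_le_bound _ zero_le_one
      intro x
      rw [norm_unitary_apply hU, one_mul]
    calc ‖v‖ ≤ (∫ t, ‖g t‖) * ‖U‖ := hvn
      _ ≤ (∫ t, ‖g t‖) * 1 := by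
        gcongr
      _ ≤ C₀ := by rw [mul_one]; exact hgC
  · have : T (v S.vac) = ζ := by rw [hvv, hζ, huapp, hAapp]
    rw [this, ← hE]
    exact Real.sqrt_le_iff.mpr ⟨norm_nonneg _, hζlow⟩
  · rw [hvv]; exact supportedIn_apply S.D β hβ0 _

end Crest.Agent.S0112
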