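/-
Row 125 (S0166-S0169): shared abstract toolkit.  Namespace `Crest.Agent.R125`.
Owner: helper10.
-/
import Mathlib
import Crest.Prelude.Def_AsymptoticConvexity

set_option autoImplicit false
set_option linter.style.haveILetI false

namespace Crest.Agent.R125

open Crest.AnalysisR
open Filter Topology

section Cof

variable {X : Type*} [NormedAddCommGroup X] [NormedSpace ℝ X]

/-- closed finite-codimensional subspace -/
def Cof (S : Submodule ℝ X) : Prop :=
  IsClosed (S : Set X) ∧ FiniteDimensional ℝ (X ⧸ S)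

theorem cof_of_ker_eq {Z : Type*} [AddCommGroup Z] [Module ℝ Z] [FiniteDimensional ℝ Z]
    (f : X →ₗ[ℝ] Z) {S : Submodule ℝ X} (h : LinearMap.ker f = S) (hc : IsClosed (S : Set X)) :
    Cof S := by
  refine ⟨hc, ?_⟩
  subst h
  exact LinearEquiv.finiteDimensional f.quotKerEquivRange.symm

theorem Cof.comap {Y : Type*} [NormedAddCommGroup Y] [NormedSpace ℝ Y] (L : Y →L[ℝ] X)
    {S : Submodule ℝ X} (hS : Cof S) : Cof (S.comap (L : Y →ₗ[ℝ] X)) := by
  haveI := hS.2
  refine cof_of_ker_eq (S.mkQ ∘ₗ (L : Y →ₗ[ℝ] X)) ?_ ?_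
  · rw [LinearMap.ker_comp, Submodule.ker_mkQ]
  · exact hS.1.preimage L.continuous

theorem Cof.inf {S T : Submodule ℝ X} (hS : Cof S) (hT : Cof T) : Cof (S ⊓ T) := by
  haveI := hS.2
  haveI := hT.2
  refine cof_of_ker_eq (S.mkQ.prod T.mkQ) ?_ ?_
  · rw [LinearMap.ker_prod, Submodule.ker_mkQ, Submodule.ker_mkQ]
  · exact hS.1.inter hT.1

theorem cof_top : Cof (⊤ : Submodule ℝ X) := by
  refine cof_of_ker_eq (0 : X →ₗ[ℝ] ℝ) ?_ isClosed_univ
  exact LinearMap.ker_zero

theorem cof_ker (φ : X →L[ℝ] ℝ) : Cof (LinearMap.ker (φ : X →ₗ[ℝ] ℝ)) :=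
  cof_of_ker_eq (φ : X →ₗ[ℝ] ℝ) rfl φ.isClosed_ker

theorem cof_iInf {ι : Type*} [Finite ι] (S : ι → Submodule ℝ X) (hS : ∀ i, Cof (S i)) :
    Cof (⨅ i, S i) := by
  haveI := fun i => (hS i).2
  refine cof_of_ker_eq (LinearMap.pi fun i => (S i).mkQ) ?_ ?_
  · rw [LinearMap.ker_pi]
    simp
  · rw [Submodule.coe_iInf]
    exact isClosed_iInter fun i => (hS i).1

theorem cof_iInf_ker {ι : Type*} [Finite ι] (φ : ι → X →L[ℝ] ℝ) :
    Cof (⨅ i, LinearMap.ker (φ i : X →ₗ[ℝ] ℝ)) :=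
  cof_iInf _ fun i => cof_ker (φ i)


theorem mem_iInf_ker {ι : Type*} (φ : ι → X →L[ℝ] ℝ) (y : X) :
    y ∈ (⨅ i, LinearMap.ker (φ i : X →ₗ[ℝ] ℝ)) ↔ ∀ i, φ i y = 0 := by
  simp [Submodule.mem_iInf]

theorem exists_mem_close (S : Submodule ℝ X) (u : X) (ε : ℝ)
    (h : ‖(Submodule.Quotient.mk u : X ⧸ S)‖ < ε) : ∃ y ∈ S, ‖u - y‖ < ε := by
  obtain ⟨m, hm, hlt⟩ := Submodule.Quotient.norm_mk_lt (Submodule.Quotient.mk u : X ⧸ S)
    (sub_pos.2 h)
  refine ⟨u - m, ?_, ?_⟩
  · rw [← Submodule.Quotient.eq]; exact hm.symm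
  · simpa using hlt

theorem Cof.exists_close_of_cesaro {S : Submodule ℝ X} (hS : Cof S) (d : ℕ → X) (C : ℝ)
    (h : ∀ A : Finset ℕ, ‖∑ a ∈ A, d a‖ ≤ C * Real.sqrt A.card) (ε : ℝ) (hε : 0 < ε) :
    ∃ a, ∃ y ∈ S, ‖d a - y‖ < ε := by
  by_contra hcon
  push Not at hcon
  haveI : IsClosed (S : Set X) := hS.1
  haveI : FiniteDimensional ℝ (X ⧸ S) := hS.2
  haveI : ProperSpace (X ⧸ S) := FiniteDimensional.proper_real _
  set q : ℕ → X ⧸ S := fun a => Submodule.Quotient.mk (d a) with hq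
  have hqε : ∀ a, ε ≤ ‖q a‖ := by
    intro a
    by_contra hlt
    push Not at hlt
    obtain ⟨y, hy, hy'⟩ := exists_mem_close S (d a) ε hlt
    exact absurd (hcon a y hy) (not_le.2 hy')
  have hqC : ∀ a, ‖q a‖ ≤ C := by
    intro a
    have h1 := h {a}
    simp only [Finset.sum_singleton, Finset.card_singleton, Nat.cast_one, Real.sqrt_one,
      mul_one] at h1
    exact (Submodule.Quotient.norm_mk_le S (d a)).trans h1
  obtain ⟨w, -, φ, hφ, hw⟩ := tendsto_subseq_of_bounded (Metric.isBounded_closedBall (x := (0 : X ⧸ S)) (r := C))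
    (x := q) (fun n => by simpa using hqC n)
  have hwε : ε ≤ ‖w‖ := by
    refine ge_of_tendsto' (hw.norm) fun n => hqε _
  have hces := (Filter.Tendsto.cesaro_smul hw).norm
  have hbound : ∀ n : ℕ, ‖((n : ℝ)⁻¹) • ∑ i ∈ Finset.range n, (q ∘ φ) i‖ ≤ C * (Real.sqrt n)⁻¹ := by
    intro n
    rcases Nat.eq_zero_or_pos n with rfl | hn
    · simp
    have e1 : ∑ i ∈ Finset.range n, (q ∘ φ) i
        = (Submodule.Quotient.mk (∑ a ∈ (Finset.range n).image φ, d a) : X ⧸ S) := by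
      rw [Finset.sum_image (fun a _ b _ hab => hφ.injective hab)]
      simp only [hq, Function.comp]
      exact (map_sum S.mkQ (fun i => d (φ i)) (Finset.range n)).symm
    have e2 : ((Finset.range n).image φ).card = n := by
      rw [Finset.card_image_of_injective _ hφ.injective, Finset.card_range]
    have h1 := h ((Finset.range n).image φ)
    rw [e2] at h1
    have hn' : (0 : ℝ) < n := by exact_mod_cast hn
    rw [norm_smul, e1, Real.norm_eq_abs, abs_of_pos (inv_pos.2 hn')]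
    calc (n : ℝ)⁻¹ * ‖(Submodule.Quotient.mk (∑ a ∈ (Finset.range n).image φ, d a) : X ⧸ S)‖
        ≤ (n : ℝ)⁻¹ * (C * Real.sqrt n) := by
          apply mul_le_mul_of_nonneg_left _ (inv_pos.2 hn').le
          exact (Submodule.Quotient.norm_mk_le S _).trans h1
      _ = C * (Real.sqrt n)⁻¹ := by
          have hs : Real.sqrt n * Real.sqrt n = n := Real.mul_self_sqrt hn'.le
          have hs0 : Real.sqrt n ≠ 0 := (Real.sqrt_pos.2 hn').ne'
          field_simp
          rw [pow_two, hs]; ring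
  have hlim : Tendsto (fun n : ℕ => C * (Real.sqrt n)⁻¹) atTop (𝓝 0) := by
    have h1 : Tendsto (fun n : ℕ => Real.sqrt n) atTop atTop :=
      Real.tendsto_sqrt_atTop.comp tendsto_natCast_atTop_atTop
    simpa using (h1.inv_tendsto_atTop).const_mul C
  have : ‖w‖ ≤ 0 := le_of_tendsto_of_tendsto' hces hlim hbound
  linarith

theorem Cof.exists_pair_close {S : Submodule ℝ X} (hS : Cof S) (w : ℕ → X) (B : ℝ)
    (hw : ∀ i, ‖w i‖ ≤ B) (ε : ℝ) (hε : 0 < ε) :
    ∃ i l, i ≠ l ∧ ∃ y ∈ S, ‖(w i - w l) - y‖ < ε := by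
  haveI : IsClosed (S : Set X) := hS.1
  haveI : FiniteDimensional ℝ (X ⧸ S) := hS.2
  haveI : ProperSpace (X ⧸ S) := FiniteDimensional.proper_real _
  set q : ℕ → X ⧸ S := fun a => Submodule.Quotient.mk (w a) with hq
  have hqC : ∀ a, ‖q a‖ ≤ B := fun a => (Submodule.Quotient.norm_mk_le S (w a)).trans (hw a)
  obtain ⟨z, -, φ, hφ, hz⟩ := tendsto_subseq_of_bounded (Metric.isBounded_closedBall (x := (0 : X ⧸ S)) (r := B))
    (x := q) (fun n => by simpa using hqC n)
  have hc := hz.cauchySeq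
  rw [Metric.cauchySeq_iff] at hc
  obtain ⟨n0, hn0⟩ := hc ε hε
  have h1 := hn0 n0 le_rfl (n0 + 1) (Nat.le_succ _)
  refine ⟨φ n0, φ (n0 + 1), (hφ (Nat.lt_succ_self n0)).ne, ?_⟩
  apply exists_mem_close
  rw [dist_eq_norm] at h1
  simpa [hq, Submodule.Quotient.mk_sub] using h1

theorem not_auc_of_trees (N : X → ℝ) (hadd : ∀ x y, N (x + y) ≤ N x + N y)
    (hsmul : ∀ (a : ℝ) (x : X), N (a • x) = |a| * N x)
    (a b : ℝ) (ha : 0 < a) (hab : ∀ x, a * ‖x‖ ≤ N x ∧ N x ≤ b * ‖x‖)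
    (B θ : ℝ) (hθ : 0 < θ) (T : ℕ → ℕ → Set X)
    (hroot : ∀ k, ∃ x ∈ T k 0, θ ≤ ‖x‖)
    (hbd : ∀ k j, j ≤ k → ∀ x ∈ T k j, ‖x‖ ≤ B)
    (hstep : ∀ k j, j < k → ∀ x ∈ T k j, ∀ S : Submodule ℝ X, Cof S → ∀ ε : ℝ, 0 < ε →
      ∃ d : X, x + d ∈ T k (j + 1) ∧ θ ≤ ‖d‖ ∧ ∃ y ∈ S, ‖d - y‖ < ε)
    (hauc : ∀ t : ℝ, 0 < t → ∃ c : ℝ, 0 < c ∧ ∀ x, N x = 1 →
      ∃ S : Submodule ℝ X, Cof S ∧ ∀ y ∈ S, N y = 1 → c ≤ N (x + t • y) - 1) : False := by
  obtain ⟨x0, hx0T, hx0⟩ := hroot 0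
  have hB : θ ≤ B := hx0.trans (hbd 0 0 le_rfl x0 hx0T)
  have hBpos : 0 < B := hθ.trans_le hB
  have hb : 0 < b := by
    have h1 := hab x0
    have hx0pos : 0 < ‖x0‖ := hθ.trans_le hx0
    by_contra hb
    have hb' : b ≤ 0 := not_lt.1 hb
    nlinarith [h1.1, h1.2, mul_pos ha hx0pos]
  set t := a * θ / (2 * b * B) with ht_def
  have ht : 0 < t := by positivity
  obtain ⟨c, hc, hc'⟩ := hauc t ht
  obtain ⟨k, hk⟩ : ∃ k : ℕ, b * B < a * θ * (1 + c / 2) ^ k := by
    have h1 := tendsto_pow_atTop_atTop_of_one_lt (r := 1 + c / 2) (by linarith)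
    obtain ⟨k, hk⟩ := ((tendsto_atTop.1 h1) (b * B / (a * θ) + 1)).exists
    refine ⟨k, ?_⟩
    have h2 : b * B / (a * θ) < (1 + c / 2) ^ k := by linarith
    rw [div_lt_iff₀ (by positivity)] at h2
    linarith
  have key : ∀ j, j ≤ k → ∃ x ∈ T k j, a * θ * (1 + c / 2) ^ j ≤ N x := by
    intro j
    induction j with
    | zero =>
      intro _
      obtain ⟨x, hxT, hx⟩ := hroot k
      refine ⟨x, hxT, ?_⟩
      have := (hab x).1
      simp only [pow_zero, mul_one]
      nlinarith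
    | succ j ih =>
      intro hj
      obtain ⟨x, hxT, hx⟩ := ih (by omega)
      set r := N x with hr_def
      have hpow : 0 < a * θ * (1 + c / 2) ^ j := by positivity
      have hr : 0 < r := hpow.trans_le hx
      have hrB : r ≤ b * B := by
        have h1 := (hab x).2
        have h2 := hbd k j (by omega) x hxT
        nlinarith
      set u := r⁻¹ • x with hu_def
      have hNu : N u = 1 := by
        rw [hu_def, hsmul, abs_of_pos (inv_pos.2 hr)]
        exact inv_mul_cancel₀ hr.ne'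
      obtain ⟨S, hS, hSy⟩ := hc' u hNu
      set ε := min (θ / 2) (r * c / (2 * b)) with hε_def
      have hε : 0 < ε := lt_min (by positivity) (by positivity)
      obtain ⟨d, hdT, hdθ, y', hy'S, hdy'⟩ := hstep k j (by omega) x hxT S hS ε hε
      refine ⟨x + d, hdT, ?_⟩
      have hε1 : ε ≤ θ / 2 := min_le_left _ _
      have hε2 : ε ≤ r * c / (2 * b) := min_le_right _ _
      have hy'norm : θ / 2 ≤ ‖y'‖ := by
        have h1 : ‖d‖ ≤ ‖d - y'‖ + ‖y'‖ := by
          simpa using norm_add_le (d - y') y'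
        linarith
      set ρ := N y' with hρ_def
      have hρ : a * θ / 2 ≤ ρ := by
        have := (hab y').1
        nlinarith
      have hρpos : 0 < ρ := lt_of_lt_of_le (by positivity) hρ
      set y := ρ⁻¹ • y' with hy_def
      have hyS : y ∈ S := S.smul_mem _ hy'S
      have hNy : N y = 1 := by
        rw [hy_def, hsmul, abs_of_pos (inv_pos.2 hρpos)]
        exact inv_mul_cancel₀ hρpos.ne'
      have h1 := hSy y hyS hNy
      set s := ρ / r with hs_def
      have hspos : 0 < s := by positivity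
      have hts : t ≤ s := by
        rw [ht_def, hs_def, div_le_div_iff₀ (by positivity) hr]
        nlinarith [mul_pos ha hθ, mul_pos hb hBpos]
      set lam := t / s with hlam_def
      have hlam0 : 0 < lam := by positivity
      have hlam1 : lam ≤ 1 := (div_le_one hspos).2 hts
      set M := N (u + s • y) with hM_def
      have hconv : N (u + t • y) ≤ (1 - lam) * 1 + lam * M := by
        have e : u + t • y = (1 - lam) • u + lam • (u + s • y) := by
          have hls : lam * s = t := div_mul_cancel₀ t hspos.ne'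
          calc u + t • y = u + (lam * s) • y := by rw [hls]
            _ = (1 - lam) • u + lam • (u + s • y) := by module
        rw [e]
        refine (hadd _ _).trans ?_
        rw [hsmul (1 - lam) u, hsmul lam (u + s • y),
          abs_of_nonneg (by linarith : (0:ℝ) ≤ 1 - lam), abs_of_pos hlam0, hNu]
      have hM : 1 + c ≤ M := by
        have h2 : c ≤ lam * (M - 1) := by linarith
        have h3 : 0 < M - 1 := by
          by_contra h3
          have : lam * (M - 1) ≤ 0 := mul_nonpos_of_nonneg_of_nonpos hlam0.le (not_lt.1 h3)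
          linarith
        nlinarith
      have hxy : x + y' = r • (u + s • y) := by
        have e1 : r • u = x := by
          rw [hu_def, smul_smul, mul_inv_cancel₀ hr.ne', one_smul]
        have e2 : r • (s • y) = y' := by
          rw [hy_def, smul_smul, smul_smul, show r * s * ρ⁻¹ = 1 by rw [hs_def]; field_simp,
            one_smul]
        rw [smul_add, e1, e2]
      have hNxy : r * (1 + c) ≤ N (x + y') := by
        rw [hxy, hsmul, abs_of_pos hr]
        exact mul_le_mul_of_nonneg_left hM hr.le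
      have h4 : N (x + y') ≤ N (x + d) + N (y' - d) := by
        have : x + y' = (x + d) + (y' - d) := by abel
        rw [this]; exact hadd _ _
      have h5 : N (y' - d) ≤ r * c / 2 := by
        have h6 := (hab (y' - d)).2
        rw [norm_sub_rev] at h6
        have h7 : b * ‖d - y'‖ ≤ b * (r * c / (2 * b)) :=
          mul_le_mul_of_nonneg_left (hdy'.le.trans hε2) hb.le
        have h8 : b * (r * c / (2 * b)) = r * c / 2 := by field_simp
        linarith
      have h9 : r * (1 + c / 2) ≤ N (x + d) := by nlinarith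
      calc a * θ * (1 + c / 2) ^ (j + 1) = (a * θ * (1 + c / 2) ^ j) * (1 + c / 2) := by ring
        _ ≤ r * (1 + c / 2) := mul_le_mul_of_nonneg_right hx (by positivity)
        _ ≤ _ := h9
  obtain ⟨x, hxT, hx⟩ := key k le_rfl
  have h1 := (hab x).2
  have h2 := hbd k k le_rfl x hxT
  nlinarith


/-- The homogeneous midpoint property (M). -/
def PropM (X : Type*) [NormedAddCommGroup X] [NormedSpace ℝ X] : Prop :=
  ∀ x : X, ∀ η : ℝ, 0 < η → ∃ S : Submodule ℝ X, Cof S ∧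
    ∀ y ∈ S, Real.sqrt (‖x‖ ^ 2 + ‖y‖ ^ 2 / 4) - η ≤ (‖x + y‖ + ‖x - y‖) / 2

theorem PropM.submodule (h : PropM X) (Y : Submodule ℝ X) : PropM Y := by
  intro x η hη
  obtain ⟨S, hS, hSy⟩ := h (x : X) η hη
  refine ⟨S.comap (Y.subtypeL : Y →ₗ[ℝ] X), hS.comap Y.subtypeL, fun y hy => ?_⟩
  exact hSy (y : X) hy

end Cof

/-! ### Bridges to the `RealBanach` record -/

section Bridge

/-- The hypothesis "`X` contains bounded trees of every height with increments bounded below and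
asymptotically in every `Cof` subspace". -/
def HasTrees (X : Type*) [NormedAddCommGroup X] [NormedSpace ℝ X] : Prop :=
  ∃ (B θ : ℝ) (T : ℕ → ℕ → Set X), 0 < θ ∧ (∀ k, ∃ x ∈ T k 0, θ ≤ ‖x‖) ∧
    (∀ k j, j ≤ k → ∀ x ∈ T k j, ‖x‖ ≤ B) ∧
    (∀ k j, j < k → ∀ x ∈ T k j, ∀ S : Submodule ℝ X, Cof S → ∀ ε : ℝ, 0 < ε →
      ∃ d : X, x + d ∈ T k (j + 1) ∧ θ ≤ ‖d‖ ∧ ∃ y ∈ S, ‖d - y‖ < ε)

theorem isCof_of_cof (E : RealBanach) (S : @Submodule ℝ E.X _ E.normed.toAddCommGroup.toAddCommMonoid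
    E.space.toModule) (hS : @Cof E.X E.normed E.space S) : E.IsCof (S : Set E.X) :=
  ⟨S, rfl, hS.1, hS.2⟩

theorem not_isAUC_of_hasTrees (E : RealBanach) (h : @HasTrees E.X E.normed E.space) :
    ∀ N : E.X → ℝ, E.IsEquivNorm N → ¬ E.IsAUC N := by
  letI := E.normed
  letI := E.space
  intro N hN hA
  obtain ⟨B, θ, T, hθ, hroot, hbd, hstep⟩ := h
  obtain ⟨hadd, hsmul, a, b, ha, hab⟩ := hN
  refine not_auc_of_trees N hadd hsmul a b ha hab B θ hθ T hroot hbd hstep ?_
  intro t ht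
  obtain ⟨c, hc, hx⟩ := hA t ht
  refine ⟨c, hc, fun x hx1 => ?_⟩
  obtain ⟨F, ⟨S, rfl, hcl, hfd⟩, hF⟩ := hx x hx1
  exact ⟨S, ⟨hcl, hfd⟩, fun y hy => hF y hy⟩

/-- a space without equivalent AUC norm is infinite-dimensional (in finite dimension `{0}` is
`Cof`, so every norm is vacuously AUC). -/
theorem not_finiteDimensional_of_no_auc (E : RealBanach)
    (h : ∀ N : E.X → ℝ, E.IsEquivNorm N → ¬ E.IsAUC N) :
    ¬ @FiniteDimensional ℝ E.X _ E.normed.toAddCommGroup E.space.toModule := by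
  letI := E.normed
  letI := E.space
  intro hfd
  refine h E.norm ⟨fun x y => norm_add_le x y, fun a x => ?_, 1, 1, one_pos, fun x => ?_⟩ ?_
  · exact norm_smul a x
  · constructor <;> simp [RealBanach.norm]
  · intro t _
    refine ⟨1, one_pos, fun x _ => ⟨((⊥ : Submodule ℝ E.X) : Set E.X), ⟨⊥, rfl, ?_, ?_⟩, ?_⟩⟩
    · simp
    · infer_instance
    · intro y hy hy1
      have hy0 : y = 0 := by simpa using hy
      subst hy0
      simp [RealBanach.norm] at hy1

theorem midpointGE_of_propM (E : RealBanach) (h : @PropM E.X E.normed E.space) (t c : ℝ)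
    (ht : 0 < t) (hc : c ≤ Real.sqrt (1 + t ^ 2 / 4) - 1) :
    E.MidpointModulusGE E.norm t c := by
  letI := E.normed
  letI := E.space
  intro x hx η hη
  obtain ⟨S, hS, hSy⟩ := h x η hη
  refine ⟨S, ⟨S, rfl, hS.1, hS.2⟩, fun y hy hy1 => ?_⟩
  have h1 := hSy (t • y) (S.smul_mem t hy)
  have hx' : ‖x‖ = 1 := hx
  have hy' : ‖y‖ = 1 := hy1
  rw [norm_smul, hx', hy', Real.norm_eq_abs, abs_of_pos ht] at h1
  simp only [one_pow, mul_one] at h1
  show c - η ≤ (‖x + t • y‖ + ‖x - t • y‖) / 2 - 1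
  linarith

theorem maxMidpointGE_of_propM (E : RealBanach) (h : @PropM E.X E.normed E.space) (t c : ℝ)
    (ht : 0 < t) (hc : c ≤ Real.sqrt (1 + t ^ 2 / 4) - 1) :
    E.MaxMidpointModulusGE E.norm t c := by
  letI := E.normed
  letI := E.space
  intro x hx η hη
  obtain ⟨F, hF, hFy⟩ := midpointGE_of_propM E h t c ht hc x hx η hη
  refine ⟨F, hF, fun y hy hy1 => ?_⟩
  have h1 := hFy y hy hy1
  have h2 := le_max_left (E.norm (x + t • y)) (E.norm (x - t • y))
  have h3 := le_max_right (E.norm (x + t • y)) (E.norm (x - t • y))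
  linarith

end Bridge

end Crest.Agent.R125
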