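/-
Row 125 (S0166): package PG — countably branching diamonds versus property (M).
Owner: helper19.
-/
import Mathlib
import Crest.Prelude.Def_Diamond
import Crest.Agent.S0166_Base

set_option autoImplicit false

namespace Crest.Agent.R125

open Crest.AnalysisR

section Graph

theorem diamond_src_ne_tgt : ∀ (k : ℕ) (e : DiamondEdge k), diamondSrc k e ≠ diamondTgt k e
  | 0, _ => by
      show (false : Bool) ≠ true
      decide
  | k + 1, (e, i, b) => by
      cases b
      · show (Sum.inl (diamondSrc k e) : DiamondVertex k ⊕ (DiamondEdge k × ℕ)) ≠ Sum.inr (e, i)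
        simp
      · show (Sum.inr (e, i) : DiamondVertex k ⊕ (DiamondEdge k × ℕ)) ≠ Sum.inl (diamondTgt k e)
        simp

theorem diamond_adj_iff (k : ℕ) (u v : DiamondVertex k) :
    (diamondGraph k).Adj u v ↔ ∃ e : DiamondEdge k,
      (diamondSrc k e = u ∧ diamondTgt k e = v) ∨ (diamondSrc k e = v ∧ diamondTgt k e = u) := by
  rw [diamondGraph, SimpleGraph.fromRel_adj]
  constructor
  · rintro ⟨_, ⟨e, h1, h2⟩ | ⟨e, h1, h2⟩⟩
    · exact ⟨e, Or.inl ⟨h1, h2⟩⟩
    · exact ⟨e, Or.inr ⟨h1, h2⟩⟩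
  · rintro ⟨e, ⟨h1, h2⟩ | ⟨h1, h2⟩⟩
    · exact ⟨by rw [← h1, ← h2]; exact diamond_src_ne_tgt k e, Or.inl ⟨e, h1, h2⟩⟩
    · exact ⟨by rw [← h1, ← h2]; exact (diamond_src_ne_tgt k e).symm, Or.inr ⟨e, h1, h2⟩⟩

theorem diamond_adj_edge (k : ℕ) (e : DiamondEdge k) :
    (diamondGraph k).Adj (diamondSrc k e) (diamondTgt k e) :=
  (diamond_adj_iff k _ _).2 ⟨e, Or.inl ⟨rfl, rfl⟩⟩

theorem diamondDist_edge (k : ℕ) (e : DiamondEdge k) :
    diamondDist k (diamondSrc k e) (diamondTgt k e) = 1 :=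
  SimpleGraph.dist_eq_one_iff_adj.2 (diamond_adj_edge k e)

/-- the first half edge -/
theorem diamond_adj_src_mid (k : ℕ) (e : DiamondEdge k) (i : ℕ) :
    (diamondGraph (k + 1)).Adj (Sum.inl (diamondSrc k e)) (Sum.inr (e, i)) :=
  diamond_adj_edge (k + 1) (e, i, false)

/-- the second half edge -/
theorem diamond_adj_mid_tgt (k : ℕ) (e : DiamondEdge k) (i : ℕ) :
    (diamondGraph (k + 1)).Adj (Sum.inr (e, i)) (Sum.inl (diamondTgt k e)) :=
  diamond_adj_edge (k + 1) (e, i, true)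

theorem diamond_reachable_inl {k : ℕ} {u v : DiamondVertex k}
    (h : (diamondGraph k).Reachable u v) :
    (diamondGraph (k + 1)).Reachable (Sum.inl u) (Sum.inl v) := by
  obtain ⟨p⟩ := h
  induction p with
  | nil => exact SimpleGraph.Reachable.refl _
  | cons hadj _ ih =>
    refine SimpleGraph.Reachable.trans ?_ ih
    obtain ⟨e, ⟨h1, h2⟩ | ⟨h1, h2⟩⟩ := (diamond_adj_iff k _ _).1 hadj
    · rw [← h1, ← h2]
      exact (diamond_adj_src_mid k e 0).reachable.trans (diamond_adj_mid_tgt k e 0).reachable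
    · rw [← h1, ← h2]
      exact (diamond_adj_mid_tgt k e 0).symm.reachable.trans
        (diamond_adj_src_mid k e 0).symm.reachable

theorem diamond_connected : ∀ k : ℕ, (diamondGraph k).Connected
  | 0 => by
      have h : (diamondGraph 0).Reachable (false : Bool) (true : Bool) :=
        (diamond_adj_edge 0 ()).reachable
      have : Nonempty (DiamondVertex 0) := ⟨(false : Bool)⟩
      refine SimpleGraph.Connected.mk ?_
      intro u v
      have key : ∀ u v : Bool, (diamondGraph 0).Reachable u v := by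
        intro u v
        cases u <;> cases v
        · exact SimpleGraph.Reachable.refl _
        · exact h
        · exact h.symm
        · exact SimpleGraph.Reachable.refl _
      exact key u v
  | k + 1 => by
      have ih := diamond_connected k
      have : Nonempty (DiamondVertex k) := ih.nonempty
      have : Nonempty (DiamondVertex (k + 1)) := ⟨Sum.inl (Classical.arbitrary _)⟩
      refine SimpleGraph.Connected.mk ?_
      have key : ∀ a : DiamondVertex k ⊕ (DiamondEdge k × ℕ), ∃ w : DiamondVertex k,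
          (diamondGraph (k + 1)).Reachable a (Sum.inl w) := by
        rintro (w | ⟨e, i⟩)
        · exact ⟨w, SimpleGraph.Reachable.refl _⟩
        · exact ⟨_, (diamond_adj_mid_tgt k e i).reachable⟩
      intro a b
      obtain ⟨w, hw⟩ := key a
      obtain ⟨w', hw'⟩ := key b
      exact hw.trans ((diamond_reachable_inl (ih.preconnected w w')).trans hw'.symm)

/-- distance between two different midpoints of the same edge -/
theorem two_le_diamondDist_mid (k : ℕ) (e : DiamondEdge k) {i l : ℕ} (hil : i ≠ l) :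
    2 ≤ diamondDist (k + 1) (Sum.inr (e, i)) (Sum.inr (e, l)) := by
  have hne : (Sum.inr (e, i) : DiamondVertex k ⊕ (DiamondEdge k × ℕ)) ≠ Sum.inr (e, l) := by
    simp [hil]
  have hnadj : ¬ (diamondGraph (k + 1)).Adj (Sum.inr (e, i)) (Sum.inr (e, l)) := by
    intro h
    obtain ⟨⟨e', j, b⟩, h'⟩ := (diamond_adj_iff (k + 1) _ _).1 h
    cases b
    · rcases h' with ⟨h1, _⟩ | ⟨h1, _⟩
      · exact absurd h1 (by
          show (Sum.inl (diamondSrc k e') : DiamondVertex k ⊕ (DiamondEdge k × ℕ)) ≠ _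
          simp)
      · exact absurd h1 (by
          show (Sum.inl (diamondSrc k e') : DiamondVertex k ⊕ (DiamondEdge k × ℕ)) ≠ _
          simp)
    · rcases h' with ⟨_, h1⟩ | ⟨_, h1⟩
      · exact absurd h1 (by
          show (Sum.inl (diamondTgt k e') : DiamondVertex k ⊕ (DiamondEdge k × ℕ)) ≠ _
          simp)
      · exact absurd h1 (by
          show (Sum.inl (diamondTgt k e') : DiamondVertex k ⊕ (DiamondEdge k × ℕ)) ≠ _
          simp)
  exact (diamond_connected (k + 1)).one_lt_dist_of_ne_of_not_adj hne hnadj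

/-- old vertices are twice as far apart in the next diamond -/
theorem two_mul_diamondDist_le (k : ℕ) (u v : DiamondVertex k) :
    2 * diamondDist k u v ≤ diamondDist (k + 1) (Sum.inl u) (Sum.inl v) := by
  classical
  let φ : DiamondVertex k ⊕ (DiamondEdge k × ℕ) → ℕ :=
    Sum.elim (fun w => 2 * (diamondGraph k).dist u w)
      (fun p => (diamondGraph k).dist u (diamondSrc k p.1) + (diamondGraph k).dist u (diamondTgt k p.1))
  have hedge : ∀ e : DiamondEdge k,
      (diamondGraph k).dist u (diamondTgt k e) ≤ (diamondGraph k).dist u (diamondSrc k e) + 1 ∧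
      (diamondGraph k).dist u (diamondSrc k e) ≤ (diamondGraph k).dist u (diamondTgt k e) + 1 := by
    intro e
    have := (diamond_adj_edge k e).diff_dist_adj (u := u)
    omega
  have hstep : ∀ a b : DiamondVertex k ⊕ (DiamondEdge k × ℕ),
      (diamondGraph (k + 1)).Adj a b → φ b ≤ φ a + 1 := by
    intro a b hab
    obtain ⟨⟨e, j, c⟩, h'⟩ := (diamond_adj_iff (k + 1) _ _).1 hab
    have he := hedge e
    cases c
    · have hs : diamondSrc (k + 1) (e, j, false) = Sum.inl (diamondSrc k e) := rfl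
      have ht : diamondTgt (k + 1) (e, j, false) = Sum.inr (e, j) := rfl
      rcases h' with ⟨h1, h2⟩ | ⟨h1, h2⟩
      · rw [← h1, ← h2, hs, ht]
        simp only [φ, Sum.elim_inl, Sum.elim_inr]
        omega
      · rw [← h1, ← h2, hs, ht]
        simp only [φ, Sum.elim_inl, Sum.elim_inr]
        omega
    · have hs : diamondSrc (k + 1) (e, j, true) = Sum.inr (e, j) := rfl
      have ht : diamondTgt (k + 1) (e, j, true) = Sum.inl (diamondTgt k e) := rfl
      rcases h' with ⟨h1, h2⟩ | ⟨h1, h2⟩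
      · rw [← h1, ← h2, hs, ht]
        simp only [φ, Sum.elim_inl, Sum.elim_inr]
        omega
      · rw [← h1, ← h2, hs, ht]
        simp only [φ, Sum.elim_inl, Sum.elim_inr]
        omega
  have hwalk : ∀ (a b : DiamondVertex (k + 1)) (p : (diamondGraph (k + 1)).Walk a b),
      φ b ≤ φ a + p.length := by
    intro a b p
    induction p with
    | nil => simp
    | cons hadj q ih =>
      have := hstep _ _ hadj
      rw [SimpleGraph.Walk.length_cons]
      omega
  obtain ⟨p, hp⟩ := (diamond_connected (k + 1)).exists_walk_length_eq_dist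
    (Sum.inl u : DiamondVertex (k + 1)) (Sum.inl v)
  have h := hwalk _ _ p
  have h0 : φ (Sum.inl u) = 0 := by simp [φ]
  have h1 : φ (Sum.inl v) = 2 * (diamondGraph k).dist u v := by simp [φ]
  rw [h0, h1, hp] at h
  simpa [diamondDist] using h

end Graph

section Analytic

variable {X : Type*} [NormedAddCommGroup X] [NormedSpace ℝ X]

/-- Key estimate: a centre `x` and infinitely many `2s`-separated "midpoint deviations" `w i`
with `‖x ± w i‖² ≤ Q`, in a space with property (M), force `‖x‖² + s²/4 ≤ Q`. -/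
theorem propM_midpoints (h : PropM X) (x : X) (w : ℕ → X) (s Q : ℝ) (hs : 0 < s)
    (hp : ∀ i, ‖x + w i‖ ^ 2 ≤ Q) (hm : ∀ i, ‖x - w i‖ ^ 2 ≤ Q)
    (hsep : ∀ i l, i ≠ l → 2 * s ≤ ‖w i - w l‖) :
    ‖x‖ ^ 2 + s ^ 2 / 4 ≤ Q := by
  by_contra hcon
  push Not at hcon
  have hQ : 0 ≤ Q := le_trans (sq_nonneg _) (hp 0)
  set L := Real.sqrt Q with hL
  have hL0 : 0 ≤ L := Real.sqrt_nonneg _
  have hLsq : L ^ 2 = Q := Real.sq_sqrt hQ
  have hpL : ∀ i, ‖x + w i‖ ≤ L := fun i => (le_abs_self _).trans (Real.abs_le_sqrt (hp i))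
  have hmL : ∀ i, ‖x - w i‖ ≤ L := fun i => (le_abs_self _).trans (Real.abs_le_sqrt (hm i))
  set g := ‖x‖ ^ 2 + s ^ 2 / 4 - Q with hg
  have hgpos : 0 < g := by rw [hg]; linarith
  set K := s / 2 + 4 * L + 4 with hK
  have hKpos : 0 < K := by rw [hK]; positivity
  set ε := min (min s 1) (g / (2 * K)) with hε
  have hεpos : 0 < ε := by
    rw [hε]
    refine lt_min (lt_min hs one_pos) (by positivity)
  have hεs : ε ≤ s := (min_le_left _ _).trans (min_le_left _ _)
  have hε1 : ε ≤ 1 := (min_le_left _ _).trans (min_le_right _ _)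
  have hεK : ε * K ≤ g / 2 := by
    have h1 : ε ≤ g / (2 * K) := min_le_right _ _
    calc ε * K ≤ g / (2 * K) * K := by gcongr
      _ = g / 2 := by field_simp
  obtain ⟨S, hS, hSy⟩ := h x ε hεpos
  have hwB : ∀ i, ‖(1 / 2 : ℝ) • w i‖ ≤ L := by
    intro i
    have e1 : (1 / 2 : ℝ) • w i = (1 / 4 : ℝ) • (x + w i) - (1 / 4 : ℝ) • (x - w i) := by module
    rw [e1]
    calc ‖(1 / 4 : ℝ) • (x + w i) - (1 / 4 : ℝ) • (x - w i)‖
        ≤ ‖(1 / 4 : ℝ) • (x + w i)‖ + ‖(1 / 4 : ℝ) • (x - w i)‖ := norm_sub_le _ _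
      _ = 1 / 4 * ‖x + w i‖ + 1 / 4 * ‖x - w i‖ := by
          rw [norm_smul, norm_smul]; norm_num
      _ ≤ L := by linarith [hpL i, hmL i]
  obtain ⟨i, l, hil, y, hyS, hy⟩ :=
    hS.exists_pair_close (fun i => (1 / 2 : ℝ) • w i) L hwB ε hεpos
  set z := (1 / 2 : ℝ) • w i - (1 / 2 : ℝ) • w l with hz
  have hzn : s ≤ ‖z‖ := by
    have e1 : z = (1 / 2 : ℝ) • (w i - w l) := by rw [hz]; module
    rw [e1, norm_smul]
    have := hsep i l hil
    norm_num
    linarith
  have hxz : ‖x + z‖ ≤ L := by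
    have e1 : x + z = (1 / 2 : ℝ) • (x + w i) + (1 / 2 : ℝ) • (x - w l) := by rw [hz]; module
    rw [e1]
    calc ‖(1 / 2 : ℝ) • (x + w i) + (1 / 2 : ℝ) • (x - w l)‖
        ≤ ‖(1 / 2 : ℝ) • (x + w i)‖ + ‖(1 / 2 : ℝ) • (x - w l)‖ := norm_add_le _ _
      _ = 1 / 2 * ‖x + w i‖ + 1 / 2 * ‖x - w l‖ := by
          rw [norm_smul, norm_smul]; norm_num
      _ ≤ L := by linarith [hpL i, hmL l]
  have hxz' : ‖x - z‖ ≤ L := by
    have e1 : x - z = (1 / 2 : ℝ) • (x - w i) + (1 / 2 : ℝ) • (x + w l) := by rw [hz]; module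
    rw [e1]
    calc ‖(1 / 2 : ℝ) • (x - w i) + (1 / 2 : ℝ) • (x + w l)‖
        ≤ ‖(1 / 2 : ℝ) • (x - w i)‖ + ‖(1 / 2 : ℝ) • (x + w l)‖ := norm_add_le _ _
      _ = 1 / 2 * ‖x - w i‖ + 1 / 2 * ‖x + w l‖ := by
          rw [norm_smul, norm_smul]; norm_num
      _ ≤ L := by linarith [hmL i, hpL l]
  have hy' : ‖z - y‖ < ε := hy
  have hyn : s - ε ≤ ‖y‖ := by
    have : ‖z‖ ≤ ‖z - y‖ + ‖y‖ := by
      calc ‖z‖ = ‖(z - y) + y‖ := by rw [sub_add_cancel]
        _ ≤ ‖z - y‖ + ‖y‖ := norm_add_le _ _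
    linarith
  have hxy : ‖x + y‖ ≤ L + ε := by
    have : ‖x + y‖ ≤ ‖x + z‖ + ‖z - y‖ := by
      calc ‖x + y‖ = ‖(x + z) - (z - y)‖ := by congr 1; abel
        _ ≤ ‖x + z‖ + ‖z - y‖ := norm_sub_le _ _
    linarith
  have hxy' : ‖x - y‖ ≤ L + ε := by
    have : ‖x - y‖ ≤ ‖x - z‖ + ‖z - y‖ := by
      calc ‖x - y‖ = ‖(x - z) + (z - y)‖ := by congr 1; abel
        _ ≤ ‖x - z‖ + ‖z - y‖ := norm_add_le _ _
    linarith
  have hmain := hSy y hyS
  have hsqrt : Real.sqrt (‖x‖ ^ 2 + ‖y‖ ^ 2 / 4) ≤ L + 2 * ε := by linarith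
  have hsq : ‖x‖ ^ 2 + ‖y‖ ^ 2 / 4 ≤ (L + 2 * ε) ^ 2 := (Real.sqrt_le_iff.1 hsqrt).2
  have hy2 : (s - ε) ^ 2 ≤ ‖y‖ ^ 2 := by
    have h0 : 0 ≤ s - ε := by linarith
    gcongr
  have hε2 : ε ^ 2 ≤ ε := by nlinarith
  have e1 : (s - ε) ^ 2 = s ^ 2 - 2 * (ε * s) + ε ^ 2 := by ring
  have e2 : (L + 2 * ε) ^ 2 = L ^ 2 + 4 * (ε * L) + 4 * ε ^ 2 := by ring
  have e3 : ε * K = ε * s / 2 + 4 * (ε * L) + 4 * ε := by rw [hK]; ring
  rw [e1] at hy2
  rw [e2, hLsq] at hsq
  rw [e3] at hεK
  have hε20 : 0 ≤ ε ^ 2 := sq_nonneg _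
  linarith

/-- **Diamond lemma** (squared form).  In a space with property (M), a map of the `k`-th
countably branching diamond with lower Lipschitz constant `s` and all edge lengths squared `≤ Q`
satisfies `s² (1 + k/4) ≤ Q`. -/
theorem diamond_sq_of_propM (h : PropM X) : ∀ (k : ℕ) (f : DiamondVertex k → X) (s Q : ℝ),
    0 < s → (∀ u v, s * (diamondDist k u v : ℝ) ≤ ‖f u - f v‖) →
    (∀ e, ‖f (diamondSrc k e) - f (diamondTgt k e)‖ ^ 2 ≤ Q) →
    s ^ 2 * (1 + (k : ℝ) / 4) ≤ Q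
  | 0, f, s, Q, hs, hlow, hedge => by
      obtain ⟨e0⟩ : Nonempty (DiamondEdge 0) := ⟨()⟩
      have h1 := hlow (diamondSrc 0 e0) (diamondTgt 0 e0)
      rw [diamondDist_edge] at h1
      have h2 := hedge e0
      have h3 : s ^ 2 ≤ ‖f (diamondSrc 0 e0) - f (diamondTgt 0 e0)‖ ^ 2 := by
        have : s ≤ ‖f (diamondSrc 0 e0) - f (diamondTgt 0 e0)‖ := by simpa using h1
        gcongr
      simp only [Nat.cast_zero, zero_div, add_zero, mul_one]
      linarith
  | k + 1, f, s, Q, hs, hlow, hedge => by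
      have ih := diamond_sq_of_propM h k (fun u => f (Sum.inl u)) (2 * s) (4 * Q - s ^ 2)
        (by positivity) ?_ ?_
      · push_cast
        nlinarith [ih]
      · intro u v
        have h1 := hlow (Sum.inl u) (Sum.inl v)
        have h2 : (2 : ℝ) * (diamondDist k u v : ℝ) ≤
            (diamondDist (k + 1) (Sum.inl u) (Sum.inl v) : ℝ) := by
          exact_mod_cast two_mul_diamondDist_le k u v
        calc 2 * s * (diamondDist k u v : ℝ) = s * (2 * (diamondDist k u v : ℝ)) := by ring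
          _ ≤ s * (diamondDist (k + 1) (Sum.inl u) (Sum.inl v) : ℝ) := by gcongr
          _ ≤ _ := h1
      · intro e
        set a := f (Sum.inl (diamondSrc k e)) with ha
        set b := f (Sum.inl (diamondTgt k e)) with hb
        have key := propM_midpoints h ((1 / 2 : ℝ) • (a - b))
          (fun i => f (Sum.inr (e, i)) - (1 / 2 : ℝ) • (a + b)) s Q hs ?_ ?_ ?_
        · have e1 : ‖(1 / 2 : ℝ) • (a - b)‖ = 1 / 2 * ‖a - b‖ := by
            rw [norm_smul]; norm_num
          rw [e1] at key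
          show ‖a - b‖ ^ 2 ≤ 4 * Q - s ^ 2
          nlinarith [key]
        · intro i
          have e1 : (1 / 2 : ℝ) • (a - b) + (f (Sum.inr (e, i)) - (1 / 2 : ℝ) • (a + b)) =
              f (Sum.inr (e, i)) - b := by module
          rw [e1]
          exact hedge (e, i, true)
        · intro i
          have e1 : (1 / 2 : ℝ) • (a - b) - (f (Sum.inr (e, i)) - (1 / 2 : ℝ) • (a + b)) =
              a - f (Sum.inr (e, i)) := by module
          rw [e1]
          exact hedge (e, i, false)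
        · intro i l hil
          have e1 : (f (Sum.inr (e, i)) - (1 / 2 : ℝ) • (a + b)) -
              (f (Sum.inr (e, l)) - (1 / 2 : ℝ) • (a + b)) =
              f (Sum.inr (e, i)) - f (Sum.inr (e, l)) := by abel
          rw [e1]
          have h1 := hlow (Sum.inr (e, i)) (Sum.inr (e, l))
          have h2 : (2 : ℝ) ≤ (diamondDist (k + 1) (Sum.inr (e, i)) (Sum.inr (e, l)) : ℝ) := by
            exact_mod_cast two_le_diamondDist_mid k e hil
          calc 2 * s = s * 2 := by ring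
            _ ≤ s * (diamondDist (k + 1) (Sum.inr (e, i)) (Sum.inr (e, l)) : ℝ) := by gcongr
            _ ≤ _ := h1

/-- **Diamond lemma** (the form announced in the plan). -/
theorem diamond_of_propM (h : PropM X) (k : ℕ) (f : DiamondVertex k → X) (s L : ℝ) (hs : 0 < s)
    (hlow : ∀ u v, s * (diamondDist k u v : ℝ) ≤ ‖f u - f v‖)
    (hedge : ∀ e, ‖f (diamondSrc k e) - f (diamondTgt k e)‖ ≤ L) :
    s ^ 2 * (1 + (k : ℝ) / 4) ≤ L ^ 2 :=
  diamond_sq_of_propM h k f s (L ^ 2) hs hlow (fun e => by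
    have := hedge e
    gcongr)

end Analytic

/-- Bridge to the `RealBanach` record: the last conjunct of S0166. -/
theorem distortion_of_propM (E : RealBanach) (h : @PropM E.X E.normed E.space) (k : ℕ)
    (f : DiamondVertex k → E.X) (D : ℝ) (hD : E.HasDistortionLE k f D) :
    1 + (k : ℝ) / 4 ≤ D ^ 2 := by
  let _ := E.normed
  let _ := E.space
  obtain ⟨s, hs, hf⟩ := hD
  have key := diamond_of_propM h k f s (D * s) hs (fun u v => (hf u v).1) (fun e => by
    have := (hf (diamondSrc k e) (diamondTgt k e)).2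
    rw [diamondDist_edge] at this
    simpa using this)
  have hs2 : 0 < s ^ 2 := by positivity
  have : s ^ 2 * (1 + (k : ℝ) / 4) ≤ s ^ 2 * D ^ 2 := by
    calc s ^ 2 * (1 + (k : ℝ) / 4) ≤ (D * s) ^ 2 := key
      _ = s ^ 2 * D ^ 2 := by ring
  exact le_of_mul_le_mul_left this hs2

end Crest.Agent.R125
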