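/-
Row 125: shared toolkit on tests of the tree-potential models (used by S0168 and S0166).
Owner: helper10.
-/
import Mathlib
import Crest.Prelude.Def_TreePotentials
import Crest.Agent.S0166_Base

set_option autoImplicit false

namespace Crest.Agent.R125

open Crest.AnalysisR Crest.AnalysisR.TreePotential
open scoped ENNReal

/-- ambient space `ℓ^∞(tests)` -/
abbrev V (m : PotentialModel) := lp (fun _ : PotentialTest m => ℝ) ⊤

variable {m : PotentialModel}

/-! ### potentials -/

theorem pathPotential_add (f g : List ℕ → ℝ) (s : List ℕ) :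
    pathPotential (fun u => f u + g u) s = pathPotential f s + pathPotential g s := by
  induction s with
  | nil => rfl
  | cons a v ih => simp only [pathPotential, ih]; ring

theorem pathPotential_smul (c : ℝ) (f : List ℕ → ℝ) (s : List ℕ) :
    pathPotential (fun u => c * f u) s = c * pathPotential f s := by
  induction s with
  | nil => rfl
  | cons a v ih => simp only [pathPotential, ih]; ring

theorem pathPotential_neg (f : List ℕ → ℝ) (s : List ℕ) :
    pathPotential (fun u => - f u) s = - pathPotential f s := by
  induction s with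
  | nil => rfl
  | cons a v ih => simp only [pathPotential, ih]; ring

theorem pathPotential_sub (f g : List ℕ → ℝ) (s : List ℕ) :
    pathPotential (fun u => f u - g u) s = pathPotential f s - pathPotential g s := by
  induction s with
  | nil => rfl
  | cons a v ih => simp only [pathPotential, ih]; ring

theorem pathPotential_zero (s : List ℕ) : pathPotential (fun _ => 0) s = 0 := by
  induction s with
  | nil => rfl
  | cons a v ih => simp only [pathPotential, ih]; ring

/-- the coefficient family with prescribed potential -/
def ofPotential (P : List ℕ → ℝ) : List ℕ → ℝ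
  | [] => P []
  | a :: v => P (a :: v) - P v

theorem pathPotential_ofPotential (P : List ℕ → ℝ) (s : List ℕ) :
    pathPotential (ofPotential P) s = P s := by
  induction s with
  | nil => rfl
  | cons a v ih => simp only [pathPotential, ih, ofPotential]; ring

/-- potential of the indicator of a vertex -/
theorem pathPotential_indicator (s u : List ℕ) :
    pathPotential (fun w => if w = s then (1 : ℝ) else 0) u = if s <:+ u then 1 else 0 := by
  induction u with
  | nil =>
    simp only [pathPotential, List.suffix_nil]
    by_cases h : s = []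
    · simp [h]
    · simp [h, Ne.symm h]
  | cons a v ih =>
    simp only [pathPotential, ih, List.suffix_cons_iff]
    by_cases h1 : a :: v = s
    · have h2 : ¬ s <:+ v := by
        intro h
        have := h.length_le
        rw [← h1] at this
        simp at this
      simp [h1, h2]
    · have h1' : ¬ s = a :: v := fun h => h1 h.symm
      simp [h1, h1']

/-! ### the extra condition -/

theorem extra_of_sq_le {f g h : List ℕ → ℝ} {α β : ℝ} (hf : ExtraCondition m f)
    (hg : ExtraCondition m g) (hαβ : α ^ 2 + β ^ 2 ≤ 1)
    (hh : ∀ s, h s ^ 2 ≤ α ^ 2 * f s ^ 2 + β ^ 2 * g s ^ 2) : ExtraCondition m h := by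
  have key : ∀ {ι : Type} (A : Finset ι) (e : ι → List ℕ), ∑ i ∈ A, f (e i) ^ 2 ≤ 1 →
      ∑ i ∈ A, g (e i) ^ 2 ≤ 1 → ∑ i ∈ A, h (e i) ^ 2 ≤ 1 := by
    intro ι A e h1 h2
    calc ∑ i ∈ A, h (e i) ^ 2 ≤ ∑ i ∈ A, (α ^ 2 * f (e i) ^ 2 + β ^ 2 * g (e i) ^ 2) :=
          Finset.sum_le_sum fun i _ => hh _
      _ = α ^ 2 * ∑ i ∈ A, f (e i) ^ 2 + β ^ 2 * ∑ i ∈ A, g (e i) ^ 2 := by
          rw [Finset.sum_add_distrib, Finset.mul_sum, Finset.mul_sum]
      _ ≤ α ^ 2 * 1 + β ^ 2 * 1 := by
          gcongr
      _ ≤ 1 := by linarith
  cases m with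
  | rootlessSibling =>
    refine ⟨?_, fun r A => key A (fun n => n :: r) (hf.2 r A) (hg.2 r A)⟩
    have := hh []
    rw [hf.1, hg.1] at this
    have h0 : h [] ^ 2 ≤ 0 := by simpa using this
    exact pow_eq_zero_iff (two_ne_zero) |>.1 (le_antisymm h0 (sq_nonneg _))
  | rootedSibling =>
    exact fun r A => key A (fun n => n :: r) (hf r A) (hg r A)
  | antichain =>
    refine ⟨?_, fun A hA => key A id (hf.2 A hA) (hg.2 A hA)⟩
    refine (hf.1.union hg.1).subset ?_
    intro s hs
    by_contra hcon
    simp only [Set.mem_union, Function.mem_support, not_or, not_not] at hcon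
    have := hh s
    rw [hcon.1, hcon.2] at this
    have h0 : h s ^ 2 ≤ 0 := by simpa using this
    exact hs (pow_eq_zero_iff (two_ne_zero) |>.1 (le_antisymm h0 (sq_nonneg _)))
  | global =>
    exact fun A => key A id (hf A) (hg A)

/-- domination by a single test -/
theorem extra_of_abs_le {f h : List ℕ → ℝ} (hf : ExtraCondition m f)
    (hh : ∀ s, |h s| ≤ |f s|) : ExtraCondition m h := by
  refine extra_of_sq_le (α := 1) (β := 0) hf hf (by norm_num) fun s => ?_
  have := sq_le_sq' (by linarith [hh s, abs_nonneg (h s), abs_nonneg (f s), neg_abs_le (h s)] :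
    -|f s| ≤ |h s|) (hh s)
  simpa using this

theorem extra_zero : ExtraCondition m (fun _ => 0) := by
  cases m with
  | rootlessSibling => exact ⟨rfl, fun r A => by simp⟩
  | rootedSibling => exact fun r A => by simp
  | antichain => exact ⟨by simp, fun A _ => by simp⟩
  | global => exact fun A => by simp

/-- constructor for tests -/
def mkTest (f : List ℕ → ℝ) (h : IsTest m f) : PotentialTest m := ⟨f, h⟩

@[simp] theorem mkTest_val (f : List ℕ → ℝ) (h : IsTest m f) : (mkTest f h).1 = f := rfl

theorem PotentialTest.isTest (g : PotentialTest m) : IsTest m g.1 := g.2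

theorem PotentialTest.abs_potential_le (g : PotentialTest m) (s : List ℕ) :
    |pathPotential g.1 s| ≤ 1 := g.2.1 s

theorem PotentialTest.extra (g : PotentialTest m) : ExtraCondition m g.1 := g.2.2

/-- the zero test -/
def zeroTest (m : PotentialModel) : PotentialTest m :=
  mkTest (fun _ => 0) ⟨fun s => by rw [pathPotential_zero]; simp, extra_zero⟩

instance : Nonempty (PotentialTest m) := ⟨zeroTest m⟩

/-- the negative of a test -/
def negTest (g : PotentialTest m) : PotentialTest m :=
  mkTest (fun u => - g.1 u) ⟨fun s => by rw [pathPotential_neg, abs_neg]; exact g.2.1 s,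
    extra_of_abs_le g.2.2 fun s => by simp⟩

@[simp] theorem negTest_val (g : PotentialTest m) (u : List ℕ) : (negTest g).1 u = - g.1 u := rfl

/-- is the vertex a genuine coordinate of the model? (the root is not, in the rootless model) -/
def Allowed (m : PotentialModel) (s : List ℕ) : Prop := m = .rootlessSibling → s ≠ []

theorem sum_indicator_sq_le {ι : Type} (A : Finset ι) (e : ι → List ℕ) (he : Function.Injective e)
    (s : List ℕ) : ∑ i ∈ A, (if e i = s then (1 : ℝ) else 0) ^ 2 ≤ 1 := by
  classical
  have h1 : ∀ i ∈ A, (if e i = s then (1 : ℝ) else 0) ^ 2 = if e i = s then 1 else 0 := by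
    intro i _; split_ifs <;> simp
  rw [Finset.sum_congr rfl h1, Finset.sum_ite, Finset.sum_const_zero, add_zero, Finset.sum_const,
    nsmul_eq_mul, mul_one]
  have : (A.filter fun i => e i = s).card ≤ 1 := by
    rw [Finset.card_le_one]
    intro a ha b hb
    simp only [Finset.mem_filter] at ha hb
    exact he (ha.2.trans hb.2.symm)
  exact_mod_cast this

theorem extra_indicator {s : List ℕ} (hs : Allowed m s) :
    ExtraCondition m (fun w => if w = s then (1 : ℝ) else 0) := by
  cases m with
  | rootlessSibling =>
    refine ⟨?_, fun r A => sum_indicator_sq_le A (fun n => n :: r) (fun a b h => by simpa using h) s⟩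
    have := hs rfl
    simp [Ne.symm this]
  | rootedSibling =>
    exact fun r A => sum_indicator_sq_le A (fun n => n :: r) (fun a b h => by simpa using h) s
  | antichain =>
    refine ⟨?_, fun A _ => sum_indicator_sq_le A id Function.injective_id s⟩
    refine (Set.finite_singleton s).subset ?_
    intro w hw
    by_contra hcon
    exact hw (by simp [show ¬ w = s from hcon])
  | global =>
    exact fun A => sum_indicator_sq_le A id Function.injective_id s

theorem isTest_indicator {s : List ℕ} (hs : Allowed m s) :
    IsTest m (fun w => if w = s then (1 : ℝ) else 0) :=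
  ⟨fun u => by rw [pathPotential_indicator]; split_ifs <;> simp, extra_indicator hs⟩

open Classical in
/-- the indicator test of a vertex (the zero test if the vertex is not allowed) -/
noncomputable def indTest (m : PotentialModel) (s : List ℕ) : PotentialTest m :=
  if hs : Allowed m s then mkTest _ (isTest_indicator hs) else zeroTest m

theorem indTest_val_of_allowed {s : List ℕ} (hs : Allowed m s) (w : List ℕ) :
    (indTest m s).1 w = if w = s then 1 else 0 := by
  unfold indTest
  rw [dif_pos hs]
  rfl

theorem test_eq_zero_of_not_allowed (g : PotentialTest m) {s : List ℕ} (hs : ¬ Allowed m s) :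
    g.1 s = 0 := by
  unfold Allowed at hs
  push Not at hs
  obtain ⟨rfl, rfl⟩ := hs
  exact g.2.2.1

/-- the identity that makes `indTest` usable uniformly in all models -/
theorem test_mul_indTest (g : PotentialTest m) (s w : List ℕ) :
    g.1 s * (indTest m s).1 w = if w = s then g.1 s else 0 := by
  by_cases hs : Allowed m s
  · rw [indTest_val_of_allowed hs]; split_ifs <;> simp
  · rw [test_eq_zero_of_not_allowed g hs]; simp

theorem allowed_cons (a : ℕ) (v : List ℕ) : Allowed m (a :: v) := fun _ => by simp

/-! ### evaluation, norms -/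

/-- evaluation at a test, as a continuous functional on the ambient space -/
noncomputable def ev (g : PotentialTest m) : V m →L[ℝ] ℝ :=
  lp.evalCLM ℝ (fun _ : PotentialTest m => ℝ) ⊤ g

@[simp] theorem ev_apply (g : PotentialTest m) (y : V m) : ev g y = y g := rfl

@[simp] theorem coordVector_apply (s : List ℕ) (g : PotentialTest m) :
    (coordVector m s : V m) g = g.1 s := rfl

theorem abs_apply_le_norm (y : V m) (g : PotentialTest m) : |y g| ≤ ‖y‖ :=
  lp.norm_apply_le_norm ENNReal.top_ne_zero y g

theorem apply_le_norm (y : V m) (g : PotentialTest m) : y g ≤ ‖y‖ :=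
  (le_abs_self _).trans (abs_apply_le_norm y g)

theorem norm_le_of_forall_abs_le (y : V m) {C : ℝ} (h : ∀ g, |y g| ≤ C) : ‖y‖ ≤ C :=
  lp.norm_le_of_forall_le' C h

/-- **Linear relation lemma.** -/
theorem linear_relation {ι : Type*} (s : Finset ι) (c : ι → ℝ) (g : ι → PotentialTest m)
    (h : ∀ v, ∑ i ∈ s, c i * (g i).1 v = 0) (y : V m) (hy : y ∈ modelSpace m) :
    ∑ i ∈ s, c i * y (g i) = 0 := by
  set Φ : V m →L[ℝ] ℝ := ∑ i ∈ s, c i • ev (g i) with hΦ
  have hΦy : ∀ z : V m, Φ z = ∑ i ∈ s, c i * z (g i) := by
    intro z
    simp [hΦ]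
  rw [← hΦy]
  have hle : modelSpace m ≤ (LinearMap.ker (Φ : V m →ₗ[ℝ] ℝ)) := by
    apply Submodule.topologicalClosure_minimal _ _ Φ.isClosed_ker
    rw [Submodule.span_le]
    rintro _ ⟨v, rfl⟩
    simp only [SetLike.mem_coe, LinearMap.mem_ker, ContinuousLinearMap.coe_coe, hΦy,
      coordVector_apply]
    exact h v
  exact hle hy

theorem apply_negTest (g : PotentialTest m) (y : V m) (hy : y ∈ modelSpace m) :
    y (negTest g) = - y g := by
  have := linear_relation (Finset.univ : Finset (Fin 2)) (fun _ => 1) ![negTest g, g]
    (fun v => by simp [Fin.sum_univ_two]) y hy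
  simp only [Fin.sum_univ_two, one_mul, Matrix.cons_val_zero, Matrix.cons_val_one] at this
  linarith

/-- the norm is almost attained at a test (without absolute value) -/
theorem exists_test_near_norm (y : V m) (hy : y ∈ modelSpace m) (η : ℝ) (hη : 0 < η) :
    ∃ g : PotentialTest m, ‖y‖ - η < y g := by
  by_contra hcon
  push Not at hcon
  have : ‖y‖ ≤ ‖y‖ - η := by
    apply norm_le_of_forall_abs_le
    intro g
    rw [abs_le]
    constructor
    · have := hcon (negTest g)
      rw [apply_negTest g y hy] at this
      linarith
    · exact hcon g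
  linarith

theorem coordVector_mem (s : List ℕ) : coordVector m s ∈ modelSpace m :=
  Submodule.le_topologicalClosure _ (Submodule.subset_span ⟨s, rfl⟩)

/-- elements of the model space are approximated by finite combinations of coordinate vectors -/
theorem exists_finsupp_close (x : V m) (hx : x ∈ modelSpace m) (η : ℝ) (hη : 0 < η) :
    ∃ c : List ℕ →₀ ℝ, ‖x - ∑ s ∈ c.support, c s • coordVector m s‖ < η := by
  have hx' : x ∈ closure ((Submodule.span ℝ (Set.range (coordVector m)) : Submodule ℝ (V m)) :
      Set (V m)) := hx
  rw [Metric.mem_closure_iff] at hx'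
  obtain ⟨x', hx'span, hd⟩ := hx' η hη
  rw [SetLike.mem_coe, Finsupp.mem_span_range_iff_exists_finsupp] at hx'span
  obtain ⟨c, rfl⟩ := hx'span
  refine ⟨c, ?_⟩
  rw [dist_eq_norm] at hd
  exact hd

end Crest.Agent.R125
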