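/-
Row 125, package PC2: trees, separability, PropM-from-core for the tree potential models.
Owner: helper2.
-/
import Mathlib
import Crest.Prelude.Def_TreePotentials
import Crest.Agent.S0166_Base
import Crest.Agent.S0168_Tests

set_option autoImplicit false

namespace Crest.Agent.R125

open Crest.AnalysisR Crest.AnalysisR.TreePotential
open scoped ENNReal

variable {m : PotentialModel}

/-! ### the path vectors `z_v` -/

/-- `z_v = ∑_{u suffix of v} e_u` -/
noncomputable def zvec (m : PotentialModel) : List ℕ → V m
  | [] => coordVector m []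
  | a :: v => zvec m v + coordVector m (a :: v)

@[simp] theorem zvec_nil : zvec m [] = coordVector m [] := rfl

@[simp] theorem zvec_cons (a : ℕ) (v : List ℕ) :
    zvec m (a :: v) = zvec m v + coordVector m (a :: v) := rfl

theorem zvec_apply (v : List ℕ) (g : PotentialTest m) :
    (zvec m v) g = pathPotential g.1 v := by
  induction v with
  | nil => rfl
  | cons a v ih =>
    rw [zvec_cons, lp.coeFn_add, Pi.add_apply, ih, coordVector_apply]
    rfl

theorem zvec_mem (v : List ℕ) : zvec m v ∈ modelSpace m := by
  induction v with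
  | nil => exact coordVector_mem _
  | cons a v ih => exact (modelSpace m).add_mem ih (coordVector_mem _)

theorem norm_zvec_le (v : List ℕ) : ‖zvec m v‖ ≤ 1 :=
  norm_le_of_forall_abs_le _ fun g => by rw [zvec_apply]; exact PotentialTest.abs_potential_le g v

theorem one_le_norm_coordVector {s : List ℕ} (hs : Allowed m s) : 1 ≤ ‖coordVector m s‖ := by
  have h := apply_le_norm (coordVector m s) (indTest m s)
  rw [coordVector_apply, indTest_val_of_allowed hs] at h
  simpa using h

theorem one_le_norm_zvec_cons (a : ℕ) (v : List ℕ) : 1 ≤ ‖zvec m (a :: v)‖ := by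
  have h := apply_le_norm (zvec m (a :: v)) (indTest m (a :: v))
  rw [zvec_apply] at h
  have e : (indTest m (a :: v)).1 = fun w => if w = a :: v then (1 : ℝ) else 0 := by
    funext w
    exact indTest_val_of_allowed (allowed_cons a v) w
  rw [e, pathPotential_indicator] at h
  simpa using h

/-- square sums over siblings are at most one, in all four models -/
theorem sum_siblings_sq_le (g : PotentialTest m) (v : List ℕ) (A : Finset ℕ) :
    ∑ a ∈ A, g.1 (a :: v) ^ 2 ≤ 1 := by
  classical
  have himg : ∑ u ∈ A.image (fun a => a :: v), g.1 u ^ 2 = ∑ a ∈ A, g.1 (a :: v) ^ 2 :=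
    Finset.sum_image (fun a _ b _ h => by simpa using h)
  have hg := PotentialTest.extra g
  cases m with
  | rootlessSibling => exact hg.2 v A
  | rootedSibling => exact hg v A
  | antichain =>
    rw [← himg]
    refine hg.2 _ ?_
    intro u hu w hw huw hsuf
    simp only [Finset.mem_image] at hu hw
    obtain ⟨a, -, rfl⟩ := hu
    obtain ⟨b, -, rfl⟩ := hw
    exact huw (hsuf.eq_of_length (by simp))
  | global =>
    rw [← himg]
    exact hg _

theorem norm_sum_siblings_le (v : List ℕ) (A : Finset ℕ) :
    ‖∑ a ∈ A, coordVector m (a :: v)‖ ≤ Real.sqrt A.card := by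
  refine norm_le_of_forall_abs_le _ fun g => ?_
  have e : (∑ a ∈ A, coordVector m (a :: v) : V m) g = ∑ a ∈ A, g.1 (a :: v) := by
    have := map_sum (ev g) (fun a => coordVector m (a :: v)) A
    simp only [ev_apply, coordVector_apply] at this
    exact this
  rw [e]
  apply Real.abs_le_sqrt
  have h1 := sq_sum_le_card_mul_sum_sq (s := A) (f := fun a => g.1 (a :: v))
  have h2 := sum_siblings_sq_le g v A
  have h3 : (0 : ℝ) ≤ A.card := Nat.cast_nonneg _
  nlinarith

/-! ### trees -/

theorem hasTrees_modelSpace (m : PotentialModel) : HasTrees (modelSpace m) := by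
  refine ⟨1, 1, fun _ _ => {x | ∃ v : List ℕ, (x : V m) = zvec m v}, one_pos, ?_, ?_, ?_⟩
  · intro k
    exact ⟨⟨zvec m [0], zvec_mem _⟩, ⟨[0], rfl⟩, one_le_norm_zvec_cons 0 []⟩
  · rintro k j - x ⟨v, hv⟩
    rw [Submodule.coe_norm, hv]
    exact norm_zvec_le v
  · rintro k j - x ⟨v, hv⟩ S hS ε hε
    obtain ⟨a, y, hy, hay⟩ := hS.exists_close_of_cesaro
      (fun a => (⟨coordVector m (a :: v), coordVector_mem _⟩ : modelSpace m)) 1 (fun A => by
        rw [one_mul, Submodule.coe_norm, Submodule.coe_sum]
        exact norm_sum_siblings_le v A) ε hε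
    refine ⟨⟨coordVector m (a :: v), coordVector_mem _⟩, ⟨a :: v, ?_⟩, ?_, y, hy, hay⟩
    · rw [Submodule.coe_add, hv]; rfl
    · rw [Submodule.coe_norm]
      exact one_le_norm_coordVector (allowed_cons a v)

/-! ### separability -/

theorem separableSpace_modelSpace (m : PotentialModel) :
    TopologicalSpace.SeparableSpace (modelSpace m) := by
  have h1 : TopologicalSpace.IsSeparable (Set.range (coordVector m)) :=
    (Set.countable_range _).isSeparable
  have h2 : TopologicalSpace.IsSeparable
      ((Submodule.span ℝ (Set.range (coordVector m)) : Submodule ℝ (V m)) : Set (V m)) := h1.span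
  have h3 : TopologicalSpace.IsSeparable ((modelSpace m : Submodule ℝ (V m)) : Set (V m)) := by
    have := h2.closure
    simpa [modelSpace, Submodule.topologicalClosure_coe] using this
  exact h3.separableSpace

/-! ### `PropM` from the core lemma -/

/-- statement of the core lemma (package PC1) -/
def CoreStatement (m : PotentialModel) : Prop :=
  ∀ x : V m, x ∈ modelSpace m → ∀ η : ℝ, 0 < η → ∃ s : Finset (PotentialTest m),
    ∀ y : V m, y ∈ modelSpace m → (∀ τ ∈ s, y τ = 0) →
      Real.sqrt (‖x‖ ^ 2 + ‖y‖ ^ 2 / 4) - η ≤ (‖x + y‖ + ‖x - y‖) / 2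

theorem propM_modelSpace_of_core (h : CoreStatement m) : PropM (modelSpace m) := by
  intro x η hη
  obtain ⟨s, hs⟩ := h x x.2 η hη
  refine ⟨⨅ τ : s, LinearMap.ker (((ev τ.1).comp (modelSpace m).subtypeL : modelSpace m →L[ℝ] ℝ) :
      modelSpace m →ₗ[ℝ] ℝ), cof_iInf_ker _, fun y hy => ?_⟩
  rw [mem_iInf_ker] at hy
  exact hs y y.2 fun τ hτ => hy ⟨τ, hτ⟩

/-- everything in S0168 follows from the core lemma -/
theorem s0168_of_core (m : PotentialModel) (h : CoreStatement m) :
    (modelBanach m).IsSeparableInfiniteDim ∧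
      (∀ t : ℝ, 0 < t → t < 1 →
        (modelBanach m).MidpointModulusGE (modelBanach m).norm t (Real.sqrt (1 + t ^ 2 / 4) - 1)) ∧
      ∀ N : (modelBanach m).X → ℝ, (modelBanach m).IsEquivNorm N → ¬ (modelBanach m).IsAUC N := by
  have hauc := not_isAUC_of_hasTrees (modelBanach m) (hasTrees_modelSpace m)
  refine ⟨⟨separableSpace_modelSpace m, not_finiteDimensional_of_no_auc (modelBanach m) hauc⟩,
    fun t ht _ => midpointGE_of_propM (modelBanach m) (propM_modelSpace_of_core h) t _ ht le_rfl,
    hauc⟩

end Crest.Agent.R125
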