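/-
Row 125 (S0166): package PH1 -- the "height ≤ n" pieces of the global tree potential space.
Namespace `Crest.Agent.R125`.  Owner: helper21.
-/
import Mathlib
import Crest.Prelude.Def_TreePotentials
import Crest.Agent.S0168_Trees

set_option autoImplicit false

namespace Crest.Agent.R125

open Crest.AnalysisR Crest.AnalysisR.TreePotential
open scoped InnerProductSpace

/-- ambient space of the global model -/
abbrev VG := lp (fun _ : PotentialTest .global => ℝ) ⊤

/-- vertices of height at most `n` -/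
abbrev Idx (n : ℕ) := {s : List ℕ // s.length ≤ n}

/-- `ℓ²` over the vertices of height at most `n` -/
abbrev H (n : ℕ) := lp (fun _ : Idx n => ℝ) 2

theorem sum_sq_subtype_le (n : ℕ) (f : PotentialTest .global) (A : Finset (Idx n)) :
    ∑ i ∈ A, (f.1 i.1) ^ 2 ≤ 1 := by
  have h := f.2.2 (A.map ⟨Subtype.val, Subtype.val_injective⟩)
  simpa using h

/-- restriction of a global test to the vertices of height at most `n`, as an `ℓ²` vector -/
noncomputable def fl2 (n : ℕ) (f : PotentialTest .global) : H n :=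
  ⟨fun s => f.1 s.1, memℓp_gen' (C := 1) (by
    intro A
    have := sum_sq_subtype_le n f A
    simpa using this)⟩

@[simp] theorem fl2_apply (n : ℕ) (f : PotentialTest .global) (s : Idx n) :
    fl2 n f s = f.1 s.1 := rfl

theorem fl2_norm_le (n : ℕ) (f : PotentialTest .global) : ‖fl2 n f‖ ≤ 1 := by
  refine lp.norm_le_of_forall_sum_le (by norm_num) zero_le_one ?_
  intro A
  have := sum_sq_subtype_le n f A
  simpa using this


/-- the underlying linear map of `J n` -/
noncomputable def Jlin (n : ℕ) : H n →ₗ[ℝ] VG where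
  toFun h := ⟨fun f => ⟪fl2 n f, h⟫_ℝ, memℓp_infty ⟨‖h‖, by
    rintro _ ⟨f, rfl⟩
    calc ‖⟪fl2 n f, h⟫_ℝ‖ ≤ ‖fl2 n f‖ * ‖h‖ := norm_inner_le_norm _ _
      _ ≤ 1 * ‖h‖ := by gcongr; exact fl2_norm_le n f
      _ = ‖h‖ := one_mul _⟩⟩
  map_add' h k := by
    ext f
    exact inner_add_right _ _ _
  map_smul' c h := by
    ext f
    exact inner_smul_right _ _ _

theorem Jlin_apply (n : ℕ) (h : H n) (f : PotentialTest .global) :
    Jlin n h f = ⟪fl2 n f, h⟫_ℝ := rfl

theorem Jlin_norm_le (n : ℕ) (h : H n) : ‖Jlin n h‖ ≤ ‖h‖ := by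
  refine lp.norm_le_of_forall_le (norm_nonneg _) fun f => ?_
  calc ‖⟪fl2 n f, h⟫_ℝ‖ ≤ ‖fl2 n f‖ * ‖h‖ := norm_inner_le_norm _ _
    _ ≤ 1 * ‖h‖ := by gcongr; exact fl2_norm_le n f
    _ = ‖h‖ := one_mul _

/-- `J n : ℓ²({|s| ≤ n}) → V_global`, `(J n h) f = ∑ f s * h s`. -/
noncomputable def J (n : ℕ) : H n →L[ℝ] VG :=
  (Jlin n).mkContinuous 1 (fun h => by simpa using Jlin_norm_le n h)

theorem J_apply (n : ℕ) (h : H n) (f : PotentialTest .global) :
    J n h f = ⟪fl2 n f, h⟫_ℝ := rfl

theorem J_apply_tsum (n : ℕ) (h : H n) (f : PotentialTest .global) :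
    J n h f = ∑' s : Idx n, f.1 s.1 * h s := by
  rw [J_apply, lp.inner_eq_tsum]
  refine tsum_congr fun s => ?_
  simp [mul_comm]

theorem J_norm_le (n : ℕ) (h : H n) : ‖J n h‖ ≤ ‖h‖ := Jlin_norm_le n h


/-! ### Root paths as finsets -/

/-- the root path of a vertex (the vertex and all its ancestors) as a finset -/
def chain : List ℕ → Finset (List ℕ)
  | [] => {[]}
  | a :: v => insert (a :: v) (chain v)

theorem length_le_of_mem_chain {u s : List ℕ} (h : u ∈ chain s) : u.length ≤ s.length := by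
  induction s with
  | nil => simp [chain] at h; simp [h]
  | cons a v ih =>
    simp only [chain, Finset.mem_insert] at h
    rcases h with rfl | h
    · exact le_rfl
    · exact (ih h).trans (by simp)

theorem cons_notMem_chain (a : ℕ) (v : List ℕ) : (a :: v) ∉ chain v := fun h => by
  have := length_le_of_mem_chain h
  simp at this

theorem self_mem_chain (s : List ℕ) : s ∈ chain s := by
  cases s <;> simp [chain]

theorem card_chain (s : List ℕ) : (chain s).card = s.length + 1 := by
  induction s with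
  | nil => simp [chain]
  | cons a v ih => simp [chain, Finset.card_insert_of_notMem (cons_notMem_chain a v), ih]

theorem pathPotential_eq_sum (g : List ℕ → ℝ) (s : List ℕ) :
    pathPotential g s = ∑ u ∈ chain s, g u := by
  induction s with
  | nil => simp [chain, pathPotential]
  | cons a v ih =>
    simp [chain, pathPotential, Finset.sum_insert (cons_notMem_chain a v), ih, add_comm]

theorem exists_short (n : ℕ) (g : List ℕ → ℝ) (hg : ∀ s, n < s.length → g s = 0) (s : List ℕ) :
    ∃ s' : List ℕ, s'.length ≤ n ∧ pathPotential g s = pathPotential g s' := by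
  induction s with
  | nil => exact ⟨[], by simp, rfl⟩
  | cons a v ih =>
    by_cases h : (a :: v).length ≤ n
    · exact ⟨a :: v, h, rfl⟩
    · obtain ⟨s', hs', he⟩ := ih
      exact ⟨s', hs', by simp [pathPotential, hg (a :: v) (not_le.1 h), he]⟩

/-- Cauchy-Schwarz along root paths for families supported on height `≤ n`. -/
theorem abs_pathPotential_le (n : ℕ) (g : List ℕ → ℝ) (hg : ∀ s, n < s.length → g s = 0)
    (C : ℝ) (hC : ∀ A : Finset (List ℕ), ∑ u ∈ A, g u ^ 2 ≤ C) (s : List ℕ) :
    pathPotential g s ^ 2 ≤ (n + 1) * C := by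
  obtain ⟨s', hs', he⟩ := exists_short n g hg s
  rw [he, pathPotential_eq_sum]
  have hC0 : 0 ≤ C := by simpa using hC ∅
  calc (∑ u ∈ chain s', g u) ^ 2 ≤ (chain s').card * ∑ u ∈ chain s', g u ^ 2 :=
        sq_sum_le_card_mul_sum_sq
    _ ≤ (n + 1) * C := by
        have h1 : ((chain s').card : ℝ) ≤ n + 1 := by
          rw [card_chain]; push_cast; gcongr
        exact mul_le_mul h1 (hC _) (Finset.sum_nonneg fun _ _ => sq_nonneg _) (by positivity)

/-- extension by zero of an `ℓ²` vector on the vertices of height `≤ n` -/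
noncomputable def ext0 (n : ℕ) (h : H n) : List ℕ → ℝ :=
  fun s => if hs : s.length ≤ n then h ⟨s, hs⟩ else 0

theorem ext0_coe (n : ℕ) (h : H n) (s : Idx n) : ext0 n h s.1 = h s := by
  simp [ext0, s.2]

theorem ext0_of_lt (n : ℕ) (h : H n) (s : List ℕ) (hs : n < s.length) : ext0 n h s = 0 := by
  simp [ext0, not_le.2 hs]

theorem sum_ext0_sq_le (n : ℕ) (h : H n) (A : Finset (List ℕ)) :
    ∑ u ∈ A, ext0 n h u ^ 2 ≤ ‖h‖ ^ 2 := by
  have h1 : ∑ u ∈ A, ext0 n h u ^ 2 = ∑ u ∈ A with u.length ≤ n, ext0 n h u ^ 2 := by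
    rw [Finset.sum_filter]
    refine Finset.sum_congr rfl fun u _ => ?_
    by_cases hu : u.length ≤ n
    · simp [hu]
    · simp [hu, ext0]
  rw [h1, ← Finset.sum_subtype_eq_sum_filter]
  have h2 := lp.sum_rpow_le_norm_rpow (p := 2) (by norm_num) h (A.subtype fun u => u.length ≤ n)
  simpa [ext0_coe] using h2


/-- the normalised test associated with `h` -/
theorem isTest_scaled (n : ℕ) (h : H n) (c : ℝ) (hc : c ^ 2 * ‖h‖ ^ 2 * (n + 1) ≤ 1) :
    IsTest .global (fun s => c * ext0 n h s) := by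
  have hsum : ∀ A : Finset (List ℕ), ∑ u ∈ A, (c * ext0 n h u) ^ 2 ≤ c ^ 2 * ‖h‖ ^ 2 := by
    intro A
    simp only [mul_pow, ← Finset.mul_sum]
    exact mul_le_mul_of_nonneg_left (sum_ext0_sq_le n h A) (sq_nonneg c)
  have hn : (1 : ℝ) ≤ n + 1 := by linarith [(Nat.cast_nonneg n : (0 : ℝ) ≤ n)]
  have h0 : 0 ≤ c ^ 2 * ‖h‖ ^ 2 := by positivity
  refine ⟨fun s => ?_, fun A => (hsum A).trans ?_⟩
  · have := abs_pathPotential_le n (fun s => c * ext0 n h s)
      (fun s hs => by simp [ext0_of_lt n h s hs]) _ hsum s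
    rw [← sq_le_one_iff_abs_le_one]
    linarith
  · nlinarith

theorem J_norm_ge (n : ℕ) (h : H n) : ‖h‖ / Real.sqrt (n + 1) ≤ ‖J n h‖ := by
  by_cases hh : h = 0
  · simp [hh]
  have hpos : 0 < ‖h‖ := norm_pos_iff.2 hh
  have hn : (0 : ℝ) < n + 1 := by positivity
  have hs : 0 < Real.sqrt (n + 1) := Real.sqrt_pos.2 hn
  set c : ℝ := 1 / (‖h‖ * Real.sqrt (n + 1)) with hc
  have hc2 : c ^ 2 * ‖h‖ ^ 2 * (n + 1) ≤ 1 := by
    rw [hc, div_pow, mul_pow, Real.sq_sqrt hn.le]
    apply le_of_eq
    field_simp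
  let f : PotentialTest .global := ⟨_, isTest_scaled n h c hc2⟩
  have hf : fl2 n f = c • h := by
    ext s
    change c * ext0 n h s.1 = c * h s
    rw [ext0_coe]
  have h1 : J n h f = ‖h‖ / Real.sqrt (n + 1) := by
    rw [J_apply, hf, inner_smul_left, real_inner_self_eq_norm_sq, hc]
    simp only [conj_trivial]
    field_simp
  calc ‖h‖ / Real.sqrt (n + 1) = J n h f := h1.symm
    _ ≤ ‖J n h f‖ := Real.le_norm_self _
    _ ≤ ‖J n h‖ := lp.norm_apply_le_norm (by simp) _ _


/-! ### The spaces `Xn n` -/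

theorem J_antilipschitz (n : ℕ) :
    AntilipschitzWith (Real.toNNReal (Real.sqrt (n + 1))) (J n) := by
  refine ContinuousLinearMap.antilipschitz_of_bound _ fun h => ?_
  have hs : 0 < Real.sqrt (n + 1) := Real.sqrt_pos.2 (by positivity)
  rw [Real.coe_toNNReal _ hs.le]
  have := J_norm_ge n h
  rwa [div_le_iff₀ hs, mul_comm] at this

theorem J_injective (n : ℕ) : Function.Injective (J n) := (J_antilipschitz n).injective

theorem J_isClosed_range (n : ℕ) : IsClosed (Set.range (J n)) :=
  (J_antilipschitz n).isClosed_range (J n).uniformContinuous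

/-- the span of the coordinates of height `≤ n` in the global model -/
noncomputable def Xn (n : ℕ) : Submodule ℝ VG := (J n).range

theorem Xn_isClosed (n : ℕ) : IsClosed (Xn n : Set VG) := by
  exact J_isClosed_range n

instance (n : ℕ) : CompleteSpace (Xn n) := (Xn_isClosed n).completeSpace_coe

/-- `Xn n` is isomorphic to a Hilbert space. -/
noncomputable def equivXn (n : ℕ) : H n ≃L[ℝ] Xn n :=
  (J n).equivRange (J_injective n) (J_isClosed_range n)

theorem equivXn_apply (n : ℕ) (h : H n) : (equivXn n h : VG) = J n h := rfl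

theorem J_single (n : ℕ) (s : Idx n) (c : ℝ) :
    J n (lp.single 2 s c) = c • coordVector .global s.1 := by
  ext f
  rw [J_apply, lp.inner_single_right]
  simp [coordVector]

theorem coordVector_mem_Xn (n : ℕ) (s : List ℕ) (hs : s.length ≤ n) :
    coordVector .global s ∈ Xn n :=
  ⟨lp.single 2 ⟨s, hs⟩ 1, by simpa using J_single n ⟨s, hs⟩ 1⟩

theorem Xn_le_modelSpace (n : ℕ) : Xn n ≤ modelSpace .global := by
  rintro _ ⟨h, rfl⟩
  have h1 : HasSum (fun s : Idx n => J n (lp.single 2 s (h s))) (J n h) :=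
    (lp.hasSum_single (by norm_num) h).mapL (J n)
  refine (Submodule.isClosed_topologicalClosure _).mem_of_tendsto h1
    (Filter.Eventually.of_forall fun A => ?_)
  refine Submodule.sum_mem _ fun s _ => ?_
  rw [J_single]
  exact Submodule.smul_mem _ _ (Submodule.le_topologicalClosure _
    (Submodule.subset_span ⟨s.1, rfl⟩))


theorem modelSpace_isSeparable (m : PotentialModel) :
    TopologicalSpace.IsSeparable (modelSpace m : Set (lp (fun _ : PotentialTest m => ℝ) ⊤)) := by
  have h1 : TopologicalSpace.IsSeparable (Set.range (coordVector m)) :=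
    (Set.countable_range _).isSeparable
  have h2 := (h1.span (R := ℝ)).closure
  exact h2

instance (n : ℕ) : TopologicalSpace.SeparableSpace (Xn n) :=
  ((modelSpace_isSeparable .global).mono (Xn_le_modelSpace n)).separableSpace

/-! ### Tree vectors in the global model (the vectors `zvec .global v` of `S0168_Trees`) -/

theorem zvec_mem_Xn (n : ℕ) (v : List ℕ) (hv : v.length ≤ n) : zvec .global v ∈ Xn n := by
  induction v with
  | nil => exact coordVector_mem_Xn n [] hv
  | cons a v ih =>
    exact Submodule.add_mem _ (ih (by simp at hv; omega)) (coordVector_mem_Xn n _ hv)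

/-- the coordinate vector of a vertex of height `≤ n` as an element of `Xn n` -/
noncomputable def eX (n : ℕ) (s : List ℕ) (hs : s.length ≤ n) : Xn n :=
  ⟨coordVector .global s, coordVector_mem_Xn n s hs⟩

/-- the path vector of a vertex of height `≤ n` as an element of `Xn n` -/
noncomputable def zX (n : ℕ) (v : List ℕ) (hv : v.length ≤ n) : Xn n :=
  ⟨zvec .global v, zvec_mem_Xn n v hv⟩

theorem zX_cons (n : ℕ) (a : ℕ) (v : List ℕ) (hv : (a :: v).length ≤ n) :
    zX n (a :: v) hv = zX n v (by simp at hv; omega) + eX n (a :: v) hv := rfl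

theorem norm_zX_le (n : ℕ) (v : List ℕ) (hv : v.length ≤ n) : ‖zX n v hv‖ ≤ 1 :=
  norm_zvec_le v

theorem one_le_norm_zX_cons (n : ℕ) (a : ℕ) (v : List ℕ) (hv : (a :: v).length ≤ n) :
    1 ≤ ‖zX n (a :: v) hv‖ :=
  one_le_norm_zvec_cons a v

theorem one_le_norm_eX_cons (n : ℕ) (a : ℕ) (v : List ℕ) (hv : (a :: v).length ≤ n) :
    1 ≤ ‖eX n (a :: v) hv‖ :=
  one_le_norm_coordVector (allowed_cons a v)

theorem norm_sum_eX_le (n : ℕ) (v : List ℕ) (hv : v.length + 1 ≤ n) (A : Finset ℕ) :
    ‖∑ a ∈ A, eX n (a :: v) (by simpa using hv)‖ ≤ 1 * Real.sqrt A.card := by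
  rw [one_mul, Submodule.coe_norm, Submodule.coe_sum]
  exact norm_sum_siblings_le v A

/-! ### Reflexivity of `Xn n` -/

/-- real Hilbert spaces are reflexive -/
theorem reflexive_of_hilbert (X : Type*) [NormedAddCommGroup X] [InnerProductSpace ℝ X]
    [CompleteSpace X] : Function.Surjective (NormedSpace.inclusionInDoubleDual ℝ X) := by
  intro Φ
  let φ : StrongDual ℝ X := LinearMap.mkContinuous
    { toFun := fun y => Φ (InnerProductSpace.toDual ℝ X y)
      map_add' := fun y z => by simp
      map_smul' := fun c y => by simp } ‖Φ‖ (fun y => by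
        simpa using Φ.le_opNorm (InnerProductSpace.toDual ℝ X y))
  refine ⟨(InnerProductSpace.toDual ℝ X).symm φ, ?_⟩
  ext ψ
  obtain ⟨y, rfl⟩ := (InnerProductSpace.toDual ℝ X).surjective ψ
  rw [NormedSpace.dual_def, InnerProductSpace.toDual_apply_apply, real_inner_comm,
    ← InnerProductSpace.toDual_apply_apply (𝕜 := ℝ), LinearIsometryEquiv.apply_symm_apply]
  rfl

/-- reflexivity passes through continuous linear equivalences -/
theorem reflexive_of_equiv {X Y : Type*} [NormedAddCommGroup X] [NormedSpace ℝ X]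
    [NormedAddCommGroup Y] [NormedSpace ℝ Y] (e : X ≃L[ℝ] Y)
    (h : Function.Surjective (NormedSpace.inclusionInDoubleDual ℝ X)) :
    Function.Surjective (NormedSpace.inclusionInDoubleDual ℝ Y) := by
  intro Φ
  let P : StrongDual ℝ X →L[ℝ] StrongDual ℝ Y :=
    (ContinuousLinearMap.compL ℝ Y X ℝ).flip (e.symm : Y →L[ℝ] X)
  obtain ⟨x, hx⟩ := h (Φ.comp P)
  refine ⟨e x, ?_⟩
  ext χ
  have h1 := congrArg (fun F => F (χ.comp (e : X →L[ℝ] Y))) hx
  simp only [NormedSpace.dual_def, ContinuousLinearMap.comp_apply] at h1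
  rw [NormedSpace.dual_def]
  have h2 : P (χ.comp (e : X →L[ℝ] Y)) = χ := by
    ext y
    simp [P]
  rw [h2] at h1
  exact h1

theorem Xn_reflexive (n : ℕ) :
    Function.Surjective (NormedSpace.inclusionInDoubleDual ℝ (Xn n)) :=
  reflexive_of_equiv (equivXn n) (reflexive_of_hilbert (H n))

end Crest.Agent.R125
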