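/-
Row 125 (S0166): package PF — reflexivity (surjectivity of the canonical embedding into the bidual)
of Hilbert spaces, of isomorphic copies and of ℓ²-sums.   Owner: helper19.
-/
import Mathlib
import Crest.Prelude.Def_AsymptoticConvexity

set_option autoImplicit false

namespace Crest.Agent.R125

open scoped ENNReal

/-- reflexivity in the form used by `RealBanach.IsReflexive` -/
def Refl (X : Type*) [NormedAddCommGroup X] [NormedSpace ℝ X] : Prop :=
  Function.Surjective (NormedSpace.inclusionInDoubleDual ℝ X)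

/-- (1) Hilbert spaces are reflexive. -/
theorem refl_of_hilbert (H : Type*) [NormedAddCommGroup H] [InnerProductSpace ℝ H]
    [CompleteSpace H] : Refl H := by
  intro Φ
  let ψ₀ : H →ₗ[ℝ] ℝ :=
    { toFun := fun y => Φ (InnerProductSpace.toDual ℝ H y)
      map_add' := by intro a b; simp
      map_smul' := by intro c y; simp }
  let ψ : H →L[ℝ] ℝ := ψ₀.mkContinuous ‖Φ‖ (by
    intro y
    calc ‖ψ₀ y‖ = ‖Φ (InnerProductSpace.toDual ℝ H y)‖ := rfl
      _ ≤ ‖Φ‖ * ‖InnerProductSpace.toDual ℝ H y‖ := Φ.le_opNorm _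
      _ = ‖Φ‖ * ‖y‖ := by rw [LinearIsometryEquiv.norm_map])
  refine ⟨(InnerProductSpace.toDual ℝ H).symm ψ, ?_⟩
  ext f
  rw [NormedSpace.dual_def]
  obtain ⟨y, rfl⟩ := (InnerProductSpace.toDual ℝ H).surjective f
  rw [InnerProductSpace.toDual_apply_apply, real_inner_comm,
    InnerProductSpace.toDual_symm_apply]
  rfl

/-- (2) reflexivity passes along continuous linear equivalences. -/
theorem Refl.of_equiv {X Y : Type*} [NormedAddCommGroup X] [NormedSpace ℝ X]
    [NormedAddCommGroup Y] [NormedSpace ℝ Y] (h : Refl X) (e : X ≃L[ℝ] Y) : Refl Y := by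
  intro Ψ
  obtain ⟨x, hx⟩ := h (Ψ.comp (ContinuousLinearMap.precomp ℝ (e.symm : Y →L[ℝ] X)))
  refine ⟨e x, ?_⟩
  ext g
  rw [NormedSpace.dual_def]
  have h1 := congrArg (fun Θ => Θ (g.comp (e : X →L[ℝ] Y))) hx
  simp only [NormedSpace.dual_def, ContinuousLinearMap.comp_apply,
    ContinuousLinearMap.precomp_apply] at h1
  have h2 : (g.comp (e : X →L[ℝ] Y)).comp (e.symm : Y →L[ℝ] X) = g := by
    ext y; simp
  rw [h2] at h1
  simpa using h1

section lpTwo

variable {ι : Type*} (Y : ι → Type*) [∀ i, NormedAddCommGroup (Y i)] [∀ i, NormedSpace ℝ (Y i)]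

/-- almost norming vectors -/
theorem exists_almost_norming {Z : Type*} [NormedAddCommGroup Z] [NormedSpace ℝ Z]
    (f : Z →L[ℝ] ℝ) (t : ℝ) (ht : t < 1) : ∃ u : Z, ‖u‖ ≤ 1 ∧ t * ‖f‖ ≤ f u := by
  by_cases hf : ‖f‖ = 0
  · exact ⟨0, by simp, by simp [hf]⟩
  · have hpos : 0 < ‖f‖ := lt_of_le_of_ne (norm_nonneg _) (Ne.symm hf)
    have hlt : t * ‖f‖ < ‖f‖ := by nlinarith
    obtain ⟨x, hx1, hx2⟩ := f.exists_lt_apply_of_lt_opNorm hlt
    rcases le_total 0 (f x) with h0 | h0
    · refine ⟨x, hx1.le, ?_⟩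
      rw [Real.norm_of_nonneg h0] at hx2
      exact hx2.le
    · refine ⟨-x, by rw [norm_neg]; exact hx1.le, ?_⟩
      rw [Real.norm_of_nonpos h0] at hx2
      rw [map_neg]
      exact hx2.le

variable {Y}

open Classical in
/-- the coordinates of a functional on the ℓ²-sum -/
noncomputable def coordFun (θ : StrongDual ℝ (lp Y 2)) (i : ι) : StrongDual ℝ (Y i) :=
  θ.comp (lp.singleContinuousLinearMap ℝ Y 2 i)

open Classical in
theorem coordFun_apply (θ : StrongDual ℝ (lp Y 2)) (i : ι) (v : Y i) :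
    coordFun θ i v = θ (lp.single 2 i v) := rfl

theorem two_toReal : (2 : ℝ≥0∞).toReal = 2 := by simp

/-- Lemma A (ii) -/
theorem hasSum_coordFun (θ : StrongDual ℝ (lp Y 2)) (y : lp Y 2) :
    HasSum (fun i => coordFun θ i (y i)) (θ y) := by
  classical
  have h := lp.hasSum_single (p := 2) (by simp) y
  exact h.mapL θ

/-- Lemma A (i), finite form -/
theorem sum_norm_coordFun_sq_le (θ : StrongDual ℝ (lp Y 2)) (s : Finset ι) :
    ∑ i ∈ s, ‖coordFun θ i‖ ^ 2 ≤ ‖θ‖ ^ 2 := by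
  classical
  set A := ∑ i ∈ s, ‖coordFun θ i‖ ^ 2 with hA
  have hA0 : 0 ≤ A := Finset.sum_nonneg fun i _ => sq_nonneg _
  have key : ∀ t : ℝ, 0 < t → t < 1 → t * A ≤ ‖θ‖ * Real.sqrt A := by
    intro t ht0 ht
    choose u hu1 hu2 using fun i => exists_almost_norming (coordFun θ i) t ht
    set v : lp Y 2 := ∑ i ∈ s, lp.single 2 i (‖coordFun θ i‖ • u i) with hv
    have hθv : θ v = ∑ i ∈ s, ‖coordFun θ i‖ * coordFun θ i (u i) := by
      rw [hv, map_sum]
      refine Finset.sum_congr rfl fun i _ => ?_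
      rw [← coordFun_apply, map_smul, smul_eq_mul]
    have h1 : t * A ≤ θ v := by
      rw [hθv, hA, Finset.mul_sum]
      refine Finset.sum_le_sum fun i _ => ?_
      have := hu2 i
      nlinarith [norm_nonneg (coordFun θ i)]
    have h2 : ‖v‖ ^ 2 ≤ A := by
      have h3 := lp.norm_sum_single (p := 2) (E := Y) (by simp)
        (fun i => ‖coordFun θ i‖ • u i) s
      rw [two_toReal] at h3
      simp only [Real.rpow_two] at h3
      rw [hv, h3, hA]
      refine Finset.sum_le_sum fun i _ => ?_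
      rw [norm_smul, norm_norm, mul_pow]
      have : ‖u i‖ ^ 2 ≤ 1 := by
        have := hu1 i
        nlinarith [norm_nonneg (u i)]
      nlinarith [sq_nonneg ‖coordFun θ i‖]
    have h4 : ‖v‖ ≤ Real.sqrt A := Real.le_sqrt_of_sq_le h2
    calc t * A ≤ θ v := h1
      _ ≤ ‖θ v‖ := le_abs_self _
      _ ≤ ‖θ‖ * ‖v‖ := θ.le_opNorm v
      _ ≤ ‖θ‖ * Real.sqrt A := by gcongr
  -- pass to the limit t → 1
  have key2 : A ≤ ‖θ‖ * Real.sqrt A := by
    by_contra hcon
    push Not at hcon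
    have hApos : 0 < A := lt_of_le_of_lt (by positivity) hcon
    set b := ‖θ‖ * Real.sqrt A with hb
    have hb0 : 0 ≤ b := by positivity
    have ht := key ((b / A + 1) / 2) (by positivity) (by
      have : b / A < 1 := by rw [div_lt_one hApos]; exact hcon
      linarith)
    have : (b / A + 1) / 2 * A = (b + A) / 2 := by field_simp
    rw [this] at ht
    linarith
  have hs := Real.sq_sqrt hA0
  have hs0 := Real.sqrt_nonneg A
  by_cases hz : Real.sqrt A = 0
  · have : A = 0 := by rw [← hs, hz]; simp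
    rw [this]; positivity
  · have hpos : 0 < Real.sqrt A := lt_of_le_of_ne hs0 (Ne.symm hz)
    have : Real.sqrt A ≤ ‖θ‖ := by
      have h5 : Real.sqrt A * Real.sqrt A ≤ ‖θ‖ * Real.sqrt A := by
        calc Real.sqrt A * Real.sqrt A = A := by rw [← sq]; exact hs
          _ ≤ _ := key2
      exact le_of_mul_le_mul_right h5 hpos
    calc A = Real.sqrt A ^ 2 := hs.symm
      _ ≤ ‖θ‖ ^ 2 := by gcongr

/-- Lemma A (i) -/
theorem memℓp_coordFun (θ : StrongDual ℝ (lp Y 2)) :
    Memℓp (fun i => coordFun θ i) 2 := by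
  refine memℓp_gen' (C := ‖θ‖ ^ 2) fun s => ?_
  rw [two_toReal]
  simp only [Real.rpow_two]
  exact sum_norm_coordFun_sq_le θ s

instance holderConjugate_two_two : ENNReal.HolderConjugate 2 2 :=
  ⟨by simp [ENNReal.inv_two_add_inv_two]⟩

/-- the natural map `ℓ²(Y_i^*) → (ℓ²(Y_i))^*` -/
noncomputable def dualMap : lp (fun i => StrongDual ℝ (Y i)) 2 →L[ℝ] StrongDual ℝ (lp Y 2) :=
  lp.dualPairing 2 2 (fun i => ContinuousLinearMap.id ℝ (StrongDual ℝ (Y i))) (K := 1)
    (fun i => by simpa using ContinuousLinearMap.norm_id_le)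

theorem dualMap_apply (ψ : lp (fun i => StrongDual ℝ (Y i)) 2) (y : lp Y 2) :
    dualMap ψ y = ∑' i, ψ i (y i) := rfl

theorem dualMap_coordFun (θ : StrongDual ℝ (lp Y 2)) :
    dualMap (⟨fun i => coordFun θ i, memℓp_coordFun θ⟩ :
      lp (fun i => StrongDual ℝ (Y i)) 2) = θ := by
  ext y
  rw [dualMap_apply]
  exact (hasSum_coordFun θ y).tsum_eq

end lpTwo

/-- (3) the ℓ²-sum of reflexive spaces is reflexive. -/
theorem refl_lp_two {ι : Type*} (X : ι → Type*) [∀ i, NormedAddCommGroup (X i)]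
    [∀ i, NormedSpace ℝ (X i)] (h : ∀ i, Refl (X i)) : Refl (lp X 2) := by
  intro Φ
  -- `Θ` is a functional on `ℓ²(X_i^*)`
  set Θ : StrongDual ℝ (lp (fun i => StrongDual ℝ (X i)) 2) := Φ.comp dualMap with hΘ
  choose x hx using fun i => h i (coordFun Θ i)
  have hxn : ∀ i, ‖x i‖ = ‖coordFun Θ i‖ := by
    intro i
    rw [← hx i]
    exact ((NormedSpace.inclusionInDoubleDualLi ℝ (E := X i)).norm_map (x i)).symm
  have hmem : Memℓp x 2 := by
    have h1 := memℓp_coordFun Θ
    rw [memℓp_gen_iff (by simp)] at h1 ⊢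
    simpa only [hxn] using h1
  refine ⟨⟨x, hmem⟩, ?_⟩
  ext φ
  rw [NormedSpace.dual_def]
  have h1 : Φ φ = Θ ⟨fun i => coordFun φ i, memℓp_coordFun φ⟩ := by
    rw [hΘ, ContinuousLinearMap.comp_apply, dualMap_coordFun]
  rw [h1]
  have h2 := hasSum_coordFun Θ ⟨fun i => coordFun φ i, memℓp_coordFun φ⟩
  have h3 := hasSum_coordFun φ ⟨x, hmem⟩
  refine h3.unique ?_
  convert h2 using 2 with i
  rw [← hx i, NormedSpace.dual_def]

/-- bridge to the `RealBanach` record -/
theorem isReflexive_of_refl (E : Crest.AnalysisR.RealBanach) (h : @Refl E.X E.normed E.space) :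
    E.IsReflexive := h

end Crest.Agent.R125
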