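/-
Row 125 (S0166): package PH2 — ℓ²-sums: PropM, separability, trees.   Owner: helper17.
-/
import Mathlib
import Crest.Agent.S0166_Base

set_option autoImplicit false

namespace Crest.Agent.R125

open scoped ENNReal
open Filter Topology

section Sum

theorem lp_hasSum_sq {ι : Type*} {E : ι → Type*} [∀ i, NormedAddCommGroup (E i)] (f : lp E 2) :
    HasSum (fun i => ‖f i‖ ^ 2) (‖f‖ ^ 2) := by
  simpa using lp.hasSum_norm (p := 2) (by simp) f

variable {X : ℕ → Type*} [∀ n, NormedAddCommGroup (X n)] [∀ n, NormedSpace ℝ (X n)]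

/-- the sequence of norms as an element of real ℓ² -/
noncomputable def nrm (f : lp X 2) : lp (fun _ : ℕ => ℝ) 2 :=
  ⟨fun n => ‖f n‖, by
    refine (memℓp_gen_iff (p := 2) (by simp)).2 ?_
    simpa using (lp.memℓp f).summable (by simp)⟩

@[simp] theorem nrm_apply (f : lp X 2) (n : ℕ) : nrm f n = ‖f n‖ := rfl

theorem norm_nrm (f : lp X 2) : ‖nrm f‖ = ‖f‖ :=
  le_antisymm (lp.norm_mono (by simp) fun i => by simp)
    (lp.norm_mono (by simp) fun i => by simp)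

theorem propM_lp (h : ∀ n, PropM (X n)) : PropM (lp X 2) := by
  classical
  intro x η hη
  obtain ⟨N, hN⟩ : ∃ N : ℕ, ‖x - ∑ i ∈ Finset.range N, lp.single 2 i (x i)‖ < η / 2 := by
    have h1 := (lp.hasSum_single (p := 2) (by simp) x).tendsto_sum_nat
    obtain ⟨N, hN⟩ := (Metric.tendsto_nhds.1 h1 (η / 2) (by positivity)).exists
    exact ⟨N, by rwa [dist_comm, dist_eq_norm] at hN⟩
  set s := Finset.range N with hs
  set η' := η / (2 * ((N : ℝ) + 1)) with hη'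
  have hη'pos : 0 < η' := by positivity
  choose S hS hSy using fun n => h n (x n) η' hη'pos
  refine ⟨⨅ n : s, (S n).comap (lp.evalCLM ℝ X 2 n : lp X 2 →ₗ[ℝ] X n),
    cof_iInf _ (fun n => (hS n).comap _), ?_⟩
  intro y hy
  have hyS : ∀ n ∈ s, y n ∈ S n := by
    intro n hn
    have := (Submodule.mem_iInf _).1 hy ⟨n, hn⟩
    exact this
  set e1 : lp (fun _ : ℕ => ℝ) 2 := ∑ i ∈ s, lp.single 2 i η' with he1
  set e2 : lp (fun _ : ℕ => ℝ) 2 := nrm (x - ∑ i ∈ s, lp.single 2 i (x i)) with he2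
  set m : lp (fun _ : ℕ => ℝ) 2 := (1 / 2 : ℝ) • (nrm (x + y) + nrm (x - y)) with hm
  have hm_norm : ‖m‖ ≤ (‖x + y‖ + ‖x - y‖) / 2 := by
    rw [hm, norm_smul]
    have := norm_add_le (nrm (x + y)) (nrm (x - y))
    rw [norm_nrm, norm_nrm] at this
    rw [Real.norm_eq_abs, abs_of_pos (by norm_num : (0:ℝ) < 1 / 2)]
    linarith
  have he1_norm : ‖e1‖ ≤ N * η' := by
    rw [he1]
    refine (norm_sum_le _ _).trans ?_
    have : ∀ i ∈ s, ‖(lp.single 2 i η' : lp (fun _ : ℕ => ℝ) 2)‖ ≤ η' := by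
      intro i _
      rw [lp.norm_single (by simp)]
      simp [abs_of_pos hη'pos]
    refine (Finset.sum_le_sum this).trans ?_
    simp [hs]
  have he2_norm : ‖e2‖ < η / 2 := by rw [he2, norm_nrm]; exact hN
  have hpt : ∀ n, ‖x n‖ ^ 2 + ‖y n‖ ^ 2 / 4 ≤ ‖(m + e1 + e2) n‖ ^ 2 := by
    intro n
    have hmn : m n = (‖x n + y n‖ + ‖x n - y n‖) / 2 := by
      rw [hm, lp.coeFn_smul, lp.coeFn_add, Pi.smul_apply, Pi.add_apply, nrm_apply, nrm_apply,
        lp.coeFn_add, lp.coeFn_sub, Pi.add_apply, Pi.sub_apply, smul_eq_mul]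
      ring
    have he1n : e1 n = if n ∈ s then η' else 0 := by
      simp only [he1, lp.coeFn_sum, lp.coeFn_single, Finset.sum_apply, Finset.sum_pi_single]
    have he2n : e2 n = ‖x n - if n ∈ s then x n else 0‖ := by
      simp only [he2, nrm_apply, lp.coeFn_sub, lp.coeFn_sum, lp.coeFn_single, Pi.sub_apply,
        Finset.sum_apply, Finset.sum_pi_single]
    have hval : (m + e1 + e2) n = m n + e1 n + e2 n := by simp
    have hmy : ‖y n‖ ≤ m n := by
      rw [hmn]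
      have : ‖(x n + y n) - (x n - y n)‖ ≤ ‖x n + y n‖ + ‖x n - y n‖ := norm_sub_le _ _
      have h2 : (x n + y n) - (x n - y n) = (2 : ℝ) • y n := by rw [two_smul]; abel
      rw [h2, norm_smul] at this
      simp at this
      linarith
    have hx0 := norm_nonneg (x n)
    have hy0 := norm_nonneg (y n)
    rw [hval, Real.norm_eq_abs, sq_abs]
    by_cases hn : n ∈ s
    · have h1 := hSy n (y n) (hyS n hn)
      rw [he1n, he2n, if_pos hn, if_pos hn, sub_self, norm_zero, add_zero]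
      have h2 : Real.sqrt (‖x n‖ ^ 2 + ‖y n‖ ^ 2 / 4) ≤ m n + η' := by rw [hmn]; linarith
      have h3 := Real.sq_sqrt (show 0 ≤ ‖x n‖ ^ 2 + ‖y n‖ ^ 2 / 4 by positivity)
      have h4 := Real.sqrt_nonneg (‖x n‖ ^ 2 + ‖y n‖ ^ 2 / 4)
      nlinarith
    · rw [he1n, he2n, if_neg hn, if_neg hn, sub_zero, add_zero]
      nlinarith
  have hsum : ‖x‖ ^ 2 + ‖y‖ ^ 2 / 4 ≤ ‖m + e1 + e2‖ ^ 2 :=
    hasSum_le hpt ((lp_hasSum_sq x).add ((lp_hasSum_sq y).div_const 4)) (lp_hasSum_sq _)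
  have h1 : Real.sqrt (‖x‖ ^ 2 + ‖y‖ ^ 2 / 4) ≤ ‖m + e1 + e2‖ :=
    (Real.sqrt_le_sqrt hsum).trans (by rw [Real.sqrt_sq (norm_nonneg _)])
  have h2 : ‖m + e1 + e2‖ ≤ ‖m‖ + ‖e1‖ + ‖e2‖ := norm_add₃_le
  have h3 : N * η' ≤ η / 2 := by
    rw [hη']
    have : (0:ℝ) ≤ N := Nat.cast_nonneg N
    rw [mul_div_assoc', div_le_div_iff₀ (by positivity) (by norm_num)]
    nlinarith
  linarith

theorem separable_lp [∀ n, TopologicalSpace.SeparableSpace (X n)] :
    TopologicalSpace.SeparableSpace (lp X 2) := by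
  classical
  rw [← TopologicalSpace.isSeparable_univ_iff]
  have h1 : TopologicalSpace.IsSeparable
      (⋃ n, Set.range (lp.singleContinuousLinearMap ℝ X 2 n)) :=
    TopologicalSpace.IsSeparable.iUnion fun n =>
      TopologicalSpace.isSeparable_range (lp.singleContinuousLinearMap ℝ X 2 n).continuous
  have h2 := (h1.span (R := ℝ)).closure
  refine h2.mono ?_
  intro x _
  have h3 := (lp.hasSum_single (p := 2) (by simp) x).tendsto_sum_nat
  refine mem_closure_of_tendsto h3 (Eventually.of_forall fun N => ?_)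
  exact Submodule.sum_mem _ fun i _ =>
    Submodule.subset_span (Set.mem_iUnion.2 ⟨i, ⟨x i, rfl⟩⟩)

/-- trees of height `k` living in the summand `X (ν k)` give trees in the ℓ²-sum. -/
theorem hasTrees_lp (B θ : ℝ) (hθ : 0 < θ) (ν : ℕ → ℕ) (T : ∀ k : ℕ, ℕ → Set (X (ν k)))
    (hroot : ∀ k, ∃ x ∈ T k 0, θ ≤ ‖x‖)
    (hbd : ∀ k j, j ≤ k → ∀ x ∈ T k j, ‖x‖ ≤ B)
    (hstep : ∀ k j, j < k → ∀ x ∈ T k j, ∀ S : Submodule ℝ (X (ν k)), Cof S → ∀ ε : ℝ, 0 < ε →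
      ∃ d : X (ν k), x + d ∈ T k (j + 1) ∧ θ ≤ ‖d‖ ∧ ∃ y ∈ S, ‖d - y‖ < ε) :
    HasTrees (lp X 2) := by
  classical
  have hn : ∀ (n : ℕ) (a : X n), ‖(lp.single 2 n a : lp X 2)‖ = ‖a‖ := fun n a =>
    lp.norm_single (by simp) n a
  refine ⟨B, θ, fun k j => (fun a => (lp.single 2 (ν k) a : lp X 2)) '' T k j, hθ, ?_, ?_, ?_⟩
  · intro k
    obtain ⟨x, hx, hx'⟩ := hroot k
    exact ⟨_, ⟨x, hx, rfl⟩, by rw [hn]; exact hx'⟩
  · rintro k j hj _ ⟨x, hx, rfl⟩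
    simp only [hn]
    exact hbd k j hj x hx
  · rintro k j hj _ ⟨x, hx, rfl⟩ S hS ε hε
    obtain ⟨d, hd, hdθ, y, hy, hdy⟩ := hstep k j hj x hx
      (S.comap (lp.singleContinuousLinearMap ℝ X 2 (ν k) : X (ν k) →ₗ[ℝ] lp X 2))
      (hS.comap _) ε hε
    refine ⟨lp.single 2 (ν k) d, ⟨x + d, hd, by simp⟩, by rw [hn]; exact hdθ,
      lp.single 2 (ν k) y, hy, ?_⟩
    rw [← lp.single_sub, hn]
    exact hdy

end Sum

end Crest.Agent.R125
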