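/-
Row 125 (S0166): final assembly modulo the core lemma of S0168 (package PC1).   Owner: helper17.
-/
import Mathlib
import Crest.Prelude.Def_Diamond
import Crest.Agent.S0166_Base
import Crest.Agent.S0166_Sum
import Crest.Agent.S0166_Height
import Crest.Agent.S0166_Reflexive
import Crest.Agent.S0166_Diamond

set_option autoImplicit false

namespace Crest.Agent.R125

open Crest.AnalysisR Crest.AnalysisR.TreePotential

theorem propM_Xn (h : CoreStatement .global) (n : ℕ) : PropM (Xn n) := by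
  intro x η hη
  obtain ⟨s, hs⟩ := h x (Xn_le_modelSpace n x.2) η hη
  refine ⟨⨅ τ : s, LinearMap.ker (((ev τ.1).comp (Xn n).subtypeL : Xn n →L[ℝ] ℝ) :
      Xn n →ₗ[ℝ] ℝ), cof_iInf_ker _, fun y hy => ?_⟩
  rw [mem_iInf_ker] at hy
  exact hs y (Xn_le_modelSpace n y.2) fun τ hτ => hy ⟨τ, hτ⟩

/-- the ℓ²-sum of the finite-height pieces -/
noncomputable abbrev ESum := lp (fun n : ℕ => Xn n) 2

theorem hasTrees_ESum : HasTrees ESum := by
  refine hasTrees_lp (X := fun n : ℕ => Xn n) 1 1 one_pos (fun k => k + 1)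
    (fun k j => {x | ∃ (v : List ℕ) (hv : v.length ≤ k + 1), v.length = j + 1 ∧
      x = zX (k + 1) v hv}) ?_ ?_ ?_
  · intro k
    exact ⟨zX (k + 1) [0] (by simp), ⟨[0], by simp, by simp, rfl⟩,
      one_le_norm_zX_cons (k + 1) 0 [] (by simp)⟩
  · rintro k j - x ⟨v, hv, -, rfl⟩
    exact norm_zX_le (k + 1) v hv
  · rintro k j hj x ⟨v, hv, hvj, rfl⟩ S hS ε hε
    have hv' : v.length + 1 ≤ k + 1 := by omega
    obtain ⟨a, y, hy, hay⟩ := hS.exists_close_of_cesaro
      (fun a => eX (k + 1) (a :: v) (by simpa using hv')) 1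
      (fun A => norm_sum_eX_le (k + 1) v hv' A) ε hε
    refine ⟨eX (k + 1) (a :: v) (by simpa using hv'),
      ⟨a :: v, by simpa using hv', by simp [hvj], ?_⟩, ?_, y, hy, hay⟩
    · exact (zX_cons (k + 1) a v (by simpa using hv')).symm
    · exact one_le_norm_eX_cons (k + 1) a v (by simpa using hv')

/-- the space of S0166 -/
noncomputable def sumBanach : RealBanach where
  X := ESum
  normed := inferInstance
  space := inferInstance
  complete := inferInstance

theorem s0166_of_core (h : CoreStatement .global) :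
    ∃ E : Crest.AnalysisR.RealBanach, E.IsSeparableInfiniteDim ∧ E.IsReflexive ∧
      (∀ t : ℝ, 0 < t → E.MidpointModulusGE E.norm t (Real.sqrt (1 + t ^ 2 / 12) - 1) ∧
        E.MidpointModulusGE E.norm t ((Real.sqrt (1 + t ^ 2 / 4) - 1) / 2) ∧
        E.MaxMidpointModulusGE E.norm t (Real.sqrt (1 + t ^ 2 / 4) - 1)) ∧
      (∀ N : E.X → ℝ, E.IsEquivNorm N → ¬ E.IsAUC N) ∧
      ∀ (k : ℕ) (f : Crest.AnalysisR.DiamondVertex k → E.X) (D : ℝ),
        E.HasDistortionLE k f D → 1 + (k : ℝ) / 4 ≤ D ^ 2 := by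
  have hM : PropM ESum := propM_lp (X := fun n : ℕ => Xn n) (propM_Xn h)
  have hauc := not_isAUC_of_hasTrees sumBanach hasTrees_ESum
  refine ⟨sumBanach, ⟨separable_lp (X := fun n : ℕ => Xn n),
    not_finiteDimensional_of_no_auc sumBanach hauc⟩,
    isReflexive_of_refl sumBanach (refl_lp_two (fun n : ℕ => Xn n) Xn_reflexive), ?_, hauc,
    fun k f D hD => distortion_of_propM sumBanach hM k f D hD⟩
  intro t ht
  have h0 : (1 : ℝ) ≤ Real.sqrt (1 + t ^ 2 / 4) := by
    rw [Real.one_le_sqrt]; nlinarith [sq_nonneg t]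
  refine ⟨midpointGE_of_propM sumBanach hM t _ ht ?_, midpointGE_of_propM sumBanach hM t _ ht ?_,
    maxMidpointGE_of_propM sumBanach hM t _ ht le_rfl⟩
  · have : Real.sqrt (1 + t ^ 2 / 12) ≤ Real.sqrt (1 + t ^ 2 / 4) :=
      Real.sqrt_le_sqrt (by nlinarith [sq_nonneg t])
    linarith
  · linarith

end Crest.Agent.R125
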