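/-
Row 125, package PC1: the core lemma (clipped potentials) for the tree potential models.
Owner: helper2.
-/
import Mathlib
import Crest.Prelude.Def_TreePotentials
import Crest.Agent.S0166_Base
import Crest.Agent.S0168_Tests
import Crest.Agent.S0168_Trees

set_option autoImplicit false

namespace Crest.Agent.R125

open Crest.AnalysisR Crest.AnalysisR.TreePotential
open scoped ENNReal

variable {m : PotentialModel}

/-! ### clipping -/

/-- clip to `[-1,1]` -/
noncomputable def clip (t : ℝ) : ℝ := max (-1) (min 1 t)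

theorem abs_clip_le (t : ℝ) : |clip t| ≤ 1 := by
  unfold clip
  rw [abs_le]
  constructor
  · exact le_max_left _ _
  · exact max_le (by norm_num) (min_le_left _ _)

theorem clip_of_abs_le {t : ℝ} (h : |t| ≤ 1) : clip t = t := by
  unfold clip
  rw [abs_le] at h
  rw [min_eq_right h.2, max_eq_right h.1]

theorem clip_cases (t : ℝ) : (t ≤ -1 ∧ clip t = -1) ∨ (-1 ≤ t ∧ t ≤ 1 ∧ clip t = t) ∨
    (1 ≤ t ∧ clip t = 1) := by
  unfold clip
  rcases le_total t (-1) with h | h
  · left
    refine ⟨h, ?_⟩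
    rw [min_eq_right (by linarith), max_eq_left h]
  · rcases le_total t 1 with h' | h'
    · right; left
      refine ⟨h, h', ?_⟩
      rw [min_eq_right h', max_eq_right h]
    · right; right
      refine ⟨h', ?_⟩
      rw [min_eq_left h', max_eq_right (by norm_num)]

theorem abs_clip_add_sub_le (x d : ℝ) : |clip (x + d) - clip x| ≤ |d| := by
  rcases clip_cases (x + d) with ⟨h1, e1⟩ | ⟨h1, h1', e1⟩ | ⟨h1, e1⟩ <;>
  rcases clip_cases x with ⟨h2, e2⟩ | ⟨h2, h2', e2⟩ | ⟨h2, e2⟩ <;>
  rw [e1, e2] <;> rcases abs_cases d with ⟨hd, hd'⟩ | ⟨hd, hd'⟩ <;> rw [hd, abs_le] <;>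
  constructor <;> linarith

theorem abs_clip_add_sub_sub_le (x d : ℝ) : |clip (x + d) - clip x - d| ≤ |d| := by
  rcases clip_cases (x + d) with ⟨h1, e1⟩ | ⟨h1, h1', e1⟩ | ⟨h1, e1⟩ <;>
  rcases clip_cases x with ⟨h2, e2⟩ | ⟨h2, h2', e2⟩ | ⟨h2, e2⟩ <;>
  rw [e1, e2] <;> rcases abs_cases d with ⟨hd, hd'⟩ | ⟨hd, hd'⟩ <;> rw [hd, abs_le] <;>
  constructor <;> linarith

theorem abs_clip_add_sub_right_le {a b : ℝ} (ha : |a| ≤ 1) (hb : |b| ≤ 2) :
    |clip (a + b) - b| ≤ 1 := by
  rw [abs_le] at ha hb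
  rcases clip_cases (a + b) with ⟨h1, e1⟩ | ⟨h1, h1', e1⟩ | ⟨h1, e1⟩ <;>
  rw [e1, abs_le] <;> constructor <;> linarith [ha.1, ha.2, hb.1, hb.2]

/-! ### parent-closed finite vertex sets -/

/-- `S` contains the root and is closed under taking parents -/
def PClosed (S : Finset (List ℕ)) : Prop := [] ∈ S ∧ ∀ a v, a :: v ∈ S → v ∈ S

theorem exists_pclosed (T : Finset (List ℕ)) : ∃ S : Finset (List ℕ), PClosed S ∧ T ⊆ S := by
  classical
  refine ⟨insert [] (T.biUnion fun s => s.tails.toFinset), ⟨Finset.mem_insert_self _ _, ?_⟩, ?_⟩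
  · intro a v h
    rw [Finset.mem_insert] at h
    rcases h with h | h
    · exact absurd h (by simp)
    · rw [Finset.mem_biUnion] at h
      obtain ⟨s, hs, hs'⟩ := h
      rw [List.mem_toFinset, List.mem_tails] at hs'
      refine Finset.mem_insert_of_mem (Finset.mem_biUnion.2 ⟨s, hs, ?_⟩)
      rw [List.mem_toFinset, List.mem_tails]
      exact (List.suffix_cons a v).trans hs'
  · intro s hs
    refine Finset.mem_insert_of_mem (Finset.mem_biUnion.2 ⟨s, hs, ?_⟩)
    rw [List.mem_toFinset, List.mem_tails]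

theorem pathPotential_ite_of_mem {S : Finset (List ℕ)} (hS : PClosed S) (F G : List ℕ → ℝ) :
    ∀ s ∈ S, pathPotential (fun u => if u ∈ S then F u else G u) s = pathPotential F s := by
  intro s
  induction s with
  | nil => intro h; simp [pathPotential, h]
  | cons a v ih =>
    intro h
    simp only [pathPotential, ih (hS.2 a v h), if_pos h]

theorem exists_pathPotential_ite {S : Finset (List ℕ)} (hS : PClosed S) (F : List ℕ → ℝ) :
    ∀ s, ∃ r ∈ S, pathPotential (fun u => if u ∈ S then F u else 0) s = pathPotential F r := by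
  intro s
  induction s with
  | nil => exact ⟨[], hS.1, pathPotential_ite_of_mem hS F _ [] hS.1⟩
  | cons a v ih =>
    by_cases h : a :: v ∈ S
    · exact ⟨a :: v, h, pathPotential_ite_of_mem hS F _ _ h⟩
    · obtain ⟨r, hr, e⟩ := ih
      refine ⟨r, hr, ?_⟩
      simp only [pathPotential, e, if_neg h, add_zero]

/-! ### functionals vanishing on the coordinate vectors -/

theorem clm_eq_zero_of_coord (Φ : V m →L[ℝ] ℝ) (h : ∀ v, Φ (coordVector m v) = 0) (y : V m)
    (hy : y ∈ modelSpace m) : Φ y = 0 := by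
  have hle : modelSpace m ≤ (LinearMap.ker (Φ : V m →ₗ[ℝ] ℝ)) := by
    apply Submodule.topologicalClosure_minimal _ _ Φ.isClosed_ker
    rw [Submodule.span_le]
    rintro _ ⟨v, rfl⟩
    exact h v
  exact hle hy

/-! ### the two clipped tests -/

section Clipped

variable (S : Finset (List ℕ)) (f g : PotentialTest m) (α β : ℝ)

/-- mixed coefficient family -/
noncomputable def mixK : List ℕ → ℝ := fun u => if u ∈ S then α * f.1 u else β * g.1 u

/-- the outer part `β g 1_{Sᶜ}` -/
noncomputable def outK : List ℕ → ℝ := fun u => if u ∈ S then 0 else β * g.1 u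

/-- `h₊` -/
noncomputable def hPlus : List ℕ → ℝ := ofPotential fun s => clip (pathPotential (mixK S f g α β) s)

/-- `h₋` -/
noncomputable def hMinus : List ℕ → ℝ := fun u => hPlus S f g α β u - outK S g β u

variable {S f g α β}

theorem potential_mixK_of_mem (hS : PClosed S) {s : List ℕ} (hs : s ∈ S) :
    pathPotential (mixK S f g α β) s = α * pathPotential f.1 s := by
  unfold mixK
  rw [pathPotential_ite_of_mem hS (fun u => α * f.1 u) _ s hs, pathPotential_smul]

theorem clip_potential_mixK_of_mem (hS : PClosed S) (hα0 : 0 ≤ α) (hα1 : α ≤ 1) {s : List ℕ}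
    (hs : s ∈ S) :
    clip (pathPotential (mixK S f g α β) s) = pathPotential (mixK S f g α β) s := by
  apply clip_of_abs_le
  rw [potential_mixK_of_mem hS hs, abs_mul, abs_of_nonneg hα0]
  have := PotentialTest.abs_potential_le f s
  nlinarith [abs_nonneg (pathPotential f.1 s)]

theorem hPlus_of_mem (hS : PClosed S) (hα0 : 0 ≤ α) (hα1 : α ≤ 1) {s : List ℕ} (hs : s ∈ S) :
    hPlus S f g α β s = α * f.1 s := by
  cases s with
  | nil =>
    show clip _ = _
    rw [clip_potential_mixK_of_mem hS hα0 hα1 hs]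
    simp [pathPotential, mixK, hs]
  | cons a v =>
    show clip _ - clip _ = _
    rw [clip_potential_mixK_of_mem hS hα0 hα1 hs,
      clip_potential_mixK_of_mem hS hα0 hα1 (hS.2 a v hs)]
    simp [pathPotential, mixK, hs]

theorem hMinus_of_mem (hS : PClosed S) (hα0 : 0 ≤ α) (hα1 : α ≤ 1) {s : List ℕ} (hs : s ∈ S) :
    hMinus S f g α β s = α * f.1 s := by
  unfold hMinus outK
  rw [hPlus_of_mem hS hα0 hα1 hs, if_pos hs, sub_zero]

theorem abs_hPlus_of_not_mem (hS : PClosed S) {s : List ℕ} (hs : s ∉ S) :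
    |hPlus S f g α β s| ≤ |β * g.1 s| := by
  cases s with
  | nil => exact absurd hS.1 hs
  | cons a v =>
    show |clip _ - clip _| ≤ _
    have e : pathPotential (mixK S f g α β) (a :: v)
        = pathPotential (mixK S f g α β) v + β * g.1 (a :: v) := by
      simp [pathPotential, mixK, hs]
    rw [e]
    exact abs_clip_add_sub_le _ _

theorem abs_hMinus_of_not_mem (hS : PClosed S) {s : List ℕ} (hs : s ∉ S) :
    |hMinus S f g α β s| ≤ |β * g.1 s| := by
  cases s with
  | nil => exact absurd hS.1 hs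
  | cons a v =>
    unfold hMinus outK
    rw [if_neg hs]
    show |clip _ - clip _ - _| ≤ _
    have e : pathPotential (mixK S f g α β) (a :: v)
        = pathPotential (mixK S f g α β) v + β * g.1 (a :: v) := by
      simp [pathPotential, mixK, hs]
    rw [e]
    exact abs_clip_add_sub_sub_le _ _

theorem potential_hPlus (s : List ℕ) :
    pathPotential (hPlus S f g α β) s = clip (pathPotential (mixK S f g α β) s) :=
  pathPotential_ofPotential _ s

theorem abs_potential_outK_le (hS : PClosed S) (hβ0 : 0 ≤ β) (hβ1 : β ≤ 1) (s : List ℕ) :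
    |pathPotential (outK S g β) s| ≤ 2 := by
  have e : outK S g β = fun u => β * g.1 u - β * (if u ∈ S then g.1 u else 0) := by
    funext u
    unfold outK
    split_ifs <;> ring
  rw [e, pathPotential_sub, pathPotential_smul, pathPotential_smul]
  obtain ⟨r, -, hr⟩ := exists_pathPotential_ite hS g.1 s
  rw [hr]
  have h1 := PotentialTest.abs_potential_le g s
  have h2 := PotentialTest.abs_potential_le g r
  rw [abs_le] at h1 h2 ⊢
  constructor <;> nlinarith [h1.1, h1.2, h2.1, h2.2]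

theorem potential_mixK_eq (s : List ℕ) :
    pathPotential (mixK S f g α β) s
      = α * pathPotential (fun u => if u ∈ S then f.1 u else 0) s
        + pathPotential (outK S g β) s := by
  have e : mixK S f g α β = fun u => α * (if u ∈ S then f.1 u else 0) + outK S g β u := by
    funext u
    unfold mixK outK
    split_ifs <;> ring
  rw [e, pathPotential_add, pathPotential_smul]

theorem abs_potential_hMinus_le (hS : PClosed S) (hα0 : 0 ≤ α) (hα1 : α ≤ 1) (hβ0 : 0 ≤ β)
    (hβ1 : β ≤ 1) (s : List ℕ) : |pathPotential (hMinus S f g α β) s| ≤ 1 := by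
  unfold hMinus
  rw [pathPotential_sub, potential_hPlus, potential_mixK_eq]
  apply abs_clip_add_sub_right_le _ (abs_potential_outK_le hS hβ0 hβ1 s)
  obtain ⟨r, -, hr⟩ := exists_pathPotential_ite hS f.1 s
  rw [hr, abs_mul, abs_of_nonneg hα0]
  have := PotentialTest.abs_potential_le f r
  nlinarith [abs_nonneg (pathPotential f.1 r)]

theorem sq_le_of_cases {h : List ℕ → ℝ} (h1 : ∀ s ∈ S, h s = α * f.1 s)
    (h2 : ∀ s, s ∉ S → |h s| ≤ |β * g.1 s|) (s : List ℕ) :
    h s ^ 2 ≤ α ^ 2 * f.1 s ^ 2 + β ^ 2 * g.1 s ^ 2 := by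
  by_cases hs : s ∈ S
  · rw [h1 s hs]
    nlinarith [sq_nonneg (β * g.1 s)]
  · have := sq_le_sq.2 (h2 s hs)
    nlinarith [sq_nonneg (α * f.1 s)]

theorem isTest_hPlus (hS : PClosed S) (hα0 : 0 ≤ α) (_hβ0 : 0 ≤ β) (hαβ : α ^ 2 + β ^ 2 = 1) :
    IsTest m (hPlus S f g α β) := by
  have hα1 : α ≤ 1 := by nlinarith
  refine ⟨fun s => by rw [potential_hPlus]; exact abs_clip_le _, ?_⟩
  exact extra_of_sq_le (PotentialTest.extra f) (PotentialTest.extra g) hαβ.le
    (sq_le_of_cases (fun s hs => hPlus_of_mem hS hα0 hα1 hs)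
      (fun s hs => abs_hPlus_of_not_mem hS hs))

theorem isTest_hMinus (hS : PClosed S) (hα0 : 0 ≤ α) (hβ0 : 0 ≤ β) (hαβ : α ^ 2 + β ^ 2 = 1) :
    IsTest m (hMinus S f g α β) := by
  have hα1 : α ≤ 1 := by nlinarith
  have hβ1 : β ≤ 1 := by nlinarith
  refine ⟨abs_potential_hMinus_le hS hα0 hα1 hβ0 hβ1, ?_⟩
  exact extra_of_sq_le (PotentialTest.extra f) (PotentialTest.extra g) hαβ.le
    (sq_le_of_cases (fun s hs => hMinus_of_mem hS hα0 hα1 hs)
      (fun s hs => abs_hMinus_of_not_mem hS hs))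

end Clipped

/-! ### the key inequality -/

/-- finite combination of coordinate vectors -/
noncomputable def finVec (m : PotentialModel) (c : List ℕ →₀ ℝ) : V m :=
  ∑ s ∈ c.support, c s • coordVector m s

theorem finVec_mem (c : List ℕ →₀ ℝ) : finVec m c ∈ modelSpace m :=
  (modelSpace m).sum_mem fun s _ => (modelSpace m).smul_mem _ (coordVector_mem s)

theorem finVec_apply (c : List ℕ →₀ ℝ) (h : PotentialTest m) :
    (finVec m c) h = ∑ s ∈ c.support, c s * h.1 s := by
  have := map_sum (ev h) (fun s => c s • coordVector m s) c.support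
  simp only [ev_apply, map_smul, smul_eq_mul, coordVector_apply] at this
  exact this

theorem finVec_apply_of_eq (c : List ℕ →₀ ℝ) {S : Finset (List ℕ)} (hcS : c.support ⊆ S)
    (h f : PotentialTest m) (α : ℝ) (hh : ∀ s ∈ S, h.1 s = α * f.1 s) :
    (finVec m c) h = α * (finVec m c) f := by
  rw [finVec_apply, finVec_apply, Finset.mul_sum]
  refine Finset.sum_congr rfl fun s hs => ?_
  rw [hh s (hcS hs)]
  ring

theorem key_ineq (c : List ℕ →₀ ℝ) {S : Finset (List ℕ)} (hS : PClosed S) (hcS : c.support ⊆ S)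
    (y : V m) (hy : y ∈ modelSpace m) (hy0 : ∀ u ∈ S, y (indTest m u) = 0)
    (f g : PotentialTest m) {α β : ℝ} (hα0 : 0 ≤ α) (hβ0 : 0 ≤ β) (hαβ : α ^ 2 + β ^ 2 = 1) :
    2 * α * (finVec m c) f + β * y g ≤ ‖finVec m c + y‖ + ‖finVec m c - y‖ := by
  classical
  have hα1 : α ≤ 1 := by nlinarith
  set hp : PotentialTest m := mkTest _ (isTest_hPlus (f := f) (g := g) hS hα0 hβ0 hαβ) with hhp
  set hm : PotentialTest m := mkTest _ (isTest_hMinus (f := f) (g := g) hS hα0 hβ0 hαβ) with hhm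
  have h1 := apply_le_norm (finVec m c + y) hp
  have h2 := apply_le_norm (finVec m c - y) hm
  rw [lp.coeFn_add, Pi.add_apply] at h1
  rw [lp.coeFn_sub, Pi.sub_apply] at h2
  have e1 : (finVec m c) hp = α * (finVec m c) f :=
    finVec_apply_of_eq c hcS hp f α fun s hs => hPlus_of_mem hS hα0 hα1 hs
  have e2 : (finVec m c) hm = α * (finVec m c) f :=
    finVec_apply_of_eq c hcS hm f α fun s hs => hMinus_of_mem hS hα0 hα1 hs
  have e3 : y hp - y hm = β * y g := by
    set Φ : V m →L[ℝ] ℝ := ev hp - ev hm - β • ev g + ∑ u ∈ S, (β * g.1 u) • ev (indTest m u)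
      with hΦ
    have hΦz : ∀ z : V m, Φ z = z hp - z hm - β * z g + ∑ u ∈ S, (β * g.1 u) * z (indTest m u) := by
      intro z
      simp [hΦ]
    have h0 := clm_eq_zero_of_coord Φ (fun v => by
      rw [hΦz]
      simp only [coordVector_apply]
      have e4 : ∑ u ∈ S, β * g.1 u * (indTest m u).1 v = if v ∈ S then β * g.1 v else 0 := by
        have : ∀ u ∈ S, β * g.1 u * (indTest m u).1 v = if v = u then β * g.1 v else 0 := by
          intro u _
          rw [mul_assoc, test_mul_indTest]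
          split_ifs with h
          · rw [h]
          · simp
        rw [Finset.sum_congr rfl this, Finset.sum_ite_eq]
      rw [e4]
      show hPlus S f g α β v - (hPlus S f g α β v - outK S g β v) - β * g.1 v + _ = 0
      unfold outK
      split_ifs <;> ring) y hy
    rw [hΦz] at h0
    have h00 : ∑ u ∈ S, (β * g.1 u) * y (indTest m u) = 0 :=
      Finset.sum_eq_zero fun u hu => by rw [hy0 u hu, mul_zero]
    rw [h00] at h0
    linarith
  rw [e1] at h1
  rw [e2] at h2
  linarith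

theorem exists_alpha_beta {a b : ℝ} (ha : 0 ≤ a) (hb : 0 ≤ b) :
    ∃ α β : ℝ, 0 ≤ α ∧ 0 ≤ β ∧ α ^ 2 + β ^ 2 = 1 ∧ α * a + β * b = Real.sqrt (a ^ 2 + b ^ 2) := by
  set D := Real.sqrt (a ^ 2 + b ^ 2) with hD
  have hD2 : D ^ 2 = a ^ 2 + b ^ 2 := Real.sq_sqrt (by positivity)
  have hD0 : 0 ≤ D := Real.sqrt_nonneg _
  rcases hD0.eq_or_lt with h | h
  · refine ⟨1, 0, zero_le_one, le_rfl, by norm_num, ?_⟩
    have : a ^ 2 + b ^ 2 = 0 := by rw [← hD2, ← h]; norm_num
    have ha0 : a = 0 := by nlinarith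
    rw [← h, ha0]; ring
  · refine ⟨a / D, b / D, by positivity, by positivity, ?_, ?_⟩
    · field_simp
      linarith
    · field_simp
      nlinarith

/-- **Core lemma.** -/
theorem core (m : PotentialModel) : CoreStatement m := by
  classical
  intro x hx η hη
  obtain ⟨c, hc⟩ := exists_finsupp_close x hx (η / 4) (by positivity)
  obtain ⟨S, hS, hcS⟩ := exists_pclosed c.support
  refine ⟨S.image (indTest m), fun y hy hy0 => ?_⟩
  have hy0' : ∀ u ∈ S, y (indTest m u) = 0 := fun u hu => hy0 _ (Finset.mem_image_of_mem _ hu)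
  set x' := finVec m c with hx'
  have hδ : ‖x - x'‖ < η / 4 := hc
  obtain ⟨f, hf⟩ := exists_test_near_norm x' (finVec_mem c) (η / 8) (by positivity)
  obtain ⟨g, hg⟩ := exists_test_near_norm y hy (η / 8) (by positivity)
  obtain ⟨α, β, hα0, hβ0, hαβ, hD⟩ := exists_alpha_beta (norm_nonneg x')
    (by positivity : (0 : ℝ) ≤ ‖y‖ / 2)
  have hα1 : α ≤ 1 := by nlinarith
  have hβ1 : β ≤ 1 := by nlinarith
  have hkey := key_ineq c hS hcS y hy hy0' f g hα0 hβ0 hαβ
  set D := Real.sqrt (‖x'‖ ^ 2 + (‖y‖ / 2) ^ 2) with hDdef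
  have hD2 : D ^ 2 = ‖x'‖ ^ 2 + (‖y‖ / 2) ^ 2 := Real.sq_sqrt (by positivity)
  have hD0 : 0 ≤ D := Real.sqrt_nonneg _
  have haD : ‖x'‖ ≤ D := by
    apply Real.le_sqrt_of_sq_le
    nlinarith [sq_nonneg (‖y‖ / 2)]
  set δ := ‖x - x'‖ with hδdef
  have hδ0 : 0 ≤ δ := norm_nonneg _
  have hxn : ‖x‖ ≤ ‖x'‖ + δ := by
    have : x = x' + (x - x') := by abel
    calc ‖x‖ = ‖x' + (x - x')‖ := by rw [← this]
      _ ≤ _ := norm_add_le _ _
  have h1 : Real.sqrt (‖x‖ ^ 2 + ‖y‖ ^ 2 / 4) ≤ D + δ := by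
    rw [Real.sqrt_le_iff]
    refine ⟨by positivity, ?_⟩
    have : ‖x‖ ^ 2 ≤ (‖x'‖ + δ) ^ 2 := by
      apply pow_le_pow_left₀ (norm_nonneg _) hxn
    nlinarith [mul_le_mul_of_nonneg_right haD hδ0]
  have h2 : ‖x' + y‖ ≤ ‖x + y‖ + δ := by
    have : x' + y = (x + y) - (x - x') := by abel
    rw [this]
    exact norm_sub_le _ _
  have h3 : ‖x' - y‖ ≤ ‖x - y‖ + δ := by
    have : x' - y = (x - y) - (x - x') := by abel
    rw [this]
    exact norm_sub_le _ _
  have h4 : 2 * D - 3 * η / 8 ≤ 2 * α * x' f + β * y g := by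
    have t1 : α * (‖x'‖ - η / 8) ≤ α * x' f := mul_le_mul_of_nonneg_left hf.le hα0
    have t2 : β * (‖y‖ - η / 8) ≤ β * y g := mul_le_mul_of_nonneg_left hg.le hβ0
    nlinarith
  linarith

end Crest.Agent.R125
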