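/-
Row 125 (S0166): the `ℓ²`-sum of the height pieces `Xn n` has bounded trees of every height.
Namespace `Crest.Agent.R125`.  Owner: helper21.
-/
import Mathlib
import Crest.Agent.S0166_Height

set_option autoImplicit false

namespace Crest.Agent.R125

open Crest.AnalysisR Crest.AnalysisR.TreePotential

/-- the `ℓ²`-sum of the spaces `Xn n` -/
noncomputable abbrev ESum := lp (fun n : ℕ => Xn n) 2

theorem hasTrees_sum : HasTrees ESum := by
  classical
  refine ⟨1, 1, fun k j => {x | ∃ (v : List ℕ) (hv : v.length ≤ k + 1), v.length = j + 1 ∧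
    x = lp.single 2 (k + 1) (zX (k + 1) v hv)}, one_pos, ?_, ?_, ?_⟩
  · intro k
    refine ⟨lp.single 2 (k + 1) (zX (k + 1) [0] (by simp)), ⟨[0], by simp, by simp, rfl⟩, ?_⟩
    rw [lp.norm_single (by norm_num)]
    exact one_le_norm_zX_cons _ _ _ _
  · rintro k j - x ⟨v, hv, -, rfl⟩
    rw [lp.norm_single (by norm_num)]
    exact norm_zX_le _ _ _
  · rintro k j hjk x ⟨v, hv, hvj, rfl⟩ S hS ε hε
    have hv' : v.length + 1 ≤ k + 1 := by omega
    have hav : ∀ a : ℕ, (a :: v).length ≤ k + 1 := fun a => by simpa using hv'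
    obtain ⟨a, y, hy, hay⟩ := hS.exists_close_of_cesaro
      (fun a => (lp.single 2 (k + 1) (eX (k + 1) (a :: v) (hav a)) : ESum)) 1 (fun A => by
        have h1 : ∑ a ∈ A, (lp.single 2 (k + 1) (eX (k + 1) (a :: v) (hav a)) : ESum)
            = lp.single 2 (k + 1) (∑ a ∈ A, eX (k + 1) (a :: v) (hav a)) :=
          (map_sum (lp.singleAddMonoidHom (E := fun n : ℕ => Xn n) 2 (k + 1)) _ A).symm
        rw [h1, lp.norm_single (by norm_num)]
        exact norm_sum_eX_le (k + 1) v hv' A) ε hε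
    refine ⟨lp.single 2 (k + 1) (eX (k + 1) (a :: v) (hav a)),
      ⟨a :: v, hav a, by simp [hvj], ?_⟩, ?_, y, hy, hay⟩
    · rw [← lp.single_add, zX_cons]
    · rw [lp.norm_single (by norm_num)]
      exact one_le_norm_eX_cons _ _ _ _

end Crest.Agent.R125
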