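/-
Row 125, package PD: lower bounds of S0167 (owner helper29).
Namespace `Crest.Agent.R125.Lower`.
-/
import Mathlib
import Crest.Prelude.Def_DaugavetL1
import Crest.Agent.S0166_Base

set_option autoImplicit false
set_option linter.style.haveILetI false

namespace Crest.Agent.R125.Lower

open MeasureTheory Crest.AnalysisR Crest.AnalysisR.L1Subspace

/-! ### the sign function -/

/-- sign function -/
noncomputable def sg (r : ℝ) : ℝ := if 0 < r then 1 else if r < 0 then -1 else 0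

lemma measurable_sg : Measurable sg := by
  unfold sg
  exact Measurable.ite measurableSet_Ioi measurable_const
    (Measurable.ite measurableSet_Iio measurable_const measurable_const)

lemma abs_sg_le (r : ℝ) : |sg r| ≤ 1 := by
  unfold sg; split_ifs <;> simp

lemma sg_mul_ge_neg (g y : ℝ) : -|y| ≤ sg g * y := by
  have h1 := abs_sg_le g
  have h2 : |sg g * y| ≤ |y| := by
    rw [abs_mul]
    nlinarith [abs_nonneg y]
  exact (abs_le.1 h2).1

lemma sg_mul_ge (g y a : ℝ) (h : |y - g| ≤ a) : |y| - 2 * a ≤ sg g * y := by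
  rw [abs_le] at h
  unfold sg
  split_ifs with h1 h2
  · rcases abs_cases y with ⟨e, _⟩ | ⟨e, _⟩ <;> rw [e] <;> linarith [h.1, h.2]
  · rcases abs_cases y with ⟨e, _⟩ | ⟨e, _⟩ <;> rw [e] <;> linarith [h.1, h.2]
  · have hg : g = 0 := le_antisymm (not_lt.1 h1) (not_lt.1 h2)
    subst hg
    rcases abs_cases y with ⟨e, _⟩ | ⟨e, _⟩ <;> rw [e] <;> linarith [h.1, h.2]

variable {Ω : Type} [MeasurableSpace Ω] {P : Measure Ω}

lemma integrable_sg_mul (g u : Lp ℝ 1 P) : Integrable (fun ω => sg (g ω) * u ω) P := by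
  refine Integrable.bdd_mul (c := 1) (L1.integrable_coeFn u) ?_ ?_
  · exact (measurable_sg.comp (Lp.stronglyMeasurable g).measurable).aestronglyMeasurable
  · exact Filter.Eventually.of_forall fun ω => by simpa using abs_sg_le (g ω)

/-- the functional `u ↦ ∫ sign g · u` on `L¹`. -/
noncomputable def signFun (g : Lp ℝ 1 P) : Lp ℝ 1 P →L[ℝ] ℝ :=
  LinearMap.mkContinuous
    { toFun := fun u => ∫ ω, sg (g ω) * u ω ∂P
      map_add' := by
        intro u v
        rw [← integral_add (integrable_sg_mul g u) (integrable_sg_mul g v)]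
        refine integral_congr_ae ?_
        filter_upwards [Lp.coeFn_add u v] with ω hω
        rw [hω, Pi.add_apply, mul_add]
      map_smul' := by
        intro c u
        rw [RingHom.id_apply, smul_eq_mul, ← integral_const_mul]
        refine integral_congr_ae ?_
        filter_upwards [Lp.coeFn_smul c u] with ω hω
        rw [hω, Pi.smul_apply, smul_eq_mul]; ring } 1
    (by
      intro u
      simp only [LinearMap.coe_mk, AddHom.coe_mk, one_mul]
      rw [L1.norm_eq_integral_norm]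
      refine norm_integral_le_of_norm_le (L1.integrable_coeFn u).norm ?_
      refine Filter.Eventually.of_forall fun ω => ?_
      rw [norm_mul]
      have := abs_sg_le (g ω)
      rw [← Real.norm_eq_abs] at this
      nlinarith [norm_nonneg (u ω)])

lemma signFun_apply (g u : Lp ℝ 1 P) : signFun g u = ∫ ω, sg (g ω) * u ω ∂P := rfl


lemma measurableSet_gt_abs (y : Lp ℝ 1 P) (M : ℝ) : MeasurableSet {ω | M < |y ω|} :=
  measurableSet_lt measurable_const (Lp.stronglyMeasurable y).measurable.abs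

lemma measurableSet_gt_abs_sub (y g : Lp ℝ 1 P) (a : ℝ) :
    MeasurableSet {z | a < |(y : Ω → ℝ) z - (g : Ω → ℝ) z|} :=
  measurableSet_lt measurable_const
    ((Lp.stronglyMeasurable y).measurable.sub (Lp.stronglyMeasurable g).measurable).abs

lemma integrable_abs (y : Lp ℝ 1 P) : Integrable (fun ω => |y ω|) P :=
  (L1.integrable_coeFn y).abs

lemma norm_eq_integral_abs (y : Lp ℝ 1 P) : ‖y‖ = ∫ ω, |y ω| ∂P := by
  rw [L1.norm_eq_integral_norm]
  rfl

lemma key1 [IsProbabilityMeasure P] (y g : Lp ℝ 1 P) (a M : ℝ) (ha : 0 < a) (hM : 0 ≤ M)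
    (hB : P {z | a < |(y : Ω → ℝ) z - (g : Ω → ℝ) z|} < ENNReal.ofReal a)
    (h0 : signFun g y = 0) :
    ‖y‖ - 2 * a - 2 * M * a
      ≤ 2 * ∫ ω, {ω | M < |y ω|}.indicator (fun ω => |y ω|) ω ∂P := by
  set A : Set Ω := {ω | M < |y ω|} with hA_def
  set B : Set Ω := {z | a < |(y : Ω → ℝ) z - (g : Ω → ℝ) z|} with hB_def
  have hAm : MeasurableSet A := measurableSet_gt_abs y M
  have hBm : MeasurableSet B := measurableSet_gt_abs_sub y g a
  have i1 := integrable_abs y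
  have i2 : Integrable (A.indicator (fun ω => |y ω|)) P := i1.indicator hAm
  have i3 : Integrable (B.indicator (fun _ => (1 : ℝ))) P :=
    (integrable_const (1 : ℝ)).indicator hBm
  have hpt : ∀ ω, |y ω| - 2 * A.indicator (fun ω => |y ω|) ω - 2 * a
      - 2 * M * B.indicator (fun _ => (1 : ℝ)) ω ≤ sg (g ω) * y ω := by
    intro ω
    by_cases hA : ω ∈ A
    · rw [Set.indicator_of_mem hA]
      have h1 := sg_mul_ge_neg (g ω) (y ω)
      have h2 : 0 ≤ B.indicator (fun _ => (1 : ℝ)) ω := Set.indicator_nonneg (fun _ _ => zero_le_one) _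
      nlinarith [mul_nonneg hM h2]
    · rw [Set.indicator_of_notMem hA]
      have hA' : |y ω| ≤ M := not_lt.1 hA
      by_cases hBω : ω ∈ B
      · rw [Set.indicator_of_mem hBω]
        have h1 := sg_mul_ge_neg (g ω) (y ω)
        linarith
      · rw [Set.indicator_of_notMem hBω]
        have h1 := sg_mul_ge (g ω) (y ω) a (not_lt.1 hBω)
        linarith
  have k1 : Integrable (fun ω => |y ω| - 2 * A.indicator (fun ω => |y ω|) ω) P :=
    i1.sub (i2.const_mul 2)
  have k2 : Integrable (fun ω => |y ω| - 2 * A.indicator (fun ω => |y ω|) ω - 2 * a) P :=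
    k1.sub (integrable_const (2 * a))
  have k3 : Integrable (fun ω => |y ω| - 2 * A.indicator (fun ω => |y ω|) ω - 2 * a
      - 2 * M * B.indicator (fun _ => (1 : ℝ)) ω) P := k2.sub (i3.const_mul (2 * M))
  have hint := integral_mono (μ := P) k3 (integrable_sg_mul g y) hpt
  rw [← signFun_apply, h0, integral_sub k2 (i3.const_mul (2 * M)),
    integral_sub k1 (integrable_const (2 * a)), integral_sub i1 (i2.const_mul 2),
    integral_const_mul, integral_const_mul, integral_const_mul,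
    integral_indicator_const (1 : ℝ) hBm, ← norm_eq_integral_abs] at hint
  simp only [integral_const, probReal_univ, smul_eq_mul, one_mul, mul_one] at hint
  have hBr : P.real B ≤ a := by
    rw [measureReal_def]
    exact ENNReal.toReal_le_of_le_ofReal ha.le hB.le
  nlinarith [mul_le_mul_of_nonneg_left hBr hM]

lemma abs_add_abs_sub_ge_left (a b : ℝ) : 2 * |a| ≤ |a + b| + |a - b| := by
  have h : |(a + b) + (a - b)| ≤ |a + b| + |a - b| := abs_add_le _ _
  have e : (a + b) + (a - b) = 2 * a := by ring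
  rw [e, abs_mul] at h
  simpa using h

lemma abs_add_abs_sub_ge_right (a b : ℝ) : 2 * |b| ≤ |a + b| + |a - b| := by
  have h : |(a + b) - (a - b)| ≤ |a + b| + |a - b| := abs_sub _ _
  have e : (a + b) - (a - b) = 2 * b := by ring
  rw [e, abs_mul] at h
  simpa using h

lemma key2 (x y : Lp ℝ 1 P) (t : ℝ) (ht : 0 ≤ t) (A : Set Ω) (hA : MeasurableSet A) :
    2 * ‖x‖ - 2 * (∫ ω, A.indicator (fun ω => |x ω|) ω ∂P)
        + 2 * t * ∫ ω, A.indicator (fun ω => |y ω|) ω ∂P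
      ≤ ‖x + t • y‖ + ‖x - t • y‖ := by
  have i1 := integrable_abs x
  have i2 : Integrable (A.indicator (fun ω => |x ω|)) P := i1.indicator hA
  have i3 : Integrable (A.indicator (fun ω => |y ω|)) P := (integrable_abs y).indicator hA
  have j1 := integrable_abs (x + t • y)
  have j2 := integrable_abs (x - t • y)
  have k1 : Integrable (fun ω => 2 * |x ω| - 2 * A.indicator (fun ω => |x ω|) ω) P :=
    (i1.const_mul 2).sub (i2.const_mul 2)
  have k2 : Integrable (fun ω => 2 * |x ω| - 2 * A.indicator (fun ω => |x ω|) ω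
      + 2 * t * A.indicator (fun ω => |y ω|) ω) P := k1.add (i3.const_mul (2 * t))
  have k3 : Integrable (fun ω => |(x + t • y) ω| + |(x - t • y) ω|) P := j1.add j2
  rw [norm_eq_integral_abs (x + t • y), norm_eq_integral_abs (x - t • y), norm_eq_integral_abs x,
    ← integral_add j1 j2, ← integral_const_mul, ← integral_const_mul, ← integral_const_mul,
    ← integral_sub (i1.const_mul 2) (i2.const_mul 2),
    ← integral_add k1 (i3.const_mul (2 * t))]
  refine integral_mono_ae k2 k3 ?_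
  filter_upwards [Lp.coeFn_add x (t • y), Lp.coeFn_sub x (t • y), Lp.coeFn_smul t y]
    with ω h1 h2 h3
  simp only [Pi.add_apply, Pi.sub_apply, Pi.smul_apply, smul_eq_mul] at h1 h2 h3 ⊢
  rw [h1, h2, h3]
  by_cases hω : ω ∈ A
  · rw [Set.indicator_of_mem hω, Set.indicator_of_mem hω]
    have := abs_add_abs_sub_ge_right (x ω) (t * y ω)
    rw [abs_mul, abs_of_nonneg ht] at this
    linarith
  · rw [Set.indicator_of_notMem hω, Set.indicator_of_notMem hω]
    have := abs_add_abs_sub_ge_left (x ω) (t * y ω)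
    linarith


lemma exists_small_indicator (x : Lp ℝ 1 P) (δ : ℝ) (hδ : 0 < δ) :
    ∃ κ : ℝ, 0 < κ ∧ ∀ s : Set Ω, MeasurableSet s → P s ≤ ENNReal.ofReal κ →
      ∫ ω, s.indicator (fun ω => |x ω|) ω ∂P ≤ δ := by
  obtain ⟨κ, hκ, h⟩ := (Lp.memLp x).eLpNorm_indicator_le le_rfl ENNReal.one_ne_top hδ
  refine ⟨κ, hκ, fun s hs hPs => ?_⟩
  have h1 := h s hs hPs
  rw [eLpNorm_one_eq_lintegral_enorm] at h1
  have e : ∫ ω, s.indicator (fun ω => |x ω|) ω ∂P = ∫ ω, ‖s.indicator (x : Ω → ℝ) ω‖ ∂P := by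
    refine integral_congr_ae (Filter.Eventually.of_forall fun ω => ?_)
    by_cases hω : ω ∈ s
    · simp [hω]
    · simp [hω]
  rw [e, integral_norm_eq_lintegral_enorm
    ((Lp.aestronglyMeasurable x).indicator hs)]
  exact ENNReal.toReal_le_of_le_ofReal hδ.le h1

lemma markov (y : Lp ℝ 1 P) (M : ℝ) (hM : 0 < M) :
    P {ω | M < |y ω|} ≤ ENNReal.ofReal (‖y‖ / M) := by
  have h1 := meas_ge_le_lintegral_div (μ := P) (f := fun ω => ‖y ω‖ₑ)
    (Lp.aestronglyMeasurable y).enorm (ε := ENNReal.ofReal M)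
    (by simpa using hM) ENNReal.ofReal_ne_top
  have h2 : {ω | M < |y ω|} ⊆ {ω | ENNReal.ofReal M ≤ ‖y ω‖ₑ} := by
    intro ω hω
    have hω' : M < |y ω| := hω
    show ENNReal.ofReal M ≤ ‖y ω‖ₑ
    rw [← ofReal_norm, Real.norm_eq_abs]
    exact ENNReal.ofReal_le_ofReal hω'.le
  refine (measure_mono h2).trans (h1.trans ?_)
  rw [ENNReal.ofReal_div_of_pos hM, L1.norm_eq_integral_norm,
    ofReal_integral_norm_eq_lintegral_enorm (L1.integrable_coeFn y)]

lemma exists_of_measureDist_lt [IsProbabilityMeasure P] (f g : Lp ℝ 1 P) (ε : ℝ)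
    (h : measureDist P f g < ε) :
    ∃ a : ℝ, 0 < a ∧ a < ε ∧
      P {z | a < |(f : Ω → ℝ) z - (g : Ω → ℝ) z|} < ENNReal.ofReal a := by
  have hne : {a : ℝ | 0 < a ∧ P {z | a < abs ((f : Ω → ℝ) z - (g : Ω → ℝ) z)}
      < ENNReal.ofReal a}.Nonempty := by
    refine ⟨2, by norm_num, ?_⟩
    refine lt_of_le_of_lt prob_le_one ?_
    rw [show (1 : ENNReal) = ENNReal.ofReal 1 by simp]
    exact (ENNReal.ofReal_lt_ofReal_iff (by norm_num)).2 (by norm_num)
  obtain ⟨a, ⟨ha, hPa⟩, hlt⟩ := exists_lt_of_csInf_lt hne h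
  exact ⟨a, ha, hlt, hPa⟩

/-- The core estimate: for unit `x ∈ E` and `η > 0` there is a closed finite-codimensional subspace
on whose unit vectors the average is large. -/
theorem midpoint_core [IsProbabilityMeasure P] (E : Submodule ℝ (Lp ℝ 1 P))
    (htb : UnitBallTotallyBoundedInMeasure P E) (t : ℝ) (ht : 0 < t) (x : E) (hx : ‖x‖ = 1)
    (η : ℝ) (hη : 0 < η) :
    ∃ S : Submodule ℝ E, Cof S ∧ ∀ y ∈ S, ‖y‖ = 1 →
      max (t / 2) (t - 1) - η ≤ (‖x + t • y‖ + ‖x - t • y‖) / 2 - 1 := by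
  obtain ⟨κ, hκ, hsmall⟩ := exists_small_indicator (x : Lp ℝ 1 P) (η / 2) (by positivity)
  set M : ℝ := 1 / κ with hM_def
  have hM : 0 < M := by positivity
  set ε : ℝ := η / (2 * t * (1 + M)) with hε_def
  have hε : 0 < ε := by positivity
  obtain ⟨s, hs, hnet⟩ := htb ε hε
  refine ⟨⨅ g : s, LinearMap.ker ((signFun (g : Lp ℝ 1 P)).comp E.subtypeL : E →ₗ[ℝ] ℝ),
    cof_iInf_ker (fun g : s => (signFun (g : Lp ℝ 1 P)).comp E.subtypeL), fun y hy hy1 => ?_⟩
  rw [mem_iInf_ker] at hy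
  have hy1' : ‖(y : Lp ℝ 1 P)‖ = 1 := hy1
  have hx' : ‖(x : Lp ℝ 1 P)‖ = 1 := hx
  obtain ⟨g, hgs, hdist⟩ := hnet (y : Lp ℝ 1 P) y.2 hy1'.le
  obtain ⟨a, ha, haε, hPa⟩ := exists_of_measureDist_lt _ _ _ hdist
  have h0 : signFun g (y : Lp ℝ 1 P) = 0 := hy ⟨g, hgs⟩
  have hk1 := key1 (y : Lp ℝ 1 P) g a M ha hM.le hPa h0
  have hAm := measurableSet_gt_abs (y : Lp ℝ 1 P) M
  have hk2 := key2 (x : Lp ℝ 1 P) (y : Lp ℝ 1 P) t ht.le _ hAm
  have hPA : P {ω | M < |(y : Lp ℝ 1 P) ω|} ≤ ENNReal.ofReal κ := by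
    refine (markov (y : Lp ℝ 1 P) M hM).trans (le_of_eq ?_)
    rw [hy1', hM_def]
    simp
  have hk3 := hsmall _ hAm hPA
  have e1 : ‖x + t • y‖ = ‖(x : Lp ℝ 1 P) + t • (y : Lp ℝ 1 P)‖ := rfl
  have e2 : ‖x - t • y‖ = ‖(x : Lp ℝ 1 P) - t • (y : Lp ℝ 1 P)‖ := rfl
  rw [e1, e2]
  rw [hx'] at hk2
  rw [hy1'] at hk1
  set I := ∫ ω, {ω | M < |(y : Lp ℝ 1 P) ω|}.indicator (fun ω => |(y : Lp ℝ 1 P) ω|) ω ∂P
  set J := ∫ ω, {ω | M < |(y : Lp ℝ 1 P) ω|}.indicator (fun ω => |(x : Lp ℝ 1 P) ω|) ω ∂P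
  -- the bound `t - 1`
  have hb : 2 * t ≤ ‖(x : Lp ℝ 1 P) + t • (y : Lp ℝ 1 P)‖ + ‖(x : Lp ℝ 1 P) - t • (y : Lp ℝ 1 P)‖ := by
    have h1 : ‖((x : Lp ℝ 1 P) + t • (y : Lp ℝ 1 P)) - ((x : Lp ℝ 1 P) - t • (y : Lp ℝ 1 P))‖
        ≤ ‖(x : Lp ℝ 1 P) + t • (y : Lp ℝ 1 P)‖ + ‖(x : Lp ℝ 1 P) - t • (y : Lp ℝ 1 P)‖ :=
      norm_sub_le _ _
    have e : ((x : Lp ℝ 1 P) + t • (y : Lp ℝ 1 P)) - ((x : Lp ℝ 1 P) - t • (y : Lp ℝ 1 P))
        = (2 * t) • (y : Lp ℝ 1 P) := by module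
    rw [e, norm_smul, hy1', Real.norm_eq_abs, abs_of_pos (by positivity)] at h1
    linarith
  have hεt : t * (ε * (1 + M)) = η / 2 := by
    rw [hε_def]; field_simp
  have hI : 1 / 2 - ε * (1 + M) ≤ I := by
    have : a * (1 + M) ≤ ε * (1 + M) := mul_le_mul_of_nonneg_right haε.le (by positivity)
    nlinarith
  have htI : t / 2 - η / 2 ≤ t * I := by
    have := mul_le_mul_of_nonneg_left hI ht.le
    nlinarith
  rcases max_cases (t / 2) (t - 1) with ⟨e, _⟩ | ⟨e, _⟩ <;> rw [e] <;> nlinarith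


/-- `MidpointModulusGE` part of S0167. -/
theorem midpointGE [IsProbabilityMeasure P] (E : Submodule ℝ (Lp ℝ 1 P))
    (hcl : IsClosed (E : Set (Lp ℝ 1 P)))
    (htb : UnitBallTotallyBoundedInMeasure P E) (t : ℝ) (ht : 0 < t) :
    (toRealBanach P E hcl).MidpointModulusGE (toRealBanach P E hcl).norm t
      (max (t / 2) (t - 1)) := by
  intro x hx η hη
  obtain ⟨S, hS, hSy⟩ := midpoint_core E htb t ht x hx η hη
  exact ⟨(S : Set E), ⟨S, rfl, hS.1, hS.2⟩, fun y hy hy1 => hSy y hy hy1⟩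

/-- one-sided lower bound in an arbitrary normed space. -/
theorem oneSided_core {X : Type*} [NormedAddCommGroup X] [NormedSpace ℝ X] (t : ℝ) (ht : 0 < t)
    (x : X) (hx : ‖x‖ = 1) :
    ∃ S : Submodule ℝ X, Cof S ∧ ∀ y ∈ S, ‖y‖ = 1 → max 0 (t - 2) ≤ ‖x + t • y‖ - 1 := by
  obtain ⟨φ, hφ, hφx⟩ := exists_dual_vector ℝ x (by rw [hx]; norm_num)
  refine ⟨LinearMap.ker (φ : X →ₗ[ℝ] ℝ), cof_ker φ, fun y hy hy1 => ?_⟩
  have hy0 : φ y = 0 := hy
  have h1 : 1 ≤ ‖x + t • y‖ := by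
    have h2 := φ.le_opNorm (x + t • y)
    rw [hφ, one_mul, map_add, map_smul, hy0, hφx, hx] at h2
    simpa using h2
  have h3 : t - 1 ≤ ‖x + t • y‖ := by
    have h4 : ‖t • y‖ ≤ ‖x + t • y‖ + ‖x‖ := by
      have := norm_sub_le (x + t • y) x
      simpa using this
    rw [norm_smul, hy1, hx, Real.norm_eq_abs, abs_of_pos ht] at h4
    linarith
  rcases max_cases 0 (t - 2) with ⟨e, _⟩ | ⟨e, _⟩ <;> rw [e] <;> linarith

/-- `OneSidedModulusGE` for the given norm of any `RealBanach`. -/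
theorem oneSidedGE (E : RealBanach) (t : ℝ) (ht : 0 < t) :
    E.OneSidedModulusGE E.norm t (max 0 (t - 2)) := by
  letI := E.normed
  letI := E.space
  intro x hx η hη
  obtain ⟨S, hS, hSy⟩ := oneSided_core t ht x hx
  refine ⟨S, ⟨S, rfl, hS.1, hS.2⟩, fun y hy hy1 => ?_⟩
  have := hSy y hy hy1
  show max 0 (t - 2) - η ≤ ‖x + t • y‖ - 1
  linarith

end Crest.Agent.R125.Lower

namespace Crest.Agent.R125

/-- alias in the shape requested by helper16 for the assembly of `S0167.lean`. -/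
theorem midpointGE_L1 (Ω : Type) [MeasurableSpace Ω] (P : MeasureTheory.Measure Ω)
    [MeasureTheory.IsProbabilityMeasure P] (E : Submodule ℝ (MeasureTheory.Lp ℝ 1 P))
    (hcl : IsClosed (E : Set (MeasureTheory.Lp ℝ 1 P)))
    (htb : Crest.AnalysisR.L1Subspace.UnitBallTotallyBoundedInMeasure P E) (t : ℝ) (ht : 0 < t) :
    (Crest.AnalysisR.L1Subspace.toRealBanach P E hcl).MidpointModulusGE
      (Crest.AnalysisR.L1Subspace.toRealBanach P E hcl).norm t (max (t / 2) (t - 1)) :=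
  Lower.midpointGE E hcl htb t ht

end Crest.Agent.R125
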