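/-
Row 125, package PE (helper16): upper bounds for S0167 in an abstract normed space with the
(rank-one) Daugavet property.  Namespace `Crest.Agent.R125`.
-/
import Mathlib
import Crest.Prelude.Def_AsymptoticConvexity
import Crest.Prelude.Def_DaugavetL1
import Crest.Agent.S0166_Base

set_option autoImplicit false

namespace Crest.Agent.R125

open Crest.AnalysisR

section Daugavet

variable {V : Type*} [NormedAddCommGroup V] [NormedSpace ℝ V]

/-- Slice form of the rank-one Daugavet property. -/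
theorem daugavet_slice (hD : L1Subspace.HasDaugavetProperty V) (u : V) (hu : ‖u‖ = 1)
    (ψ : V →L[ℝ] ℝ) (ε : ℝ) (hε : 0 < ε) :
    ∃ z : V, ‖z‖ ≤ 1 ∧ ‖ψ‖ - ε ≤ ψ z ∧ 2 - ε ≤ ‖u + z‖ := by
  by_cases hψ : ψ = 0
  · refine ⟨u, hu.le, by simp [hψ, hε.le], ?_⟩
    have : u + u = (2:ℝ) • u := (two_smul ℝ u).symm
    rw [this, norm_smul, hu]; norm_num; linarith
  · have hc : 0 < ‖ψ‖ := norm_pos_iff.mpr hψ
    obtain ⟨c, hcdef⟩ : ∃ c, c = ‖ψ‖ := ⟨_, rfl⟩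
    rw [← hcdef] at hc ⊢
    obtain ⟨δ, hδdef⟩ : ∃ δ, δ = min (ε / 2) (ε / c) := ⟨_, rfl⟩
    have hδ : 0 < δ := by rw [hδdef]; positivity
    have hδ1 : δ ≤ ε / 2 := by rw [hδdef]; exact min_le_left _ _
    have hδ2 : c * δ ≤ ε := by
      have : δ ≤ ε / c := by rw [hδdef]; exact min_le_right _ _
      calc c * δ ≤ c * (ε / c) := by gcongr
        _ = ε := by field_simp
    have h := hD ψ (c⁻¹ • u)
    have hn : ‖ψ.smulRight (c⁻¹ • u)‖ = 1 := by
      rw [ContinuousLinearMap.norm_smulRight_apply, norm_smul, hu, ← hcdef, Real.norm_eq_abs,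
        abs_of_pos (inv_pos.mpr hc)]
      field_simp
    rw [hn] at h
    obtain ⟨z, hz1, hz2⟩ := ContinuousLinearMap.exists_lt_apply_of_lt_opNorm
      (ContinuousLinearMap.id ℝ V + ψ.smulRight (c⁻¹ • u)) (r := 2 - δ) (by rw [h]; linarith)
    have hz2' : 2 - δ < ‖z + (ψ z / c) • u‖ := by
      have : (ContinuousLinearMap.id ℝ V + ψ.smulRight (c⁻¹ • u)) z = z + (ψ z / c) • u := by
        simp [smul_smul, div_eq_mul_inv]
      rwa [this] at hz2
    -- normalise the sign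
    obtain ⟨z, hz1, hz0, hz2⟩ : ∃ z : V, ‖z‖ < 1 ∧ 0 ≤ ψ z ∧ 2 - δ < ‖z + (ψ z / c) • u‖ := by
      rcases le_total 0 (ψ z) with h0 | h0
      · exact ⟨z, hz1, h0, hz2'⟩
      · refine ⟨-z, by rwa [norm_neg], by simpa using h0, ?_⟩
        have : -z + (ψ (-z) / c) • u = -(z + (ψ z / c) • u) := by
          simp [neg_div, add_comm]
        rwa [this, norm_neg]
    obtain ⟨s, hs⟩ : ∃ s, s = ψ z / c := ⟨_, rfl⟩
    rw [← hs] at hz2
    have hs0 : 0 ≤ s := by rw [hs]; positivity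
    have hs1 : s ≤ 1 := by
      rw [hs, div_le_one hc]
      have := ψ.le_opNorm z
      rw [Real.norm_eq_abs, ← hcdef] at this
      calc ψ z ≤ |ψ z| := le_abs_self _
        _ ≤ c * ‖z‖ := this
        _ ≤ c * 1 := by gcongr
        _ = c := mul_one c
    have hs2 : 1 - δ < s := by
      have : ‖z + s • u‖ ≤ ‖z‖ + s := by
        calc ‖z + s • u‖ ≤ ‖z‖ + ‖s • u‖ := norm_add_le _ _
          _ = ‖z‖ + s := by rw [norm_smul, hu, Real.norm_eq_abs, abs_of_nonneg hs0, mul_one]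
      linarith
    have hψz : ψ z = c * s := by rw [hs]; field_simp
    refine ⟨z, hz1.le, ?_, ?_⟩
    · rw [hψz]; nlinarith
    · have : z + s • u = (u + z) - (1 - s) • u := by
        rw [sub_smul, one_smul]; abel
      have h3 : ‖z + s • u‖ ≤ ‖u + z‖ + (1 - s) := by
        rw [this]
        calc ‖(u + z) - (1 - s) • u‖ ≤ ‖u + z‖ + ‖(1 - s) • u‖ := norm_sub_le _ _
          _ = ‖u + z‖ + (1 - s) := by
            rw [norm_smul, hu, Real.norm_eq_abs, abs_of_nonneg (by linarith), mul_one]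
      linarith

/-- norm growth along an almost-aligned increment -/
theorem norm_growth (u z : V) (hz : ‖z‖ ≤ 1) (ε : ℝ) (h : 2 - ε ≤ ‖u + z‖)
    (a : ℝ) (ha : 1 ≤ a) : a + 1 - a * ε ≤ ‖a • u + z‖ := by
  have h1 : a • (u + z) = (a • u + z) + (a - 1) • z := by
    rw [smul_add, sub_smul, one_smul]; abel
  have h2 : ‖a • (u + z)‖ ≤ ‖a • u + z‖ + (a - 1) * ‖z‖ := by
    rw [h1]
    calc ‖(a • u + z) + (a - 1) • z‖ ≤ ‖a • u + z‖ + ‖(a - 1) • z‖ := norm_add_le _ _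
      _ = ‖a • u + z‖ + (a - 1) * ‖z‖ := by
        rw [norm_smul, Real.norm_eq_abs, abs_of_nonneg (by linarith)]
  rw [norm_smul, Real.norm_eq_abs, abs_of_nonneg (by linarith)] at h2
  have h3 : a * (2 - ε) ≤ a * ‖u + z‖ := by gcongr
  have h4 : (a - 1) * ‖z‖ ≤ (a - 1) * 1 := by
    apply mul_le_mul_of_nonneg_left hz (by linarith)
  linarith

/-- Blackwell approachability step-by-step. -/
theorem approach (hD : L1Subspace.HasDaugavetProperty V)
    {H : Type*} [NormedAddCommGroup H] [InnerProductSpace ℝ H] (L : V →L[ℝ] H)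
    (x : V) (hx : ‖x‖ = 1) (n : ℕ) (ε : ℝ) (hε : 0 < ε) :
    ∀ i : ℕ, i ≤ n → ∃ Z : V, ‖Z‖ ≤ i ∧ (n : ℝ) + i - 2 * n * ε * i ≤ ‖Z - (n : ℝ) • x‖ ∧
      ‖L (Z - (i : ℝ) • x)‖ ^ 2 ≤ i * (4 * ‖L‖ ^ 2 + 2 * ε) := by
  intro i
  induction i with
  | zero =>
    intro _
    refine ⟨0, by simp, ?_, by simp⟩
    simp [norm_smul, hx]
  | succ i ih =>
    intro hi
    obtain ⟨Z, hZ1, hZ2, hZ3⟩ := ih (by omega)
    have hin : (i : ℝ) + 1 ≤ n := by exact_mod_cast hi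
    obtain ⟨v, hv⟩ : ∃ v, v = Z - (n : ℝ) • x := ⟨_, rfl⟩
    obtain ⟨a, ha⟩ : ∃ a, a = ‖v‖ := ⟨_, rfl⟩
    have hnx : ‖(n : ℝ) • x‖ = n := by simp [norm_smul, hx]
    have ha1 : 1 ≤ a := by
      have : ‖(n : ℝ) • x‖ ≤ ‖Z‖ + ‖v‖ := by
        have : (n : ℝ) • x = Z - v := by rw [hv]; abel
        rw [this]; exact norm_sub_le _ _
      rw [hnx] at this
      linarith
    have ha2 : a ≤ 2 * n := by
      have : ‖v‖ ≤ ‖Z‖ + ‖(n : ℝ) • x‖ := by rw [hv]; exact norm_sub_le _ _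
      rw [hnx] at this
      linarith
    have ha0 : 0 < a := by linarith
    obtain ⟨u, hu⟩ : ∃ u, u = a⁻¹ • v := ⟨_, rfl⟩
    have hu1 : ‖u‖ = 1 := by
      rw [hu, norm_smul, ← ha, Real.norm_eq_abs, abs_of_pos (inv_pos.mpr ha0)]
      field_simp
    have hau : a • u = v := by rw [hu, smul_smul, mul_inv_cancel₀ ha0.ne', one_smul]
    obtain ⟨e, he⟩ : ∃ e, e = L (Z - (i : ℝ) • x) := ⟨_, rfl⟩
    obtain ⟨ψ, hψ⟩ : ∃ ψ : V →L[ℝ] ℝ, ∀ y, ψ y = - inner ℝ e (L y) :=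
      ⟨-((innerSL ℝ e).comp L), fun y => by simp⟩
    obtain ⟨z, hz1, hz2, hz3⟩ := daugavet_slice hD u hu1 ψ ε hε
    refine ⟨Z + z, ?_, ?_, ?_⟩
    · push_cast
      calc ‖Z + z‖ ≤ ‖Z‖ + ‖z‖ := norm_add_le _ _
        _ ≤ i + 1 := by linarith
    · have h1 : Z + z - (n : ℝ) • x = a • u + z := by rw [hau, hv]; abel
      rw [h1]
      have h2 := norm_growth u z hz1 ε hz3 a ha1
      rw [← hv, ← ha] at hZ2
      push_cast
      have h3 : a * ε ≤ 2 * n * ε := by gcongr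
      nlinarith
    · have h1 : L (Z + z - ((i + 1 : ℕ) : ℝ) • x) = e + L (z - x) := by
        rw [he, ← map_add]; congr 1
        push_cast
        rw [add_smul, one_smul]; abel
      rw [h1, @norm_add_sq_real]
      have h2 : inner ℝ e (L (z - x)) ≤ ε := by
        rw [map_sub, inner_sub_right]
        have h3 := hψ z
        have h4 := hψ x
        have h5 : ψ x ≤ ‖ψ‖ := by
          have := ψ.le_opNorm x
          rw [hx, mul_one, Real.norm_eq_abs] at this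
          exact (le_abs_self _).trans this
        linarith
      have h3 : ‖L (z - x)‖ ≤ ‖L‖ * 2 := by
        calc ‖L (z - x)‖ ≤ ‖L‖ * ‖z - x‖ := L.le_opNorm _
          _ ≤ ‖L‖ * 2 := by
            gcongr
            calc ‖z - x‖ ≤ ‖z‖ + ‖x‖ := norm_sub_le _ _
              _ ≤ 2 := by linarith
      have h4 : ‖L (z - x)‖ ^ 2 ≤ (‖L‖ * 2) ^ 2 := by gcongr
      rw [← he] at hZ3
      push_cast
      nlinarith

/-- A closed finite-codimensional subspace is the kernel of a continuous linear map into a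
Euclidean space which controls the distance to the subspace. -/
theorem Cof.exists_euclidean {S : Submodule ℝ V} (hS : Cof S) :
    ∃ (d : ℕ) (L : V →L[ℝ] EuclideanSpace ℝ (Fin d)) (C : ℝ), 0 ≤ C ∧
      ∀ v : V, ∀ δ : ℝ, 0 < δ → ∃ y ∈ S, ‖v - y‖ < C * ‖L v‖ + δ := by
  have : IsClosed (S : Set V) := hS.1
  have : FiniteDimensional ℝ (V ⧸ S) := hS.2
  let T : (V ⧸ S) ≃L[ℝ] EuclideanSpace ℝ (Fin (Module.finrank ℝ (V ⧸ S))) := toEuclidean
  refine ⟨Module.finrank ℝ (V ⧸ S), (T : (V ⧸ S) →L[ℝ] EuclideanSpace ℝ (Fin (Module.finrank ℝ (V ⧸ S)))).comp S.mkQL, ‖(T.symm : EuclideanSpace ℝ (Fin (Module.finrank ℝ (V ⧸ S))) →L[ℝ] (V ⧸ S))‖,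
    ContinuousLinearMap.opNorm_nonneg _, ?_⟩
  intro v δ hδ
  obtain ⟨m, hm1, hm2⟩ := Submodule.Quotient.norm_mk_lt (Submodule.Quotient.mk v : V ⧸ S) hδ
  refine ⟨v - m, ?_, ?_⟩
  · rw [← Submodule.Quotient.mk_eq_zero, Submodule.Quotient.mk_sub, hm1, sub_self]
  · have h1 : v - (v - m) = m := by abel
    rw [h1]
    have h2 : ‖(Submodule.Quotient.mk v : V ⧸ S)‖ ≤
        ‖(T.symm : EuclideanSpace ℝ (Fin (Module.finrank ℝ (V ⧸ S))) →L[ℝ] (V ⧸ S))‖ * ‖((T : (V ⧸ S) →L[ℝ] EuclideanSpace ℝ (Fin (Module.finrank ℝ (V ⧸ S)))).comp S.mkQL) v‖ := by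
      have := (T.symm : EuclideanSpace ℝ (Fin (Module.finrank ℝ (V ⧸ S))) →L[ℝ] (V ⧸ S)).le_opNorm (T (Submodule.Quotient.mk v))
      simpa using this
    linarith

/-- **Key lemma K.**  In a space with the rank-one Daugavet property, for every unit vector `x`,
every closed finite-codimensional `S` and `η > 0` there is `w ∈ S` with `‖w‖ ≥ 2 - η`,
`‖x + w‖ ≤ 1 + η`. -/
theorem daugavet_key (hD : L1Subspace.HasDaugavetProperty V) (x : V) (hx : ‖x‖ = 1)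
    (S : Submodule ℝ V) (hS : Cof S) (η : ℝ) (hη : 0 < η) :
    ∃ w ∈ S, 2 - η ≤ ‖w‖ ∧ ‖x + w‖ ≤ 1 + η := by
  obtain ⟨d, L, C, hC, hL⟩ := hS.exists_euclidean
  -- choose `n`
  obtain ⟨K, hK⟩ : ∃ K, K = C ^ 2 * (4 * ‖L‖ ^ 2 + 2) := ⟨_, rfl⟩
  have hK0 : 0 ≤ K := by rw [hK]; positivity
  obtain ⟨n, hn⟩ := exists_nat_gt (max 1 (K / (η / 4) ^ 2))
  have hn1 : (1 : ℝ) < n := lt_of_le_of_lt (le_max_left _ _) hn
  have hn2 : K / (η / 4) ^ 2 < n := lt_of_le_of_lt (le_max_right _ _) hn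
  have hn0 : (0 : ℝ) < n := by linarith
  obtain ⟨ε, hεdef⟩ : ∃ ε, ε = min 1 (η / (8 * n)) := ⟨_, rfl⟩
  have hε : 0 < ε := by rw [hεdef]; positivity
  have hε1 : ε ≤ 1 := by rw [hεdef]; exact min_le_left _ _
  have hε2 : 2 * n * ε ≤ η / 4 := by
    have : ε ≤ η / (8 * n) := by rw [hεdef]; exact min_le_right _ _
    calc 2 * n * ε ≤ 2 * n * (η / (8 * n)) := by gcongr
      _ = η / 4 := by field_simp; ring
  obtain ⟨Z, hZ1, hZ2, hZ3⟩ := approach hD L x hx n ε hε n le_rfl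
  obtain ⟨g, hg⟩ : ∃ g, g = (n : ℝ)⁻¹ • (Z - (n : ℝ) • x) := ⟨_, rfl⟩
  have hninv : 0 < (n : ℝ)⁻¹ := inv_pos.mpr hn0
  -- `g = z̄ - x`
  have hg1 : ‖x + g‖ ≤ 1 := by
    have : x + g = (n : ℝ)⁻¹ • Z := by
      rw [hg, smul_sub, smul_smul, inv_mul_cancel₀ hn0.ne', one_smul]; abel
    rw [this, norm_smul, Real.norm_eq_abs, abs_of_pos hninv]
    calc (n : ℝ)⁻¹ * ‖Z‖ ≤ (n : ℝ)⁻¹ * n := by gcongr
      _ = 1 := inv_mul_cancel₀ hn0.ne'
  have hg2 : 2 - η / 4 ≤ ‖g‖ := by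
    rw [hg, norm_smul, Real.norm_eq_abs, abs_of_pos hninv]
    have : (n : ℝ)⁻¹ * ((n : ℝ) + n - 2 * n * ε * n) ≤ (n : ℝ)⁻¹ * ‖Z - (n : ℝ) • x‖ := by gcongr
    have h2 : (n : ℝ)⁻¹ * ((n : ℝ) + n - 2 * n * ε * n) = 2 - 2 * n * ε := by
      field_simp; ring
    linarith
  have hg3 : C * ‖L g‖ ≤ η / 4 := by
    have h1 : ‖L g‖ = (n : ℝ)⁻¹ * ‖L (Z - (n : ℝ) • x)‖ := by
      rw [hg, map_smul, norm_smul, Real.norm_eq_abs, abs_of_pos hninv]
    have h2 : (C * ‖L g‖) ^ 2 ≤ (η / 4) ^ 2 := by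
      rw [h1]
      have h3 : (C * ((n : ℝ)⁻¹ * ‖L (Z - (n : ℝ) • x)‖)) ^ 2
          = C ^ 2 * ((n : ℝ)⁻¹) ^ 2 * ‖L (Z - (n : ℝ) • x)‖ ^ 2 := by ring
      rw [h3]
      have h4 : ‖L (Z - (n : ℝ) • x)‖ ^ 2 ≤ n * (4 * ‖L‖ ^ 2 + 2) := by
        refine hZ3.trans ?_
        gcongr
        linarith
      calc C ^ 2 * ((n : ℝ)⁻¹) ^ 2 * ‖L (Z - (n : ℝ) • x)‖ ^ 2
          ≤ C ^ 2 * ((n : ℝ)⁻¹) ^ 2 * (n * (4 * ‖L‖ ^ 2 + 2)) := by gcongr
        _ = K / n := by rw [hK]; field_simp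
        _ ≤ (η / 4) ^ 2 := by
          rw [div_le_iff₀ hn0]
          rw [div_lt_iff₀ (by positivity)] at hn2
          linarith
    exact abs_le_of_sq_le_sq' h2 (by positivity) |>.2
  obtain ⟨w, hwS, hw⟩ := hL g (η / 4) (by positivity)
  have hw' : ‖g - w‖ ≤ η / 2 := by linarith
  refine ⟨w, hwS, ?_, ?_⟩
  · have : ‖g‖ ≤ ‖w‖ + ‖g - w‖ := by
      calc ‖g‖ = ‖w + (g - w)‖ := by congr 1; abel
        _ ≤ _ := norm_add_le _ _
    linarith
  · have : ‖x + w‖ ≤ ‖x + g‖ + ‖g - w‖ := by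
      calc ‖x + w‖ = ‖(x + g) - (g - w)‖ := by congr 1; abel
        _ ≤ _ := norm_sub_le _ _
    linarith

/-- Almost optimal unit direction in a given closed finite-codimensional subspace. -/
theorem daugavet_direction (hD : L1Subspace.HasDaugavetProperty V) (x : V) (hx : ‖x‖ = 1)
    (S : Submodule ℝ V) (hS : Cof S) (t : ℝ) (ht : 0 < t) (η : ℝ) (hη : 0 < η) :
    ∃ y ∈ S, ‖y‖ = 1 ∧ ‖x + t • y‖ ≤ max 1 (t - 1) + η := by
  obtain ⟨η', hη'def⟩ : ∃ η', η' = min 1 (η / (2 * t)) := ⟨_, rfl⟩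
  have hη' : 0 < η' := by rw [hη'def]; positivity
  have hη'1 : η' ≤ 1 := by rw [hη'def]; exact min_le_left _ _
  have hη'2 : 2 * t * η' ≤ η := by
    have : η' ≤ η / (2 * t) := by rw [hη'def]; exact min_le_right _ _
    calc 2 * t * η' ≤ 2 * t * (η / (2 * t)) := by gcongr
      _ = η := by field_simp
  obtain ⟨w, hwS, hw1, hw2⟩ := daugavet_key hD x hx S hS η' hη'
  obtain ⟨r, hr⟩ : ∃ r, r = ‖w‖ := ⟨_, rfl⟩
  rw [← hr] at hw1
  have hr1 : 1 ≤ r := by linarith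
  have hr0 : 0 < r := by linarith
  obtain ⟨l, hl⟩ : ∃ l, l = t / r := ⟨_, rfl⟩
  have hl0 : 0 < l := by rw [hl]; positivity
  have hlt : l ≤ t := by rw [hl]; exact div_le_self ht.le hr1
  have hl2 : l ≤ t / 2 + t * η' / 2 := by
    rw [hl, div_le_iff₀ hr0]
    have : 2 ≤ r * (1 + η') := by nlinarith
    nlinarith
  refine ⟨r⁻¹ • w, S.smul_mem _ hwS, ?_, ?_⟩
  · rw [norm_smul, ← hr, Real.norm_eq_abs, abs_of_pos (inv_pos.mpr hr0)]
    field_simp
  · have h1 : x + t • r⁻¹ • w = (1 - l) • x + l • (x + w) := by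
      rw [smul_smul, ← div_eq_mul_inv, ← hl, sub_smul, one_smul, smul_add]; abel
    rw [h1]
    have h2 : ‖(1 - l) • x + l • (x + w)‖ ≤ |1 - l| + l * (1 + η') := by
      calc ‖(1 - l) • x + l • (x + w)‖ ≤ ‖(1 - l) • x‖ + ‖l • (x + w)‖ := norm_add_le _ _
        _ = |1 - l| + l * ‖x + w‖ := by
          rw [norm_smul, norm_smul, hx, mul_one, Real.norm_eq_abs, Real.norm_eq_abs,
            abs_of_pos hl0]
        _ ≤ |1 - l| + l * (1 + η') := by gcongr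
    refine h2.trans ?_
    have h3 : l * η' ≤ t * η' := by gcongr
    rcases le_total l 1 with h | h
    · rw [abs_of_nonneg (by linarith)]
      have := le_max_left 1 (t - 1)
      nlinarith
    · rw [abs_of_nonpos (by linarith)]
      have := le_max_right 1 (t - 1)
      nlinarith

/-- Bounded trees in a nontrivial space with the rank-one Daugavet property. -/
theorem hasTrees_of_daugavet (hD : L1Subspace.HasDaugavetProperty V) (hV : ∃ x : V, x ≠ 0) :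
    HasTrees V := by
  refine ⟨3, 1, fun k j => {x : V | 1 ≤ ‖x‖ ∧ ‖x‖ ≤ (1 + 1 / ((k : ℝ) + 1)) ^ j}, one_pos,
    ?_, ?_, ?_⟩
  · intro k
    obtain ⟨x, hx⟩ := hV
    have hx0 : 0 < ‖x‖ := norm_pos_iff.mpr hx
    have h1 : ‖(‖x‖⁻¹) • x‖ = 1 := by
      rw [norm_smul, Real.norm_eq_abs, abs_of_pos (inv_pos.mpr hx0)]
      field_simp
    exact ⟨(‖x‖⁻¹) • x, ⟨h1.ge, by simp [h1]⟩, h1.ge⟩
  · intro k j hj x hx
    refine hx.2.trans ?_
    have hk : (0 : ℝ) < (k : ℝ) + 1 := by positivity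
    have h1 : (1 + 1 / ((k : ℝ) + 1)) ≤ Real.exp (1 / ((k : ℝ) + 1)) := by
      have := Real.add_one_le_exp (1 / ((k : ℝ) + 1))
      linarith
    calc (1 + 1 / ((k : ℝ) + 1)) ^ j ≤ (Real.exp (1 / ((k : ℝ) + 1))) ^ j := by gcongr
      _ = Real.exp (j * (1 / ((k : ℝ) + 1))) := by rw [← Real.exp_nat_mul]
      _ ≤ Real.exp 1 := by
        apply Real.exp_le_exp.mpr
        rw [mul_one_div, div_le_one hk]
        have : (j : ℝ) ≤ k := by exact_mod_cast hj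
        linarith
      _ ≤ 3 := by
        have := Real.exp_one_lt_d9
        linarith
  · intro k j _ x hx S hS ε hε
    obtain ⟨hx1, hx2⟩ := hx
    have hx0 : 0 < ‖x‖ := by linarith
    obtain ⟨g, hg1, hg2⟩ := exists_dual_vector ℝ x hx0.ne'
    have hk : (0 : ℝ) < (k : ℝ) + 1 := by positivity
    obtain ⟨η, hη⟩ : ∃ η, η = 1 / ((k : ℝ) + 1) := ⟨_, rfl⟩
    have hη0 : 0 < η := by rw [hη]; positivity
    have hη1 : η ≤ 1 := by
      rw [hη, div_le_one hk]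
      have : (0 : ℝ) ≤ k := Nat.cast_nonneg k
      linarith
    have hu1 : ‖(‖x‖⁻¹) • x‖ = 1 := by
      rw [norm_smul, Real.norm_eq_abs, abs_of_pos (inv_pos.mpr hx0)]
      field_simp
    obtain ⟨w, hwS, hw1, hw2⟩ := daugavet_key hD ((‖x‖⁻¹) • x) hu1
      (S ⊓ LinearMap.ker (g : V →ₗ[ℝ] ℝ)) (hS.inf (cof_ker g)) η hη0
    obtain ⟨hwS, hwg⟩ := hwS
    have hwg' : g w = 0 := hwg
    have h1 : x + ‖x‖ • w = ‖x‖ • ((‖x‖⁻¹) • x + w) := by
      rw [smul_add, smul_smul, mul_inv_cancel₀ hx0.ne', one_smul]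
    refine ⟨‖x‖ • w, ⟨?_, ?_⟩, ?_, ‖x‖ • w, S.smul_mem _ hwS, by simpa using hε⟩
    · have h2 : g (x + ‖x‖ • w) = ‖x‖ := by
        rw [map_add, map_smul, hwg', smul_zero, add_zero, hg2]; rfl
      have h3 := g.le_opNorm (x + ‖x‖ • w)
      rw [h2, hg1, one_mul, Real.norm_eq_abs, abs_of_pos hx0] at h3
      linarith
    · rw [h1, norm_smul, Real.norm_eq_abs, abs_of_pos hx0, pow_succ, ← hη]
      rw [← hη] at hx2
      exact mul_le_mul hx2 hw2 (norm_nonneg _) (by positivity)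
    · rw [norm_smul, Real.norm_eq_abs, abs_of_pos hx0]
      nlinarith

end Daugavet

section Bridge

theorem oneSidedLE_of_daugavet (E : RealBanach)
    (hD : @L1Subspace.HasDaugavetProperty E.X E.normed E.space) (t : ℝ) (ht : 0 < t) :
    E.OneSidedModulusLE E.norm t (max 0 (t - 2)) := by
  let _ := E.normed; let _ := E.space
  intro x hx F hF η hη
  obtain ⟨S, rfl, hcl, hfd⟩ := hF
  obtain ⟨y, hyS, hy1, hy2⟩ := daugavet_direction hD x hx S ⟨hcl, hfd⟩ t ht η hη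
  refine ⟨y, hyS, hy1, ?_⟩
  change ‖x + t • y‖ - 1 ≤ max 0 (t - 2) + η
  have h : max 1 (t - 1) = max 0 (t - 2) + 1 := by
    rw [← max_add_add_right]; congr 1 <;> ring
  linarith

theorem midpointLE_of_daugavet (E : RealBanach)
    (hD : @L1Subspace.HasDaugavetProperty E.X E.normed E.space) (t : ℝ) (ht : 0 < t) :
    E.MidpointModulusLE E.norm t (max (t / 2) (t - 1)) := by
  let _ := E.normed; let _ := E.space
  intro x hx F hF η hη
  obtain ⟨S, rfl, hcl, hfd⟩ := hF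
  obtain ⟨y, hyS, hy1, hy2⟩ := daugavet_direction hD x hx S ⟨hcl, hfd⟩ t ht η hη
  refine ⟨y, hyS, hy1, ?_⟩
  change (‖x + t • y‖ + ‖x - t • y‖) / 2 - 1 ≤ max (t / 2) (t - 1) + η
  have hx' : ‖x‖ = 1 := hx
  have hy' : ‖y‖ = 1 := hy1
  have h1 : ‖x - t • y‖ ≤ 1 + t := by
    calc ‖x - t • y‖ ≤ ‖x‖ + ‖t • y‖ := norm_sub_le _ _
      _ = 1 + t := by rw [norm_smul, hx', hy', Real.norm_eq_abs, abs_of_pos ht, mul_one]
  have h : max 1 (t - 1) = 2 * max (t / 2) (t - 1) + 1 - t := by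
    rcases le_total (t / 2) (t - 1) with h | h
    · rw [max_eq_right h, max_eq_right (by linarith)]; ring
    · rw [max_eq_left h, max_eq_left (by linarith)]; ring
  linarith

theorem not_isAUC_of_daugavet (E : RealBanach)
    (hD : @L1Subspace.HasDaugavetProperty E.X E.normed E.space)
    (hinf : ¬ @FiniteDimensional ℝ E.X _ E.normed.toAddCommGroup E.space.toModule) :
    ∀ N : E.X → ℝ, E.IsEquivNorm N → ¬ E.IsAUC N := by
  let _ := E.normed; let _ := E.space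
  apply not_isAUC_of_hasTrees
  apply hasTrees_of_daugavet hD
  by_contra hcon
  push Not at hcon
  apply hinf
  have : Subsingleton E.X := ⟨fun a b => by rw [hcon a, hcon b]⟩
  infer_instance

/-- The one-sided lower bound `max 0 (t - 2)` holds in every Banach space. -/
theorem oneSidedGE_general (E : RealBanach) (t : ℝ) (ht : 0 < t) :
    E.OneSidedModulusGE E.norm t (max 0 (t - 2)) := by
  let _ := E.normed; let _ := E.space
  intro x hx η hη
  have hx' : ‖x‖ = 1 := hx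
  obtain ⟨g, hg1, hg2⟩ := exists_dual_vector ℝ x (by rw [hx']; exact one_ne_zero)
  refine ⟨(LinearMap.ker (g : E.X →ₗ[ℝ] ℝ) : Set E.X), isCof_of_cof E _ (cof_ker g), ?_⟩
  intro y hy hy1
  have hy' : ‖y‖ = 1 := hy1
  have hgy : g y = 0 := hy
  change max 0 (t - 2) - η ≤ ‖x + t • y‖ - 1
  have h1 : 1 ≤ ‖x + t • y‖ := by
    have h2 : g (x + t • y) = 1 := by
      rw [map_add, map_smul, hgy, smul_zero, add_zero, hg2, hx']; rfl
    have h3 := g.le_opNorm (x + t • y)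
    rw [h2, hg1, one_mul] at h3
    simpa using h3
  have h2 : t - 1 ≤ ‖x + t • y‖ := by
    have : ‖t • y‖ ≤ ‖x + t • y‖ + ‖x‖ := by
      calc ‖t • y‖ = ‖(x + t • y) - x‖ := by congr 1; abel
        _ ≤ _ := norm_sub_le _ _
    rw [norm_smul, hy', hx', Real.norm_eq_abs, abs_of_pos ht, mul_one] at this
    linarith
  rcases le_total 0 (t - 2) with h | h
  · rw [max_eq_right h]; linarith
  · rw [max_eq_left h]; linarith

end Bridge

end Crest.Agent.R125
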