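/-
Row 125: `PropM` for every subspace of a model space (used by S0166).  Owner: helper2.
-/
import Mathlib
import Crest.Agent.S0168_Core

set_option autoImplicit false

namespace Crest.Agent.R125

open Crest.AnalysisR Crest.AnalysisR.TreePotential

variable {m : PotentialModel}

theorem propM_modelSpace (m : PotentialModel) : PropM (modelSpace m) :=
  propM_modelSpace_of_core (core m)

/-- every linear subspace of the ambient space contained in the model space has property (M) -/
theorem propM_of_le (Y : Submodule ℝ (V m)) (hY : Y ≤ modelSpace m) : PropM Y := by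
  intro x η hη
  obtain ⟨s, hs⟩ := core m x (hY x.2) η hη
  refine ⟨⨅ τ : s, LinearMap.ker (((ev τ.1).comp Y.subtypeL : Y →L[ℝ] ℝ) : Y →ₗ[ℝ] ℝ),
    cof_iInf_ker _, fun y hy => ?_⟩
  rw [mem_iInf_ker] at hy
  exact hs y (hY y.2) fun τ hτ => hy ⟨τ, hτ⟩

end Crest.Agent.R125
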