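/-
Row 125, package PB (S0169): path products of independent multipliers in `L¹`.
Owner: helper15.  Namespace `Crest.Agent.R125.TP`.
-/
import Mathlib
import Crest.Prelude.Def_TreeProducts
import Crest.Agent.S0166_Base

set_option autoImplicit false
set_option linter.unusedSectionVars false

namespace Crest.Agent.R125.TP

open MeasureTheory ProbabilityTheory
open Crest.AnalysisR Crest.AnalysisR.TreeProduct

variable {Ω : Type} [MeasurableSpace Ω]

/-- the non-root vertices on the root path of `v` -/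
def sfx : List ℕ → Finset (List ℕ)
  | [] => ∅
  | a :: v => insert (a :: v) (sfx v)

theorem length_le_of_mem_sfx : ∀ (v u : List ℕ), u ∈ sfx v → u.length ≤ v.length
  | [], u, h => by simp [sfx] at h
  | a :: v, u, h => by
      simp only [sfx, Finset.mem_insert] at h
      rcases h with rfl | h
      · exact le_rfl
      · have := length_le_of_mem_sfx v u h
        simp only [List.length_cons]; omega

theorem pathProduct_cons (W : List ℕ → Ω → ℝ) (a : ℕ) (v : List ℕ) (ω : Ω) :
    pathProduct W (a :: v) ω = pathProduct W v ω * W (a :: v) ω := rfl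

theorem pathProduct_eq_prod (W : List ℕ → Ω → ℝ) :
    ∀ (v : List ℕ) (ω : Ω), pathProduct W v ω = ∏ u ∈ sfx v, W u ω
  | [], ω => by simp [pathProduct, sfx]
  | a :: v, ω => by
      have hn : (a :: v) ∉ sfx v := fun h => by
        have := length_le_of_mem_sfx _ _ h
        simp at this
      rw [pathProduct_cons, sfx, Finset.prod_insert hn, pathProduct_eq_prod W v ω, mul_comm]

theorem measurable_pathProduct (W : List ℕ → Ω → ℝ) (hm : ∀ v, Measurable (W v)) :
    ∀ v : List ℕ, Measurable (pathProduct W v)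
  | [] => measurable_const
  | a :: v => (measurable_pathProduct W hm v).mul (hm (a :: v))

theorem indep_pathProduct (W : List ℕ → Ω → ℝ) (μ : Measure Ω) (hm : ∀ v, Measurable (W v))
    (hi : iIndepFun W μ) (v : List ℕ) (T : Finset (List ℕ))
    (hT : ∀ u ∈ T, v.length < u.length) (ψ : (T → ℝ) → ℝ) (hψ : Measurable ψ) :
    IndepFun (pathProduct W v) (fun ω => ψ (fun i : T => W i ω)) μ := by
  have hd : Disjoint (sfx v) T := by
    rw [Finset.disjoint_left]
    intro u hu huT
    have h1 := length_le_of_mem_sfx v u hu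
    have h2 := hT u huT
    omega
  have h := hi.indepFun_finset (sfx v) T hd hm
  have h2 := h.comp (φ := fun x : (sfx v → ℝ) => ∏ i, x i) (ψ := ψ) (by fun_prop) hψ
  have e1 : pathProduct W v = (fun x : (sfx v → ℝ) => ∏ i, x i) ∘ fun a (i : sfx v) => W i a := by
    ext ω
    simp only [Function.comp]
    rw [pathProduct_eq_prod, Finset.prod_coe_sort (sfx v) (fun u => W u ω)]
  rw [e1]
  exact h2

/-- independence of the path product at `v` from a sum over children of `v`. -/
theorem indep_pathProduct_sum (W : List ℕ → Ω → ℝ) (μ : Measure Ω) (hm : ∀ v, Measurable (W v))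
    (hi : iIndepFun W μ) (v : List ℕ) (A : Finset ℕ) :
    IndepFun (pathProduct W v) (fun ω => ∑ a ∈ A, (W (a :: v) ω - 1)) μ := by
  classical
  have h := indep_pathProduct W μ hm hi v (A.image (fun a => a :: v))
    (by
      intro u hu
      obtain ⟨a, -, rfl⟩ := Finset.mem_image.1 hu
      simp)
    (fun x => ∑ i, (x i - 1)) (by fun_prop)
  have e : (fun ω => ∑ a ∈ A, (W (a :: v) ω - 1)) =
      fun ω => ∑ i : (A.image (fun a => a :: v) : Finset (List ℕ)), (W i ω - 1) := by
    ext ω
    rw [Finset.sum_coe_sort (A.image (fun a => a :: v)) (fun u => W u ω - 1),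
      Finset.sum_image (by intro a _ b _ hab; simpa using hab)]
  rw [e]
  exact h

theorem indep_pathProduct_child (W : List ℕ → Ω → ℝ) (μ : Measure Ω) (hm : ∀ v, Measurable (W v))
    (hi : iIndepFun W μ) (v : List ℕ) (a : ℕ) :
    IndepFun (pathProduct W v) (W (a :: v)) μ := by
  have h := indep_pathProduct_sum W μ hm hi v {a}
  have h2 := h.comp (φ := id) (ψ := fun x => x + 1) measurable_id (by fun_prop)
  have e : W (a :: v) = (fun x : ℝ => x + 1) ∘ (fun ω => ∑ a ∈ ({a} : Finset ℕ), (W (a :: v) ω - 1)) := by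
    ext ω; simp
  rw [e]
  exact h2

section Real

variable (ν : Measure ℝ) [IsProbabilityMeasure ν] (μ : Measure Ω) [IsProbabilityMeasure μ]
  (W : List ℕ → Ω → ℝ)

theorem memLp_id (hm2 : Integrable (fun x : ℝ => x ^ 2) ν) : MemLp (id : ℝ → ℝ) 2 ν :=
  (memLp_two_iff_integrable_sq measurable_id.aestronglyMeasurable).2 hm2

theorem memLp_W (hm2 : Integrable (fun x : ℝ => x ^ 2) ν) (hW : IsRealization ν μ W)
    (u : List ℕ) (hu : u ≠ []) : MemLp (W u) 2 μ := by
  have h := memLp_id ν hm2
  rw [← hW.2.2 u hu] at h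
  exact h.comp_of_map (hW.1 u).aemeasurable

theorem integrable_W (hm2 : Integrable (fun x : ℝ => x ^ 2) ν) (hW : IsRealization ν μ W)
    (u : List ℕ) (hu : u ≠ []) : Integrable (W u) μ :=
  (memLp_W ν μ W hm2 hW u hu).integrable (by norm_num)

theorem integral_comp_W (hW : IsRealization ν μ W) (u : List ℕ) (hu : u ≠ []) (g : ℝ → ℝ)
    (hg : Measurable g) : ∫ ω, g (W u ω) ∂μ = ∫ x, g x ∂ν := by
  rw [← hW.2.2 u hu, integral_map (hW.1 u).aemeasurable hg.aestronglyMeasurable]

theorem pos_W (hpos : ν (Set.Ioi 0) = 1) (hW : IsRealization ν μ W) (u : List ℕ) (hu : u ≠ []) :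
    ∀ᵐ ω ∂μ, 0 < W u ω := by
  have h : ∀ᵐ x ∂ν, 0 < x := (mem_ae_iff_prob_eq_one measurableSet_Ioi).2 hpos
  rw [← hW.2.2 u hu] at h
  exact ae_of_ae_map (hW.1 u).aemeasurable h

theorem pathProduct_facts (hpos : ν (Set.Ioi 0) = 1) (hmean : ∫ x, x ∂ν = 1)
    (hm2 : Integrable (fun x : ℝ => x ^ 2) ν) (hW : IsRealization ν μ W) :
    ∀ v : List ℕ, Integrable (pathProduct W v) μ ∧ ∫ ω, pathProduct W v ω ∂μ = 1 ∧
      ∀ᵐ ω ∂μ, 0 < pathProduct W v ω
  | [] => by
      refine ⟨?_, ?_, ?_⟩
      · exact integrable_const (1 : ℝ)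
      · simp [pathProduct]
      · simp [pathProduct]
  | a :: v => by
      obtain ⟨h1, h2, h3⟩ := pathProduct_facts hpos hmean hm2 hW v
      have hind := indep_pathProduct_child W μ hW.1 hW.2.1 v a
      have hWi := integrable_W ν μ W hm2 hW (a :: v) (by simp)
      refine ⟨?_, ?_, ?_⟩
      · exact hind.integrable_mul h1 hWi
      · have := hind.integral_fun_mul_eq_mul_integral h1.aestronglyMeasurable
          hWi.aestronglyMeasurable
        simp only [pathProduct_cons]
        rw [this, h2, one_mul]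
        have := integral_comp_W ν μ W hW (a :: v) (by simp) id measurable_id
        simpa [hmean] using this
      · filter_upwards [h3, pos_W ν μ W hpos hW (a :: v) (by simp)] with ω h4 h5
        exact mul_pos h4 h5

theorem integral_abs_pathProduct (hpos : ν (Set.Ioi 0) = 1) (hmean : ∫ x, x ∂ν = 1)
    (hm2 : Integrable (fun x : ℝ => x ^ 2) ν) (hW : IsRealization ν μ W) (v : List ℕ) :
    ∫ ω, |pathProduct W v ω| ∂μ = 1 := by
  obtain ⟨-, h2, h3⟩ := pathProduct_facts ν μ W hpos hmean hm2 hW v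
  rw [← h2]
  refine integral_congr_ae ?_
  filter_upwards [h3] with ω h
  exact abs_of_pos h

/-- multiplying by an independent factor: integrability and `L¹` norm. -/
theorem pathProduct_mul (hpos : ν (Set.Ioi 0) = 1) (hmean : ∫ x, x ∂ν = 1)
    (hm2 : Integrable (fun x : ℝ => x ^ 2) ν) (hW : IsRealization ν μ W) (v : List ℕ)
    (Y : Ω → ℝ) (hY : Integrable Y μ) (hind : IndepFun (pathProduct W v) Y μ) :
    Integrable (fun ω => pathProduct W v ω * Y ω) μ ∧
      ∫ ω, |pathProduct W v ω * Y ω| ∂μ = ∫ ω, |Y ω| ∂μ := by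
  obtain ⟨h1, -, -⟩ := pathProduct_facts ν μ W hpos hmean hm2 hW v
  refine ⟨hind.integrable_mul h1 hY, ?_⟩
  have h := hind.comp (φ := fun x : ℝ => |x|) (ψ := fun x : ℝ => |x|) (by fun_prop) (by fun_prop)
  have h' := h.integral_fun_mul_eq_mul_integral
    (by exact h1.abs.aestronglyMeasurable) (by exact hY.abs.aestronglyMeasurable)
  simp only [Function.comp] at h'
  simp only [abs_mul]
  rw [h', integral_abs_pathProduct ν μ W hpos hmean hm2 hW v, one_mul]

theorem theta_pos (hnc : ∀ c : ℝ, ν ≠ Measure.dirac c)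
    (hm2 : Integrable (fun x : ℝ => x ^ 2) ν) : 0 < ∫ x, |x - 1| ∂ν := by
  have hid : Integrable (fun x : ℝ => x) ν := (memLp_id ν hm2).integrable (by norm_num)
  have hint : Integrable (fun x : ℝ => |x - 1|) ν := (hid.sub (integrable_const 1)).abs
  have h0 : 0 ≤ ∫ x, |x - 1| ∂ν := integral_nonneg (fun x => abs_nonneg _)
  rcases h0.lt_or_eq with h | h
  · exact h
  · exfalso
    have hz := (integral_eq_zero_iff_of_nonneg (fun x => abs_nonneg (x - 1)) hint).1 h.symm
    have hae : (id : ℝ → ℝ) =ᵐ[ν] fun _ => (1 : ℝ) := by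
      filter_upwards [hz] with x hx
      have : |x - 1| = 0 := hx
      have := abs_eq_zero.1 this
      simp only [id]; linarith
    apply hnc 1
    have : Measure.map (id : ℝ → ℝ) ν = Measure.map (fun _ => (1 : ℝ)) ν := Measure.map_congr hae
    rw [Measure.map_id, Measure.map_const] at this
    simpa using this

/-- `L¹` norm of a sum of centred independent copies. -/
theorem integral_abs_sum_le (hmean : ∫ x, x ∂ν = 1)
    (hm2 : Integrable (fun x : ℝ => x ^ 2) ν) (hW : IsRealization ν μ W) (v : List ℕ)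
    (A : Finset ℕ) :
    Integrable (fun ω => ∑ a ∈ A, (W (a :: v) ω - 1)) μ ∧
    ∫ ω, |∑ a ∈ A, (W (a :: v) ω - 1)| ∂μ ≤ Real.sqrt (Var[id; ν]) * Real.sqrt A.card := by
  set S : Ω → ℝ := fun ω => ∑ a ∈ A, (W (a :: v) ω - 1) with hS
  have hL : ∀ a, MemLp (W (a :: v)) 2 μ := fun a => memLp_W ν μ W hm2 hW (a :: v) (by simp)
  have hSL : MemLp S 2 μ := by
    refine memLp_finsetSum A (fun a _ => ?_)
    exact (hL a).sub (memLp_const 1)
  have hvar : Var[∑ a ∈ A, W (a :: v); μ] = A.card * Var[id; ν] := by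
    rw [IndepFun.variance_sum (fun a _ => hL a)]
    · have : ∀ a ∈ A, Var[W (a :: v); μ] = Var[id; ν] := by
        intro a _
        rw [← variance_id_map (hW.1 (a :: v)).aemeasurable, hW.2.2 (a :: v) (by simp)]
      rw [Finset.sum_congr rfl this]
      simp
    · intro a _ b _ hab
      exact hW.2.1.indepFun (by simpa using hab)
  have hmeanS : μ[∑ a ∈ A, W (a :: v)] = (A.card : ℝ) := by
    have : ∀ ω, (∑ a ∈ A, W (a :: v)) ω = ∑ a ∈ A, W (a :: v) ω := fun ω => by
      simp [Finset.sum_apply]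
    simp only [this]
    rw [integral_finsetSum A (fun a _ => (hL a).integrable (by norm_num))]
    have : ∀ a ∈ A, ∫ ω, W (a :: v) ω ∂μ = 1 := by
      intro a _
      have := integral_comp_W ν μ W hW (a :: v) (by simp) id measurable_id
      simpa [hmean] using this
    rw [Finset.sum_congr rfl this]
    simp
  have hsq : ∫ ω, (S ω) ^ 2 ∂μ = A.card * Var[id; ν] := by
    rw [← hvar, variance_eq_integral
      (Finset.aemeasurable_sum A (fun a _ => (hW.1 (a :: v)).aemeasurable)), hmeanS]
    refine integral_congr_ae (ae_of_all _ fun ω => ?_)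
    simp only [hS, Finset.sum_apply, Finset.sum_sub_distrib, Finset.sum_const, nsmul_eq_mul,
      mul_one]
  have habs : MemLp (fun ω => |S ω|) 2 μ := hSL.abs
  have hv := variance_nonneg (fun ω => |S ω|) μ
  rw [variance_eq_sub habs] at hv
  have h2 : μ[(fun ω => |S ω|) ^ 2] = A.card * Var[id; ν] := by
    rw [← hsq]
    refine integral_congr_ae (ae_of_all _ fun ω => ?_)
    simp [sq_abs]
  rw [h2] at hv
  refine ⟨hSL.integrable (by norm_num), ?_⟩
  rw [← Real.sqrt_mul (variance_nonneg _ _)]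
  apply Real.le_sqrt_of_sq_le
  linarith

end Real

section L1

variable (μ : Measure Ω)

theorem toL1_sum {ι : Type*} (A : Finset ι) (f : ι → Ω → ℝ) (hf : ∀ a, Integrable (f a) μ) :
    ∑ a ∈ A, (hf a).toL1 (f a) =
      (integrable_finsetSum A (fun a _ => hf a)).toL1 (fun ω => ∑ a ∈ A, f a ω) := by
  classical
  induction A using Finset.induction_on with
  | empty =>
      symm
      simp only [Finset.sum_empty]
      exact Integrable.toL1_zero _
  | insert i s hi ih =>
      rw [Finset.sum_insert hi, ih, ← Integrable.toL1_add]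
      refine (Integrable.toL1_eq_toL1_iff _ _ _ _).2 (ae_of_all _ fun ω => ?_)
      simp [Finset.sum_insert hi]

end L1

section Trees

variable (ν : Measure ℝ) [IsProbabilityMeasure ν] (μ : Measure Ω) [IsProbabilityMeasure μ]
  (W : List ℕ → Ω → ℝ)

theorem toL1_mem_productSpan (v : List ℕ) (h : Integrable (pathProduct W v) μ) :
    h.toL1 (pathProduct W v) ∈ productSpan μ W :=
  Submodule.le_topologicalClosure _ (Submodule.subset_span ⟨v, h.coeFn_toL1⟩)

theorem hasTrees (hpos : ν (Set.Ioi 0) = 1)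
    (hnc : ∀ c : ℝ, ν ≠ Measure.dirac c) (hmean : ∫ x, x ∂ν = 1)
    (hm2 : Integrable (fun x : ℝ => x ^ 2) ν) (hW : IsRealization ν μ W) :
    HasTrees (productSpan μ W) := by
  have hI : ∀ v, Integrable (pathProduct W v) μ :=
    fun v => (pathProduct_facts ν μ W hpos hmean hm2 hW v).1
  set x : List ℕ → productSpan μ W :=
    fun v => ⟨(hI v).toL1 (pathProduct W v), toL1_mem_productSpan μ W v (hI v)⟩ with hx
  have hnorm : ∀ v, ‖x v‖ = 1 := by
    intro v
    rw [Submodule.coe_norm]
    simp only [hx]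
    rw [L1.norm_of_fun_eq_integral_norm]
    simpa [Real.norm_eq_abs] using integral_abs_pathProduct ν μ W hpos hmean hm2 hW v
  set θ₀ : ℝ := ∫ x, |x - 1| ∂ν with hθ₀
  have hθ₀pos : 0 < θ₀ := theta_pos ν hnc hm2
  -- the norm of a sum of increments
  have hsum : ∀ (v : List ℕ) (A : Finset ℕ),
      ‖∑ a ∈ A, (x (a :: v) - x v)‖ = ∫ ω, |∑ a ∈ A, (W (a :: v) ω - 1)| ∂μ := by
    intro v A
    have hf : ∀ a, Integrable (fun ω => pathProduct W (a :: v) ω - pathProduct W v ω) μ :=
      fun a => (hI (a :: v)).sub (hI v)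
    have e1 : ((∑ a ∈ A, (x (a :: v) - x v) : productSpan μ W) : Lp ℝ 1 μ) =
        ∑ a ∈ A, (hf a).toL1 _ := by
      rw [Submodule.coe_sum]
      refine Finset.sum_congr rfl fun a _ => ?_
      simp only [hx, Submodule.coe_sub]
      rw [← Integrable.toL1_sub]
      rfl
    rw [Submodule.coe_norm, e1, toL1_sum, L1.norm_of_fun_eq_integral_norm]
    have hY := integral_abs_sum_le ν μ W hmean hm2 hW v A
    have hm := pathProduct_mul ν μ W hpos hmean hm2 hW v _ hY.1
      (indep_pathProduct_sum W μ hW.1 hW.2.1 v A)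
    rw [← hm.2]
    refine integral_congr_ae (ae_of_all _ fun ω => ?_)
    simp only [Real.norm_eq_abs, pathProduct_cons, Finset.mul_sum]
    congr 1
    refine Finset.sum_congr rfl fun a _ => ?_
    ring
  have hd : ∀ (v : List ℕ) (a : ℕ), ‖x (a :: v) - x v‖ = θ₀ := by
    intro v a
    have := hsum v {a}
    simp only [Finset.sum_singleton] at this
    rw [this]
    exact integral_comp_W ν μ W hW (a :: v) (by simp) (fun y => |y - 1|) (by fun_prop)
  refine ⟨1, min 1 θ₀, fun _ j => {y | ∃ v : List ℕ, v.length = j ∧ y = x v},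
    lt_min one_pos hθ₀pos, ?_, ?_, ?_⟩
  · intro k
    exact ⟨x [], ⟨[], rfl, rfl⟩, by rw [hnorm]; exact min_le_left _ _⟩
  · rintro k j - y ⟨v, -, rfl⟩
    exact (hnorm v).le
  · rintro k j - y ⟨v, hv, rfl⟩ S hS ε hε
    obtain ⟨a, y, hy, hlt⟩ := hS.exists_close_of_cesaro (fun a => x (a :: v) - x v)
      (Real.sqrt (Var[id; ν]))
      (fun A => by
        rw [hsum v A]
        exact (integral_abs_sum_le ν μ W hmean hm2 hW v A).2) ε hε
    refine ⟨x (a :: v) - x v, ⟨a :: v, by simp [hv], by abel⟩, ?_, y, hy, hlt⟩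
    rw [hd]
    exact min_le_right _ _

end Trees

end Crest.Agent.R125.TP
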