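/-
Row 130 (S0175): three-marginal transport, Monge infimum not attained.
Shared definitions.  Namespace `Crest.Agent.S0175`.  Plan: notes/row130_plan.md.
-/
import Mathlib
import Crest.Prelude.Def_MultiMarginal

set_option autoImplicit false

namespace Crest.Agent.S0175

open MeasureTheory Crest.AnalysisR.OT
open scoped ENNReal RealInnerProductSpace

/-! ### Abstract (measure-theoretic) part -/

section Abstract

variable {Ω : Type*}

/-- the union of the five clusters. -/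
def Kset (A : Set Ω) (B C : Bool → Set Ω) : Set Ω :=
  A ∪ (B false ∪ B true) ∪ (C false ∪ C true)

/-- `(p₁,p₂,p₃)` has one point in each of `S₁,S₂,S₃`, in some order. -/
def Perm3 (S₁ S₂ S₃ : Set Ω) (p₁ p₂ p₃ : Ω) : Prop :=
  (p₁ ∈ S₁ ∧ p₂ ∈ S₂ ∧ p₃ ∈ S₃) ∨ (p₁ ∈ S₁ ∧ p₂ ∈ S₃ ∧ p₃ ∈ S₂) ∨
  (p₁ ∈ S₂ ∧ p₂ ∈ S₁ ∧ p₃ ∈ S₃) ∨ (p₁ ∈ S₂ ∧ p₂ ∈ S₃ ∧ p₃ ∈ S₁) ∨
  (p₁ ∈ S₃ ∧ p₂ ∈ S₁ ∧ p₃ ∈ S₂) ∨ (p₁ ∈ S₃ ∧ p₂ ∈ S₂ ∧ p₃ ∈ S₁)

/-- a contact triple: one point in each of `A, B k, C k` (some order), all with the same label. -/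
def IsContact (lam : Ω → Ω) (A : Set Ω) (B C : Bool → Set Ω) (p₁ p₂ p₃ : Ω) : Prop :=
  ∃ k : Bool, lam p₁ = lam p₂ ∧ lam p₂ = lam p₃ ∧ Perm3 A (B k) (C k) p₁ p₂ p₃

variable [MeasurableSpace Ω]

/-- the marginal: `2ν` on `A`, and the four push-forwards of `ν`. -/
noncomputable def muTot (ν : Measure Ω) (Y Z : Bool → Ω → Ω) : Measure Ω :=
  (ν + ν) + ((ν.map (Y false) + ν.map (Z false)) + (ν.map (Y true) + ν.map (Z true)))

/-- All the hypotheses of the abstract part. -/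
structure MSys (ν : Measure Ω) (Y Z : Bool → Ω → Ω) (lam : Ω → Ω) (A : Set Ω)
    (B C : Bool → Set Ω) (c : Ω × Ω × Ω → ℝ≥0∞) (u : Ω → ℝ≥0∞) : Prop where
  fin : IsFiniteMeasure ν
  pos : ν Set.univ ≠ 0
  Y_meas : ∀ k, Measurable (Y k)
  Z_meas : ∀ k, Measurable (Z k)
  lam_meas : Measurable lam
  A_meas : MeasurableSet A
  B_meas : ∀ k, MeasurableSet (B k)
  C_meas : ∀ k, MeasurableSet (C k)
  ν_A : ν Aᶜ = 0
  Y_mem : ∀ k, ∀ x ∈ A, Y k x ∈ B k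
  Z_mem : ∀ k, ∀ x ∈ A, Z k x ∈ C k
  lam_A : ∀ x ∈ A, lam x = x
  lam_Y : ∀ k, ∀ x ∈ A, lam (Y k x) = x
  lam_Z : ∀ k, ∀ x ∈ A, lam (Z k x) = x
  disj_AB : ∀ k, Disjoint A (B k)
  disj_AC : ∀ k, Disjoint A (C k)
  disj_BC : ∀ k k', Disjoint (B k) (C k')
  disj_BB : Disjoint (B false) (B true)
  disj_CC : Disjoint (C false) (C true)
  c_meas : Measurable c
  u_meas : Measurable u
  u_bdd : ∃ M : ℝ≥0∞, M ≠ ⊤ ∧ ∀ x, u x ≤ M
  c_cyc : ∀ p₁ p₂ p₃, c (p₂, p₃, p₁) = c (p₁, p₂, p₃)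
  le_c : ∀ p₁ ∈ Kset A B C, ∀ p₂ ∈ Kset A B C, ∀ p₃ ∈ Kset A B C,
    u p₁ + u p₂ + u p₃ ≤ c (p₁, p₂, p₃)
  contact : ∀ p₁ ∈ Kset A B C, ∀ p₂ ∈ Kset A B C, ∀ p₃ ∈ Kset A B C,
    c (p₁, p₂, p₃) ≤ u p₁ + u p₂ + u p₃ → IsContact lam A B C p₁ p₂ p₃
  eq_c : ∀ k, ∀ x ∈ A, c (x, Y k x, Z k x) = u x + u (Y k x) + u (Z k x)

end Abstract

/-! ### Concrete (Euclidean) part -/

/-- the ambient space. -/
abbrev EE (d : ℕ) := EuclideanSpace ℝ (Fin d)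

section Concrete

variable {d : ℕ}

/-- real valued pair interaction `|v|^{-s}`. -/
noncomputable def phi (s : ℝ) (v : EE d) : ℝ := ‖v‖ ^ (-s)

/-- its gradient `-s |v|^{-s-2} v`. -/
noncomputable def gphi (s : ℝ) (v : EE d) : EE d := (-s * ‖v‖ ^ (-s - 2)) • v

/-- real valued three-body cost. -/
noncomputable def c3 (s : ℝ) (x y z : EE d) : ℝ := phi s (x - y) + phi s (x - z) + phi s (y - z)

/-- the concavity constant `K = s 2^{s+4}`. -/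
noncomputable def Kc (s : ℝ) : ℝ := s * (2 : ℝ) ^ (s + 4)

/-- `∇_z c3 (0, e, -e) = s (1 + 2^{-s-1}) e`. -/
noncomputable def pvec (s : ℝ) (e : EE d) : EE d := (s * (1 + (2 : ℝ) ^ (-s - 1))) • e

/-- potential on the central cluster. -/
noncomputable def uA (s t : ℝ) (x : EE d) : ℝ := (2 + (2 : ℝ) ^ (-s)) - 2 * t - Kc s / 2 * ‖x‖ ^ 2

/-- potential on the cluster around `-e`. -/
noncomputable def uC (s t : ℝ) (e z : EE d) : ℝ :=
  t + ⟪pvec s e, z + e⟫ - Kc s / 2 * ‖z + e‖ ^ 2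

/-- potential on the cluster around `e` (value of the `c`-transform at the contact point). -/
noncomputable def uB (s t : ℝ) (e : EE d) (Z lam : EE d → EE d) (y : EE d) : ℝ :=
  c3 s (lam y) y (Z (lam y)) - uA s t (lam y) - uC s t e (Z (lam y))

/-- `(x,z)` is a critical point of `(x,z) ↦ c3 x y z - uA x - uC z`. -/
def Crit (s : ℝ) (e x y z : EE d) : Prop :=
  gphi s (x - y) + gphi s (x - z) + Kc s • x = 0 ∧
  -gphi s (x - z) - gphi s (y - z) + Kc s • (z + e) - pvec s e = 0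

open Classical in
/-- the global (real) potential. -/
noncomputable def uTot (s t : ℝ) (e : Bool → EE d) (Z : Bool → EE d → EE d) (lam : EE d → EE d)
    (A : Set (EE d)) (B C : Bool → Set (EE d)) (x : EE d) : ℝ :=
  if x ∈ A then uA s t x
  else if x ∈ B false then uB s t (e false) (Z false) lam x
  else if x ∈ B true then uB s t (e true) (Z true) lam x
  else if x ∈ C false then uC s t (e false) x
  else if x ∈ C true then uC s t (e true) x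
  else 0

/-- the error bound for the potentials on clusters of radius `η`. -/
noncomputable def varpi (s η : ℝ) : ℝ :=
  (3 * s * (2 : ℝ) ^ (s + 2) + s * (1 + (2 : ℝ) ^ (-s - 1))) * η + Kc s * η ^ 2

/-- numerical smallness conditions on `t` (additive constant) and `η` (cluster radius). -/
structure Small (s t η : ℝ) : Prop where
  t_pos : 0 < t
  η_pos : 0 < η
  η_le : η ≤ 1 / 8
  varpi_le : varpi s η ≤ t
  uA_nonneg : Kc s / 2 * η ^ 2 + 2 * t ≤ 2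
  same : 9 < (2 * η) ^ (-s)
  noA : t + varpi s η < (2 + 2 * η) ^ (-s)
  orth : (2 + (2 : ℝ) ^ (-s)) + 2 * varpi s η < 2 * (1 + 2 * η) ^ (-s) + (Real.sqrt 2 + 2 * η) ^ (-s)

/-- geometric hypotheses. -/
structure Geo (s η : ℝ) (e : Bool → EE d) (Y Z : Bool → EE d → EE d) (lam : EE d → EE d)
    (A : Set (EE d)) (B C : Bool → Set (EE d)) : Prop where
  e_norm : ∀ k, ‖e k‖ = 1
  e_orth : ⟪e false, e true⟫ = 0
  A_sub : A ⊆ Metric.ball 0 η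
  Y_mem : ∀ k, ∀ x ∈ A, Y k x ∈ Metric.ball (e k) η
  Z_mem : ∀ k, ∀ x ∈ A, Z k x ∈ Metric.ball (-e k) η
  crit : ∀ k, ∀ x ∈ A, Crit s (e k) x (Y k x) (Z k x)
  B_eq : ∀ k, B k = Y k '' A
  C_eq : ∀ k, C k = Z k '' A
  lam_A : ∀ x ∈ A, lam x = x
  lam_Y : ∀ k, ∀ x ∈ A, lam (Y k x) = x
  lam_Z : ∀ k, ∀ x ∈ A, lam (Z k x) = x

end Concrete

end Crest.Agent.S0175
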