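/-
Row 130 (S0175), package G1: the pair interaction `phi`, tangent inequality, Lipschitz bound,
link with the `ENNReal` valued costs of the Prelude, and the key contact inequality.
-/
import Crest.Agent.S0175_Defs

set_option autoImplicit false

namespace Crest.Agent.S0175

open MeasureTheory Crest.AnalysisR.OT
open scoped ENNReal RealInnerProductSpace

variable {d : ℕ} {s : ℝ}

/-- tangent line inequality for `τ ↦ τ^{-p}` at `τ = 1`. -/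
theorem Phi_key {p τ : ℝ} (hp : 0 < p) (hτ : 0 < τ) : 1 - p * (τ - 1) ≤ τ ^ (-p) := by
  rw [Real.rpow_def_of_pos hτ]
  have h1 := Real.add_one_le_exp (Real.log τ * -p)
  have h2 := Real.log_le_sub_one_of_pos hτ
  nlinarith

/-- tangent line inequality for `b ↦ b^{-p}` at `a`. -/
theorem Phi_key2 {p a b : ℝ} (hp : 0 < p) (ha : 0 < a) (hb : 0 < b) :
    a ^ (-p) - p * a ^ (-p - 1) * (b - a) ≤ b ^ (-p) := by
  have h1 := Phi_key hp (div_pos hb ha)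
  have h2 : b ^ (-p) = a ^ (-p) * (b / a) ^ (-p) := by
    rw [← Real.mul_rpow ha.le (div_pos hb ha).le, mul_div_cancel₀ _ ha.ne']
  have h3 : a ^ (-p - 1) = a ^ (-p) / a := by
    rw [Real.rpow_sub ha, Real.rpow_one]
  have h4 : 0 < a ^ (-p) := Real.rpow_pos_of_pos ha _
  rw [h2, h3]
  have h5 : a ^ (-p) - p * (a ^ (-p) / a) * (b - a) = a ^ (-p) * (1 - p * (b / a - 1)) := by
    field_simp
  rw [h5]
  exact mul_le_mul_of_nonneg_left h1 h4.le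

theorem phi_tangent (hs : 0 < s) (v₀ v₁ : EE d) (h₀ : v₀ ≠ 0) (h₁ : v₁ ≠ 0) :
    phi s v₀ + ⟪gphi s v₀, v₁ - v₀⟫ - s / 2 * ‖v₀‖ ^ (-s - 2) * ‖v₁ - v₀‖ ^ 2 ≤ phi s v₁ := by
  have ha : 0 < ‖v₀‖ := norm_pos_iff.mpr h₀
  have hb : 0 < ‖v₁‖ := norm_pos_iff.mpr h₁
  have ha2 : 0 < ‖v₀‖ ^ 2 := by positivity
  have hb2 : 0 < ‖v₁‖ ^ 2 := by positivity
  have hkey := Phi_key2 (p := s / 2) (by positivity) ha2 hb2
  have e1 : ∀ x : ℝ, 0 < x → (x ^ 2) ^ (-(s / 2)) = x ^ (-s) := by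
    intro x hx
    rw [← Real.rpow_natCast, ← Real.rpow_mul hx.le]
    congr 1
    push_cast; ring
  have e2 : (‖v₀‖ ^ 2) ^ (-(s / 2) - 1) = ‖v₀‖ ^ (-s - 2) := by
    rw [← Real.rpow_natCast, ← Real.rpow_mul ha.le]
    congr 1
    push_cast; ring
  rw [e1 _ ha, e1 _ hb, e2] at hkey
  have e3 : ‖v₁‖ ^ 2 - ‖v₀‖ ^ 2 = 2 * ⟪v₀, v₁ - v₀⟫ + ‖v₁ - v₀‖ ^ 2 := by
    have : v₁ = v₀ + (v₁ - v₀) := by abel
    conv_lhs => rw [this]
    rw [norm_add_sq_real]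
    ring
  have e4 : ⟪gphi s v₀, v₁ - v₀⟫ = -s * ‖v₀‖ ^ (-s - 2) * ⟪v₀, v₁ - v₀⟫ := by
    unfold gphi
    rw [real_inner_smul_left]
  unfold phi
  rw [e4]
  rw [e3] at hkey
  linarith

theorem phi_nonneg (v : EE d) : 0 ≤ phi s v := by
  unfold phi; positivity

theorem phi_ge (hs : 0 < s) (v : EE d) (D : ℝ) (hv : v ≠ 0) (h : ‖v‖ ≤ D) : D ^ (-s) ≤ phi s v := by
  unfold phi
  exact Real.rpow_le_rpow_of_nonpos (norm_pos_iff.mpr hv) h (by linarith)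

theorem Phi_lip_aux (hs : 0 < s) {a b : ℝ} (ha : 1 / 2 ≤ a) (hab : a ≤ b) :
    |a ^ (-s) - b ^ (-s)| ≤ s * (2 : ℝ) ^ (s + 1) * |a - b| := by
  have ha0 : 0 < a := by linarith
  have hb0 : 0 < b := by linarith
  have h1 := Phi_key2 hs ha0 hb0
  have h2 : b ^ (-s) ≤ a ^ (-s) := Real.rpow_le_rpow_of_nonpos ha0 hab (by linarith)
  have h3 : a ^ (-s - 1) ≤ (2 : ℝ) ^ (s + 1) := by
    have : a ^ (-s - 1) ≤ (1 / 2 : ℝ) ^ (-s - 1) :=
      Real.rpow_le_rpow_of_nonpos (by norm_num) ha (by linarith)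
    refine this.trans (le_of_eq ?_)
    rw [one_div, Real.inv_rpow (by norm_num), ← Real.rpow_neg (by norm_num)]
    congr 1; ring
  rw [abs_of_nonneg (by linarith), abs_of_nonpos (by linarith)]
  have h4 : s * a ^ (-s - 1) * (b - a) ≤ s * (2 : ℝ) ^ (s + 1) * (b - a) := by
    have : 0 ≤ b - a := by linarith
    gcongr
  linarith

theorem phi_lipschitz (hs : 0 < s) (v v' : EE d) (h : 1 / 2 ≤ ‖v‖) (h' : 1 / 2 ≤ ‖v'‖) :
    |phi s v - phi s v'| ≤ s * (2 : ℝ) ^ (s + 1) * ‖v - v'‖ := by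
  unfold phi
  have h1 : |‖v‖ - ‖v'‖| ≤ ‖v - v'‖ := abs_norm_sub_norm_le v v'
  have h2 : |‖v‖ ^ (-s) - ‖v'‖ ^ (-s)| ≤ s * (2 : ℝ) ^ (s + 1) * |‖v‖ - ‖v'‖| := by
    rcases le_total ‖v‖ ‖v'‖ with hle | hle
    · exact Phi_lip_aux hs h hle
    · rw [abs_sub_comm, abs_sub_comm ‖v‖]
      exact Phi_lip_aux hs h' hle
  refine h2.trans ?_
  gcongr

theorem pairCost_eq (x y : EE d) (hxy : x ≠ y) :
    pairCost s x y = ENNReal.ofReal (phi s (x - y)) := by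
  unfold pairCost phi
  exact ENNReal.ofReal_rpow_of_pos (norm_pos_iff.mpr (sub_ne_zero.mpr hxy))

theorem pairCost_ge (hs : 0 < s) (x y : EE d) (D : ℝ) (_hD : 0 < D) (h : ‖x - y‖ ≤ D) :
    ENNReal.ofReal (D ^ (-s)) ≤ pairCost s x y := by
  by_cases hxy : x = y
  · subst hxy
    unfold pairCost
    simp [ENNReal.zero_rpow_of_neg (show -s < 0 by linarith)]
  · rw [pairCost_eq x y hxy]
    exact ENNReal.ofReal_le_ofReal (phi_ge hs _ D (sub_ne_zero.mpr hxy) h)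

theorem pairCost_comm (x y : EE d) : pairCost s x y = pairCost s y x := by
  unfold pairCost
  rw [norm_sub_rev]

theorem tripleCost_eq (x y z : EE d) (hxy : x ≠ y) (hxz : x ≠ z) (hyz : y ≠ z) :
    tripleCost s (x, y, z) = ENNReal.ofReal (c3 s x y z) := by
  unfold tripleCost c3
  simp only
  rw [pairCost_eq x y hxy, pairCost_eq x z hxz, pairCost_eq y z hyz,
    ENNReal.ofReal_add (add_nonneg (phi_nonneg _) (phi_nonneg _)) (phi_nonneg _),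
    ENNReal.ofReal_add (phi_nonneg _) (phi_nonneg _)]

theorem tripleCost_cyc (p₁ p₂ p₃ : EE d) :
    tripleCost s (p₂, p₃, p₁) = tripleCost s (p₁, p₂, p₃) := by
  unfold tripleCost
  simp only
  rw [pairCost_comm p₂ p₁, pairCost_comm p₃ p₁]
  ring

theorem tripleCost_swap (p₁ p₂ p₃ : EE d) :
    tripleCost s (p₁, p₃, p₂) = tripleCost s (p₁, p₂, p₃) := by
  unfold tripleCost
  simp only
  rw [pairCost_comm p₃ p₂]
  ring

theorem measurable_tripleCost : Measurable (tripleCost s : EE d × EE d × EE d → ℝ≥0∞) := by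
  unfold tripleCost pairCost
  fun_prop

theorem measurable_phi : Measurable (phi s : EE d → ℝ) := by
  unfold phi
  fun_prop

theorem Phi_rpow_le (hs : 0 < s) {a : ℝ} (ha : 1 / 2 ≤ a) : a ^ (-s - 2) ≤ (2 : ℝ) ^ (s + 2) := by
  have : a ^ (-s - 2) ≤ (1 / 2 : ℝ) ^ (-s - 2) :=
    Real.rpow_le_rpow_of_nonpos (by norm_num) ha (by linarith)
  refine this.trans (le_of_eq ?_)
  rw [one_div, Real.inv_rpow (by norm_num), ← Real.rpow_neg (by norm_num)]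
  congr 1; ring

theorem contact_ineq (hs : 0 < s) (t : ℝ) (e x₀ y z₀ x z : EE d) (hc : Crit s e x₀ y z₀)
    (h1 : 1 / 2 ≤ ‖x₀ - y‖) (h2 : 1 / 2 ≤ ‖x₀ - z₀‖) (h3 : 1 / 2 ≤ ‖y - z₀‖)
    (hxy : x ≠ y) (hxz : x ≠ z) (hyz : y ≠ z) :
    c3 s x₀ y z₀ - uA s t x₀ - uC s t e z₀ + s * (2 : ℝ) ^ (s + 1) * (‖x - x₀‖ ^ 2 + ‖z - z₀‖ ^ 2)
      ≤ c3 s x y z - uA s t x - uC s t e z := by
  obtain ⟨hc1, hc3⟩ := hc
  set α := x - x₀ with hα
  set γ := z - z₀ with hγ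
  have n1 : x₀ - y ≠ 0 := by
    intro h; rw [h, norm_zero] at h1; norm_num at h1
  have n2 : x₀ - z₀ ≠ 0 := by
    intro h; rw [h, norm_zero] at h2; norm_num at h2
  have n3 : y - z₀ ≠ 0 := by
    intro h; rw [h, norm_zero] at h3; norm_num at h3
  have t1 := phi_tangent hs (x₀ - y) (x - y) n1 (sub_ne_zero.mpr hxy)
  have t2 := phi_tangent hs (x₀ - z₀) (x - z) n2 (sub_ne_zero.mpr hxz)
  have t3 := phi_tangent hs (y - z₀) (y - z) n3 (sub_ne_zero.mpr hyz)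
  have d1 : x - y - (x₀ - y) = α := by rw [hα]; abel
  have d2 : x - z - (x₀ - z₀) = α - γ := by rw [hα, hγ]; abel
  have d3 : y - z - (y - z₀) = -γ := by rw [hγ]; abel
  rw [d1] at t1
  rw [d2] at t2
  rw [d3, norm_neg] at t3
  have b1 := Phi_rpow_le hs h1
  have b2 := Phi_rpow_le hs h2
  have b3 := Phi_rpow_le hs h3
  set P : ℝ := (2 : ℝ) ^ (s + 2) with hP
  have hPpos : 0 < P := by positivity
  have hP1 : (2 : ℝ) ^ (s + 1) = P / 2 := by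
    have : (2 : ℝ) ^ (s + 2) = (2 : ℝ) ^ (s + 1) * 2 := by
      rw [show s + 2 = (s + 1) + 1 by ring, Real.rpow_add (by norm_num) (s + 1) 1, Real.rpow_one]
    rw [hP, this]
    ring
  have hK : Kc s = 4 * s * P := by
    unfold Kc
    have : (2 : ℝ) ^ (s + 4) = (2 : ℝ) ^ (s + 2) * 4 := by
      rw [show s + 4 = (s + 2) + 2 by ring, Real.rpow_add (by norm_num) (s + 2) 2]
      norm_num
    rw [hP, this]
    ring
  -- the quadratic error terms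
  have q1 : s / 2 * ‖x₀ - y‖ ^ (-s - 2) * ‖α‖ ^ 2 ≤ s / 2 * P * ‖α‖ ^ 2 := by gcongr
  have q2 : s / 2 * ‖x₀ - z₀‖ ^ (-s - 2) * ‖α - γ‖ ^ 2 ≤ s / 2 * P * ‖α - γ‖ ^ 2 := by gcongr
  have q3 : s / 2 * ‖y - z₀‖ ^ (-s - 2) * ‖γ‖ ^ 2 ≤ s / 2 * P * ‖γ‖ ^ 2 := by gcongr
  have q4 : ‖α - γ‖ ^ 2 ≤ 2 * ‖α‖ ^ 2 + 2 * ‖γ‖ ^ 2 := by
    have := parallelogram_law_with_norm ℝ α γ
    nlinarith [sq_nonneg ‖α + γ‖]
  have q5 : s / 2 * P * ‖α - γ‖ ^ 2 ≤ s / 2 * P * (2 * ‖α‖ ^ 2 + 2 * ‖γ‖ ^ 2) := by gcongr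
  -- the linear terms cancel by criticality
  have l1 : ⟪gphi s (x₀ - y) + gphi s (x₀ - z₀) + Kc s • x₀, α⟫ = 0 := by rw [hc1, inner_zero_left]
  have l3 : ⟪-gphi s (x₀ - z₀) - gphi s (y - z₀) + Kc s • (z₀ + e) - pvec s e, γ⟫ = 0 := by
    rw [hc3, inner_zero_left]
  rw [inner_add_left, inner_add_left, real_inner_smul_left] at l1
  rw [inner_sub_left, inner_add_left, inner_sub_left, inner_neg_left, real_inner_smul_left] at l3
  rw [inner_sub_right] at t2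
  rw [inner_neg_right] at t3
  -- the quadratic potentials
  have ex : ‖x‖ ^ 2 = ‖x₀‖ ^ 2 + 2 * ⟪x₀, α⟫ + ‖α‖ ^ 2 := by
    have : x = x₀ + α := by rw [hα]; abel
    rw [this, norm_add_sq_real]
  have ez : ‖z + e‖ ^ 2 = ‖z₀ + e‖ ^ 2 + 2 * ⟪z₀ + e, γ⟫ + ‖γ‖ ^ 2 := by
    have : z + e = (z₀ + e) + γ := by rw [hγ]; abel
    rw [this, norm_add_sq_real]
  have ep : ⟪pvec s e, z + e⟫ = ⟪pvec s e, z₀ + e⟫ + ⟪pvec s e, γ⟫ := by
    have : z + e = (z₀ + e) + γ := by rw [hγ]; abel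
    rw [this, inner_add_right]
  unfold c3 uA uC
  rw [ex, ez, ep, hP1, hK]
  rw [hK] at l1 l3
  nlinarith

end Crest.Agent.S0175
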