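/-
Row 130 (S0175), package G5a: clusters are disjoint, evaluation / bounds / measurability of the
potential `uTot`, the pattern inequality, equality on contact triples, closeness estimate.
-/
import Crest.Agent.S0175_Phi

set_option autoImplicit false

namespace Crest.Agent.S0175

open MeasureTheory Crest.AnalysisR.OT
open scoped ENNReal RealInnerProductSpace

variable {d : ℕ} {s t η : ℝ} {e : Bool → EE d} {Y Z : Bool → EE d → EE d} {lam : EE d → EE d}
  {A : Set (EE d)} {B C : Bool → Set (EE d)}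

/-! ### distance helpers -/

theorem G5a_diff {a b p q : EE d} (hp : p ∈ Metric.ball a η) (hq : q ∈ Metric.ball b η) :
    ‖(p - q) - (a - b)‖ ≤ 2 * η := by
  rw [Metric.mem_ball, dist_eq_norm] at hp hq
  have h1 : (p - q) - (a - b) = (p - a) - (q - b) := by abel
  rw [h1]
  have := norm_sub_le (p - a) (q - b)
  linarith

theorem G5a_lower {a b p q : EE d} (hp : p ∈ Metric.ball a η) (hq : q ∈ Metric.ball b η) :
    ‖a - b‖ - 2 * η ≤ ‖p - q‖ := by
  have h1 := G5a_diff hp hq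
  have h2 : ‖a - b‖ ≤ ‖p - q‖ + ‖(p - q) - (a - b)‖ := by
    have := norm_sub_le (p - q) ((p - q) - (a - b))
    simpa using this
  linarith

theorem G5a_one_le {v : EE d} (h : 1 ≤ ‖v‖ ^ 2) : 1 ≤ ‖v‖ := by
  by_contra hlt
  rw [not_le] at hlt
  have h0 := norm_nonneg v
  nlinarith

theorem G5a_norm_add (he_norm : ∀ k, ‖e k‖ = 1) (he_orth : ⟪e false, e true⟫ = 0) (k k' : Bool) :
    1 ≤ ‖e k + e k'‖ := by
  apply G5a_one_le
  rw [norm_add_sq_real, he_norm, he_norm]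
  have : 0 ≤ ⟪e k, e k'⟫ := by
    cases k <;> cases k'
    · rw [real_inner_self_eq_norm_sq]; positivity
    · rw [he_orth]
    · rw [real_inner_comm, he_orth]
    · rw [real_inner_self_eq_norm_sq]; positivity
  linarith

theorem G5a_norm_sub (he_norm : ∀ k, ‖e k‖ = 1) (he_orth : ⟪e false, e true⟫ = 0) :
    1 ≤ ‖e false - e true‖ := by
  apply G5a_one_le
  rw [norm_sub_sq_real, he_norm, he_norm, he_orth]
  norm_num

theorem G5a_ball_disjoint {a b : EE d} (hη : η ≤ 1 / 8) (hab : 1 ≤ ‖a - b‖) :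
    Disjoint (Metric.ball a η) (Metric.ball b η) := by
  apply Metric.ball_disjoint_ball
  rw [dist_eq_norm]
  linarith

/-- disjointness of the five clusters (centres `0, ±e false, ±e true` are at mutual distance `≥ 1`,
radii `≤ 1/8`). -/
theorem clusters_disjoint (he_norm : ∀ k, ‖e k‖ = 1) (he_orth : ⟪e false, e true⟫ = 0)
    (hη : η ≤ 1 / 8) (hA : A ⊆ Metric.ball 0 η) (hB : ∀ k, B k ⊆ Metric.ball (e k) η)
    (hC : ∀ k, C k ⊆ Metric.ball (-e k) η) :
    (∀ k, Disjoint A (B k)) ∧ (∀ k, Disjoint A (C k)) ∧ (∀ k k', Disjoint (B k) (C k')) ∧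
      Disjoint (B false) (B true) ∧ Disjoint (C false) (C true) := by
  refine ⟨fun k => ?_, fun k => ?_, fun k k' => ?_, ?_, ?_⟩
  · refine (G5a_ball_disjoint hη ?_).mono hA (hB k)
    rw [zero_sub, norm_neg, he_norm]
  · refine (G5a_ball_disjoint hη ?_).mono hA (hC k)
    rw [zero_sub, neg_neg, he_norm]
  · refine (G5a_ball_disjoint hη ?_).mono (hB k) (hC k')
    rw [sub_neg_eq_add]
    exact G5a_norm_add he_norm he_orth k k'
  · exact (G5a_ball_disjoint hη (G5a_norm_sub he_norm he_orth)).mono (hB false) (hB true)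
  · refine (G5a_ball_disjoint hη ?_).mono (hC false) (hC true)
    have : -e false - -e true = -(e false - e true) := by abel
    rw [this, norm_neg]
    exact G5a_norm_sub he_norm he_orth

theorem Geo.B_sub (hG : Geo s η e Y Z lam A B C) (k : Bool) : B k ⊆ Metric.ball (e k) η := by
  rw [hG.B_eq k]
  rintro _ ⟨x, hx, rfl⟩
  exact hG.Y_mem k x hx

theorem Geo.C_sub (hG : Geo s η e Y Z lam A B C) (k : Bool) : C k ⊆ Metric.ball (-e k) η := by
  rw [hG.C_eq k]
  rintro _ ⟨x, hx, rfl⟩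
  exact hG.Z_mem k x hx

theorem Geo.disj (hS : Small s t η) (hG : Geo s η e Y Z lam A B C) :
    (∀ k, Disjoint A (B k)) ∧ (∀ k, Disjoint A (C k)) ∧ (∀ k k', Disjoint (B k) (C k')) ∧
      Disjoint (B false) (B true) ∧ Disjoint (C false) (C true) :=
  clusters_disjoint hG.e_norm hG.e_orth hS.η_le hG.A_sub hG.B_sub hG.C_sub

theorem uTot_of_mem_A {x : EE d} (hx : x ∈ A) : uTot s t e Z lam A B C x = uA s t x := by
  unfold uTot
  rw [if_pos hx]

theorem uTot_of_mem_B (hS : Small s t η) (hG : Geo s η e Y Z lam A B C) (k : Bool) {x : EE d}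
    (hx : x ∈ B k) : uTot s t e Z lam A B C x = uB s t (e k) (Z k) lam x := by
  obtain ⟨dAB, -, -, dBB, -⟩ := hG.disj hS
  have hA : x ∉ A := fun h => Set.disjoint_left.mp (dAB k) h hx
  unfold uTot
  rw [if_neg hA]
  cases k
  · rw [if_pos hx]
  · have hB : x ∉ B false := fun h => Set.disjoint_left.mp dBB h hx
    rw [if_neg hB, if_pos hx]

theorem uTot_of_mem_C (hS : Small s t η) (hG : Geo s η e Y Z lam A B C) (k : Bool) {x : EE d}
    (hx : x ∈ C k) : uTot s t e Z lam A B C x = uC s t (e k) x := by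
  obtain ⟨-, dAC, dBC, -, dCC⟩ := hG.disj hS
  have hA : x ∉ A := fun h => Set.disjoint_left.mp (dAC k) h hx
  have hB : ∀ k', x ∉ B k' := fun k' h => Set.disjoint_left.mp (dBC k' k) h hx
  unfold uTot
  rw [if_neg hA, if_neg (hB false), if_neg (hB true)]
  cases k
  · rw [if_pos hx]
  · have hC : x ∉ C false := fun h => Set.disjoint_left.mp dCC h hx
    rw [if_neg hC, if_pos hx]

theorem uTot_of_not_mem {x : EE d} (hx : x ∉ Kset A B C) : uTot s t e Z lam A B C x = 0 := by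
  have hA : x ∉ A := fun h => hx (Or.inl (Or.inl h))
  have hB0 : x ∉ B false := fun h => hx (Or.inl (Or.inr (Or.inl h)))
  have hB1 : x ∉ B true := fun h => hx (Or.inl (Or.inr (Or.inr h)))
  have hC0 : x ∉ C false := fun h => hx (Or.inr (Or.inl h))
  have hC1 : x ∉ C true := fun h => hx (Or.inr (Or.inr h))
  unfold uTot
  rw [if_neg hA, if_neg hB0, if_neg hB1, if_neg hC0, if_neg hC1]

theorem G5a_Kc_nonneg (hs : 0 < s) : 0 ≤ Kc s := by
  unfold Kc
  positivity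

theorem G5a_sq_le {v : EE d} (h : ‖v‖ < η) : ‖v‖ ^ 2 ≤ η ^ 2 := by
  have h0 := norm_nonneg v
  nlinarith

theorem uA_bounds (hs : 0 < s) (hS : Small s t η) {x : EE d} (hx : x ∈ Metric.ball (0 : EE d) η) :
    0 ≤ uA s t x ∧ uA s t x ≤ 2 + (2 : ℝ) ^ (-s) - 2 * t := by
  rw [Metric.mem_ball, dist_zero_right] at hx
  have hK := G5a_Kc_nonneg hs
  have h1 := G5a_sq_le hx
  have h2 : Kc s / 2 * ‖x‖ ^ 2 ≤ Kc s / 2 * η ^ 2 := mul_le_mul_of_nonneg_left h1 (by linarith)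
  have h3 : 0 ≤ Kc s / 2 * ‖x‖ ^ 2 := by positivity
  have h4 : (0 : ℝ) ≤ (2 : ℝ) ^ (-s) := by positivity
  have h5 := hS.uA_nonneg
  unfold uA
  constructor <;> linarith

theorem G5a_pvec_inner (hs : 0 < s) {e₀ v : EE d} (he : ‖e₀‖ = 1) (hv : ‖v‖ < η) :
    |⟪pvec s e₀, v⟫| ≤ s * (1 + (2 : ℝ) ^ (-s - 1)) * η := by
  have h1 := abs_real_inner_le_norm (pvec s e₀) v
  have hc : 0 ≤ s * (1 + (2 : ℝ) ^ (-s - 1)) := by positivity
  have h2 : ‖pvec s e₀‖ = s * (1 + (2 : ℝ) ^ (-s - 1)) := by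
    unfold pvec
    rw [norm_smul, he, mul_one, Real.norm_of_nonneg hc]
  rw [h2] at h1
  have h3 : s * (1 + (2 : ℝ) ^ (-s - 1)) * ‖v‖ ≤ s * (1 + (2 : ℝ) ^ (-s - 1)) * η :=
    mul_le_mul_of_nonneg_left hv.le hc
  linarith

theorem uC_bounds (hs : 0 < s) (hS : Small s t η) {e₀ z : EE d} (he : ‖e₀‖ = 1)
    (hz : z ∈ Metric.ball (-e₀) η) :
    t - varpi s η ≤ uC s t e₀ z ∧ uC s t e₀ z ≤ t + varpi s η := by
  rw [Metric.mem_ball, dist_eq_norm, sub_neg_eq_add] at hz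
  have hK := G5a_Kc_nonneg hs
  have h1 := G5a_sq_le hz
  have h2 : Kc s / 2 * ‖z + e₀‖ ^ 2 ≤ Kc s / 2 * η ^ 2 := mul_le_mul_of_nonneg_left h1 (by linarith)
  have h3 : 0 ≤ Kc s / 2 * ‖z + e₀‖ ^ 2 := by positivity
  have h4 := abs_le.mp (G5a_pvec_inner hs he hz)
  have h5 : 0 ≤ 3 * s * (2 : ℝ) ^ (s + 2) * η := by
    have := hS.η_pos
    positivity
  have h6 : 0 ≤ Kc s * η ^ 2 := by positivity
  unfold uC varpi
  constructor <;> nlinarith [h4.1, h4.2]

theorem G5a_two_rpow : (2 : ℝ) ^ (s + 2) = 2 * (2 : ℝ) ^ (s + 1) := by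
  rw [show s + 2 = (s + 1) + 1 by ring, Real.rpow_add_one (by norm_num)]
  ring

/-- `phi` near a reference vector. -/
theorem G5a_phi_near (hs : 0 < s) (hη : η ≤ 1 / 8) {a b p q : EE d} (hab : 1 ≤ ‖a - b‖)
    (hp : p ∈ Metric.ball a η) (hq : q ∈ Metric.ball b η) :
    |phi s (p - q) - phi s (a - b)| ≤ s * (2 : ℝ) ^ (s + 2) * η := by
  have h1 := G5a_lower hp hq
  have h2 := G5a_diff hp hq
  have h3 := phi_lipschitz hs (p - q) (a - b) (by linarith) (by linarith)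
  have hc : 0 ≤ s * (2 : ℝ) ^ (s + 1) := by positivity
  have h4 := mul_le_mul_of_nonneg_left h2 hc
  rw [G5a_two_rpow]
  nlinarith

theorem G5a_c3_near (hs : 0 < s) (hη : η ≤ 1 / 8) {e₀ x y z : EE d} (he : ‖e₀‖ = 1)
    (hx : x ∈ Metric.ball (0 : EE d) η) (hy : y ∈ Metric.ball e₀ η)
    (hz : z ∈ Metric.ball (-e₀) η) :
    |c3 s x y z - (2 + (2 : ℝ) ^ (-s))| ≤ 3 * s * (2 : ℝ) ^ (s + 2) * η := by
  have n1 : ‖(0 : EE d) - e₀‖ = 1 := by rw [zero_sub, norm_neg, he]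
  have n2 : ‖(0 : EE d) - -e₀‖ = 1 := by rw [zero_sub, neg_neg, he]
  have n3 : ‖e₀ - -e₀‖ = 2 := by
    rw [sub_neg_eq_add, ← two_smul ℝ e₀, norm_smul, he]
    norm_num
  have h1 := abs_le.mp (G5a_phi_near hs hη (by rw [n1]) hx hy)
  have h2 := abs_le.mp (G5a_phi_near hs hη (by rw [n2]) hx hz)
  have h3 := abs_le.mp (G5a_phi_near hs hη (by rw [n3]; norm_num) hy hz)
  have p1 : phi s ((0 : EE d) - e₀) = 1 := by unfold phi; rw [n1, Real.one_rpow]
  have p2 : phi s ((0 : EE d) - -e₀) = 1 := by unfold phi; rw [n2, Real.one_rpow]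
  have p3 : phi s (e₀ - -e₀) = (2 : ℝ) ^ (-s) := by unfold phi; rw [n3]
  rw [p1] at h1
  rw [p2] at h2
  rw [p3] at h3
  unfold c3
  rw [abs_le]
  constructor <;> linarith [h1.1, h1.2, h2.1, h2.2, h3.1, h3.2]

/-- uses `phi_lipschitz` three times: `|c3 x y z - (2 + 2^{-s})| ≤ 3 s 2^{s+2} η`. -/
theorem uB_bounds (hs : 0 < s) (hS : Small s t η) (hG : Geo s η e Y Z lam A B C) (k : Bool)
    {y : EE d} (hy : y ∈ B k) :
    t - varpi s η ≤ uB s t (e k) (Z k) lam y ∧ uB s t (e k) (Z k) lam y ≤ t + varpi s η := by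
  rw [hG.B_eq k] at hy
  obtain ⟨x, hx, rfl⟩ := hy
  have hxb := hG.A_sub hx
  have hyb := hG.Y_mem k x hx
  have hzb := hG.Z_mem k x hx
  have h1 := abs_le.mp (G5a_c3_near hs hS.η_le (hG.e_norm k) hxb hyb hzb)
  have hK := G5a_Kc_nonneg hs
  have hx' : ‖x‖ < η := by simpa using hxb
  have hz' : ‖Z k x + e k‖ < η := by
    have := hzb
    rwa [Metric.mem_ball, dist_eq_norm, sub_neg_eq_add] at this
  have h2 := G5a_sq_le hx'
  have h3 := G5a_sq_le hz'
  have h2' : Kc s / 2 * ‖x‖ ^ 2 ≤ Kc s / 2 * η ^ 2 := mul_le_mul_of_nonneg_left h2 (by linarith)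
  have h3' : Kc s / 2 * ‖Z k x + e k‖ ^ 2 ≤ Kc s / 2 * η ^ 2 :=
    mul_le_mul_of_nonneg_left h3 (by linarith)
  have h2'' : 0 ≤ Kc s / 2 * ‖x‖ ^ 2 := by positivity
  have h3'' : 0 ≤ Kc s / 2 * ‖Z k x + e k‖ ^ 2 := by positivity
  have h4 := abs_le.mp (G5a_pvec_inner hs (hG.e_norm k) hz')
  unfold uB
  rw [hG.lam_Y k x hx]
  unfold uA uC varpi
  constructor <;> nlinarith [h1.1, h1.2, h4.1, h4.2]

theorem G5a_mem_cases {x : EE d} (hx : x ∈ Kset A B C) :
    x ∈ A ∨ (∃ k, x ∈ B k) ∨ ∃ k, x ∈ C k := by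
  rcases hx with (h | h | h) | h | h
  · exact Or.inl h
  · exact Or.inr (Or.inl ⟨false, h⟩)
  · exact Or.inr (Or.inl ⟨true, h⟩)
  · exact Or.inr (Or.inr ⟨false, h⟩)
  · exact Or.inr (Or.inr ⟨true, h⟩)

theorem uTot_nonneg (hs : 0 < s) (hS : Small s t η) (hG : Geo s η e Y Z lam A B C) (x : EE d) :
    0 ≤ uTot s t e Z lam A B C x := by
  by_cases hx : x ∈ Kset A B C
  · rcases G5a_mem_cases hx with h | ⟨k, h⟩ | ⟨k, h⟩
    · rw [uTot_of_mem_A h]
      exact (uA_bounds hs hS (hG.A_sub h)).1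
    · rw [uTot_of_mem_B hS hG k h]
      have := (uB_bounds hs hS hG k h).1
      have := hS.varpi_le
      linarith
    · rw [uTot_of_mem_C hS hG k h]
      have := (uC_bounds hs hS (hG.e_norm k) (hG.C_sub k h)).1
      have := hS.varpi_le
      linarith
  · rw [uTot_of_not_mem hx]

theorem uTot_le_three (hs : 0 < s) (hS : Small s t η) (hG : Geo s η e Y Z lam A B C) (x : EE d) :
    uTot s t e Z lam A B C x ≤ 3 := by
  have hK := G5a_Kc_nonneg hs
  have h0 : 0 ≤ Kc s / 2 * η ^ 2 := by positivity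
  have h1 := hS.uA_nonneg
  have h2 := hS.varpi_le
  have h3 := hS.t_pos
  by_cases hx : x ∈ Kset A B C
  · rcases G5a_mem_cases hx with h | ⟨k, h⟩ | ⟨k, h⟩
    · rw [uTot_of_mem_A h]
      have := (uA_bounds hs hS (hG.A_sub h)).2
      have h4 : (2 : ℝ) ^ (-s) ≤ 1 :=
        Real.rpow_le_one_of_one_le_of_nonpos (by norm_num) (by linarith)
      linarith
    · rw [uTot_of_mem_B hS hG k h]
      have := (uB_bounds hs hS hG k h).2
      linarith
    · rw [uTot_of_mem_C hS hG k h]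
      have := (uC_bounds hs hS (hG.e_norm k) (hG.C_sub k h)).2
      linarith
  · rw [uTot_of_not_mem hx]
    norm_num

theorem G5a_measurable_uA : Measurable (uA s t : EE d → ℝ) := by
  unfold uA
  fun_prop

theorem G5a_measurable_uC (e₀ : EE d) : Measurable (uC s t e₀ : EE d → ℝ) := by
  unfold uC
  fun_prop

theorem G5a_measurable_uB (e₀ : EE d) {Z₀ : EE d → EE d} (hZ : Measurable Z₀)
    (hlam : Measurable lam) : Measurable (uB s t e₀ Z₀ lam : EE d → ℝ) := by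
  unfold uB c3
  have hZl : Measurable fun y => Z₀ (lam y) := hZ.comp hlam
  have h1 : Measurable fun y => phi s (lam y - y) := measurable_phi.comp (hlam.sub measurable_id)
  have h2 : Measurable fun y => phi s (lam y - Z₀ (lam y)) := measurable_phi.comp (hlam.sub hZl)
  have h3 : Measurable fun y => phi s (y - Z₀ (lam y)) := measurable_phi.comp (measurable_id.sub hZl)
  have h4 : Measurable fun y => uA s t (lam y) := G5a_measurable_uA.comp hlam
  have h5 : Measurable fun y => uC s t e₀ (Z₀ (lam y)) := (G5a_measurable_uC e₀).comp hZl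
  exact (((h1.add h2).add h3).sub h4).sub h5

theorem measurable_uTot (hZ : ∀ k, Measurable (Z k)) (hlam : Measurable lam)
    (hA : MeasurableSet A) (hB : ∀ k, MeasurableSet (B k)) (hC : ∀ k, MeasurableSet (C k)) :
    Measurable (uTot s t e Z lam A B C) := by
  unfold uTot
  exact Measurable.ite hA G5a_measurable_uA
    (Measurable.ite (hB false) (G5a_measurable_uB _ (hZ false) hlam)
      (Measurable.ite (hB true) (G5a_measurable_uB _ (hZ true) hlam)
        (Measurable.ite (hC false) (G5a_measurable_uC _)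
          (Measurable.ite (hC true) (G5a_measurable_uC _) measurable_const))))

theorem G5a_ne {a b p q : EE d} (hη : η ≤ 1 / 8) (hab : 1 ≤ ‖a - b‖)
    (hp : p ∈ Metric.ball a η) (hq : q ∈ Metric.ball b η) : p ≠ q := by
  intro h
  have h1 := G5a_lower hp hq
  rw [h, sub_self, norm_zero] at h1
  linarith

theorem G5a_n1 {e₀ : EE d} (he : ‖e₀‖ = 1) : ‖(0 : EE d) - e₀‖ = 1 := by
  rw [zero_sub, norm_neg, he]

theorem G5a_n2 {e₀ : EE d} (he : ‖e₀‖ = 1) : ‖(0 : EE d) - -e₀‖ = 1 := by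
  rw [zero_sub, neg_neg, he]

theorem G5a_n3 {e₀ : EE d} (he : ‖e₀‖ = 1) : ‖e₀ - -e₀‖ = 2 := by
  rw [sub_neg_eq_add, ← two_smul ℝ e₀, norm_smul, he]
  norm_num

/-- the pattern inequality (from `contact_ineq` at `x₀ = lam p₂`, `z₀ = Z k x₀`). -/
theorem pattern_ineq (hs : 0 < s) (hS : Small s t η) (hG : Geo s η e Y Z lam A B C) (k : Bool)
    {p₁ p₂ p₃ : EE d} (h₁ : p₁ ∈ A) (h₂ : p₂ ∈ B k) (h₃ : p₃ ∈ C k) :
    uA s t p₁ + uB s t (e k) (Z k) lam p₂ + uC s t (e k) p₃ +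
      s * (2 : ℝ) ^ (s + 1) * (‖p₁ - lam p₂‖ ^ 2 + ‖p₃ - Z k (lam p₂)‖ ^ 2) ≤ c3 s p₁ p₂ p₃ := by
  have b₁ := hG.A_sub h₁
  have b₂ := hG.B_sub k h₂
  have b₃ := hG.C_sub k h₃
  rw [hG.B_eq k] at h₂
  obtain ⟨x, hx, rfl⟩ := h₂
  have hxb := hG.A_sub hx
  have hzb := hG.Z_mem k x hx
  have he := hG.e_norm k
  have hη := hS.η_le
  have d1 := G5a_lower hxb b₂
  have d2 := G5a_lower hxb hzb
  have d3 := G5a_lower b₂ hzb
  rw [G5a_n1 he] at d1
  rw [G5a_n2 he] at d2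
  rw [G5a_n3 he] at d3
  have key := contact_ineq hs t (e k) x (Y k x) (Z k x) p₁ p₃ (hG.crit k x hx)
    (by linarith) (by linarith) (by linarith)
    (G5a_ne hη (by rw [G5a_n1 he]) b₁ b₂) (G5a_ne hη (by rw [G5a_n2 he]) b₁ b₃)
    (G5a_ne hη (by rw [G5a_n3 he]; norm_num) b₂ b₃)
  unfold uB
  rw [hG.lam_Y k x hx]
  linarith

/-- equality on the contact triples. -/
theorem geo_eq_c (hs : 0 < s) (hS : Small s t η) (hG : Geo s η e Y Z lam A B C) (k : Bool)
    {x : EE d} (hx : x ∈ A) :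
    tripleCost s (x, Y k x, Z k x) = ENNReal.ofReal (uTot s t e Z lam A B C x) +
      ENNReal.ofReal (uTot s t e Z lam A B C (Y k x)) +
      ENNReal.ofReal (uTot s t e Z lam A B C (Z k x)) := by
  have hxb := hG.A_sub hx
  have hyb := hG.Y_mem k x hx
  have hzb := hG.Z_mem k x hx
  have he := hG.e_norm k
  have hη := hS.η_le
  have hyB : Y k x ∈ B k := by rw [hG.B_eq k]; exact ⟨x, hx, rfl⟩
  have hzC : Z k x ∈ C k := by rw [hG.C_eq k]; exact ⟨x, hx, rfl⟩
  rw [tripleCost_eq x (Y k x) (Z k x) (G5a_ne hη (by rw [G5a_n1 he]) hxb hyb)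
    (G5a_ne hη (by rw [G5a_n2 he]) hxb hzb) (G5a_ne hη (by rw [G5a_n3 he]; norm_num) hyb hzb),
    ← ENNReal.ofReal_add (uTot_nonneg hs hS hG _) (uTot_nonneg hs hS hG _),
    ← ENNReal.ofReal_add (add_nonneg (uTot_nonneg hs hS hG _) (uTot_nonneg hs hS hG _))
      (uTot_nonneg hs hS hG _),
    uTot_of_mem_A hx, uTot_of_mem_B hS hG k hyB, uTot_of_mem_C hS hG k hzC]
  congr 1
  unfold uB
  rw [hG.lam_Y k x hx]
  ring

/-- moving the first point by `‖x - x'‖` changes the cost by at most `s 2^{s+2} ‖x - x'‖`. -/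
theorem geo_close (hs : 0 < s) (hS : Small s t η) (hG : Geo s η e Y Z lam A B C) (k : Bool)
    {x x' : EE d} (hx : x ∈ A) (hx' : x' ∈ A) :
    tripleCost s (x, Y k x', Z k x') ≤ tripleCost s (x', Y k x', Z k x') +
      ENNReal.ofReal (s * (2 : ℝ) ^ (s + 2) * ‖x - x'‖) := by
  have hxb := hG.A_sub hx
  have hxb' := hG.A_sub hx'
  have hyb := hG.Y_mem k x' hx'
  have hzb := hG.Z_mem k x' hx'
  have he := hG.e_norm k
  have hη := hS.η_le
  have ne3 := G5a_ne hη (by rw [G5a_n3 he]; norm_num) hyb hzb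
  rw [tripleCost_eq x (Y k x') (Z k x') (G5a_ne hη (by rw [G5a_n1 he]) hxb hyb)
      (G5a_ne hη (by rw [G5a_n2 he]) hxb hzb) ne3,
    tripleCost_eq x' (Y k x') (Z k x') (G5a_ne hη (by rw [G5a_n1 he]) hxb' hyb)
      (G5a_ne hη (by rw [G5a_n2 he]) hxb' hzb) ne3]
  have hc0 : 0 ≤ c3 s x' (Y k x') (Z k x') := by
    unfold c3
    have := phi_nonneg (s := s) (x' - Y k x')
    have := phi_nonneg (s := s) (x' - Z k x')
    have := phi_nonneg (s := s) (Y k x' - Z k x')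
    linarith
  rw [← ENNReal.ofReal_add hc0 (by positivity)]
  apply ENNReal.ofReal_le_ofReal
  have d1 := G5a_lower hxb hyb
  have d1' := G5a_lower hxb' hyb
  have d2 := G5a_lower hxb hzb
  have d2' := G5a_lower hxb' hzb
  rw [G5a_n1 he] at d1 d1'
  rw [G5a_n2 he] at d2 d2'
  have l1 := phi_lipschitz hs (x - Y k x') (x' - Y k x') (by linarith) (by linarith)
  have l2 := phi_lipschitz hs (x - Z k x') (x' - Z k x') (by linarith) (by linarith)
  rw [sub_sub_sub_cancel_right] at l1 l2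
  have l1' := (abs_le.mp l1).2
  have l2' := (abs_le.mp l2).2
  unfold c3
  rw [G5a_two_rpow]
  nlinarith

end Crest.Agent.S0175
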