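/-
Row 130 (S0175), package G5b: dual feasibility on all triples of cluster points and
identification of the contact set.
-/
import Crest.Agent.S0175_GeomA

set_option autoImplicit false

namespace Crest.Agent.S0175

open MeasureTheory Crest.AnalysisR.OT
open scoped ENNReal RealInnerProductSpace

variable {d : ℕ} {s t η : ℝ} {e : Bool → EE d} {Y Z : Bool → EE d → EE d} {lam : EE d → EE d}
  {A : Set (EE d)} {B C : Bool → Set (EE d)}

namespace G5b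

theorem mem_Kset_cases {p : EE d} (h : p ∈ Kset A B C) :
    p ∈ A ∨ ∃ k, p ∈ B k ∨ p ∈ C k := by
  unfold Kset at h
  rcases h with (h | h | h) | h | h
  · exact Or.inl h
  · exact Or.inr ⟨false, Or.inl h⟩
  · exact Or.inr ⟨true, Or.inl h⟩
  · exact Or.inr ⟨false, Or.inr h⟩
  · exact Or.inr ⟨true, Or.inr h⟩

theorem sum_ofReal (hs : 0 < s) (hS : Small s t η) (hG : Geo s η e Y Z lam A B C)
    (p₁ p₂ p₃ : EE d) :
    ENNReal.ofReal (uTot s t e Z lam A B C p₁) + ENNReal.ofReal (uTot s t e Z lam A B C p₂) +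
      ENNReal.ofReal (uTot s t e Z lam A B C p₃) =
    ENNReal.ofReal (uTot s t e Z lam A B C p₁ + uTot s t e Z lam A B C p₂ +
      uTot s t e Z lam A B C p₃) := by
  have h1 := uTot_nonneg hs hS hG p₁
  have h2 := uTot_nonneg hs hS hG p₂
  have h3 := uTot_nonneg hs hS hG p₃
  rw [ENNReal.ofReal_add (add_nonneg h1 h2) h3, ENNReal.ofReal_add h1 h2]

/-- general lower bound of the cost by distances. -/
theorem cost_ge (hs : 0 < s) (p₁ p₂ p₃ : EE d) {D₁₂ D₁₃ D₂₃ : ℝ} (h₁₂ : 0 < D₁₂) (h₁₃ : 0 < D₁₃)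
    (h₂₃ : 0 < D₂₃) (d₁₂ : ‖p₁ - p₂‖ ≤ D₁₂) (d₁₃ : ‖p₁ - p₃‖ ≤ D₁₃) (d₂₃ : ‖p₂ - p₃‖ ≤ D₂₃) :
    ENNReal.ofReal (D₁₂ ^ (-s) + D₁₃ ^ (-s) + D₂₃ ^ (-s)) ≤ tripleCost s (p₁, p₂, p₃) := by
  have a1 : 0 ≤ D₁₂ ^ (-s) := Real.rpow_nonneg h₁₂.le _
  have a2 : 0 ≤ D₁₃ ^ (-s) := Real.rpow_nonneg h₁₃.le _
  have a3 : 0 ≤ D₂₃ ^ (-s) := Real.rpow_nonneg h₂₃.le _
  rw [ENNReal.ofReal_add (add_nonneg a1 a2) a3, ENNReal.ofReal_add a1 a2]
  unfold tripleCost
  exact add_le_add (add_le_add (pairCost_ge hs _ _ _ h₁₂ d₁₂) (pairCost_ge hs _ _ _ h₁₃ d₁₃))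
    (pairCost_ge hs _ _ _ h₂₃ d₂₃)

/-- two points at distance `≤ 2η`. -/
theorem lt_of_close (hs : 0 < s) (hS : Small s t η) (hG : Geo s η e Y Z lam A B C)
    (p₁ p₂ p₃ x y : EE d) (hxy : ‖x - y‖ ≤ 2 * η)
    (hle : pairCost s x y ≤ tripleCost s (p₁, p₂, p₃)) :
    ENNReal.ofReal (uTot s t e Z lam A B C p₁) + ENNReal.ofReal (uTot s t e Z lam A B C p₂) +
      ENNReal.ofReal (uTot s t e Z lam A B C p₃) < tripleCost s (p₁, p₂, p₃) := by
  rw [sum_ofReal hs hS hG]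
  have h1 := uTot_le_three hs hS hG p₁
  have h2 := uTot_le_three hs hS hG p₂
  have h3 := uTot_le_three hs hS hG p₃
  have hpos : 0 < 2 * η := by have := hS.η_pos; linarith
  refine lt_of_lt_of_le ?_ ((pairCost_ge hs x y (2 * η) hpos hxy).trans hle)
  have h9 := hS.same
  exact (ENNReal.ofReal_lt_ofReal_iff (by linarith)).2 (by linarith)

theorem pair12_le (p₁ p₂ p₃ : EE d) : pairCost s p₁ p₂ ≤ tripleCost s (p₁, p₂, p₃) := by
  unfold tripleCost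
  exact le_trans le_self_add le_self_add

theorem pair13_le (p₁ p₂ p₃ : EE d) : pairCost s p₁ p₃ ≤ tripleCost s (p₁, p₂, p₃) := by
  unfold tripleCost
  exact le_trans le_add_self le_self_add

theorem pair23_le (p₁ p₂ p₃ : EE d) : pairCost s p₂ p₃ ≤ tripleCost s (p₁, p₂, p₃) := by
  unfold tripleCost
  exact le_add_self

/-- strict inequality from distance bounds. -/
theorem lt_of_dist (hs : 0 < s) (hS : Small s t η) (hG : Geo s η e Y Z lam A B C)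
    (p₁ p₂ p₃ : EE d) {D₁₂ D₁₃ D₂₃ : ℝ} (h₁₂ : 0 < D₁₂) (h₁₃ : 0 < D₁₃)
    (h₂₃ : 0 < D₂₃) (d₁₂ : ‖p₁ - p₂‖ ≤ D₁₂) (d₁₃ : ‖p₁ - p₃‖ ≤ D₁₃) (d₂₃ : ‖p₂ - p₃‖ ≤ D₂₃)
    (hu : uTot s t e Z lam A B C p₁ + uTot s t e Z lam A B C p₂ + uTot s t e Z lam A B C p₃ <
      D₁₂ ^ (-s) + D₁₃ ^ (-s) + D₂₃ ^ (-s)) :
    ENNReal.ofReal (uTot s t e Z lam A B C p₁) + ENNReal.ofReal (uTot s t e Z lam A B C p₂) +
      ENNReal.ofReal (uTot s t e Z lam A B C p₃) < tripleCost s (p₁, p₂, p₃) := by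
  rw [sum_ofReal hs hS hG]
  refine lt_of_lt_of_le ?_ (cost_ge hs p₁ p₂ p₃ h₁₂ h₁₃ h₂₃ d₁₂ d₁₃ d₂₃)
  have h1 := uTot_nonneg hs hS hG p₁
  have h2 := uTot_nonneg hs hS hG p₂
  have h3 := uTot_nonneg hs hS hG p₃
  exact (ENNReal.ofReal_lt_ofReal_iff (by linarith)).2 hu

/-- data of a point of the central cluster. -/
theorem A_data (hs : 0 < s) (hS : Small s t η) (hG : Geo s η e Y Z lam A B C) {p : EE d}
    (h : p ∈ A) : ‖p‖ < η ∧ uTot s t e Z lam A B C p ≤ 2 + (2 : ℝ) ^ (-s) - 2 * t := by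
  have hb := hG.A_sub h
  refine ⟨by simpa using hb, ?_⟩
  rw [uTot_of_mem_A h]
  exact (uA_bounds hs hS hb).2

/-- data of a point of an outer cluster. -/
theorem outer_data (hs : 0 < s) (hS : Small s t η) (hG : Geo s η e Y Z lam A B C) {k : Bool}
    {p : EE d} (h : p ∈ B k ∨ p ∈ C k) :
    (∃ c : EE d, (c = e k ∨ c = - e k) ∧ ‖p - c‖ < η) ∧
      uTot s t e Z lam A B C p ≤ t + varpi s η := by
  rcases h with h | h
  · refine ⟨⟨e k, Or.inl rfl, ?_⟩, ?_⟩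
    · have := hG.B_sub k h
      rwa [mem_ball_iff_norm] at this
    · rw [uTot_of_mem_B hS hG k h]
      exact (uB_bounds hs hS hG k h).2
  · refine ⟨⟨- e k, Or.inr rfl, ?_⟩, ?_⟩
    · have := hG.C_sub k h
      rwa [mem_ball_iff_norm] at this
    · rw [uTot_of_mem_C hS hG k h]
      exact (uC_bounds hs hS (hG.e_norm k) (hG.C_sub k h)).2

theorem outer_norm (hs : 0 < s) (hS : Small s t η) (hG : Geo s η e Y Z lam A B C) {k : Bool}
    {p : EE d} (h : p ∈ B k ∨ p ∈ C k) : ‖p‖ ≤ 1 + η := by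
  obtain ⟨⟨c, hc, hpc⟩, -⟩ := outer_data hs hS hG h
  have hc1 : ‖c‖ = 1 := by
    rcases hc with rfl | rfl
    · exact hG.e_norm k
    · rw [norm_neg]; exact hG.e_norm k
  have : ‖p‖ ≤ ‖p - c‖ + ‖c‖ := by
    simpa using norm_add_le (p - c) c
  linarith

theorem norm_sub_le_of_norm {x y : EE d} {a b : ℝ} (hx : ‖x‖ ≤ a) (hy : ‖y‖ ≤ b) :
    ‖x - y‖ ≤ a + b := (norm_sub_le x y).trans (add_le_add hx hy)

/-- centres of orthogonal clusters are at distance `√2`. -/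
theorem centre_dist (hG : Geo s η e Y Z lam A B C) {k k' : Bool} (hk : k ≠ k') {c c' : EE d}
    (hc : c = e k ∨ c = - e k) (hc' : c' = e k' ∨ c' = - e k') : ‖c - c'‖ = Real.sqrt 2 := by
  have horth : ⟪e k, e k'⟫ = 0 := by
    cases k <;> cases k' <;> simp_all [hG.e_orth, real_inner_comm]
  have h1 := hG.e_norm k
  have h2 := hG.e_norm k'
  have hsq : ‖c - c'‖ ^ 2 = 2 := by
    rcases hc with rfl | rfl <;> rcases hc' with rfl | rfl
    · rw [norm_sub_sq_real, horth, h1, h2]; norm_num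
    · rw [norm_sub_sq_real, inner_neg_right, horth, norm_neg, h1, h2]; norm_num
    · rw [norm_sub_sq_real, inner_neg_left, horth, norm_neg, h1, h2]; norm_num
    · rw [norm_sub_sq_real, inner_neg_left, inner_neg_right, horth, norm_neg, norm_neg, h1, h2]
      norm_num
  rw [← hsq, Real.sqrt_sq (norm_nonneg _)]

theorem tri {p q c c' : EE d} : ‖p - q‖ ≤ ‖p - c‖ + ‖c - c'‖ + ‖q - c'‖ := by
  have h : p - q = (p - c) + (c - c') + -(q - c') := by abel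
  rw [h]
  refine (norm_add_le _ _).trans ?_
  rw [norm_neg]
  exact add_le_add (norm_add_le _ _) le_rfl

/-- trichotomy for two outer points. -/
theorem outer_pair (hs : 0 < s) (hS : Small s t η) (hG : Geo s η e Y Z lam A B C) {k k' : Bool}
    {q q' : EE d} (h : q ∈ B k ∨ q ∈ C k) (h' : q' ∈ B k' ∨ q' ∈ C k') :
    ‖q - q'‖ ≤ 2 * η ∨ ‖q - q'‖ ≤ Real.sqrt 2 + 2 * η ∨
      (∃ k, (q ∈ B k ∧ q' ∈ C k) ∨ (q ∈ C k ∧ q' ∈ B k)) := by
  by_cases hk : k = k'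
  · subst hk
    rcases h with h | h <;> rcases h' with h' | h'
    · left
      have a := hG.B_sub k h
      have b := hG.B_sub k h'
      rw [mem_ball_iff_norm] at a b
      have := tri (p := q) (q := q') (c := e k) (c' := e k)
      simp only [sub_self, norm_zero, add_zero] at this
      linarith
    · right; right; exact ⟨k, Or.inl ⟨h, h'⟩⟩
    · right; right; exact ⟨k, Or.inr ⟨h, h'⟩⟩
    · left
      have a := hG.C_sub k h
      have b := hG.C_sub k h'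
      rw [mem_ball_iff_norm] at a b
      have := tri (p := q) (q := q') (c := - e k) (c' := - e k)
      simp only [sub_self, norm_zero, add_zero] at this
      linarith
  · right; left
    obtain ⟨⟨c, hc, hqc⟩, -⟩ := outer_data hs hS hG h
    obtain ⟨⟨c', hc', hqc'⟩, -⟩ := outer_data hs hS hG h'
    have := tri (p := q) (q := q') (c := c) (c' := c')
    rw [centre_dist hG hk hc hc'] at this
    linarith

end G5b

open G5b in
/-- **non-pattern triples**: strict inequality.  (Two points in the same cluster: `Small.same`;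
no point in `A`: `Small.noA`; one point in `A`, the others in non-antipodal clusters:
`Small.orth`.) -/
theorem nonpattern_lt (hs : 0 < s) (hS : Small s t η) (hG : Geo s η e Y Z lam A B C)
    {p₁ p₂ p₃ : EE d} (h₁ : p₁ ∈ Kset A B C) (h₂ : p₂ ∈ Kset A B C) (h₃ : p₃ ∈ Kset A B C)
    (hnp : ∀ k, ¬ Perm3 A (B k) (C k) p₁ p₂ p₃) :
    ENNReal.ofReal (uTot s t e Z lam A B C p₁) + ENNReal.ofReal (uTot s t e Z lam A B C p₂) +
      ENNReal.ofReal (uTot s t e Z lam A B C p₃) < tripleCost s (p₁, p₂, p₃) := by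
  have hη := hS.η_pos
  have hsq : 0 ≤ Real.sqrt 2 := Real.sqrt_nonneg 2
  have AA : ∀ {x y : EE d}, x ∈ A → y ∈ A → ‖x - y‖ ≤ 2 * η := by
    intro x y hx hy
    have := norm_sub_le_of_norm (A_data hs hS hG hx).1.le (A_data hs hS hG hy).1.le
    linarith
  have AO : ∀ {x y : EE d} {k : Bool}, x ∈ A → (y ∈ B k ∨ y ∈ C k) → ‖x - y‖ ≤ 1 + 2 * η := by
    intro x y k hx hy
    have := norm_sub_le_of_norm (A_data hs hS hG hx).1.le (outer_norm hs hS hG hy)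
    linarith
  have OA : ∀ {x y : EE d} {k : Bool}, x ∈ A → (y ∈ B k ∨ y ∈ C k) → ‖y - x‖ ≤ 1 + 2 * η := by
    intro x y k hx hy
    rw [norm_sub_rev]; exact AO hx hy
  have OO : ∀ {x y : EE d} {k k' : Bool}, (x ∈ B k ∨ x ∈ C k) → (y ∈ B k' ∨ y ∈ C k') →
      ‖x - y‖ ≤ 2 + 2 * η := by
    intro x y k k' hx hy
    have := norm_sub_le_of_norm (outer_norm hs hS hG hx) (outer_norm hs hS hG hy)
    linarith
  rcases mem_Kset_cases h₁ with a₁ | ⟨k₁, o₁⟩ <;> rcases mem_Kset_cases h₂ with a₂ | ⟨k₂, o₂⟩ <;>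
    rcases mem_Kset_cases h₃ with a₃ | ⟨k₃, o₃⟩
  · exact lt_of_close hs hS hG _ _ _ p₁ p₂ (AA a₁ a₂) (pair12_le _ _ _)
  · exact lt_of_close hs hS hG _ _ _ p₁ p₂ (AA a₁ a₂) (pair12_le _ _ _)
  · exact lt_of_close hs hS hG _ _ _ p₁ p₃ (AA a₁ a₃) (pair13_le _ _ _)
  · -- A O O
    rcases outer_pair hs hS hG o₂ o₃ with h | h | ⟨k, h | h⟩
    · exact lt_of_close hs hS hG _ _ _ p₂ p₃ h (pair23_le _ _ _)
    · refine lt_of_dist hs hS hG _ _ _ (D₁₂ := 1 + 2 * η) (D₁₃ := 1 + 2 * η)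
        (D₂₃ := Real.sqrt 2 + 2 * η) (by linarith) (by linarith) (by linarith)
        (AO a₁ o₂) (AO a₁ o₃) h ?_
      have u1 := (A_data hs hS hG a₁).2
      have u2 := (outer_data hs hS hG o₂).2
      have u3 := (outer_data hs hS hG o₃).2
      have := hS.orth
      linarith
    · exact absurd (Or.inl ⟨a₁, h.1, h.2⟩) (hnp k)
    · exact absurd (Or.inr (Or.inl ⟨a₁, h.1, h.2⟩)) (hnp k)
  · exact lt_of_close hs hS hG _ _ _ p₂ p₃ (AA a₂ a₃) (pair23_le _ _ _)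
  · -- O A O
    rcases outer_pair hs hS hG o₁ o₃ with h | h | ⟨k, h | h⟩
    · exact lt_of_close hs hS hG _ _ _ p₁ p₃ h (pair13_le _ _ _)
    · refine lt_of_dist hs hS hG _ _ _ (D₁₂ := 1 + 2 * η) (D₁₃ := Real.sqrt 2 + 2 * η)
        (D₂₃ := 1 + 2 * η) (by linarith) (by linarith) (by linarith)
        (OA a₂ o₁) h (AO a₂ o₃) ?_
      have u1 := (A_data hs hS hG a₂).2
      have u2 := (outer_data hs hS hG o₁).2
      have u3 := (outer_data hs hS hG o₃).2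
      have := hS.orth
      linarith
    · exact absurd (Or.inr (Or.inr (Or.inl ⟨h.1, a₂, h.2⟩))) (hnp k)
    · exact absurd (Or.inr (Or.inr (Or.inr (Or.inr (Or.inl ⟨h.1, a₂, h.2⟩))))) (hnp k)
  · -- O O A
    rcases outer_pair hs hS hG o₁ o₂ with h | h | ⟨k, h | h⟩
    · exact lt_of_close hs hS hG _ _ _ p₁ p₂ h (pair12_le _ _ _)
    · refine lt_of_dist hs hS hG _ _ _ (D₁₂ := Real.sqrt 2 + 2 * η) (D₁₃ := 1 + 2 * η)
        (D₂₃ := 1 + 2 * η) (by linarith) (by linarith) (by linarith)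
        h (OA a₃ o₁) (OA a₃ o₂) ?_
      have u1 := (A_data hs hS hG a₃).2
      have u2 := (outer_data hs hS hG o₁).2
      have u3 := (outer_data hs hS hG o₂).2
      have := hS.orth
      linarith
    · exact absurd (Or.inr (Or.inr (Or.inr (Or.inl ⟨h.1, h.2, a₃⟩)))) (hnp k)
    · exact absurd (Or.inr (Or.inr (Or.inr (Or.inr (Or.inr ⟨h.1, h.2, a₃⟩))))) (hnp k)
  · -- O O O
    refine lt_of_dist hs hS hG _ _ _ (D₁₂ := 2 + 2 * η) (D₁₃ := 2 + 2 * η)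
        (D₂₃ := 2 + 2 * η) (by linarith) (by linarith) (by linarith)
        (OO o₁ o₂) (OO o₁ o₃) (OO o₂ o₃) ?_
    have u1 := (outer_data hs hS hG o₁).2
    have u2 := (outer_data hs hS hG o₂).2
    have u3 := (outer_data hs hS hG o₃).2
    have := hS.noA
    linarith

namespace G5b

/-- the pattern statement in the standard order. -/
theorem pattern_base (hs : 0 < s) (hS : Small s t η) (hG : Geo s η e Y Z lam A B C) (k : Bool)
    {a b c : EE d} (ha : a ∈ A) (hb : b ∈ B k) (hc : c ∈ C k) :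
    ENNReal.ofReal (uTot s t e Z lam A B C a) + ENNReal.ofReal (uTot s t e Z lam A B C b) +
      ENNReal.ofReal (uTot s t e Z lam A B C c) ≤ tripleCost s (a, b, c) ∧
    (tripleCost s (a, b, c) ≤ ENNReal.ofReal (uTot s t e Z lam A B C a) +
      ENNReal.ofReal (uTot s t e Z lam A B C b) + ENNReal.ofReal (uTot s t e Z lam A B C c) →
      lam a = lam b ∧ lam b = lam c) := by
  obtain ⟨dAB, dAC, dBC, -, -⟩ := clusters_disjoint hG.e_norm hG.e_orth hS.η_le hG.A_sub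
    hG.B_sub hG.C_sub
  have hab : a ≠ b := fun h => Set.disjoint_left.1 (dAB k) ha (h ▸ hb)
  have hac : a ≠ c := fun h => Set.disjoint_left.1 (dAC k) ha (h ▸ hc)
  have hbc : b ≠ c := fun h => Set.disjoint_left.1 (dBC k k) hb (h ▸ hc)
  have n1 := uTot_nonneg hs hS hG a
  have n2 := uTot_nonneg hs hS hG b
  have n3 := uTot_nonneg hs hS hG c
  rw [sum_ofReal hs hS hG, tripleCost_eq a b c hab hac hbc]
  have key := pattern_ineq hs hS hG k ha hb hc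
  rw [← uTot_of_mem_A (s := s) (t := t) (e := e) (Z := Z) (lam := lam) (B := B) (C := C) ha,
    ← uTot_of_mem_B hS hG k hb, ← uTot_of_mem_C hS hG k hc] at key
  have hcoef : 0 < s * (2 : ℝ) ^ (s + 1) := mul_pos hs (Real.rpow_pos_of_pos two_pos _)
  have hq1 : 0 ≤ ‖a - lam b‖ ^ 2 := sq_nonneg _
  have hq2 : 0 ≤ ‖c - Z k (lam b)‖ ^ 2 := sq_nonneg _
  have hprod : 0 ≤ s * (2 : ℝ) ^ (s + 1) * (‖a - lam b‖ ^ 2 + ‖c - Z k (lam b)‖ ^ 2) :=
    mul_nonneg hcoef.le (add_nonneg hq1 hq2)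
  refine ⟨ENNReal.ofReal_le_ofReal (by linarith), fun hle => ?_⟩
  rw [ENNReal.ofReal_le_ofReal_iff (by linarith)] at hle
  have hz : s * (2 : ℝ) ^ (s + 1) * (‖a - lam b‖ ^ 2 + ‖c - Z k (lam b)‖ ^ 2) ≤ 0 := by linarith
  have hz' : ‖a - lam b‖ ^ 2 + ‖c - Z k (lam b)‖ ^ 2 ≤ 0 := by
    by_contra hcon
    have := mul_pos hcoef (not_le.1 hcon)
    linarith
  have e1 : ‖a - lam b‖ ^ 2 = 0 := by linarith
  have e2 : ‖c - Z k (lam b)‖ ^ 2 = 0 := by linarith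
  have e1' : a = lam b := by
    have : ‖a - lam b‖ = 0 := by simpa using e1
    exact sub_eq_zero.1 (norm_eq_zero.1 this)
  have e2' : c = Z k (lam b) := by
    have : ‖c - Z k (lam b)‖ = 0 := by simpa using e2
    exact sub_eq_zero.1 (norm_eq_zero.1 this)
  refine ⟨by rw [hG.lam_A a ha]; exact e1', ?_⟩
  rw [e2', ← e1', hG.lam_Z k a ha]

end G5b

open G5b in
/-- **pattern triples**: inequality, and equality forces equal labels. -/
theorem pattern_le (hs : 0 < s) (hS : Small s t η) (hG : Geo s η e Y Z lam A B C) (k : Bool)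
    {p₁ p₂ p₃ : EE d} (hp : Perm3 A (B k) (C k) p₁ p₂ p₃) :
    ENNReal.ofReal (uTot s t e Z lam A B C p₁) + ENNReal.ofReal (uTot s t e Z lam A B C p₂) +
      ENNReal.ofReal (uTot s t e Z lam A B C p₃) ≤ tripleCost s (p₁, p₂, p₃) ∧
    (tripleCost s (p₁, p₂, p₃) ≤ ENNReal.ofReal (uTot s t e Z lam A B C p₁) +
      ENNReal.ofReal (uTot s t e Z lam A B C p₂) + ENNReal.ofReal (uTot s t e Z lam A B C p₃) →
      lam p₁ = lam p₂ ∧ lam p₂ = lam p₃) := by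
  rcases hp with ⟨h1, h2, h3⟩ | ⟨h1, h2, h3⟩ | ⟨h1, h2, h3⟩ | ⟨h1, h2, h3⟩ | ⟨h1, h2, h3⟩ |
    ⟨h1, h2, h3⟩
  · exact pattern_base hs hS hG k h1 h2 h3
  · -- p₁ ∈ A, p₂ ∈ C, p₃ ∈ B
    obtain ⟨ha, hb⟩ := pattern_base hs hS hG k h1 h3 h2
    rw [tripleCost_swap p₁ p₂ p₃] at ha hb
    rw [add_right_comm] at ha hb
    exact ⟨ha, fun h => by obtain ⟨x, y⟩ := hb h; exact ⟨x.trans y, y.symm⟩⟩
  · -- p₁ ∈ B, p₂ ∈ A, p₃ ∈ C
    obtain ⟨ha, hb⟩ := pattern_base hs hS hG k h2 h1 h3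
    have hT : tripleCost s (p₂, p₁, p₃) = tripleCost s (p₁, p₂, p₃) := by
      rw [tripleCost_swap p₂ p₃ p₁, tripleCost_cyc]
    rw [hT, add_comm (ENNReal.ofReal (uTot s t e Z lam A B C p₂))] at ha hb
    exact ⟨ha, fun h => by obtain ⟨x, y⟩ := hb h; exact ⟨x.symm, x.trans y⟩⟩
  · -- p₁ ∈ B, p₂ ∈ C, p₃ ∈ A
    obtain ⟨ha, hb⟩ := pattern_base hs hS hG k h3 h1 h2
    have hT : tripleCost s (p₃, p₁, p₂) = tripleCost s (p₁, p₂, p₃) :=
      (tripleCost_cyc p₃ p₁ p₂).symm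
    have hsum : ENNReal.ofReal (uTot s t e Z lam A B C p₃) +
        ENNReal.ofReal (uTot s t e Z lam A B C p₁) + ENNReal.ofReal (uTot s t e Z lam A B C p₂) =
        ENNReal.ofReal (uTot s t e Z lam A B C p₁) + ENNReal.ofReal (uTot s t e Z lam A B C p₂) +
        ENNReal.ofReal (uTot s t e Z lam A B C p₃) := by
      rw [add_assoc, add_comm]
    rw [hT, hsum] at ha hb
    exact ⟨ha, fun h => by obtain ⟨x, y⟩ := hb h; exact ⟨y, (x.trans y).symm⟩⟩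
  · -- p₁ ∈ C, p₂ ∈ A, p₃ ∈ B
    obtain ⟨ha, hb⟩ := pattern_base hs hS hG k h2 h3 h1
    have hT : tripleCost s (p₂, p₃, p₁) = tripleCost s (p₁, p₂, p₃) := tripleCost_cyc p₁ p₂ p₃
    have hsum : ENNReal.ofReal (uTot s t e Z lam A B C p₂) +
        ENNReal.ofReal (uTot s t e Z lam A B C p₃) + ENNReal.ofReal (uTot s t e Z lam A B C p₁) =
        ENNReal.ofReal (uTot s t e Z lam A B C p₁) + ENNReal.ofReal (uTot s t e Z lam A B C p₂) +
        ENNReal.ofReal (uTot s t e Z lam A B C p₃) := by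
      rw [add_comm, add_assoc]
    rw [hT, hsum] at ha hb
    exact ⟨ha, fun h => by obtain ⟨x, y⟩ := hb h; exact ⟨(x.trans y).symm, x⟩⟩
  · -- p₁ ∈ C, p₂ ∈ B, p₃ ∈ A
    obtain ⟨ha, hb⟩ := pattern_base hs hS hG k h3 h2 h1
    have hT : tripleCost s (p₃, p₂, p₁) = tripleCost s (p₁, p₂, p₃) := by
      rw [tripleCost_swap p₃ p₁ p₂]; exact (tripleCost_cyc p₃ p₁ p₂).symm
    have hsum : ENNReal.ofReal (uTot s t e Z lam A B C p₃) +
        ENNReal.ofReal (uTot s t e Z lam A B C p₂) + ENNReal.ofReal (uTot s t e Z lam A B C p₁) =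
        ENNReal.ofReal (uTot s t e Z lam A B C p₁) + ENNReal.ofReal (uTot s t e Z lam A B C p₂) +
        ENNReal.ofReal (uTot s t e Z lam A B C p₃) := by
      rw [add_comm, add_comm (ENNReal.ofReal (uTot s t e Z lam A B C p₃)), add_assoc]
    rw [hT, hsum] at ha hb
    exact ⟨ha, fun h => by obtain ⟨x, y⟩ := hb h; exact ⟨y.symm, x.symm⟩⟩

theorem geo_le_c (hs : 0 < s) (hS : Small s t η) (hG : Geo s η e Y Z lam A B C) :
    ∀ p₁ ∈ Kset A B C, ∀ p₂ ∈ Kset A B C, ∀ p₃ ∈ Kset A B C,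
      ENNReal.ofReal (uTot s t e Z lam A B C p₁) + ENNReal.ofReal (uTot s t e Z lam A B C p₂) +
        ENNReal.ofReal (uTot s t e Z lam A B C p₃) ≤ tripleCost s (p₁, p₂, p₃) := by
  intro p₁ h₁ p₂ h₂ p₃ h₃
  by_cases hp : ∃ k, Perm3 A (B k) (C k) p₁ p₂ p₃
  · obtain ⟨k, hk⟩ := hp
    exact (pattern_le hs hS hG k hk).1
  · push_neg at hp
    exact (nonpattern_lt hs hS hG h₁ h₂ h₃ hp).le

theorem geo_contact (hs : 0 < s) (hS : Small s t η) (hG : Geo s η e Y Z lam A B C) :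
    ∀ p₁ ∈ Kset A B C, ∀ p₂ ∈ Kset A B C, ∀ p₃ ∈ Kset A B C,
      tripleCost s (p₁, p₂, p₃) ≤ ENNReal.ofReal (uTot s t e Z lam A B C p₁) +
        ENNReal.ofReal (uTot s t e Z lam A B C p₂) + ENNReal.ofReal (uTot s t e Z lam A B C p₃) →
      IsContact lam A B C p₁ p₂ p₃ := by
  intro p₁ h₁ p₂ h₂ p₃ h₃ hle
  by_cases hp : ∃ k, Perm3 A (B k) (C k) p₁ p₂ p₃
  · obtain ⟨k, hk⟩ := hp
    obtain ⟨ha, hb⟩ := (pattern_le hs hS hG k hk).2 hle
    exact ⟨k, ha, hb, hk⟩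
  · push_neg at hp
    exact absurd hle (not_le.mpr (nonpattern_lt hs hS hG h₁ h₂ h₃ hp))

end Crest.Agent.S0175
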