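/-
Row 130 (S0175), package G4a: halving of an atomless finite measure on `ℝ` by maps `δ`-close to the
identity (Mathlib only).
-/
import Mathlib

set_option autoImplicit false
set_option linter.unusedSectionVars false
set_option linter.unusedVariables false

namespace Crest.Agent.S0175

open MeasureTheory
open scoped ENNReal

namespace Halve1

open Set

variable (m : Measure ℝ) [IsFiniteMeasure m] [NullSingletonClass m]

/-- mass of `[a,t)` -/
noncomputable def F (a t : ℝ) : ℝ := (m (Ico a t)).toReal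

lemma F_mono (a : ℝ) : Monotone (F m a) := by
  intro s t hst
  exact ENNReal.toReal_mono (measure_ne_top _ _) (measure_mono (Ico_subset_Ico_right hst))

lemma F_nonneg (a t : ℝ) : 0 ≤ F m a t := ENNReal.toReal_nonneg

lemma F_of_le {a t : ℝ} (h : t ≤ a) : F m a t = 0 := by
  simp [F, Ico_eq_empty (not_lt.mpr h)]

lemma ofReal_F (a t : ℝ) : ENNReal.ofReal (F m a t) = m (Ico a t) :=
  ENNReal.ofReal_toReal (measure_ne_top _ _)

lemma F_continuous (a : ℝ) : Continuous (F m a) := by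
  have h1 : Continuous fun b => ∫ _x in a..b, (1:ℝ) ∂m :=
    intervalIntegral.continuous_primitive (fun _ _ => intervalIntegrable_const) a
  have h2 : F m a = fun t => ∫ _x in a..max a t, (1:ℝ) ∂m := by
    funext t
    rw [intervalIntegral.integral_of_le (le_max_left _ _)]
    rw [setIntegral_const]
    simp only [smul_eq_mul, mul_one, F, Measure.real]
    congr 1
    rcases le_total t a with h | h
    · simp [max_eq_left h, Ico_eq_empty (not_lt.mpr h)]
    · rw [max_eq_right h]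
      exact measure_congr Ico_ae_eq_Ioc
  rw [h2]
  exact h1.comp (continuous_const.max continuous_id)

/-- level sets: mass of `{t ∈ [a,b) | F t < c}` is `c`. -/
lemma measure_lt {a b c : ℝ} (hab : a ≤ b) (hc0 : 0 ≤ c) (hc : c ≤ F m a b) :
    m {t | t ∈ Ico a b ∧ F m a t < c} = ENNReal.ofReal c := by
  set S : Set ℝ := {t | t ∈ Icc a b ∧ c ≤ F m a t} with hS
  have hSne : S.Nonempty := ⟨b, ⟨hab, le_rfl⟩, hc⟩
  have hSbdd : BddBelow S := ⟨a, fun t ht => ht.1.1⟩
  have hSclosed : IsClosed S :=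
    isClosed_Icc.inter (isClosed_le continuous_const (F_continuous m a))
  have hy : sInf S ∈ S := hSclosed.csInf_mem hSne hSbdd
  set y := sInf S with hydef
  obtain ⟨y', hy'mem, hy'⟩ : ∃ y' ∈ Icc a b, F m a y' = c := by
    have := intermediate_value_Icc hab (F_continuous m a).continuousOn
    have hmem : c ∈ Icc (F m a a) (F m a b) := ⟨by rw [F_of_le m le_rfl]; exact hc0, hc⟩
    exact this hmem
  have hyy' : y ≤ y' := csInf_le hSbdd ⟨hy'mem, hy'.ge⟩
  have hFy : F m a y = c := le_antisymm (hy' ▸ F_mono m a hyy') hy.2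
  have hset : {t | t ∈ Ico a b ∧ F m a t < c} = Ico a y := by
    ext t
    constructor
    · rintro ⟨⟨h1, _⟩, h3⟩
      refine ⟨h1, ?_⟩
      by_contra hcon
      exact absurd (hy.2.trans (F_mono m a (not_lt.mp hcon))) (not_le.mpr h3)
    · rintro ⟨h1, h2⟩
      refine ⟨⟨h1, h2.trans_le hy.1.2⟩, ?_⟩
      by_contra hcon
      exact absurd (csInf_le hSbdd ⟨⟨h1, (h2.trans_le hy.1.2).le⟩, not_lt.mp hcon⟩) (not_le.mpr h2)
  rw [hset, ← ofReal_F, hFy]

lemma measurableSet_lt' (a b c : ℝ) : MeasurableSet {t | t ∈ Ico a b ∧ F m a t < c} :=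
  measurableSet_Ico.inter (measurableSet_lt (F_mono m a).measurable measurable_const)

lemma measure_between {a b c₁ c₂ : ℝ} (hab : a ≤ b) (hc0 : 0 ≤ c₁) (h12 : c₁ ≤ c₂)
    (hc : c₂ ≤ F m a b) :
    m {t | t ∈ Ico a b ∧ c₁ ≤ F m a t ∧ F m a t < c₂} = ENNReal.ofReal (c₂ - c₁) := by
  have hset : {t | t ∈ Ico a b ∧ c₁ ≤ F m a t ∧ F m a t < c₂}
      = {t | t ∈ Ico a b ∧ F m a t < c₂} \ {t | t ∈ Ico a b ∧ F m a t < c₁} := by
    ext t
    simp only [mem_ofPred_eq, mem_sdiff, not_and, not_lt]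
    constructor
    · rintro ⟨h1, h2, h3⟩
      exact ⟨⟨h1, h3⟩, fun _ => h2⟩
    · rintro ⟨⟨h1, h3⟩, h2⟩
      exact ⟨h1, h2 h1, h3⟩
  have hsub : {t | t ∈ Ico a b ∧ F m a t < c₁} ⊆ {t | t ∈ Ico a b ∧ F m a t < c₂} :=
    fun t ht => ⟨ht.1, ht.2.trans_le h12⟩
  rw [hset, measure_sdiff hsub
    (measurableSet_lt' m a b c₁).nullMeasurableSet (measure_ne_top _ _),
    measure_lt m hab (hc0.trans h12) hc, measure_lt m hab hc0 (h12.trans hc),
    ENNReal.ofReal_sub _ hc0]

lemma measure_ge {a b c : ℝ} (hab : a ≤ b) (hc0 : 0 ≤ c) (hc : c ≤ F m a b) :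
    m {t | t ∈ Ico a b ∧ c ≤ F m a t} = ENNReal.ofReal (F m a b - c) := by
  have hset : {t | t ∈ Ico a b ∧ c ≤ F m a t}
      = Ico a b \ {t | t ∈ Ico a b ∧ F m a t < c} := by
    ext t
    simp only [mem_ofPred_eq, mem_sdiff, not_and, not_lt]
    constructor
    · rintro ⟨h1, h2⟩
      exact ⟨h1, fun _ => h2⟩
    · rintro ⟨h1, h2⟩
      exact ⟨h1, h2 h1⟩
  have hsub : {t | t ∈ Ico a b ∧ F m a t < c} ⊆ Ico a b := fun t ht => ht.1
  rw [hset, measure_sdiff hsub
    (measurableSet_lt' m a b c).nullMeasurableSet (measure_ne_top _ _),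
    measure_lt m hab hc0 hc, ← ofReal_F, ENNReal.ofReal_sub _ hc0]

/-- mass of `[x,∞) ∩ [a,b)`. -/
lemma measure_Ici_inter {a b x : ℝ} (hab : a ≤ b) (hx : x ≤ b) :
    m (Ici x ∩ Ico a b) = ENNReal.ofReal (F m a b - F m a x) := by
  have hset : Ici x ∩ Ico a b = Ico a b \ Ico a x := by
    ext t
    simp only [mem_inter_iff, mem_Ici, mem_Ico, mem_sdiff, not_and, not_lt]
    constructor
    · rintro ⟨h1, h2, h3⟩
      exact ⟨⟨h2, h3⟩, fun _ => h1⟩
    · rintro ⟨⟨h2, h3⟩, h1⟩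
      exact ⟨h1 h2, h2, h3⟩
  rw [hset, measure_sdiff (Ico_subset_Ico_right hx) measurableSet_Ico.nullMeasurableSet
    (measure_ne_top _ _), ← ofReal_F, ← ofReal_F, ENNReal.ofReal_sub _ (F_nonneg m a x)]

/-- upper quantile inside the cell `[a,b]`. -/
noncomputable def Q (a b p : ℝ) : ℝ := sSup {t | t ∈ Icc a b ∧ F m a t ≤ max p 0}

lemma Q_set_nonempty {a b : ℝ} (hab : a ≤ b) (p : ℝ) :
    ({t | t ∈ Icc a b ∧ F m a t ≤ max p 0} : Set ℝ).Nonempty :=
  ⟨a, ⟨le_rfl, hab⟩, by rw [F_of_le m le_rfl]; exact le_max_right _ _⟩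

lemma Q_set_bdd (a b p : ℝ) : BddAbove ({t | t ∈ Icc a b ∧ F m a t ≤ max p 0} : Set ℝ) :=
  ⟨b, fun t ht => ht.1.2⟩

lemma Q_mem {a b : ℝ} (hab : a ≤ b) (p : ℝ) :
    Q m a b p ∈ ({t | t ∈ Icc a b ∧ F m a t ≤ max p 0} : Set ℝ) :=
  (isClosed_Icc.inter (isClosed_le (F_continuous m a) continuous_const)).csSup_mem
    (Q_set_nonempty m hab p) (Q_set_bdd m a b p)

lemma Q_mono {a b : ℝ} (hab : a ≤ b) : Monotone (Q m a b) := by
  intro p q hpq
  exact csSup_le_csSup (Q_set_bdd m a b q) (Q_set_nonempty m hab p)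
    (fun t ht => ⟨ht.1, ht.2.trans (max_le_max hpq le_rfl)⟩)

lemma le_Q_iff {a b x p : ℝ} (hab : a ≤ b) (hx : x ≤ b) (hp : 0 ≤ p) :
    x ≤ Q m a b p ↔ F m a x ≤ p := by
  constructor
  · intro h
    have := (Q_mem m hab p).2
    rw [max_eq_left hp] at this
    exact (F_mono m a h).trans this
  · intro h
    rcases le_total x a with hxa | hxa
    · exact hxa.trans (Q_mem m hab p).1.1
    · exact le_csSup (Q_set_bdd m a b p) ⟨⟨hxa, hx⟩, by rw [max_eq_left hp]; exact h⟩

/-- **one cell**. -/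
lemma cell {a b : ℝ} (hab : a ≤ b) :
    ∃ (E : Set ℝ) (θ₁ θ₂ : ℝ → ℝ), MeasurableSet E ∧ Measurable θ₁ ∧ Measurable θ₂ ∧
      (∀ t, θ₁ t ∈ Icc a b) ∧ (∀ t, θ₂ t ∈ Icc a b) ∧
      ((m + m).restrict (E ∩ Ico a b)).map θ₁ = m.restrict (Ico a b) ∧
      ((m + m).restrict (Eᶜ ∩ Ico a b)).map θ₂ = m.restrict (Ico a b) := by
  set M := F m a b with hM
  have hM0 : 0 ≤ M := F_nonneg m a b
  have hFmeas : Measurable (F m a) := (F_mono m a).measurable
  have hE : MeasurableSet {t | 2 * F m a t < M} :=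
    measurableSet_lt (hFmeas.const_mul 2) measurable_const
  have hθ₁ : Measurable fun t => Q m a b (2 * F m a t) :=
    (Q_mono m hab).measurable.comp (hFmeas.const_mul 2)
  have hθ₂ : Measurable fun t => Q m a b (2 * F m a t - M) :=
    (Q_mono m hab).measurable.comp ((hFmeas.const_mul 2).sub_const M)
  refine ⟨{t | 2 * F m a t < M}, fun t => Q m a b (2 * F m a t),
    fun t => Q m a b (2 * F m a t - M), hE, hθ₁, hθ₂, fun t => (Q_mem m hab _).1,
    fun t => (Q_mem m hab _).1, ?_, ?_⟩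
  · have : IsFiniteMeasure (((m + m).restrict ({t | 2 * F m a t < M} ∩ Ico a b)).map
        fun t => Q m a b (2 * F m a t)) := by infer_instance
    refine Measure.ext_of_Ici _ _ (fun x => ?_)
    rw [Measure.map_apply hθ₁ measurableSet_Ici,
      Measure.restrict_apply (hθ₁ measurableSet_Ici),
      Measure.restrict_apply measurableSet_Ici]
    rcases le_or_gt x b with hx | hx
    · rw [measure_Ici_inter m hab hx]
      have hset : (fun t => Q m a b (2 * F m a t)) ⁻¹' Ici x ∩ ({t | 2 * F m a t < M} ∩ Ico a b)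
          = {t | t ∈ Ico a b ∧ F m a x / 2 ≤ F m a t ∧ F m a t < M / 2} := by
        ext t
        simp only [mem_inter_iff, mem_preimage, mem_Ici, mem_ofPred_eq]
        rw [le_Q_iff m hab hx (by have := F_nonneg m a t; positivity)]
        constructor
        · rintro ⟨h1, h2, h3⟩
          exact ⟨h3, by linarith, by linarith⟩
        · rintro ⟨h3, h1, h2⟩
          exact ⟨by linarith, by linarith, h3⟩
      have hFx : F m a x ≤ M := F_mono m a hx
      have hFx0 := F_nonneg m a x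
      rw [hset, Measure.add_apply, measure_between m hab (by positivity) (by linarith)
        (by linarith), ← ENNReal.ofReal_add (by linarith) (by linarith)]
      congr 1
      ring
    · have h1 : Ici x ∩ Ico a b = ∅ := by
        ext t
        simp only [mem_inter_iff, mem_Ici, mem_Ico, mem_empty_iff_false, iff_false, not_and, not_lt]
        intro h1 _
        linarith
      have h2 : (fun t => Q m a b (2 * F m a t)) ⁻¹' Ici x = ∅ := by
        ext t
        simp only [mem_preimage, mem_Ici, mem_empty_iff_false, iff_false, not_le]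
        exact (Q_mem m hab _).1.2.trans_lt hx
      rw [h1, h2]
      simp
  · have : IsFiniteMeasure (((m + m).restrict ({t | 2 * F m a t < M}ᶜ ∩ Ico a b)).map
        fun t => Q m a b (2 * F m a t - M)) := by infer_instance
    refine Measure.ext_of_Ici _ _ (fun x => ?_)
    rw [Measure.map_apply hθ₂ measurableSet_Ici,
      Measure.restrict_apply (hθ₂ measurableSet_Ici),
      Measure.restrict_apply measurableSet_Ici]
    rcases le_or_gt x b with hx | hx
    · rw [measure_Ici_inter m hab hx]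
      have hFx : F m a x ≤ M := F_mono m a hx
      have hFx0 := F_nonneg m a x
      have hset : (fun t => Q m a b (2 * F m a t - M)) ⁻¹' Ici x
            ∩ ({t | 2 * F m a t < M}ᶜ ∩ Ico a b)
          = {t | t ∈ Ico a b ∧ (M + F m a x) / 2 ≤ F m a t} := by
        ext t
        simp only [mem_inter_iff, mem_preimage, mem_Ici, mem_ofPred_eq, mem_compl_iff, not_lt]
        constructor
        · rintro ⟨h1, h2, h3⟩
          rw [le_Q_iff m hab hx (by linarith)] at h1
          exact ⟨h3, by linarith⟩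
        · rintro ⟨h3, h1⟩
          have h2 : M ≤ 2 * F m a t := by linarith
          rw [le_Q_iff m hab hx (by linarith)]
          exact ⟨by linarith, h2, h3⟩
      rw [hset, Measure.add_apply, measure_ge m hab (by positivity) (by linarith),
        ← ENNReal.ofReal_add (by linarith) (by linarith)]
      congr 1
      ring
    · have h1 : Ici x ∩ Ico a b = ∅ := by
        ext t
        simp only [mem_inter_iff, mem_Ici, mem_Ico, mem_empty_iff_false, iff_false, not_and, not_lt]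
        intro h1 _
        linarith
      have h2 : (fun t => Q m a b (2 * F m a t - M)) ⁻¹' Ici x = ∅ := by
        ext t
        simp only [mem_preimage, mem_Ici, mem_empty_iff_false, iff_false, not_le]
        exact (Q_mem m hab _).1.2.trans_lt hx
      rw [h1, h2]
      simp

omit [IsFiniteMeasure m] [NullSingletonClass m] in
lemma measure_eq_tsum_cells (μ : Measure ℝ) (I : ℤ → Set ℝ) (idx : ℝ → ℤ)
    (hI : ∀ i, MeasurableSet (I i)) (hidx : ∀ t i, t ∈ I i ↔ idx t = i)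
    {T : Set ℝ} (hT : MeasurableSet T) : μ T = ∑' i, μ (T ∩ I i) := by
  have hU : T = ⋃ i, T ∩ I i := by
    ext t
    simp only [mem_iUnion, mem_inter_iff]
    exact ⟨fun h => ⟨idx t, h, (hidx t _).2 rfl⟩, fun ⟨i, h, _⟩ => h⟩
  conv_lhs => rw [hU]
  refine measure_iUnion ?_ (fun i => hT.inter (hI i))
  intro i j hij
  refine Set.disjoint_left.2 (fun t hi hj => hij ?_)
  rw [← (hidx t i).1 hi.2, ← (hidx t j).1 hj.2]

omit [IsFiniteMeasure m] [NullSingletonClass m] in
lemma glue (I : ℤ → Set ℝ) (idx : ℝ → ℤ) (hidxm : Measurable idx)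
    (hI : ∀ i, MeasurableSet (I i)) (hidx : ∀ t i, t ∈ I i ↔ idx t = i)
    (A : ℤ → Set ℝ) (θ : ℤ → ℝ → ℝ) (hA : ∀ i, MeasurableSet (A i)) (hθ : ∀ i, Measurable (θ i))
    (hp : ∀ i, ((m + m).restrict (A i ∩ I i)).map (θ i) = m.restrict (I i)) :
    MeasurableSet {t | t ∈ A (idx t)} ∧ Measurable (fun t => θ (idx t) t) ∧
    ((m + m).restrict {t | t ∈ A (idx t)}).map (fun t => θ (idx t) t) = m := by
  have hAm : MeasurableSet {t | t ∈ A (idx t)} := by
    have : {t | t ∈ A (idx t)} = ⋃ i, A i ∩ I i := by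
      ext t
      simp only [mem_ofPred_eq, mem_iUnion, mem_inter_iff]
      constructor
      · intro h
        exact ⟨idx t, h, (hidx t _).2 rfl⟩
      · rintro ⟨i, h1, h2⟩
        rw [(hidx t i).1 h2]
        exact h1
    rw [this]
    exact MeasurableSet.iUnion fun i => (hA i).inter (hI i)
  have hθm : Measurable (fun t => θ (idx t) t) := by
    have h1 : Measurable fun p : ℤ × ℝ => θ p.1 p.2 :=
      measurable_from_prod_countable_right fun i => hθ i
    exact h1.comp (hidxm.prodMk measurable_id)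
  refine ⟨hAm, hθm, ?_⟩
  ext S hS
  rw [Measure.map_apply hθm hS, Measure.restrict_apply (hθm hS),
    measure_eq_tsum_cells (m + m) I idx hI hidx ((hθm hS).inter hAm),
    measure_eq_tsum_cells m I idx hI hidx hS]
  refine tsum_congr (fun i => ?_)
  have h : ((m + m).restrict (A i ∩ I i)).map (θ i) S = m.restrict (I i) S := by rw [hp i]
  rw [Measure.map_apply (hθ i) hS, Measure.restrict_apply ((hθ i) hS),
    Measure.restrict_apply hS] at h
  rw [← h]
  congr 1
  ext t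
  simp only [mem_inter_iff, mem_preimage, mem_ofPred_eq]
  constructor
  · rintro ⟨⟨h1, h2⟩, h3⟩
    rw [(hidx t i).1 h3] at h1 h2
    exact ⟨h1, h2, h3⟩
  · rintro ⟨h1, h2, h3⟩
    rw [(hidx t i).1 h3]
    exact ⟨⟨h1, h2⟩, h3⟩

end Halve1

/-- **G4a.**  On each interval `I_i = [iδ,(i+1)δ)` let `F_i t = m [iδ,t)`, `c_i` a median;
`E = ⋃ [iδ,c_i)`, `θ₁ t = sSup {t' ∈ closure I_i | F_i t' ≤ 2 F_i t}` on `E`,
`θ₂ t = sSup {t' | F_i t' ≤ 2 F_i t - F_i ((i+1)δ)}` on `Eᶜ`. -/
theorem halving_real (m : Measure ℝ) [IsFiniteMeasure m] [NullSingletonClass m] (δ : ℝ) (hδ : 0 < δ) :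
    ∃ (E : Set ℝ) (θ₁ θ₂ : ℝ → ℝ), MeasurableSet E ∧ Measurable θ₁ ∧ Measurable θ₂ ∧
      (∀ t, |θ₁ t - t| ≤ δ) ∧ (∀ t, |θ₂ t - t| ≤ δ) ∧
      ((m + m).restrict E).map θ₁ = m ∧ ((m + m).restrict Eᶜ).map θ₂ = m := by
  have hlohi : ∀ i : ℤ, (i : ℝ) * δ ≤ ((i : ℝ) + 1) * δ := fun i => by nlinarith
  choose Ec t1 t2 hEc ht1 ht2 hr1 hr2 hp1 hp2 using fun i : ℤ => Halve1.cell m (hlohi i)
  set idx : ℝ → ℤ := fun t => ⌊t / δ⌋ with hidxdef
  have hidxm : Measurable idx := Int.measurable_floor.comp (measurable_id.div_const δ)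
  have hidx : ∀ (t : ℝ) (i : ℤ), t ∈ Set.Ico ((i : ℝ) * δ) (((i : ℝ) + 1) * δ) ↔ idx t = i := by
    intro t i
    rw [hidxdef]
    simp only [Int.floor_eq_iff, Set.mem_Ico, le_div_iff₀ hδ, div_lt_iff₀ hδ]
  have hI : ∀ i : ℤ, MeasurableSet (Set.Ico ((i : ℝ) * δ) (((i : ℝ) + 1) * δ)) :=
    fun i => measurableSet_Ico
  obtain ⟨hE, hθ₁, hm₁⟩ := Halve1.glue m _ idx hidxm hI hidx Ec t1 hEc ht1 hp1
  obtain ⟨_, hθ₂, hm₂⟩ := Halve1.glue m _ idx hidxm hI hidx (fun i => (Ec i)ᶜ) t2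
    (fun i => (hEc i).compl) ht2 hp2
  have hclose : ∀ (θ : ℤ → ℝ → ℝ),
      (∀ (i : ℤ) (t : ℝ), θ i t ∈ Set.Icc ((i : ℝ) * δ) (((i : ℝ) + 1) * δ)) →
      ∀ t, |θ (idx t) t - t| ≤ δ := by
    intro θ hθ t
    have h1 := hθ (idx t) t
    have h2 := (hidx t (idx t)).2 rfl
    rw [abs_le]
    constructor
    · nlinarith [h1.1, h1.2, h2.1, h2.2]
    · nlinarith [h1.1, h1.2, h2.1, h2.2]
  exact ⟨{t | t ∈ Ec (idx t)}, fun t => t1 (idx t) t, fun t => t2 (idx t) t, hE, hθ₁, hθ₂,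
    hclose t1 hr1, hclose t2 hr2, hm₁, hm₂⟩

end Crest.Agent.S0175
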