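/-
Row 130 (S0175), package G4b: a product bump on `ℝ^d` and its halvings (lift of G4a in one
coordinate).
-/
import Crest.Agent.S0175_Halve1

set_option autoImplicit false

namespace Crest.Agent.S0175

open MeasureTheory
open scoped ENNReal ContDiff

theorem Halve_transport {F G : Type*} [MeasurableSpace F] [MeasurableSpace G] (Φ : F ≃ᵐ G)
    (ν : Measure F) (ν' : Measure G) (hν : ν.map Φ = ν') (E' : Set G) (hE' : MeasurableSet E')
    (Θ : G → G) (hΘ : Measurable Θ) (h : ((ν' + ν').restrict E').map Θ = ν') :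
    ((ν + ν).restrict (Φ ⁻¹' E')).map (fun x => Φ.symm (Θ (Φ x))) = ν := by
  have h1 : ((ν + ν).restrict (Φ ⁻¹' E')).map Φ = (ν' + ν').restrict E' := by
    rw [← Measure.restrict_map Φ.measurable hE', Measure.map_add _ _ Φ.measurable, hν]
  have h2 : (fun x => Φ.symm (Θ (Φ x))) = Φ.symm ∘ (Θ ∘ Φ) := rfl
  rw [h2, ← Measure.map_map Φ.symm.measurable (hΘ.comp Φ.measurable),
    ← Measure.map_map hΘ Φ.measurable, h1, h, ← hν, MeasurableEquiv.map_symm_map]

theorem Halve_prod {G' : Type*} [MeasurableSpace G'] (m : Measure ℝ) [IsFiniteMeasure m]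
    (m' : Measure G') [SFinite m'] (E : Set ℝ) (θ : ℝ → ℝ) (hθ : Measurable θ)
    (h : ((m + m).restrict E).map θ = m) :
    (((m.prod m') + (m.prod m')).restrict (E ×ˢ Set.univ)).map (Prod.map θ id) = m.prod m' := by
  rw [← Measure.add_prod, ← Measure.prod_restrict, Measure.restrict_univ,
    ← Measure.map_prod_map _ _ hθ measurable_id, h, Measure.map_id]

theorem Halve_map_withDensity {F G : Type*} [MeasurableSpace F] [MeasurableSpace G] (Φ : F ≃ᵐ G)
    (μ : Measure F) (μ' : Measure G) (hΦ : MeasurePreserving Φ μ μ') (g : G → ℝ≥0∞)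
    (hg : Measurable g) :
    (μ.withDensity (fun x => g (Φ x))).map Φ = μ'.withDensity g := by
  ext S hS
  rw [Measure.map_apply Φ.measurable hS, withDensity_apply _ (Φ.measurable hS),
    withDensity_apply _ hS, hΦ.setLIntegral_comp_preimage hS hg]

/-- the splitting of the first coordinate. -/
noncomputable def HalveΦ (n : ℕ) : EuclideanSpace ℝ (Fin (n + 1)) ≃ᵐ ℝ × (Fin n → ℝ) :=
  (MeasurableEquiv.toLp 2 (Fin (n + 1) → ℝ)).symm.trans
    (MeasurableEquiv.piFinSuccAbove (fun _ => ℝ) 0)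

theorem HalveΦ_mp (n : ℕ) : MeasurePreserving (HalveΦ n) volume volume :=
  (EuclideanSpace.volume_preserving_symm_measurableEquiv_toLp (Fin (n + 1))).trans
    (volume_preserving_piFinSuccAbove (fun _ => ℝ) 0)

theorem HalveΦ_apply (n : ℕ) (x : EuclideanSpace ℝ (Fin (n + 1))) :
    HalveΦ n x = (x 0, fun j => x (Fin.succ j)) := by
  rfl

theorem HalveΦ_symm_zero (n : ℕ) (p : ℝ × (Fin n → ℝ)) : (HalveΦ n).symm p 0 = p.1 := by
  have := HalveΦ_apply n ((HalveΦ n).symm p)
  rw [MeasurableEquiv.apply_symm_apply] at this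
  exact (congrArg Prod.fst this).symm

theorem HalveΦ_symm_succ (n : ℕ) (p : ℝ × (Fin n → ℝ)) (j : Fin n) :
    (HalveΦ n).symm p (Fin.succ j) = p.2 j := by
  have := HalveΦ_apply n ((HalveΦ n).symm p)
  rw [MeasurableEquiv.apply_symm_apply] at this
  exact (congrFun (congrArg Prod.snd this) j).symm

theorem Halve_norm (n : ℕ) (θ : ℝ → ℝ) (x : EuclideanSpace ℝ (Fin (n + 1))) :
    ‖(HalveΦ n).symm (Prod.map θ id (HalveΦ n x)) - x‖ = |θ (x 0) - x 0| := by
  rw [EuclideanSpace.norm_eq, Fin.sum_univ_succ]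
  have h0 : ((HalveΦ n).symm (Prod.map θ id (HalveΦ n x)) - x) 0 = θ (x 0) - x 0 := by
    rw [PiLp.sub_apply, HalveΦ_symm_zero, HalveΦ_apply]; rfl
  have hj : ∀ j : Fin n, ((HalveΦ n).symm (Prod.map θ id (HalveΦ n x)) - x) (Fin.succ j) = 0 := by
    intro j
    rw [PiLp.sub_apply, HalveΦ_symm_succ, HalveΦ_apply]; simp
  simp only [h0, hj, norm_zero]
  simp [Real.sqrt_sq_eq_abs]

/-- a measure whose density factorises through the first coordinate. -/
noncomputable def HalveNu (n : ℕ) (f₁ : ℝ → ℝ≥0∞) (f₂ : (Fin n → ℝ) → ℝ≥0∞) :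
    Measure (EuclideanSpace ℝ (Fin (n + 1))) :=
  volume.withDensity fun x => f₁ (x 0) * f₂ (fun j => x (Fin.succ j))

/-- halving for a measure with a density that factorises through the first coordinate. -/
theorem Halve_factor (n : ℕ) (f₁ : ℝ → ℝ≥0∞) (f₂ : (Fin n → ℝ) → ℝ≥0∞) (hf₁ : Measurable f₁)
    (hf₂ : Measurable f₂) (hfin : ∫⁻ t, f₁ t < ⊤) (δ : ℝ) (hδ : 0 < δ) :
    ∃ (E₁ : Set (EuclideanSpace ℝ (Fin (n + 1))))
      (θ : Bool → EuclideanSpace ℝ (Fin (n + 1)) → EuclideanSpace ℝ (Fin (n + 1))),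
      MeasurableSet E₁ ∧ (∀ k, Measurable (θ k)) ∧ (∀ k x, ‖θ k x - x‖ ≤ δ) ∧
      ((HalveNu n f₁ f₂ + HalveNu n f₁ f₂).restrict E₁).map (θ false) = HalveNu n f₁ f₂ ∧
      ((HalveNu n f₁ f₂ + HalveNu n f₁ f₂).restrict E₁ᶜ).map (θ true) = HalveNu n f₁ f₂ := by
  set m : Measure ℝ := volume.withDensity f₁ with hm
  set m' : Measure (Fin n → ℝ) := volume.withDensity f₂ with hm'
  have hmfin : IsFiniteMeasure m := by
    refine ⟨?_⟩
    rw [hm, withDensity_apply _ MeasurableSet.univ, Measure.restrict_univ]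
    exact hfin
  obtain ⟨E, θ₁, θ₂, hE, hθ₁, hθ₂, hd₁, hd₂, hp₁, hp₂⟩ := halving_real m δ hδ
  set ν : Measure (EuclideanSpace ℝ (Fin (n + 1))) := HalveNu n f₁ f₂ with hν
  have hνmap : ν.map (HalveΦ n) = m.prod m' := by
    rw [hm, hm', prod_withDensity hf₁ hf₂]
    exact Halve_map_withDensity (HalveΦ n) volume volume (HalveΦ_mp n)
      (fun p => f₁ p.1 * f₂ p.2) ((hf₁.comp measurable_fst).mul (hf₂.comp measurable_snd))
  refine ⟨(HalveΦ n) ⁻¹' (E ×ˢ Set.univ),
    fun k x => (HalveΦ n).symm (Prod.map (if k then θ₂ else θ₁) id (HalveΦ n x)),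
    (HalveΦ n).measurable (hE.prod MeasurableSet.univ), ?_, ?_, ?_, ?_⟩
  · intro k
    cases k
    · exact (HalveΦ n).symm.measurable.comp ((hθ₁.prodMap measurable_id).comp (HalveΦ n).measurable)
    · exact (HalveΦ n).symm.measurable.comp ((hθ₂.prodMap measurable_id).comp (HalveΦ n).measurable)
  · intro k x
    rw [Halve_norm]
    cases k
    · exact hd₁ _
    · exact hd₂ _
  · exact Halve_transport (HalveΦ n) ν _ hνmap _ (hE.prod MeasurableSet.univ) _
      (hθ₁.prodMap measurable_id) (Halve_prod m m' E θ₁ hθ₁ hp₁)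
  · have hc : ((HalveΦ n) ⁻¹' (E ×ˢ Set.univ))ᶜ = (HalveΦ n) ⁻¹' (Eᶜ ×ˢ Set.univ) := by
      ext x; simp
    rw [hc]
    exact Halve_transport (HalveΦ n) ν _ hνmap _ (hE.compl.prod MeasurableSet.univ) _
      (hθ₂.prodMap measurable_id) (Halve_prod m m' Eᶜ θ₂ hθ₂ hp₂)

/-- **G4b.**  `ψ x = κ ∏ i, ψ₁ (x i)`; the halving acts on the coordinate `0` only. -/
theorem exists_bump_halving (d : ℕ) (hd : 1 ≤ d) (r : ℝ) (hr : 0 < r) :
    ∃ ψ : EuclideanSpace ℝ (Fin d) → ℝ, ContDiff ℝ ∞ ψ ∧ (∀ x, 0 ≤ ψ x) ∧ HasCompactSupport ψ ∧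
      tsupport ψ ⊆ Metric.ball 0 r ∧ ∫⁻ x, ENNReal.ofReal (ψ x ^ 2) = ENNReal.ofReal (1 / 6) ∧
      ∀ δ : ℝ, 0 < δ → ∃ (E₁ : Set (EuclideanSpace ℝ (Fin d)))
        (θ : Bool → EuclideanSpace ℝ (Fin d) → EuclideanSpace ℝ (Fin d)),
        MeasurableSet E₁ ∧ (∀ k, Measurable (θ k)) ∧ (∀ k x, ‖θ k x - x‖ ≤ δ) ∧
        (((volume.withDensity fun x => ENNReal.ofReal (ψ x ^ 2)) +
          (volume.withDensity fun x => ENNReal.ofReal (ψ x ^ 2))).restrict E₁).map (θ false) =
            (volume.withDensity fun x => ENNReal.ofReal (ψ x ^ 2)) ∧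
        (((volume.withDensity fun x => ENNReal.ofReal (ψ x ^ 2)) +
          (volume.withDensity fun x => ENNReal.ofReal (ψ x ^ 2))).restrict E₁ᶜ).map (θ true) =
            (volume.withDensity fun x => ENNReal.ofReal (ψ x ^ 2)) := by
  obtain ⟨n, rfl⟩ : ∃ n, d = n + 1 := ⟨d - 1, by omega⟩
  set a : ℝ := r / (2 * (n + 1)) with ha
  have hapos : 0 < a := by positivity
  let b : ContDiffBump (0 : ℝ) := ⟨a / 2, a, by positivity, by linarith⟩
  have hbs : ContDiff ℝ ∞ (b : ℝ → ℝ) := b.contDiff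
  set ψ₀ : EuclideanSpace ℝ (Fin (n + 1)) → ℝ := fun x => ∏ i, b (x i) with hψ₀
  have hψ₀s : ContDiff ℝ ∞ ψ₀ := by
    apply contDiff_prod
    intro i _
    exact hbs.comp (EuclideanSpace.proj i : EuclideanSpace ℝ (Fin (n + 1)) →L[ℝ] ℝ).contDiff
  have hψ₀nn : ∀ x, 0 ≤ ψ₀ x := fun x => Finset.prod_nonneg (fun i _ => b.nonneg)
  have hsupp : Function.support ψ₀ ⊆ Metric.closedBall 0 (r / 2) := by
    intro x hx
    have hx' : ∀ i, b (x i) ≠ 0 := by
      intro i hi
      exact hx (Finset.prod_eq_zero (Finset.mem_univ i) hi)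
    have hxi : ∀ i, |x i| < a := by
      intro i
      have : x i ∈ Function.support (b : ℝ → ℝ) := hx' i
      rw [b.support_eq, Metric.mem_ball, dist_zero_right, Real.norm_eq_abs] at this
      exact this
    rw [Metric.mem_closedBall, dist_zero_right]
    have h1 : ‖x‖ ^ 2 ≤ ((n + 1) * a) ^ 2 := by
      rw [EuclideanSpace.real_norm_sq_eq]
      calc ∑ i, x i ^ 2 ≤ ∑ _i : Fin (n + 1), a ^ 2 := by
            apply Finset.sum_le_sum
            intro i _
            rw [← sq_abs]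
            have := hxi i
            have h0 := abs_nonneg (x i)
            nlinarith
        _ = (n + 1) * a ^ 2 := by simp
        _ ≤ ((n + 1) * a) ^ 2 := by
            have : (1 : ℝ) ≤ n + 1 := by
              have : (0 : ℝ) ≤ n := Nat.cast_nonneg n
              linarith
            have h2 : 0 < a ^ 2 := by positivity
            nlinarith
    have h2 : (n + 1) * a = r / 2 := by
      rw [ha]; field_simp
    rw [h2] at h1
    exact abs_le_of_sq_le_sq' h1 (by positivity) |>.2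
  have hψ₀c : HasCompactSupport ψ₀ :=
    HasCompactSupport.of_support_subset_isCompact (isCompact_closedBall _ _) hsupp
  -- the mass
  have hsqc : Continuous fun x => ψ₀ x ^ 2 := (hψ₀s.continuous.pow 2)
  have hsqcs : HasCompactSupport fun x => ψ₀ x ^ 2 := by
    have : (fun x => ψ₀ x ^ 2) = fun x => ψ₀ x * ψ₀ x := by ext x; ring
    rw [this]; exact hψ₀c.mul_left
  have hψ₀0 : ψ₀ 0 = 1 := by
    simp only [hψ₀]
    apply Finset.prod_eq_one
    intro i _
    apply b.one_of_mem_closedBall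
    simp
    positivity
  set J : ℝ := ∫ x, ψ₀ x ^ 2 with hJ
  have hJpos : 0 < J := by
    apply hsqc.integral_pos_of_hasCompactSupport_nonneg_nonzero hsqcs (x := 0)
    · intro x; positivity
    · rw [hψ₀0]; norm_num
  set κ : ℝ := Real.sqrt (1 / (6 * J)) with hκ
  have hκ0 : 0 ≤ κ := Real.sqrt_nonneg _
  have hκ2 : κ ^ 2 = 1 / (6 * J) := Real.sq_sqrt (by positivity)
  set ψ : EuclideanSpace ℝ (Fin (n + 1)) → ℝ := fun x => κ * ψ₀ x with hψ
  have hψsupp : Function.support ψ ⊆ Metric.closedBall 0 (r / 2) := by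
    intro x hx
    apply hsupp
    intro h0
    apply hx
    simp [hψ, h0]
  have hmass : ∫⁻ x, ENNReal.ofReal (ψ x ^ 2) = ENNReal.ofReal (1 / 6) := by
    have hint : Integrable fun x => ψ x ^ 2 := by
      have : (fun x => ψ x ^ 2) = fun x => κ ^ 2 * ψ₀ x ^ 2 := by ext x; simp only [hψ]; ring
      rw [this]
      exact (hsqc.integrable_of_hasCompactSupport hsqcs).const_mul _
    rw [← ofReal_integral_eq_lintegral_ofReal hint (Filter.Eventually.of_forall fun x => by positivity)]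
    congr 1
    have : (fun x => ψ x ^ 2) = fun x => κ ^ 2 * ψ₀ x ^ 2 := by ext x; simp only [hψ]; ring
    rw [this, integral_const_mul, hκ2, ← hJ]
    field_simp
  refine ⟨ψ, contDiff_const.mul hψ₀s, fun x => mul_nonneg hκ0 (hψ₀nn x),
    HasCompactSupport.of_support_subset_isCompact (isCompact_closedBall _ _) hψsupp, ?_, hmass, ?_⟩
  · refine (closure_minimal hψsupp Metric.isClosed_closedBall).trans ?_
    exact Metric.closedBall_subset_ball (by linarith)
  · intro δ hδ
    set f₁ : ℝ → ℝ≥0∞ := fun t => ENNReal.ofReal (κ ^ 2 * b t ^ 2) with hf₁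
    set f₂ : (Fin n → ℝ) → ℝ≥0∞ := fun w => ENNReal.ofReal (∏ j, b (w j) ^ 2) with hf₂
    have hf₁m : Measurable f₁ :=
      ((hbs.continuous.measurable.pow_const 2).const_mul _).ennreal_ofReal
    have hf₂m : Measurable f₂ := by
      apply Measurable.ennreal_ofReal
      apply Finset.measurable_prod
      intro j _
      exact ((hbs.continuous.measurable.comp (measurable_pi_apply j)).pow_const 2)
    have hfin : ∫⁻ t, f₁ t < ⊤ := by
      apply Integrable.lintegral_lt_top
      apply Continuous.integrable_of_hasCompactSupport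
      · exact continuous_const.mul (hbs.continuous.pow 2)
      · have : (fun t => κ ^ 2 * b t ^ 2) = fun t => (κ ^ 2 * b t) * b t := by ext t; ring
        rw [this]
        exact b.hasCompactSupport.mul_left
    have hden : (volume.withDensity fun x => ENNReal.ofReal (ψ x ^ 2)) = HalveNu n f₁ f₂ := by
      unfold HalveNu
      congr 1
      ext x
      simp only [hf₁, hf₂, hψ, hψ₀]
      rw [← ENNReal.ofReal_mul (by positivity), Fin.prod_univ_succ, Finset.prod_pow]
      congr 1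
      ring
    rw [hden]
    exact Halve_factor n f₁ f₂ hf₁m hf₂m hfin δ hδ

end Crest.Agent.S0175
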