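import Crest.Agent.S0175_IFTa

set_option autoImplicit false

namespace Crest.Agent.S0175

open MeasureTheory Crest.AnalysisR.OT
open scoped ENNReal RealInnerProductSpace ContDiff Topology

variable {d : ℕ} {s : ℝ}

/-- the implicit equation. -/
noncomputable def IFT_Psi (s : ℝ) (e : EE d) (w : EE d × (EE d × EE d)) : EE d × EE d :=
  (gphi s (w.1 - w.2.1) + gphi s (w.1 - w.2.2) + Kc s • w.1,
   -gphi s (w.1 - w.2.2) - gphi s (w.2.1 - w.2.2) + Kc s • (w.2.2 + e) - pvec s e)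

theorem IFT_Psi_eq_zero_iff (s : ℝ) (e x y z : EE d) :
    IFT_Psi s e (x, (y, z)) = 0 ↔ Crit s e x y z := by
  unfold IFT_Psi Crit
  exact Prod.mk_eq_zero

theorem IFT_e_ne {e : EE d} (he : ‖e‖ = 1) : e ≠ 0 := by
  intro h
  rw [h, norm_zero] at he
  exact zero_ne_one he

theorem IFT_Psi_base (s : ℝ) {e : EE d} (he : ‖e‖ = 1) : IFT_Psi s e (0, (e, -e)) = 0 := by
  rw [IFT_Psi_eq_zero_iff]
  have h2 : e - -e = (2 : ℝ) • e := by module
  have hn2 : ‖(2 : ℝ) • e‖ = 2 := by rw [norm_smul, he]; norm_num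
  have hp : (2 : ℝ) ^ (-s - 2) * 2 = (2 : ℝ) ^ (-s - 1) := by
    have : (-s - 1) = (-s - 2) + 1 := by ring
    rw [this, Real.rpow_add (by norm_num), Real.rpow_one]
  constructor
  · simp only [gphi, zero_sub, neg_neg, norm_neg, he, Real.one_rpow, smul_zero, add_zero]
    module
  · simp only [gphi, zero_sub, neg_neg, h2, hn2, he, Real.one_rpow, pvec, neg_add_cancel,
      smul_zero, add_zero, smul_smul, ← hp]
    module

/-- the derivative of `IFT_Psi` at the base point. -/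
noncomputable def IFT_dPsi (s : ℝ) (e : EE d) : (EE d × (EE d × EE d)) →L[ℝ] (EE d × EE d) :=
  let X := ContinuousLinearMap.fst ℝ (EE d) (EE d × EE d)
  let Y := (ContinuousLinearMap.fst ℝ (EE d) (EE d)).comp
    (ContinuousLinearMap.snd ℝ (EE d) (EE d × EE d))
  let Z := (ContinuousLinearMap.snd ℝ (EE d) (EE d)).comp
    (ContinuousLinearMap.snd ℝ (EE d) (EE d × EE d))
  ((IFT_Dg s (-e)).comp (X - Y) + (IFT_Dg s e).comp (X - Z) + Kc s • X).prod
    (-(IFT_Dg s e).comp (X - Z) - (IFT_Dg s ((2 : ℝ) • e)).comp (Y - Z) + Kc s • Z)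

theorem IFT_dPsi_apply (s : ℝ) {e : EE d} (he : ‖e‖ = 1) (ξ η ζ : EE d) :
    IFT_dPsi s e (ξ, (η, ζ)) = IFT_L s e ξ η ζ := by
  simp [IFT_dPsi, IFT_L, IFT_Dg_e s he, IFT_Dg_neg_e s he, IFT_Dg_two_e s he, IFT_J_sub,
    smul_sub]

theorem IFT_hasStrictFDerivAt_Psi (s : ℝ) {e : EE d} (he : ‖e‖ = 1) :
    HasStrictFDerivAt (IFT_Psi s e) (IFT_dPsi s e) (0, (e, -e)) := by
  have hne := IFT_e_ne he
  set u : EE d × (EE d × EE d) := (0, (e, -e)) with hu
  have hX : HasStrictFDerivAt (fun w : EE d × (EE d × EE d) => w.1)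
      (ContinuousLinearMap.fst ℝ (EE d) (EE d × EE d)) u := hasStrictFDerivAt_fst
  have hS : HasStrictFDerivAt (fun w : EE d × (EE d × EE d) => w.2)
      (ContinuousLinearMap.snd ℝ (EE d) (EE d × EE d)) u := hasStrictFDerivAt_snd
  have hY : HasStrictFDerivAt (fun w : EE d × (EE d × EE d) => w.2.1)
      ((ContinuousLinearMap.fst ℝ (EE d) (EE d)).comp
        (ContinuousLinearMap.snd ℝ (EE d) (EE d × EE d))) u := hS.fst
  have hZ : HasStrictFDerivAt (fun w : EE d × (EE d × EE d) => w.2.2)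
      ((ContinuousLinearMap.snd ℝ (EE d) (EE d)).comp
        (ContinuousLinearMap.snd ℝ (EE d) (EE d × EE d))) u := hS.snd
  have g1 : HasStrictFDerivAt (gphi s) (IFT_Dg s (-e)) (u.1 - u.2.1) := by
    have : u.1 - u.2.1 = -e := by simp [hu]
    rw [this]
    exact IFT_hasStrictFDerivAt_gphi s (neg_ne_zero.2 hne)
  have g2 : HasStrictFDerivAt (gphi s) (IFT_Dg s e) (u.1 - u.2.2) := by
    have : u.1 - u.2.2 = e := by simp [hu]
    rw [this]
    exact IFT_hasStrictFDerivAt_gphi s hne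
  have g3 : HasStrictFDerivAt (gphi s) (IFT_Dg s ((2 : ℝ) • e)) (u.2.1 - u.2.2) := by
    have : u.2.1 - u.2.2 = (2 : ℝ) • e := by simp only [hu]; module
    rw [this]
    exact IFT_hasStrictFDerivAt_gphi s (smul_ne_zero two_ne_zero hne)
  have c1 := g1.comp u (hX.sub hY)
  have c2 := g2.comp u (hX.sub hZ)
  have c3 := g3.comp u (hY.sub hZ)
  have r1 := (c1.add c2).add (hX.const_smul (Kc s))
  have r2 := (((c2.neg).sub c3).add ((hZ.add_const e).const_smul (Kc s))).sub_const (pvec s e)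
  exact r1.prodMk r2

theorem IFT_contDiffAt_Psi (s : ℝ) {e : EE d} (he : ‖e‖ = 1) :
    ContDiffAt ℝ ω (IFT_Psi s e) (0, (e, -e)) := by
  have hne := IFT_e_ne he
  set u : EE d × (EE d × EE d) := (0, (e, -e)) with hu
  have hX : ContDiffAt ℝ ω (fun w : EE d × (EE d × EE d) => w.1) u := contDiffAt_fst
  have hS : ContDiffAt ℝ ω (fun w : EE d × (EE d × EE d) => w.2) u := contDiffAt_snd
  have hY : ContDiffAt ℝ ω (fun w : EE d × (EE d × EE d) => w.2.1) u := hS.fst
  have hZ : ContDiffAt ℝ ω (fun w : EE d × (EE d × EE d) => w.2.2) u := hS.snd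
  have g1 : ContDiffAt ℝ ω (gphi s) (u.1 - u.2.1) := by
    have : u.1 - u.2.1 = -e := by simp [hu]
    rw [this]
    exact IFT_contDiffAt_gphi s (neg_ne_zero.2 hne)
  have g2 : ContDiffAt ℝ ω (gphi s) (u.1 - u.2.2) := by
    have : u.1 - u.2.2 = e := by simp [hu]
    rw [this]
    exact IFT_contDiffAt_gphi s hne
  have g3 : ContDiffAt ℝ ω (gphi s) (u.2.1 - u.2.2) := by
    have : u.2.1 - u.2.2 = (2 : ℝ) • e := by simp only [hu]; module
    rw [this]
    exact IFT_contDiffAt_gphi s (smul_ne_zero two_ne_zero hne)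
  have c1 : ContDiffAt ℝ ω (fun w : EE d × (EE d × EE d) => gphi s (w.1 - w.2.1)) u :=
    ContDiffAt.comp (g := gphi s) (f := fun w : EE d × (EE d × EE d) => w.1 - w.2.1) u g1
      (hX.sub hY)
  have c2 : ContDiffAt ℝ ω (fun w : EE d × (EE d × EE d) => gphi s (w.1 - w.2.2)) u :=
    ContDiffAt.comp (g := gphi s) (f := fun w : EE d × (EE d × EE d) => w.1 - w.2.2) u g2
      (hX.sub hZ)
  have c3 : ContDiffAt ℝ ω (fun w : EE d × (EE d × EE d) => gphi s (w.2.1 - w.2.2)) u :=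
    ContDiffAt.comp (g := gphi s) (f := fun w : EE d × (EE d × EE d) => w.2.1 - w.2.2) u g3
      (hY.sub hZ)
  have k1 : ContDiffAt ℝ ω (fun w : EE d × (EE d × EE d) => Kc s • w.1) u := hX.const_smul (Kc s)
  have k2 : ContDiffAt ℝ ω (fun w : EE d × (EE d × EE d) => Kc s • (w.2.2 + e)) u :=
    (hZ.add contDiffAt_const).const_smul (Kc s)
  have r1 := (c1.add c2).add k1
  have r2 := (((c2.neg).sub c3).add k2).sub (contDiffAt_const (c := pvec s e))
  exact r1.prodMk r2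

/-- an injective endomorphism of a finite dimensional space as a continuous linear equivalence. -/
theorem IFT_exists_equiv {E : Type*} [NormedAddCommGroup E] [NormedSpace ℝ E]
    [FiniteDimensional ℝ E] (f : E →L[ℝ] E) (hf : Function.Injective f) :
    ∃ g : E ≃L[ℝ] E, (g : E →L[ℝ] E) = f := by
  refine ⟨(LinearEquiv.ofInjectiveEndo (f : E →ₗ[ℝ] E) hf).toContinuousLinearEquiv, ?_⟩
  ext x
  simp [LinearEquiv.coe_ofInjectiveEndo]

/-- local diffeomorphism package. -/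
theorem IFT_local (f : EE d → EE d) (hf : ContDiffAt ℝ ω f 0) (f' : EE d →L[ℝ] EE d)
    (hf' : HasStrictFDerivAt f f' 0) (hinj : Function.Injective f') :
    ∃ r : ℝ, 0 < r ∧ Set.InjOn f (Metric.ball 0 r) ∧
      ∀ x ∈ Metric.ball (0 : EE d) r, (fderiv ℝ f x).det ≠ 0 := by
  obtain ⟨g, hg⟩ := IFT_exists_equiv f' hinj
  rw [← hg] at hf'
  have h1 : (hf'.toOpenPartialHomeomorph f).source ∈ 𝓝 (0 : EE d) :=
    (hf'.toOpenPartialHomeomorph f).open_source.mem_nhds hf'.mem_toOpenPartialHomeomorph_source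
  have h2 : ContinuousAt (fun x => (fderiv ℝ f x).det) 0 := by
    have h3 : ContDiffAt ℝ 0 (fderiv ℝ f) 0 := hf.fderiv_right (m := 0) (by simp)
    exact ContinuousLinearMap.continuous_det.continuousAt.comp h3.continuousAt
  have h4 : (fderiv ℝ f 0).det ≠ 0 := by
    rw [hf'.hasFDerivAt.fderiv]
    exact (LinearEquiv.isUnit_det' g.toLinearEquiv).ne_zero
  have h5 := h2.eventually_ne h4
  obtain ⟨r, hr, hball⟩ := Metric.eventually_nhds_iff_ball.1 (h5.and h1)
  refine ⟨r, hr, ?_, fun x hx => (hball x hx).1⟩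
  intro x hx y hy hxy
  exact (hf'.toOpenPartialHomeomorph f).injOn (hball x hx).2 (hball y hy).2 hxy

end Crest.Agent.S0175
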