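/-
Row 130 (S0175), package G2: the contact maps `Y, Z` from the implicit function theorem.
-/
import Crest.Agent.S0175_IFTb

set_option autoImplicit false

namespace Crest.Agent.S0175

open MeasureTheory Crest.AnalysisR.OT
open scoped ENNReal RealInnerProductSpace ContDiff Topology

variable {d : ℕ} {s : ℝ}

/-- the raw implicit function. -/
theorem IFT_exists_psi (hs : 0 < s) (e : EE d) (he : ‖e‖ = 1) :
    ∃ (ψ : EE d → EE d × EE d) (ψ' : EE d →L[ℝ] EE d × EE d), ψ 0 = (e, -e) ∧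
      ContDiffAt ℝ ω ψ 0 ∧ HasStrictFDerivAt ψ ψ' 0 ∧
      (∀ᶠ x in 𝓝 (0 : EE d), IFT_Psi s e (x, ψ x) = 0) ∧
      ∀ ξ, IFT_L s e ξ (ψ' ξ).1 (ψ' ξ).2 = 0 := by
  have cdf := IFT_contDiffAt_Psi s he
  have hd := IFT_hasStrictFDerivAt_Psi s he
  have hfd : fderiv ℝ (IFT_Psi s e) (0, (e, -e)) = IFT_dPsi s e := hd.hasFDerivAt.fderiv
  have pn : (ω : ℕ∞ω) ≠ 0 := by simp
  have if₂ : (fderiv ℝ (IFT_Psi s e) (0, (e, -e)) ∘L
      ContinuousLinearMap.inr ℝ (EE d) (EE d × EE d)).IsInvertible := by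
    rw [hfd]
    have hinj : Function.Injective
        (IFT_dPsi s e ∘L ContinuousLinearMap.inr ℝ (EE d) (EE d × EE d)) := by
      rw [injective_iff_map_eq_zero]
      rintro ⟨a, b⟩ hab
      have : IFT_L s e 0 a b = 0 := by
        rw [← IFT_dPsi_apply s he]
        simpa using hab
      obtain ⟨h1, h2⟩ := IFT_L0 hs he this
      simp [h1, h2]
    obtain ⟨g, hg⟩ := IFT_exists_equiv _ hinj
    rw [← hg]
    exact ContinuousLinearMap.isInvertible_equiv
  refine ⟨cdf.implicitFunction pn if₂, _, cdf.implicitFunction_apply_self pn if₂,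
    cdf.contDiffAt_implicitFunction pn if₂, cdf.hasStrictFDerivAt_implicitFunction pn if₂, ?_, ?_⟩
  · have := cdf.eventually_apply_implicitFunction pn if₂
    simpa [IFT_Psi_base s he] using this
  · intro ξ
    rw [← IFT_dPsi_apply s he, Prod.mk.eta]
    rw [hfd] at if₂ ⊢
    set w := (-(IFT_dPsi s e ∘L ContinuousLinearMap.inr ℝ (EE d) (EE d × EE d)).inverse ∘L
      IFT_dPsi s e ∘L ContinuousLinearMap.inl ℝ (EE d) (EE d × EE d)) ξ with hw
    have h1 : (IFT_dPsi s e ∘L ContinuousLinearMap.inr ℝ (EE d) (EE d × EE d)) w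
        = -(IFT_dPsi s e ∘L ContinuousLinearMap.inl ℝ (EE d) (EE d × EE d)) ξ := by
      rw [hw]
      simp only [ContinuousLinearMap.comp_apply, neg_apply, map_neg]
      have := if₂.self_apply_inverse ((IFT_dPsi s e) (ContinuousLinearMap.inl ℝ (EE d) (EE d × EE d) ξ))
      simp only [ContinuousLinearMap.comp_apply] at this
      rw [this]
    have h2 : ((ξ, w) : EE d × (EE d × EE d)) = ContinuousLinearMap.inl ℝ (EE d) (EE d × EE d) ξ
        + ContinuousLinearMap.inr ℝ (EE d) (EE d × EE d) w := by simp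
    rw [h2, map_add]
    simp only [ContinuousLinearMap.comp_apply] at h1
    rw [h1]
    simp

/-- cutting a locally defined map off outside a ball. -/
theorem IFT_cut (f : EE d → EE d) (r : ℝ)
    (hf : ∀ x ∈ Metric.ball (0 : EE d) r, ContDiffAt ℝ ω f x) :
    ∃ Y : EE d → EE d, Measurable Y ∧ ContDiffOn ℝ ∞ Y (Metric.ball 0 r) ∧
      (∀ x ∈ Metric.ball (0 : EE d) r, Y x = f x) ∧
      (∀ x ∈ Metric.ball (0 : EE d) r, fderiv ℝ Y x = fderiv ℝ f x) := by
  classical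
  have hY : ∀ x ∈ Metric.ball (0 : EE d) r,
      (Metric.ball (0 : EE d) r).piecewise f (fun _ => 0) x = f x :=
    fun x hx => Set.piecewise_eq_of_mem _ _ _ hx
  refine ⟨(Metric.ball (0 : EE d) r).piecewise f (fun _ => 0), ?_, ?_, hY, ?_⟩
  · refine ContinuousOn.measurable_piecewise ?_ continuousOn_const Metric.isOpen_ball.measurableSet
    exact fun x hx => (hf x hx).continuousAt.continuousWithinAt
  · have h1 : ContDiffOn ℝ ∞ f (Metric.ball 0 r) :=
      fun x hx => ((hf x hx).of_le le_top).contDiffWithinAt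
    exact h1.congr hY
  · intro x hx
    apply Filter.EventuallyEq.fderiv_eq
    filter_upwards [Metric.isOpen_ball.mem_nhds hx] with y hy using hY y hy

/-- **G2.**  Solve `Crit s e x (Y x) (Z x)` near `x = 0`, `Y 0 = e`, `Z 0 = -e`
(`ContDiffAt.implicitFunction` with `n = ω`), `Y, Z` local diffeomorphisms. -/
theorem exists_contact_maps (hs : 0 < s) (e : EE d) (he : ‖e‖ = 1) (η : ℝ) (hη : 0 < η) :
    ∃ (r : ℝ) (Y Z : EE d → EE d), 0 < r ∧ r ≤ η ∧ Measurable Y ∧ Measurable Z ∧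
      ContDiffOn ℝ ∞ Y (Metric.ball 0 r) ∧ ContDiffOn ℝ ∞ Z (Metric.ball 0 r) ∧
      Set.InjOn Y (Metric.ball 0 r) ∧ Set.InjOn Z (Metric.ball 0 r) ∧
      (∀ x ∈ Metric.ball (0 : EE d) r, (fderiv ℝ Y x).det ≠ 0) ∧
      (∀ x ∈ Metric.ball (0 : EE d) r, (fderiv ℝ Z x).det ≠ 0) ∧
      (∀ x ∈ Metric.ball (0 : EE d) r, Y x ∈ Metric.ball e η ∧ Z x ∈ Metric.ball (-e) η ∧
        Crit s e x (Y x) (Z x)) := by
  obtain ⟨ψ, ψ', hψ0, hψc, hψd, hψeq, hψL⟩ := IFT_exists_psi hs e he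
  have hYc : ContDiffAt ℝ ω (fun x => (ψ x).1) 0 := hψc.fst
  have hZc : ContDiffAt ℝ ω (fun x => (ψ x).2) 0 := hψc.snd
  have hYd : HasStrictFDerivAt (fun x => (ψ x).1)
      ((ContinuousLinearMap.fst ℝ (EE d) (EE d)).comp ψ') 0 := hψd.fst
  have hZd : HasStrictFDerivAt (fun x => (ψ x).2)
      ((ContinuousLinearMap.snd ℝ (EE d) (EE d)).comp ψ') 0 := hψd.snd
  have hYinj : Function.Injective ((ContinuousLinearMap.fst ℝ (EE d) (EE d)).comp ψ') := by
    rw [injective_iff_map_eq_zero]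
    intro ξ hξ
    have h0 := hψL ξ
    have h1 : (ψ' ξ).1 = 0 := hξ
    rw [h1] at h0
    exact IFT_L1 hs h0
  have hZinj : Function.Injective ((ContinuousLinearMap.snd ℝ (EE d) (EE d)).comp ψ') := by
    rw [injective_iff_map_eq_zero]
    intro ξ hξ
    have h0 := hψL ξ
    have h1 : (ψ' ξ).2 = 0 := hξ
    rw [h1] at h0
    exact IFT_L2 hs he h0
  obtain ⟨r1, hr1, hY1, hY2⟩ := IFT_local _ hYc _ hYd hYinj
  obtain ⟨r2, hr2, hZ1, hZ2⟩ := IFT_local _ hZc _ hZd hZinj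
  have hev : ∀ᶠ x in 𝓝 (0 : EE d), ContDiffAt ℝ ω ψ x := hψc.eventually (by simp)
  have hclose : ∀ᶠ x in 𝓝 (0 : EE d), ψ x ∈ Metric.ball e η ×ˢ Metric.ball (-e) η := by
    apply hψc.continuousAt.eventually_mem
    rw [hψ0]
    exact prod_mem_nhds (Metric.ball_mem_nhds _ hη) (Metric.ball_mem_nhds _ hη)
  obtain ⟨r3, hr3, h3⟩ := Metric.eventually_nhds_iff_ball.1 (hev.and (hclose.and hψeq))
  set r := min (min r1 r2) (min r3 η) with hr
  have hrpos : 0 < r := lt_min (lt_min hr1 hr2) (lt_min hr3 hη)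
  have hb1 : Metric.ball (0 : EE d) r ⊆ Metric.ball 0 r1 :=
    Metric.ball_subset_ball ((min_le_left _ _).trans (min_le_left _ _))
  have hb2 : Metric.ball (0 : EE d) r ⊆ Metric.ball 0 r2 :=
    Metric.ball_subset_ball ((min_le_left _ _).trans (min_le_right _ _))
  have hb3 : Metric.ball (0 : EE d) r ⊆ Metric.ball 0 r3 :=
    Metric.ball_subset_ball ((min_le_right _ _).trans (min_le_left _ _))
  obtain ⟨Y, hYm, hYs, hYe, hYf⟩ := IFT_cut (fun x => (ψ x).1) r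
    (fun x hx => (h3 x (hb3 hx)).1.fst)
  obtain ⟨Z, hZm, hZs, hZe, hZf⟩ := IFT_cut (fun x => (ψ x).2) r
    (fun x hx => (h3 x (hb3 hx)).1.snd)
  refine ⟨r, Y, Z, hrpos, (min_le_right _ _).trans (min_le_right _ _), hYm, hZm, hYs, hZs,
    ?_, ?_, ?_, ?_, ?_⟩
  · intro x hx y hy hxy
    rw [hYe x hx, hYe y hy] at hxy
    exact hY1 (hb1 hx) (hb1 hy) hxy
  · intro x hx y hy hxy
    rw [hZe x hx, hZe y hy] at hxy
    exact hZ1 (hb2 hx) (hb2 hy) hxy
  · intro x hx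
    rw [hYf x hx]
    exact hY2 x (hb1 hx)
  · intro x hx
    rw [hZf x hx]
    exact hZ2 x (hb2 hx)
  · intro x hx
    obtain ⟨-, hcl, heq⟩ := h3 x (hb3 hx)
    rw [hYe x hx, hZe x hx]
    refine ⟨hcl.1, hcl.2, ?_⟩
    rw [← IFT_Psi_eq_zero_iff]
    exact heq

end Crest.Agent.S0175
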