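/-
Row 130 (S0175), package G3: push-forward of a smooth squared density under a diffeomorphism
onto its image (Mathlib only).
-/
import Mathlib

set_option autoImplicit false

namespace Crest.Agent.S0175

open MeasureTheory
open scoped ENNReal ContDiff

variable {d : ℕ}

/-- The determinant is a smooth function of a continuous linear endomorphism. -/
theorem push_contDiff_det :
    ContDiff ℝ ∞ (fun A : EuclideanSpace ℝ (Fin d) →L[ℝ] EuclideanSpace ℝ (Fin d) => A.det) := by
  classical
  set b := (EuclideanSpace.basisFun (Fin d) ℝ).toBasis with hb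
  have h : ∀ A : EuclideanSpace ℝ (Fin d) →L[ℝ] EuclideanSpace ℝ (Fin d),
      A.det = ∑ σ : Equiv.Perm (Fin d), (Equiv.Perm.sign σ : ℤ) •
        ∏ i, ((EuclideanSpace.proj (σ i) : EuclideanSpace ℝ (Fin d) →L[ℝ] ℝ).comp
          (ContinuousLinearMap.apply ℝ (EuclideanSpace ℝ (Fin d)) (b i))) A := by
    intro A
    rw [ContinuousLinearMap.det, ← LinearMap.det_toMatrix b, Matrix.det_apply]
    refine Finset.sum_congr rfl fun σ _ => ?_
    congr 1
    refine Finset.prod_congr rfl fun i _ => ?_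
    rw [LinearMap.toMatrix_apply]
    simp [hb]
  simp_rw [h]
  refine ContDiff.sum fun σ _ => ?_
  refine ContDiff.const_smul _ ?_
  refine contDiff_prod fun i _ => ?_
  exact ContinuousLinearMap.contDiff _

/-- A smooth map that is injective on an open set with invertible derivative there, as an open
partial homeomorphism. -/
theorem push_exists_homeo (U : Set (EuclideanSpace ℝ (Fin d))) (hU : IsOpen U)
    (f : EuclideanSpace ℝ (Fin d) → EuclideanSpace ℝ (Fin d))
    (hf : ContDiffOn ℝ ∞ f U) (hinj : Set.InjOn f U) (hdet : ∀ x ∈ U, (fderiv ℝ f x).det ≠ 0) :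
    ∃ e : OpenPartialHomeomorph (EuclideanSpace ℝ (Fin d)) (EuclideanSpace ℝ (Fin d)),
      e.source = U ∧ e.target = f '' U ∧ (⇑e = f) ∧ ∀ y ∈ f '' U, ContDiffAt ℝ ∞ e.symm y := by
  classical
  have hfat : ∀ x ∈ U, ContDiffAt ℝ ∞ f x := fun x hx => hf.contDiffAt (hU.mem_nhds hx)
  have hstrict : ∀ x ∈ U, HasStrictFDerivAt f (fderiv ℝ f x) x := fun x hx =>
    (hfat x hx).hasStrictFDerivAt (by simp)
  have hmap : ∀ x ∈ U, Filter.map f (nhds x) = nhds (f x) := by
    intro x hx
    have h1 : HasStrictFDerivAt f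
        (((fderiv ℝ f x).toContinuousLinearEquivOfDetNeZero (hdet x hx) :
          EuclideanSpace ℝ (Fin d) ≃L[ℝ] EuclideanSpace ℝ (Fin d)) :
          EuclideanSpace ℝ (Fin d) →L[ℝ] EuclideanSpace ℝ (Fin d)) x := by
      rw [ContinuousLinearMap.coe_toContinuousLinearEquivOfDetNeZero]
      exact hstrict x hx
    exact h1.map_nhds_eq_of_equiv
  let e0 : PartialEquiv (EuclideanSpace ℝ (Fin d)) (EuclideanSpace ℝ (Fin d)) :=
    Set.InjOn.toPartialEquiv f U hinj
  have hopen : IsOpenMap (e0.source.domRestrict e0) := by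
    rw [isOpenMap_iff_nhds_le]
    intro a
    have ha : (a : EuclideanSpace ℝ (Fin d)) ∈ U := a.2
    have h2 : Filter.map (Subtype.val : U → EuclideanSpace ℝ (Fin d)) (nhds a)
        = nhds (a : EuclideanSpace ℝ (Fin d)) :=
      hU.isOpenEmbedding_subtypeVal.map_nhds_eq a
    have h3 : Filter.map (e0.source.domRestrict e0) (nhds a)
        = Filter.map f (Filter.map (Subtype.val : U → EuclideanSpace ℝ (Fin d)) (nhds a)) := by
      rw [Filter.map_map]
      rfl
    rw [h3, h2, hmap _ ha]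
    exact le_of_eq rfl
  refine ⟨OpenPartialHomeomorph.ofContinuousOpenRestrict e0 hf.continuousOn hopen hU,
    rfl, rfl, rfl, ?_⟩
  intro y hy
  set e := OpenPartialHomeomorph.ofContinuousOpenRestrict e0 hf.continuousOn hopen hU with he
  have hyt : y ∈ e.target := hy
  have hx : e.symm y ∈ U := e.map_target hyt
  refine e.contDiffAt_symm
    (f₀' := (fderiv ℝ f (e.symm y)).toContinuousLinearEquivOfDetNeZero (hdet _ hx)) hyt ?_ ?_
  · rw [ContinuousLinearMap.coe_toContinuousLinearEquivOfDetNeZero]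
    exact (hstrict _ hx).hasFDerivAt
  · exact hfat _ hx

/-- **G3.**  `ψ' = (ψ / √|det Df|) ∘ f⁻¹` on `f '' U`, `0` elsewhere; `g = f⁻¹` on `f '' U`. -/
theorem exists_push (U : Set (EuclideanSpace ℝ (Fin d))) (hU : IsOpen U)
    (f : EuclideanSpace ℝ (Fin d) → EuclideanSpace ℝ (Fin d)) (hfm : Measurable f)
    (hf : ContDiffOn ℝ ∞ f U) (hinj : Set.InjOn f U) (hdet : ∀ x ∈ U, (fderiv ℝ f x).det ≠ 0)
    (ψ : EuclideanSpace ℝ (Fin d) → ℝ) (hψ : ContDiff ℝ ∞ ψ) (hψ0 : ∀ x, 0 ≤ ψ x)
    (hc : HasCompactSupport ψ) (hsupp : tsupport ψ ⊆ U) :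
    ∃ (ψ' : EuclideanSpace ℝ (Fin d) → ℝ) (g : EuclideanSpace ℝ (Fin d) → EuclideanSpace ℝ (Fin d)),
      ContDiff ℝ ∞ ψ' ∧ (∀ y, 0 ≤ ψ' y) ∧ HasCompactSupport ψ' ∧ Measurable g ∧
      (∀ x ∈ U, g (f x) = x) ∧ (∀ y, ψ' y ≠ 0 ↔ ∃ x, ψ x ≠ 0 ∧ f x = y) ∧
      Measure.map f (volume.withDensity fun x => ENNReal.ofReal (ψ x ^ 2)) =
        volume.withDensity fun y => ENNReal.ofReal (ψ' y ^ 2) := by
  classical
  obtain ⟨e, hes, het, hef, hesm⟩ := push_exists_homeo U hU f hf hinj hdet
  have hV : IsOpen (f '' U) := het ▸ e.open_target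
  have hgU : ∀ y ∈ f '' U, e.symm y ∈ U := fun y hy => hes ▸ e.map_target (het ▸ hy)
  have hfg : ∀ y ∈ f '' U, f (e.symm y) = y := fun y hy => by
    have := e.right_inv (het ▸ hy : y ∈ e.target)
    rwa [hef] at this
  have hgf : ∀ x ∈ U, e.symm (f x) = x := fun x hx => by
    have := e.left_inv (hes ▸ hx : x ∈ e.source)
    rwa [hef] at this
  -- the Jacobian factor
  have hJpos : ∀ x ∈ U, 0 < |(fderiv ℝ f x).det| := fun x hx => abs_pos.mpr (hdet x hx)
  have hq : ∀ x ∈ U, ContDiffAt ℝ ∞ (fun x => ψ x / Real.sqrt |(fderiv ℝ f x).det|) x := by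
    intro x hx
    have h1 : ContDiffAt ℝ ∞ (fderiv ℝ f) x :=
      (hf.fderiv_of_isOpen hU (by simp)).contDiffAt (hU.mem_nhds hx)
    have h2 : ContDiffAt ℝ ∞ (fun x => (fderiv ℝ f x).det) x :=
      push_contDiff_det.contDiffAt.comp x h1
    have h3 : ContDiffAt ℝ ∞ (fun x => |(fderiv ℝ f x).det|) x :=
      ContDiffAt.comp (g := fun t : ℝ => |t|) x (contDiffAt_abs (hdet x hx)) h2
    have h4 : ContDiffAt ℝ ∞ (fun x => Real.sqrt |(fderiv ℝ f x).det|) x :=
      h3.sqrt (hJpos x hx).ne'
    exact hψ.contDiffAt.div h4 (Real.sqrt_pos.mpr (hJpos x hx)).ne'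
  set q : EuclideanSpace ℝ (Fin d) → ℝ := fun x => ψ x / Real.sqrt |(fderiv ℝ f x).det| with hqdef
  set ψ' : EuclideanSpace ℝ (Fin d) → ℝ := (f '' U).indicator (fun y => q (e.symm y)) with hψ'
  have hK : IsCompact (f '' tsupport ψ) := hc.isCompact.image_of_continuousOn
    (hf.continuousOn.mono hsupp)
  have hKV : f '' tsupport ψ ⊆ f '' U := Set.image_mono hsupp
  have hzero : ∀ y, y ∉ f '' tsupport ψ → ψ' y = 0 := by
    intro y hy
    by_cases hyV : y ∈ f '' U
    · have h1 : e.symm y ∉ tsupport ψ := fun h => hy ⟨_, h, hfg y hyV⟩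
      simp only [hψ', Set.indicator_of_mem hyV, hqdef, image_eq_zero_of_notMem_tsupport h1,
        zero_div]
    · simp only [hψ', Set.indicator_of_notMem hyV]
  refine ⟨ψ', (f '' U).piecewise e.symm (fun _ => 0), ?_, ?_, ?_, ?_, ?_, ?_, ?_⟩
  · -- smoothness
    rw [contDiff_iff_contDiffAt]
    intro y
    by_cases hyV : y ∈ f '' U
    · have h1 : ContDiffAt ℝ ∞ (fun y => q (e.symm y)) y :=
        (hq _ (hgU y hyV)).comp y (hesm y hyV)
      refine h1.congr_of_eventuallyEq ?_
      filter_upwards [hV.mem_nhds hyV] with z hz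
      simp only [hψ', Set.indicator_of_mem hz]
    · have hyK : y ∈ (f '' tsupport ψ)ᶜ := fun h => hyV (hKV h)
      have h1 : ContDiffAt ℝ ∞ (fun _ : EuclideanSpace ℝ (Fin d) => (0 : ℝ)) y := contDiffAt_const
      refine h1.congr_of_eventuallyEq ?_
      filter_upwards [hK.isClosed.isOpen_compl.mem_nhds hyK] with z hz
      exact hzero z hz
  · intro y
    refine Set.indicator_nonneg (fun z _ => ?_) y
    exact div_nonneg (hψ0 _) (Real.sqrt_nonneg _)
  · refine HasCompactSupport.intro hK hzero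
  · exact e.continuousOn_symm.mono (by rw [het]) |>.measurable_piecewise continuousOn_const
      hV.measurableSet
  · intro x hx
    rw [Set.piecewise_eq_of_mem _ _ _ (Set.mem_image_of_mem f hx)]
    exact hgf x hx
  · intro y
    constructor
    · intro hy
      have hyV : y ∈ f '' U := by
        by_contra h
        exact hy (by simp only [hψ', Set.indicator_of_notMem h])
      refine ⟨e.symm y, ?_, hfg y hyV⟩
      intro h0
      apply hy
      simp only [hψ', Set.indicator_of_mem hyV, hqdef, h0, zero_div]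
    · rintro ⟨x, hx, rfl⟩
      have hxU : x ∈ U := hsupp (subset_tsupport _ hx)
      simp only [hψ', Set.indicator_of_mem (Set.mem_image_of_mem f hxU), hqdef, hgf x hxU]
      exact div_ne_zero hx (Real.sqrt_pos.mpr (hJpos x hxU)).ne'
  · -- the change of variables
    ext A hA
    rw [Measure.map_apply hfm hA, withDensity_apply _ (hfm hA), withDensity_apply _ hA]
    have hder : ∀ x ∈ U, HasFDerivWithinAt f (fderiv ℝ f x) U x := fun x hx =>
      ((hf.contDiffAt (hU.mem_nhds hx)).differentiableAt (by simp)).hasFDerivAt.hasFDerivWithinAt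
    have hcv := lintegral_image_eq_lintegral_abs_det_fderiv_mul volume hU.measurableSet hder hinj
      (A.indicator fun y => ENNReal.ofReal (ψ' y ^ 2))
    -- right-hand side
    have hR : ∫⁻ y in A, ENNReal.ofReal (ψ' y ^ 2)
        = ∫⁻ y in f '' U, A.indicator (fun y => ENNReal.ofReal (ψ' y ^ 2)) y := by
      rw [← lintegral_indicator hA, ← lintegral_indicator hV.measurableSet]
      refine lintegral_congr fun y => ?_
      by_cases hyV : y ∈ f '' U
      · rw [Set.indicator_of_mem hyV]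
      · rw [Set.indicator_of_notMem hyV]
        have : ψ' y = 0 := by simp only [hψ', Set.indicator_of_notMem hyV]
        by_cases hyA : y ∈ A
        · rw [Set.indicator_of_mem hyA, this]; simp
        · rw [Set.indicator_of_notMem hyA]
    have hL : ∫⁻ x in f ⁻¹' A, ENNReal.ofReal (ψ x ^ 2)
        = ∫⁻ x in U, ENNReal.ofReal |(fderiv ℝ f x).det|
            * A.indicator (fun y => ENNReal.ofReal (ψ' y ^ 2)) (f x) := by
      rw [← lintegral_indicator (hfm hA), ← lintegral_indicator hU.measurableSet]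
      refine lintegral_congr fun x => ?_
      by_cases hxU : x ∈ U
      · rw [Set.indicator_of_mem hxU]
        by_cases hxA : f x ∈ A
        · rw [Set.indicator_of_mem (show x ∈ f ⁻¹' A from hxA), Set.indicator_of_mem hxA,
            ← ENNReal.ofReal_mul (abs_nonneg _)]
          congr 1
          simp only [hψ', Set.indicator_of_mem (Set.mem_image_of_mem f hxU), hqdef, hgf x hxU]
          rw [div_pow, Real.sq_sqrt (abs_nonneg _)]
          field_simp [(hJpos x hxU).ne']
        · rw [Set.indicator_of_notMem (show x ∉ f ⁻¹' A from hxA), Set.indicator_of_notMem hxA,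
            mul_zero]
      · rw [Set.indicator_of_notMem hxU]
        have : ψ x = 0 := by
          by_contra h
          exact hxU (hsupp (subset_tsupport _ h))
        by_cases hxA : x ∈ f ⁻¹' A
        · rw [Set.indicator_of_mem hxA, this]; simp
        · rw [Set.indicator_of_notMem hxA]
    rw [hL, hR, hcv]

end Crest.Agent.S0175
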