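/-
Row 130 (S0175), package R0: basic facts on `muTot` (abstract part).
-/
import Crest.Agent.S0175_Defs

set_option autoImplicit false

namespace Crest.Agent.S0175

open MeasureTheory Crest.AnalysisR.OT
open scoped ENNReal

variable {Ω : Type*} [MeasurableSpace Ω] {ν : Measure Ω} {Y Z : Bool → Ω → Ω} {lam : Ω → Ω}
  {A : Set Ω} {B C : Bool → Set Ω} {c : Ω × Ω × Ω → ℝ≥0∞} {u : Ω → ℝ≥0∞}

theorem lintegral_muTot (hY : ∀ k, Measurable (Y k)) (hZ : ∀ k, Measurable (Z k))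
    (f : Ω → ℝ≥0∞) (hf : Measurable f) :
    ∫⁻ x, f x ∂(muTot ν Y Z) = (∫⁻ x, f x ∂ν + ∫⁻ x, f x ∂ν) +
      ((∫⁻ x, f (Y false x) ∂ν + ∫⁻ x, f (Z false x) ∂ν) +
        (∫⁻ x, f (Y true x) ∂ν + ∫⁻ x, f (Z true x) ∂ν)) := by
  unfold muTot
  simp only [lintegral_add_measure]
  rw [lintegral_map hf (hY false), lintegral_map hf (hZ false), lintegral_map hf (hY true),
    lintegral_map hf (hZ true)]

theorem muTot_apply (hY : ∀ k, Measurable (Y k)) (hZ : ∀ k, Measurable (Z k))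
    (S : Set Ω) (hS : MeasurableSet S) :
    muTot ν Y Z S = (ν S + ν S) +
      ((ν (Y false ⁻¹' S) + ν (Z false ⁻¹' S)) + (ν (Y true ⁻¹' S) + ν (Z true ⁻¹' S))) := by
  unfold muTot
  simp only [Measure.add_apply]
  rw [Measure.map_apply (hY false) hS, Measure.map_apply (hZ false) hS,
    Measure.map_apply (hY true) hS, Measure.map_apply (hZ true) hS]

theorem map_muTot (hY : ∀ k, Measurable (Y k)) (hZ : ∀ k, Measurable (Z k))
    (T : Ω → Ω) (hT : Measurable T) :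
    (muTot ν Y Z).map T = (ν.map T + ν.map T) +
      ((ν.map (fun x => T (Y false x)) + ν.map (fun x => T (Z false x))) +
        (ν.map (fun x => T (Y true x)) + ν.map (fun x => T (Z true x)))) := by
  unfold muTot
  simp only [Measure.map_add _ _ hT]
  rw [Measure.map_map hT (hY false), Measure.map_map hT (hZ false), Measure.map_map hT (hY true),
    Measure.map_map hT (hZ true)]
  rfl

theorem isFiniteMeasure_muTot (h : MSys ν Y Z lam A B C c u) : IsFiniteMeasure (muTot ν Y Z) := by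
  haveI := h.fin
  unfold muTot
  infer_instance

theorem measurableSet_Kset (h : MSys ν Y Z lam A B C c u) : MeasurableSet (Kset A B C) :=
  (h.A_meas.union ((h.B_meas false).union (h.B_meas true))).union
    ((h.C_meas false).union (h.C_meas true))

theorem mem_Kset_A {x : Ω} (hx : x ∈ A) : x ∈ Kset A B C := Or.inl (Or.inl hx)

theorem mem_Kset_B {x : Ω} (k : Bool) (hx : x ∈ B k) : x ∈ Kset A B C := by
  cases k
  · exact Or.inl (Or.inr (Or.inl hx))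
  · exact Or.inl (Or.inr (Or.inr hx))

theorem mem_Kset_C {x : Ω} (k : Bool) (hx : x ∈ C k) : x ∈ Kset A B C := by
  cases k
  · exact Or.inr (Or.inl hx)
  · exact Or.inr (Or.inr hx)

theorem muTot_Kset_compl (h : MSys ν Y Z lam A B C c u) : muTot ν Y Z (Kset A B C)ᶜ = 0 := by
  rw [muTot_apply h.Y_meas h.Z_meas _ (measurableSet_Kset h).compl]
  have h0 : ν (Kset A B C)ᶜ = 0 :=
    measure_mono_null (Set.compl_subset_compl.mpr fun x hx => mem_Kset_A hx) h.ν_A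
  have hYk : ∀ k, ν (Y k ⁻¹' (Kset A B C)ᶜ) = 0 := fun k =>
    measure_mono_null (fun x hx hxA => hx (mem_Kset_B k (h.Y_mem k x hxA))) h.ν_A
  have hZk : ∀ k, ν (Z k ⁻¹' (Kset A B C)ᶜ) = 0 := fun k =>
    measure_mono_null (fun x hx hxA => hx (mem_Kset_C k (h.Z_mem k x hxA))) h.ν_A
  rw [h0, hYk, hZk, hYk, hZk]
  simp

/-- a.e. statements for `muTot` reduce to a.e. statements for `ν`. -/
theorem ae_muTot_iff (hY : ∀ k, Measurable (Y k)) (hZ : ∀ k, Measurable (Z k))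
    (P : Ω → Prop) (hP : MeasurableSet {x | P x}) :
    (∀ᵐ x ∂(muTot ν Y Z), P x) ↔
      (∀ᵐ x ∂ν, P x) ∧ ∀ k, (∀ᵐ x ∂ν, P (Y k x)) ∧ (∀ᵐ x ∂ν, P (Z k x)) := by
  have hP' : MeasurableSet {x | ¬ P x} := hP.compl
  simp only [ae_iff]
  rw [muTot_apply hY hZ _ hP']
  simp only [add_eq_zero, Bool.forall_bool]
  constructor
  · rintro ⟨⟨h1, -⟩, ⟨h2, h3⟩, h4, h5⟩
    exact ⟨h1, ⟨h2, h3⟩, h4, h5⟩
  · rintro ⟨h1, ⟨h2, h3⟩, h4, h5⟩
    exact ⟨⟨h1, h1⟩, ⟨h2, h3⟩, h4, h5⟩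

/-- `ν`-almost every point lies in `A`. -/
theorem ae_mem_A (h : MSys ν Y Z lam A B C c u) : ∀ᵐ x ∂ν, x ∈ A := by
  rw [ae_iff]
  exact h.ν_A

/-- `∫ u dμ < ∞`. -/
theorem lintegral_u_lt_top (h : MSys ν Y Z lam A B C c u) :
    3 * ∫⁻ x, u x ∂(muTot ν Y Z) < ⊤ := by
  haveI := isFiniteMeasure_muTot h
  obtain ⟨M, hM, hu⟩ := h.u_bdd
  have h1 : ∫⁻ x, u x ∂(muTot ν Y Z) ≤ M * muTot ν Y Z Set.univ := by
    calc ∫⁻ x, u x ∂(muTot ν Y Z) ≤ ∫⁻ _, M ∂(muTot ν Y Z) := lintegral_mono hu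
      _ = M * muTot ν Y Z Set.univ := lintegral_const M
  have h2 : M * muTot ν Y Z Set.univ < ⊤ :=
    ENNReal.mul_lt_top (lt_top_iff_ne_top.mpr hM) (measure_lt_top _ _)
  exact ENNReal.mul_lt_top (by norm_num) (lt_of_le_of_lt h1 h2)

end Crest.Agent.S0175
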