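/-
Row 130 (S0175), packages R1 (optimal plan) and R2 (weak duality).
-/
import Crest.Agent.S0175_R0

set_option autoImplicit false

namespace Crest.Agent.S0175

open MeasureTheory Crest.AnalysisR.OT
open scoped ENNReal

variable {Ω : Type*} [MeasurableSpace Ω] {ν : Measure Ω} {Y Z : Bool → Ω → Ω} {lam : Ω → Ω}
  {A : Set Ω} {B C : Bool → Set Ω} {c : Ω × Ω × Ω → ℝ≥0∞} {u : Ω → ℝ≥0∞}

/-- the three cyclic graphs of pattern `k`. -/
noncomputable def R1_plan (ν : Measure Ω) (Y Z : Bool → Ω → Ω) (k : Bool) : Measure (Ω × Ω × Ω) :=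
  ν.map (fun x => (x, Y k x, Z k x)) + ν.map (fun x => (Y k x, Z k x, x))
    + ν.map (fun x => (Z k x, x, Y k x))

theorem R1_meas1 (h : MSys ν Y Z lam A B C c u) (k : Bool) :
    Measurable (fun x => (x, Y k x, Z k x)) :=
  measurable_id.prodMk ((h.Y_meas k).prodMk (h.Z_meas k))

theorem R1_meas2 (h : MSys ν Y Z lam A B C c u) (k : Bool) :
    Measurable (fun x => (Y k x, Z k x, x)) :=
  (h.Y_meas k).prodMk ((h.Z_meas k).prodMk measurable_id)

theorem R1_meas3 (h : MSys ν Y Z lam A B C c u) (k : Bool) :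
    Measurable (fun x => (Z k x, x, Y k x)) :=
  (h.Z_meas k).prodMk (measurable_id.prodMk (h.Y_meas k))

theorem R1_map_plan (h : MSys ν Y Z lam A B C c u) (k : Bool) (f : Ω × Ω × Ω → Ω)
    (hf : Measurable f) :
    (R1_plan ν Y Z k).map f = ν.map (fun x => f (x, Y k x, Z k x))
      + ν.map (fun x => f (Y k x, Z k x, x)) + ν.map (fun x => f (Z k x, x, Y k x)) := by
  unfold R1_plan
  rw [Measure.map_add _ _ hf, Measure.map_add _ _ hf, Measure.map_map hf (R1_meas1 h k),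
    Measure.map_map hf (R1_meas2 h k), Measure.map_map hf (R1_meas3 h k)]
  rfl

theorem R1_lintegral_plan (h : MSys ν Y Z lam A B C c u) (k : Bool) :
    ∫⁻ p, c p ∂(R1_plan ν Y Z k)
      = 3 * (∫⁻ x, u x ∂ν + ∫⁻ x, u (Y k x) ∂ν + ∫⁻ x, u (Z k x) ∂ν) := by
  unfold R1_plan
  rw [lintegral_add_measure, lintegral_add_measure, lintegral_map h.c_meas (R1_meas1 h k),
    lintegral_map h.c_meas (R1_meas2 h k), lintegral_map h.c_meas (R1_meas3 h k)]
  have e2 : ∀ x, c (Y k x, Z k x, x) = c (x, Y k x, Z k x) := fun x => h.c_cyc _ _ _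
  have e3 : ∀ x, c (Z k x, x, Y k x) = c (x, Y k x, Z k x) := fun x => by
    rw [h.c_cyc (Y k x) (Z k x) x, e2]
  simp_rw [e2, e3]
  have e1 : ∫⁻ x, c (x, Y k x, Z k x) ∂ν
      = ∫⁻ x, u x ∂ν + ∫⁻ x, u (Y k x) ∂ν + ∫⁻ x, u (Z k x) ∂ν := by
    have hm1 : Measurable (fun x => u x + u (Y k x)) :=
      h.u_meas.add (h.u_meas.comp (h.Y_meas k))
    rw [← lintegral_add_left h.u_meas, ← lintegral_add_left hm1]
    refine lintegral_congr_ae ?_
    filter_upwards [ae_mem_A h] with x hx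
    exact h.eq_c k x hx
  rw [e1]
  ring

/-- **R1.** The plan `π₀ = Σ_k Σ_cyc (x, Y k x, Z k x)_# ν` is a coupling with cost `3 ∫ u dμ`. -/
theorem exists_plan (h : MSys ν Y Z lam A B C c u) :
    ∃ π₀ : Measure (Ω × Ω × Ω), IsCoupling₃ (muTot ν Y Z) π₀ ∧
      ∫⁻ p, c p ∂π₀ = 3 * ∫⁻ x, u x ∂(muTot ν Y Z) := by
  refine ⟨R1_plan ν Y Z false + R1_plan ν Y Z true, ⟨?_, ?_, ?_⟩, ?_⟩
  · rw [Measure.map_add _ _ measurable_fst, R1_map_plan h _ _ measurable_fst,
      R1_map_plan h _ _ measurable_fst]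
    simp only [Measure.map_id']
    unfold muTot
    abel
  · have hm : Measurable (fun p : Ω × Ω × Ω => p.2.1) := measurable_fst.comp measurable_snd
    rw [Measure.map_add _ _ hm, R1_map_plan h _ _ hm, R1_map_plan h _ _ hm]
    simp only [Measure.map_id']
    unfold muTot
    abel
  · have hm : Measurable (fun p : Ω × Ω × Ω => p.2.2) := measurable_snd.comp measurable_snd
    rw [Measure.map_add _ _ hm, R1_map_plan h _ _ hm, R1_map_plan h _ _ hm]
    simp only [Measure.map_id']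
    unfold muTot
    abel
  · rw [lintegral_add_measure, R1_lintegral_plan h, R1_lintegral_plan h,
      lintegral_muTot h.Y_meas h.Z_meas u h.u_meas]
    ring

/-- **R2.** Weak duality. -/
theorem coupling_lower_bound (h : MSys ν Y Z lam A B C c u) (π : Measure (Ω × Ω × Ω))
    (hπ : IsCoupling₃ (muTot ν Y Z) π) :
    3 * ∫⁻ x, u x ∂(muTot ν Y Z) ≤ ∫⁻ p, c p ∂π := by
  obtain ⟨h1, h2, h3⟩ := hπ
  have m1 : Measurable (fun p : Ω × Ω × Ω => p.1) := measurable_fst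
  have m2 : Measurable (fun p : Ω × Ω × Ω => p.2.1) := measurable_fst.comp measurable_snd
  have m3 : Measurable (fun p : Ω × Ω × Ω => p.2.2) := measurable_snd.comp measurable_snd
  have hK := measurableSet_Kset h
  have i1 : ∫⁻ x, u x ∂(muTot ν Y Z) = ∫⁻ p, u p.1 ∂π := by
    conv_lhs => rw [← h1]
    exact lintegral_map h.u_meas m1
  have i2 : ∫⁻ x, u x ∂(muTot ν Y Z) = ∫⁻ p, u p.2.1 ∂π := by
    conv_lhs => rw [← h2]
    exact lintegral_map h.u_meas m2
  have i3 : ∫⁻ x, u x ∂(muTot ν Y Z) = ∫⁻ p, u p.2.2 ∂π := by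
    conv_lhs => rw [← h3]
    exact lintegral_map h.u_meas m3
  have a1 : ∀ᵐ p ∂π, p.1 ∈ Kset A B C := by
    rw [ae_iff]
    have : π ((fun p : Ω × Ω × Ω => p.1) ⁻¹' (Kset A B C)ᶜ) = 0 := by
      rw [← Measure.map_apply m1 hK.compl, h1]
      exact muTot_Kset_compl h
    exact this
  have a2 : ∀ᵐ p ∂π, p.2.1 ∈ Kset A B C := by
    rw [ae_iff]
    have : π ((fun p : Ω × Ω × Ω => p.2.1) ⁻¹' (Kset A B C)ᶜ) = 0 := by
      rw [← Measure.map_apply m2 hK.compl, h2]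
      exact muTot_Kset_compl h
    exact this
  have a3 : ∀ᵐ p ∂π, p.2.2 ∈ Kset A B C := by
    rw [ae_iff]
    have : π ((fun p : Ω × Ω × Ω => p.2.2) ⁻¹' (Kset A B C)ᶜ) = 0 := by
      rw [← Measure.map_apply m3 hK.compl, h3]
      exact muTot_Kset_compl h
    exact this
  calc 3 * ∫⁻ x, u x ∂(muTot ν Y Z)
      = ∫⁻ p, u p.1 ∂π + ∫⁻ p, u p.2.1 ∂π + ∫⁻ p, u p.2.2 ∂π := by
        rw [← i1, ← i2, ← i3]
        ring
    _ = ∫⁻ p, (u p.1 + u p.2.1 + u p.2.2) ∂π := by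
        have hm1 : Measurable (fun p : Ω × Ω × Ω => u p.1) := h.u_meas.comp m1
        have hm2 : Measurable (fun p : Ω × Ω × Ω => u p.1 + u p.2.1) :=
          hm1.add (h.u_meas.comp m2)
        rw [← lintegral_add_left hm1, ← lintegral_add_left hm2]
    _ ≤ ∫⁻ p, c p ∂π := by
        refine lintegral_mono_ae ?_
        filter_upwards [a1, a2, a3] with p p1 p2 p3
        exact h.le_c p.1 p1 p.2.1 p2 p.2.2 p3

end Crest.Agent.S0175
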