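/-
Row 130 (S0175), package R3: no Monge plan attains the dual value.
-/
import Crest.Agent.S0175_R0

set_option autoImplicit false

namespace Crest.Agent.S0175

open MeasureTheory Crest.AnalysisR.OT
open scoped ENNReal

variable {Ω : Type*} [MeasurableSpace Ω] {ν : Measure Ω} {Y Z : Bool → Ω → Ω} {lam : Ω → Ω}
  {A : Set Ω} {B C : Bool → Set Ω} {c : Ω × Ω × Ω → ℝ≥0∞} {u : Ω → ℝ≥0∞}

namespace R3

theorem notAB (h : MSys ν Y Z lam A B C c u) {x : Ω} (hx : x ∈ A) (k : Bool) : x ∉ B k :=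
  fun hb => Set.disjoint_left.mp (h.disj_AB k) hx hb

theorem notAC (h : MSys ν Y Z lam A B C c u) {x : Ω} (hx : x ∈ A) (k : Bool) : x ∉ C k :=
  fun hb => Set.disjoint_left.mp (h.disj_AC k) hx hb

theorem notBC (h : MSys ν Y Z lam A B C c u) {x : Ω} {k : Bool} (hx : x ∈ B k) (k' : Bool) :
    x ∉ C k' :=
  fun hb => Set.disjoint_left.mp (h.disj_BC k k') hx hb

theorem eqBB (h : MSys ν Y Z lam A B C c u) {x : Ω} {k k' : Bool} (hx : x ∈ B k) (hx' : x ∈ B k') :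
    k = k' := by
  cases k <;> cases k' <;> first | rfl | skip
  · exact absurd hx' (fun hb => Set.disjoint_left.mp h.disj_BB hx hb)
  · exact absurd hx (fun hb => Set.disjoint_left.mp h.disj_BB hx' hb)

theorem eqCC (h : MSys ν Y Z lam A B C c u) {x : Ω} {k k' : Bool} (hx : x ∈ C k) (hx' : x ∈ C k') :
    k = k' := by
  cases k <;> cases k' <;> first | rfl | skip
  · exact absurd hx' (fun hb => Set.disjoint_left.mp h.disj_CC hx hb)
  · exact absurd hx (fun hb => Set.disjoint_left.mp h.disj_CC hx' hb)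

/-- pointwise bookkeeping for a contact triple. -/
theorem contact_count (h : MSys ν Y Z lam A B C c u) {x p q : Ω}
    (hc : IsContact lam A B C x p q) (k : Bool) (N : Set Ω) :
    (((p ∈ B k ∧ lam p ∈ N) ∨ (q ∈ B k ∧ lam q ∈ N)) ↔
      ((x ∈ A ∧ (p ∈ B k ∨ q ∈ B k) ∧ x ∈ N) ∨ (x ∈ C k ∧ lam x ∈ N))) ∧
    ¬ (p ∈ B k ∧ q ∈ B k) := by
  obtain ⟨k₀, h12, h23, hperm⟩ := hc
  rcases hperm with ⟨hx, hp, hq⟩ | ⟨hx, hp, hq⟩ | ⟨hx, hp, hq⟩ | ⟨hx, hp, hq⟩ | ⟨hx, hp, hq⟩ |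
    ⟨hx, hp, hq⟩
  · -- x ∈ A, p ∈ B k₀, q ∈ C k₀
    have hqB : q ∉ B k := fun hb => notBC h hb k₀ hq
    have hxC : x ∉ C k := notAC h hx k
    have hl : lam p = x := by rw [← h12, h.lam_A x hx]
    simp only [hqB, hxC, hx, hl, false_and, or_false, true_and, and_false, not_false_eq_true,
      and_true]
  · -- x ∈ A, p ∈ C k₀, q ∈ B k₀
    have hpB : p ∉ B k := fun hb => notBC h hb k₀ hp
    have hxC : x ∉ C k := notAC h hx k
    have hl : lam q = x := by rw [← h23, ← h12, h.lam_A x hx]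
    simp only [hpB, hxC, hx, hl, false_and, or_false, false_or, true_and, not_false_eq_true,
      and_true]
  · -- x ∈ B k₀, p ∈ A, q ∈ C k₀
    have hpB : p ∉ B k := notAB h hp k
    have hqB : q ∉ B k := fun hb => notBC h hb k₀ hq
    have hxA : x ∉ A := fun ha => notAB h ha k₀ hx
    have hxC : x ∉ C k := notBC h hx k
    simp only [hpB, hqB, hxA, hxC, false_and, or_false, not_false_eq_true, and_true]
  · -- x ∈ B k₀, p ∈ C k₀, q ∈ A
    have hqB : q ∉ B k := notAB h hq k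
    have hpB : p ∉ B k := fun hb => notBC h hb k₀ hp
    have hxA : x ∉ A := fun ha => notAB h ha k₀ hx
    have hxC : x ∉ C k := notBC h hx k
    simp only [hpB, hqB, hxA, hxC, false_and, or_false, not_false_eq_true, and_true]
  · -- x ∈ C k₀, p ∈ A, q ∈ B k₀
    have hpB : p ∉ B k := notAB h hp k
    have hxA : x ∉ A := fun ha => notAC h ha k₀ hx
    have hl : lam q = lam x := by rw [← h23, ← h12]
    simp only [hpB, hxA, hl, false_and, false_or, not_false_eq_true, and_true]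
    constructor
    · rintro ⟨hqk, hN⟩
      have : k₀ = k := eqBB h hq hqk
      subst this
      exact ⟨hx, hN⟩
    · rintro ⟨hxk, hN⟩
      have : k₀ = k := eqCC h hx hxk
      subst this
      exact ⟨hq, hN⟩
  · -- x ∈ C k₀, p ∈ B k₀, q ∈ A
    have hqB : q ∉ B k := notAB h hq k
    have hxA : x ∉ A := fun ha => notAC h ha k₀ hx
    have hl : lam p = lam x := by rw [← h12]
    simp only [hqB, hxA, hl, false_and, or_false, false_or, and_false, not_false_eq_true, and_true]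
    constructor
    · rintro ⟨hqk, hN⟩
      have : k₀ = k := eqBB h hp hqk
      subst this
      exact ⟨hx, hN⟩
    · rintro ⟨hxk, hN⟩
      have : k₀ = k := eqCC h hx hxk
      subst this
      exact ⟨hp, hN⟩

/-- a contact triple starting in `A` hits some `B k`. -/
theorem contact_A (h : MSys ν Y Z lam A B C c u) {x p q : Ω}
    (hc : IsContact lam A B C x p q) (hx : x ∈ A) : ∃ k, p ∈ B k ∨ q ∈ B k := by
  obtain ⟨k₀, -, -, hperm⟩ := hc
  rcases hperm with ⟨_, hp, hq⟩ | ⟨_, hp, hq⟩ | ⟨hx', hp, hq⟩ | ⟨hx', hp, hq⟩ | ⟨hx', hp, hq⟩ |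
    ⟨hx', hp, hq⟩
  · exact ⟨k₀, Or.inl hp⟩
  · exact ⟨k₀, Or.inr hq⟩
  · exact absurd hx' (notAB h hx k₀)
  · exact absurd hx' (notAB h hx k₀)
  · exact absurd hx' (notAC h hx k₀)
  · exact absurd hx' (notAC h hx k₀)

/-- two measurable-free sets agreeing on `A` have the same `ν`-measure. -/
theorem nu_congr (h : MSys ν Y Z lam A B C c u) {S S' : Set Ω} (hS : ∀ x ∈ A, (x ∈ S ↔ x ∈ S')) :
    ν S = ν S' := by
  apply measure_congr
  filter_upwards [ae_mem_A h] with x hx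
  exact propext (hS x hx)

theorem nu_null (h : MSys ν Y Z lam A B C c u) {S : Set Ω} (hS : ∀ x ∈ A, x ∉ S) :
    ν S = 0 := by
  rw [nu_congr h (S' := ∅) (fun x hx => by simp [hS x hx])]
  simp

theorem mu_B (h : MSys ν Y Z lam A B C c u) (k : Bool) (N : Set Ω) (hN : MeasurableSet N) :
    muTot ν Y Z (B k ∩ lam ⁻¹' N) = ν N := by
  rw [muTot_apply h.Y_meas h.Z_meas _ ((h.B_meas k).inter (h.lam_meas hN))]
  have h0 : ν (B k ∩ lam ⁻¹' N) = 0 := nu_null h (fun x hx hm => notAB h hx k hm.1)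
  have hZ : ∀ k', ν (Z k' ⁻¹' (B k ∩ lam ⁻¹' N)) = 0 := fun k' =>
    nu_null h (fun x hx hm => notBC h hm.1 k' (h.Z_mem k' x hx))
  have hYk : ν (Y k ⁻¹' (B k ∩ lam ⁻¹' N)) = ν N := by
    apply nu_congr h
    intro x hx
    simp only [Set.mem_preimage, Set.mem_inter_iff, h.Y_mem k x hx, h.lam_Y k x hx, true_and]
  have hYk' : ν (Y (!k) ⁻¹' (B k ∩ lam ⁻¹' N)) = 0 := by
    apply nu_null h
    intro x hx hm
    have := eqBB h hm.1 (h.Y_mem (!k) x hx)
    cases k <;> simp at this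
  cases k
  · simp only [Bool.not_false] at hYk'
    rw [h0, hZ, hZ, hYk, hYk']; simp
  · simp only [Bool.not_true] at hYk'
    rw [h0, hZ, hZ, hYk, hYk']; simp

theorem mu_C (h : MSys ν Y Z lam A B C c u) (k : Bool) (N : Set Ω) (hN : MeasurableSet N) :
    muTot ν Y Z (C k ∩ lam ⁻¹' N) = ν N := by
  rw [muTot_apply h.Y_meas h.Z_meas _ ((h.C_meas k).inter (h.lam_meas hN))]
  have h0 : ν (C k ∩ lam ⁻¹' N) = 0 := nu_null h (fun x hx hm => notAC h hx k hm.1)
  have hY : ∀ k', ν (Y k' ⁻¹' (C k ∩ lam ⁻¹' N)) = 0 := fun k' =>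
    nu_null h (fun x hx hm => notBC h (h.Y_mem k' x hx) k hm.1)
  have hZk : ν (Z k ⁻¹' (C k ∩ lam ⁻¹' N)) = ν N := by
    apply nu_congr h
    intro x hx
    simp only [Set.mem_preimage, Set.mem_inter_iff, h.Z_mem k x hx, h.lam_Z k x hx, true_and]
  have hZk' : ν (Z (!k) ⁻¹' (C k ∩ lam ⁻¹' N)) = 0 := by
    apply nu_null h
    intro x hx hm
    have := eqCC h hm.1 (h.Z_mem (!k) x hx)
    cases k <;> simp at this
  cases k
  · simp only [Bool.not_false] at hZk'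
    rw [h0, hY, hY, hZk, hZk']; simp
  · simp only [Bool.not_true] at hZk'
    rw [h0, hY, hY, hZk, hZk']; simp

theorem mu_A (h : MSys ν Y Z lam A B C c u) (S : Set Ω) (hS : MeasurableSet S) (hSA : S ⊆ A) :
    muTot ν Y Z S = ν S + ν S := by
  rw [muTot_apply h.Y_meas h.Z_meas _ hS]
  have hY : ∀ k', ν (Y k' ⁻¹' S) = 0 := fun k' =>
    nu_null h (fun x hx hm => notAB h (hSA hm) k' (h.Y_mem k' x hx))
  have hZ : ∀ k', ν (Z k' ⁻¹' S) = 0 := fun k' =>
    nu_null h (fun x hx hm => notAC h (hSA hm) k' (h.Z_mem k' x hx))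
  rw [hY, hY, hZ, hZ]; simp

end R3

open R3 in
/-- **R3.** No Monge plan attains the dual value. -/
theorem monge_strict (h : MSys ν Y Z lam A B C c u) (T₂ T₃ : Ω → Ω) (h₂ : Measurable T₂)
    (h₃ : Measurable T₃) (hT₂ : (muTot ν Y Z).map T₂ = muTot ν Y Z)
    (hT₃ : (muTot ν Y Z).map T₃ = muTot ν Y Z) :
    3 * ∫⁻ x, u x ∂(muTot ν Y Z) < ∫⁻ x, c (x, T₂ x, T₃ x) ∂(muTot ν Y Z) := by
  by_contra hcon
  rw [not_lt] at hcon
  set μ := muTot ν Y Z with hμ
  have hfinμ : IsFiniteMeasure μ := isFiniteMeasure_muTot h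
  have hfinν : IsFiniteMeasure ν := h.fin
  have hKm := measurableSet_Kset h
  have hK0 : μ (Kset A B C)ᶜ = 0 := muTot_Kset_compl h
  -- the integral of the potential along the Monge plan
  have hI₂ : ∫⁻ x, u (T₂ x) ∂μ = ∫⁻ x, u x ∂μ := by
    rw [← lintegral_map h.u_meas h₂, hT₂]
  have hI₃ : ∫⁻ x, u (T₃ x) ∂μ = ∫⁻ x, u x ∂μ := by
    rw [← lintegral_map h.u_meas h₃, hT₃]
  have hsum : ∫⁻ x, (u x + u (T₂ x) + u (T₃ x)) ∂μ = 3 * ∫⁻ x, u x ∂μ := by
    have m3 : Measurable fun x => u (T₃ x) := h.u_meas.comp h₃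
    have m2 : Measurable fun x => u (T₂ x) := h.u_meas.comp h₂
    rw [lintegral_add_right _ m3, lintegral_add_right _ m2, hI₂, hI₃]
    ring
  -- almost every triple lies in K³
  have hx1 : ∀ᵐ x ∂μ, x ∈ Kset A B C := by
    rw [ae_iff]; exact hK0
  have hx2 : ∀ᵐ x ∂μ, T₂ x ∈ Kset A B C := by
    rw [ae_iff]
    have : {x | ¬ T₂ x ∈ Kset A B C} = T₂ ⁻¹' (Kset A B C)ᶜ := rfl
    rw [this, ← Measure.map_apply h₂ hKm.compl, hT₂]; exact hK0
  have hx3 : ∀ᵐ x ∂μ, T₃ x ∈ Kset A B C := by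
    rw [ae_iff]
    have : {x | ¬ T₃ x ∈ Kset A B C} = T₃ ⁻¹' (Kset A B C)ᶜ := rfl
    rw [this, ← Measure.map_apply h₃ hKm.compl, hT₃]; exact hK0
  have hle : (fun x => u x + u (T₂ x) + u (T₃ x)) ≤ᵐ[μ] fun x => c (x, T₂ x, T₃ x) := by
    filter_upwards [hx1, hx2, hx3] with x a1 a2 a3
    exact h.le_c x a1 _ a2 _ a3
  have hgm : AEMeasurable (fun x => c (x, T₂ x, T₃ x)) μ :=
    (h.c_meas.comp (measurable_id.prodMk (h₂.prodMk h₃))).aemeasurable
  have hfin : ∫⁻ x, (u x + u (T₂ x) + u (T₃ x)) ∂μ ≠ ⊤ := by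
    rw [hsum]; exact (lintegral_u_lt_top h).ne
  have heq := ae_eq_of_ae_le_of_lintegral_le hle hfin hgm (by rw [hsum]; exact hcon)
  have hcontact : ∀ᵐ x ∂μ, IsContact lam A B C x (T₂ x) (T₃ x) := by
    filter_upwards [hx1, hx2, hx3, heq] with x a1 a2 a3 a4
    exact h.contact x a1 _ a2 _ a3 a4.symm.le
  -- the sets E k
  set E : Bool → Set Ω := fun k => A ∩ (T₂ ⁻¹' (B k) ∪ T₃ ⁻¹' (B k)) with hE
  have hEm : ∀ k, MeasurableSet (E k) := fun k =>
    h.A_meas.inter ((h₂ (h.B_meas k)).union (h₃ (h.B_meas k)))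
  -- the counting identity
  have hcount : ∀ k (N : Set Ω), MeasurableSet N → ν N = ν (E k ∩ N) + ν (E k ∩ N) := by
    intro k N hN
    set D := B k ∩ lam ⁻¹' N with hD
    have hDm : MeasurableSet D := (h.B_meas k).inter (h.lam_meas hN)
    have hμD : μ D = ν N := mu_B h k N hN
    have e2 : μ (T₂ ⁻¹' D) = ν N := by rw [← Measure.map_apply h₂ hDm, hT₂, hμD]
    have e3 : μ (T₃ ⁻¹' D) = ν N := by rw [← Measure.map_apply h₃ hDm, hT₃, hμD]
    have hdisj : AEDisjoint μ (T₂ ⁻¹' D) (T₃ ⁻¹' D) := by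
      rw [AEDisjoint]
      apply measure_mono_null _ (ae_iff.mp hcontact)
      intro x hx hc
      exact (contact_count h hc k N).2 ⟨hx.1.1, hx.2.1⟩
    have hun : μ (T₂ ⁻¹' D ∪ T₃ ⁻¹' D) = ν N + ν N := by
      rw [measure_union₀ (h₃ hDm).nullMeasurableSet hdisj, e2, e3]
    have hcongr : μ (T₂ ⁻¹' D ∪ T₃ ⁻¹' D) = μ ((E k ∩ N) ∪ (C k ∩ lam ⁻¹' N)) := by
      apply measure_congr
      filter_upwards [hcontact] with x hc
      apply propext
      have := (contact_count h hc k N).1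
      constructor
      · intro hx
        have hx' : (T₂ x ∈ B k ∧ lam (T₂ x) ∈ N) ∨ (T₃ x ∈ B k ∧ lam (T₃ x) ∈ N) := hx
        rcases this.mp hx' with ⟨a, b, c'⟩ | ⟨a, b⟩
        · exact Or.inl ⟨⟨a, b⟩, c'⟩
        · exact Or.inr ⟨a, b⟩
      · intro hx
        have hx' : (x ∈ A ∧ (T₂ x ∈ B k ∨ T₃ x ∈ B k) ∧ x ∈ N) ∨ (x ∈ C k ∧ lam x ∈ N) := by
          rcases hx with ⟨⟨a, b⟩, c'⟩ | ⟨a, b⟩
          · exact Or.inl ⟨a, b, c'⟩
          · exact Or.inr ⟨a, b⟩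
        exact this.mpr hx'
    have hdisj2 : Disjoint (E k ∩ N) (C k ∩ lam ⁻¹' N) := by
      rw [Set.disjoint_left]
      intro x hx hx'
      exact notAC h hx.1.1 k hx'.1
    have hsplit : μ ((E k ∩ N) ∪ (C k ∩ lam ⁻¹' N)) = (ν (E k ∩ N) + ν (E k ∩ N)) + ν N := by
      rw [measure_union hdisj2 ((h.C_meas k).inter (h.lam_meas hN)), mu_C h k N hN,
        mu_A h _ ((hEm k).inter hN) (fun x hx => hx.1.1)]
    have hfinal : ν N + ν N = (ν (E k ∩ N) + ν (E k ∩ N)) + ν N := by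
      rw [← hun, hcongr, hsplit]
    exact (ENNReal.add_left_inj (measure_ne_top ν N)).mp hfinal
  have hE0 : ∀ k, ν (E k) = 0 := by
    intro k
    have := hcount k (E k) (hEm k)
    rw [Set.inter_self] at this
    by_contra hne
    have hlt : ν (E k) < ν (E k) + ν (E k) :=
      ENNReal.lt_add_right (measure_ne_top ν _) hne
    exact absurd this hlt.ne
  -- conclusion
  have hνμ : ν ≤ μ := by
    rw [hμ, muTot, add_assoc]
    exact Measure.le_add_right le_rfl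
  have hcontactν : ∀ᵐ x ∂ν, IsContact lam A B C x (T₂ x) (T₃ x) := ae_mono hνμ hcontact
  have hall : ∀ᵐ x ∂ν, x ∈ E false ∪ E true := by
    filter_upwards [hcontactν, ae_mem_A h] with x hc hx
    obtain ⟨k, hk⟩ := contact_A h hc hx
    cases k
    · exact Or.inl ⟨hx, hk⟩
    · exact Or.inr ⟨hx, hk⟩
  have huniv : ν Set.univ = 0 := by
    have h1 : ν Set.univ ≤ ν (E false ∪ E true) := by
      apply measure_mono_ae
      filter_upwards [hall] with x hx _
      exact hx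
    have h2 : ν (E false ∪ E true) ≤ ν (E false) + ν (E true) := measure_union_le _ _
    rw [hE0, hE0, add_zero] at h2
    exact le_antisymm (h1.trans h2) zero_le
  exact h.pos huniv

end Crest.Agent.S0175
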