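/-
Row 130 (S0175), package R4: approximating Monge maps from a halving of `2ν`.
-/
import Crest.Agent.S0175_R0

set_option autoImplicit false

namespace Crest.Agent.S0175

open MeasureTheory Crest.AnalysisR.OT
open scoped ENNReal

variable {Ω : Type*} [MeasurableSpace Ω] {ν : Measure Ω} {Y Z : Bool → Ω → Ω} {lam : Ω → Ω}
  {A : Set Ω} {B C : Bool → Set Ω} {c : Ω × Ω × Ω → ℝ≥0∞} {u : Ω → ℝ≥0∞}

open Classical in
/-- the second Monge map. -/
noncomputable def r4T2 (Y Z : Bool → Ω → Ω) (lam : Ω → Ω) (A : Set Ω) (B : Bool → Set Ω)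
    (E₁ : Set Ω) (θ : Bool → Ω → Ω) (x : Ω) : Ω :=
  if x ∈ A then (if x ∈ E₁ then Y false (θ false x) else Y true (θ true x))
  else if x ∈ B false then Z false (lam x)
  else if x ∈ B true then Z true (lam x)
  else lam x

open Classical in
/-- the third Monge map. -/
noncomputable def r4T3 (Y Z : Bool → Ω → Ω) (lam : Ω → Ω) (A : Set Ω) (C : Bool → Set Ω)
    (E₁ : Set Ω) (θ : Bool → Ω → Ω) (x : Ω) : Ω :=
  if x ∈ A then (if x ∈ E₁ then Z false (θ false x) else Z true (θ true x))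
  else if x ∈ C false then Y false (lam x)
  else if x ∈ C true then Y true (lam x)
  else lam x

theorem r4T2_meas (h : MSys ν Y Z lam A B C c u) {E₁ : Set Ω} (hE₁ : MeasurableSet E₁)
    {θ : Bool → Ω → Ω} (hθ : ∀ k, Measurable (θ k)) :
    Measurable (r4T2 Y Z lam A B E₁ θ) := by
  classical
  unfold r4T2
  refine Measurable.ite h.A_meas (Measurable.ite hE₁ ((h.Y_meas _).comp (hθ _))
    ((h.Y_meas _).comp (hθ _))) ?_
  refine Measurable.ite (h.B_meas _) ((h.Z_meas _).comp h.lam_meas) ?_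
  exact Measurable.ite (h.B_meas _) ((h.Z_meas _).comp h.lam_meas) h.lam_meas

theorem r4T3_meas (h : MSys ν Y Z lam A B C c u) {E₁ : Set Ω} (hE₁ : MeasurableSet E₁)
    {θ : Bool → Ω → Ω} (hθ : ∀ k, Measurable (θ k)) :
    Measurable (r4T3 Y Z lam A C E₁ θ) := by
  classical
  unfold r4T3
  refine Measurable.ite h.A_meas (Measurable.ite hE₁ ((h.Z_meas _).comp (hθ _))
    ((h.Z_meas _).comp (hθ _))) ?_
  refine Measurable.ite (h.C_meas _) ((h.Y_meas _).comp h.lam_meas) ?_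
  exact Measurable.ite (h.C_meas _) ((h.Y_meas _).comp h.lam_meas) h.lam_meas

section values

variable {E₁ : Set Ω} {θ : Bool → Ω → Ω}

set_option linter.unusedSectionVars false

theorem r4T2_A_in {x : Ω} (hx : x ∈ A) (hE : x ∈ E₁) :
    r4T2 Y Z lam A B E₁ θ x = Y false (θ false x) := by
  simp [r4T2, hx, hE]

theorem r4T2_A_out {x : Ω} (hx : x ∈ A) (hE : x ∉ E₁) :
    r4T2 Y Z lam A B E₁ θ x = Y true (θ true x) := by
  simp [r4T2, hx, hE]

theorem r4T3_A_in {x : Ω} (hx : x ∈ A) (hE : x ∈ E₁) :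
    r4T3 Y Z lam A C E₁ θ x = Z false (θ false x) := by
  simp [r4T3, hx, hE]

theorem r4T3_A_out {x : Ω} (hx : x ∈ A) (hE : x ∉ E₁) :
    r4T3 Y Z lam A C E₁ θ x = Z true (θ true x) := by
  simp [r4T3, hx, hE]

theorem r4T2_Y (h : MSys ν Y Z lam A B C c u) (k : Bool) {x : Ω} (hx : x ∈ A) :
    r4T2 Y Z lam A B E₁ θ (Y k x) = Z k x := by
  have h1 : Y k x ∈ B k := h.Y_mem k x hx
  have h2 : Y k x ∉ A := fun hA => Set.disjoint_left.mp (h.disj_AB k) hA h1
  have h3 : lam (Y k x) = x := h.lam_Y k x hx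
  cases k
  · simp [r4T2, h1, h2, h3]
  · have h4 : Y true x ∉ B false := fun hB => Set.disjoint_left.mp h.disj_BB hB h1
    simp [r4T2, h1, h2, h3, h4]

theorem r4T2_Z (h : MSys ν Y Z lam A B C c u) (k : Bool) {x : Ω} (hx : x ∈ A) :
    r4T2 Y Z lam A B E₁ θ (Z k x) = x := by
  have h1 : Z k x ∈ C k := h.Z_mem k x hx
  have h2 : Z k x ∉ A := fun hA => Set.disjoint_left.mp (h.disj_AC k) hA h1
  have h3 : lam (Z k x) = x := h.lam_Z k x hx
  have h4 : ∀ k', Z k x ∉ B k' := fun k' hB => Set.disjoint_left.mp (h.disj_BC k' k) hB h1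
  simp [r4T2, h2, h3, h4]

theorem r4T3_Z (h : MSys ν Y Z lam A B C c u) (k : Bool) {x : Ω} (hx : x ∈ A) :
    r4T3 Y Z lam A C E₁ θ (Z k x) = Y k x := by
  have h1 : Z k x ∈ C k := h.Z_mem k x hx
  have h2 : Z k x ∉ A := fun hA => Set.disjoint_left.mp (h.disj_AC k) hA h1
  have h3 : lam (Z k x) = x := h.lam_Z k x hx
  cases k
  · simp [r4T3, h1, h2, h3]
  · have h4 : Z true x ∉ C false := fun hB => Set.disjoint_left.mp h.disj_CC hB h1
    simp [r4T3, h1, h2, h3, h4]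

theorem r4T3_Y (h : MSys ν Y Z lam A B C c u) (k : Bool) {x : Ω} (hx : x ∈ A) :
    r4T3 Y Z lam A C E₁ θ (Y k x) = x := by
  have h1 : Y k x ∈ B k := h.Y_mem k x hx
  have h2 : Y k x ∉ A := fun hA => Set.disjoint_left.mp (h.disj_AB k) hA h1
  have h3 : lam (Y k x) = x := h.lam_Y k x hx
  have h4 : ∀ k', Y k x ∉ C k' := fun k' hC => Set.disjoint_left.mp (h.disj_BC k k') h1 hC
  simp [r4T3, h2, h3, h4]

end values

/-- `(ν+ν)`-almost every point lies in `A`. -/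
theorem r4_ae_mem_A2 (h : MSys ν Y Z lam A B C c u) : ∀ᵐ x ∂(ν + ν), x ∈ A := by
  rw [ae_iff]
  show (ν + ν) Aᶜ = 0
  simp [h.ν_A]

/-- push-forward of `ν+ν` under a map which is `W false ∘ θ false` on `E₁` and
`W true ∘ θ true` off `E₁`. -/
theorem r4_map_split (h : MSys ν Y Z lam A B C c u) {E₁ : Set Ω} (hE₁ : MeasurableSet E₁)
    {θ : Bool → Ω → Ω} (hθ : ∀ k, Measurable (θ k))
    (hθ₁ : ((ν + ν).restrict E₁).map (θ false) = ν)
    (hθ₂ : ((ν + ν).restrict E₁ᶜ).map (θ true) = ν)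
    {T : Ω → Ω} (hT : Measurable T) {W : Bool → Ω → Ω} (hW : ∀ k, Measurable (W k))
    (hin : ∀ x ∈ A, x ∈ E₁ → T x = W false (θ false x))
    (hout : ∀ x ∈ A, x ∉ E₁ → T x = W true (θ true x)) :
    ν.map T + ν.map T = ν.map (W false) + ν.map (W true) := by
  have hA2 := r4_ae_mem_A2 h
  have e1 : ((ν + ν).restrict E₁).map T = ν.map (W false) := by
    have : T =ᵐ[(ν + ν).restrict E₁] fun x => W false (θ false x) := by
      have h1 : ∀ᵐ x ∂((ν + ν).restrict E₁), x ∈ A := ae_restrict_of_ae hA2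
      have h2 : ∀ᵐ x ∂((ν + ν).restrict E₁), x ∈ E₁ := ae_restrict_mem hE₁
      filter_upwards [h1, h2] with x hx1 hx2 using hin x hx1 hx2
    rw [Measure.map_congr this]
    conv_rhs => rw [← hθ₁]
    rw [Measure.map_map (hW false) (hθ false)]
    rfl
  have e2 : ((ν + ν).restrict E₁ᶜ).map T = ν.map (W true) := by
    have : T =ᵐ[(ν + ν).restrict E₁ᶜ] fun x => W true (θ true x) := by
      have h1 : ∀ᵐ x ∂((ν + ν).restrict E₁ᶜ), x ∈ A := ae_restrict_of_ae hA2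
      have h2 : ∀ᵐ x ∂((ν + ν).restrict E₁ᶜ), x ∈ E₁ᶜ := ae_restrict_mem hE₁.compl
      filter_upwards [h1, h2] with x hx1 hx2 using hout x hx1 hx2
    rw [Measure.map_congr this]
    conv_rhs => rw [← hθ₂]
    rw [Measure.map_map (hW true) (hθ true)]
    rfl
  rw [← Measure.map_add _ _ hT, ← e1, ← e2, ← Measure.map_add _ _ hT,
    Measure.restrict_add_restrict_compl hE₁]

/-- `ν.map` only depends on the values on `A`. -/
theorem r4_map_congr (h : MSys ν Y Z lam A B C c u) {f g : Ω → Ω} (hfg : ∀ x ∈ A, f x = g x) :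
    ν.map f = ν.map g :=
  Measure.map_congr (by filter_upwards [ae_mem_A h] with x hx using hfg x hx)

/-- `∫⁻ dν` only depends on the values on `A`. -/
theorem r4_lintegral_congr (h : MSys ν Y Z lam A B C c u) {f g : Ω → ℝ≥0∞}
    (hfg : ∀ x ∈ A, f x = g x) : ∫⁻ x, f x ∂ν = ∫⁻ x, g x ∂ν :=
  lintegral_congr_ae (by filter_upwards [ae_mem_A h] with x hx using hfg x hx)

/-- the cost of the contact configuration over `x`. -/
theorem r4_lintegral_contact (h : MSys ν Y Z lam A B C c u) (k : Bool) :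
    ∫⁻ x, c (x, Y k x, Z k x) ∂ν
      = ∫⁻ x, u x ∂ν + ∫⁻ x, u (Y k x) ∂ν + ∫⁻ x, u (Z k x) ∂ν := by
  rw [r4_lintegral_congr h (h.eq_c k)]
  have m1 : Measurable fun x => u (Z k x) := h.u_meas.comp (h.Z_meas k)
  have m2 : Measurable fun x => u (Y k x) := h.u_meas.comp (h.Y_meas k)
  rw [lintegral_add_right _ m1, lintegral_add_right _ m2]

/-- the part of the cost carried by one half of the central cluster. -/
theorem r4_cost_half (h : MSys ν Y Z lam A B C c u) {E : Set Ω} (hE : MeasurableSet E)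
    (k : Bool) {θ : Ω → Ω} (hθ : Measurable θ) (hθE : ((ν + ν).restrict E).map θ = ν)
    {ε' : ℝ≥0∞}
    (hclose : ∀ x ∈ A, θ x ∈ A →
      c (x, Y k (θ x), Z k (θ x)) ≤ c (θ x, Y k (θ x), Z k (θ x)) + ε')
    {f : Ω → ℝ≥0∞} (hf : ∀ x ∈ A, x ∈ E → f x = c (x, Y k (θ x), Z k (θ x))) :
    ∫⁻ x in E, f x ∂(ν + ν) ≤ ∫⁻ x, c (x, Y k x, Z k x) ∂ν + ε' * (ν + ν) E := by
  have hG : Measurable fun w => c (w, Y k w, Z k w) :=
    h.c_meas.comp (measurable_id.prodMk ((h.Y_meas k).prodMk (h.Z_meas k)))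
  have h1 : ∀ᵐ x ∂((ν + ν).restrict E), x ∈ A := ae_restrict_of_ae (r4_ae_mem_A2 h)
  have h2 : ∀ᵐ x ∂((ν + ν).restrict E), x ∈ E := ae_restrict_mem hE
  have h3 : ∀ᵐ x ∂((ν + ν).restrict E), θ x ∈ A := by
    have : ∀ᵐ y ∂(((ν + ν).restrict E).map θ), y ∈ A := by
      rw [hθE]; exact ae_mem_A h
    exact ae_of_ae_map hθ.aemeasurable this
  calc ∫⁻ x in E, f x ∂(ν + ν)
      ≤ ∫⁻ x in E, (c (θ x, Y k (θ x), Z k (θ x)) + ε') ∂(ν + ν) := by
        refine lintegral_mono_ae ?_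
        filter_upwards [h1, h2, h3] with x hx1 hx2 hx3
        rw [hf x hx1 hx2]
        exact hclose x hx1 hx3
    _ = ∫⁻ x in E, c (θ x, Y k (θ x), Z k (θ x)) ∂(ν + ν) + ε' * (ν + ν) E := by
        have m1 : Measurable fun x => c (θ x, Y k (θ x), Z k (θ x)) := hG.comp hθ
        rw [lintegral_add_left m1, lintegral_const, Measure.restrict_apply_univ]
    _ = ∫⁻ x, c (x, Y k x, Z k x) ∂ν + ε' * (ν + ν) E := by
        congr 1
        conv_rhs => rw [← hθE]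
        rw [lintegral_map hG hθ]

/-- **R4.** Approximating Monge maps from a halving `(E₁, θ)` of `2ν`. -/
theorem exists_monge_approx (h : MSys ν Y Z lam A B C c u) (E₁ : Set Ω) (hE₁ : MeasurableSet E₁)
    (θ : Bool → Ω → Ω) (hθ : ∀ k, Measurable (θ k))
    (hθ₁ : ((ν + ν).restrict E₁).map (θ false) = ν)
    (hθ₂ : ((ν + ν).restrict E₁ᶜ).map (θ true) = ν) (ε' : ℝ≥0∞)
    (hclose : ∀ k, ∀ x ∈ A, θ k x ∈ A →
      c (x, Y k (θ k x), Z k (θ k x)) ≤ c (θ k x, Y k (θ k x), Z k (θ k x)) + ε') :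
    ∃ T₂ T₃ : Ω → Ω, Measurable T₂ ∧ Measurable T₃ ∧
      (muTot ν Y Z).map T₂ = muTot ν Y Z ∧ (muTot ν Y Z).map T₃ = muTot ν Y Z ∧
      ∫⁻ x, c (x, T₂ x, T₃ x) ∂(muTot ν Y Z)
        ≤ 3 * ∫⁻ x, u x ∂(muTot ν Y Z) + ε' * (ν + ν) Set.univ := by
  have hT2 := r4T2_meas h hE₁ hθ
  have hT3 := r4T3_meas h hE₁ hθ
  refine ⟨r4T2 Y Z lam A B E₁ θ, r4T3 Y Z lam A C E₁ θ, hT2, hT3, ?_, ?_, ?_⟩
  · rw [map_muTot h.Y_meas h.Z_meas _ hT2,
      r4_map_split h hE₁ hθ hθ₁ hθ₂ hT2 h.Y_meas (fun x hx hE => r4T2_A_in hx hE)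
        (fun x hx hE => r4T2_A_out hx hE),
      r4_map_congr h (f := fun x => r4T2 Y Z lam A B E₁ θ (Y false x)) (g := Z false)
        (fun x hx => r4T2_Y h false hx),
      r4_map_congr h (f := fun x => r4T2 Y Z lam A B E₁ θ (Y true x)) (g := Z true)
        (fun x hx => r4T2_Y h true hx),
      r4_map_congr h (f := fun x => r4T2 Y Z lam A B E₁ θ (Z false x)) (g := id)
        (fun x hx => r4T2_Z h false hx),
      r4_map_congr h (f := fun x => r4T2 Y Z lam A B E₁ θ (Z true x)) (g := id)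
        (fun x hx => r4T2_Z h true hx), Measure.map_id]
    unfold muTot
    abel
  · rw [map_muTot h.Y_meas h.Z_meas _ hT3,
      r4_map_split h hE₁ hθ hθ₁ hθ₂ hT3 h.Z_meas (fun x hx hE => r4T3_A_in hx hE)
        (fun x hx hE => r4T3_A_out hx hE),
      r4_map_congr h (f := fun x => r4T3 Y Z lam A C E₁ θ (Z false x)) (g := Y false)
        (fun x hx => r4T3_Z h false hx),
      r4_map_congr h (f := fun x => r4T3 Y Z lam A C E₁ θ (Z true x)) (g := Y true)
        (fun x hx => r4T3_Z h true hx),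
      r4_map_congr h (f := fun x => r4T3 Y Z lam A C E₁ θ (Y false x)) (g := id)
        (fun x hx => r4T3_Y h false hx),
      r4_map_congr h (f := fun x => r4T3 Y Z lam A C E₁ θ (Y true x)) (g := id)
        (fun x hx => r4T3_Y h true hx), Measure.map_id]
    unfold muTot
    abel
  · set T₂ := r4T2 Y Z lam A B E₁ θ with hT₂def
    set T₃ := r4T3 Y Z lam A C E₁ θ with hT₃def
    have hf : Measurable fun x => c (x, T₂ x, T₃ x) :=
      h.c_meas.comp (measurable_id.prodMk (hT2.prodMk hT3))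
    rw [lintegral_muTot h.Y_meas h.Z_meas _ hf, lintegral_muTot h.Y_meas h.Z_meas _ h.u_meas]
    have hYk : ∀ k, ∫⁻ x, c (Y k x, T₂ (Y k x), T₃ (Y k x)) ∂ν
        = ∫⁻ x, c (x, Y k x, Z k x) ∂ν := fun k =>
      r4_lintegral_congr h fun x hx => by
        rw [hT₂def, hT₃def, r4T2_Y h k hx, r4T3_Y h k hx, h.c_cyc]
    have hZk : ∀ k, ∫⁻ x, c (Z k x, T₂ (Z k x), T₃ (Z k x)) ∂ν
        = ∫⁻ x, c (x, Y k x, Z k x) ∂ν := fun k =>
      r4_lintegral_congr h fun x hx => by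
        rw [hT₂def, hT₃def, r4T2_Z h k hx, r4T3_Z h k hx, h.c_cyc, h.c_cyc]
    have hA : ∫⁻ x, c (x, T₂ x, T₃ x) ∂ν + ∫⁻ x, c (x, T₂ x, T₃ x) ∂ν
        ≤ (∫⁻ x, c (x, Y false x, Z false x) ∂ν + ∫⁻ x, c (x, Y true x, Z true x) ∂ν)
          + ε' * (ν + ν) Set.univ := by
      rw [← lintegral_add_measure, ← lintegral_add_compl _ hE₁]
      have a1 := r4_cost_half h hE₁ false (hθ false) hθ₁ (hclose false)
        (f := fun x => c (x, T₂ x, T₃ x))
        (fun x hx hE => by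
          show c (x, T₂ x, T₃ x) = _
          rw [hT₂def, hT₃def, r4T2_A_in hx hE, r4T3_A_in hx hE])
      have a2 := r4_cost_half h hE₁.compl true (hθ true) hθ₂ (hclose true)
        (f := fun x => c (x, T₂ x, T₃ x))
        (fun x hx hE => by
          show c (x, T₂ x, T₃ x) = _
          rw [hT₂def, hT₃def, r4T2_A_out hx hE, r4T3_A_out hx hE])
      have a3 : (ν + ν) Set.univ = (ν + ν) E₁ + (ν + ν) E₁ᶜ := (measure_add_measure_compl hE₁).symm
      calc _ ≤ (∫⁻ x, c (x, Y false x, Z false x) ∂ν + ε' * (ν + ν) E₁)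
            + (∫⁻ x, c (x, Y true x, Z true x) ∂ν + ε' * (ν + ν) E₁ᶜ) := add_le_add a1 a2
        _ = _ := by rw [a3, mul_add]; abel
    rw [hYk, hZk, hYk, hZk]
    refine (add_le_add_left hA _).trans (le_of_eq ?_)
    rw [r4_lintegral_contact h false, r4_lintegral_contact h true]
    ring

end Crest.Agent.S0175
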