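/-
Row 130 (S0175), package G7: the density `ρ = 2ψ² + Σ (ψB k)² + (ψC k)²` (disjoint supports).
-/
import Crest.Agent.S0175_Defs

set_option autoImplicit false

namespace Crest.Agent.S0175

open MeasureTheory Crest.AnalysisR.OT
open scoped ENNReal ContDiff

variable {d : ℕ}

/-- the density. -/
noncomputable def rho (ψ : EE d → ℝ) (ψB ψC : Bool → EE d → ℝ) (x : EE d) : ℝ :=
  2 * ψ x ^ 2 + ((ψB false x ^ 2 + ψC false x ^ 2) + (ψB true x ^ 2 + ψC true x ^ 2))

/-- the measure with density `ψ²`. -/
noncomputable def sqMeas (ψ : EE d → ℝ) : Measure (EE d) :=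
  volume.withDensity fun x => ENNReal.ofReal (ψ x ^ 2)

variable {ψ : EE d → ℝ} {ψB ψC : Bool → EE d → ℝ}

theorem rho_nonneg (x : EE d) : 0 ≤ rho ψ ψB ψC x := by
  unfold rho; positivity

theorem rho_contDiff (hψ : ContDiff ℝ ∞ ψ) (hB : ∀ k, ContDiff ℝ ∞ (ψB k))
    (hC : ∀ k, ContDiff ℝ ∞ (ψC k)) : ContDiff ℝ ∞ (rho ψ ψB ψC) := by
  unfold rho
  exact (contDiff_const.mul (hψ.pow 2)).add ((((hB false).pow 2).add ((hC false).pow 2)).add
    (((hB true).pow 2).add ((hC true).pow 2)))

theorem rho_hasCompactSupport (hψ : HasCompactSupport ψ) (hB : ∀ k, HasCompactSupport (ψB k))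
    (hC : ∀ k, HasCompactSupport (ψC k)) : HasCompactSupport (rho ψ ψB ψC) := by
  have sq : ∀ f : EE d → ℝ, HasCompactSupport f → HasCompactSupport (fun x => f x ^ 2) := by
    intro f hf
    have h := hf.mul_left (f := f)
    have e : (fun x => f x ^ 2) = f * f := by
      funext x
      simp [sq]
    rw [e]
    exact h
  unfold rho
  exact ((sq _ hψ).mul_left (f := fun _ => (2 : ℝ))).add
    (((sq _ (hB false)).add (sq _ (hC false))).add ((sq _ (hB true)).add (sq _ (hC true))))

/-- at each point at most one of the five functions is non-zero, so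
`√ρ = √2 ψ + Σ (ψB k + ψC k)`. -/
theorem sqrt_rho_contDiff (hψ : ContDiff ℝ ∞ ψ) (hB : ∀ k, ContDiff ℝ ∞ (ψB k))
    (hC : ∀ k, ContDiff ℝ ∞ (ψC k)) (hψ0 : ∀ x, 0 ≤ ψ x) (hB0 : ∀ k x, 0 ≤ ψB k x)
    (hC0 : ∀ k x, 0 ≤ ψC k x)
    (dAB : ∀ k, Disjoint {x | ψ x ≠ 0} {x | ψB k x ≠ 0})
    (dAC : ∀ k, Disjoint {x | ψ x ≠ 0} {x | ψC k x ≠ 0})
    (dBC : ∀ k k', Disjoint {x | ψB k x ≠ 0} {x | ψC k' x ≠ 0})
    (dBB : Disjoint {x | ψB false x ≠ 0} {x | ψB true x ≠ 0})
    (dCC : Disjoint {x | ψC false x ≠ 0} {x | ψC true x ≠ 0}) :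
    ContDiff ℝ ∞ (fun x => Real.sqrt (rho ψ ψB ψC x)) := by
  have key : (fun x => Real.sqrt (rho ψ ψB ψC x)) = fun x =>
      Real.sqrt 2 * ψ x + ((ψB false x + ψC false x) + (ψB true x + ψC true x)) := by
    funext x
    have dj : ∀ {f g : EE d → ℝ}, Disjoint {x | f x ≠ 0} {x | g x ≠ 0} → f x * g x = 0 := by
      intro f g h
      by_contra hne
      have h1 : f x ≠ 0 := left_ne_zero_of_mul hne
      have h2 : g x ≠ 0 := right_ne_zero_of_mul hne
      exact Set.disjoint_left.1 h h1 h2
    have h2 : Real.sqrt 2 ^ 2 = 2 := Real.sq_sqrt (by norm_num)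
    have hnn : 0 ≤ Real.sqrt 2 * ψ x + ((ψB false x + ψC false x) + (ψB true x + ψC true x)) := by
      have := hψ0 x
      have := hB0 false x
      have := hB0 true x
      have := hC0 false x
      have := hC0 true x
      positivity
    rw [← Real.sqrt_sq hnn]
    congr 1
    unfold rho
    have a1 := dj (dAB false)
    have a2 := dj (dAB true)
    have a3 := dj (dAC false)
    have a4 := dj (dAC true)
    have a5 := dj (dBC false false)
    have a6 := dj (dBC false true)
    have a7 := dj (dBC true false)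
    have a8 := dj (dBC true true)
    have a9 := dj dBB
    have a10 := dj dCC
    have : (Real.sqrt 2 * ψ x + ((ψB false x + ψC false x) + (ψB true x + ψC true x))) ^ 2
        = Real.sqrt 2 ^ 2 * ψ x ^ 2 + ((ψB false x ^ 2 + ψC false x ^ 2)
          + (ψB true x ^ 2 + ψC true x ^ 2))
          + 2 * Real.sqrt 2 * (ψ x * ψB false x + ψ x * ψB true x + ψ x * ψC false x
            + ψ x * ψC true x)
          + 2 * (ψB false x * ψC false x + ψB false x * ψC true x + ψB true x * ψC false x
            + ψB true x * ψC true x + ψB false x * ψB true x + ψC false x * ψC true x) := by ring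
    rw [this, a1, a2, a3, a4, a5, a6, a7, a8, a9, a10, h2]
    ring
  rw [key]
  exact (contDiff_const.mul hψ).add (((hB false).add (hC false)).add ((hB true).add (hC true)))

theorem measOfDensity_rho (hψ : Measurable ψ) (hB : ∀ k, Measurable (ψB k))
    (hC : ∀ k, Measurable (ψC k)) :
    measOfDensity (rho ψ ψB ψC) = (sqMeas ψ + sqMeas ψ) +
      ((sqMeas (ψB false) + sqMeas (ψC false)) + (sqMeas (ψB true) + sqMeas (ψC true))) := by
  have m : ∀ f : EE d → ℝ, Measurable f → Measurable fun x => ENNReal.ofReal (f x ^ 2) :=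
    fun f hf => (hf.pow_const 2).ennreal_ofReal
  unfold measOfDensity sqMeas
  rw [← withDensity_add_left (m _ hψ), ← withDensity_add_left (m _ (hB false)),
    ← withDensity_add_left (m _ (hB true)),
    ← withDensity_add_left ((m _ (hB false)).add (m _ (hC false))),
    ← withDensity_add_left ((m _ hψ).add (m _ hψ))]
  congr 1
  funext x
  simp only [Pi.add_apply, rho]
  rw [← ENNReal.ofReal_add (by positivity) (by positivity),
    ← ENNReal.ofReal_add (by positivity) (by positivity),
    ← ENNReal.ofReal_add (by positivity) (by positivity),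
    ← ENNReal.ofReal_add (by positivity) (by positivity),
    ← ENNReal.ofReal_add (by positivity) (by positivity)]
  congr 1
  ring

theorem integral_rho (hψ : Measurable ψ) (hB : ∀ k, Measurable (ψB k))
    (hC : ∀ k, Measurable (ψC k)) (mA : sqMeas ψ Set.univ = ENNReal.ofReal (1 / 6))
    (mB : ∀ k, sqMeas (ψB k) Set.univ = ENNReal.ofReal (1 / 6))
    (mC : ∀ k, sqMeas (ψC k) Set.univ = ENNReal.ofReal (1 / 6)) :
    ∫ x, rho ψ ψB ψC x = 1 := by
  have hm : Measurable (rho ψ ψB ψC) := by
    unfold rho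
    exact ((hψ.pow_const 2).const_mul 2).add
      ((((hB false).pow_const 2).add ((hC false).pow_const 2)).add
        (((hB true).pow_const 2).add ((hC true).pow_const 2)))
  rw [integral_eq_lintegral_of_nonneg_ae (Filter.Eventually.of_forall fun x => rho_nonneg x)
    hm.aestronglyMeasurable]
  have h1 : ∫⁻ x, ENNReal.ofReal (rho ψ ψB ψC x) = measOfDensity (rho ψ ψB ψC) Set.univ := by
    unfold measOfDensity
    rw [withDensity_apply _ MeasurableSet.univ, Measure.restrict_univ]
  rw [h1, measOfDensity_rho hψ hB hC]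
  simp only [Measure.add_apply, mA, mB, mC]
  rw [← ENNReal.ofReal_add (by positivity) (by positivity),
    ← ENNReal.ofReal_add (by positivity) (by positivity),
    ← ENNReal.ofReal_add (by positivity) (by positivity), ENNReal.toReal_ofReal (by positivity)]
  norm_num

end Crest.Agent.S0175
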