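/-
Row 130 (S0175), package G6: the numerical smallness conditions can be met.
-/
import Crest.Agent.S0175_Defs

set_option autoImplicit false

namespace Crest.Agent.S0175

variable {s : ℝ}

open Filter Topology

theorem Small_varpi_cont (s : ℝ) : Continuous (fun η : ℝ => varpi s η) := by
  unfold varpi
  fun_prop

theorem Small_varpi_zero (s : ℝ) : varpi s 0 = 0 := by
  simp [varpi]

/-- **G6.**  `t = 3^{-s}/2`, `η` small (continuity at `η = 0`; `2^{-s/2} > 2^{-s}`;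
`(2η)^{-s} → ∞`). -/
theorem exists_small (hs : 0 < s) : ∃ t η : ℝ, Small s t η := by
  set t : ℝ := (3 : ℝ) ^ (-s) / 2 with ht
  have h3pos : 0 < (3 : ℝ) ^ (-s) := Real.rpow_pos_of_pos (by norm_num) _
  have h3lt1 : (3 : ℝ) ^ (-s) < 1 := Real.rpow_lt_one_of_one_lt_of_neg (by norm_num) (by linarith)
  have h32 : (3 : ℝ) ^ (-s) < (2 : ℝ) ^ (-s) :=
    Real.rpow_lt_rpow_of_neg (by norm_num) (by norm_num) (by linarith)
  have hsq : (2 : ℝ) ^ (-s) < (Real.sqrt 2) ^ (-s) := by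
    apply Real.rpow_lt_rpow_of_neg (by positivity) _ (by linarith)
    have : Real.sqrt 2 < Real.sqrt 4 := Real.sqrt_lt_sqrt (by norm_num) (by norm_num)
    have h4 : Real.sqrt 4 = 2 := by
      rw [show (4 : ℝ) = 2 ^ 2 by norm_num]; exact Real.sqrt_sq (by norm_num)
    linarith
  have htpos : 0 < t := by positivity
  have hv := (Small_varpi_cont s).tendsto 0
  rw [Small_varpi_zero] at hv
  -- each condition holds eventually near `0`
  have e1 : ∀ᶠ η in 𝓝 (0 : ℝ), varpi s η ≤ t :=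
    (hv.eventually (gt_mem_nhds htpos)).mono fun _ h => le_of_lt h
  have e2 : ∀ᶠ η in 𝓝 (0 : ℝ), Kc s / 2 * η ^ 2 + 2 * t ≤ 2 := by
    have hc : Continuous (fun η : ℝ => Kc s / 2 * η ^ 2 + 2 * t) := by fun_prop
    have h0 := hc.tendsto 0
    have : Kc s / 2 * (0 : ℝ) ^ 2 + 2 * t < 2 := by
      simp only [ht]; nlinarith
    exact (h0.eventually (gt_mem_nhds this)).mono fun _ h => le_of_lt h
  have e3 : ∀ᶠ η in 𝓝 (0 : ℝ), t + varpi s η < (2 + 2 * η) ^ (-s) := by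
    have hc1 : Tendsto (fun η : ℝ => t + varpi s η) (𝓝 0) (𝓝 (t + 0)) := hv.const_add t
    have hc2 : Tendsto (fun η : ℝ => (2 + 2 * η) ^ (-s)) (𝓝 0) (𝓝 ((2 + 2 * 0 : ℝ) ^ (-s))) := by
      have hb : Tendsto (fun η : ℝ => 2 + 2 * η) (𝓝 0) (𝓝 (2 + 2 * 0 : ℝ)) :=
        (by fun_prop : Continuous (fun η : ℝ => 2 + 2 * η)).tendsto 0
      exact hb.rpow_const (Or.inl (by norm_num))
    apply hc1.eventually_lt hc2
    simp only [ht]; norm_num; linarith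
  have e4 : ∀ᶠ η in 𝓝 (0 : ℝ), (2 + (2 : ℝ) ^ (-s)) + 2 * varpi s η
      < 2 * (1 + 2 * η) ^ (-s) + (Real.sqrt 2 + 2 * η) ^ (-s) := by
    have hc1 : Tendsto (fun η : ℝ => (2 + (2 : ℝ) ^ (-s)) + 2 * varpi s η) (𝓝 0)
        (𝓝 ((2 + (2 : ℝ) ^ (-s)) + 2 * 0)) := (hv.const_mul 2).const_add _
    have hc2 : Tendsto (fun η : ℝ => 2 * (1 + 2 * η) ^ (-s) + (Real.sqrt 2 + 2 * η) ^ (-s)) (𝓝 0)
        (𝓝 (2 * (1 + 2 * 0 : ℝ) ^ (-s) + (Real.sqrt 2 + 2 * 0 : ℝ) ^ (-s))) := by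
      have hb1 : Tendsto (fun η : ℝ => 1 + 2 * η) (𝓝 0) (𝓝 (1 + 2 * 0 : ℝ)) :=
        (by fun_prop : Continuous (fun η : ℝ => 1 + 2 * η)).tendsto 0
      have hb2 : Tendsto (fun η : ℝ => Real.sqrt 2 + 2 * η) (𝓝 0) (𝓝 (Real.sqrt 2 + 2 * 0 : ℝ)) :=
        (by fun_prop : Continuous (fun η : ℝ => Real.sqrt 2 + 2 * η)).tendsto 0
      have hs2 : (0 : ℝ) < Real.sqrt 2 := by positivity
      exact ((hb1.rpow_const (Or.inl (by norm_num))).const_mul 2).add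
        (hb2.rpow_const (Or.inl (by simp; )))
    apply hc1.eventually_lt hc2
    simp only [mul_zero, add_zero, Real.one_rpow]
    linarith
  have e5 : ∀ᶠ η in 𝓝[>] (0 : ℝ), 9 < (2 * η) ^ (-s) := by
    have hb : Tendsto (fun η : ℝ => 2 * η) (𝓝[>] 0) (𝓝[>] 0) := by
      apply tendsto_nhdsWithin_of_tendsto_nhds_of_eventually_within
      · have : Tendsto (fun η : ℝ => 2 * η) (𝓝 0) (𝓝 (2 * 0)) :=
          (by fun_prop : Continuous (fun η : ℝ => 2 * η)).tendsto 0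
        rw [mul_zero] at this
        exact this.mono_left nhdsWithin_le_nhds
      · filter_upwards [self_mem_nhdsWithin] with η hη
        have : (0 : ℝ) < η := hη
        show (0 : ℝ) < 2 * η
        positivity
    have := (tendsto_rpow_neg_nhdsGT_zero (by linarith : -s < 0)).comp hb
    exact this.eventually (eventually_gt_atTop 9)
  have e6 : ∀ᶠ η in 𝓝 (0 : ℝ), η ≤ 1 / 8 :=
    (gt_mem_nhds (by norm_num : (0 : ℝ) < 1 / 8)).mono fun _ h => le_of_lt h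
  have e7 : ∀ᶠ η in 𝓝[>] (0 : ℝ), 0 < η := self_mem_nhdsWithin
  have hall := (((((e1.and e2).and e3).and e4).and e6).filter_mono nhdsWithin_le_nhds).and
    (e5.and e7)
  obtain ⟨η, ⟨⟨⟨⟨⟨h1, h2⟩, h3⟩, h4⟩, h6⟩, h5, h7⟩⟩ := hall.exists
  exact ⟨t, η, ⟨htpos, h7, h6, h1, h2, h5, h3, h4⟩⟩

end Crest.Agent.S0175
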