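/-
Row 130 (S0175), package G8: assembly.
-/
import Crest.Agent.S0175_R1
import Crest.Agent.S0175_R3
import Crest.Agent.S0175_R4
import Crest.Agent.S0175_IFT
import Crest.Agent.S0175_Push
import Crest.Agent.S0175_Halve
import Crest.Agent.S0175_GeomB
import Crest.Agent.S0175_Small
import Crest.Agent.S0175_Rho

set_option autoImplicit false

namespace Crest.Agent.S0175

open MeasureTheory Crest.AnalysisR.OT
open scoped ENNReal ContDiff RealInnerProductSpace

/-- The abstract conclusion. -/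
theorem abstract_conclusion {Ω : Type*} [MeasurableSpace Ω] {ν : Measure Ω} {Y Z : Bool → Ω → Ω}
    {lam : Ω → Ω} {A : Set Ω} {B C : Bool → Set Ω} {c : Ω × Ω × Ω → ℝ≥0∞} {u : Ω → ℝ≥0∞}
    (h : MSys ν Y Z lam A B C c u)
    (happ : ∀ ε : ℝ≥0∞, 0 < ε → ∃ (E₁ : Set Ω) (θ : Bool → Ω → Ω) (ε' : ℝ≥0∞), MeasurableSet E₁ ∧
      (∀ k, Measurable (θ k)) ∧ ((ν + ν).restrict E₁).map (θ false) = ν ∧
      ((ν + ν).restrict E₁ᶜ).map (θ true) = ν ∧
      (∀ k, ∀ x ∈ A, θ k x ∈ A →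
        c (x, Y k (θ k x), Z k (θ k x)) ≤ c (θ k x, Y k (θ k x), Z k (θ k x)) + ε') ∧
      ε' * (ν + ν) Set.univ < ε) :
    ∃ π₀ : Measure (Ω × Ω × Ω),
        IsCoupling₃ (muTot ν Y Z) π₀ ∧ ∫⁻ p, c p ∂π₀ < ⊤ ∧
        (∀ π : Measure (Ω × Ω × Ω), IsCoupling₃ (muTot ν Y Z) π →
          ∫⁻ p, c p ∂π₀ ≤ ∫⁻ p, c p ∂π) ∧
        (∀ T₂ T₃ : Ω → Ω, Measurable T₂ → Measurable T₃ →
          (muTot ν Y Z).map T₂ = muTot ν Y Z → (muTot ν Y Z).map T₃ = muTot ν Y Z →
          ∫⁻ p, c p ∂π₀ < ∫⁻ x, c (x, T₂ x, T₃ x) ∂(muTot ν Y Z)) ∧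
        (∀ ε : ℝ≥0∞, 0 < ε → ∃ T₂ T₃ : Ω → Ω, Measurable T₂ ∧ Measurable T₃ ∧
          (muTot ν Y Z).map T₂ = muTot ν Y Z ∧ (muTot ν Y Z).map T₃ = muTot ν Y Z ∧
          ∫⁻ x, c (x, T₂ x, T₃ x) ∂(muTot ν Y Z) < ∫⁻ p, c p ∂π₀ + ε) := by
  obtain ⟨π₀, hπ₀, hcost⟩ := exists_plan h
  have hfin := lintegral_u_lt_top h
  refine ⟨π₀, hπ₀, by rw [hcost]; exact hfin, ?_, ?_, ?_⟩
  · intro π hπ
    rw [hcost]
    exact coupling_lower_bound h π hπ
  · intro T₂ T₃ h₂ h₃ hT₂ hT₃
    rw [hcost]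
    exact monge_strict h T₂ T₃ h₂ h₃ hT₂ hT₃
  · intro ε hε
    obtain ⟨E₁, θ, ε', hE₁, hθ, hθ₁, hθ₂, hclose, hε'⟩ := happ ε hε
    obtain ⟨T₂, T₃, h₂, h₃, hT₂, hT₃, hle⟩ :=
      exists_monge_approx h E₁ hE₁ θ hθ hθ₁ hθ₂ ε' hclose
    refine ⟨T₂, T₃, h₂, h₃, hT₂, hT₃, ?_⟩
    rw [hcost]
    exact lt_of_le_of_lt hle (ENNReal.add_lt_add_left hfin.ne hε')

open Classical in
/-- the label map. -/
noncomputable def lamDef {d : ℕ} (gB gC : Bool → EE d → EE d) (B C : Bool → Set (EE d))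
    (x : EE d) : EE d :=
  if x ∈ B false then gB false x else if x ∈ B true then gB true x
  else if x ∈ C false then gC false x else if x ∈ C true then gC true x else x

theorem measurable_lamDef {d : ℕ} {gB gC : Bool → EE d → EE d} {B C : Bool → Set (EE d)}
    (hgB : ∀ k, Measurable (gB k)) (hgC : ∀ k, Measurable (gC k))
    (hB : ∀ k, MeasurableSet (B k)) (hC : ∀ k, MeasurableSet (C k)) :
    Measurable (lamDef gB gC B C) := by
  classical
  unfold lamDef
  exact Measurable.ite (hB false) (hgB false) (Measurable.ite (hB true) (hgB true)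
    (Measurable.ite (hC false) (hgC false) (Measurable.ite (hC true) (hgC true) measurable_id)))

theorem main (d : ℕ) (hd : 2 ≤ d) (s : ℝ) (hs : 0 < s) :
    ∃ ρ : EE d → ℝ, (∀ x, 0 ≤ ρ x) ∧ ContDiff ℝ ∞ ρ ∧ HasCompactSupport ρ ∧
      ContDiff ℝ ∞ (fun x => Real.sqrt (ρ x)) ∧ ∫ x, ρ x = 1 ∧
      ∃ π₀ : Measure (EE d × EE d × EE d),
        IsCoupling₃ (measOfDensity ρ) π₀ ∧ ∫⁻ p, tripleCost s p ∂π₀ < ⊤ ∧
        (∀ π : Measure (EE d × EE d × EE d), IsCoupling₃ (measOfDensity ρ) π →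
          ∫⁻ p, tripleCost s p ∂π₀ ≤ ∫⁻ p, tripleCost s p ∂π) ∧
        (∀ T₂ T₃ : EE d → EE d, Measurable T₂ → Measurable T₃ →
          (measOfDensity ρ).map T₂ = measOfDensity ρ → (measOfDensity ρ).map T₃ = measOfDensity ρ →
          ∫⁻ p, tripleCost s p ∂π₀ < ∫⁻ x, tripleCost s (x, T₂ x, T₃ x) ∂(measOfDensity ρ)) ∧
        (∀ ε : ℝ≥0∞, 0 < ε → ∃ T₂ T₃ : EE d → EE d, Measurable T₂ ∧ Measurable T₃ ∧
          (measOfDensity ρ).map T₂ = measOfDensity ρ ∧ (measOfDensity ρ).map T₃ = measOfDensity ρ ∧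
          ∫⁻ x, tripleCost s (x, T₂ x, T₃ x) ∂(measOfDensity ρ)
            < ∫⁻ p, tripleCost s p ∂π₀ + ε) := by
  classical
  obtain ⟨t, η, hS⟩ := exists_small hs
  -- the two orthonormal directions
  let i₀ : Fin d := ⟨0, by omega⟩
  let i₁ : Fin d := ⟨1, by omega⟩
  have hi : i₀ ≠ i₁ := by
    intro h
    have := congrArg Fin.val h
    simp [i₀, i₁] at this
  let e : Bool → EE d := fun k => EuclideanSpace.single (if k then i₁ else i₀) (1 : ℝ)
  have he_norm : ∀ k, ‖e k‖ = 1 := by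
    intro k; simp [e]
  have he_orth : ⟪e false, e true⟫ = 0 := by
    simp [e, EuclideanSpace.inner_single_left, hi]
  -- the contact maps
  have hcm := fun k => exists_contact_maps hs (e k) (he_norm k) η hS.η_pos
  choose r Y Z hr hrη hYm hZm hYs hZs hYi hZi hYd hZd hYZ using hcm
  set r₀ := min (r false) (r true) with hr₀
  have hr₀pos : 0 < r₀ := lt_min (hr false) (hr true)
  have hr₀le : ∀ k, r₀ ≤ r k := by
    intro k; cases k
    · exact min_le_left _ _
    · exact min_le_right _ _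
  set U : Set (EE d) := Metric.ball 0 r₀ with hU
  have hUsub : ∀ k, U ⊆ Metric.ball 0 (r k) := fun k => Metric.ball_subset_ball (hr₀le k)
  -- the bump
  obtain ⟨ψ, hψs, hψ0, hψc, hψsupp, hψmass, hhalve⟩ := exists_bump_halving d (by omega) r₀ hr₀pos
  -- the push-forwards
  have hpB := fun k => exists_push U Metric.isOpen_ball (Y k) (hYm k) ((hYs k).mono (hUsub k))
    ((hYi k).mono (hUsub k)) (fun x hx => hYd k x (hUsub k hx)) ψ hψs hψ0 hψc hψsupp
  have hpC := fun k => exists_push U Metric.isOpen_ball (Z k) (hZm k) ((hZs k).mono (hUsub k))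
    ((hZi k).mono (hUsub k)) (fun x hx => hZd k x (hUsub k hx)) ψ hψs hψ0 hψc hψsupp
  choose ψB gB hBs hB0 hBc hgBm hgB hBiff hBmap using hpB
  choose ψC gC hCs hC0 hCc hgCm hgC hCiff hCmap using hpC
  -- the clusters
  set A : Set (EE d) := {x | ψ x ≠ 0} with hA
  set B : Bool → Set (EE d) := fun k => {x | ψB k x ≠ 0} with hB
  set C : Bool → Set (EE d) := fun k => {x | ψC k x ≠ 0} with hC
  have hAU : A ⊆ U := fun x hx => hψsupp (subset_tsupport _ hx)
  have hAη : A ⊆ Metric.ball 0 η :=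
    hAU.trans (Metric.ball_subset_ball ((hr₀le false).trans (hrη false)))
  have hBeq : ∀ k, B k = Y k '' A := by
    intro k; ext y
    simp only [hB, hA, Set.mem_ofPred_eq, Set.mem_image]
    exact hBiff k y
  have hCeq : ∀ k, C k = Z k '' A := by
    intro k; ext y
    simp only [hC, hA, Set.mem_ofPred_eq, Set.mem_image]
    exact hCiff k y
  have hYmem : ∀ k, ∀ x ∈ A, Y k x ∈ Metric.ball (e k) η :=
    fun k x hx => (hYZ k x (hUsub k (hAU hx))).1
  have hZmem : ∀ k, ∀ x ∈ A, Z k x ∈ Metric.ball (-e k) η :=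
    fun k x hx => (hYZ k x (hUsub k (hAU hx))).2.1
  have hBsub : ∀ k, B k ⊆ Metric.ball (e k) η := by
    intro k; rw [hBeq k]; rintro _ ⟨x, hx, rfl⟩; exact hYmem k x hx
  have hCsub : ∀ k, C k ⊆ Metric.ball (-e k) η := by
    intro k; rw [hCeq k]; rintro _ ⟨x, hx, rfl⟩; exact hZmem k x hx
  obtain ⟨dAB, dAC, dBC, dBB, dCC⟩ :=
    clusters_disjoint he_norm he_orth hS.η_le hAη hBsub hCsub
  have hAm : MeasurableSet A := (hψs.continuous.measurable (measurableSet_singleton 0)).compl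
  have hBm : ∀ k, MeasurableSet (B k) :=
    fun k => ((hBs k).continuous.measurable (measurableSet_singleton 0)).compl
  have hCm : ∀ k, MeasurableSet (C k) :=
    fun k => ((hCs k).continuous.measurable (measurableSet_singleton 0)).compl
  -- the label map
  set lam : EE d → EE d := lamDef gB gC B C with hlam
  have hlamm : Measurable lam := measurable_lamDef hgBm hgCm hBm hCm
  have hlamA : ∀ x ∈ A, lam x = x := by
    intro x hx
    have h1 : ∀ k, x ∉ B k := fun k h => Set.disjoint_left.mp (dAB k) hx h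
    have h2 : ∀ k, x ∉ C k := fun k h => Set.disjoint_left.mp (dAC k) hx h
    simp [hlam, lamDef, h1, h2]
  have hlamB : ∀ k, ∀ y ∈ B k, lam y = gB k y := by
    intro k y hy
    cases k
    · simp [hlam, lamDef, hy]
    · have h1 : y ∉ B false := fun h => Set.disjoint_left.mp dBB h hy
      simp [hlam, lamDef, hy, h1]
  have hlamC : ∀ k, ∀ y ∈ C k, lam y = gC k y := by
    intro k y hy
    have h1 : ∀ k', y ∉ B k' := fun k' h => Set.disjoint_left.mp (dBC k' k) h hy
    cases k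
    · simp [hlam, lamDef, hy, h1]
    · have h2 : y ∉ C false := fun h => Set.disjoint_left.mp dCC h hy
      simp [hlam, lamDef, hy, h1, h2]
  have hYB : ∀ k, ∀ x ∈ A, Y k x ∈ B k := by
    intro k x hx; rw [hBeq k]; exact ⟨x, hx, rfl⟩
  have hZC : ∀ k, ∀ x ∈ A, Z k x ∈ C k := by
    intro k x hx; rw [hCeq k]; exact ⟨x, hx, rfl⟩
  have hlamY : ∀ k, ∀ x ∈ A, lam (Y k x) = x := by
    intro k x hx
    rw [hlamB k _ (hYB k x hx), hgB k x (hAU hx)]
  have hlamZ : ∀ k, ∀ x ∈ A, lam (Z k x) = x := by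
    intro k x hx
    rw [hlamC k _ (hZC k x hx), hgC k x (hAU hx)]
  have hG : Geo s η e Y Z lam A B C :=
    { e_norm := he_norm
      e_orth := he_orth
      A_sub := hAη
      Y_mem := hYmem
      Z_mem := hZmem
      crit := fun k x hx => (hYZ k x (hUsub k (hAU hx))).2.2
      B_eq := hBeq
      C_eq := hCeq
      lam_A := hlamA
      lam_Y := hlamY
      lam_Z := hlamZ }
  -- the measure
  set ν : Measure (EE d) := sqMeas ψ with hν
  have hνuniv : ν Set.univ = ENNReal.ofReal (1 / 6) := by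
    rw [hν, sqMeas, withDensity_apply _ MeasurableSet.univ, Measure.restrict_univ, hψmass]
  have hνfin : IsFiniteMeasure ν := ⟨by rw [hνuniv]; exact ENNReal.ofReal_lt_top⟩
  have hνA : ν Aᶜ = 0 := by
    rw [hν, sqMeas, withDensity_apply _ hAm.compl]
    rw [lintegral_eq_zero_iff' (by
      exact ((hψs.continuous.measurable.pow_const 2).ennreal_ofReal).aemeasurable)]
    rw [Filter.EventuallyEq, ae_restrict_iff' hAm.compl]
    refine Filter.Eventually.of_forall ?_
    intro x hx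
    have : ψ x = 0 := by
      by_contra h; exact hx h
    simp [this]
  set u : EE d → ℝ≥0∞ := fun x => ENNReal.ofReal (uTot s t e Z lam A B C x) with hu
  have hM : MSys ν Y Z lam A B C (tripleCost s) u :=
    { fin := hνfin
      pos := by rw [hνuniv]; simp
      Y_meas := hYm
      Z_meas := hZm
      lam_meas := hlamm
      A_meas := hAm
      B_meas := hBm
      C_meas := hCm
      ν_A := hνA
      Y_mem := hYB
      Z_mem := hZC
      lam_A := hlamA
      lam_Y := hlamY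
      lam_Z := hlamZ
      disj_AB := dAB
      disj_AC := dAC
      disj_BC := dBC
      disj_BB := dBB
      disj_CC := dCC
      c_meas := measurable_tripleCost
      u_meas := (measurable_uTot hZm hlamm hAm hBm hCm).ennreal_ofReal
      u_bdd := ⟨ENNReal.ofReal 3, ENNReal.ofReal_ne_top,
        fun x => ENNReal.ofReal_le_ofReal (uTot_le_three hs hS hG x)⟩
      c_cyc := tripleCost_cyc
      le_c := geo_le_c hs hS hG
      contact := geo_contact hs hS hG
      eq_c := fun k x hx => geo_eq_c hs hS hG k hx }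
  -- the density
  have hBmeas : ∀ k, sqMeas (ψB k) = ν.map (Y k) := fun k => (hBmap k).symm
  have hCmeas : ∀ k, sqMeas (ψC k) = ν.map (Z k) := fun k => (hCmap k).symm
  have hμ : measOfDensity (rho ψ ψB ψC) = muTot ν Y Z := by
    rw [measOfDensity_rho hψs.continuous.measurable (fun k => (hBs k).continuous.measurable)
      (fun k => (hCs k).continuous.measurable), hBmeas, hBmeas, hCmeas, hCmeas]
    rfl
  have mB : ∀ k, sqMeas (ψB k) Set.univ = ENNReal.ofReal (1 / 6) := by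
    intro k
    rw [hBmeas k, Measure.map_apply (hYm k) MeasurableSet.univ, Set.preimage_univ, hνuniv]
  have mC : ∀ k, sqMeas (ψC k) Set.univ = ENNReal.ofReal (1 / 6) := by
    intro k
    rw [hCmeas k, Measure.map_apply (hZm k) MeasurableSet.univ, Set.preimage_univ, hνuniv]
  refine ⟨rho ψ ψB ψC, rho_nonneg, rho_contDiff hψs hBs hCs, rho_hasCompactSupport hψc hBc hCc,
    sqrt_rho_contDiff hψs hBs hCs hψ0 hB0 hC0 dAB dAC dBC dBB dCC,
    integral_rho hψs.continuous.measurable (fun k => (hBs k).continuous.measurable)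
      (fun k => (hCs k).continuous.measurable) hνuniv mB mC, ?_⟩
  rw [hμ]
  refine abstract_conclusion hM ?_
  intro ε hε
  -- choose δ
  set L : ℝ := s * (2 : ℝ) ^ (s + 2) with hL
  have hLpos : 0 < L := by positivity
  have hmass : (ν + ν) Set.univ = ENNReal.ofReal (1 / 3) := by
    rw [Measure.add_apply, hνuniv, ← ENNReal.ofReal_add (by norm_num) (by norm_num)]
    norm_num
  obtain ⟨δ, hδpos, hδ⟩ : ∃ δ : ℝ, 0 < δ ∧ ENNReal.ofReal (L * δ) * ENNReal.ofReal (1 / 3) < ε := by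
    by_cases hε' : ε = ⊤
    · refine ⟨1, one_pos, ?_⟩
      rw [hε']
      exact ENNReal.mul_lt_top ENNReal.ofReal_lt_top ENNReal.ofReal_lt_top
    · have hεr : 0 < ε.toReal := ENNReal.toReal_pos hε.ne' hε'
      refine ⟨ε.toReal / L, by positivity, ?_⟩
      rw [← ENNReal.ofReal_mul (by positivity), mul_div_cancel₀ _ hLpos.ne']
      calc ENNReal.ofReal (ε.toReal * (1 / 3)) < ENNReal.ofReal ε.toReal :=
            (ENNReal.ofReal_lt_ofReal_iff hεr).mpr (by linarith)
        _ = ε := ENNReal.ofReal_toReal hε'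
  obtain ⟨E₁, θ, hE₁, hθm, hθδ, hθ₁, hθ₂⟩ := hhalve δ hδpos
  refine ⟨E₁, θ, ENNReal.ofReal (L * δ), hE₁, hθm, hθ₁, hθ₂, ?_, by rw [hmass]; exact hδ⟩
  intro k x hx hθx
  refine (geo_close hs hS hG k hx hθx).trans ?_
  gcongr
  rw [norm_sub_rev]
  exact hθδ k x

end Crest.Agent.S0175
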