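import Crest.Agent.S0175_Defs

set_option autoImplicit false

namespace Crest.Agent.S0175

open MeasureTheory Crest.AnalysisR.OT
open scoped ENNReal RealInnerProductSpace ContDiff Topology

variable {d : ℕ} {s : ℝ}

/-- derivative of `gphi`. -/
noncomputable def IFT_Dg (s : ℝ) (v : EE d) : EE d →L[ℝ] EE d :=
  (-s * ‖v‖ ^ (-s - 2)) • ContinuousLinearMap.id ℝ (EE d) +
    ((-s) • (((-s - 2) / 2 * (‖v‖ ^ 2) ^ ((-s - 2) / 2 - 1)) • (2 • innerSL ℝ v))).smulRight v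

theorem IFT_norm_rpow (a : ℝ) (v : EE d) : ‖v‖ ^ a = (‖v‖ ^ 2) ^ (a / 2) := by
  rw [← Real.rpow_natCast, ← Real.rpow_mul (norm_nonneg v)]
  congr 1
  push_cast
  ring

theorem IFT_hasStrictFDerivAt_gphi (s : ℝ) {v : EE d} (hv : v ≠ 0) :
    HasStrictFDerivAt (gphi s) (IFT_Dg s v) v := by
  have h1 : HasStrictFDerivAt (fun x : EE d => ‖x‖ ^ 2) (2 • innerSL ℝ v) v :=
    hasStrictFDerivAt_norm_sq v
  have hne : ‖v‖ ^ 2 ≠ 0 := pow_ne_zero 2 (norm_ne_zero_iff.2 hv)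
  have h2 := (Real.hasStrictDerivAt_rpow_const_of_ne hne ((-s - 2) / 2)).comp_hasStrictFDerivAt v h1
  have h3 : HasStrictFDerivAt (fun x : EE d => -s * ‖x‖ ^ (-s - 2))
      ((-s) • (((-s - 2) / 2 * (‖v‖ ^ 2) ^ ((-s - 2) / 2 - 1)) • (2 • innerSL ℝ v))) v := by
    have := h2.const_mul (-s)
    refine this.congr_of_eventuallyEq (Filter.Eventually.of_forall fun x => ?_)
    simp only [Function.comp]
    rw [IFT_norm_rpow]
  have h4 : HasStrictFDerivAt (fun x : EE d => x) (ContinuousLinearMap.id ℝ (EE d)) v :=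
    hasStrictFDerivAt_id v
  exact h3.smul h4

theorem IFT_contDiffAt_gphi (s : ℝ) {v : EE d} (hv : v ≠ 0) : ContDiffAt ℝ ω (gphi s) v := by
  unfold gphi
  have h1 : ContDiffAt ℝ ω (fun x : EE d => ‖x‖ ^ (-s - 2)) v :=
    (contDiffAt_norm ℝ hv).rpow_const_of_ne (norm_ne_zero_iff.2 hv)
  have h2 : ContDiffAt ℝ ω (fun x : EE d => -s * ‖x‖ ^ (-s - 2)) v := contDiffAt_const.mul h1
  exact h2.smul contDiffAt_id

/-- `J ξ = (s+2)⟪e,ξ⟫ e - ξ`. -/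
noncomputable def IFT_J (s : ℝ) (e ξ : EE d) : EE d := ((s + 2) * ⟪e, ξ⟫) • e - ξ

theorem IFT_Dg_apply (s : ℝ) (v ξ : EE d) :
    IFT_Dg s v ξ = (-s * ‖v‖ ^ (-s - 2)) • ξ +
      ((-s) * (((-s - 2) / 2 * (‖v‖ ^ 2) ^ ((-s - 2) / 2 - 1)) * (2 * ⟪v, ξ⟫))) • v := by
  simp [IFT_Dg, innerSL_apply_apply]

theorem IFT_Dg_e (s : ℝ) {e : EE d} (he : ‖e‖ = 1) (ξ : EE d) :
    IFT_Dg s e ξ = s • IFT_J s e ξ := by
  rw [IFT_Dg_apply, he]
  simp only [Real.one_rpow, one_pow, IFT_J, smul_sub, smul_smul]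
  module

theorem IFT_Dg_neg_e (s : ℝ) {e : EE d} (he : ‖e‖ = 1) (ξ : EE d) :
    IFT_Dg s (-e) ξ = s • IFT_J s e ξ := by
  rw [IFT_Dg_apply, norm_neg, he]
  simp only [Real.one_rpow, one_pow, IFT_J, smul_sub, smul_smul, inner_neg_left]
  module

theorem IFT_Dg_two_e (s : ℝ) {e : EE d} (he : ‖e‖ = 1) (ξ : EE d) :
    IFT_Dg s ((2 : ℝ) • e) ξ = ((2 : ℝ) ^ (-s - 2) * s) • IFT_J s e ξ := by
  rw [IFT_Dg_apply, norm_smul, he]
  have h2 : ((‖(2 : ℝ)‖ * 1) ^ 2) ^ ((-s - 2) / 2 - 1) = (2 : ℝ) ^ (-s - 2) / 4 := by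
    rw [mul_one, Real.norm_of_nonneg (by norm_num : (0 : ℝ) ≤ 2), ← Real.rpow_natCast,
      ← Real.rpow_mul (by norm_num)]
    have : ((2 : ℕ) : ℝ) * ((-s - 2) / 2 - 1) = (-s - 2) - 2 := by push_cast; ring
    rw [this, Real.rpow_sub (by norm_num)]
    norm_num
  rw [h2, mul_one, Real.norm_of_nonneg (by norm_num : (0 : ℝ) ≤ 2)]
  simp only [IFT_J, smul_sub, smul_smul, inner_smul_left]
  simp only [RCLike.conj_to_real]
  module

theorem IFT_J_add (s : ℝ) (e ξ η : EE d) : IFT_J s e (ξ + η) = IFT_J s e ξ + IFT_J s e η := by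
  simp only [IFT_J, inner_add_right]
  module

theorem IFT_J_sub (s : ℝ) (e ξ η : EE d) : IFT_J s e (ξ - η) = IFT_J s e ξ - IFT_J s e η := by
  simp only [IFT_J, inner_sub_right]
  module

theorem IFT_J_smul (s : ℝ) (e : EE d) (c : ℝ) (ξ : EE d) :
    IFT_J s e (c • ξ) = c • IFT_J s e ξ := by
  simp only [IFT_J, inner_smul_right]
  module

theorem IFT_J_neg (s : ℝ) (e ξ : EE d) : IFT_J s e (-ξ) = -IFT_J s e ξ := by
  simp only [IFT_J, inner_neg_right]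
  module

theorem IFT_J_inner (s : ℝ) (e ξ : EE d) :
    ⟪IFT_J s e ξ, ξ⟫ = (s + 2) * ⟪e, ξ⟫ ^ 2 - ‖ξ‖ ^ 2 := by
  simp only [IFT_J, inner_sub_left, inner_smul_left, real_inner_self_eq_norm_sq,
    RCLike.conj_to_real]
  ring

theorem IFT_J_inner_ge (hs : 0 < s) (e ξ : EE d) : -‖ξ‖ ^ 2 ≤ ⟪IFT_J s e ξ, ξ⟫ := by
  rw [IFT_J_inner]
  have : 0 ≤ (s + 2) * ⟪e, ξ⟫ ^ 2 := by positivity
  linarith

theorem IFT_J_inj (hs : 0 < s) {e : EE d} (he : ‖e‖ = 1) {ξ : EE d} (h : IFT_J s e ξ = 0) :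
    ξ = 0 := by
  have h1 : ⟪e, IFT_J s e ξ⟫ = 0 := by rw [h, inner_zero_right]
  simp only [IFT_J, inner_sub_right, inner_smul_right, real_inner_self_eq_norm_sq, he] at h1
  have h2 : (s + 1) * ⟪e, ξ⟫ = 0 := by linarith
  have h3 : ⟪e, ξ⟫ = 0 := by
    rcases mul_eq_zero.1 h2 with h | h
    · linarith
    · exact h
  simp only [IFT_J, h3, mul_zero, zero_smul, zero_sub, neg_eq_zero] at h
  exact h

/-- a vector with `c J ξ + K ξ = 0`, `0 ≤ c < K`, vanishes. -/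
theorem IFT_J_coer (hs : 0 < s) (e : EE d) {c K : ℝ} (hc : 0 ≤ c) (hcK : c < K) {ξ : EE d}
    (h : c • IFT_J s e ξ + K • ξ = 0) : ξ = 0 := by
  have h1 : ⟪c • IFT_J s e ξ + K • ξ, ξ⟫ = 0 := by rw [h, inner_zero_left]
  simp only [inner_add_left, inner_smul_left, real_inner_self_eq_norm_sq,
    RCLike.conj_to_real] at h1
  have h2 := IFT_J_inner_ge hs e ξ
  have h3 : (K - c) * ‖ξ‖ ^ 2 ≤ 0 := by nlinarith
  have h4 : ‖ξ‖ ^ 2 ≤ 0 := by
    by_contra hcon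
    push Not at hcon
    have : 0 < (K - c) * ‖ξ‖ ^ 2 := mul_pos (by linarith) hcon
    linarith
  have h5 : ‖ξ‖ = 0 := by
    have := sq_nonneg ‖ξ‖
    exact pow_eq_zero_iff (two_ne_zero) |>.1 (le_antisymm h4 this)
  exact norm_eq_zero.1 h5

/-- the linearised system. -/
noncomputable def IFT_L (s : ℝ) (e ξ η ζ : EE d) : EE d × EE d :=
  (s • IFT_J s e (ξ - η) + s • IFT_J s e (ξ - ζ) + Kc s • ξ,
   -(s • IFT_J s e (ξ - ζ)) - ((2 : ℝ) ^ (-s - 2) * s) • IFT_J s e (η - ζ) + Kc s • ζ)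

theorem IFT_eps_pos (s : ℝ) : 0 < (2 : ℝ) ^ (-s - 2) := Real.rpow_pos_of_pos (by norm_num) _

theorem IFT_eps_le (hs : 0 < s) : (2 : ℝ) ^ (-s - 2) ≤ 1 / 4 := by
  have : (2 : ℝ) ^ (-s - 2) ≤ (2 : ℝ) ^ (-2 : ℝ) :=
    Real.rpow_le_rpow_of_exponent_le (by norm_num) (by linarith)
  have h2 : (2 : ℝ) ^ (-2 : ℝ) = 1 / 4 := by
    rw [Real.rpow_neg (by norm_num)]
    norm_num
  rw [h2] at this
  exact this

theorem IFT_Kc_eq (s : ℝ) : Kc s * (2 : ℝ) ^ (-s - 2) = 4 * s := by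
  unfold Kc
  rw [mul_assoc, ← Real.rpow_add (by norm_num)]
  have : s + 4 + (-s - 2) = (2 : ℕ) := by push_cast; ring
  rw [this, Real.rpow_natCast]
  ring

theorem IFT_Kc_ge (hs : 0 < s) : 16 * s ≤ Kc s := by
  have h1 := IFT_Kc_eq s
  have h2 := IFT_eps_le hs
  have h3 := IFT_eps_pos s
  have hK : 0 < Kc s := by unfold Kc; positivity
  nlinarith

theorem IFT_L0 (hs : 0 < s) {e : EE d} (he : ‖e‖ = 1) {η ζ : EE d}
    (h : IFT_L s e 0 η ζ = 0) : η = 0 ∧ ζ = 0 := by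
  obtain ⟨h1, h2⟩ := Prod.mk.inj h
  have hε := IFT_eps_pos s
  have hε' := IFT_eps_le hs
  have hK := IFT_Kc_ge hs
  have h3 : IFT_J s e (η + ζ) = 0 := by
    have : s • IFT_J s e (η + ζ) = 0 := by
      rw [IFT_J_add]
      simp only [zero_sub, IFT_J_neg, smul_zero, add_zero] at h1
      have : s • (IFT_J s e η + IFT_J s e ζ) = -(s • -IFT_J s e η + s • -IFT_J s e ζ) := by module
      rw [this, h1, neg_zero]
    exact (smul_eq_zero.1 this).resolve_left hs.ne'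
  have h4 : η = -ζ := eq_neg_of_add_eq_zero_left (IFT_J_inj hs he h3)
  subst h4
  have h5 : ((1 + 2 * (2 : ℝ) ^ (-s - 2)) * s) • IFT_J s e ζ + Kc s • ζ = 0 := by
    rw [← h2]
    have : -ζ - ζ = (-2 : ℝ) • ζ := by module
    rw [this, IFT_J_smul, zero_sub, IFT_J_neg]
    module
  have h6 : ζ = 0 := IFT_J_coer hs e (by positivity) (by nlinarith) h5
  simp [h6]

theorem IFT_L1 (hs : 0 < s) {e : EE d} {ξ ζ : EE d}
    (h : IFT_L s e ξ 0 ζ = 0) : ξ = 0 := by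
  obtain ⟨h1, h2⟩ := Prod.mk.inj h
  have hε := IFT_eps_pos s
  have hε' := IFT_eps_le hs
  have hK := IFT_Kc_ge hs
  have e1 : ⟪s • IFT_J s e (ξ - 0) + s • IFT_J s e (ξ - ζ) + Kc s • ξ, ξ⟫ = 0 := by
    rw [h1]; exact inner_zero_left _
  have e2 : ⟪-(s • IFT_J s e (ξ - ζ)) - ((2 : ℝ) ^ (-s - 2) * s) • IFT_J s e (0 - ζ) + Kc s • ζ, ζ⟫
      = 0 := by
    rw [h2]; exact inner_zero_left _
  simp only [sub_zero, zero_sub, IFT_J_neg, inner_add_left, inner_sub_left, inner_neg_left,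
    inner_smul_left, real_inner_self_eq_norm_sq, RCLike.conj_to_real] at e1 e2
  have j1 := IFT_J_inner_ge hs e ξ
  have j2 := IFT_J_inner_ge hs e ζ
  have j3 := IFT_J_inner_ge hs e (ξ - ζ)
  rw [inner_sub_right] at j3
  have n1 : ‖ξ - ζ‖ ^ 2 ≤ 2 * ‖ξ‖ ^ 2 + 2 * ‖ζ‖ ^ 2 := by
    have := parallelogram_law_with_norm ℝ ξ ζ
    nlinarith [sq_nonneg ‖ξ + ζ‖]
  have hfin : (Kc s - 3 * s) * ‖ξ‖ ^ 2 + (Kc s - 2 * s - (2 : ℝ) ^ (-s - 2) * s) * ‖ζ‖ ^ 2 ≤ 0 := by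
    have m1 := mul_le_mul_of_nonneg_left j1 hs.le
    have m2 := mul_le_mul_of_nonneg_left j2 (mul_pos hε hs).le
    have m3 := mul_le_mul_of_nonneg_left j3 hs.le
    have m4 := mul_le_mul_of_nonneg_left n1 hs.le
    linarith
  have hz : 0 ≤ (Kc s - 2 * s - (2 : ℝ) ^ (-s - 2) * s) * ‖ζ‖ ^ 2 := by
    apply mul_nonneg _ (sq_nonneg _)
    nlinarith
  have hx : ‖ξ‖ ^ 2 ≤ 0 := by
    by_contra hcon
    push Not at hcon
    have : 0 < (Kc s - 3 * s) * ‖ξ‖ ^ 2 := mul_pos (by linarith) hcon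
    linarith
  have h5 : ‖ξ‖ = 0 := pow_eq_zero_iff (two_ne_zero) |>.1 (le_antisymm hx (sq_nonneg _))
  exact norm_eq_zero.1 h5

theorem IFT_L2 (hs : 0 < s) {e : EE d} (he : ‖e‖ = 1) {ξ η : EE d}
    (h : IFT_L s e ξ η 0 = 0) : ξ = 0 := by
  obtain ⟨h1, h2⟩ := Prod.mk.inj h
  have hε := IFT_eps_pos s
  have hε' := IFT_eps_le hs
  have hK := IFT_Kc_ge hs
  have hKε := IFT_Kc_eq s
  set ε := (2 : ℝ) ^ (-s - 2) with hεdef
  have h3 : IFT_J s e (ξ + ε • η) = 0 := by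
    have : s • IFT_J s e (ξ + ε • η) = 0 := by
      rw [IFT_J_add, IFT_J_smul]
      simp only [sub_zero, smul_zero, add_zero] at h2
      have : s • (IFT_J s e ξ + ε • IFT_J s e η)
          = -(-(s • IFT_J s e ξ) - (ε * s) • IFT_J s e η) := by module
      rw [this, h2, neg_zero]
    exact (smul_eq_zero.1 this).resolve_left hs.ne'
  have h4 : ξ = -(ε • η) := eq_neg_of_add_eq_zero_left (IFT_J_inj hs he h3)
  -- multiply the first equation by ε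
  have h5 : ((2 * ε + 1) * s) • IFT_J s e ξ + (ε * Kc s) • ξ = 0 := by
    have : ((2 * ε + 1) * s) • IFT_J s e ξ + (ε * Kc s) • ξ
        = ε • (s • IFT_J s e (ξ - η) + s • IFT_J s e (ξ - 0) + Kc s • ξ)
          + s • IFT_J s e (ξ + ε • η) := by
      rw [IFT_J_sub, IFT_J_add, IFT_J_smul, sub_zero]
      module
    rw [this, h1, h3, smul_zero, smul_zero, add_zero]
  exact IFT_J_coer hs e (by positivity) (by nlinarith) h5

end Crest.Agent.S0175
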