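import Crest.Statements.S0223

set_option autoImplicit false
open Crest Crest.ProbabilityR

namespace Crest.Agent.S0223

open Crest.ProbabilityR.Shuffle

theorem stepPos_injective (m : ℕ) (c : Fin m → Bool) : Function.Injective (stepPos m c) := by
  intro x y h
  have hx := x.isLt
  have hy := y.isLt
  have hm : 0 < m := by omega
  have h' : 2 * (x.val % m) +
      (if xor (decide (m ≤ x.val)) (c ⟨x.val % m, Nat.mod_lt _ hm⟩) then 1 else 0) =
      2 * (y.val % m) +
      (if xor (decide (m ≤ y.val)) (c ⟨y.val % m, Nat.mod_lt _ hm⟩) then 1 else 0) :=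
    congrArg Fin.val h
  have hmod : x.val % m = y.val % m := by
    split_ifs at h' <;> omega
  have hc : c ⟨x.val % m, Nat.mod_lt _ hm⟩ = c ⟨y.val % m, Nat.mod_lt _ hm⟩ :=
    congrArg c (Fin.ext hmod)
  rw [hc, hmod] at h'
  apply Fin.ext
  rcases lt_or_ge x.val m with hxm | hxm <;> rcases lt_or_ge y.val m with hym | hym
  · rw [Nat.mod_eq_of_lt hxm, Nat.mod_eq_of_lt hym] at hmod
    exact hmod
  · exfalso
    have h1 : decide (m ≤ x.val) = false := by simp; omega
    have h2 : decide (m ≤ y.val) = true := by simp; omega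
    rw [h1, h2] at h'
    cases hcv : c ⟨y.val % m, Nat.mod_lt _ hm⟩ <;> simp [hcv] at h'
  · exfalso
    have h1 : decide (m ≤ x.val) = true := by simp; omega
    have h2 : decide (m ≤ y.val) = false := by simp; omega
    rw [h1, h2] at h'
    cases hcv : c ⟨y.val % m, Nat.mod_lt _ hm⟩ <;> simp [hcv] at h'
  · have e1 : x.val % m = x.val - m := by
      rw [Nat.mod_eq_sub_mod hxm, Nat.mod_eq_of_lt (by omega)]
    have e2 : y.val % m = y.val - m := by
      rw [Nat.mod_eq_sub_mod hym, Nat.mod_eq_of_lt (by omega)]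
    omega

theorem iterPos_injective (m : ℕ) : ∀ (t : ℕ) (cs : Fin t → Fin m → Bool),
    Function.Injective (iterPos m t cs)
  | 0, _ => fun _ _ h => h
  | t + 1, cs => by
      intro x y h
      have h2 : stepPos m (cs (Fin.last t)) (iterPos m t (fun i => cs i.castSucc) x) =
          stepPos m (cs (Fin.last t)) (iterPos m t (fun i => cs i.castSucc) y) := h
      exact iterPos_injective m t _ (stepPos_injective m _ h2)

theorem iterPos_bijective (m t : ℕ) (cs : Fin t → Fin m → Bool) :
    Function.Bijective (iterPos m t cs) :=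
  Finite.injective_iff_bijective.mp (iterPos_injective m t cs)

/-- the permutation realised by a bit table -/
noncomputable def toPerm (m t : ℕ) (cs : Fin t → Fin m → Bool) : Equiv.Perm (Fin (2 * m)) :=
  Equiv.ofBijective (iterPos m t cs) (iterPos_bijective m t cs)

theorem toPerm_eq_iff (m t : ℕ) (cs : Fin t → Fin m → Bool) (g : Equiv.Perm (Fin (2 * m))) :
    iterPos m t cs = ⇑g ↔ toPerm m t cs = g := by
  constructor
  · intro h
    apply Equiv.ext
    intro x
    simp [toPerm, h]
  · intro h
    rw [← h]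
    rfl

theorem tv_lower (m t : ℕ) :
    1 - (2 : ℝ) ^ (m * t) / ((2 * m).factorial : ℝ) ≤ tvFromUniform m t := by
  classical
  set F : ℝ := ((2 * m).factorial : ℝ) with hF
  have hFpos : 0 < F := by
    rw [hF]; exact_mod_cast Nat.factorial_pos _
  have hcardΩ : (Fintype.card (Fin t → Fin m → Bool) : ℝ) = (2 : ℝ) ^ (m * t) := by
    simp [pow_mul]
  set W : ℝ := (2 : ℝ) ^ (m * t) with hW
  have hWpos : 0 < W := by rw [hW]; positivity
  -- counts
  let cnt : Equiv.Perm (Fin (2 * m)) → ℕ := fun g =>
    (Finset.univ.filter (fun cs : Fin t → Fin m → Bool => toPerm m t cs = g)).card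
  have hprob : ∀ g : Equiv.Perm (Fin (2 * m)),
      Crest.FinProb.uniformProb {cs : Fin t → Fin m → Bool | iterPos m t cs = ⇑g}
        = (cnt g : ℝ) / W := by
    intro g
    unfold Crest.FinProb.uniformProb
    rw [hcardΩ]
    congr 2
    apply congrArg Finset.card
    ext cs
    simp [toPerm_eq_iff]
  have hsum : (∑ g : Equiv.Perm (Fin (2 * m)), (cnt g : ℝ)) = W := by
    have h1 : (Finset.univ : Finset (Fin t → Fin m → Bool)).card
        = ∑ g : Equiv.Perm (Fin (2 * m)), cnt g :=
      Finset.card_eq_sum_card_fiberwise (f := toPerm m t) (s := Finset.univ) (t := Finset.univ)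
        (fun _ _ => Finset.mem_coe.mpr (Finset.mem_univ _))
    rw [← hcardΩ, ← Finset.card_univ, h1]
    push_cast
    rfl
  have hcardG : ((Finset.univ : Finset (Equiv.Perm (Fin (2 * m)))).card : ℝ) = F := by
    rw [Finset.card_univ, Fintype.card_perm, Fintype.card_fin]
  have hterm : ∀ g : Equiv.Perm (Fin (2 * m)),
      (cnt g : ℝ) / W + 1 / F - 2 * (1 / F) * (cnt g : ℝ) ≤ |(cnt g : ℝ) / W - 1 / F| := by
    intro g
    have hu : 0 < 1 / F := by positivity
    rcases Nat.eq_zero_or_pos (cnt g) with h0 | h0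
    · rw [h0]
      simp only [Nat.cast_zero, zero_div, zero_add, mul_zero, sub_zero, zero_sub, abs_neg]
      exact le_abs_self _
    · have h1 : (1 : ℝ) ≤ (cnt g : ℝ) := by exact_mod_cast h0
      calc (cnt g : ℝ) / W + 1 / F - 2 * (1 / F) * (cnt g : ℝ)
          ≤ (cnt g : ℝ) / W - 1 / F := by nlinarith
        _ ≤ _ := le_abs_self _
  unfold tvFromUniform
  simp_rw [hprob]
  have hS : (∑ g : Equiv.Perm (Fin (2 * m)),
      ((cnt g : ℝ) / W + 1 / F - 2 * (1 / F) * (cnt g : ℝ))) = 2 - 2 * (W / F) := by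
    rw [Finset.sum_sub_distrib, Finset.sum_add_distrib, ← Finset.sum_div, ← Finset.mul_sum, hsum,
      Finset.sum_const, nsmul_eq_mul, hcardG]
    field_simp
    ring
  have hle := Finset.sum_le_sum (fun g (_ : g ∈ (Finset.univ : Finset (Equiv.Perm (Fin (2 * m))))) => hterm g)
  rw [hS] at hle
  linarith

/-- For a deck of `2 * 2 ^ d` cards and every number `t` of shuffles, the total variation distance between the law of the arrangement of the deck and the uniform law on all arrangements is at least `1 - 2 ^ (2 ^ d * t) / (2 * 2 ^ d)!`. -/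
theorem result (d t : ℕ) :
    1 - (2 : ℝ) ^ (2 ^ d * t) / ((2 * 2 ^ d).factorial : ℝ)
      ≤ Crest.ProbabilityR.Shuffle.tvFromUniform (2 ^ d) t := by
  exact tv_lower (2 ^ d) t

end Crest.Agent.S0223
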