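import Mathlib

/-!
Row 211 (S0324..S0329), package W4b: the area-sum estimate for one fan of the explicit cover.
Pure real analysis; no geometry.
-/

set_option autoImplicit false

namespace Crest.Agent.S0324.AreaSum

open Set Finset

noncomputable section

/-- the small parameter of the explicit cover -/
def c0 : ℝ := 1 / 250
/-- the safety margin in the radius function -/
def kap : ℝ := 1 / 1000
/-- the radius function of a fan -/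
def Rf (t : ℝ) : ℝ := 1 / 2 + c0 ^ 2 * ((t ^ 2 + t ^ 4) / 16 + kap)
/-- `‖w t‖ ^ 2` for `w t = (c0 t / 2) a + (c0 (t^2+1) / 4) b`, `‖a‖^2 = 2`, `‖b‖ = 1`, `a ⊥ b` -/
def wsq (t : ℝ) : ℝ := c0 ^ 2 * (t ^ 2 / 2 + (t ^ 2 + 1) ^ 2 / 16)
/-- an upper bound of `Rf` on a sector of width `d` containing `c` -/
def rmax (c d : ℝ) : ℝ := Rf c + 3 / 8 * c0 ^ 2 * d

lemma wsq_nonneg (t : ℝ) : 0 ≤ wsq t := by unfold wsq; positivity

lemma Rf_pos (t : ℝ) : 0 < Rf t := by unfold Rf c0 kap; positivity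

lemma rmax_nonneg (c d : ℝ) (hd : 0 ≤ d) : 0 ≤ rmax c d := by
  unfold rmax
  have := Rf_pos c
  have : 0 ≤ 3 / 8 * c0 ^ 2 * d := by unfold c0; positivity
  linarith

/-- `Rf` is `3/8 c0^2`-Lipschitz on `[-1,1]`. -/
lemma Rf_le_rmax (c τ d : ℝ) (hc : |c| ≤ 1) (hτ : |τ| ≤ 1) (hd : |τ - c| ≤ d) :
    Rf τ ≤ rmax c d := by
  unfold rmax Rf
  have hc' := abs_le.1 hc
  have hτ' := abs_le.1 hτ
  have key : (τ ^ 2 + τ ^ 4) - (c ^ 2 + c ^ 4) ≤ 6 * |τ - c| := by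
    have e : (τ ^ 2 + τ ^ 4) - (c ^ 2 + c ^ 4) = (τ - c) * ((τ + c) * (1 + τ ^ 2 + c ^ 2)) := by ring
    rw [e]
    have h1 : |(τ + c) * (1 + τ ^ 2 + c ^ 2)| ≤ 6 := by
      rw [abs_mul]
      have a1 : |τ + c| ≤ 2 := by
        rw [abs_le]; constructor <;> linarith [hc'.1, hc'.2, hτ'.1, hτ'.2]
      have a2 : |1 + τ ^ 2 + c ^ 2| ≤ 3 := by
        rw [abs_le]; constructor <;> nlinarith [hc'.1, hc'.2, hτ'.1, hτ'.2]
      calc |τ + c| * |1 + τ ^ 2 + c ^ 2| ≤ 2 * 3 :=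
            mul_le_mul a1 a2 (abs_nonneg _) (by norm_num)
        _ = 6 := by norm_num
    calc (τ - c) * ((τ + c) * (1 + τ ^ 2 + c ^ 2))
        ≤ |(τ - c) * ((τ + c) * (1 + τ ^ 2 + c ^ 2))| := le_abs_self _
      _ = |τ - c| * |(τ + c) * (1 + τ ^ 2 + c ^ 2)| := abs_mul _ _
      _ ≤ |τ - c| * 6 := mul_le_mul_of_nonneg_left h1 (abs_nonneg _)
      _ = 6 * |τ - c| := by ring
  have hc0 : (0:ℝ) ≤ c0 ^ 2 := by positivity
  nlinarith [mul_le_mul_of_nonneg_left (key.trans (mul_le_mul_of_nonneg_left hd (by norm_num : (0:ℝ) ≤ 6))) hc0]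

/-- `1/√(1+X) ≤ 1 - X/2 + 3X²/8` for `X ≥ 0`. -/
lemma inv_sqrt_le (X : ℝ) (hX : 0 ≤ X) :
    1 / Real.sqrt (1 + X) ≤ 1 - X / 2 + 3 * X ^ 2 / 8 := by
  have hs2 : Real.sqrt (1 + X) ^ 2 = 1 + X := Real.sq_sqrt (by linarith)
  have hs1 : 1 ≤ Real.sqrt (1 + X) := Real.one_le_sqrt.2 (by linarith)
  generalize Real.sqrt (1 + X) = s at hs2 hs1 ⊢
  have hX' : X = s ^ 2 - 1 := by linarith
  rw [div_le_iff₀ (by linarith), hX']
  obtain ⟨u, hu, rfl⟩ : ∃ u, 0 ≤ u ∧ s = 1 + u := ⟨s - 1, by linarith, by ring⟩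
  have : (1 - ((1 + u) ^ 2 - 1) / 2 + 3 * ((1 + u) ^ 2 - 1) ^ 2 / 8) * (1 + u) - 1
      = 5 / 2 * u ^ 3 + 15 / 8 * u ^ 4 + 3 / 8 * u ^ 5 := by ring
  have h2 : 0 ≤ 5 / 2 * u ^ 3 + 15 / 8 * u ^ 4 + 3 / 8 * u ^ 5 := by positivity
  linarith

/-- the main polynomial part of the integrand -/
def psi (t : ℝ) : ℝ := 7 * t ^ 4 / 128 - t ^ 2 / 64
/-- its antiderivative -/
def Psi (t : ℝ) : ℝ := 7 * t ^ 5 / 640 - t ^ 3 / 192

/-- algebraic core of the pointwise bound; `y = al/62500`, `x = xi/62500`. -/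
lemma core (y x de : ℝ) (hy0 : 0 ≤ y) (hy1 : y ≤ 21 / 10 ^ 7) (hx0 : 0 ≤ x)
    (hx1 : x ≤ 12 / 10 ^ 6) (hde0 : 0 ≤ de) (hde1 : de ≤ 5003 / 10 ^ 12) :
    (1 / 2) * (1 / 2 + y + de) ^ 2 * (1 - x / 2 + 3 * x ^ 2 / 8) ≤
      1 / 8 + (y / 2 - x / 16) + 26 / 10 ^ 10 := by
  have hq : y ^ 2 ≤ 5 / 10 ^ 12 := by
    calc y ^ 2 ≤ (21 / 10 ^ 7) ^ 2 := by gcongr
      _ ≤ 5 / 10 ^ 12 := by norm_num
  have hcross : 2 * (1 / 2 + y) * de ≤ 50031 / 10 ^ 13 := by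
    have h1 : 2 * (1 / 2 + y) ≤ 2 * (1 / 2 + 21 / 10 ^ 7) := by gcongr
    calc 2 * (1 / 2 + y) * de ≤ 2 * (1 / 2 + 21 / 10 ^ 7) * (5003 / 10 ^ 12) :=
          mul_le_mul h1 hde1 hde0 (by norm_num)
      _ ≤ 50031 / 10 ^ 13 := by norm_num
  have hde2 : de ^ 2 ≤ 1 / 10 ^ 15 := by
    calc de ^ 2 ≤ (5003 / 10 ^ 12) ^ 2 := by gcongr
      _ ≤ 1 / 10 ^ 15 := by norm_num
  obtain ⟨A, hA⟩ : ∃ A, A = y + y ^ 2 + 2 * (1 / 2 + y) * de + de ^ 2 := ⟨_, rfl⟩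
  have hA0 : 0 ≤ A := by rw [hA]; positivity
  have hA1 : A ≤ y + 5009 / 10 ^ 12 := by rw [hA]; linarith
  have hA2 : A ≤ 1 / 4 := by linarith
  have hX2 : x ^ 2 ≤ 2 / 10 ^ 10 := by
    calc x ^ 2 ≤ (12 / 10 ^ 6) ^ 2 := by gcongr
      _ ≤ 2 / 10 ^ 10 := by norm_num
  have hsq : (1 / 2 + y + de) ^ 2 = 1 / 4 + A := by rw [hA]; ring
  rw [hsq]
  have hAX : 0 ≤ A * x := by positivity
  have hlast : (1 / 4 + A) * x ^ 2 ≤ 1 / 2 * (2 / 10 ^ 10) :=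
    mul_le_mul (by linarith) hX2 (by positivity) (by norm_num)
  have expand : (1 / 2) * (1 / 4 + A) * (1 - x / 2 + 3 * x ^ 2 / 8)
      = 1 / 8 + A / 2 - x / 16 - A * x / 4 + 3 / 16 * ((1 / 4 + A) * x ^ 2) := by ring
  rw [expand]
  linarith

/-- pointwise bound of the summand -/
lemma term_le (t d : ℝ) (ht : |t| ≤ 1) (hd0 : 0 ≤ d) (hd : d ≤ 1 / 2000000) :
    (1 / 2) * (rmax t d + 5 * 1 * (c0 / 2) * d) ^ 2 / Real.sqrt (1 + wsq t) ≤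
      1 / 8 + c0 ^ 2 / 2 * (kap - 1 / 128 + psi t) + 26 / 10 ^ 10 := by
  have hX := wsq_nonneg t
  have hB := inv_sqrt_le (wsq t) hX
  have ht' := abs_le.1 ht
  have hs0 : 0 ≤ t ^ 2 := sq_nonneg t
  have hs1 : t ^ 2 ≤ 1 := by nlinarith [ht'.1, ht'.2]
  have hs2 : t ^ 4 ≤ 1 := by nlinarith
  have hs3 : 0 ≤ t ^ 4 := by positivity
  have hr0 : 0 ≤ (1 / 2) * (rmax t d + 5 * 1 * (c0 / 2) * d) ^ 2 := by positivity
  have step1 : (1 / 2) * (rmax t d + 5 * 1 * (c0 / 2) * d) ^ 2 / Real.sqrt (1 + wsq t) ≤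
      (1 / 2) * (rmax t d + 5 * 1 * (c0 / 2) * d) ^ 2 * (1 - wsq t / 2 + 3 * wsq t ^ 2 / 8) := by
    rw [div_eq_mul_one_div]
    exact mul_le_mul_of_nonneg_left hB hr0
  refine step1.trans ?_
  have hr : rmax t d + 5 * 1 * (c0 / 2) * d
      = 1 / 2 + ((t ^ 2 + t ^ 4) / 16 + 1 / 1000) / 62500
        + (3 / 8 * (1 / 62500) + 5 / 2 * (1 / 250)) * d := by
    unfold rmax Rf c0 kap; ring
  have hc := core (((t ^ 2 + t ^ 4) / 16 + 1 / 1000) / 62500) (wsq t)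
    ((3 / 8 * (1 / 62500) + 5 / 2 * (1 / 250)) * d) (by positivity)
    (by linarith) hX (by unfold wsq c0; nlinarith) (by positivity) (by linarith)
  rw [hr]
  refine hc.trans (le_of_eq ?_)
  unfold wsq psi c0 kap
  ring

lemma hasDerivAt_Psi (x : ℝ) : HasDerivAt Psi (psi x) x := by
  have h5 := ((hasDerivAt_pow 5 x).const_mul (7 : ℝ)).div_const 640
  have h3 := (hasDerivAt_pow 3 x).div_const 192
  have h := h5.sub h3
  have e : 7 * (((5 : ℕ) : ℝ) * x ^ (5 - 1)) / 640 - ((3 : ℕ) : ℝ) * x ^ (3 - 1) / 192 = psi x := by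
    unfold psi; norm_num; ring
  rw [e] at h
  exact h

lemma psi_lip (x c : ℝ) (hx : |x| ≤ 1) (hc : |c| ≤ 1) : psi c - psi x ≤ 1 / 4 * |x - c| := by
  have hx' := abs_le.1 hx
  have hc' := abs_le.1 hc
  have e : psi c - psi x = (x - c) * (-((x + c) * (7 * (x ^ 2 + c ^ 2) / 128 - 1 / 64))) := by
    unfold psi; ring
  rw [e]
  have h1 : |-((x + c) * (7 * (x ^ 2 + c ^ 2) / 128 - 1 / 64))| ≤ 1 / 4 := by
    rw [abs_neg, abs_mul]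
    have a1 : |x + c| ≤ 2 := by
      rw [abs_le]; constructor <;> linarith [hc'.1, hc'.2, hx'.1, hx'.2]
    have a2 : |7 * (x ^ 2 + c ^ 2) / 128 - 1 / 64| ≤ 1 / 8 := by
      rw [abs_le]; constructor <;> nlinarith [hc'.1, hc'.2, hx'.1, hx'.2]
    calc |x + c| * |7 * (x ^ 2 + c ^ 2) / 128 - 1 / 64| ≤ 2 * (1 / 8) :=
          mul_le_mul a1 a2 (abs_nonneg _) (by norm_num)
      _ = 1 / 4 := by norm_num
  calc (x - c) * (-((x + c) * (7 * (x ^ 2 + c ^ 2) / 128 - 1 / 64)))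
      ≤ |(x - c) * (-((x + c) * (7 * (x ^ 2 + c ^ 2) / 128 - 1 / 64)))| := le_abs_self _
    _ = |x - c| * |-((x + c) * (7 * (x ^ 2 + c ^ 2) / 128 - 1 / 64))| := abs_mul _ _
    _ ≤ |x - c| * (1 / 4) := mul_le_mul_of_nonneg_left h1 (abs_nonneg _)
    _ = 1 / 4 * |x - c| := by ring

/-- one step of the Riemann-sum comparison -/
lemma psi_step (t0 t1 c : ℝ) (h0 : -1 ≤ t0) (h01 : t0 < t1) (h1 : t1 ≤ 1) (hc : c ∈ Icc t0 t1) :
    (t1 - t0) * psi c ≤ Psi t1 - Psi t0 + 1 / 4 * (t1 - t0) ^ 2 := by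
  obtain ⟨x, hx, hxe⟩ := exists_hasDerivAt_eq_slope Psi psi h01
    (fun y _ => (hasDerivAt_Psi y).continuousAt.continuousWithinAt)
    (fun y _ => hasDerivAt_Psi y)
  have hd : 0 < t1 - t0 := sub_pos.2 h01
  have hsl : Psi t1 - Psi t0 = psi x * (t1 - t0) := by
    rw [hxe]; field_simp
  have hxa : |x| ≤ 1 := abs_le.2 ⟨by linarith [hx.1], by linarith [hx.2]⟩
  have hca : |c| ≤ 1 := abs_le.2 ⟨by linarith [hc.1], by linarith [hc.2]⟩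
  have hl := psi_lip x c hxa hca
  have hxc : |x - c| ≤ t1 - t0 := by
    rw [abs_le]; constructor <;> linarith [hx.1, hx.2, hc.1, hc.2]
  rw [hsl]
  nlinarith

/-- **W4b.** The sum of the areas (divided by `√(gram a b) = √2`) of the `N` outer sector
triangles of one fan. -/
theorem area_sum_le (N : ℕ) (hN : 4000000 ≤ N) (c : Fin N → ℝ)
    (hc : ∀ i : Fin N, c i ∈ Icc (-1 + (i : ℝ) * (2 / N)) (-1 + ((i : ℝ) + 1) * (2 / N))) :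
    ∑ i, ((2 / (N : ℝ)) / 2) * (rmax (c i) (2 / N) + 5 * 1 * (c0 / 2) * (2 / N)) ^ 2
        / Real.sqrt (1 + wsq (c i)) ≤ 1 / 4 - 1 / 10 ^ 8 := by
  have hN0 : (0 : ℝ) < N := by
    have : 0 < N := by omega
    exact_mod_cast this
  have hNr : (4000000 : ℝ) ≤ N := by exact_mod_cast hN
  obtain ⟨d, hd⟩ : ∃ d : ℝ, d = 2 / N := ⟨_, rfl⟩
  have hd0 : 0 < d := by rw [hd]; positivity
  have hd1 : d ≤ 1 / 2000000 := by
    rw [hd, div_le_iff₀ hN0]; linarith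
  have hNd : (N : ℝ) * d = 2 := by rw [hd]; field_simp
  rw [← hd] at hc ⊢
  -- the partition points
  have hτ0 : ∀ i : Fin N, -1 ≤ -1 + (i : ℝ) * d := fun i => by
    have : 0 ≤ (i : ℝ) * d := by positivity
    linarith
  have hτ1 : ∀ i : Fin N, -1 + ((i : ℝ) + 1) * d ≤ 1 := fun i => by
    have h : ((i : ℕ) : ℝ) + 1 ≤ N := by exact_mod_cast i.2
    have : ((i : ℝ) + 1) * d ≤ N * d := mul_le_mul_of_nonneg_right h hd0.le
    linarith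
  have hca : ∀ i : Fin N, |c i| ≤ 1 := fun i =>
    abs_le.2 ⟨(hτ0 i).trans (hc i).1, (hc i).2.trans (hτ1 i)⟩
  -- termwise
  have hterm : ∀ i : Fin N, (d / 2) * (rmax (c i) d + 5 * 1 * (c0 / 2) * d) ^ 2
        / Real.sqrt (1 + wsq (c i)) ≤
      d * (1 / 8 + c0 ^ 2 / 2 * (kap - 1 / 128) + 26 / 10 ^ 10) + c0 ^ 2 / 2 * (1 / 4 * d ^ 2)
        + c0 ^ 2 / 2 * (Psi (-1 + (((i : ℕ) + 1 : ℕ) : ℝ) * d) - Psi (-1 + ((i : ℕ) : ℝ) * d)) := by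
    intro i
    have h1 := term_le (c i) d (hca i) hd0.le hd1
    have h2 := psi_step (-1 + (i : ℝ) * d) (-1 + ((i : ℝ) + 1) * d) (c i) (hτ0 i)
      (by nlinarith) (hτ1 i) (hc i)
    have e1 : (-1 + ((i : ℝ) + 1) * d) - (-1 + (i : ℝ) * d) = d := by ring
    rw [e1] at h2
    have e2 : (d / 2) * (rmax (c i) d + 5 * 1 * (c0 / 2) * d) ^ 2 / Real.sqrt (1 + wsq (c i))
        = d * ((1 / 2) * (rmax (c i) d + 5 * 1 * (c0 / 2) * d) ^ 2 / Real.sqrt (1 + wsq (c i))) := by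
      ring
    rw [e2]
    have h3 := mul_le_mul_of_nonneg_left h1 hd0.le
    have hc02 : (0 : ℝ) ≤ c0 ^ 2 / 2 := by positivity
    have h4 := mul_le_mul_of_nonneg_left h2 hc02
    push_cast
    nlinarith
  refine (Finset.sum_le_sum fun i _ => hterm i).trans ?_
  rw [Finset.sum_add_distrib, Finset.sum_const, ← Finset.mul_sum,
    Fin.sum_univ_eq_sum_range
      (fun i : ℕ => Psi (-1 + ((i + 1 : ℕ) : ℝ) * d) - Psi (-1 + (i : ℝ) * d)) N,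
    Finset.sum_range_sub (fun i : ℕ => Psi (-1 + (i : ℝ) * d)) N]
  simp only [Finset.card_univ, Fintype.card_fin, nsmul_eq_mul, Nat.cast_zero, zero_mul, add_zero]
  rw [hNd]
  have e3 : (N : ℝ) * (d * (1 / 8 + c0 ^ 2 / 2 * (kap - 1 / 128) + 26 / 10 ^ 10)
        + c0 ^ 2 / 2 * (1 / 4 * d ^ 2))
      = 2 * (1 / 8 + c0 ^ 2 / 2 * (kap - 1 / 128) + 26 / 10 ^ 10)
        + c0 ^ 2 / 2 * (1 / 4 * (2 * d)) := by
    have : (N : ℝ) * (d * (1 / 8 + c0 ^ 2 / 2 * (kap - 1 / 128) + 26 / 10 ^ 10)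
        + c0 ^ 2 / 2 * (1 / 4 * d ^ 2))
      = (N * d) * (1 / 8 + c0 ^ 2 / 2 * (kap - 1 / 128) + 26 / 10 ^ 10)
        + c0 ^ 2 / 2 * (1 / 4 * ((N * d) * d)) := by ring
    rw [this, hNd]
  rw [e3]
  unfold Psi c0 kap
  norm_num
  linarith

end

end Crest.Agent.S0324.AreaSum
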