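import Mathlib

/-!
# Area toolkit for row 211 (S0324 .. S0329)

`μHE[2]` of triangles / parallelograms / linear images in `EuclideanSpace ℝ (Fin 3)`.
-/

set_option autoImplicit false
set_option linter.deprecated false
set_option linter.unusedSimpArgs false
open MeasureTheory Measure

namespace Crest.Agent.S0324

abbrev E2 := EuclideanSpace ℝ (Fin 2)
abbrev E3 := EuclideanSpace ℝ (Fin 3)

/-- Gram determinant of two vectors (squared area of the parallelogram they span). -/
noncomputable def gram {E : Type*} [NormedAddCommGroup E] [InnerProductSpace ℝ E] (a b : E) : ℝ :=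
  ‖a‖ ^ 2 * ‖b‖ ^ 2 - inner ℝ a b ^ 2

/-- orthogonal projection along a (nonzero) vector `d` -/
noncomputable def proj {E : Type*} [NormedAddCommGroup E] [InnerProductSpace ℝ E] (d y : E) : E :=
  y - (inner ℝ y d / ‖d‖ ^ 2) • d

/-- planar determinant -/
def det2 (x y : E2) : ℝ := x 0 * y 1 - x 1 * y 0

theorem gram_nonneg {E : Type*} [NormedAddCommGroup E] [InnerProductSpace ℝ E] (a b : E) :
    0 ≤ gram a b := by
  unfold gram
  have h := abs_real_inner_le_norm a b
  have h2 : inner ℝ a b ^ 2 ≤ (‖a‖ * ‖b‖) ^ 2 := by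
    rw [← sq_abs]
    exact pow_le_pow_left₀ (abs_nonneg _) h 2
  nlinarith [h2]

theorem gram_lincomb {E : Type*} [NormedAddCommGroup E] [InnerProductSpace ℝ E] (a b : E)
    (x y z w : ℝ) : gram (x • a + y • b) (z • a + w • b) = (x * w - y * z) ^ 2 * gram a b := by
  unfold gram
  have h1 : ∀ x y : ℝ, ‖x • a + y • b‖ ^ 2 = x ^ 2 * ‖a‖ ^ 2 + 2 * x * y * inner ℝ a b + y ^ 2 * ‖b‖ ^ 2 := by
    intro x y
    rw [norm_add_sq_real, norm_smul, norm_smul, inner_smul_left, inner_smul_right]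
    simp only [Real.norm_eq_abs, mul_pow, sq_abs]
    simp
    ring
  have h2 : inner ℝ (x • a + y • b) (z • a + w • b) = x * z * ‖a‖ ^ 2 + (x * w + y * z) * inner ℝ a b + y * w * ‖b‖ ^ 2 := by
    simp only [inner_add_left, inner_add_right, inner_smul_left, inner_smul_right, real_inner_self_eq_norm_sq]
    rw [real_inner_comm a b]
    simp
    ring
  rw [h1, h1, h2]
  ring

theorem exists_plane_isometry (n : E3) (hn : ‖n‖ = 1) :
    ∃ ι : E2 →ₗᵢ[ℝ] E3, (∀ x, inner ℝ (ι x) n = 0) ∧ ∀ y, inner ℝ y n = 0 → y ∈ Set.range ι := by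
  have hn0 : n ≠ 0 := by
    intro h; rw [h] at hn; simp at hn
  have : Fact (Module.finrank ℝ E3 = 1 + 1 + 1) := ⟨by simp⟩
  have hfin : Module.finrank ℝ (Submodule.span ℝ {n})ᗮ = 2 := by
    have := Submodule.finrank_orthogonal_span_singleton (𝕜 := ℝ) (E := E3) (n := 2) hn0
    exact this
  let B : OrthonormalBasis (Fin 2) ℝ (Submodule.span ℝ {n})ᗮ :=
    (stdOrthonormalBasis ℝ (Submodule.span ℝ {n})ᗮ).reindex (finCongr hfin)
  refine ⟨(Submodule.span ℝ {n})ᗮ.subtypeₗᵢ.comp B.repr.symm.toLinearIsometry, ?_, ?_⟩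
  · intro x
    have := (B.repr.symm x).2
    rw [Submodule.mem_orthogonal_singleton_iff_inner_left] at this
    simpa using this
  · intro y hy
    have hy' : y ∈ (Submodule.span ℝ {n})ᗮ := by
      rw [Submodule.mem_orthogonal_singleton_iff_inner_left]; exact hy
    refine ⟨B.repr ⟨y, hy'⟩, ?_⟩
    simp

theorem gram_isometry {E F : Type*} [NormedAddCommGroup E] [InnerProductSpace ℝ E]
    [NormedAddCommGroup F] [InnerProductSpace ℝ F] (ι : E →ₗᵢ[ℝ] F) (a b : E) :
    gram (ι a) (ι b) = gram a b := by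
  unfold gram
  rw [ι.norm_map, ι.norm_map, ι.inner_map_map]

theorem gram_eq_det2_sq (x y : E2) : gram x y = det2 x y ^ 2 := by
  unfold gram det2
  rw [EuclideanSpace.norm_sq_eq, EuclideanSpace.norm_sq_eq]
  simp only [PiLp.inner_apply, Fin.sum_univ_two, Real.norm_eq_abs, sq_abs]
  simp
  ring

theorem det_eq_det2 (S : E2 →ₗ[ℝ] E2) :
    LinearMap.det S = det2 (S (EuclideanSpace.single 0 1)) (S (EuclideanSpace.single 1 1)) := by
  rw [← LinearMap.det_toMatrix (EuclideanSpace.basisFun (Fin 2) ℝ).toBasis S, Matrix.det_fin_two]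
  simp [LinearMap.toMatrix_apply, det2]
  ring

/-- volume of a linear image in the plane -/
theorem volume_linear_image (S : E2 →ₗ[ℝ] E2) (s : Set E2) :
    volume (S '' s) = ENNReal.ofReal (Real.sqrt (gram (S (EuclideanSpace.single 0 1)) (S (EuclideanSpace.single 1 1)))) * volume s := by
  rw [Measure.addHaar_image_linearMap, gram_eq_det2_sq, Real.sqrt_sq_eq_abs, det_eq_det2]

theorem exists_unit_perp (a b : E3) : ∃ n : E3, ‖n‖ = 1 ∧ inner ℝ a n = 0 ∧ inner ℝ b n = 0 := by
  set W : Submodule ℝ E3 := Submodule.span ℝ {a, b} with hW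
  have h1 : Module.finrank ℝ W ≤ 2 := by
    have := finrank_span_le_card (R := ℝ) ({a, b} : Set E3)
    classical
    refine this.trans ?_
    rw [Set.toFinset_card]
    have : Fintype.card ({a, b} : Set E3) ≤ 2 := by
      rw [← Set.toFinset_card]
      simpa using Finset.card_le_two (a := a) (b := b)
    exact this
  have h2 : Module.finrank ℝ W + Module.finrank ℝ Wᗮ = 3 := by
    have := Submodule.finrank_add_finrank_orthogonal W
    simpa using this
  have h3 : 0 < Module.finrank ℝ Wᗮ := by omega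
  obtain ⟨x, hx⟩ := Module.finrank_pos_iff_exists_ne_zero.mp h3
  have hx0 : (x : E3) ≠ 0 := by simpa using hx
  have hxW := x.2
  rw [Submodule.mem_orthogonal] at hxW
  refine ⟨(‖(x : E3)‖)⁻¹ • (x : E3), ?_, ?_, ?_⟩
  · rw [norm_smul, norm_inv, norm_norm, inv_mul_cancel₀ (norm_ne_zero_iff.mpr hx0)]
  · rw [inner_smul_right, hxW a (Submodule.subset_span (by simp)), mul_zero]
  · rw [inner_smul_right, hxW b (Submodule.subset_span (by simp)), mul_zero]

theorem E2_eq (x : E2) : x = x 0 • EuclideanSpace.single 0 (1:ℝ) + x 1 • EuclideanSpace.single 1 (1:ℝ) := by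
  ext i
  fin_cases i <;> simp

theorem area_linear_image (T : E2 →ₗ[ℝ] E3) (s : Set E2) :
    μHE[2] (T '' s) =
      ENNReal.ofReal (Real.sqrt (gram (T (EuclideanSpace.single 0 1)) (T (EuclideanSpace.single 1 1))))
        * volume s := by
  obtain ⟨n, hn, han, hbn⟩ := exists_unit_perp (T (EuclideanSpace.single 0 1)) (T (EuclideanSpace.single 1 1))
  obtain ⟨ι, hι1, hι2⟩ := exists_plane_isometry n hn
  have hT : ∀ x, inner ℝ (T x) n = 0 := by
    intro x
    conv_lhs => rw [E2_eq x]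
    rw [map_add, map_smul, map_smul, inner_add_left, inner_smul_left, inner_smul_left, han, hbn]
    simp
  -- the adjoint
  let π : E3 →ₗ[ℝ] E2 := (ContinuousLinearMap.adjoint ι.toContinuousLinearMap).toLinearMap
  have hπι : ∀ x, π (ι x) = x := by
    intro x
    refine ext_inner_right ℝ (fun z => ?_)
    change inner ℝ ((ContinuousLinearMap.adjoint ι.toContinuousLinearMap) (ι x)) z = _
    rw [ContinuousLinearMap.adjoint_inner_left]
    exact ι.inner_map_map x z
  have hιπ : ∀ x, ι (π (T x)) = T x := by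
    intro x
    obtain ⟨z, hz⟩ := hι2 (T x) (hT x)
    rw [← hz, hπι]
  have himg : T '' s = ι '' ((π ∘ₗ T) '' s) := by
    rw [← Set.image_comp]
    refine Set.image_congr (fun x _ => ?_)
    simp [hιπ]
  rw [himg, ι.isometry.euclideanHausdorffMeasure_image, EuclideanSpace.euclideanHausdorffMeasure_eq_volume,
    volume_linear_image]
  congr 3
  rw [← gram_isometry ι]
  simp [hιπ]

/-- the linear map `x ↦ x 0 • a + x 1 • b` -/
noncomputable def lin2 {E : Type*} [AddCommGroup E] [Module ℝ E] (a b : E) : E2 →ₗ[ℝ] E where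
  toFun x := x 0 • a + x 1 • b
  map_add' := by intro x y; simp [add_smul]; abel
  map_smul' := by intro c x; simp [mul_smul, smul_add]

@[simp] theorem lin2_apply {E : Type*} [AddCommGroup E] [Module ℝ E] (a b : E) (x : E2) :
    lin2 a b x = x 0 • a + x 1 • b := rfl

@[simp] theorem lin2_single0 {E : Type*} [AddCommGroup E] [Module ℝ E] (a b : E) :
    lin2 a b (EuclideanSpace.single 0 1) = a := by simp
@[simp] theorem lin2_single1 {E : Type*} [AddCommGroup E] [Module ℝ E] (a b : E) :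
    lin2 a b (EuclideanSpace.single 1 1) = b := by simp

theorem volume_level_null (φ : E2 →ₗ[ℝ] ℝ) (hφ : φ ≠ 0) (c : ℝ) : volume {x | φ x = c} = 0 := by
  by_cases h : ∃ p, φ p = c
  · obtain ⟨p, hp⟩ := h
    have h1 : {x | φ x = c} = (fun x => x + (-p)) ⁻¹' (LinearMap.ker φ : Set E2) := by
      ext x
      simp [hp]
      constructor <;> intro h <;> linarith
    rw [h1, measure_preimage_add_right]
    apply Measure.addHaar_submodule
    intro htop
    apply hφ
    exact LinearMap.ker_eq_top.mp htop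
  · have : {x | φ x = c} = ∅ := by
      ext x; simp; intro hx; exact h ⟨x, hx⟩
    rw [this]; simp

theorem volume_union_of_separated (φ : E2 →ₗ[ℝ] ℝ) (hφ : φ ≠ 0) (c : ℝ) (A B : Set E2)
    (hA : ∀ x ∈ A, φ x ≤ c) (hB : ∀ x ∈ B, c ≤ φ x) (hBm : MeasurableSet B) :
    volume (A ∪ B) = volume A + volume B := by
  have h := measure_union_add_inter (μ := volume) A hBm
  have h0 : volume (A ∩ B) = 0 := by
    apply measure_mono_null _ (volume_level_null φ hφ c)
    intro x hx
    exact le_antisymm (hA x hx.1) (hB x hx.2)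
  rw [h0, add_zero] at h
  exact h

theorem volume_unitSquare : volume {x : E2 | 0 ≤ x 0 ∧ x 0 ≤ 1 ∧ 0 ≤ x 1 ∧ x 1 ≤ 1} = 1 := by
  have h1 : {x : E2 | 0 ≤ x 0 ∧ x 0 ≤ 1 ∧ 0 ≤ x 1 ∧ x 1 ≤ 1} =
      (@WithLp.ofLp 2 (Fin 2 → ℝ)) ⁻¹' (Set.Icc (0 : Fin 2 → ℝ) 1) := by
    ext x
    simp only [Set.mem_setOf_eq, Set.mem_preimage, Set.mem_Icc, Pi.le_def, Fin.forall_fin_two]
    simp
    tauto
  rw [h1, (PiLp.volume_preserving_ofLp (Fin 2)).measure_preimage measurableSet_Icc.nullMeasurableSet,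
    Real.volume_Icc_pi]
  simp

theorem measurable_coord (i : Fin 2) : Measurable (fun x : E2 => x i) := by
  fun_prop

theorem volume_T1 : volume {x : E2 | 0 ≤ x 1 ∧ x 1 ≤ x 0 ∧ x 0 ≤ 1} = ENNReal.ofReal (1 / 2) := by
  set T1 := {x : E2 | 0 ≤ x 1 ∧ x 1 ≤ x 0 ∧ x 0 ≤ 1} with hT1
  set T2 := {x : E2 | 0 ≤ x 0 ∧ x 0 ≤ x 1 ∧ x 1 ≤ 1} with hT2
  have hsw : T2 = (lin2 (EuclideanSpace.single 1 (1:ℝ)) (EuclideanSpace.single 0 (1:ℝ)) : E2 →ₗ[ℝ] E2) '' T1 := by
    ext x
    simp only [hT1, hT2, Set.mem_setOf_eq, Set.mem_image]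
    constructor
    · intro h
      refine ⟨!₂[x 1, x 0], by simpa using h, ?_⟩
      ext i; fin_cases i <;> simp
    · rintro ⟨y, hy, rfl⟩
      simpa using hy
  have hv : volume T2 = volume T1 := by
    rw [hsw, volume_linear_image, gram_eq_det2_sq]
    simp [det2]
  have hm : MeasurableSet T2 := by
    apply MeasurableSet.inter
    · exact measurableSet_le measurable_const (measurable_coord 0)
    apply MeasurableSet.inter
    · exact measurableSet_le (measurable_coord 0) (measurable_coord 1)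
    · exact measurableSet_le (measurable_coord 1) measurable_const
  let φ : E2 →ₗ[ℝ] ℝ := lin2 (-1 : ℝ) (1 : ℝ)
  have hφ : φ ≠ 0 := by
    intro h
    have := congrArg (fun f : E2 →ₗ[ℝ] ℝ => f (EuclideanSpace.single 1 (1:ℝ))) h
    simp [φ] at this
  have hU := volume_union_of_separated φ hφ 0 T1 T2 (by
    intro x hx; simp only [φ, lin2_apply, smul_eq_mul]; linarith [hx.2.1]) (by
    intro x hx; simp only [φ, lin2_apply, smul_eq_mul]; linarith [hx.2.1]) hm
  have hQ : T1 ∪ T2 = {x : E2 | 0 ≤ x 0 ∧ x 0 ≤ 1 ∧ 0 ≤ x 1 ∧ x 1 ≤ 1} := by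
    ext x
    simp only [hT1, hT2, Set.mem_union, Set.mem_setOf_eq]
    constructor
    · rintro (h | h)
      · exact ⟨by linarith [h.1, h.2.1], h.2.2, h.1, by linarith [h.2.1, h.2.2]⟩
      · exact ⟨h.1, by linarith [h.2.1, h.2.2], by linarith [h.1, h.2.1], h.2.2⟩
    · intro h
      rcases le_total (x 1) (x 0) with h' | h'
      · left; exact ⟨h.2.2.1, h', h.2.1⟩
      · right; exact ⟨h.1, h', h.2.2.2⟩
  rw [hQ, volume_unitSquare, hv] at hU
  -- 1 = v + v
  have hne : volume T1 ≠ ⊤ := by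
    intro h; rw [h] at hU; simp at hU
  have : (volume T1).toReal = 1 / 2 := by
    have := congrArg ENNReal.toReal hU
    rw [ENNReal.toReal_add hne hne] at this
    simp at this
    linarith
  rw [← this, ENNReal.ofReal_toReal hne]

theorem volume_stdTriangle : volume {x : E2 | 0 ≤ x 0 ∧ 0 ≤ x 1 ∧ x 0 + x 1 ≤ 1} = ENNReal.ofReal (1 / 2) := by
  have h : {x : E2 | 0 ≤ x 0 ∧ 0 ≤ x 1 ∧ x 0 + x 1 ≤ 1} =
      (lin2 (EuclideanSpace.single 0 (1:ℝ)) (EuclideanSpace.single 1 (1:ℝ) - EuclideanSpace.single 0 (1:ℝ)) : E2 →ₗ[ℝ] E2) ''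
        {x : E2 | 0 ≤ x 1 ∧ x 1 ≤ x 0 ∧ x 0 ≤ 1} := by
    ext x
    simp only [Set.mem_setOf_eq, Set.mem_image]
    constructor
    · intro h
      refine ⟨!₂[x 0 + x 1, x 1], by simp; exact ⟨h.2.1, h.1, h.2.2⟩, ?_⟩
      ext i; fin_cases i <;> simp
    · rintro ⟨y, hy, rfl⟩
      simp
      exact ⟨hy.2.1, hy.1, hy.2.2⟩
  rw [h, volume_linear_image, gram_eq_det2_sq, volume_T1]
  simp [det2]

theorem mem_convexHull_triple {E : Type*} [AddCommGroup E] [Module ℝ E] (p q r x : E) :
    x ∈ convexHull ℝ ({p, q, r} : Set E) ↔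
      ∃ α β γ : ℝ, 0 ≤ α ∧ 0 ≤ β ∧ 0 ≤ γ ∧ α + β + γ = 1 ∧ x = α • p + β • q + γ • r := by
  constructor
  · intro hx
    rw [convexHull_insert (by simp), convexHull_pair] at hx
    rw [mem_convexJoin] at hx
    obtain ⟨a, ha, b, hb, hx⟩ := hx
    rw [Set.mem_singleton_iff] at ha
    subst ha
    obtain ⟨s, t, hs, ht, hst, rfl⟩ := hb
    obtain ⟨s', t', hs', ht', hst', rfl⟩ := hx
    refine ⟨s', t' * s, t' * t, hs', by positivity, by positivity, ?_, ?_⟩
    · calc s' + t' * s + t' * t = s' + t' * (s + t) := by ring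
        _ = 1 := by rw [hst, mul_one, hst']
    · simp only [smul_add, mul_smul, add_assoc]
  · rintro ⟨α, β, γ, hα, hβ, hγ, hsum, rfl⟩
    have hc := convex_convexHull ℝ ({p, q, r} : Set E)
    have := hc.sum_mem (t := Finset.univ) (w := ![α, β, γ]) (z := ![p, q, r])
      (by intro i _; fin_cases i <;> simp [hα, hβ, hγ])
      (by simp [Fin.sum_univ_three, hsum])
      (by intro i _; fin_cases i <;> exact subset_convexHull ℝ _ (by simp))
    simpa [Fin.sum_univ_three] using this

theorem convexHull_triple_eq_image {E : Type*} [AddCommGroup E] [Module ℝ E] (p q r : E) :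
    convexHull ℝ ({p, q, r} : Set E) =
      (fun y => p + y) '' (lin2 (q - p) (r - p) '' {x : E2 | 0 ≤ x 0 ∧ 0 ≤ x 1 ∧ x 0 + x 1 ≤ 1}) := by
  ext x
  rw [mem_convexHull_triple]
  simp only [Set.mem_image, Set.mem_setOf_eq, exists_exists_and_eq_and, lin2_apply]
  constructor
  · rintro ⟨α, β, γ, hα, hβ, hγ, hsum, rfl⟩
    refine ⟨!₂[β, γ], ⟨by simpa using hβ, by simpa using hγ, by simp; linarith⟩, ?_⟩
    have : α = 1 - β - γ := by linarith
    subst this
    simp only [sub_smul, smul_sub, one_smul]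
    simp
    abel
  · rintro ⟨y, ⟨h0, h1, h2⟩, rfl⟩
    refine ⟨1 - y 0 - y 1, y 0, y 1, by linarith, h0, h1, by ring, ?_⟩
    simp only [sub_smul, smul_sub, one_smul]
    abel

theorem area_triangle (p q r : E3) :
    μHE[2] (convexHull ℝ ({p, q, r} : Set E3)) =
      ENNReal.ofReal (Real.sqrt (gram (q - p) (r - p)) / 2) := by
  rw [convexHull_triple_eq_image, (isometry_add_left p).euclideanHausdorffMeasure_image,
    area_linear_image, volume_stdTriangle, ← ENNReal.ofReal_mul (Real.sqrt_nonneg _),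
    lin2_single0, lin2_single1]
  congr 1
  ring

theorem volume_triangle (A B C : E2) :
    volume (convexHull ℝ ({A, B, C} : Set E2)) = ENNReal.ofReal (|det2 (B - A) (C - A)| / 2) := by
  rw [convexHull_triple_eq_image, ← EuclideanSpace.euclideanHausdorffMeasure_eq_volume,
    (isometry_add_left A).euclideanHausdorffMeasure_image,
    EuclideanSpace.euclideanHausdorffMeasure_eq_volume,
    volume_linear_image, volume_stdTriangle, ← ENNReal.ofReal_mul (Real.sqrt_nonneg _),
    gram_eq_det2_sq, Real.sqrt_sq_eq_abs, lin2_single0, lin2_single1]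
  congr 1
  ring

theorem area_parallelogram (c a b : E3) :
    μHE[2] {x : E3 | ∃ s ∈ Set.Icc (0 : ℝ) 1, ∃ t ∈ Set.Icc (0 : ℝ) 1, x = c + s • a + t • b} =
      ENNReal.ofReal (Real.sqrt (gram a b)) := by
  have h : {x : E3 | ∃ s ∈ Set.Icc (0 : ℝ) 1, ∃ t ∈ Set.Icc (0 : ℝ) 1, x = c + s • a + t • b} =
      (fun y => c + y) '' (lin2 a b '' {x : E2 | 0 ≤ x 0 ∧ x 0 ≤ 1 ∧ 0 ≤ x 1 ∧ x 1 ≤ 1}) := by
    ext x
    simp only [Set.mem_image, Set.mem_setOf_eq, exists_exists_and_eq_and, lin2_apply, Set.mem_Icc]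
    constructor
    · rintro ⟨s, hs, t, ht, rfl⟩
      refine ⟨!₂[s, t], by simpa using ⟨hs.1, hs.2, ht.1, ht.2⟩, ?_⟩
      simp [add_assoc]
    · rintro ⟨y, ⟨h0, h1, h2, h3⟩, rfl⟩
      exact ⟨y 0, ⟨h0, h1⟩, y 1, ⟨h2, h3⟩, by simp [add_assoc]⟩
  rw [h, (isometry_add_left c).euclideanHausdorffMeasure_image, area_linear_image, volume_unitSquare]
  simp

section projlemmas
variable {E : Type*} [NormedAddCommGroup E] [InnerProductSpace ℝ E]

theorem proj_add (d x y : E) : proj d (x + y) = proj d x + proj d y := by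
  unfold proj
  rw [inner_add_left, add_div, add_smul]
  abel

theorem proj_sub (d x y : E) : proj d (x - y) = proj d x - proj d y := by
  unfold proj
  rw [inner_sub_left, sub_div, sub_smul]
  abel

theorem proj_smul (d : E) (c : ℝ) (x : E) : proj d (c • x) = c • proj d x := by
  unfold proj
  rw [inner_smul_left, smul_sub, smul_smul]
  simp [mul_div_assoc]

theorem inner_proj_self (d y : E) (hd : d ≠ 0) : inner ℝ (proj d y) d = 0 := by
  unfold proj
  have : ‖d‖ ^ 2 ≠ 0 := by positivity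
  rw [inner_sub_left, inner_smul_left, real_inner_self_eq_norm_sq]
  simp
  field_simp
  ring

theorem proj_self (d : E) (hd : d ≠ 0) : proj d d = 0 := by
  unfold proj
  have : ‖d‖ ^ 2 ≠ 0 := by positivity
  rw [real_inner_self_eq_norm_sq, div_self this, one_smul, sub_self]

theorem proj_of_inner_eq_zero (d y : E) (h : inner ℝ y d = 0) : proj d y = y := by
  unfold proj
  rw [h]; simp

theorem inner_proj_proj (d a b : E) (hd : d ≠ 0) :
    inner ℝ (proj d a) (proj d b) = inner ℝ a b - inner ℝ a d * inner ℝ b d / ‖d‖ ^ 2 := by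
  have h0 := inner_proj_self d a hd
  have : ‖d‖ ^ 2 ≠ 0 := by positivity
  conv_lhs => rw [proj.eq_def d b]
  rw [inner_sub_right, inner_smul_right, h0, mul_zero, sub_zero]
  unfold proj
  rw [inner_sub_left, inner_smul_left, real_inner_comm b d]
  simp
  ring

theorem norm_proj_sq (d a : E) (hd : d ≠ 0) :
    ‖proj d a‖ ^ 2 = ‖a‖ ^ 2 - inner ℝ a d ^ 2 / ‖d‖ ^ 2 := by
  rw [← real_inner_self_eq_norm_sq, inner_proj_proj d a a hd, real_inner_self_eq_norm_sq]
  ring

end projlemmas

theorem gram3_zero (e a b w : E3) (he : ‖e‖ = 1) (ha : inner ℝ a e = 0) (hb : inner ℝ b e = 0)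
    (hw : inner ℝ w e = 0) :
    gram a b * ‖w‖ ^ 2 = ‖a‖ ^ 2 * inner ℝ b w ^ 2 + ‖b‖ ^ 2 * inner ℝ a w ^ 2
      - 2 * inner ℝ a b * inner ℝ a w * inner ℝ b w := by
  have he' : ‖e‖ ^ 2 = 1 := by rw [he]; norm_num
  unfold gram
  rw [EuclideanSpace.norm_sq_eq] at he' ⊢
  rw [EuclideanSpace.norm_sq_eq, EuclideanSpace.norm_sq_eq]
  simp only [PiLp.inner_apply, Fin.sum_univ_three, Real.norm_eq_abs, sq_abs, RCLike.inner_apply,
    conj_trivial] at *
  generalize a.ofLp 0 = a0 at *
  generalize a.ofLp 1 = a1 at *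
  generalize a.ofLp 2 = a2 at *
  generalize b.ofLp 0 = b0 at *
  generalize b.ofLp 1 = b1 at *
  generalize b.ofLp 2 = b2 at *
  generalize w.ofLp 0 = w0 at *
  generalize w.ofLp 1 = w1 at *
  generalize w.ofLp 2 = w2 at *
  generalize e.ofLp 0 = e0 at *
  generalize e.ofLp 1 = e1 at *
  generalize e.ofLp 2 = e2 at *
  have k0 : (a0*(b1*w2 - b2*w1) - a1*(b0*w2 - b2*w0) + a2*(b0*w1 - b1*w0)) * e0 = 0 := by
    linear_combination (b1*w2 - b2*w1)*ha - (a1*w2 - a2*w1)*hb + (a1*b2 - a2*b1)*hw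
  have k1 : (a0*(b1*w2 - b2*w1) - a1*(b0*w2 - b2*w0) + a2*(b0*w1 - b1*w0)) * e1 = 0 := by
    linear_combination -(b0*w2 - b2*w0)*ha + (a0*w2 - a2*w0)*hb - (a0*b2 - a2*b0)*hw
  have k2 : (a0*(b1*w2 - b2*w1) - a1*(b0*w2 - b2*w0) + a2*(b0*w1 - b1*w0)) * e2 = 0 := by
    linear_combination (b0*w1 - b1*w0)*ha - (a0*w1 - a1*w0)*hb + (a0*b1 - a1*b0)*hw
  have hD : (a0*(b1*w2 - b2*w1) - a1*(b0*w2 - b2*w0) + a2*(b0*w1 - b1*w0)) = 0 := by
    linear_combination e0*k0 + e1*k1 + e2*k2 - (a0*(b1*w2 - b2*w1) - a1*(b0*w2 - b2*w0) + a2*(b0*w1 - b1*w0))*he'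
  linear_combination (a0*(b1*w2 - b2*w1) - a1*(b0*w2 - b2*w0) + a2*(b0*w1 - b1*w0)) * hD

theorem norm_add_perp_sq (e w : E3) (he : ‖e‖ = 1) (hw : inner ℝ w e = 0) :
    ‖e + w‖ ^ 2 = 1 + ‖w‖ ^ 2 := by
  rw [norm_add_sq_real, he, real_inner_comm, hw]; ring

theorem add_perp_ne_zero (e w : E3) (he : ‖e‖ = 1) (hw : inner ℝ w e = 0) : e + w ≠ 0 := by
  intro h
  have := norm_add_perp_sq e w he hw
  rw [h] at this
  simp at this
  nlinarith [sq_nonneg ‖w‖]

theorem gram_proj (e a b w : E3) (he : ‖e‖ = 1) (ha : inner ℝ a e = 0) (hb : inner ℝ b e = 0)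
    (hw : inner ℝ w e = 0) :
    gram (proj (e + w) a) (proj (e + w) b) = gram a b / (1 + ‖w‖ ^ 2) := by
  have hd := add_perp_ne_zero e w he hw
  have hD := norm_add_perp_sq e w he hw
  have h3 := gram3_zero e a b w he ha hb hw
  have hpos : (0:ℝ) < 1 + ‖w‖ ^ 2 := by positivity
  conv_lhs => unfold gram
  rw [norm_proj_sq _ _ hd, norm_proj_sq _ _ hd, inner_proj_proj _ _ _ hd, hD,
    inner_add_right, inner_add_right, ha, hb, zero_add, zero_add]
  unfold gram at h3 ⊢
  field_simp
  linear_combination (1 + ‖w‖ ^ 2) * h3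

theorem area_proj_triangle (e a b w p₀ : E3) (he : ‖e‖ = 1) (ha : inner ℝ a e = 0)
    (hb : inner ℝ b e = 0) (hw : inner ℝ w e = 0) (X₁ Y₁ X₂ Y₂ X₃ Y₃ : ℝ) :
    μHE[2] (convexHull ℝ ({proj (e + w) (p₀ + X₁ • a + Y₁ • b), proj (e + w) (p₀ + X₂ • a + Y₂ • b),
        proj (e + w) (p₀ + X₃ • a + Y₃ • b)} : Set E3)) =
      ENNReal.ofReal (|(X₂ - X₁) * (Y₃ - Y₁) - (Y₂ - Y₁) * (X₃ - X₁)| / 2 * Real.sqrt (gram a b)
        / Real.sqrt (1 + ‖w‖ ^ 2)) := by
  rw [area_triangle]
  congr 1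
  have h1 : proj (e + w) (p₀ + X₂ • a + Y₂ • b) - proj (e + w) (p₀ + X₁ • a + Y₁ • b) =
      (X₂ - X₁) • proj (e + w) a + (Y₂ - Y₁) • proj (e + w) b := by
    simp only [proj_add, proj_smul, sub_smul]; abel
  have h2 : proj (e + w) (p₀ + X₃ • a + Y₃ • b) - proj (e + w) (p₀ + X₁ • a + Y₁ • b) =
      (X₃ - X₁) • proj (e + w) a + (Y₃ - Y₁) • proj (e + w) b := by
    simp only [proj_add, proj_smul, sub_smul]; abel
  rw [h1, h2, gram_lincomb, gram_proj e a b w he ha hb hw, Real.sqrt_mul (sq_nonneg _),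
    Real.sqrt_sq_eq_abs, Real.sqrt_div (gram_nonneg a b)]
  ring

theorem exists_planar_reduction (v : E3) (hv : ‖v‖ = 1) :
    ∃ π : E3 →ₗ[ℝ] E2, (∀ S : Set E3, μHE[2] ((fun y => y - inner ℝ y v • v) '' S) = volume (π '' S)) ∧
      (∀ a b : E3, det2 (π a) (π b) ^ 2 = gram (proj v a) (proj v b)) := by
  obtain ⟨ι, hι1, hι2⟩ := exists_plane_isometry v hv
  let π : E3 →ₗ[ℝ] E2 := (ContinuousLinearMap.adjoint ι.toContinuousLinearMap).toLinearMap
  have hπι : ∀ x, π (ι x) = x := by
    intro x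
    refine ext_inner_right ℝ (fun z => ?_)
    change inner ℝ ((ContinuousLinearMap.adjoint ι.toContinuousLinearMap) (ι x)) z = _
    rw [ContinuousLinearMap.adjoint_inner_left]
    exact ι.inner_map_map x z
  have hπv : π v = 0 := by
    refine ext_inner_right ℝ (fun z => ?_)
    change inner ℝ ((ContinuousLinearMap.adjoint ι.toContinuousLinearMap) v) z = _
    rw [ContinuousLinearMap.adjoint_inner_left, inner_zero_left]
    have := hι1 z
    rw [real_inner_comm] at this
    exact this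
  have hιπ : ∀ y, ι (π y) = y - inner ℝ y v • v := by
    intro y
    have hperp : inner ℝ (y - inner ℝ y v • v) v = 0 := by
      rw [inner_sub_left, inner_smul_left, real_inner_self_eq_norm_sq, hv]; simp
    obtain ⟨z, hz⟩ := hι2 _ hperp
    have : π y = z := by
      have h1 : π (y - inner ℝ y v • v) = π y := by
        rw [map_sub, map_smul, hπv, smul_zero, sub_zero]
      rw [← h1, ← hz, hπι]
    rw [this, hz]
  refine ⟨π, ?_, ?_⟩
  · intro S
    have himg : (fun y => y - inner ℝ y v • v) '' S = ι '' (π '' S) := by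
      rw [← Set.image_comp]
      refine Set.image_congr (fun x _ => ?_)
      simp [hιπ]
    rw [himg, ι.isometry.euclideanHausdorffMeasure_image,
      EuclideanSpace.euclideanHausdorffMeasure_eq_volume]
  · intro a b
    rw [← gram_eq_det2_sq, ← gram_isometry ι, hιπ, hιπ]
    unfold proj
    rw [hv]; simp

theorem det2_sub_right (x y z : E2) : det2 x (y - z) = det2 x y - det2 x z := by
  unfold det2; simp; ring

theorem volume_quadrilateral_ge (A B C D : E2) :
    ENNReal.ofReal (|det2 (A - B) (C - D)| / 2) ≤ volume (convexHull ℝ ({A, B, C, D} : Set E2)) := by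
  set c₁ := det2 (B - A) (C - A) with hc₁
  set d₁ := det2 (B - A) (D - A) with hd₁
  have hkey : |det2 (A - B) (C - D)| = |c₁ - d₁| := by
    rw [hc₁, hd₁, ← abs_neg]
    congr 1
    unfold det2; simp; ring
  have hTC : convexHull ℝ ({A, B, C} : Set E2) ⊆ convexHull ℝ ({A, B, C, D} : Set E2) := by
    apply convexHull_mono
    intro x hx
    simp only [Set.mem_insert_iff, Set.mem_singleton_iff] at hx ⊢
    tauto
  have hTD : convexHull ℝ ({A, B, D} : Set E2) ⊆ convexHull ℝ ({A, B, C, D} : Set E2) := by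
    apply convexHull_mono
    intro x hx
    simp only [Set.mem_insert_iff, Set.mem_singleton_iff] at hx ⊢
    tauto
  have hvC := volume_triangle A B C
  have hvD := volume_triangle A B D
  rw [← hc₁] at hvC
  rw [← hd₁] at hvD
  rw [hkey]
  by_cases hs : 0 ≤ c₁ * d₁
  · -- same side
    have : |c₁ - d₁| ≤ max |c₁| |d₁| := by
      rcases le_total 0 c₁ with h1 | h1
      · have h2 : 0 ≤ d₁ ∨ c₁ = 0 := by
          by_contra hcon
          push Not at hcon
          have : 0 < c₁ := lt_of_le_of_ne h1 (Ne.symm hcon.2)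
          nlinarith [hcon.1]
        rcases h2 with h2 | h2
        · rw [abs_of_nonneg h1, abs_of_nonneg h2, abs_le]
          constructor
          · have := le_max_right c₁ d₁; linarith
          · have := le_max_left c₁ d₁; linarith
        · rw [h2]; simp
      · have h2 : d₁ ≤ 0 ∨ c₁ = 0 := by
          by_contra hcon
          push Not at hcon
          have : c₁ < 0 := lt_of_le_of_ne h1 hcon.2
          nlinarith [hcon.1]
        rcases h2 with h2 | h2
        · rw [abs_of_nonpos h1, abs_of_nonpos h2, abs_le]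
          constructor
          · have := le_max_left (-c₁) (-d₁); linarith
          · have := le_max_right (-c₁) (-d₁); linarith
        · rw [h2]; simp
    rcases le_total |c₁| |d₁| with h | h
    · rw [max_eq_right h] at this
      calc ENNReal.ofReal (|c₁ - d₁| / 2) ≤ ENNReal.ofReal (|d₁| / 2) :=
            ENNReal.ofReal_le_ofReal (by linarith)
        _ = volume (convexHull ℝ ({A, B, D} : Set E2)) := hvD.symm
        _ ≤ _ := measure_mono hTD
    · rw [max_eq_left h] at this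
      calc ENNReal.ofReal (|c₁ - d₁| / 2) ≤ ENNReal.ofReal (|c₁| / 2) :=
            ENNReal.ofReal_le_ofReal (by linarith)
        _ = volume (convexHull ℝ ({A, B, C} : Set E2)) := hvC.symm
        _ ≤ _ := measure_mono hTC
  · -- opposite sides
    push Not at hs
    let φ : E2 →ₗ[ℝ] ℝ := lin2 (-(B - A) 1) ((B - A) 0)
    have hφdet : ∀ x, φ x = det2 (B - A) x := by
      intro x; simp only [φ, lin2_apply, det2, smul_eq_mul]; ring
    have hφ : φ ≠ 0 := by
      intro h
      have : c₁ = 0 := by rw [hc₁, ← hφdet, h]; simp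
      rw [this] at hs; simp at hs
    have hφC : φ C = φ A + c₁ := by rw [hc₁, det2_sub_right, hφdet, hφdet]; ring
    have hφD : φ D = φ A + d₁ := by rw [hd₁, det2_sub_right, hφdet, hφdet]; ring
    have hφB : φ B = φ A := by
      rw [hφdet, hφdet]; unfold det2; simp; ring
    have hmeas : ∀ X : E2, MeasurableSet (convexHull ℝ ({A, B, X} : Set E2)) := by
      intro X
      have : ({A, B, X} : Set E2).Finite := by simp
      exact (this.isCompact_convexHull (𝕜 := ℝ)).isClosed.measurableSet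
    have hle : ∀ X : E2, φ X ≤ φ A → ∀ x ∈ convexHull ℝ ({A, B, X} : Set E2), φ x ≤ φ A := by
      intro X hX
      have : convexHull ℝ ({A, B, X} : Set E2) ⊆ {x | φ x ≤ φ A} := by
        apply convexHull_min
        · intro x hx
          simp only [Set.mem_insert_iff, Set.mem_singleton_iff] at hx
          rcases hx with rfl | rfl | rfl
          · exact le_refl (φ x)
          · exact hφB.le
          · exact hX
        · exact convex_halfSpace_le φ.isLinear _
      exact this
    have hge : ∀ X : E2, φ A ≤ φ X → ∀ x ∈ convexHull ℝ ({A, B, X} : Set E2), φ A ≤ φ x := by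
      intro X hX
      have : convexHull ℝ ({A, B, X} : Set E2) ⊆ {x | φ A ≤ φ x} := by
        apply convexHull_min
        · intro x hx
          simp only [Set.mem_insert_iff, Set.mem_singleton_iff] at hx
          rcases hx with rfl | rfl | rfl
          · exact le_refl (φ x)
          · exact hφB.ge
          · exact hX
        · exact convex_halfSpace_ge φ.isLinear _
      exact this
    have habs : |c₁ - d₁| = |c₁| + |d₁| := by
      rcases lt_or_ge 0 c₁ with h1 | h1
      · have h2 : d₁ < 0 := by nlinarith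
        rw [abs_of_pos h1, abs_of_neg h2, abs_of_pos (by linarith)]; ring
      · have h1' : c₁ < 0 := lt_of_le_of_ne h1 (by intro h0; rw [h0] at hs; simp at hs)
        have h2 : 0 < d₁ := by nlinarith
        rw [abs_of_neg h1', abs_of_pos h2, abs_of_neg (by linarith)]; ring
    have hsum : volume (convexHull ℝ ({A, B, C} : Set E2) ∪ convexHull ℝ ({A, B, D} : Set E2)) =
        volume (convexHull ℝ ({A, B, C} : Set E2)) + volume (convexHull ℝ ({A, B, D} : Set E2)) := by
      rcases lt_or_ge 0 c₁ with h1 | h1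
      · have h2 : d₁ < 0 := by nlinarith
        rw [Set.union_comm, add_comm]
        exact volume_union_of_separated φ hφ (φ A) _ _ (hle D (by linarith)) (hge C (by linarith)) (hmeas C)
      · have h1' : c₁ < 0 := lt_of_le_of_ne h1 (by intro h0; rw [h0] at hs; simp at hs)
        have h2 : 0 < d₁ := by nlinarith
        exact volume_union_of_separated φ hφ (φ A) _ _ (hle C (by linarith)) (hge D (by linarith)) (hmeas D)
    calc ENNReal.ofReal (|c₁ - d₁| / 2) = ENNReal.ofReal (|c₁| / 2) + ENNReal.ofReal (|d₁| / 2) := by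
          rw [habs, ← ENNReal.ofReal_add (by positivity) (by positivity)]; congr 1; ring
      _ = volume (convexHull ℝ ({A, B, C} : Set E2) ∪ convexHull ℝ ({A, B, D} : Set E2)) := by
          rw [hsum, hvC, hvD]
      _ ≤ _ := measure_mono (Set.union_subset hTC hTD)

end Crest.Agent.S0324
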