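import Mathlib
import Crest.Agent.S0324_Area

/-!
# Sector lemma for row 211 (package W3)
-/

set_option autoImplicit false
open MeasureTheory Measure Set

namespace Crest.Agent.S0324.Sector

/-- membership in the convex hull of three points, by explicit weights -/
theorem mem_convexHull_triple {E : Type*} [AddCommGroup E] [Module ℝ E] {p q r x : E} :
    x ∈ convexHull ℝ ({p, q, r} : Set E) ↔
      ∃ u v w : ℝ, 0 ≤ u ∧ 0 ≤ v ∧ 0 ≤ w ∧ u + v + w = 1 ∧ u • p + v • q + w • r = x := by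
  constructor
  · intro hx
    rw [convexHull_insert (by simp), convexHull_pair, mem_convexJoin] at hx
    obtain ⟨p', hp', y, hy, hxy⟩ := hx
    rw [mem_singleton_iff] at hp'
    subst hp'
    obtain ⟨v, w, hv, hw, hvw, rfl⟩ := hy
    obtain ⟨s, t, hs, ht, hst, rfl⟩ := hxy
    refine ⟨s, t * v, t * w, hs, by positivity, by positivity, ?_, ?_⟩
    · rw [add_assoc, ← mul_add, hvw, mul_one, hst]
    · rw [smul_add, smul_smul, smul_smul, add_assoc]
  · rintro ⟨u, v, w, hu, hv, hw, huvw, rfl⟩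
    have hc := convex_convexHull ℝ ({p, q, r} : Set E)
    have hp : p ∈ convexHull ℝ ({p, q, r} : Set E) := subset_convexHull ℝ _ (by simp)
    have hq : q ∈ convexHull ℝ ({p, q, r} : Set E) := subset_convexHull ℝ _ (by simp)
    have hr : r ∈ convexHull ℝ ({p, q, r} : Set E) := subset_convexHull ℝ _ (by simp)
    have := hc.sum_mem (t := (Finset.univ : Finset (Fin 3))) (w := ![u, v, w]) (z := ![p, q, r])
      (by intro i _; fin_cases i <;> simp [hu, hv, hw])
      (by simp [Fin.sum_univ_three, huvw])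
      (by intro i _; fin_cases i <;> simp [hp, hq, hr])
    simpa [Fin.sum_univ_three] using this

/-- FTC: the increment of `w` in the coordinates `a, b`. -/
theorem w_sub_eq {E : Type*} [NormedAddCommGroup E] [NormedSpace ℝ E] [CompleteSpace E]
    (a b : E) (α β : ℝ) (w : ℝ → E) (lam : ℝ → ℝ) (hlam : ContinuousOn lam (Icc α β))
    (hw' : ∀ t ∈ Icc α β, HasDerivWithinAt w (lam t • (a + t • b)) (Icc α β) t)
    {c τ : ℝ} (hc : c ∈ Icc α β) (hτ : τ ∈ Icc α β) :
    w τ - w c = (∫ σ in c..τ, lam σ) • a + (∫ σ in c..τ, lam σ * σ) • b := by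
  have hsub : uIcc c τ ⊆ Icc α β := by
    intro x hx
    rcases mem_uIcc.1 hx with h | h
    · exact ⟨hc.1.trans h.1, h.2.trans hτ.2⟩
    · exact ⟨hτ.1.trans h.1, h.2.trans hc.2⟩
  have hi1 : IntervalIntegrable lam volume c τ := (hlam.mono hsub).intervalIntegrable
  have hi2 : IntervalIntegrable (fun σ => lam σ * σ) volume c τ :=
    ((hlam.mono hsub).mul continuousOn_id).intervalIntegrable
  have hi1' : IntervalIntegrable (fun σ => lam σ • a) volume c τ :=
    ((hlam.mono hsub).smul continuousOn_const).intervalIntegrable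
  have hi2' : IntervalIntegrable (fun σ => (lam σ * σ) • b) volume c τ :=
    (((hlam.mono hsub).mul continuousOn_id).smul continuousOn_const).intervalIntegrable
  have hcont : ContinuousOn w (uIcc c τ) := fun x hx =>
    ((hw' x (hsub hx)).continuousWithinAt).mono hsub
  have hder : ∀ x ∈ Ioo (min c τ) (max c τ),
      HasDerivWithinAt w (lam x • (a + x • b)) (Ioi x) x := by
    intro x hx
    have hx' : x ∈ Ioo α β := by
      constructor
      · exact lt_of_le_of_lt (le_min hc.1 hτ.1) hx.1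
      · exact lt_of_lt_of_le hx.2 (max_le hc.2 hτ.2)
    have : HasDerivAt w (lam x • (a + x • b)) x :=
      (hw' x ⟨hx'.1.le, hx'.2.le⟩).hasDerivAt (Icc_mem_nhds hx'.1 hx'.2)
    exact this.hasDerivWithinAt
  have heq : (fun x => lam x • (a + x • b)) = fun x => lam x • a + (lam x * x) • b := by
    funext x
    rw [smul_add, smul_smul]
  have hint : IntervalIntegrable (fun x => lam x • (a + x • b)) volume c τ := by
    rw [heq]
    exact hi1'.add hi2'
  have := intervalIntegral.integral_eq_sub_of_hasDeriv_right hcont hder hint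
  rw [← this, heq, intervalIntegral.integral_add hi1' hi2',
    intervalIntegral.integral_smul_const, intervalIntegral.integral_smul_const]

/-- bounds for the coordinates of the increment of `w`. -/
theorem w_coord_bounds (α β : ℝ) (lam : ℝ → ℝ) (hlam : ContinuousOn lam (Icc α β))
    (Lam : ℝ) (hLamb : ∀ t ∈ Icc α β, |lam t| ≤ Lam)
    {t0 t1 c τ : ℝ} (h0 : α ≤ t0) (h1 : t1 ≤ β) (hc : c ∈ Icc t0 t1) (hτ : τ ∈ Icc t0 t1) :
    |∫ σ in c..τ, lam σ| ≤ Lam * (t1 - t0) ∧
      |(∫ σ in c..τ, lam σ * σ) - τ * ∫ σ in c..τ, lam σ| ≤ Lam * (t1 - t0) ^ 2 := by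
  have hLam0 : 0 ≤ Lam := (abs_nonneg _).trans (hLamb c ⟨h0.trans hc.1, hc.2.trans h1⟩)
  have hd : |τ - c| ≤ t1 - t0 := by
    rw [abs_le]; constructor <;> linarith [hc.1, hc.2, hτ.1, hτ.2]
  have hsub' : uIcc c τ ⊆ Icc t0 t1 := by
    intro x hx
    rcases mem_uIcc.1 hx with h | h
    · exact ⟨hc.1.trans h.1, h.2.trans hτ.2⟩
    · exact ⟨hτ.1.trans h.1, h.2.trans hc.2⟩
  have hsub : uIcc c τ ⊆ Icc α β := fun x hx => ⟨h0.trans (hsub' hx).1, (hsub' hx).2.trans h1⟩
  have hi1 : IntervalIntegrable lam volume c τ := (hlam.mono hsub).intervalIntegrable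
  have hi2 : IntervalIntegrable (fun σ => lam σ * σ) volume c τ :=
    ((hlam.mono hsub).mul continuousOn_id).intervalIntegrable
  constructor
  · have := intervalIntegral.norm_integral_le_of_norm_le_const (a := c) (b := τ) (f := lam)
      (C := Lam) (fun x hx => by
        rw [Real.norm_eq_abs]; exact hLamb x (hsub (uIoc_subset_uIcc hx)))
    rw [Real.norm_eq_abs] at this
    exact this.trans (mul_le_mul_of_nonneg_left hd hLam0)
  · have heq : (∫ σ in c..τ, lam σ * σ) - τ * ∫ σ in c..τ, lam σ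
        = ∫ σ in c..τ, lam σ * (σ - τ) := by
      rw [← intervalIntegral.integral_const_mul, ← intervalIntegral.integral_sub hi2
        (hi1.const_mul τ)]
      congr 1
      funext σ
      ring
    rw [heq]
    have := intervalIntegral.norm_integral_le_of_norm_le_const (a := c) (b := τ)
      (f := fun σ => lam σ * (σ - τ)) (C := Lam * (t1 - t0)) (fun x hx => by
        rw [Real.norm_eq_abs, abs_mul]
        have hx' := hsub' (uIoc_subset_uIcc hx)
        have h2 : |x - τ| ≤ t1 - t0 := by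
          rw [abs_le]; constructor <;> linarith [hx'.1, hx'.2, hτ.1, hτ.2]
        exact mul_le_mul (hLamb x (hsub (uIoc_subset_uIcc hx))) h2 (abs_nonneg _) hLam0)
    rw [Real.norm_eq_abs] at this
    have h3 : 0 ≤ t1 - t0 := (abs_nonneg _).trans hd
    calc _ ≤ Lam * (t1 - t0) * |τ - c| := this
      _ ≤ Lam * (t1 - t0) * (t1 - t0) := mul_le_mul_of_nonneg_left hd (by positivity)
      _ = _ := by ring

theorem proj_add {E : Type*} [NormedAddCommGroup E] [InnerProductSpace ℝ E] (d x y : E) :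
    proj d (x + y) = proj d x + proj d y := by
  simp only [proj, inner_add_left, add_div, add_smul]
  abel

theorem proj_smul {E : Type*} [NormedAddCommGroup E] [InnerProductSpace ℝ E] (d x : E) (k : ℝ) :
    proj d (k • x) = k • proj d x := by
  simp only [proj, inner_smul_left, smul_sub, smul_smul, mul_div_assoc]
  simp

theorem proj_self {E : Type*} [NormedAddCommGroup E] [InnerProductSpace ℝ E] (d : E) :
    proj d d = 0 := by
  by_cases hd : d = 0
  · simp [proj, hd]
  · have : ‖d‖ ^ 2 ≠ 0 := by positivity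
    simp only [proj, real_inner_self_eq_norm_sq]
    rw [div_self this, one_smul, sub_self]

theorem inner_proj {E : Type*} [NormedAddCommGroup E] [InnerProductSpace ℝ E] (d y : E)
    (hd : d ≠ 0) : inner ℝ (proj d y) d = 0 := by
  have : ‖d‖ ^ 2 ≠ 0 := by positivity
  simp only [proj, inner_sub_left, inner_smul_left, real_inner_self_eq_norm_sq]
  simp
  field_simp
  ring

/-- affine independence of three points by hand -/
theorem affineIndependent_triple {E : Type*} [AddCommGroup E] [Module ℝ E] {p q r : E}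
    (h : ∀ u v w : ℝ, u + v + w = 0 → u • p + v • q + w • r = 0 → u = 0 ∧ v = 0 ∧ w = 0) :
    AffineIndependent ℝ ![p, q, r] := by
  rw [affineIndependent_iff_of_fintype]
  intro w hw hw2
  rw [Finset.weightedVSub_eq_linear_combination _ hw] at hw2
  simp only [Fin.sum_univ_three] at hw hw2
  have := h (w 0) (w 1) (w 2) hw (by simpa using hw2)
  intro i
  fin_cases i
  · exact this.1
  · exact this.2.1
  · exact this.2.2

/-- if `z ⊥ e`, `⟪d, e⟫ = 1` and `proj d z = 0` then `z = 0`. -/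
theorem eq_zero_of_proj_eq_zero {E : Type*} [NormedAddCommGroup E] [InnerProductSpace ℝ E]
    (d e z : E) (hde : inner ℝ d e = 1) (hz : inner ℝ z e = 0) (h : proj d z = 0) : z = 0 := by
  have h1 : z = (inner ℝ z d / ‖d‖ ^ 2) • d := by
    have := h
    simp only [proj] at this
    exact sub_eq_zero.1 this
  have h2 : inner ℝ z e = (inner ℝ z d / ‖d‖ ^ 2) * 1 := by
    conv_lhs => rw [h1]
    rw [inner_smul_left, hde]
    simp
  rw [hz, mul_one] at h2
  rw [h1, ← h2, zero_smul]

/-- planar computation: explicit barycentric weights in the outer triangle -/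
theorem planar_outer (t0 d τ ρ rmax M dX dY : ℝ) (hd0 : 0 < d) (hτ0 : t0 ≤ τ) (hτ1 : τ ≤ t0 + d)
    (hρ0 : 0 ≤ ρ) (hρ1 : ρ ≤ rmax) (hM0 : 0 < M) (hdXb : |dX| ≤ M * d) (hdYb : |dY| ≤ M * d ^ 2)
    (x0 m Xf H X Y : ℝ) (hx0 : x0 = 4 * M * d) (hm : m = t0 + d / 2) (hXf : Xf = rmax + M * d)
    (hH : H = Xf + x0) (hX : X = ρ + dX) (hY : Y = τ * X + dY) :
    ∃ u v z : ℝ, 0 ≤ u ∧ 0 ≤ v ∧ 0 ≤ z ∧ u + v + z = 1 ∧
      u * (-x0) + v * Xf + z * Xf = X ∧
      u * (-(m * x0)) + v * (-(m * x0) + t0 * H) + z * (-(m * x0) + (t0 + d) * H) = Y := by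
  have hdXl := (abs_le.1 hdXb).1
  have hdXu := (abs_le.1 hdXb).2
  have hdYl := (abs_le.1 hdYb).1
  have hdYu := (abs_le.1 hdYb).2
  have hMd : 0 < M * d := mul_pos hM0 hd0
  have hH0 : 0 < H := by rw [hH, hXf, hx0]; nlinarith
  have hdH : 0 < d * H := mul_pos hd0 hH0
  refine ⟨(Xf - X) / H, ((t0 + d) * (X + x0) - (Y + m * x0)) / (d * H),
    ((Y + m * x0) - t0 * (X + x0)) / (d * H), ?_, ?_, ?_, ?_, ?_, ?_⟩
  · apply div_nonneg _ hH0.le
    rw [hXf, hX]; linarith
  · apply div_nonneg _ hdH.le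
    have e1 : (t0 + d) * (X + x0) - (Y + m * x0)
        = (t0 + d - τ) * ρ + (t0 + d - τ) * dX + 2 * (M * d) * d - dY := by
      rw [hY, hX, hx0, hm]; ring
    rw [e1]
    have e2 : 0 ≤ (t0 + d - τ) * ρ := mul_nonneg (by linarith) hρ0
    have e3 : -(d * (M * d)) ≤ (t0 + d - τ) * dX := by
      have h5 : 0 ≤ t0 + d - τ := by linarith
      have h6 : t0 + d - τ ≤ d := by linarith
      have h8 : -((t0 + d - τ) * (M * d)) ≤ (t0 + d - τ) * dX := by
        rw [← mul_neg]; exact mul_le_mul_of_nonneg_left hdXl h5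
      have h9 : (t0 + d - τ) * (M * d) ≤ d * (M * d) := mul_le_mul_of_nonneg_right h6 hMd.le
      linarith
    have e4 : M * d ^ 2 = d * (M * d) := by ring
    have e5 : 2 * (M * d) * d = 2 * (d * (M * d)) := by ring
    rw [e5]; rw [e4] at hdYu
    linarith
  · apply div_nonneg _ hdH.le
    have e1 : (Y + m * x0) - t0 * (X + x0)
        = (τ - t0) * ρ + (τ - t0) * dX + 2 * (M * d) * d + dY := by
      rw [hY, hX, hx0, hm]; ring
    rw [e1]
    have e2 : 0 ≤ (τ - t0) * ρ := mul_nonneg (by linarith) hρ0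
    have e3 : -(d * (M * d)) ≤ (τ - t0) * dX := by
      have h5 : 0 ≤ τ - t0 := by linarith
      have h6 : τ - t0 ≤ d := by linarith
      have h8 : -((τ - t0) * (M * d)) ≤ (τ - t0) * dX := by
        rw [← mul_neg]; exact mul_le_mul_of_nonneg_left hdXl h5
      have h9 : (τ - t0) * (M * d) ≤ d * (M * d) := mul_le_mul_of_nonneg_right h6 hMd.le
      linarith
    have e4 : M * d ^ 2 = d * (M * d) := by ring
    have e5 : 2 * (M * d) * d = 2 * (d * (M * d)) := by ring
    rw [e5]; rw [e4] at hdYl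
    linarith
  · field_simp
    rw [hH]
    ring
  · field_simp
    rw [hH]
    ring
  · field_simp
    rw [hH]
    ring

/-- **Sector lemma (outer triangle).** -/
theorem sector_outer (e a b p₀ : E3) (he : ‖e‖ = 1) (ha : inner ℝ a e = 0) (hb : inner ℝ b e = 0)
    (hab : LinearIndependent ℝ ![a, b]) (L : ℝ) (hL : 0 < L) (α β : ℝ)
    (w : ℝ → E3) (hw : ∀ t ∈ Icc α β, inner ℝ (w t) e = 0)
    (lam : ℝ → ℝ) (hlam : ContinuousOn lam (Icc α β))
    (hw' : ∀ t ∈ Icc α β, HasDerivWithinAt w (lam t • (a + t • b)) (Icc α β) t)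
    (Lam : ℝ) (hLam : 0 < Lam) (hLamb : ∀ t ∈ Icc α β, |lam t| ≤ Lam)
    (t0 t1 c rmax : ℝ) (h0 : α ≤ t0) (h01 : t0 < t1) (h1 : t1 ≤ β) (hc : c ∈ Icc t0 t1)
    (hr : 0 ≤ rmax) :
    ∃ p q r : E3, inner ℝ p (e + w c) = 0 ∧ inner ℝ q (e + w c) = 0 ∧ inner ℝ r (e + w c) = 0 ∧
      AffineIndependent ℝ ![p, q, r] ∧
      (∀ τ ∈ Icc t0 t1, ∀ ρ ∈ Icc 0 rmax, ∀ s : ℝ, |s| ≤ L →
        proj (e + w c) (p₀ + ρ • (a + τ • b) + s • (e + w τ)) ∈
          convexHull ℝ ({p, q, r} : Set E3)) ∧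
      μHE[2] (convexHull ℝ ({p, q, r} : Set E3)) = ENNReal.ofReal
        (Real.sqrt (gram a b) * ((t1 - t0) / 2) * (rmax + 5 * L * Lam * (t1 - t0)) ^ 2
          / Real.sqrt (1 + ‖w c‖ ^ 2)) := by
  have hcαβ : c ∈ Icc α β := ⟨h0.trans hc.1, hc.2.trans h1⟩
  have hwc : inner ℝ (w c) e = 0 := hw c hcαβ
  set D : E3 := e + w c with hDdef
  have hDe : inner ℝ D e = 1 := by
    rw [hDdef, inner_add_left, hwc, real_inner_self_eq_norm_sq, he]; norm_num
  have hD : D ≠ 0 := by
    intro h; rw [h, inner_zero_left] at hDe; exact zero_ne_one hDe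
  set d : ℝ := t1 - t0 with hd
  have hd0 : 0 < d := sub_pos.2 h01
  set M : ℝ := L * Lam with hM
  have hM0 : 0 < M := mul_pos hL hLam
  set x0 : ℝ := 4 * M * d with hx0
  set m : ℝ := (t0 + t1) / 2 with hm
  set Xf : ℝ := rmax + M * d with hXf
  set H : ℝ := rmax + 5 * L * Lam * d with hH
  have hHeq : H = Xf + x0 := by rw [hH, hXf, hx0, hM]; ring
  have hH0 : 0 < H := by
    have : 0 < 5 * L * Lam * d := by positivity
    rw [hH]; linarith
  refine ⟨proj D (p₀ + (-x0) • a + (-(m * x0)) • b), proj D (p₀ + Xf • a + (-(m * x0) + t0 * H) • b),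
    proj D (p₀ + Xf • a + (-(m * x0) + t1 * H) • b), inner_proj D _ hD, inner_proj D _ hD,
    inner_proj D _ hD, ?_, ?_, ?_⟩
  · -- affine independence
    apply affineIndependent_triple
    intro u v z huvz hcomb
    rw [← proj_smul, ← proj_smul, ← proj_smul, ← proj_add, ← proj_add] at hcomb
    have hz : u • (p₀ + (-x0) • a + (-(m * x0)) • b) + v • (p₀ + Xf • a + (-(m * x0) + t0 * H) • b)
        + z • (p₀ + Xf • a + (-(m * x0) + t1 * H) • b)
        = ((v + z) * H) • a + ((v * t0 + z * t1) * H) • b := by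
      have hu : u = -(v + z) := by linarith
      rw [hu, hHeq]
      module
    rw [hz] at hcomb
    have hz0 := eq_zero_of_proj_eq_zero D e _ hDe (by
      rw [inner_add_left, inner_smul_left, inner_smul_left, ha, hb]; simp) hcomb
    have := (LinearIndependent.pair_iff.1 hab) _ _ hz0
    have h1' : v + z = 0 := by
      rcases mul_eq_zero.1 this.1 with h | h
      · exact h
      · exact absurd h hH0.ne'
    have h2' : v * t0 + z * t1 = 0 := by
      rcases mul_eq_zero.1 this.2 with h | h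
      · exact h
      · exact absurd h hH0.ne'
    have hz' : z = -v := by linarith
    have hv : v * d = 0 := by rw [hd]; rw [hz'] at h2'; linarith
    have hv0 : v = 0 := by
      rcases mul_eq_zero.1 hv with h | h
      · exact h
      · exact absurd h hd0.ne'
    refine ⟨by linarith, hv0, by linarith⟩
  · -- containment
    intro τ hτ ρ hρ s hs
    have hταβ : τ ∈ Icc α β := ⟨h0.trans hτ.1, hτ.2.trans h1⟩
    have hwd := w_sub_eq a b α β w lam hlam hw' hcαβ hταβ
    obtain ⟨hb1, hb2⟩ := w_coord_bounds α β lam hlam Lam hLamb h0 h1 hc hτ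
    set L1 : ℝ := ∫ σ in c..τ, lam σ with hL1
    set L2 : ℝ := ∫ σ in c..τ, lam σ * σ with hL2
    have hwτ : w τ = w c + L1 • a + L2 • b := by
      rw [add_assoc, ← hwd]; abel
    set dX : ℝ := s * L1 with hdX
    set dY : ℝ := s * (L2 - τ * L1) with hdY
    have hdXb : |dX| ≤ M * d := by
      rw [hdX, abs_mul, hM, mul_assoc]
      exact mul_le_mul hs hb1 (abs_nonneg _) hL.le
    have hdYb : |dY| ≤ M * d ^ 2 := by
      rw [hdY, abs_mul, hM, mul_assoc]
      exact mul_le_mul hs hb2 (abs_nonneg _) hL.le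
    set X : ℝ := ρ + dX with hX
    set Y : ℝ := τ * X + dY with hY
    have hx : p₀ + ρ • (a + τ • b) + s • (e + w τ) = (p₀ + X • a + Y • b) + s • D := by
      rw [hwτ, hDdef, hY, hX, hdX, hdY]
      module
    have hpx : proj D (p₀ + X • a + Y • b + s • D) = proj D (p₀ + X • a + Y • b) := by
      rw [proj_add, proj_smul, proj_self, smul_zero, add_zero]
    rw [hx, hpx, mem_convexHull_triple]
    have ht1 : t1 = t0 + d := by rw [hd]; ring
    obtain ⟨u, v, z, hu, hv, hz, hs1, hs2, hs3⟩ := planar_outer t0 d τ ρ rmax M dX dY hd0 hτ.1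
      (by rw [← ht1]; exact hτ.2) hρ.1 hρ.2 hM0 hdXb hdYb x0 m Xf H X Y hx0
      (by rw [hm, ht1]; ring) hXf hHeq hX hY
    rw [← ht1] at hs3
    refine ⟨u, v, z, hu, hv, hz, hs1, ?_⟩
    rw [← proj_smul, ← proj_smul, ← proj_smul, ← proj_add, ← proj_add]
    congr 1
    calc _ = (u + v + z) • p₀ + (u * (-x0) + v * Xf + z * Xf) • a +
          (u * (-(m * x0)) + v * (-(m * x0) + t0 * H) + z * (-(m * x0) + t1 * H)) • b := by module
      _ = _ := by rw [hs1, hs2, hs3, one_smul]
  · -- area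
    rw [area_proj_triangle e a b (w c) p₀ he ha hb hwc]
    congr 1
    have : (Xf - -x0) * (-(m * x0) + t1 * H - -(m * x0)) - (-(m * x0) + t0 * H - -(m * x0)) * (Xf - -x0)
        = d * H ^ 2 := by
      rw [hHeq, hd]; ring
    rw [this, abs_of_nonneg (by positivity)]
    ring

/-- **Sector lemma (inner triangle).** -/
theorem sector_inner (e a b p₀ wc : E3) (he : ‖e‖ = 1) (ha : inner ℝ a e = 0)
    (hb : inner ℝ b e = 0) (hwc : inner ℝ wc e = 0)
    (t0 t1 rmin : ℝ) (h01 : t0 ≤ t1) (hr : 0 ≤ rmin) :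
    ∃ T : Set E3, (∀ y ∈ T, ∃ τ ∈ Icc t0 t1, ∃ ρ ∈ Icc 0 rmin,
        y = proj (e + wc) (p₀ + ρ • (a + τ • b))) ∧
      μHE[2] T = ENNReal.ofReal
        (Real.sqrt (gram a b) * ((t1 - t0) / 2) * rmin ^ 2 / Real.sqrt (1 + ‖wc‖ ^ 2)) := by
  refine ⟨convexHull ℝ ({proj (e + wc) (p₀ + (0 : ℝ) • a + (0 : ℝ) • b),
    proj (e + wc) (p₀ + rmin • a + (t0 * rmin) • b),
    proj (e + wc) (p₀ + rmin • a + (t1 * rmin) • b)} : Set E3), ?_, ?_⟩
  · intro y hy
    rw [mem_convexHull_triple] at hy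
    obtain ⟨u, v, z, hu, hv, hz, huvz, rfl⟩ := hy
    rw [← proj_smul, ← proj_smul, ← proj_smul, ← proj_add, ← proj_add]
    have hvz : 0 ≤ v + z := add_nonneg hv hz
    rcases hvz.eq_or_lt with h0 | hpos
    · refine ⟨t0, ⟨le_refl _, h01⟩, 0, ⟨le_refl _, hr⟩, ?_⟩
      have hv0 : v = 0 := by linarith
      have hz0 : z = 0 := by linarith
      have hu1 : u = 1 := by linarith
      rw [hv0, hz0, hu1]
      congr 1
      module
    · refine ⟨(v * t0 + z * t1) / (v + z), ⟨?_, ?_⟩, (v + z) * rmin, ⟨by positivity, ?_⟩, ?_⟩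
      · rw [le_div_iff₀ hpos]; nlinarith
      · rw [div_le_iff₀ hpos]; nlinarith
      · have : v + z ≤ 1 := by linarith
        nlinarith
      · congr 1
        have h3 : (v + z) * rmin * ((v * t0 + z * t1) / (v + z)) = (v * t0 + z * t1) * rmin := by
          field_simp
        calc _ = (u + v + z) • p₀ + ((v + z) * rmin) • a + ((v * t0 + z * t1) * rmin) • b := by
              module
          _ = p₀ + ((v + z) * rmin) • a + ((v + z) * rmin * ((v * t0 + z * t1) / (v + z))) • b := by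
              rw [huvz, one_smul, h3]
          _ = _ := by module
  · rw [area_proj_triangle e a b wc p₀ he ha hb hwc]
    congr 1
    have : (rmin - 0) * (t1 * rmin - 0) - (t0 * rmin - 0) * (rmin - 0) = (t1 - t0) * rmin ^ 2 := by
      ring
    rw [this, abs_of_nonneg (mul_nonneg (by linarith) (by positivity))]
    ring

/-- additivity of the integral along a `Fin`-indexed subdivision -/
theorem sum_integral_fin (f : ℝ → ℝ) : ∀ (N : ℕ) (t : Fin (N + 1) → ℝ),
    (∀ i j, IntervalIntegrable f volume (t i) (t j)) →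
    ∑ i : Fin N, ∫ x in (t i.castSucc)..(t i.succ), f x = ∫ x in (t 0)..(t (Fin.last N)), f x := by
  intro N
  induction N with
  | zero => intro t _; simp
  | succ n ih =>
    intro t ht
    rw [Fin.sum_univ_castSucc]
    have := ih (fun i => t i.castSucc) (fun i j => ht _ _)
    simp only [Fin.succ_castSucc] at *
    rw [this]
    have h0 : (Fin.castSucc (0 : Fin (n + 1))) = (0 : Fin (n + 2)) := rfl
    rw [h0, Fin.succ_last]
    exact intervalIntegral.integral_add_adjacent_intervals (ht _ _) (ht _ _)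

/-- telescoping of the mesh -/
theorem sum_mesh_fin (N : ℕ) (t : Fin (N + 1) → ℝ) :
    ∑ i : Fin N, (t i.succ - t i.castSucc) = t (Fin.last N) - t 0 := by
  have := sum_integral_fin (fun _ => (1 : ℝ)) N t (fun i j => intervalIntegrable_const)
  simpa using this

/-- Riemann sums with an error bound. -/
theorem riemann_fin (f : ℝ → ℝ) (N : ℕ) (t : Fin (N + 1) → ℝ) (ht : Monotone t)
    (hf : ContinuousOn f (Icc (t 0) (t (Fin.last N)))) (v : Fin N → ℝ) (ε : ℝ)
    (hv : ∀ i : Fin N, ∀ τ ∈ Icc (t i.castSucc) (t i.succ), |v i - f τ| ≤ ε) :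
    |∑ i : Fin N, (t i.succ - t i.castSucc) * v i - ∫ x in (t 0)..(t (Fin.last N)), f x|
      ≤ ε * (t (Fin.last N) - t 0) := by
  have hmem : ∀ i, t i ∈ Icc (t 0) (t (Fin.last N)) := fun i =>
    ⟨ht (Fin.zero_le i), ht (Fin.le_last i)⟩
  have hint : ∀ i j, IntervalIntegrable f volume (t i) (t j) := by
    intro i j
    apply ContinuousOn.intervalIntegrable
    apply hf.mono
    intro x hx
    rcases mem_uIcc.1 hx with h | h
    · exact ⟨(hmem i).1.trans h.1, h.2.trans (hmem j).2⟩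
    · exact ⟨(hmem j).1.trans h.1, h.2.trans (hmem i).2⟩
  rw [← sum_integral_fin f N t hint, ← Finset.sum_sub_distrib, ← sum_mesh_fin, Finset.mul_sum]
  refine (Finset.abs_sum_le_sum_abs _ _).trans (Finset.sum_le_sum fun i _ => ?_)
  have hle : t i.castSucc ≤ t i.succ := ht (Fin.castSucc_lt_succ).le
  have h1 : (t i.succ - t i.castSucc) * v i - ∫ x in (t i.castSucc)..(t i.succ), f x
      = ∫ x in (t i.castSucc)..(t i.succ), (v i - f x) := by
    rw [intervalIntegral.integral_sub intervalIntegrable_const (hint _ _)]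
    simp
  rw [h1]
  have := intervalIntegral.norm_integral_le_of_norm_le_const (a := t i.castSucc) (b := t i.succ)
    (f := fun x => v i - f x) (C := ε) (fun x hx => by
      rw [Real.norm_eq_abs]
      rw [uIoc_of_le hle] at hx
      exact hv i x ⟨hx.1.le, hx.2⟩)
  rw [Real.norm_eq_abs, abs_of_nonneg (sub_nonneg.2 hle)] at this
  exact this

/-- every point of `[t 0, t last]` lies in one of the cells. -/
theorem exists_cell (N : ℕ) (t : Fin (N + 1) → ℝ) (h : t 0 < t (Fin.last N)) (τ : ℝ)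
    (hτ : τ ∈ Icc (t 0) (t (Fin.last N))) :
    ∃ i : Fin N, τ ∈ Icc (t i.castSucc) (t i.succ) := by
  by_contra hcon
  have hcon := not_exists.1 hcon
  have key : ∀ j : Fin (N + 1), t j ≤ τ ∧ (j ≠ 0 → t j < τ) := by
    intro j
    induction j using Fin.induction with
    | zero => exact ⟨hτ.1, fun h => absurd rfl h⟩
    | succ i ih =>
      have : t i.succ < τ := by
        by_contra hh
        exact hcon i ⟨ih.1, not_lt.1 hh⟩
      exact ⟨this.le, fun _ => this⟩
  have hne : Fin.last N ≠ 0 := by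
    intro h0; rw [h0] at h; exact lt_irrefl _ h
  exact absurd ((key (Fin.last N)).2 hne) (not_lt.2 hτ.2)

/-- uniform continuity package for the Riemann sums of the sector lemma -/
theorem exists_delta {E : Type*} [NormedAddCommGroup E] (α β : ℝ) (R : ℝ → ℝ) (w : ℝ → E)
    (hR : ContinuousOn R (Icc α β)) (hw : ContinuousOn w (Icc α β)) (K ε : ℝ) (hε : 0 < ε) :
    ∃ δ : ℝ, 0 < δ ∧ ∀ x ∈ Icc α β, ∀ y ∈ Icc α β, ∀ τ ∈ Icc α β, ∀ d : ℝ, |x - τ| ≤ δ →
      |y - τ| ≤ δ → 0 ≤ d → d ≤ δ →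
      |(R x + K * d) ^ 2 / (2 * Real.sqrt (1 + ‖w y‖ ^ 2)) -
        R τ ^ 2 / (2 * Real.sqrt (1 + ‖w τ‖ ^ 2))| ≤ ε := by
  set G : ℝ × ℝ × ℝ → ℝ := fun z =>
    (R z.1 + K * z.2.2) ^ 2 / (2 * Real.sqrt (1 + ‖w z.2.1‖ ^ 2)) with hG
  set S : Set (ℝ × ℝ × ℝ) := Icc α β ×ˢ Icc α β ×ˢ Icc (0 : ℝ) 1 with hS
  have hScomp : IsCompact S := isCompact_Icc.prod (isCompact_Icc.prod isCompact_Icc)
  have hGc : ContinuousOn G S := by
    apply ContinuousOn.div
    · apply ContinuousOn.pow
      apply ContinuousOn.add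
      · exact hR.comp continuousOn_fst (fun z hz => hz.1)
      · exact (continuous_const.mul (continuous_snd.comp continuous_snd)).continuousOn
    · apply ContinuousOn.mul continuousOn_const
      apply ContinuousOn.sqrt
      apply ContinuousOn.add continuousOn_const
      apply ContinuousOn.pow
      apply ContinuousOn.norm
      exact hw.comp (continuous_fst.comp continuous_snd).continuousOn (fun z hz => hz.2.1)
    · intro z _
      have : 0 < Real.sqrt (1 + ‖w z.2.1‖ ^ 2) := Real.sqrt_pos.2 (by positivity)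
      positivity
  have hU := hScomp.uniformContinuousOn_of_continuous hGc
  rw [Metric.uniformContinuousOn_iff] at hU
  obtain ⟨δ0, hδ0, hU⟩ := hU ε hε
  refine ⟨min (δ0 / 2) 1, by positivity, ?_⟩
  intro x hx y hy τ hτ d hxτ hyτ hd0 hd
  have hlt : min (δ0 / 2) 1 < δ0 := lt_of_le_of_lt (min_le_left _ _) (by linarith)
  have h1 : (x, y, d) ∈ S := ⟨hx, hy, hd0, hd.trans (min_le_right _ _)⟩
  have h2 : (τ, τ, (0 : ℝ)) ∈ S := ⟨hτ, hτ, le_refl _, zero_le_one⟩
  have hdist : dist (x, y, d) (τ, τ, (0 : ℝ)) < δ0 := by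
    rw [Prod.dist_eq, Prod.dist_eq]
    simp only [Real.dist_eq, sub_zero]
    refine max_lt (lt_of_le_of_lt hxτ hlt) (max_lt (lt_of_le_of_lt hyτ hlt) ?_)
    rw [abs_of_nonneg hd0]
    exact lt_of_le_of_lt hd hlt
  have := hU _ h1 _ h2 hdist
  rw [Real.dist_eq] at this
  simp only [hG, mul_zero, add_zero] at this
  exact this.le

end Crest.Agent.S0324.Sector
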