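import Mathlib
import Crest.Agent.S0324_Sector

/-!
# Fan family (row 211): the sector lemma applied on a uniform subdivision
-/

set_option autoImplicit false
open MeasureTheory Measure Set

namespace Crest.Agent.S0324.Sector

/-- The sector lemma on all the cells of a uniform subdivision of `[α, β]` of mesh `h`. -/
theorem fan_family (e a b p₀ : E3) (he : ‖e‖ = 1) (ha : inner ℝ a e = 0) (hb : inner ℝ b e = 0)
    (hab : LinearIndependent ℝ ![a, b]) (L : ℝ) (hL : 0 < L) (α β : ℝ)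
    (w : ℝ → E3) (hw : ∀ t ∈ Icc α β, inner ℝ (w t) e = 0)
    (lam : ℝ → ℝ) (hlam : ContinuousOn lam (Icc α β))
    (hw' : ∀ t ∈ Icc α β, HasDerivWithinAt w (lam t • (a + t • b)) (Icc α β) t)
    (Lam : ℝ) (hLam : 0 < Lam) (hLamb : ∀ t ∈ Icc α β, |lam t| ≤ Lam)
    (R : ℝ → ℝ) (N : ℕ) (hN : 0 < N) (h : ℝ) (hh : 0 < h) (hNh : α + N * h = β)
    (c rmax : Fin N → ℝ)
    (hc : ∀ i : Fin N, c i ∈ Icc (α + (i : ℕ) * h) (α + ((i : ℕ) + 1) * h))
    (hr0 : ∀ i, 0 ≤ rmax i)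
    (hr : ∀ i : Fin N, ∀ τ ∈ Icc (α + (i : ℕ) * h) (α + ((i : ℕ) + 1) * h), R τ ≤ rmax i) :
    ∃ p q r : Fin N → E3,
      (∀ i, inner ℝ (p i) (e + w (c i)) = 0 ∧ inner ℝ (q i) (e + w (c i)) = 0 ∧
        inner ℝ (r i) (e + w (c i)) = 0) ∧
      (∀ i, AffineIndependent ℝ ![p i, q i, r i]) ∧
      {x : E3 | ∃ τ ∈ Icc α β, ∃ ρ ∈ Icc 0 (R τ), ∃ s : ℝ, |s| ≤ L ∧
          x = p₀ + ρ • (a + τ • b) + s • (e + w τ)} ⊆
        ⋃ i, {x : E3 | ∃ y ∈ convexHull ℝ ({p i, q i, r i} : Set E3), ∃ σ : ℝ,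
          x = y + σ • (e + w (c i))} ∧
      ∀ i, μHE[2] (convexHull ℝ ({p i, q i, r i} : Set E3)) = ENNReal.ofReal
        (Real.sqrt (gram a b) * (h / 2) * (rmax i + 5 * L * Lam * h) ^ 2
          / Real.sqrt (1 + ‖w (c i)‖ ^ 2)) := by
  have hlow : ∀ i : Fin N, α ≤ α + (i : ℕ) * h := fun i => by
    have : 0 ≤ ((i : ℕ) : ℝ) * h := by positivity
    linarith
  have hup : ∀ i : Fin N, α + ((i : ℕ) + 1) * h ≤ β := fun i => by
    rw [← hNh]
    have h1 : ((i : ℕ) : ℝ) + 1 ≤ N := by exact_mod_cast i.2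
    have := mul_le_mul_of_nonneg_right h1 hh.le
    linarith
  have hlt : ∀ i : Fin N, α + (i : ℕ) * h < α + ((i : ℕ) + 1) * h := fun i => by linarith
  have hout := fun i : Fin N => sector_outer e a b p₀ he ha hb hab L hL α β w hw lam hlam hw' Lam
    hLam hLamb (α + (i : ℕ) * h) (α + ((i : ℕ) + 1) * h) (c i) (rmax i) (hlow i) (hlt i) (hup i)
    (hc i) (hr0 i)
  choose p q r hp hq hr' haff hcont harea using hout
  refine ⟨p, q, r, fun i => ⟨hp i, hq i, hr' i⟩, haff, ?_, ?_⟩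
  · rintro x ⟨τ, hτ, ρ, hρ, s, hs, rfl⟩
    set t : Fin (N + 1) → ℝ := fun j => α + (j : ℕ) * h with ht
    have ht0 : t 0 = α := by simp [ht]
    have htN : t (Fin.last N) = β := by simp [ht, hNh]
    have hαβ : α < β := by
      rw [← hNh]
      have : 0 < (N : ℝ) * h := by positivity
      linarith
    obtain ⟨i, hi⟩ := exists_cell N t (by rw [ht0, htN]; exact hαβ) τ (by rw [ht0, htN]; exact hτ)
    have hi' : τ ∈ Icc (α + (i : ℕ) * h) (α + ((i : ℕ) + 1) * h) := by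
      simpa [ht] using hi
    refine mem_iUnion.2 ⟨i, _, hcont i τ hi' ρ ⟨hρ.1, hρ.2.trans (hr i τ hi')⟩ s hs,
      inner ℝ (p₀ + ρ • (a + τ • b) + s • (e + w τ)) (e + w (c i)) / ‖e + w (c i)‖ ^ 2, ?_⟩
    simp [proj]
  · intro i
    rw [harea i]
    have : α + ((i : ℕ) + 1) * h - (α + (i : ℕ) * h) = h := by ring
    rw [this]

end Crest.Agent.S0324.Sector
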