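import Mathlib
import Crest.Agent.S0324_Fan
import Crest.Agent.S0324_AreaSum

/-!
# Instantiation of the fan family for the concrete fans of the tetrahedron cover (row 211)
-/

set_option autoImplicit false
open MeasureTheory Measure Set

namespace Crest.Agent.S0324.FanInst

open Crest.Agent.S0324.Sector Crest.Agent.S0324.AreaSum

/-- the tilt of the axes of a fan with frame `a, b` -/
noncomputable def wfun (a b : E3) (t : ℝ) : E3 := (c0 * t / 2) • a + (c0 * (t ^ 2 + 1) / 4) • b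

theorem wfun_hasDeriv (a b : E3) (t : ℝ) :
    HasDerivAt (wfun a b) ((c0 / 2) • (a + t • b)) t := by
  have h1 : HasDerivAt (fun t : ℝ => c0 * t / 2) (c0 / 2) t := by
    have := ((hasDerivAt_id t).const_mul c0).div_const 2
    simpa using this
  have h2 : HasDerivAt (fun t : ℝ => c0 * (t ^ 2 + 1) / 4) (c0 * t / 2) t := by
    have := (((hasDerivAt_pow 2 t).add_const 1).const_mul c0).div_const 4
    refine this.congr_deriv ?_
    norm_num
    ring
  have h3 := (h1.smul_const a).add (h2.smul_const b)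
  have h4 : (c0 / 2) • (a + t • b) = (c0 / 2) • a + (c0 * t / 2) • b := by
    rw [smul_add, smul_smul]
    congr 2
    ring
  rw [h4]
  exact h3

theorem norm_wfun_sq (a b : E3) (hna : ‖a‖ ^ 2 = 2) (hnb : ‖b‖ ^ 2 = 1) (hab : inner ℝ a b = 0)
    (t : ℝ) : ‖wfun a b t‖ ^ 2 = wsq t := by
  unfold wfun wsq
  rw [norm_add_sq_real, norm_smul, norm_smul, inner_smul_left, inner_smul_right, hab, mul_pow,
    mul_pow, hna, hnb]
  simp only [Real.norm_eq_abs, sq_abs]
  simp
  ring

/-- One fan: `N` cylinders with total base area at most `√2 (1/4 - 10⁻⁸)`. -/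
theorem fan_inst (e a b p₀ : E3) (he : ‖e‖ = 1) (ha : inner ℝ a e = 0) (hb : inner ℝ b e = 0)
    (hna : ‖a‖ ^ 2 = 2) (hnb : ‖b‖ ^ 2 = 1) (hab : inner ℝ a b = 0) (N : ℕ) (hN : 4000000 ≤ N) :
    ∃ d p q r : Fin N → E3, (∀ i, d i ≠ 0) ∧
      (∀ i, inner ℝ (p i) (d i) = 0 ∧ inner ℝ (q i) (d i) = 0 ∧ inner ℝ (r i) (d i) = 0) ∧
      {x : E3 | ∃ τ ∈ Icc (-1 : ℝ) 1, ∃ ρ ∈ Icc 0 (Rf τ), ∃ s : ℝ, |s| ≤ 1 ∧
          x = p₀ + ρ • (a + τ • b) + s • (e + wfun a b τ)} ⊆
        ⋃ i, {x : E3 | ∃ y ∈ convexHull ℝ ({p i, q i, r i} : Set E3), ∃ σ : ℝ,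
          x = y + σ • d i} ∧
      ∑ i, (μHE[2] (convexHull ℝ ({p i, q i, r i} : Set E3))).toReal ≤
        Real.sqrt 2 * (1 / 4 - 1 / 10 ^ 8) := by
  have hN0 : 0 < N := by omega
  have hNR : (0 : ℝ) < N := by exact_mod_cast hN0
  set h : ℝ := 2 / (N : ℝ) with hh
  have hh0 : 0 < h := by positivity
  have hNh : (-1 : ℝ) + N * h = 1 := by
    rw [hh]; field_simp; norm_num
  have hc0 : (0 : ℝ) < c0 := by unfold c0; norm_num
  have hgram : gram a b = 2 := by
    unfold gram; rw [hna, hnb, hab]; norm_num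
  have hli : LinearIndependent ℝ ![a, b] := by
    rw [LinearIndependent.pair_iff]
    intro s t hst
    have h1 : inner ℝ (s • a + t • b) a = 0 := by rw [hst, inner_zero_left]
    have h2 : inner ℝ (s • a + t • b) b = 0 := by rw [hst, inner_zero_left]
    rw [inner_add_left, inner_smul_left, inner_smul_left, real_inner_self_eq_norm_sq, hna,
      real_inner_comm, hab] at h1
    rw [inner_add_left, inner_smul_left, inner_smul_left, real_inner_self_eq_norm_sq, hnb,
      hab] at h2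
    simp at h1 h2
    exact ⟨h1, h2⟩
  have hw : ∀ t ∈ Icc (-1 : ℝ) 1, inner ℝ (wfun a b t) e = 0 := by
    intro t _
    unfold wfun
    rw [inner_add_left, inner_smul_left, inner_smul_left, ha, hb]; simp
  set c : Fin N → ℝ := fun i => -1 + (i : ℕ) * h with hc
  have hcmem : ∀ i : Fin N, c i ∈ Icc (-1 + (i : ℕ) * h) (-1 + ((i : ℕ) + 1) * h) := fun i =>
    ⟨le_refl _, by simp only [hc]; linarith⟩
  have hcell : ∀ i : Fin N, ∀ τ ∈ Icc (-1 + (i : ℕ) * h) (-1 + ((i : ℕ) + 1) * h),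
      |τ| ≤ 1 ∧ |τ - c i| ≤ h := by
    intro i τ hτ
    have h1 : 0 ≤ ((i : ℕ) : ℝ) * h := by positivity
    have h2 : ((i : ℕ) : ℝ) + 1 ≤ N := by exact_mod_cast i.2
    have h3 := mul_le_mul_of_nonneg_right h2 hh0.le
    constructor
    · rw [abs_le]; constructor <;> linarith [hτ.1, hτ.2]
    · simp only [hc]
      rw [abs_le]; constructor <;> linarith [hτ.1, hτ.2]
  have hRf0 : ∀ t, 0 ≤ Rf t := by
    intro t
    unfold Rf kap
    positivity
  have hrm0 : ∀ i : Fin N, 0 ≤ rmax (c i) h := by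
    intro i
    unfold rmax
    have := hRf0 (c i)
    positivity
  obtain ⟨p, q, r, hperp, -, hcov, harea⟩ := fan_family e a b p₀ he ha hb hli 1 one_pos (-1) 1
    (wfun a b) hw (fun _ => c0 / 2) continuousOn_const
    (fun t _ => (wfun_hasDeriv a b t).hasDerivWithinAt) (c0 / 2) (by positivity)
    (fun t _ => by rw [abs_of_pos (by positivity)]) Rf N hN0 h hh0 hNh c (fun i => rmax (c i) h)
    hcmem hrm0 (fun i τ hτ => Rf_le_rmax (c i) τ h ((hcell i (c i) (hcmem i)).1) (hcell i τ hτ).1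
      (hcell i τ hτ).2)
  refine ⟨fun i => e + wfun a b (c i), p, q, r, ?_, hperp, hcov, ?_⟩
  · intro i h0
    have h1 : inner ℝ (e + wfun a b (c i)) e = 1 := by
      rw [inner_add_left, hw _ ⟨by linarith [(abs_le.1 (hcell i (c i) (hcmem i)).1).1],
        (abs_le.1 (hcell i (c i) (hcmem i)).1).2⟩, real_inner_self_eq_norm_sq, he]
      norm_num
    have h0' : e + wfun a b (c i) = 0 := h0
    rw [h0', inner_zero_left] at h1
    exact zero_ne_one h1
  · have hval : ∀ i : Fin N, (μHE[2] (convexHull ℝ ({p i, q i, r i} : Set E3))).toReal =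
        Real.sqrt 2 * ((h / 2) * (rmax (c i) h + 5 * 1 * (c0 / 2) * h) ^ 2 /
          Real.sqrt (1 + wsq (c i))) := by
      intro i
      rw [harea i, hgram, norm_wfun_sq a b hna hnb hab, ENNReal.toReal_ofReal]
      · ring
      · have := hrm0 i
        positivity
    rw [Finset.sum_congr rfl (fun i _ => hval i), ← Finset.mul_sum]
    apply mul_le_mul_of_nonneg_left _ (Real.sqrt_nonneg 2)
    exact area_sum_le N hN c hcmem

end Crest.Agent.S0324.FanInst
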