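import Crest.Agent.S0324_MinProj

/-!
# Padding / reindexing / normalisation lemmas and the final assembly of S0324 and S0325 (row 211)
-/

set_option autoImplicit false
open MeasureTheory Measure
open scoped ENNReal

namespace Crest.Agent.S0324

/-- What the explicit cover (package W4) has to deliver. -/
def CoreCover : Prop :=
  ∃ (m : ℕ) (u p q r : Fin m → E3), m + 1 ≤ 16000000 ∧ (∀ i, ‖u i‖ = 1) ∧
    (∀ i, inner ℝ (p i) (u i) = 0 ∧ inner ℝ (q i) (u i) = 0 ∧ inner ℝ (r i) (u i) = 0) ∧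
    tetra ⊆ ⋃ i, {x : E3 | ∃ b ∈ convexHull ℝ {p i, q i, r i}, ∃ t : ℝ, x = b + t • u i} ∧
    ∑ i, (μHE[2] (convexHull ℝ ({p i, q i, r i} : Set E3))).toReal ≤
      (1 / 2 - 1 / 10 ^ 9) * Real.sqrt 2

theorem area_triangle_toReal (p q r : E3) :
    (μHE[2] (convexHull ℝ ({p, q, r} : Set E3))).toReal = Real.sqrt (gram (q - p) (r - p)) / 2 := by
  rw [area_triangle, ENNReal.toReal_ofReal (by positivity)]

theorem area_zero_triangle :
    (μHE[2] (convexHull ℝ ({0, 0, 0} : Set E3))).toReal = 0 := by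
  rw [area_triangle_toReal]
  simp [gram]

theorem area_extra_triangle (a : ℝ) (ha : 0 ≤ a) :
    (μHE[2] (convexHull ℝ ({0, !₂[2 * a, 0, 0], !₂[0, 1, 0]} : Set E3))).toReal = a := by
  rw [area_triangle_toReal]
  have : gram ((!₂[2 * a, 0, 0] : E3) - 0) ((!₂[0, 1, 0] : E3) - 0) = (2 * a) ^ 2 := by
    simp [gram, EuclideanSpace.norm_sq_eq, Fin.sum_univ_three, PiLp.inner_apply]
  rw [this, Real.sqrt_sq (by positivity)]
  ring

/-- Padding: a cover by `m` triangular cylinders of total area `≤ A` can be turned into a cover by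
exactly `M ≥ m + 1` triangular cylinders of total area exactly `A`. -/
theorem pad {m : ℕ} (u p q r : Fin m → E3) (hu : ∀ i, ‖u i‖ = 1)
    (hperp : ∀ i, inner ℝ (p i) (u i) = 0 ∧ inner ℝ (q i) (u i) = 0 ∧ inner ℝ (r i) (u i) = 0)
    (S : Set E3)
    (hcov : S ⊆ ⋃ i, {x : E3 | ∃ b ∈ convexHull ℝ {p i, q i, r i}, ∃ t : ℝ, x = b + t • u i})
    (A : ℝ) (hA : ∑ i, (μHE[2] (convexHull ℝ ({p i, q i, r i} : Set E3))).toReal ≤ A)
    (M : ℕ) (hM : m + 1 ≤ M) :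
    ∃ (u' p' q' r' : Fin M → E3), (∀ i, ‖u' i‖ = 1) ∧
      (∀ i, inner ℝ (p' i) (u' i) = 0 ∧ inner ℝ (q' i) (u' i) = 0 ∧ inner ℝ (r' i) (u' i) = 0) ∧
      S ⊆ ⋃ i, {x : E3 | ∃ b ∈ convexHull ℝ {p' i, q' i, r' i}, ∃ t : ℝ, x = b + t • u' i} ∧
      ∑ i, (μHE[2] (convexHull ℝ ({p' i, q' i, r' i} : Set E3))).toReal = A := by
  obtain ⟨k, rfl⟩ : ∃ k, M = m + (k + 1) := by
    obtain ⟨k, hk⟩ := Nat.exists_eq_add_of_le hM
    exact ⟨k, by omega⟩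
  set a : ℝ := A - ∑ i, (μHE[2] (convexHull ℝ ({p i, q i, r i} : Set E3))).toReal with ha
  have ha0 : 0 ≤ a := by linarith
  refine ⟨Fin.append u (fun _ => !₂[0, 0, 1]), Fin.append p (fun _ => 0),
    Fin.append q (Fin.cons !₂[2 * a, 0, 0] (fun _ => 0)),
    Fin.append r (Fin.cons !₂[0, 1, 0] (fun _ => 0)), ?_, ?_, ?_, ?_⟩
  · intro i
    refine Fin.addCases (fun i => ?_) (fun j => ?_) i
    · simpa using hu i
    · simp [EuclideanSpace.norm_eq, Fin.sum_univ_three]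
  · intro i
    refine Fin.addCases (fun i => ?_) (fun j => ?_) i
    · simpa using hperp i
    · refine Fin.cases ?_ (fun j => ?_) j
      · simp [PiLp.inner_apply, Fin.sum_univ_three]
      · simp
  · intro x hx
    obtain ⟨i, hi⟩ := Set.mem_iUnion.mp (hcov hx)
    refine Set.mem_iUnion.mpr ⟨Fin.castAdd (k + 1) i, ?_⟩
    simpa using hi
  · rw [Fin.sum_univ_add, Fin.sum_univ_succ]
    simp only [Fin.append_left, Fin.append_right, Fin.cons_zero, Fin.cons_succ,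
      area_zero_triangle, area_extra_triangle a ha0, Finset.sum_const_zero, add_zero]
    rw [ha]; ring

/-- Normalisation + reindexing: input in the shape produced by `Sector.sector_outer`. -/
theorem CoreCover.of_proj {ι : Type*} [Fintype ι] (d p q r : ι → E3)
    (hcard : Fintype.card ι + 1 ≤ 16000000) (hd : ∀ i, d i ≠ 0)
    (hperp : ∀ i, inner ℝ (p i) (d i) = 0 ∧ inner ℝ (q i) (d i) = 0 ∧ inner ℝ (r i) (d i) = 0)
    (hcov : ∀ x ∈ tetra, ∃ i, proj (d i) x ∈ convexHull ℝ {p i, q i, r i})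
    (harea : ∑ i, (μHE[2] (convexHull ℝ ({p i, q i, r i} : Set E3))).toReal ≤
      (1 / 2 - 1 / 10 ^ 9) * Real.sqrt 2) : CoreCover := by
  let e := (Fintype.equivFin ι).symm
  refine ⟨Fintype.card ι, fun i => ‖d (e i)‖⁻¹ • d (e i), fun i => p (e i), fun i => q (e i),
    fun i => r (e i), hcard, ?_, ?_, ?_, ?_⟩
  · intro i
    rw [norm_smul, norm_inv, norm_norm, inv_mul_cancel₀ (norm_ne_zero_iff.mpr (hd _))]
  · intro i
    obtain ⟨h1, h2, h3⟩ := hperp (e i)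
    simp only [inner_smul_right, h1, h2, h3, mul_zero, and_self]
  · intro x hx
    obtain ⟨i, hi⟩ := hcov x hx
    refine Set.mem_iUnion.mpr ⟨e.symm i, proj (d i) x, by simpa using hi,
      (inner ℝ x (d i) / ‖d i‖ ^ 2) * ‖d i‖, ?_⟩
    have hn : ‖d i‖ ≠ 0 := norm_ne_zero_iff.mpr (hd i)
    simp only [Equiv.apply_symm_apply, proj, smul_smul]
    rw [mul_assoc, mul_inv_cancel₀ hn, mul_one]
    abel
  · rw [Equiv.sum_comp e (fun i => (μHE[2] (convexHull ℝ ({p i, q i, r i} : Set E3))).toReal)]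
    exact harea

/-- comparison of `μH[2]` with `μHE[2]` -/
theorem exists_const_muH : ∃ c : ℝ, 0 < c ∧ ∀ s : Set E3, (μH[(2 : ℝ)] s).toReal = c * (μHE[2] s).toReal := by
  set k := addHaarScalarFactor (volume : Measure (EuclideanSpace ℝ (Fin 2))) μH[((2 : ℕ) : ℝ)] with hk
  have hk0 : k ≠ 0 := addHaarScalarFactor_volume_hausdorffMeasure_ne_zero 2
  refine ⟨(k : ℝ)⁻¹, by positivity, fun s => ?_⟩
  rw [euclideanHausdorffMeasure_def, Measure.smul_apply, ← hk]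
  simp only [Nat.cast_ofNat]
  rw [ENNReal.smul_def, smul_eq_mul, ENNReal.toReal_mul, ENNReal.coe_toReal, ← mul_assoc,
    inv_mul_cancel₀ (by exact_mod_cast hk0), one_mul]

theorem S0324_of_core (h : CoreCover) :
    ∃ (m : ℕ) (u p q r : Fin m → EuclideanSpace ℝ (Fin 3)),
      (∀ i, ‖u i‖ = 1) ∧
      (∀ i, inner ℝ (p i) (u i) = 0 ∧ inner ℝ (q i) (u i) = 0 ∧ inner ℝ (r i) (u i) = 0) ∧
      convexHull ℝ {!₂[1, 0, 0], !₂[-1, 0, 0], !₂[0, 1, Real.sqrt 2], !₂[0, -1, Real.sqrt 2]} ⊆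
        ⋃ i, {x : EuclideanSpace ℝ (Fin 3) | ∃ b ∈ convexHull ℝ {p i, q i, r i}, ∃ t : ℝ, x = b + t • u i} ∧
      ∃ δ : ℝ, 0 < δ ∧ ∀ v : EuclideanSpace ℝ (Fin 3), ‖v‖ = 1 →
        ∑ i, (μH[(2 : ℝ)] (convexHull ℝ {p i, q i, r i})).toReal + δ ≤
          (μH[(2 : ℝ)] ((fun y => y - inner ℝ y v • v) '' convexHull ℝ {!₂[1, 0, 0], !₂[-1, 0, 0], !₂[0, 1, Real.sqrt 2], !₂[0, -1, Real.sqrt 2]})).toReal / 2 := by
  obtain ⟨m, u, p, q, r, -, hu, hperp, hcov, harea⟩ := h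
  obtain ⟨c, hc, hcs⟩ := exists_const_muH
  refine ⟨m, u, p, q, r, hu, hperp, hcov, c * (1 / 10 ^ 9 * Real.sqrt 2), by positivity, ?_⟩
  intro v hv
  simp only [hcs, ← Finset.mul_sum]
  have h1 : Real.sqrt 2 ≤ (μHE[2] ((fun y => y - inner ℝ y v • v) '' tetra)).toReal :=
    (ENNReal.ofReal_le_iff_le_toReal (minproj_lt_top v hv).ne).mp (minproj_ge v hv)
  have h2 : ∑ i, (μHE[2] (convexHull ℝ ({p i, q i, r i} : Set E3))).toReal +
      1 / 10 ^ 9 * Real.sqrt 2 ≤ (μHE[2] ((fun y => y - inner ℝ y v • v) '' tetra)).toReal / 2 := by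
    linarith
  calc _ = c * (∑ i, (μHE[2] (convexHull ℝ ({p i, q i, r i} : Set E3))).toReal +
      1 / 10 ^ 9 * Real.sqrt 2) := by ring
    _ ≤ c * ((μHE[2] ((fun y => y - inner ℝ y v • v) '' tetra)).toReal / 2) :=
      mul_le_mul_of_nonneg_left h2 hc.le
    _ = _ := by ring

theorem S0325_of_core (h : CoreCover) :
    ((∀ v : EuclideanSpace ℝ (Fin 3), ‖v‖ = 1 →
        ENNReal.ofReal (Real.sqrt 2) ≤ μHE[2] ((fun y => y - inner ℝ y v • v) '' convexHull ℝ {!₂[1, 0, 0], !₂[-1, 0, 0], !₂[0, 1, Real.sqrt 2], !₂[0, -1, Real.sqrt 2]})) ∧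
      ∃ v : EuclideanSpace ℝ (Fin 3), ‖v‖ = 1 ∧
        μHE[2] ((fun y => y - inner ℝ y v • v) '' convexHull ℝ {!₂[1, 0, 0], !₂[-1, 0, 0], !₂[0, 1, Real.sqrt 2], !₂[0, -1, Real.sqrt 2]}) = ENNReal.ofReal (Real.sqrt 2)) ∧
    ∀ ε : ℝ, 0 < ε → ε ≤ 1 / 2000 →
      ∃ (u p q r : Fin (2 * ⌈2 / ε ^ 2⌉₊) → EuclideanSpace ℝ (Fin 3)),
        (∀ i, ‖u i‖ = 1) ∧
        (∀ i, inner ℝ (p i) (u i) = 0 ∧ inner ℝ (q i) (u i) = 0 ∧ inner ℝ (r i) (u i) = 0) ∧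
        convexHull ℝ {!₂[1, 0, 0], !₂[-1, 0, 0], !₂[0, 1, Real.sqrt 2], !₂[0, -1, Real.sqrt 2]} ⊆
          ⋃ i, {x : EuclideanSpace ℝ (Fin 3) | ∃ b ∈ convexHull ℝ {p i, q i, r i}, ∃ t : ℝ, x = b + t • u i} ∧
        abs ((∑ i, (μHE[2] (convexHull ℝ ({p i, q i, r i} : Set (EuclideanSpace ℝ (Fin 3))))).toReal) / Real.sqrt 2 -
            (1 / 2 - 13 / 6000 * ε ^ 2)) ≤ 2 * ε ^ 4 := by
  refine ⟨⟨minproj_ge, minproj_attained⟩, ?_⟩
  intro ε hε hε'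
  obtain ⟨m, u, p, q, r, hm, hu, hperp, hcov, harea⟩ := h
  have hs : 0 < Real.sqrt 2 := by positivity
  have hε2 : ε ^ 2 ≤ 1 / 4000000 := by nlinarith
  have hM : m + 1 ≤ 2 * ⌈2 / ε ^ 2⌉₊ := by
    have h1 : (8000000 : ℝ) ≤ 2 / ε ^ 2 := by
      rw [le_div_iff₀ (by positivity)]
      nlinarith
    have h2 : (8000000 : ℝ) ≤ (⌈2 / ε ^ 2⌉₊ : ℝ) := h1.trans (Nat.le_ceil _)
    have h3 : 8000000 ≤ ⌈2 / ε ^ 2⌉₊ := by exact_mod_cast h2
    omega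
  obtain ⟨u', p', q', r', hu', hperp', hcov', harea'⟩ :=
    pad u p q r hu hperp tetra hcov ((1 / 2 - 13 / 6000 * ε ^ 2) * Real.sqrt 2)
      (harea.trans (mul_le_mul_of_nonneg_right (by nlinarith) hs.le)) _ hM
  refine ⟨u', p', q', r', hu', hperp', hcov', ?_⟩
  rw [harea', mul_div_assoc, div_self hs.ne', mul_one, sub_self, abs_zero]
  positivity

/-- Normalisation + reindexing: cylinders with non-normalised axes. -/
theorem CoreCover.of_cyl {ι : Type*} [Fintype ι] (d p q r : ι → E3)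
    (hcard : Fintype.card ι + 1 ≤ 16000000) (hd : ∀ i, d i ≠ 0)
    (hperp : ∀ i, inner ℝ (p i) (d i) = 0 ∧ inner ℝ (q i) (d i) = 0 ∧ inner ℝ (r i) (d i) = 0)
    (hcov : tetra ⊆ ⋃ i, {x : E3 | ∃ y ∈ convexHull ℝ {p i, q i, r i}, ∃ σ : ℝ, x = y + σ • d i})
    (harea : ∑ i, (μHE[2] (convexHull ℝ ({p i, q i, r i} : Set E3))).toReal ≤
      (1 / 2 - 1 / 10 ^ 9) * Real.sqrt 2) : CoreCover := by
  let e := (Fintype.equivFin ι).symm
  refine ⟨Fintype.card ι, fun i => ‖d (e i)‖⁻¹ • d (e i), fun i => p (e i), fun i => q (e i),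
    fun i => r (e i), hcard, ?_, ?_, ?_, ?_⟩
  · intro i
    rw [norm_smul, norm_inv, norm_norm, inv_mul_cancel₀ (norm_ne_zero_iff.mpr (hd _))]
  · intro i
    obtain ⟨h1, h2, h3⟩ := hperp (e i)
    simp only [inner_smul_right, h1, h2, h3, mul_zero, and_self]
  · intro x hx
    obtain ⟨i, y, hy, σ, rfl⟩ := Set.mem_iUnion.mp (hcov hx)
    refine Set.mem_iUnion.mpr ⟨e.symm i, y, by simpa using hy, σ * ‖d i‖, ?_⟩
    have hn : ‖d i‖ ≠ 0 := norm_ne_zero_iff.mpr (hd i)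
    simp only [Equiv.apply_symm_apply, smul_smul]
    rw [mul_assoc, mul_inv_cancel₀ hn, mul_one]
  · rw [Equiv.sum_comp e (fun i => (μHE[2] (convexHull ℝ ({p i, q i, r i} : Set E3))).toReal)]
    exact harea

/-- Two fans of `N` cylinders each. -/
theorem CoreCover.of_two_fans {N : ℕ} (hN : 2 * N + 1 ≤ 16000000)
    (d₁ p₁ q₁ r₁ d₂ p₂ q₂ r₂ : Fin N → E3) (hd₁ : ∀ i, d₁ i ≠ 0) (hd₂ : ∀ i, d₂ i ≠ 0)
    (hperp₁ : ∀ i, inner ℝ (p₁ i) (d₁ i) = 0 ∧ inner ℝ (q₁ i) (d₁ i) = 0 ∧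
      inner ℝ (r₁ i) (d₁ i) = 0)
    (hperp₂ : ∀ i, inner ℝ (p₂ i) (d₂ i) = 0 ∧ inner ℝ (q₂ i) (d₂ i) = 0 ∧
      inner ℝ (r₂ i) (d₂ i) = 0)
    (hcov : tetra ⊆
      (⋃ i, {x : E3 | ∃ y ∈ convexHull ℝ {p₁ i, q₁ i, r₁ i}, ∃ σ : ℝ, x = y + σ • d₁ i}) ∪
      (⋃ i, {x : E3 | ∃ y ∈ convexHull ℝ {p₂ i, q₂ i, r₂ i}, ∃ σ : ℝ, x = y + σ • d₂ i}))
    (harea₁ : ∑ i, (μHE[2] (convexHull ℝ ({p₁ i, q₁ i, r₁ i} : Set E3))).toReal ≤
      (1 / 4 - 1 / 10 ^ 8) * Real.sqrt 2)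
    (harea₂ : ∑ i, (μHE[2] (convexHull ℝ ({p₂ i, q₂ i, r₂ i} : Set E3))).toReal ≤
      (1 / 4 - 1 / 10 ^ 8) * Real.sqrt 2) : CoreCover := by
  refine CoreCover.of_cyl (ι := Fin N ⊕ Fin N) (Sum.elim d₁ d₂) (Sum.elim p₁ p₂) (Sum.elim q₁ q₂)
    (Sum.elim r₁ r₂) ?_ ?_ ?_ ?_ ?_
  · simp only [Fintype.card_sum, Fintype.card_fin]; omega
  · rintro (i | i)
    · exact hd₁ i
    · exact hd₂ i
  · rintro (i | i)
    · exact hperp₁ i
    · exact hperp₂ i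
  · intro x hx
    rcases hcov hx with h | h
    · obtain ⟨i, hi⟩ := Set.mem_iUnion.mp h
      exact Set.mem_iUnion.mpr ⟨Sum.inl i, hi⟩
    · obtain ⟨i, hi⟩ := Set.mem_iUnion.mp h
      exact Set.mem_iUnion.mpr ⟨Sum.inr i, hi⟩
  · rw [Fintype.sum_sum_type]
    simp only [Sum.elim_inl, Sum.elim_inr]
    have hs : 0 < Real.sqrt 2 := by positivity
    nlinarith

end Crest.Agent.S0324
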