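import Mathlib
import Crest.Agent.S0324_FanInst
import Crest.Agent.S0324_Pad

/-!
# `CoreCover` from the two fans (row 211)
-/

set_option autoImplicit false
open MeasureTheory Measure Set

namespace Crest.Agent.S0324.FanInst

open Crest.Agent.S0324.Sector Crest.Agent.S0324.AreaSum

/-- the solid fan with frame `e, a, b` and apex `p₀` -/
def fanSet (e a b p₀ : E3) : Set E3 :=
  {x : E3 | ∃ τ ∈ Icc (-1 : ℝ) 1, ∃ ρ ∈ Icc 0 (Rf τ), ∃ s : ℝ, |s| ≤ 1 ∧
    x = p₀ + ρ • (a + τ • b) + s • (e + wfun a b τ)}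

theorem proj_eq_of_cylinder (d p q r x y : E3) (σ : ℝ) (hp : inner ℝ p d = 0)
    (hq : inner ℝ q d = 0) (hr : inner ℝ r d = 0) (hy : y ∈ convexHull ℝ ({p, q, r} : Set E3))
    (hx : x = y + σ • d) : proj d x = y := by
  obtain ⟨u, v, z, -, -, -, -, rfl⟩ := Sector.mem_convexHull_triple.1 hy
  have h0 : inner ℝ (u • p + v • q + z • r) d = 0 := by
    simp only [inner_add_left, inner_smul_left, hp, hq, hr]; simp
  rw [hx, Sector.proj_add, Sector.proj_smul, Sector.proj_self, smul_zero, add_zero]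
  unfold proj
  rw [h0]; simp

/-- bottom frame -/
noncomputable def eB : E3 := !₂[1, 0, 0]
noncomputable def aB : E3 := !₂[0, 0, Real.sqrt 2]
noncomputable def bB : E3 := !₂[0, 1, 0]
/-- top frame -/
noncomputable def eT : E3 := !₂[0, 1, 0]
noncomputable def aT : E3 := !₂[0, 0, -Real.sqrt 2]
noncomputable def bT : E3 := !₂[-1, 0, 0]
noncomputable def pT : E3 := !₂[0, 0, Real.sqrt 2]

/-- The two fans give the core cover. -/
theorem coreCover_of_fans
    (hfans : ∀ P ∈ tetra, P ∈ fanSet eB aB bB 0 ∨ P ∈ fanSet eT aT bT pT) : CoreCover := by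
  have hs2 : Real.sqrt 2 ^ 2 = 2 := Real.sq_sqrt (by norm_num)
  obtain ⟨d1, p1, q1, r1, hd1, hperp1, hcov1, harea1⟩ := fan_inst eB aB bB 0
    (by simp [eB, EuclideanSpace.norm_eq, Fin.sum_univ_three])
    (by simp [eB, aB, PiLp.inner_apply, Fin.sum_univ_three])
    (by simp [eB, bB, PiLp.inner_apply, Fin.sum_univ_three])
    (by simp [aB, EuclideanSpace.norm_sq_eq, Fin.sum_univ_three])
    (by simp [bB, EuclideanSpace.norm_sq_eq, Fin.sum_univ_three])
    (by simp [aB, bB, PiLp.inner_apply, Fin.sum_univ_three]) 4000000 (le_refl _)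
  obtain ⟨d2, p2, q2, r2, hd2, hperp2, hcov2, harea2⟩ := fan_inst eT aT bT pT
    (by simp [eT, EuclideanSpace.norm_eq, Fin.sum_univ_three])
    (by simp [eT, aT, PiLp.inner_apply, Fin.sum_univ_three])
    (by simp [eT, bT, PiLp.inner_apply, Fin.sum_univ_three])
    (by simp [aT, EuclideanSpace.norm_sq_eq, Fin.sum_univ_three])
    (by simp [bT, EuclideanSpace.norm_sq_eq, Fin.sum_univ_three])
    (by simp [aT, bT, PiLp.inner_apply, Fin.sum_univ_three]) 4000000 (le_refl _)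
  refine CoreCover.of_proj (ι := Fin 4000000 ⊕ Fin 4000000) (Sum.elim d1 d2) (Sum.elim p1 p2)
    (Sum.elim q1 q2) (Sum.elim r1 r2) (by simp) ?_ ?_ ?_ ?_
  · rintro (i | i)
    · exact hd1 i
    · exact hd2 i
  · rintro (i | i)
    · exact hperp1 i
    · exact hperp2 i
  · intro x hx
    rcases hfans x hx with h | h
    · obtain ⟨i, y, hy, σ, hxy⟩ := mem_iUnion.1 (hcov1 h)
      refine ⟨Sum.inl i, ?_⟩
      simp only [Sum.elim_inl]
      rw [proj_eq_of_cylinder (d1 i) (p1 i) (q1 i) (r1 i) x y σ (hperp1 i).1 (hperp1 i).2.1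
        (hperp1 i).2.2 hy hxy]
      exact hy
    · obtain ⟨i, y, hy, σ, hxy⟩ := mem_iUnion.1 (hcov2 h)
      refine ⟨Sum.inr i, ?_⟩
      simp only [Sum.elim_inr]
      rw [proj_eq_of_cylinder (d2 i) (p2 i) (q2 i) (r2 i) x y σ (hperp2 i).1 (hperp2 i).2.1
        (hperp2 i).2.2 hy hxy]
      exact hy
  · rw [Fintype.sum_sum_type]
    simp only [Sum.elim_inl, Sum.elim_inr]
    have hs : 0 ≤ Real.sqrt 2 := Real.sqrt_nonneg 2
    nlinarith

end Crest.Agent.S0324.FanInst
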