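import Crest.Agent.S0324_MinProj
import Crest.Agent.S0324_AreaSum

/-!
# Fan coordinates on the standard tetrahedron (row 211, package W4)
-/

set_option autoImplicit false
set_option linter.deprecated false
set_option linter.unusedSimpArgs false
open MeasureTheory Measure

namespace Crest.Agent.S0324

/-- coordinates of points of the tetrahedron: with `τ = z/√2`: `|x| ≤ 1 - τ`, `|y| ≤ τ`. -/
theorem tetra_coords (P : E3) (hP : P ∈ tetra) :
    |P 0| ≤ 1 - P 2 / Real.sqrt 2 ∧ |P 1| ≤ P 2 / Real.sqrt 2 := by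
  have hs : (0:ℝ) < Real.sqrt 2 := by positivity
  have hsub : tetra ⊆ {P : E3 | |P 0| ≤ 1 - P 2 / Real.sqrt 2 ∧ |P 1| ≤ P 2 / Real.sqrt 2} := by
    apply convexHull_min
    · intro x hx
      simp only [Set.mem_insert_iff, Set.mem_singleton_iff] at hx
      rcases hx with rfl | rfl | rfl | rfl <;> simp [hs.ne']
    · intro x hx y hy a b ha hb hab
      simp only [Set.mem_setOf_eq, abs_le] at hx hy ⊢
      obtain ⟨⟨hx1, hx2⟩, hx3, hx4⟩ := hx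
      obtain ⟨⟨hy1, hy2⟩, hy3, hy4⟩ := hy
      simp only [PiLp.add_apply, PiLp.smul_apply, smul_eq_mul, add_div, mul_div_assoc]
      generalize x.ofLp 2 / Real.sqrt 2 = tx at *
      generalize y.ofLp 2 / Real.sqrt 2 = ty at *
      have hb' : b = 1 - a := by linarith
      subst hb'
      refine ⟨⟨?_, ?_⟩, ?_, ?_⟩ <;> nlinarith
  exact hsub hP

/-- The scalar fan equation: `F t = τ t + (k/2)(1 - t²)` takes the value `y` on the branch where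
`F' t = τ - k t ≥ 0`. -/
theorem fan_root (k y τ : ℝ) (hy : |y| ≤ τ) :
    ∃ t ∈ Set.Icc (-1 : ℝ) 1, τ * t + k / 2 * (1 - t ^ 2) = y ∧ 0 ≤ τ - k * t := by
  have hτ : 0 ≤ τ := le_trans (abs_nonneg _) hy
  obtain ⟨hy1, hy2⟩ := abs_le.mp hy
  have hcont : ∀ s : Set ℝ, ContinuousOn (fun t : ℝ => τ * t + k / 2 * (1 - t ^ 2)) s := by
    intro s; fun_prop
  rcases lt_trichotomy τ k with hk | hk | hk
  · -- k > τ ≥ 0
    have hk0 : 0 < k := lt_of_le_of_lt hτ hk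
    have hle : (-1 : ℝ) ≤ τ / k := le_trans (by norm_num) (div_nonneg hτ hk0.le)
    have hlt1 : τ / k ≤ 1 := by rw [div_le_one hk0]; exact hk.le
    have hmem : y ∈ Set.Icc ((fun t : ℝ => τ * t + k / 2 * (1 - t ^ 2)) (-1))
        ((fun t : ℝ => τ * t + k / 2 * (1 - t ^ 2)) (τ / k)) := by
      constructor
      · simp only; nlinarith
      · simp only
        have : τ * (τ / k) + k / 2 * (1 - (τ / k) ^ 2) = τ + (k - τ) ^ 2 / (2 * k) := by
          field_simp; ring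
        rw [this]
        have : 0 ≤ (k - τ) ^ 2 / (2 * k) := by positivity
        linarith
    obtain ⟨t, ht, hFt⟩ := intermediate_value_Icc hle (hcont _) hmem
    refine ⟨t, ⟨ht.1, le_trans ht.2 hlt1⟩, hFt, ?_⟩
    have : k * t ≤ k * (τ / k) := mul_le_mul_of_nonneg_left ht.2 hk0.le
    rw [mul_div_cancel₀ _ hk0.ne'] at this
    linarith
  · -- k = τ
    have hmem : y ∈ Set.Icc ((fun t : ℝ => τ * t + k / 2 * (1 - t ^ 2)) (-1))
        ((fun t : ℝ => τ * t + k / 2 * (1 - t ^ 2)) 1) := by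
      constructor <;> simp only <;> nlinarith
    obtain ⟨t, ht, hFt⟩ := intermediate_value_Icc (by norm_num) (hcont _) hmem
    refine ⟨t, ht, hFt, ?_⟩
    rw [← hk]; nlinarith [ht.2]
  · -- k < τ
    by_cases hk2 : -τ ≤ k
    · have hmem : y ∈ Set.Icc ((fun t : ℝ => τ * t + k / 2 * (1 - t ^ 2)) (-1))
          ((fun t : ℝ => τ * t + k / 2 * (1 - t ^ 2)) 1) := by
        constructor <;> simp only <;> nlinarith
      obtain ⟨t, ht, hFt⟩ := intermediate_value_Icc (by norm_num) (hcont _) hmem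
      refine ⟨t, ht, hFt, ?_⟩
      have h1 : |k * t| ≤ τ := by
        rw [abs_mul]
        have hkabs : |k| ≤ τ := abs_le.mpr ⟨hk2, hk.le⟩
        have htabs : |t| ≤ 1 := abs_le.mpr ⟨ht.1, ht.2⟩
        calc |k| * |t| ≤ τ * 1 := mul_le_mul hkabs htabs (abs_nonneg _) hτ
          _ = τ := mul_one _
      linarith [(abs_le.mp h1).2]
    · push Not at hk2
      have hk0 : k < 0 := by linarith
      have hkne : k ≠ 0 := hk0.ne
      have hle : τ / k ≤ (1 : ℝ) := le_trans (div_nonpos_of_nonneg_of_nonpos hτ hk0.le) (by norm_num)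
      have hge : (-1 : ℝ) ≤ τ / k := by
        rw [le_div_iff_of_neg hk0]; linarith
      have hmem : y ∈ Set.Icc ((fun t : ℝ => τ * t + k / 2 * (1 - t ^ 2)) (τ / k))
          ((fun t : ℝ => τ * t + k / 2 * (1 - t ^ 2)) 1) := by
        constructor
        · simp only
          have : τ * (τ / k) + k / 2 * (1 - (τ / k) ^ 2) = -τ + (k + τ) ^ 2 / (2 * k) := by
            field_simp; ring
          rw [this]
          have : (k + τ) ^ 2 / (2 * k) ≤ 0 :=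
            div_nonpos_of_nonneg_of_nonpos (by positivity) (by linarith)
          linarith
        · simp only; nlinarith
      obtain ⟨t, ht, hFt⟩ := intermediate_value_Icc hle (hcont _) hmem
      refine ⟨t, ⟨le_trans hge ht.1, ht.2⟩, hFt, ?_⟩
      have : k * t ≤ k * (τ / k) := mul_le_mul_of_nonpos_left ht.1 hk0.le
      rw [mul_div_cancel₀ _ hk0.ne] at this
      linarith

theorem abs_mul_le_one' {a b : ℝ} (ha : |a| ≤ 1) (hb : |b| ≤ 1) : |a * b| ≤ 1 := by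
  rw [abs_mul]
  calc |a| * |b| ≤ 1 * 1 := mul_le_mul ha hb (abs_nonneg _) (by norm_num)
    _ = 1 := by norm_num

/-- The covering inequality. -/
theorem cover_ineq (ε κ x y τ t t' : ℝ) (hε : 0 < ε) (hκ : 0 ≤ κ) (hεκ : 7 * ε ≤ 32 * κ)
    (hx : |x| ≤ 1) (hy : |y| ≤ 1) (ht : |t| ≤ 1) (ht' : |t'| ≤ 1)
    (h1 : τ * t + ε * x / 4 * (1 - t ^ 2) = y)
    (h2 : (1 - τ) * t' + ε * y / 4 * (1 - t' ^ 2) = -x) :
    τ - ε * x * t / 2 ≤ 1 / 2 + ε ^ 2 * ((t ^ 2 + t ^ 4) / 16 + κ) ∨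
      (1 - τ) - ε * y * t' / 2 ≤ 1 / 2 + ε ^ 2 * ((t' ^ 2 + t' ^ 4) / 16 + κ) := by
  by_contra hcon
  push Not at hcon
  obtain ⟨H1, H2⟩ := hcon
  obtain ⟨u, hτ⟩ : ∃ u, τ = (1 + u) / 2 := ⟨2 * τ - 1, by ring⟩
  subst hτ
  obtain ⟨r, hr⟩ : ∃ r, r = (t ^ 2 + t ^ 4) / 16 := ⟨_, rfl⟩
  obtain ⟨r', hr'⟩ : ∃ r', r' = (t' ^ 2 + t' ^ 4) / 16 := ⟨_, rfl⟩
  rw [← hr] at H1
  rw [← hr'] at H2
  have hr0 : 0 ≤ r := by rw [hr]; positivity
  have hr'0 : 0 ≤ r' := by rw [hr']; positivity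
  have hxt : |x * t| ≤ 1 := abs_mul_le_one' hx ht
  have hyt' : |y * t'| ≤ 1 := abs_mul_le_one' hy ht'
  have hyt : |y * t| ≤ 1 := abs_mul_le_one' hy ht
  have hxt' : |x * t'| ≤ 1 := abs_mul_le_one' hx ht'
  have htt' : |t * t'| ≤ 1 := abs_mul_le_one' ht ht'
  have ht2 : t ^ 2 ≤ 1 := by rw [← sq_abs]; exact pow_le_one₀ (abs_nonneg _) ht
  have ht'2 : t' ^ 2 ≤ 1 := by rw [← sq_abs]; exact pow_le_one₀ (abs_nonneg _) ht'
  have ε2 : 0 < ε ^ 2 := by positivity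
  have hrk : 0 ≤ ε ^ 2 * (r + κ) := mul_nonneg ε2.le (add_nonneg hr0 hκ)
  have hrk' : 0 ≤ ε ^ 2 * (r' + κ) := mul_nonneg ε2.le (add_nonneg hr'0 hκ)
  have H1' : ε * (x * t) + 2 * (ε ^ 2 * (r + κ)) < u := by linarith
  have H2' : ε * (y * t') + 2 * (ε ^ 2 * (r' + κ)) < -u := by linarith
  have hu1 : -ε < u := by
    have : ε * (-1) ≤ ε * (x * t) := mul_le_mul_of_nonneg_left (abs_le.mp hxt).1 hε.le
    linarith
  have hu2 : u < ε := by
    have : ε * (-1) ≤ ε * (y * t') := mul_le_mul_of_nonneg_left (abs_le.mp hyt').1 hε.le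
    linarith
  have huabs : |u| ≤ ε := abs_le.mpr ⟨hu1.le, hu2.le⟩
  obtain ⟨A, hA⟩ : ∃ A, A = x * t + y * t' := ⟨_, rfl⟩
  have hAneg : 2 * ε * (r + r' + 2 * κ) < -A := by
    have h3 : ε * (A + 2 * ε * (r + r' + 2 * κ)) < 0 := by
      have : ε * (A + 2 * ε * (r + r' + 2 * κ)) =
          (ε * (x * t) + 2 * (ε ^ 2 * (r + κ))) + (ε * (y * t') + 2 * (ε ^ 2 * (r' + κ))) := by
        rw [hA]; ring
      rw [this]; linarith
    by_contra hge
    push Not at hge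
    have : 0 ≤ ε * (A + 2 * ε * (r + r' + 2 * κ)) := mul_nonneg hε.le (by linarith)
    linarith
  obtain ⟨Θ, hΘ⟩ : ∃ Θ, Θ = 1 + ε ^ 2 / 16 * (1 - t ^ 2) * (1 - t' ^ 2) := ⟨_, rfl⟩
  have hΘ1 : 1 ≤ Θ := by
    rw [hΘ]
    have : 0 ≤ ε ^ 2 / 16 * (1 - t ^ 2) * (1 - t' ^ 2) :=
      mul_nonneg (mul_nonneg (by positivity) (by linarith)) (by linarith)
    linarith
  have hid : -A * Θ = -(u * (t * t')) + ε / 8 * (t ^ 2 + t' ^ 2 - 2 * t ^ 2 * t' ^ 2 + u * (t ^ 2 - t' ^ 2)) := by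
    rw [hA, hΘ]
    linear_combination (t' - ε / 4 * (1 - t' ^ 2) * t) * h1 + (- t - ε / 4 * (1 - t ^ 2) * t') * h2
  have hxt_eq : x * t = -((1 - u) / 2 * (t * t')) - ε / 4 * ((y * t) * (1 - t' ^ 2)) := by
    linear_combination t * h2
  have hyt'_eq : y * t' = (1 + u) / 2 * (t * t') + ε / 4 * ((x * t') * (1 - t ^ 2)) := by
    linear_combination (-t') * h1
  obtain ⟨m, hm⟩ : ∃ m, m = t * t' := ⟨_, rfl⟩
  rw [← hm] at hid hxt_eq hyt'_eq htt'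
  have hm2 : m ^ 2 = t ^ 2 * t' ^ 2 := by rw [hm]; ring
  have hm2le : |m ^ 2| ≤ 1 := by rw [abs_pow]; exact pow_le_one₀ (abs_nonneg _) htt'
  have h1t : |1 - t ^ 2| ≤ 1 := abs_le.mpr ⟨by linarith, by linarith [sq_nonneg t]⟩
  have h1t' : |1 - t' ^ 2| ≤ 1 := abs_le.mpr ⟨by linarith, by linarith [sq_nonneg t']⟩
  have hdt : |t ^ 2 - t' ^ 2| ≤ 1 := abs_le.mpr ⟨by linarith [sq_nonneg t], by linarith [sq_nonneg t']⟩
  have hscale : ∀ a b : ℝ, |a| ≤ ε → |b| ≤ 1 → |a * b| ≤ ε := by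
    intro a b ha hb
    rw [abs_mul]
    calc |a| * |b| ≤ ε * 1 := mul_le_mul ha hb (abs_nonneg _) hε.le
      _ = ε := mul_one _
  have hb1 : |u * m ^ 2| ≤ ε := hscale _ _ huabs hm2le
  have hb3 : |u * (t ^ 2 - t' ^ 2)| ≤ ε := hscale _ _ huabs hdt
  have hb2 : |m * ((y * t) * (1 - t' ^ 2))| ≤ 1 := abs_mul_le_one' htt' (abs_mul_le_one' hyt h1t')
  have hb2' : |m * ((x * t') * (1 - t ^ 2))| ≤ 1 := abs_mul_le_one' htt' (abs_mul_le_one' hxt' h1t)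
  have hum : -(u * m) ≤ ε * m ^ 2 / 2 + 3 / 4 * ε ^ 2 := by
    rcases le_total 0 m with hm0 | hm0
    · have hmul : m * (ε * (x * t) + 2 * (ε ^ 2 * (r + κ))) ≤ m * u :=
        mul_le_mul_of_nonneg_left H1'.le hm0
      have hnn : 0 ≤ m * (2 * (ε ^ 2 * (r + κ))) := mul_nonneg hm0 (by linarith)
      have e1 : m * (ε * (x * t)) = -(ε * m ^ 2 / 2) + ε / 2 * (u * m ^ 2)
          - ε ^ 2 / 4 * (m * ((y * t) * (1 - t' ^ 2))) := by
        rw [hxt_eq]; ring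
      have g1 : ε / 2 * (u * m ^ 2) ≥ ε / 2 * (-ε) :=
        mul_le_mul_of_nonneg_left (abs_le.mp hb1).1 (by positivity)
      have g2 : ε ^ 2 / 4 * (m * ((y * t) * (1 - t' ^ 2))) ≤ ε ^ 2 / 4 * 1 :=
        mul_le_mul_of_nonneg_left (abs_le.mp hb2).2 (by positivity)
      have : m * (ε * (x * t) + 2 * (ε ^ 2 * (r + κ))) = m * (ε * (x * t)) + m * (2 * (ε ^ 2 * (r + κ))) := by
        ring
      linarith
    · have hmul : (-m) * (ε * (y * t') + 2 * (ε ^ 2 * (r' + κ))) ≤ (-m) * (-u) :=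
        mul_le_mul_of_nonneg_left H2'.le (by linarith)
      have hnn : 0 ≤ (-m) * (2 * (ε ^ 2 * (r' + κ))) := mul_nonneg (by linarith) (by linarith)
      have e1 : (-m) * (ε * (y * t')) = -(ε * m ^ 2 / 2) - ε / 2 * (u * m ^ 2)
          - ε ^ 2 / 4 * (m * ((x * t') * (1 - t ^ 2))) := by
        rw [hyt'_eq]; ring
      have g1 : ε / 2 * (u * m ^ 2) ≤ ε / 2 * ε :=
        mul_le_mul_of_nonneg_left (abs_le.mp hb1).2 (by positivity)
      have g2 : ε ^ 2 / 4 * (m * ((x * t') * (1 - t ^ 2))) ≤ ε ^ 2 / 4 * 1 :=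
        mul_le_mul_of_nonneg_left (abs_le.mp hb2').2 (by positivity)
      have : (-m) * (ε * (y * t') + 2 * (ε ^ 2 * (r' + κ))) = (-m) * (ε * (y * t')) + (-m) * (2 * (ε ^ 2 * (r' + κ))) := by
        ring
      linarith
  have hApos : 0 < -A := lt_of_le_of_lt (by positivity) hAneg
  have hAΘ : -A ≤ -A * Θ := by
    have : 0 ≤ -A * (Θ - 1) := mul_nonneg hApos.le (by linarith)
    linarith
  have g3 : ε / 8 * (u * (t ^ 2 - t' ^ 2)) ≤ ε / 8 * ε :=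
    mul_le_mul_of_nonneg_left (abs_le.mp hb3).2 (by positivity)
  have hsq : 0 ≤ ε / 8 * (t ^ 2 - t' ^ 2) ^ 2 := by positivity
  have hfin : ε * (7 * ε) ≤ ε * (32 * κ) := mul_le_mul_of_nonneg_left hεκ hε.le
  have hexp : 2 * ε * (r + r' + 2 * κ) = ε / 8 * (t ^ 2 + t ^ 4 + t' ^ 2 + t' ^ 4) + 4 * (ε * κ) := by
    rw [hr, hr']; ring
  have hid' : -A * Θ = -(u * m) + ε / 8 * (t ^ 2 + t' ^ 2 - 2 * m ^ 2) + ε / 8 * (u * (t ^ 2 - t' ^ 2)) := by
    rw [hid, hm2]; ring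
  have hsq' : ε / 8 * (t ^ 2 - t' ^ 2) ^ 2 = ε / 8 * (t ^ 4 + t' ^ 4) - ε / 4 * m ^ 2 := by
    rw [hm2]; ring
  linarith

/-- frames of the two fans -/
noncomputable abbrev eB : E3 := !₂[1, 0, 0]
noncomputable abbrev aB : E3 := !₂[0, 0, Real.sqrt 2]
noncomputable abbrev bB : E3 := !₂[0, 1, 0]
noncomputable abbrev eT : E3 := !₂[0, 1, 0]
noncomputable abbrev aT : E3 := !₂[0, 0, -Real.sqrt 2]
noncomputable abbrev bT : E3 := !₂[-1, 0, 0]
noncomputable abbrev pT : E3 := !₂[0, 0, Real.sqrt 2]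

open AreaSum in
/-- Every point of the tetrahedron lies in the bottom fan or in the top fan. -/
theorem tetra_subset_fans (P : E3) (hP : P ∈ tetra) :
    (∃ t ∈ Set.Icc (-1 : ℝ) 1, ∃ ρ ∈ Set.Icc 0 (Rf t), ∃ s : ℝ, |s| ≤ 1 ∧
      P = (0 : E3) + ρ • (aB + t • bB) + s • (eB + ((c0 * t / 2) • aB + (c0 * (t ^ 2 + 1) / 4) • bB))) ∨
    (∃ t ∈ Set.Icc (-1 : ℝ) 1, ∃ ρ ∈ Set.Icc 0 (Rf t), ∃ s : ℝ, |s| ≤ 1 ∧
      P = pT + ρ • (aT + t • bT) + s • (eT + ((c0 * t / 2) • aT + (c0 * (t ^ 2 + 1) / 4) • bT))) := by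
  obtain ⟨hx, hy⟩ := tetra_coords P hP
  have hs : (0:ℝ) < Real.sqrt 2 := by positivity
  obtain ⟨τ, hτ⟩ : ∃ τ, τ = P 2 / Real.sqrt 2 := ⟨_, rfl⟩
  have hz : P 2 = Real.sqrt 2 * τ := by rw [hτ]; field_simp
  rw [← hτ] at hx hy
  obtain ⟨x, hxd⟩ : ∃ x, x = P 0 := ⟨_, rfl⟩
  obtain ⟨y, hyd⟩ : ∃ y, y = P 1 := ⟨_, rfl⟩
  rw [← hxd] at hx
  rw [← hyd] at hy
  have hτ0 : 0 ≤ τ := le_trans (abs_nonneg _) hy
  have hτ1 : τ ≤ 1 := by linarith [abs_nonneg x]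
  have hx1 : |x| ≤ 1 := by linarith
  have hy1 : |y| ≤ 1 := by linarith
  obtain ⟨t, ht, hFt, hρ⟩ := fan_root (c0 * x / 2) y τ hy
  obtain ⟨t', ht', hFt', hρ'⟩ := fan_root (c0 * y / 2) (-x) (1 - τ) (by rw [abs_neg]; exact hx)
  have hcov := cover_ineq c0 kap x y τ t t' (by norm_num [c0]) (by norm_num [kap])
    (by norm_num [c0, kap]) hx1 hy1 (abs_le.mpr ⟨ht.1, ht.2⟩) (abs_le.mpr ⟨ht'.1, ht'.2⟩)
    (by rw [← hFt]; ring) (by rw [← hFt']; ring)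
  rcases hcov with h | h
  · left
    refine ⟨t, ht, τ - c0 * x / 2 * t, ⟨hρ, by unfold Rf; linarith⟩, x, hx1, ?_⟩
    ext i
    fin_cases i
    · simp [hxd]
    · simp only [Fin.mk_one, Fin.isValue]
      rw [← hyd, ← hFt]
      simp
      ring
    · simp only [Fin.reduceFinMk, Fin.isValue]
      rw [hz]
      simp
      ring
  · right
    refine ⟨t', ht', (1 - τ) - c0 * y / 2 * t', ⟨hρ', by unfold Rf; linarith⟩, y, hy1, ?_⟩
    ext i
    fin_cases i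
    · simp only [Fin.zero_eta, Fin.isValue]
      have : P 0 = -(-x) := by rw [hxd]; ring
      rw [this, ← hFt']
      simp
      ring
    · simp [hyd]
    · simp only [Fin.reduceFinMk, Fin.isValue]
      rw [hz]
      simp
      ring

end Crest.Agent.S0324
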