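import Crest.Agent.S0324_Pad
import Crest.Agent.S0324_CoreFans
import Crest.Agent.S0324_FanCoord

/-!
# The explicit cover (row 211): `core_cover : CoreCover`

`S0324.lean` and `S0325.lean` only use `Crest.Agent.S0324.core_cover`.
-/

set_option autoImplicit false
open MeasureTheory Measure

namespace Crest.Agent.S0324

theorem core_cover : CoreCover := by
  apply FanInst.coreCover_of_fans
  intro P hP
  rcases tetra_subset_fans P hP with h | h
  · left
    exact h
  · right
    exact h

end Crest.Agent.S0324
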