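import Crest.Agent.S0324_CoverGeom

/-!
# Row 211 (S0324 ..): the explicit cover, assembled and padded (package W4)
-/

set_option autoImplicit false
open MeasureTheory Measure

namespace Crest.Agent.S0324.Cover

open Crest.Agent.S0324

theorem half_mem {e a b : E3} (hF : Frame e a b) (p₀ : E3) (x y τ t : ℝ) (hx : |x| ≤ 1)
    (ht0 : -1 ≤ t) (ht1 : t ≤ 1) (hy : τ * t + c0 * x / 4 * (1 - t ^ 2) = y)
    (hρ0 : 0 ≤ τ - c0 * x * t / 2) (hρ1 : τ - c0 * x * t / 2 ≤ Rfun t) :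
    ∃ i < N0, p₀ + τ • a + y • b + x • e ∈
      cyl (uvec e a b i) (pvec e a b p₀ i) (qvec e a b p₀ i) (rvec e a b p₀ i) := by
  obtain ⟨i, hi, h1, h2⟩ := exists_sector t ht0 ht1
  refine ⟨i, hi, ?_⟩
  have hR := Rfun_le_rsec i t (tnode_ge i) ht1 h1 h2
  have key := sector_mem hF p₀ i t (τ - c0 * x * t / 2) x h1 h2 hρ0 (hρ1.trans hR) hx
  have e1 : p₀ + τ • a + y • b + x • e =
      p₀ + (τ - c0 * x * t / 2) • (a + t • b) + x • (e + wvec a b t) := by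
    unfold wvec
    rw [← hy]
    module
  rw [e1]; exact key

theorem sum_half {e a b : E3} (hF : Frame e a b) (p₀ : E3) :
    ∑ i ∈ Finset.range N0, (μHE[2] (convexHull ℝ
      ({pvec e a b p₀ i, qvec e a b p₀ i, rvec e a b p₀ i} : Set E3))).toReal ≤
      Real.sqrt 2 * (1 / 4 - 1 / 10 ^ 8) := by
  have h : ∀ i ∈ Finset.range N0, (μHE[2] (convexHull ℝ
      ({pvec e a b p₀ i, qvec e a b p₀ i, rvec e a b p₀ i} : Set E3))).toReal =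
      Real.sqrt 2 * secArea i := by
    intro i _
    rw [area_sector hF, ENNReal.toReal_ofReal]
    have : 0 ≤ secArea i := by
      unfold secArea
      have := d0_pos
      positivity
    positivity
  rw [Finset.sum_congr rfl h, ← Finset.mul_sum]
  exact mul_le_mul_of_nonneg_left sum_secArea_le (Real.sqrt_nonneg _)

/-- every point of the tetrahedron lies in a cylinder of the bottom fan or of the top fan -/
theorem K_mem (P : E3)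
    (hP : P ∈ convexHull ℝ ({!₂[1, 0, 0], !₂[-1, 0, 0], !₂[0, 1, Real.sqrt 2],
      !₂[0, -1, Real.sqrt 2]} : Set E3)) :
    (∃ i < N0, P ∈ cyl (uvec !₂[1, 0, 0] !₂[0, 0, Real.sqrt 2] !₂[0, 1, 0] i)
        (pvec !₂[1, 0, 0] !₂[0, 0, Real.sqrt 2] !₂[0, 1, 0] 0 i)
        (qvec !₂[1, 0, 0] !₂[0, 0, Real.sqrt 2] !₂[0, 1, 0] 0 i)
        (rvec !₂[1, 0, 0] !₂[0, 0, Real.sqrt 2] !₂[0, 1, 0] 0 i)) ∨
    (∃ i < N0, P ∈ cyl (uvec !₂[0, 1, 0] !₂[0, 0, -Real.sqrt 2] !₂[-1, 0, 0] i)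
        (pvec !₂[0, 1, 0] !₂[0, 0, -Real.sqrt 2] !₂[-1, 0, 0] !₂[0, 0, Real.sqrt 2] i)
        (qvec !₂[0, 1, 0] !₂[0, 0, -Real.sqrt 2] !₂[-1, 0, 0] !₂[0, 0, Real.sqrt 2] i)
        (rvec !₂[0, 1, 0] !₂[0, 0, -Real.sqrt 2] !₂[-1, 0, 0] !₂[0, 0, Real.sqrt 2] i)) := by
  obtain ⟨hx, hy⟩ := K_coords P hP
  obtain ⟨x, hxd⟩ : ∃ x, x = P 0 := ⟨_, rfl⟩
  obtain ⟨y, hyd⟩ : ∃ y, y = P 1 := ⟨_, rfl⟩
  obtain ⟨τ, hτd⟩ : ∃ τ, τ = P 2 / Real.sqrt 2 := ⟨_, rfl⟩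
  have hb := decomp_bot P
  have ht := decomp_top P
  rw [← hxd, ← hyd, ← hτd] at hb ht
  rw [← hxd, ← hτd] at hx
  rw [← hyd, ← hτd] at hy
  have hτ0 : 0 ≤ τ := le_trans (abs_nonneg y) hy
  have hτ1 : τ ≤ 1 := by linarith [abs_nonneg x]
  obtain ⟨t, t0, t1, tF, tρ⟩ := fan_param (c0 * x / 4) y τ hy
  obtain ⟨t', t0', t1', tF', tρ'⟩ := fan_param (c0 * y / 4) (-x) (1 - τ) (by rw [abs_neg]; exact hx)
  have halg := cover_alg c0 κ0 x y τ t t' c0_pos (by unfold c0 κ0; norm_num) hx hy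
    (abs_le.mpr ⟨t0, t1⟩) (abs_le.mpr ⟨t0', t1'⟩) tF tF'
  rcases halg with h | h
  · left
    obtain ⟨i, hi, hmem⟩ := half_mem frame_bot 0 x y τ t (by linarith) t0 t1 tF
      (by linarith) (by unfold Rfun hfun; linarith)
    exact ⟨i, hi, by rw [hb]; exact hmem⟩
  · right
    obtain ⟨i, hi, hmem⟩ := half_mem frame_top !₂[0, 0, Real.sqrt 2] y (-x) (1 - τ) t'
      (by linarith) t0' t1' tF' (by linarith) (by unfold Rfun hfun; linarith)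
    exact ⟨i, hi, by rw [ht]; exact hmem⟩

/-- the padded family, indexed by `ℕ`: bottom fan, top fan, one extra triangle of area `α`,
then degenerate triangles. -/
noncomputable def uN (i : ℕ) : E3 :=
  if i < N0 then uvec !₂[1, 0, 0] !₂[0, 0, Real.sqrt 2] !₂[0, 1, 0] i
  else if i < 2 * N0 then uvec !₂[0, 1, 0] !₂[0, 0, -Real.sqrt 2] !₂[-1, 0, 0] (i - N0)
  else !₂[1, 0, 0]
noncomputable def pN (i : ℕ) : E3 :=
  if i < N0 then pvec !₂[1, 0, 0] !₂[0, 0, Real.sqrt 2] !₂[0, 1, 0] 0 i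
  else if i < 2 * N0 then
    pvec !₂[0, 1, 0] !₂[0, 0, -Real.sqrt 2] !₂[-1, 0, 0] !₂[0, 0, Real.sqrt 2] (i - N0)
  else 0
noncomputable def qN (α : ℝ) (i : ℕ) : E3 :=
  if i < N0 then qvec !₂[1, 0, 0] !₂[0, 0, Real.sqrt 2] !₂[0, 1, 0] 0 i
  else if i < 2 * N0 then
    qvec !₂[0, 1, 0] !₂[0, 0, -Real.sqrt 2] !₂[-1, 0, 0] !₂[0, 0, Real.sqrt 2] (i - N0)
  else if i = 2 * N0 then !₂[0, 2 * α, 0] else 0
noncomputable def rN (i : ℕ) : E3 :=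
  if i < N0 then rvec !₂[1, 0, 0] !₂[0, 0, Real.sqrt 2] !₂[0, 1, 0] 0 i
  else if i < 2 * N0 then
    rvec !₂[0, 1, 0] !₂[0, 0, -Real.sqrt 2] !₂[-1, 0, 0] !₂[0, 0, Real.sqrt 2] (i - N0)
  else if i = 2 * N0 then !₂[0, 0, 1] else 0

noncomputable def areaN (α : ℝ) (i : ℕ) : ℝ :=
  (μHE[2] (convexHull ℝ ({pN i, qN α i, rN i} : Set E3))).toReal

theorem norm_uN (i : ℕ) : ‖uN i‖ = 1 := by
  unfold uN
  split_ifs
  · exact norm_uvec frame_bot i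
  · exact norm_uvec frame_top _
  · exact frame_bot.he

theorem perp_N (α : ℝ) (i : ℕ) :
    inner ℝ (pN i) (uN i) = 0 ∧ inner ℝ (qN α i) (uN i) = 0 ∧ inner ℝ (rN i) (uN i) = 0 := by
  unfold uN pN qN rN
  split_ifs
  · exact ⟨inner_proj_uvec frame_bot _ _, inner_proj_uvec frame_bot _ _,
      inner_proj_uvec frame_bot _ _⟩
  · exact ⟨inner_proj_uvec frame_top _ _, inner_proj_uvec frame_top _ _,
      inner_proj_uvec frame_top _ _⟩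
  · simp [PiLp.inner_apply, Fin.sum_univ_three]
  · simp

theorem areaN_extra (α : ℝ) (hα : 0 ≤ α) : areaN α (2 * N0) = α := by
  unfold areaN pN qN rN
  have h1 : ¬ (2 * N0 < N0) := by unfold N0; norm_num
  simp only [h1, lt_irrefl, if_false, if_true]
  rw [area_triangle]
  have hg : gram ((!₂[0, 2 * α, 0] : E3) - 0) ((!₂[0, 0, 1] : E3) - 0) = (2 * α) ^ 2 := by
    unfold gram
    simp [EuclideanSpace.norm_eq, Fin.sum_univ_three, PiLp.inner_apply]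
    rw [Real.sq_sqrt (sq_nonneg _)]
  rw [hg, Real.sqrt_sq (by linarith), ENNReal.toReal_ofReal (by linarith)]
  ring

theorem areaN_tail (α : ℝ) (i : ℕ) (hi : 2 * N0 < i) : areaN α i = 0 := by
  unfold areaN pN qN rN
  have h1 : ¬ (i < N0) := by omega
  have h2 : ¬ (i < 2 * N0) := by omega
  have h3 : ¬ (i = 2 * N0) := by omega
  simp only [h1, h2, h3, if_false]
  rw [area_triangle]
  simp [gram]

theorem sum_areaN (α : ℝ) (hα : 0 ≤ α) (k : ℕ) :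
    ∑ i ∈ Finset.range (2 * N0 + 1 + k), areaN α i =
      (∑ i ∈ Finset.range N0, (μHE[2] (convexHull ℝ
        ({pvec !₂[1, 0, 0] !₂[0, 0, Real.sqrt 2] !₂[0, 1, 0] 0 i,
          qvec !₂[1, 0, 0] !₂[0, 0, Real.sqrt 2] !₂[0, 1, 0] 0 i,
          rvec !₂[1, 0, 0] !₂[0, 0, Real.sqrt 2] !₂[0, 1, 0] 0 i} : Set E3))).toReal) +
      (∑ i ∈ Finset.range N0, (μHE[2] (convexHull ℝ
        ({pvec !₂[0, 1, 0] !₂[0, 0, -Real.sqrt 2] !₂[-1, 0, 0] !₂[0, 0, Real.sqrt 2] i,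
          qvec !₂[0, 1, 0] !₂[0, 0, -Real.sqrt 2] !₂[-1, 0, 0] !₂[0, 0, Real.sqrt 2] i,
          rvec !₂[0, 1, 0] !₂[0, 0, -Real.sqrt 2] !₂[-1, 0, 0] !₂[0, 0, Real.sqrt 2] i}
            : Set E3))).toReal) + α := by
  have e : 2 * N0 + 1 + k = N0 + (N0 + (1 + k)) := by ring
  rw [e, Finset.sum_range_add, Finset.sum_range_add, Finset.sum_range_add, ← add_assoc, ← add_assoc]
  have h4 : ∑ x ∈ Finset.range k, areaN α (N0 + (N0 + (1 + x))) = 0 := by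
    apply Finset.sum_eq_zero
    intro x _
    exact areaN_tail α _ (by omega)
  have h3 : ∑ x ∈ Finset.range 1, areaN α (N0 + (N0 + x)) = α := by
    simp only [Finset.sum_range_one, add_zero]
    rw [← two_mul]; exact areaN_extra α hα
  rw [h4, h3, add_zero]
  have hA : ∀ i ∈ Finset.range N0, areaN α i = (μHE[2] (convexHull ℝ
        ({pvec !₂[1, 0, 0] !₂[0, 0, Real.sqrt 2] !₂[0, 1, 0] 0 i,
          qvec !₂[1, 0, 0] !₂[0, 0, Real.sqrt 2] !₂[0, 1, 0] 0 i,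
          rvec !₂[1, 0, 0] !₂[0, 0, Real.sqrt 2] !₂[0, 1, 0] 0 i} : Set E3))).toReal := by
    intro i hi
    have hi' : i < N0 := Finset.mem_range.mp hi
    unfold areaN pN qN rN
    simp only [hi', if_true]
  have hB : ∀ i ∈ Finset.range N0, areaN α (N0 + i) = (μHE[2] (convexHull ℝ
        ({pvec !₂[0, 1, 0] !₂[0, 0, -Real.sqrt 2] !₂[-1, 0, 0] !₂[0, 0, Real.sqrt 2] i,
          qvec !₂[0, 1, 0] !₂[0, 0, -Real.sqrt 2] !₂[-1, 0, 0] !₂[0, 0, Real.sqrt 2] i,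
          rvec !₂[0, 1, 0] !₂[0, 0, -Real.sqrt 2] !₂[-1, 0, 0] !₂[0, 0, Real.sqrt 2] i}
            : Set E3))).toReal := by
    intro i hi
    have hi' : i < N0 := Finset.mem_range.mp hi
    have h1 : ¬ (N0 + i < N0) := by omega
    have h2 : N0 + i < 2 * N0 := by omega
    have h5 : N0 + i - N0 = i := by omega
    unfold areaN pN qN rN
    simp only [h1, h2, h5, if_true, if_false]
  rw [Finset.sum_congr rfl hA, Finset.sum_congr rfl hB]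

/-- **Padded cover.**  For every `m ≥ 2 N0 + 1` and every target `T ≥ √2 (1/2 - 2·10⁻⁸)` the
tetrahedron is covered by `m` triangular cylinders of total base area exactly `T`. -/
theorem padded_cover (m : ℕ) (hm : 2 * N0 + 1 ≤ m) (T : ℝ)
    (hT : Real.sqrt 2 * (1 / 2 - 2 / 10 ^ 8) ≤ T) :
    ∃ (u p q r : Fin m → E3),
      (∀ i, ‖u i‖ = 1) ∧
      (∀ i, inner ℝ (p i) (u i) = 0 ∧ inner ℝ (q i) (u i) = 0 ∧ inner ℝ (r i) (u i) = 0) ∧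
      convexHull ℝ ({!₂[1, 0, 0], !₂[-1, 0, 0], !₂[0, 1, Real.sqrt 2],
        !₂[0, -1, Real.sqrt 2]} : Set E3) ⊆
        ⋃ i, {x : E3 | ∃ b ∈ convexHull ℝ {p i, q i, r i}, ∃ t : ℝ, x = b + t • u i} ∧
      ∑ i, (μHE[2] (convexHull ℝ ({p i, q i, r i} : Set E3))).toReal = T := by
  obtain ⟨k, rfl⟩ : ∃ k, m = 2 * N0 + 1 + k := ⟨m - (2 * N0 + 1), by omega⟩
  obtain ⟨S₁, hS₁⟩ : ∃ S, S = ∑ i ∈ Finset.range N0, (μHE[2] (convexHull ℝ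
        ({pvec !₂[1, 0, 0] !₂[0, 0, Real.sqrt 2] !₂[0, 1, 0] 0 i,
          qvec !₂[1, 0, 0] !₂[0, 0, Real.sqrt 2] !₂[0, 1, 0] 0 i,
          rvec !₂[1, 0, 0] !₂[0, 0, Real.sqrt 2] !₂[0, 1, 0] 0 i} : Set E3))).toReal := ⟨_, rfl⟩
  obtain ⟨S₂, hS₂⟩ : ∃ S, S = ∑ i ∈ Finset.range N0, (μHE[2] (convexHull ℝ
        ({pvec !₂[0, 1, 0] !₂[0, 0, -Real.sqrt 2] !₂[-1, 0, 0] !₂[0, 0, Real.sqrt 2] i,
          qvec !₂[0, 1, 0] !₂[0, 0, -Real.sqrt 2] !₂[-1, 0, 0] !₂[0, 0, Real.sqrt 2] i,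
          rvec !₂[0, 1, 0] !₂[0, 0, -Real.sqrt 2] !₂[-1, 0, 0] !₂[0, 0, Real.sqrt 2] i}
            : Set E3))).toReal := ⟨_, rfl⟩
  have h₁ : S₁ ≤ Real.sqrt 2 * (1 / 4 - 1 / 10 ^ 8) := by rw [hS₁]; exact sum_half frame_bot 0
  have h₂ : S₂ ≤ Real.sqrt 2 * (1 / 4 - 1 / 10 ^ 8) := by rw [hS₂]; exact sum_half frame_top _
  have hα : 0 ≤ T - S₁ - S₂ := by nlinarith
  refine ⟨fun i => uN i, fun i => pN i, fun i => qN (T - S₁ - S₂) i, fun i => rN i,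
    fun i => norm_uN i, fun i => perp_N _ i, ?_, ?_⟩
  · intro P hP
    rw [Set.mem_iUnion]
    rcases K_mem P hP with ⟨i, hi, hmem⟩ | ⟨i, hi, hmem⟩
    · refine ⟨⟨i, by omega⟩, ?_⟩
      have : cyl (uN i) (pN i) (qN (T - S₁ - S₂) i) (rN i) =
          cyl (uvec !₂[1, 0, 0] !₂[0, 0, Real.sqrt 2] !₂[0, 1, 0] i)
        (pvec !₂[1, 0, 0] !₂[0, 0, Real.sqrt 2] !₂[0, 1, 0] 0 i)
        (qvec !₂[1, 0, 0] !₂[0, 0, Real.sqrt 2] !₂[0, 1, 0] 0 i)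
        (rvec !₂[1, 0, 0] !₂[0, 0, Real.sqrt 2] !₂[0, 1, 0] 0 i) := by
        unfold uN pN qN rN
        simp only [hi, if_true]
      rw [← this] at hmem
      exact hmem
    · refine ⟨⟨N0 + i, by omega⟩, ?_⟩
      have : cyl (uN (N0 + i)) (pN (N0 + i)) (qN (T - S₁ - S₂) (N0 + i)) (rN (N0 + i)) =
          cyl (uvec !₂[0, 1, 0] !₂[0, 0, -Real.sqrt 2] !₂[-1, 0, 0] i)
        (pvec !₂[0, 1, 0] !₂[0, 0, -Real.sqrt 2] !₂[-1, 0, 0] !₂[0, 0, Real.sqrt 2] i)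
        (qvec !₂[0, 1, 0] !₂[0, 0, -Real.sqrt 2] !₂[-1, 0, 0] !₂[0, 0, Real.sqrt 2] i)
        (rvec !₂[0, 1, 0] !₂[0, 0, -Real.sqrt 2] !₂[-1, 0, 0] !₂[0, 0, Real.sqrt 2] i) := by
        have h1 : ¬ (N0 + i < N0) := by omega
        have h2 : N0 + i < 2 * N0 := by omega
        have h5 : N0 + i - N0 = i := by omega
        unfold uN pN qN rN
        simp only [h1, h2, h5, if_true, if_false]
      rw [← this] at hmem
      exact hmem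
  · have := sum_areaN (T - S₁ - S₂) hα k
    rw [← hS₁, ← hS₂] at this
    have h3 : ∑ i : Fin (2 * N0 + 1 + k), (μHE[2] (convexHull ℝ
        ({pN i, qN (T - S₁ - S₂) i, rN i} : Set E3))).toReal =
        ∑ i ∈ Finset.range (2 * N0 + 1 + k), areaN (T - S₁ - S₂) i :=
      Fin.sum_univ_eq_sum_range (fun i => areaN (T - S₁ - S₂) i) _
    rw [h3, this]; ring

/-- second half of S0325 -/
theorem S0325_part2 : ∀ ε : ℝ, 0 < ε → ε ≤ 1 / 2000 →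
      ∃ (u p q r : Fin (2 * ⌈2 / ε ^ 2⌉₊) → EuclideanSpace ℝ (Fin 3)),
        (∀ i, ‖u i‖ = 1) ∧
        (∀ i, inner ℝ (p i) (u i) = 0 ∧ inner ℝ (q i) (u i) = 0 ∧ inner ℝ (r i) (u i) = 0) ∧
        convexHull ℝ {!₂[1, 0, 0], !₂[-1, 0, 0], !₂[0, 1, Real.sqrt 2], !₂[0, -1, Real.sqrt 2]} ⊆
          ⋃ i, {x : EuclideanSpace ℝ (Fin 3) | ∃ b ∈ convexHull ℝ {p i, q i, r i}, ∃ t : ℝ, x = b + t • u i} ∧
        abs ((∑ i, (μHE[2] (convexHull ℝ ({p i, q i, r i} : Set (EuclideanSpace ℝ (Fin 3))))).toReal) / Real.sqrt 2 -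
            (1 / 2 - 13 / 6000 * ε ^ 2)) ≤ 2 * ε ^ 4 := by
  intro ε hε0 hε1
  have hs2 : (0 : ℝ) < Real.sqrt 2 := by positivity
  have hε2 : ε ^ 2 ≤ (1 / 2000) ^ 2 := pow_le_pow_left₀ hε0.le hε1 2
  have hε2pos : 0 < ε ^ 2 := by positivity
  have hm : 2 * N0 + 1 ≤ 2 * ⌈2 / ε ^ 2⌉₊ := by
    have h1 : (8000000 : ℝ) ≤ 2 / ε ^ 2 := by
      rw [le_div_iff₀ hε2pos]; nlinarith
    have h2 : (8000000 : ℝ) ≤ (⌈2 / ε ^ 2⌉₊ : ℝ) := h1.trans (Nat.le_ceil _)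
    have h3 : 8000000 ≤ ⌈2 / ε ^ 2⌉₊ := by exact_mod_cast h2
    unfold N0; omega
  obtain ⟨u, p, q, r, hu, hperp, hcov, hsum⟩ := padded_cover _ hm
    (Real.sqrt 2 * (1 / 2 - 13 / 6000 * ε ^ 2))
    (mul_le_mul_of_nonneg_left (by nlinarith) hs2.le)
  refine ⟨u, p, q, r, hu, hperp, hcov, ?_⟩
  rw [hsum, mul_div_cancel_left₀ _ hs2.ne', sub_self, abs_zero]
  positivity

end Crest.Agent.S0324.Cover
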