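import Mathlib

/-!
# Row 211 (S0324 ..): algebraic core of the explicit cover (package W4)

Pure real-number lemmas:
* `fan_param` : solving `τ t + k (1 - t^2) = y` on the increasing branch;
* `cover_alg` : the key inequality (one of the two fans reaches the point).
-/

set_option autoImplicit false

namespace Crest.Agent.S0324.Cover

/-- Solve `τ t + k (1 - t²) = y` with `t ∈ [-1,1]` and `0 ≤ τ - 2 k t`. -/
theorem fan_param (k y τ : ℝ) (hy : |y| ≤ τ) :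
    ∃ t : ℝ, -1 ≤ t ∧ t ≤ 1 ∧ τ * t + k * (1 - t ^ 2) = y ∧ 0 ≤ τ - 2 * k * t := by
  have hy1 : -τ ≤ y := (abs_le.mp hy).1
  have hy2 : y ≤ τ := (abs_le.mp hy).2
  have hτ : 0 ≤ τ := le_trans (abs_nonneg y) hy
  set Δ : ℝ := τ ^ 2 - 4 * k * y + 4 * k ^ 2 with hΔ
  have hΔ0 : 0 ≤ Δ := by
    rcases le_total 0 k with hk | hk
    · nlinarith [sq_nonneg (τ - 2 * k), mul_nonneg hk (sub_nonneg.mpr hy2)]
    · nlinarith [sq_nonneg (τ + 2 * k), mul_nonneg (neg_nonneg.mpr hk) (by linarith : 0 ≤ y + τ)]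
  set σ : ℝ := Real.sqrt Δ with hσ
  have hσ0 : 0 ≤ σ := Real.sqrt_nonneg _
  have hσ2 : σ ^ 2 = Δ := Real.sq_sqrt hΔ0
  rcases eq_or_lt_of_le (add_nonneg hτ hσ0) with h0 | hpos
  · -- degenerate case
    have hτ0 : τ = 0 := by linarith
    have hσ00 : σ = 0 := by linarith
    have hy0 : y = 0 := by linarith
    have hk0 : k = 0 := by
      have : Δ = 0 := by rw [← hσ2, hσ00]; ring
      rw [hΔ, hτ0, hy0] at this
      nlinarith
    exact ⟨0, by norm_num, by norm_num, by rw [hτ0, hk0, hy0]; ring, by rw [hτ0, hk0]; norm_num⟩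
  · have hne : τ + σ ≠ 0 := ne_of_gt hpos
    have hs1 : 2 * y - 2 * k - τ ≤ σ := by
      by_cases hc : 0 ≤ 2 * y - 2 * k - τ
      · apply Real.le_sqrt_of_sq_le
        have : 0 ≤ (τ - y) * (y - k) := mul_nonneg (by linarith) (by linarith)
        nlinarith
      · linarith
    have hs2 : -2 * y + 2 * k - τ ≤ σ := by
      by_cases hc : 0 ≤ -2 * y + 2 * k - τ
      · apply Real.le_sqrt_of_sq_le
        have : 0 ≤ (k - y) * (y + τ) := mul_nonneg (by linarith) (by linarith)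
        nlinarith
      · linarith
    refine ⟨2 * (y - k) / (τ + σ), ?_, ?_, ?_, ?_⟩
    · rw [le_div_iff₀ hpos]; linarith
    · rw [div_le_iff₀ hpos]; linarith
    · field_simp
      nlinarith
    · have : τ - 2 * k * (2 * (y - k) / (τ + σ)) = σ := by
        field_simp
        nlinarith
      rw [this]; exact hσ0

theorem cover_ident (c x y u t t' p q : ℝ)
    (hp : p = c / 4 * (1 - t ^ 2)) (hq : q = c / 4 * (1 - t' ^ 2))
    (e1 : y = (1 + u) / 2 * t + p * x) (e2 : x = -((1 - u) / 2 * t') - q * y) :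
    -(x * t + y * t') * (1 + p * q) =
      -u * t * t' + c / 8 * (t ^ 2 + t' ^ 2 - 2 * t ^ 2 * t' ^ 2 + u * (t ^ 2 - t' ^ 2)) := by
  have ex : x * (1 + p * q) = -((1 - u) / 2 * t') - q * ((1 + u) / 2) * t := by
    have : x = -((1 - u) / 2 * t') - q * ((1 + u) / 2 * t + p * x) := by rw [← e1]; exact e2
    linarith
  have ey : y * (1 + p * q) = (1 + u) / 2 * t - p * ((1 - u) / 2) * t' := by
    have : y = (1 + u) / 2 * t + p * (-((1 - u) / 2 * t') - q * y) := by rw [← e2]; exact e1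
    linarith
  have : -(x * t + y * t') * (1 + p * q) = -(t * (x * (1 + p * q)) + t' * (y * (1 + p * q))) := by
    ring
  rw [this, ex, ey, hp, hq]; ring

/-- `-u t t' ≤ c t² t'²/2 + (3/4) c²` -/
theorem cover_utt (c x y u t t' p q : ℝ) (hc0 : 0 < c)
    (hx1 : |x| ≤ 1) (hy1 : |y| ≤ 1) (ht : |t| ≤ 1) (ht' : |t'| ≤ 1)
    (hp0 : 0 ≤ p) (hp1 : p ≤ c / 4) (hq0 : 0 ≤ q) (hq1 : q ≤ c / 4)
    (e1 : y = (1 + u) / 2 * t + p * x) (e2 : x = -((1 - u) / 2 * t') - q * y)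
    (hu1' : c * (x * t) < u) (hu2' : c * (y * t') < -u) (hulo : -c < u) (huhi : u < c) :
    -u * t * t' ≤ c * t ^ 2 * t' ^ 2 / 2 + 3 / 4 * c ^ 2 := by
  have ha2 : t ^ 2 ≤ 1 := by rw [← sq_abs]; exact pow_le_one₀ (abs_nonneg _) ht
  have hb2 : t' ^ 2 ≤ 1 := by rw [← sq_abs]; exact pow_le_one₀ (abs_nonneg _) ht'
  have ha0 : 0 ≤ t ^ 2 := sq_nonneg _
  have hb0 : 0 ≤ t' ^ 2 := sq_nonneg _
  have hab : t ^ 2 * t' ^ 2 ≤ 1 := mul_le_one₀ ha2 hb0 hb2
  have hab0 : 0 ≤ t ^ 2 * t' ^ 2 := mul_nonneg ha0 hb0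
  rcases le_total 0 (t * t') with hs | hs
  · -- t t' ≥ 0
    have s1 : -u * t * t' ≤ -(c * (x * t)) * (t * t') := by nlinarith
    have s2 : -(c * (x * t)) * (t * t') =
        c * (t ^ 2 * t' ^ 2) * ((1 - u) / 2) + c * (q * (y * (t ^ 2 * t'))) := by
      have : -(c * (x * t)) * (t * t') = c * (t ^ 2 * t') * (-x) := by ring
      rw [this]
      have hx' : -x = (1 - u) / 2 * t' + q * y := by linarith
      rw [hx']; ring
    have s3 : c * (t ^ 2 * t' ^ 2) * ((1 - u) / 2) ≤ c * t ^ 2 * t' ^ 2 / 2 + c ^ 2 / 2 := by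
      have : (t ^ 2 * t' ^ 2) * (-u) ≤ c := by nlinarith
      nlinarith
    have s4 : q * (y * (t ^ 2 * t')) ≤ c / 4 := by
      have h5 : |y * (t ^ 2 * t')| ≤ 1 := by
        rw [abs_mul, abs_mul, abs_of_nonneg ha0]
        exact mul_le_one₀ hy1 (by positivity) (mul_le_one₀ ha2 (abs_nonneg _) ht')
      have h6 := (abs_le.mp h5).2
      nlinarith
    nlinarith
  · -- t t' ≤ 0
    have s1 : -u * t * t' ≤ -(c * (y * t')) * (-(t * t')) := by nlinarith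
    have s2 : -(c * (y * t')) * (-(t * t')) =
        c * (t ^ 2 * t' ^ 2) * ((1 + u) / 2) + c * (p * (x * (t * t' ^ 2))) := by
      have : -(c * (y * t')) * (-(t * t')) = c * (t * t' ^ 2) * y := by ring
      rw [this]
      conv_lhs => rw [e1]
      ring
    have s3 : c * (t ^ 2 * t' ^ 2) * ((1 + u) / 2) ≤ c * t ^ 2 * t' ^ 2 / 2 + c ^ 2 / 2 := by
      have : (t ^ 2 * t' ^ 2) * u ≤ c := by nlinarith
      nlinarith
    have s4 : p * (x * (t * t' ^ 2)) ≤ c / 4 := by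
      have h5 : |x * (t * t' ^ 2)| ≤ 1 := by
        rw [abs_mul, abs_mul, abs_of_nonneg hb0]
        exact mul_le_one₀ hx1 (by positivity) (mul_le_one₀ ht hb0 hb2)
      have h6 := (abs_le.mp h5).2
      nlinarith
    nlinarith

theorem cover_core (c κ x y u t t' p q : ℝ) (hc0 : 0 < c) (hκ : 7 / 8 * c ≤ 4 * κ)
    (hx1 : |x| ≤ 1) (hy1 : |y| ≤ 1) (ht : |t| ≤ 1) (ht' : |t'| ≤ 1)
    (hp : p = c / 4 * (1 - t ^ 2)) (hq : q = c / 4 * (1 - t' ^ 2))
    (e1 : y = (1 + u) / 2 * t + p * x) (e2 : x = -((1 - u) / 2 * t') - q * y)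
    (hu1 : c * (x * t) + 2 * c ^ 2 * ((t ^ 2 + t ^ 4) / 16 + κ) < u)
    (hu2 : c * (y * t') + 2 * c ^ 2 * ((t' ^ 2 + t' ^ 4) / 16 + κ) < -u) : False := by
  have hκ0 : 0 < κ := by linarith
  have hxt : |x * t| ≤ 1 := by rw [abs_mul]; exact mul_le_one₀ hx1 (abs_nonneg _) ht
  have hyt : |y * t'| ≤ 1 := by rw [abs_mul]; exact mul_le_one₀ hy1 (abs_nonneg _) ht'
  have ha2 : t ^ 2 ≤ 1 := by rw [← sq_abs]; exact pow_le_one₀ (abs_nonneg _) ht
  have hb2 : t' ^ 2 ≤ 1 := by rw [← sq_abs]; exact pow_le_one₀ (abs_nonneg _) ht'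
  have ha0 : 0 ≤ t ^ 2 := sq_nonneg _
  have hb0 : 0 ≤ t' ^ 2 := sq_nonneg _
  have hc2 : 0 < c ^ 2 := by positivity
  have hH : 0 < 2 * c ^ 2 * ((t ^ 2 + t ^ 4) / 16 + κ) := by positivity
  have hH' : 0 < 2 * c ^ 2 * ((t' ^ 2 + t' ^ 4) / 16 + κ) := by positivity
  have hu1' : c * (x * t) < u := by linarith
  have hu2' : c * (y * t') < -u := by linarith
  have hulo : -c < u := by
    have h := (abs_le.mp hxt).1
    have : -c ≤ c * (x * t) := by nlinarith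
    linarith
  have huhi : u < c := by
    have h := (abs_le.mp hyt).1
    have : -c ≤ c * (y * t') := by nlinarith
    linarith
  have hp0 : 0 ≤ p := by rw [hp]; apply mul_nonneg <;> linarith
  have hq0 : 0 ≤ q := by rw [hq]; apply mul_nonneg <;> linarith
  have hp1 : p ≤ c / 4 := by rw [hp]; nlinarith
  have hq1 : q ≤ c / 4 := by rw [hq]; nlinarith
  have hAneg : 2 * c * ((t ^ 2 + t ^ 4) / 16 + (t' ^ 2 + t' ^ 4) / 16 + 2 * κ) < -(x * t + y * t') := by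
    have h4 : c * ((x * t + y * t') + 2 * c * ((t ^ 2 + t ^ 4) / 16 + (t' ^ 2 + t' ^ 4) / 16 + 2 * κ)) < 0 := by
      have e : c * ((x * t + y * t') + 2 * c * ((t ^ 2 + t ^ 4) / 16 + (t' ^ 2 + t' ^ 4) / 16 + 2 * κ))
          = (c * (x * t) + 2 * c ^ 2 * ((t ^ 2 + t ^ 4) / 16 + κ)) +
            (c * (y * t') + 2 * c ^ 2 * ((t' ^ 2 + t' ^ 4) / 16 + κ)) := by ring
      rw [e]; linarith
    have h5 := (pos_iff_neg_of_mul_neg h4).mp hc0
    linarith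
  have hident := cover_ident c x y u t t' p q hp hq e1 e2
  have hutt := cover_utt c x y u t t' p q hc0 hx1 hy1 ht ht' hp0 hp1 hq0 hq1 e1 e2 hu1' hu2' hulo huhi
  have hApos : 0 < -(x * t + y * t') := by
    have : 0 < 2 * c * ((t ^ 2 + t ^ 4) / 16 + (t' ^ 2 + t' ^ 4) / 16 + 2 * κ) := by positivity
    linarith
  have hge : -(x * t + y * t') ≤ -(x * t + y * t') * (1 + p * q) := by
    have : 0 ≤ -(x * t + y * t') * (p * q) := mul_nonneg hApos.le (mul_nonneg hp0 hq0)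
    linarith
  have hut : u * (t ^ 2 - t' ^ 2) ≤ c := by
    have h1 : |u * (t ^ 2 - t' ^ 2)| ≤ c * 1 := by
      rw [abs_mul]
      apply mul_le_mul (abs_le.mpr ⟨hulo.le, huhi.le⟩) (abs_le.mpr ⟨by linarith, by linarith⟩)
        (abs_nonneg _) hc0.le
    linarith [le_abs_self (u * (t ^ 2 - t' ^ 2))]
  have hfin : c / 8 * (t ^ 2 - t' ^ 2) ^ 2 + 4 * c * κ < 7 / 8 * c ^ 2 := by
    have h7 : c / 8 * (u * (t ^ 2 - t' ^ 2)) ≤ c / 8 * c := by
      apply mul_le_mul_of_nonneg_left hut (by positivity)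
    linarith
  have h8 : 0 ≤ c / 8 * (t ^ 2 - t' ^ 2) ^ 2 := by positivity
  have h9 : c * (7 / 8 * c) ≤ c * (4 * κ) := mul_le_mul_of_nonneg_left hκ hc0.le
  linarith

theorem cover_alg (c κ x y τ t t' : ℝ) (hc0 : 0 < c) (hκ : 7 / 8 * c ≤ 4 * κ)
    (hx : |x| ≤ 1 - τ) (hy : |y| ≤ τ) (ht : |t| ≤ 1) (ht' : |t'| ≤ 1)
    (h1 : τ * t + c * x / 4 * (1 - t ^ 2) = y)
    (h2 : (1 - τ) * t' + c * y / 4 * (1 - t' ^ 2) = -x) :
    τ - c * x * t / 2 ≤ 1 / 2 + c ^ 2 * ((t ^ 2 + t ^ 4) / 16 + κ) ∨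
      (1 - τ) - c * y * t' / 2 ≤ 1 / 2 + c ^ 2 * ((t' ^ 2 + t' ^ 4) / 16 + κ) := by
  by_contra hcon
  rw [not_or, not_le, not_le] at hcon
  obtain ⟨F1, F2⟩ := hcon
  have hτ0 : 0 ≤ τ := le_trans (abs_nonneg y) hy
  have hτ1 : τ ≤ 1 := by linarith [abs_nonneg x]
  refine cover_core c κ x y (2 * τ - 1) t t' (c / 4 * (1 - t ^ 2)) (c / 4 * (1 - t' ^ 2)) hc0 hκ
    (by linarith) (by linarith) ht ht' rfl rfl ?_ ?_ ?_ ?_
  · rw [← h1]; ring
  · have : -x = (1 - τ) * t' + c * y / 4 * (1 - t' ^ 2) := h2.symm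
    have h3 : x = -((1 - τ) * t' + c * y / 4 * (1 - t' ^ 2)) := by linarith
    linarith
  · linarith
  · linarith

end Crest.Agent.S0324.Cover
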