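import Mathlib

/-!
# Row 211 (S0324 ..): the area sum of the explicit cover (package W4)

Pure real-number estimates.
-/

set_option autoImplicit false

namespace Crest.Agent.S0324.Cover

/-- tilt parameter -/
noncomputable def c0 : ℝ := 1 / 250
/-- safety margin -/
noncomputable def κ0 : ℝ := 1 / 1000
/-- number of sectors per fan -/
def N0 : ℕ := 4000000
/-- width of a sector -/
noncomputable def d0 : ℝ := 1 / 2000000

/-- nodes of the partition of `[-1,1]` -/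
noncomputable def tnode (i : ℕ) : ℝ := -1 + i * d0

noncomputable def hfun (t : ℝ) : ℝ := (t ^ 2 + t ^ 4) / 16
/-- radius function of the fan -/
noncomputable def Rfun (t : ℝ) : ℝ := 1 / 2 + c0 ^ 2 * (hfun t + κ0)
/-- radius used on sector `i` -/
noncomputable def rsec (i : ℕ) : ℝ := 1 / 2 + c0 ^ 2 * (hfun (tnode i) + κ0 + d0)
/-- `‖w t‖²` -/
noncomputable def vfun (t : ℝ) : ℝ := c0 ^ 2 * (t ^ 2 / 2 + (t ^ 2 + 1) ^ 2 / 16)
/-- area of the base of the `i`-th cylinder, in units of `√(gram a b) = √2` -/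
noncomputable def secArea (i : ℕ) : ℝ :=
  d0 / 2 * (rsec i + 2 * c0 * d0) ^ 2 / Real.sqrt (1 + vfun (tnode i))

theorem tnode_zero : tnode 0 = -1 := by simp [tnode]
theorem tnode_N0 : tnode N0 = 1 := by simp only [tnode, N0, d0]; norm_num
theorem tnode_succ (i : ℕ) : tnode (i + 1) = tnode i + d0 := by
  simp only [tnode]; push_cast; ring
theorem d0_pos : 0 < d0 := by unfold d0; norm_num
theorem tnode_mono {i j : ℕ} (h : i ≤ j) : tnode i ≤ tnode j := by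
  unfold tnode
  have : (i : ℝ) ≤ j := by exact_mod_cast h
  nlinarith [d0_pos]
theorem tnode_ge (i : ℕ) : -1 ≤ tnode i := by
  rw [← tnode_zero]; exact tnode_mono (Nat.zero_le _)
theorem tnode_le {i : ℕ} (h : i ≤ N0) : tnode i ≤ 1 := by
  rw [← tnode_N0]; exact tnode_mono h

theorem inv_sqrt_le (v : ℝ) (hv : 0 ≤ v) :
    1 / Real.sqrt (1 + v) ≤ 1 - v / 2 + 3 * v ^ 2 / 8 := by
  have hs : 0 < Real.sqrt (1 + v) := Real.sqrt_pos.mpr (by linarith)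
  have hs2 : Real.sqrt (1 + v) ^ 2 = 1 + v := Real.sq_sqrt (by linarith)
  have hq : 0 < 1 - v / 2 + 3 * v ^ 2 / 8 := by nlinarith [sq_nonneg (v - 2 / 3)]
  rw [div_le_iff₀ hs]
  by_contra hcon
  rw [not_le] at hcon
  have h0 : 0 ≤ (1 - v / 2 + 3 * v ^ 2 / 8) * Real.sqrt (1 + v) := (mul_pos hq hs).le
  have h1 : ((1 - v / 2 + 3 * v ^ 2 / 8) * Real.sqrt (1 + v)) ^ 2 < 1 := by
    exact pow_lt_one₀ h0 hcon (by norm_num)
  rw [mul_pow, hs2] at h1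
  have h2 : (1 - v / 2 + 3 * v ^ 2 / 8) ^ 2 * (1 + v) =
      1 + v ^ 3 * (5 / 8 - 15 / 64 * v + 9 / 64 * v ^ 2) := by ring
  have h3 : 0 ≤ 5 / 8 - 15 / 64 * v + 9 / 64 * v ^ 2 := by nlinarith [sq_nonneg (v - 5 / 6)]
  have h4 : 0 ≤ v ^ 3 * (5 / 8 - 15 / 64 * v + 9 / 64 * v ^ 2) := mul_nonneg (by positivity) h3
  linarith

noncomputable def gfun (t : ℝ) : ℝ := 7 / 128 * t ^ 4 - 1 / 64 * t ^ 2 - 1 / 128 + κ0
noncomputable def Gfun (t : ℝ) : ℝ := 7 / 640 * t ^ 5 - 1 / 192 * t ^ 3 + (κ0 - 1 / 128) * t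

theorem term_le (t : ℝ) (ht : t ^ 2 ≤ 1) :
    (1 / 2 + c0 ^ 2 * (hfun t + κ0 + d0) + 2 * c0 * d0) ^ 2 / Real.sqrt (1 + vfun t) ≤
      1 / 4 + c0 ^ 2 * gfun t + 41 / 10 ^ 10 := by
  have ht0 : 0 ≤ t ^ 2 := sq_nonneg t
  have ht4 : t ^ 4 ≤ 1 := by
    have : t ^ 4 = (t ^ 2) ^ 2 := by ring
    rw [this]; exact pow_le_one₀ ht0 ht
  have ht40 : 0 ≤ t ^ 4 := by positivity
  obtain ⟨ε, hε⟩ : ∃ ε : ℝ, ε = c0 ^ 2 * (hfun t + κ0 + d0) + 2 * c0 * d0 := ⟨_, rfl⟩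
  obtain ⟨v, hv⟩ : ∃ v : ℝ, v = vfun t := ⟨_, rfl⟩
  have hε0 : 0 ≤ ε := by
    rw [hε]; unfold hfun c0 κ0 d0; positivity
  have hε1 : ε ≤ 21 / 10 ^ 7 := by
    rw [hε]; unfold hfun c0 κ0 d0; nlinarith
  have hv0 : 0 ≤ v := by rw [hv]; unfold vfun c0; positivity
  have hv1 : v ≤ 12 / 10 ^ 6 := by
    rw [hv]; unfold vfun c0; nlinarith
  have hεv : ε - v / 8 = c0 ^ 2 * gfun t + (c0 ^ 2 * d0 + 2 * c0 * d0) := by
    rw [hε, hv]; unfold vfun gfun hfun; ring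
  have hε2 : ε ^ 2 ≤ (21 / 10 ^ 7) ^ 2 := pow_le_pow_left₀ hε0 hε1 2
  have hv2 : v ^ 2 ≤ (12 / 10 ^ 6) ^ 2 := pow_le_pow_left₀ hv0 hv1 2
  have hsq := inv_sqrt_le v hv0
  have e1 : (1 / 2 + c0 ^ 2 * (hfun t + κ0 + d0) + 2 * c0 * d0) = 1 / 2 + ε := by rw [hε]; ring
  rw [e1, ← hv, div_eq_mul_one_div]
  have hE : 0 ≤ (1 / 2 + ε) ^ 2 := by positivity
  calc (1 / 2 + ε) ^ 2 * (1 / Real.sqrt (1 + v))
      ≤ (1 / 2 + ε) ^ 2 * (1 - v / 2 + 3 * v ^ 2 / 8) := mul_le_mul_of_nonneg_left hsq hE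
    _ = 1 / 4 - v / 8 + 3 * v ^ 2 / 32 + (ε + ε ^ 2) + (ε + ε ^ 2) * (v * (-(1 / 2) + 3 * v / 8)) := by
        ring
    _ ≤ 1 / 4 - v / 8 + 3 * v ^ 2 / 32 + (ε + ε ^ 2) := by
        have h1 : v * (-(1 / 2) + 3 * v / 8) ≤ 0 :=
          mul_nonpos_of_nonneg_of_nonpos hv0 (by linarith)
        have h2 : (ε + ε ^ 2) * (v * (-(1 / 2) + 3 * v / 8)) ≤ 0 :=
          mul_nonpos_of_nonneg_of_nonpos (by positivity) h1
        linarith
    _ ≤ 1 / 4 + c0 ^ 2 * gfun t + 41 / 10 ^ 10 := by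
        have h3 : c0 ^ 2 * d0 + 2 * c0 * d0 = 4008 / 10 ^ 12 := by unfold c0 d0; norm_num
        have h4 : (21 / 10 ^ 7 : ℝ) ^ 2 = 441 / 10 ^ 14 := by norm_num
        have h5 : (12 / 10 ^ 6 : ℝ) ^ 2 = 144 / 10 ^ 12 := by norm_num
        rw [h4] at hε2
        rw [h5] at hv2
        have h6 : 1 / 4 - v / 8 + 3 * v ^ 2 / 32 + (ε + ε ^ 2) =
            1 / 4 + (ε - v / 8) + 3 * v ^ 2 / 32 + ε ^ 2 := by ring
        rw [h6, hεv, h3]
        linarith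

theorem tele_le (t d : ℝ) (ht : |t| ≤ 1) (hd0 : 0 ≤ d) (hd1 : d ≤ 1) :
    d * gfun t ≤ Gfun (t + d) - Gfun t + d ^ 2 / 4 := by
  have h1 := (abs_le.mp ht).1
  have h2 := (abs_le.mp ht).2
  have e : Gfun (t + d) - Gfun t - d * gfun t =
      d ^ 2 * (7 / 640 * (10 * t ^ 3 + 10 * t ^ 2 * d + 5 * t * d ^ 2 + d ^ 3)
        - 1 / 192 * (3 * t + d)) := by
    unfold Gfun gfun; ring
  have ht3 : -1 ≤ t ^ 3 := by nlinarith [sq_nonneg t, sq_nonneg (t + 1), sq_nonneg (t - 1)]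
  have hd2 : d ^ 2 ≤ 1 := pow_le_one₀ hd0 hd1
  have htd : -1 ≤ t * d ^ 2 := by nlinarith [sq_nonneg d]
  have h3 : -(1 / 4) ≤ 7 / 640 * (10 * t ^ 3 + 10 * t ^ 2 * d + 5 * t * d ^ 2 + d ^ 3)
        - 1 / 192 * (3 * t + d) := by
    have : 0 ≤ t ^ 2 * d := by positivity
    have : 0 ≤ d ^ 3 := by positivity
    linarith
  have h4 : d ^ 2 * -(1 / 4) ≤ d ^ 2 * (7 / 640 * (10 * t ^ 3 + 10 * t ^ 2 * d + 5 * t * d ^ 2 + d ^ 3)
        - 1 / 192 * (3 * t + d)) := mul_le_mul_of_nonneg_left h3 (by positivity)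
  linarith

theorem sum_secArea_le : ∑ i ∈ Finset.range N0, secArea i ≤ 1 / 4 - 1 / 10 ^ 8 := by
  have hterm : ∀ i ∈ Finset.range N0, secArea i ≤
      d0 / 2 * (1 / 4 + 41 / 10 ^ 10) + c0 ^ 2 / 2 * (d0 ^ 2 / 4)
        + c0 ^ 2 / 2 * (Gfun (tnode (i + 1)) - Gfun (tnode i)) := by
    intro i hi
    have hi' : i < N0 := Finset.mem_range.mp hi
    have hlo := tnode_ge i
    have hhi := tnode_le hi'.le
    have habs : |tnode i| ≤ 1 := abs_le.mpr ⟨hlo, hhi⟩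
    have hsq : tnode i ^ 2 ≤ 1 := by rw [← sq_abs]; exact pow_le_one₀ (abs_nonneg _) habs
    have h1 := term_le (tnode i) hsq
    have h2 := tele_le (tnode i) d0 habs d0_pos.le (by unfold d0; norm_num)
    rw [← tnode_succ] at h2
    have e : secArea i = d0 / 2 * ((1 / 2 + c0 ^ 2 * (hfun (tnode i) + κ0 + d0) + 2 * c0 * d0) ^ 2
        / Real.sqrt (1 + vfun (tnode i))) := by
      unfold secArea rsec; ring
    rw [e]
    have h3 : d0 / 2 * ((1 / 2 + c0 ^ 2 * (hfun (tnode i) + κ0 + d0) + 2 * c0 * d0) ^ 2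
        / Real.sqrt (1 + vfun (tnode i))) ≤ d0 / 2 * (1 / 4 + c0 ^ 2 * gfun (tnode i) + 41 / 10 ^ 10) :=
      mul_le_mul_of_nonneg_left h1 (by have := d0_pos; positivity)
    have h4 : c0 ^ 2 / 2 * (d0 * gfun (tnode i)) ≤
        c0 ^ 2 / 2 * (Gfun (tnode (i + 1)) - Gfun (tnode i) + d0 ^ 2 / 4) :=
      mul_le_mul_of_nonneg_left h2 (by unfold c0; positivity)
    linarith
  refine (Finset.sum_le_sum hterm).trans ?_
  rw [Finset.sum_add_distrib, ← Finset.mul_sum, Finset.sum_range_sub (fun i => Gfun (tnode i)),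
    Finset.sum_const, Finset.card_range, tnode_N0, tnode_zero]
  unfold Gfun c0 d0 κ0 N0
  norm_num

end Crest.Agent.S0324.Cover
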