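import Crest.Agent.S0324_Area
import Crest.Agent.S0324_CoverAlg
import Crest.Agent.S0324_CoverSum

/-!
# Row 211 (S0324 ..): geometry of the explicit cover (package W4)
-/

set_option autoImplicit false
open MeasureTheory Measure

namespace Crest.Agent.S0324.Cover

open Crest.Agent.S0324

/-- the cylinder over the triangle `p q r` with axis `u` -/
def cyl (u p q r : E3) : Set E3 :=
  {x : E3 | ∃ b ∈ convexHull ℝ ({p, q, r} : Set E3), ∃ t : ℝ, x = b + t • u}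

theorem mem_convexHull_three (p q r : E3) (l₁ l₂ l₃ : ℝ) (h₁ : 0 ≤ l₁) (h₂ : 0 ≤ l₂) (h₃ : 0 ≤ l₃)
    (hs : l₁ + l₂ + l₃ = 1) : l₁ • p + l₂ • q + l₃ • r ∈ convexHull ℝ ({p, q, r} : Set E3) := by
  have hc := convex_convexHull ℝ ({p, q, r} : Set E3)
  have := hc.sum_mem (t := (Finset.univ : Finset (Fin 3))) (w := ![l₁, l₂, l₃]) (z := ![p, q, r])
    (by intro i _; fin_cases i <;> simp [h₁, h₂, h₃])
    (by simp [Fin.sum_univ_three, hs])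
    (by
      intro i _
      apply subset_convexHull
      fin_cases i <;> simp)
  simpa [Fin.sum_univ_three] using this

theorem mem_cyl (dd a b p₀ : E3) (hd : dd ≠ 0) (X₁ Y₁ X₂ Y₂ X₃ Y₃ l₁ l₂ l₃ s : ℝ)
    (h₁ : 0 ≤ l₁) (h₂ : 0 ≤ l₂) (h₃ : 0 ≤ l₃) (hs : l₁ + l₂ + l₃ = 1) :
    p₀ + (l₁ * X₁ + l₂ * X₂ + l₃ * X₃) • a + (l₁ * Y₁ + l₂ * Y₂ + l₃ * Y₃) • b + s • dd ∈
      cyl ((1 / ‖dd‖) • dd) (proj dd (p₀ + X₁ • a + Y₁ • b)) (proj dd (p₀ + X₂ • a + Y₂ • b))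
        (proj dd (p₀ + X₃ • a + Y₃ • b)) := by
  have hn : ‖dd‖ ≠ 0 := norm_ne_zero_iff.mpr hd
  refine ⟨_, mem_convexHull_three _ _ _ l₁ l₂ l₃ h₁ h₂ h₃ hs,
    (s + l₁ * (inner ℝ (p₀ + X₁ • a + Y₁ • b) dd / ‖dd‖ ^ 2)
      + l₂ * (inner ℝ (p₀ + X₂ • a + Y₂ • b) dd / ‖dd‖ ^ 2)
      + l₃ * (inner ℝ (p₀ + X₃ • a + Y₃ • b) dd / ‖dd‖ ^ 2)) * ‖dd‖, ?_⟩
  rw [smul_smul, mul_assoc, mul_one_div_cancel hn, mul_one]
  have hl : l₁ = 1 - l₂ - l₃ := by linarith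
  unfold proj
  rw [hl]
  module

/-- barycentric weights in the sector triangle with apex `(-X0, -X0 m)`, `m = t0 + d/2`, slopes
`t0`, `t0 + d`, far side `X = Xm`. -/
theorem tri_weights (t0 d X0 Xm X Y : ℝ) (hd : 0 < d) (hW : 0 < Xm + X0) (hX : X ≤ Xm)
    (hlo : t0 * (X + X0) ≤ Y + X0 * (t0 + d / 2))
    (hhi : Y + X0 * (t0 + d / 2) ≤ (t0 + d) * (X + X0)) :
    ∃ l₁ l₂ l₃ : ℝ, 0 ≤ l₁ ∧ 0 ≤ l₂ ∧ 0 ≤ l₃ ∧ l₁ + l₂ + l₃ = 1 ∧
      X = l₁ * (-X0) + l₂ * Xm + l₃ * Xm ∧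
      Y = l₁ * (-X0 * (t0 + d / 2)) + l₂ * (t0 * (Xm + X0) - X0 * (t0 + d / 2))
        + l₃ * ((t0 + d) * (Xm + X0) - X0 * (t0 + d / 2)) := by
  have hWd : 0 < d * (Xm + X0) := mul_pos hd hW
  refine ⟨1 - (X + X0) / (Xm + X0), ((t0 + d) * (X + X0) - Y - X0 * (t0 + d / 2)) / (d * (Xm + X0)),
    (Y + X0 * (t0 + d / 2) - t0 * (X + X0)) / (d * (Xm + X0)), ?_, ?_, ?_, ?_, ?_, ?_⟩
  · rw [sub_nonneg, div_le_one hW]; linarith
  · apply div_nonneg _ hWd.le; linarith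
  · apply div_nonneg _ hWd.le; linarith
  · field_simp; ring
  · field_simp; ring
  · field_simp; ring

/-- the three inequalities placing a point of the sector piece in the sector triangle -/
theorem sector_ineq (c d t0 δ ρ s r : ℝ) (hc : 0 ≤ c) (hδ0 : 0 ≤ δ) (hδ1 : δ ≤ d)
    (hρ0 : 0 ≤ ρ) (hρ1 : ρ ≤ r) (hs : |s| ≤ 1) :
    (ρ + s * c * δ / 2 ≤ r + c * d / 2) ∧
    (t0 * ((ρ + s * c * δ / 2) + 3 / 2 * c * d) ≤
      (ρ * (t0 + δ) + s * c * ((t0 + δ) ^ 2 - t0 ^ 2) / 4) + 3 / 2 * c * d * (t0 + d / 2)) ∧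
    ((ρ * (t0 + δ) + s * c * ((t0 + δ) ^ 2 - t0 ^ 2) / 4) + 3 / 2 * c * d * (t0 + d / 2) ≤
      (t0 + d) * ((ρ + s * c * δ / 2) + 3 / 2 * c * d)) := by
  have hd : 0 ≤ d := le_trans hδ0 hδ1
  have hs1 := (abs_le.mp hs).1
  have hs2 := (abs_le.mp hs).2
  have hcδ : c * δ ≤ c * d := mul_le_mul_of_nonneg_left hδ1 hc
  have hcδ0 : 0 ≤ c * δ := mul_nonneg hc hδ0
  refine ⟨?_, ?_, ?_⟩
  · have : s * (c * δ) ≤ 1 * (c * δ) := mul_le_mul_of_nonneg_right hs2 hcδ0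
    nlinarith
  · -- ρ δ + s c δ²/4 + (3/4) c d² ≥ 0
    have h1 : 0 ≤ ρ * δ := mul_nonneg hρ0 hδ0
    have h2 : c * δ ^ 2 ≤ c * d ^ 2 :=
      mul_le_mul_of_nonneg_left (pow_le_pow_left₀ hδ0 hδ1 2) hc
    have h3 : -1 * (c * δ ^ 2) ≤ s * (c * δ ^ 2) :=
      mul_le_mul_of_nonneg_right hs1 (by positivity)
    nlinarith
  · -- ρ (d - δ) + s c δ/2 (d - δ/2) + (3/4) c d² ≥ 0
    have h1 : 0 ≤ ρ * (d - δ) := mul_nonneg hρ0 (by linarith)
    have h4 : 0 ≤ δ * (d - δ / 2) := mul_nonneg hδ0 (by linarith)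
    have h5 : δ * (d - δ / 2) ≤ d * d := by nlinarith
    have h2 : c * (δ * (d - δ / 2)) ≤ c * (d * d) := mul_le_mul_of_nonneg_left h5 hc
    have h3 : -1 * (c * (δ * (d - δ / 2))) ≤ s * (c * (δ * (d - δ / 2))) :=
      mul_le_mul_of_nonneg_right hs1 (by positivity)
    nlinarith

/-- an orthogonal frame `e, a, b` with `‖e‖ = 1`, `‖a‖² = 2`, `‖b‖ = 1` -/
structure Frame (e a b : E3) : Prop where
  he : ‖e‖ = 1
  ha : inner ℝ a e = 0
  hb : inner ℝ b e = 0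
  na : ‖a‖ ^ 2 = 2
  nb : ‖b‖ ^ 2 = 1
  hab : inner ℝ a b = 0

noncomputable def wvec (a b : E3) (t : ℝ) : E3 :=
  (c0 * t / 2) • a + (c0 * (t ^ 2 + 1) / 4) • b
noncomputable def axis (e a b : E3) (i : ℕ) : E3 := e + wvec a b (tnode i)
noncomputable def X0 : ℝ := 3 / 2 * c0 * d0
noncomputable def Xm (i : ℕ) : ℝ := rsec i + c0 * d0 / 2
noncomputable def uvec (e a b : E3) (i : ℕ) : E3 := (1 / ‖axis e a b i‖) • axis e a b i
noncomputable def pvec (e a b p₀ : E3) (i : ℕ) : E3 :=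
  proj (axis e a b i) (p₀ + (-X0) • a + (-X0 * (tnode i + d0 / 2)) • b)
noncomputable def qvec (e a b p₀ : E3) (i : ℕ) : E3 :=
  proj (axis e a b i) (p₀ + (Xm i) • a + (tnode i * (Xm i + X0) - X0 * (tnode i + d0 / 2)) • b)
noncomputable def rvec (e a b p₀ : E3) (i : ℕ) : E3 :=
  proj (axis e a b i)
    (p₀ + (Xm i) • a + ((tnode i + d0) * (Xm i + X0) - X0 * (tnode i + d0 / 2)) • b)

theorem c0_pos : 0 < c0 := by unfold c0; norm_num

theorem rsec_pos (i : ℕ) : 0 < rsec i := by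
  unfold rsec hfun c0 κ0 d0; positivity

theorem XmX0 (i : ℕ) : Xm i + X0 = rsec i + 2 * c0 * d0 := by unfold Xm X0; ring

theorem XmX0_pos (i : ℕ) : 0 < Xm i + X0 := by
  rw [XmX0]; have := rsec_pos i; have := c0_pos; have := d0_pos; positivity

section frame
variable {e a b : E3} (hF : Frame e a b)
include hF

theorem inner_wvec (t : ℝ) : inner ℝ (wvec a b t) e = 0 := by
  unfold wvec
  rw [inner_add_left, inner_smul_left, inner_smul_left, hF.ha, hF.hb]; simp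

theorem norm_wvec_sq (t : ℝ) : ‖wvec a b t‖ ^ 2 = vfun t := by
  unfold wvec vfun
  rw [@norm_add_sq_real, norm_smul, norm_smul, mul_pow, mul_pow, hF.na, hF.nb,
    inner_smul_left, inner_smul_right, hF.hab]
  simp only [Real.norm_eq_abs, sq_abs]
  simp
  ring

theorem axis_ne_zero (i : ℕ) : axis e a b i ≠ 0 := by
  intro h
  have h1 : inner ℝ (axis e a b i) e = 1 := by
    unfold axis
    rw [inner_add_left, inner_wvec hF, real_inner_self_eq_norm_sq, hF.he]; norm_num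
  rw [h] at h1
  simp at h1

theorem norm_uvec (i : ℕ) : ‖uvec e a b i‖ = 1 := by
  unfold uvec
  have hn : ‖axis e a b i‖ ≠ 0 := norm_ne_zero_iff.mpr (axis_ne_zero hF i)
  rw [norm_smul, Real.norm_eq_abs, abs_of_nonneg (by positivity)]
  field_simp

theorem inner_proj_uvec (i : ℕ) (y : E3) : inner ℝ (proj (axis e a b i) y) (uvec e a b i) = 0 := by
  unfold uvec
  rw [inner_smul_right, inner_proj_self _ _ (axis_ne_zero hF i), mul_zero]

theorem gram_frame : gram a b = 2 := by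
  unfold gram; rw [hF.na, hF.nb, hF.hab]; norm_num

theorem area_sector (p₀ : E3) (i : ℕ) :
    μHE[2] (convexHull ℝ ({pvec e a b p₀ i, qvec e a b p₀ i, rvec e a b p₀ i} : Set E3)) =
      ENNReal.ofReal (Real.sqrt 2 * secArea i) := by
  unfold pvec qvec rvec axis
  rw [area_proj_triangle e a b (wvec a b (tnode i)) p₀ hF.he hF.ha hF.hb (inner_wvec hF _),
    gram_frame hF, norm_wvec_sq hF]
  congr 1
  have hW := XmX0 i
  have e1 : (Xm i - -X0) * ((tnode i + d0) * (Xm i + X0) - X0 * (tnode i + d0 / 2)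
        - -X0 * (tnode i + d0 / 2))
      - (tnode i * (Xm i + X0) - X0 * (tnode i + d0 / 2) - -X0 * (tnode i + d0 / 2)) * (Xm i - -X0)
      = d0 * (Xm i + X0) ^ 2 := by ring
  rw [e1, abs_of_nonneg (by have := d0_pos; positivity), hW]
  unfold secArea
  ring

theorem sector_mem (p₀ : E3) (i : ℕ) (t ρ s : ℝ) (ht0 : tnode i ≤ t) (ht1 : t ≤ tnode i + d0)
    (hρ0 : 0 ≤ ρ) (hρ1 : ρ ≤ rsec i) (hs : |s| ≤ 1) :
    p₀ + ρ • (a + t • b) + s • (e + wvec a b t) ∈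
      cyl (uvec e a b i) (pvec e a b p₀ i) (qvec e a b p₀ i) (rvec e a b p₀ i) := by
  obtain ⟨δ, hδ⟩ : ∃ δ, t = tnode i + δ := ⟨t - tnode i, by ring⟩
  obtain ⟨h1, h2, h3⟩ := sector_ineq c0 d0 (tnode i) δ ρ s (rsec i) c0_pos.le (by linarith)
    (by linarith) hρ0 hρ1 hs
  obtain ⟨l₁, l₂, l₃, hl1, hl2, hl3, hsum, hX, hY⟩ :=
    tri_weights (tnode i) d0 X0 (Xm i) (ρ + s * c0 * δ / 2)
      (ρ * (tnode i + δ) + s * c0 * ((tnode i + δ) ^ 2 - tnode i ^ 2) / 4) d0_pos (XmX0_pos i)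
      h1 h2 h3
  have key := mem_cyl (axis e a b i) a b p₀ (axis_ne_zero hF i) (-X0) (-X0 * (tnode i + d0 / 2))
    (Xm i) (tnode i * (Xm i + X0) - X0 * (tnode i + d0 / 2)) (Xm i)
    ((tnode i + d0) * (Xm i + X0) - X0 * (tnode i + d0 / 2)) l₁ l₂ l₃ s hl1 hl2 hl3 hsum
  rw [← hX, ← hY] at key
  have e1 : p₀ + ρ • (a + t • b) + s • (e + wvec a b t) =
      p₀ + (ρ + s * c0 * δ / 2) • a
        + (ρ * (tnode i + δ) + s * c0 * ((tnode i + δ) ^ 2 - tnode i ^ 2) / 4) • b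
        + s • axis e a b i := by
    unfold axis wvec
    rw [hδ]
    module
  rw [e1]
  exact key

end frame

theorem exists_sector (t : ℝ) (h0 : -1 ≤ t) (h1 : t ≤ 1) :
    ∃ i < N0, tnode i ≤ t ∧ t ≤ tnode i + d0 := by
  rcases eq_or_lt_of_le h1 with h | h
  · refine ⟨N0 - 1, by unfold N0; norm_num, ?_, ?_⟩
    · rw [h]; exact tnode_le (by unfold N0; norm_num)
    · rw [← tnode_succ, h]
      have : N0 - 1 + 1 = N0 := by unfold N0; norm_num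
      rw [this, tnode_N0]
  · have hd := d0_pos
    have hq : 0 ≤ (t + 1) / d0 := div_nonneg (by linarith) hd.le
    refine ⟨⌊(t + 1) / d0⌋₊, ?_, ?_, ?_⟩
    · have h2 : ((⌊(t + 1) / d0⌋₊ : ℕ) : ℝ) ≤ (t + 1) / d0 := Nat.floor_le hq
      have h3 : (t + 1) / d0 < (N0 : ℝ) := by
        rw [div_lt_iff₀ hd]; unfold N0 d0; norm_num; linarith
      exact_mod_cast lt_of_le_of_lt h2 h3
    · have h2 : ((⌊(t + 1) / d0⌋₊ : ℕ) : ℝ) ≤ (t + 1) / d0 := Nat.floor_le hq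
      rw [le_div_iff₀ hd] at h2
      unfold tnode; linarith
    · have h2 : (t + 1) / d0 < (⌊(t + 1) / d0⌋₊ : ℕ) + 1 := Nat.lt_floor_add_one _
      rw [div_lt_iff₀ hd] at h2
      unfold tnode; linarith

theorem Rfun_le_rsec (i : ℕ) (t : ℝ) (hi : -1 ≤ tnode i) (h1 : t ≤ 1) (ht0 : tnode i ≤ t)
    (ht1 : t ≤ tnode i + d0) : Rfun t ≤ rsec i := by
  unfold Rfun rsec
  have hc : 0 ≤ c0 ^ 2 := by positivity
  have key : hfun t ≤ hfun (tnode i) + d0 := by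
    unfold hfun
    obtain ⟨z, hz⟩ : ∃ z, z = tnode i := ⟨_, rfl⟩
    rw [← hz] at hi ht0 ht1 ⊢
    have e : (t ^ 2 + t ^ 4) / 16 - (z ^ 2 + z ^ 4) / 16 = (t - z) * ((t + z) * (1 + t ^ 2 + z ^ 2) / 16) := by
      ring
    have hz1 : z ≤ 1 := by linarith
    have ht' : -1 ≤ t := by linarith
    have ht2 : t ^ 2 ≤ 1 := by nlinarith
    have hz2 : z ^ 2 ≤ 1 := by nlinarith
    have h3 : (t + z) * (1 + t ^ 2 + z ^ 2) / 16 ≤ 1 := by nlinarith [sq_nonneg t, sq_nonneg z]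
    have h4 : (t - z) * ((t + z) * (1 + t ^ 2 + z ^ 2) / 16) ≤ (t - z) * 1 :=
      mul_le_mul_of_nonneg_left h3 (by linarith)
    linarith
  have := mul_le_mul_of_nonneg_left key hc
  nlinarith

theorem frame_bot : Frame (!₂[1, 0, 0] : E3) !₂[0, 0, Real.sqrt 2] !₂[0, 1, 0] where
  he := by simp [EuclideanSpace.norm_eq, Fin.sum_univ_three]
  ha := by simp [PiLp.inner_apply, Fin.sum_univ_three]
  hb := by simp [PiLp.inner_apply, Fin.sum_univ_three]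
  na := by simp [EuclideanSpace.norm_eq, Fin.sum_univ_three]
  nb := by simp [EuclideanSpace.norm_eq, Fin.sum_univ_three]
  hab := by simp [PiLp.inner_apply, Fin.sum_univ_three]

theorem frame_top : Frame (!₂[0, 1, 0] : E3) !₂[0, 0, -Real.sqrt 2] !₂[-1, 0, 0] where
  he := by simp [EuclideanSpace.norm_eq, Fin.sum_univ_three]
  ha := by simp [PiLp.inner_apply, Fin.sum_univ_three]
  hb := by simp [PiLp.inner_apply, Fin.sum_univ_three]
  na := by simp [EuclideanSpace.norm_eq, Fin.sum_univ_three]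
  nb := by simp [EuclideanSpace.norm_eq, Fin.sum_univ_three]
  hab := by simp [PiLp.inner_apply, Fin.sum_univ_three]

theorem K_coords (P : E3)
    (hP : P ∈ convexHull ℝ ({!₂[1, 0, 0], !₂[-1, 0, 0], !₂[0, 1, Real.sqrt 2],
      !₂[0, -1, Real.sqrt 2]} : Set E3)) :
    |P 0| ≤ 1 - P 2 / Real.sqrt 2 ∧ |P 1| ≤ P 2 / Real.sqrt 2 := by
  have h2 : Real.sqrt 2 ≠ 0 := by positivity
  have hconv : Convex ℝ {P : E3 | |P 0| ≤ 1 - P 2 / Real.sqrt 2 ∧ |P 1| ≤ P 2 / Real.sqrt 2} := by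
    intro x hx y hy α β hα hβ hαβ
    simp only [Set.mem_setOf_eq, abs_le] at hx hy ⊢
    obtain ⟨⟨hx1, hx2⟩, hx3, hx4⟩ := hx
    obtain ⟨⟨hy1, hy2⟩, hy3, hy4⟩ := hy
    simp only [PiLp.add_apply, PiLp.smul_apply, smul_eq_mul, add_div, mul_div_assoc]
    generalize x 2 / Real.sqrt 2 = xs at *
    generalize y 2 / Real.sqrt 2 = ys at *
    refine ⟨⟨?_, ?_⟩, ?_, ?_⟩ <;> nlinarith
  have hsub : ({!₂[1, 0, 0], !₂[-1, 0, 0], !₂[0, 1, Real.sqrt 2],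
      !₂[0, -1, Real.sqrt 2]} : Set E3) ⊆
      {P : E3 | |P 0| ≤ 1 - P 2 / Real.sqrt 2 ∧ |P 1| ≤ P 2 / Real.sqrt 2} := by
    intro Q hQ
    simp only [Set.mem_insert_iff, Set.mem_singleton_iff] at hQ
    rcases hQ with rfl | rfl | rfl | rfl <;> simp [h2]
  exact convexHull_min hsub hconv hP

theorem decomp_bot (P : E3) :
    P = (0 : E3) + (P 2 / Real.sqrt 2) • (!₂[0, 0, Real.sqrt 2] : E3) + (P 1) • (!₂[0, 1, 0] : E3)
      + (P 0) • (!₂[1, 0, 0] : E3) := by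
  have h2 : Real.sqrt 2 ≠ 0 := by positivity
  ext i
  fin_cases i <;> simp [h2]

theorem decomp_top (P : E3) :
    P = (!₂[0, 0, Real.sqrt 2] : E3) + (1 - P 2 / Real.sqrt 2) • (!₂[0, 0, -Real.sqrt 2] : E3)
      + (-P 0) • (!₂[-1, 0, 0] : E3) + (P 1) • (!₂[0, 1, 0] : E3) := by
  have h2 : Real.sqrt 2 ≠ 0 := by positivity
  ext i
  fin_cases i <;> simp [h2] <;> field_simp <;> ring

end Crest.Agent.S0324.Cover
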