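import Crest.Agent.S0324_Area

/-!
# Minimal projection area of the standard regular tetrahedron (S0325, part 1)
-/

set_option autoImplicit false
set_option linter.deprecated false
set_option linter.unusedSimpArgs false
open MeasureTheory Measure

namespace Crest.Agent.S0324

/-- determinant of three vectors of `E3` -/
def det3 (a b v : E3) : ℝ :=
  a 0 * (b 1 * v 2 - b 2 * v 1) - a 1 * (b 0 * v 2 - b 2 * v 0) + a 2 * (b 0 * v 1 - b 1 * v 0)

theorem gram_proj_unit (v a b : E3) (hv : ‖v‖ = 1) :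
    gram (proj v a) (proj v b) = det3 a b v ^ 2 := by
  have hv0 : v ≠ 0 := by
    intro h; rw [h] at hv; simp at hv
  have hv' : ‖v‖ ^ 2 = 1 := by rw [hv]; norm_num
  unfold gram
  rw [norm_proj_sq _ _ hv0, norm_proj_sq _ _ hv0, inner_proj_proj _ _ _ hv0, hv']
  rw [EuclideanSpace.norm_sq_eq] at hv' ⊢
  rw [EuclideanSpace.norm_sq_eq]
  unfold det3
  simp only [PiLp.inner_apply, Fin.sum_univ_three, Real.norm_eq_abs, sq_abs, RCLike.inner_apply,
    conj_trivial] at *
  generalize a.ofLp 0 = a0 at *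
  generalize a.ofLp 1 = a1 at *
  generalize a.ofLp 2 = a2 at *
  generalize b.ofLp 0 = b0 at *
  generalize b.ofLp 1 = b1 at *
  generalize b.ofLp 2 = b2 at *
  generalize v.ofLp 0 = v0 at *
  generalize v.ofLp 1 = v1 at *
  generalize v.ofLp 2 = v2 at *
  linear_combination (-((a0^2+a1^2+a2^2)*(b0^2+b1^2+b2^2) - (a0*b0+a1*b1+a2*b2)^2)) * hv'

theorem key_ineq_abs (P Q S r : ℝ) (hP : 0 ≤ P) (hQ : 0 ≤ Q) (hS : 0 ≤ S) (hr : 0 < r) (hr2 : r ^ 2 = 2)
    (h : P ^ 2 + Q ^ 2 + S ^ 2 = 1) (hQP : Q ≤ P) (h1 : 2 * S < r) (h2 : P + Q < 1) (h3 : r * P + S < r) :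
    False := by
  have a1 : 2 * P * Q < S ^ 2 := by nlinarith
  have a2 : Q ^ 2 ≤ P * Q := by nlinarith
  have a3 : S ^ 2 < 1 / 2 := by nlinarith
  have a4 : 1 / 4 < P ^ 2 := by nlinarith
  have a5 : 1 / 2 < P := by nlinarith
  have a6 : S ≤ r * P := by nlinarith
  have a7 : 2 ≤ (r * P + S) ^ 2 := by nlinarith
  nlinarith

theorem key_ineq (p q s : ℝ) (h : p ^ 2 + q ^ 2 + s ^ 2 = 1) :
    Real.sqrt 2 ≤ 2 * |s| ∨ Real.sqrt 2 ≤ Real.sqrt 2 * |p + q| ∨ Real.sqrt 2 ≤ Real.sqrt 2 * |p - q| ∨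
      Real.sqrt 2 ≤ |Real.sqrt 2 * q - s| ∨ Real.sqrt 2 ≤ |Real.sqrt 2 * q + s| ∨
      Real.sqrt 2 ≤ |Real.sqrt 2 * p + s| ∨ Real.sqrt 2 ≤ |Real.sqrt 2 * p - s| := by
  by_contra hcon
  push Not at hcon
  obtain ⟨h1, h2, h3, h4, h5, h6, h7⟩ := hcon
  set r := Real.sqrt 2 with hr
  have hr0 : 0 < r := by positivity
  have hr2 : r ^ 2 = 2 := Real.sq_sqrt (by norm_num)
  have h2' : |p + q| < 1 := by nlinarith [abs_nonneg (p + q)]
  have h3' : |p - q| < 1 := by nlinarith [abs_nonneg (p - q)]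
  have hPQ : |p| + |q| < 1 := by
    rcases abs_cases p with ⟨e1, _⟩ | ⟨e1, _⟩ <;> rcases abs_cases q with ⟨e2, _⟩ | ⟨e2, _⟩ <;>
      rw [e1, e2] <;> rw [abs_lt] at h2' h3' <;> linarith [h2'.1, h2'.2, h3'.1, h3'.2]
  have hP : r * |p| + |s| < r := by
    rw [abs_lt] at h6 h7
    rcases abs_cases p with ⟨e1, _⟩ | ⟨e1, _⟩ <;> rcases abs_cases s with ⟨e2, _⟩ | ⟨e2, _⟩ <;>
      rw [e1, e2] <;> linarith [h6.1, h6.2, h7.1, h7.2]
  have hQ : r * |q| + |s| < r := by
    rw [abs_lt] at h4 h5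
    rcases abs_cases q with ⟨e1, _⟩ | ⟨e1, _⟩ <;> rcases abs_cases s with ⟨e2, _⟩ | ⟨e2, _⟩ <;>
      rw [e1, e2] <;> linarith [h4.1, h4.2, h5.1, h5.2]
  have hsq : |p| ^ 2 + |q| ^ 2 + |s| ^ 2 = 1 := by simpa [sq_abs] using h
  rcases le_total |q| |p| with hle | hle
  · exact key_ineq_abs |p| |q| |s| r (abs_nonneg _) (abs_nonneg _) (abs_nonneg _) hr0 hr2 hsq hle h1 hPQ hP
  · exact key_ineq_abs |q| |p| |s| r (abs_nonneg _) (abs_nonneg _) (abs_nonneg _) hr0 hr2
      (by linarith) hle h1 (by linarith) hQ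

/-- the four vertices -/
noncomputable abbrev vA : E3 := !₂[1, 0, 0]
noncomputable abbrev vB : E3 := !₂[-1, 0, 0]
noncomputable abbrev vC : E3 := !₂[0, 1, Real.sqrt 2]
noncomputable abbrev vD : E3 := !₂[0, -1, Real.sqrt 2]

/-- the standard regular tetrahedron -/
noncomputable abbrev tetra : Set E3 := convexHull ℝ {vA, vB, vC, vD}

theorem minproj_ge (v : E3) (hv : ‖v‖ = 1) :
    ENNReal.ofReal (Real.sqrt 2) ≤ μHE[2] ((fun y => y - inner ℝ y v • v) '' tetra) := by
  obtain ⟨π, hπ1, hπ2⟩ := exists_planar_reduction v hv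
  rw [hπ1, LinearMap.image_convexHull]
  have himg : π '' {vA, vB, vC, vD} = {π vA, π vB, π vC, π vD} := by
    simp [Set.image_insert_eq]
  rw [himg]
  have habs : ∀ a b : E3, |det2 (π a) (π b)| = |det3 a b v| := by
    intro a b
    have := hπ2 a b
    rw [gram_proj_unit v a b hv] at this
    exact (sq_eq_sq_iff_abs_eq_abs _ _).mp this
  have hv2 : v 0 ^ 2 + v 1 ^ 2 + v 2 ^ 2 = 1 := by
    have hv' : ‖v‖ ^ 2 = 1 := by rw [hv]; norm_num
    rw [EuclideanSpace.norm_sq_eq] at hv'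
    simpa [Fin.sum_univ_three, sq_abs] using hv'
  -- quadrilateral bounds
  have hq : ∀ X Y Z W : E3, ({π X, π Y, π Z, π W} : Set E2) = {π vA, π vB, π vC, π vD} →
      ENNReal.ofReal (|det3 (X - Y) (Z - W) v| / 2) ≤ volume (convexHull ℝ ({π vA, π vB, π vC, π vD} : Set E2)) := by
    intro X Y Z W hset
    rw [← hset, ← habs, map_sub, map_sub]
    exact volume_quadrilateral_ge _ _ _ _
  have ht : ∀ X Y Z : E3, ({π X, π Y, π Z} : Set E2) ⊆ {π vA, π vB, π vC, π vD} →
      ENNReal.ofReal (|det3 (Y - X) (Z - X) v| / 2) ≤ volume (convexHull ℝ ({π vA, π vB, π vC, π vD} : Set E2)) := by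
    intro X Y Z hset
    rw [← habs, map_sub, map_sub, ← volume_triangle]
    exact measure_mono (convexHull_mono hset)
  have hs2 : Real.sqrt 2 * Real.sqrt 2 = 2 := Real.mul_self_sqrt (by norm_num)
  rcases key_ineq (v 0) (v 1) (v 2) hv2 with h | h | h | h | h | h | h
  · refine le_trans (ENNReal.ofReal_le_ofReal ?_) (hq vA vB vC vD rfl)
    have : det3 (vA - vB) (vC - vD) v = 4 * v 2 := by
      simp [det3]; ring
    rw [this, abs_mul]; norm_num; linarith
  · refine le_trans (ENNReal.ofReal_le_ofReal ?_) (hq vA vC vB vD ?_)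
    · have : det3 (vA - vC) (vB - vD) v = 2 * (Real.sqrt 2 * (v 0 + v 1)) := by
        simp [det3]; ring
      rw [this, abs_mul, abs_mul, abs_of_pos (by positivity : (0:ℝ) < Real.sqrt 2),
        abs_of_pos (by norm_num : (0:ℝ) < 2)]
      linarith
    · ext x; simp only [Set.mem_insert_iff, Set.mem_singleton_iff]; tauto
  · refine le_trans (ENNReal.ofReal_le_ofReal ?_) (hq vA vD vB vC ?_)
    · have : det3 (vA - vD) (vB - vC) v = -2 * (Real.sqrt 2 * (v 0 - v 1)) := by
        simp [det3]; ring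
      rw [this, abs_mul, abs_mul, abs_of_pos (by positivity : (0:ℝ) < Real.sqrt 2),
        show |(-2:ℝ)| = 2 by norm_num]
      linarith
    · ext x; simp only [Set.mem_insert_iff, Set.mem_singleton_iff]; tauto
  · refine le_trans (ENNReal.ofReal_le_ofReal ?_) (ht vA vB vC ?_)
    · have : det3 (vB - vA) (vC - vA) v = 2 * (Real.sqrt 2 * v 1 - v 2) := by
        simp [det3]; ring
      rw [this, abs_mul]; norm_num; linarith
    · intro x; simp only [Set.mem_insert_iff, Set.mem_singleton_iff]; tauto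
  · refine le_trans (ENNReal.ofReal_le_ofReal ?_) (ht vA vB vD ?_)
    · have : det3 (vB - vA) (vD - vA) v = 2 * (Real.sqrt 2 * v 1 + v 2) := by
        simp [det3]; ring
      rw [this, abs_mul]; norm_num; linarith
    · intro x; simp only [Set.mem_insert_iff, Set.mem_singleton_iff]; tauto
  · refine le_trans (ENNReal.ofReal_le_ofReal ?_) (ht vC vD vA ?_)
    · have : det3 (vD - vC) (vA - vC) v = 2 * (Real.sqrt 2 * v 0 + v 2) := by
        simp [det3]; ring
      rw [this, abs_mul]; norm_num; linarith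
    · intro x; simp only [Set.mem_insert_iff, Set.mem_singleton_iff]; tauto
  · refine le_trans (ENNReal.ofReal_le_ofReal ?_) (ht vC vD vB ?_)
    · have : det3 (vD - vC) (vB - vC) v = 2 * (Real.sqrt 2 * v 0 - v 2) := by
        simp [det3]; ring
      rw [this, abs_mul]; norm_num; linarith
    · intro x; simp only [Set.mem_insert_iff, Set.mem_singleton_iff]; tauto

theorem minproj_lt_top (v : E3) (hv : ‖v‖ = 1) :
    μHE[2] ((fun y => y - inner ℝ y v • v) '' tetra) < ⊤ := by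
  obtain ⟨π, hπ1, -⟩ := exists_planar_reduction v hv
  rw [hπ1, LinearMap.image_convexHull]
  have hfin : (π '' {vA, vB, vC, vD}).Finite := by
    apply Set.Finite.image; simp
  exact (hfin.isCompact_convexHull (𝕜 := ℝ)).measure_lt_top

theorem minproj_attained :
    ∃ v : E3, ‖v‖ = 1 ∧ μHE[2] ((fun y => y - inner ℝ y v • v) '' tetra) = ENNReal.ofReal (Real.sqrt 2) := by
  refine ⟨vA, ?_, ?_⟩
  · rw [EuclideanSpace.norm_eq]; simp [Fin.sum_univ_three]
  · have hlin : IsLinearMap ℝ (fun y : E3 => y - inner ℝ y vA • vA) := by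
      constructor
      · intro x y; simp only [inner_add_left, add_smul]; abel
      · intro c x; simp only [inner_smul_left, smul_sub, smul_smul]; simp
    rw [hlin.image_convexHull]
    have himg : (fun y : E3 => y - inner ℝ y vA • vA) '' {vA, vB, vC, vD} = {0, vC, vD} := by
      have hAA : inner ℝ vA vA = 1 := by
        rw [PiLp.inner_apply]; simp [Fin.sum_univ_three]
      have e1 : vA - inner ℝ vA vA • vA = 0 := by
        rw [hAA]; simp
      have e2 : vB - inner ℝ vB vA • vA = 0 := by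
        ext i; fin_cases i <;> simp [PiLp.inner_apply, Fin.sum_univ_three]
      have e3 : vC - inner ℝ vC vA • vA = vC := by
        ext i; fin_cases i <;> simp [PiLp.inner_apply, Fin.sum_univ_three]
      have e4 : vD - inner ℝ vD vA • vA = vD := by
        ext i; fin_cases i <;> simp [PiLp.inner_apply, Fin.sum_univ_three]
      simp only [Set.image_insert_eq, Set.image_singleton, e1, e2, e3, e4]
      simp
    rw [himg, area_triangle]
    congr 1
    have hg : gram (vC - 0) (vD - 0) = 8 := by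
      unfold gram
      rw [sub_zero, sub_zero, EuclideanSpace.norm_sq_eq, EuclideanSpace.norm_sq_eq]
      simp [PiLp.inner_apply, Fin.sum_univ_three]
      norm_num
    rw [hg]
    have : Real.sqrt 8 = 2 * Real.sqrt 2 := by
      rw [show (8:ℝ) = 2 ^ 2 * 2 by norm_num, Real.sqrt_mul (by norm_num), Real.sqrt_sq (by norm_num)]
    rw [this]; ring

end Crest.Agent.S0324
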