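import Mathlib

/-!
# Row 211: planes `u^⊥` in `ℝ³`, finiteness of area of bounded sets, open enlargement of bases
-/

set_option autoImplicit false
open MeasureTheory Measure

namespace Crest.Agent.S0324.OpenBase

local notation "E3" => EuclideanSpace ℝ (Fin 3)

/-- the plane `u^⊥` as a submodule -/
noncomputable abbrev plane (u : E3) : Submodule ℝ E3 := (ℝ ∙ u)ᗮ

theorem mem_plane (u x : E3) : x ∈ plane u ↔ inner ℝ x u = 0 :=
  Submodule.mem_orthogonal_singleton_iff_inner_left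

theorem finrank_plane (u : E3) (hu : u ≠ 0) : Module.finrank ℝ (plane u) = 2 := by
  have : Fact (Module.finrank ℝ E3 = 2 + 1) := ⟨by simp⟩
  exact Submodule.finrank_orthogonal_span_singleton hu

theorem muHE_plane_eq_volume (u : E3) (hu : u ≠ 0) :
    (μHE[2] : Measure (plane u)) = volume := by
  have h := InnerProductSpace.euclideanHausdorffMeasure_eq_volume (V := plane u)
  rwa [finrank_plane u hu] at h

theorem muHE_image_val (u : E3) (hu : u ≠ 0) (t : Set (plane u)) :
    μHE[2] (Subtype.val '' t : Set E3) = volume t := by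
  rw [isometry_subtype_coe.euclideanHausdorffMeasure_image, muHE_plane_eq_volume u hu]

theorem image_val_preimage (u : E3) (S : Set E3) (hS : ∀ x ∈ S, inner ℝ x u = 0) :
    (Subtype.val '' ((Subtype.val : plane u → E3) ⁻¹' S) : Set E3) = S := by
  ext x
  constructor
  · rintro ⟨y, hy, rfl⟩
    exact hy
  · exact fun h => ⟨⟨x, (mem_plane u x).2 (hS x h)⟩, h, rfl⟩

/-- bounded subsets of a plane have finite area -/
theorem area_lt_top (u : E3) (hu : u ≠ 0) (S : Set E3) (hS : ∀ x ∈ S, inner ℝ x u = 0)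
    (hbd : Bornology.IsBounded S) : μHE[2] S < ⊤ := by
  rw [← image_val_preimage u S hS, muHE_image_val u hu]
  apply Bornology.IsBounded.measure_lt_top
  obtain ⟨r, hr⟩ := hbd.subset_closedBall (0 : E3)
  refine (Metric.isBounded_closedBall (x := (0 : plane u)) (r := r)).subset ?_
  intro x hx
  have := hr hx
  simpa [mem_closedBall_zero_iff] using this

/-- Every bounded subset of the plane `u^⊥` is contained in a bounded relatively open subset of
the plane of almost the same area. -/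
theorem exists_open_base (u : E3) (hu : u ≠ 0) (B₀ : Set E3) (hB₀ : ∀ x ∈ B₀, inner ℝ x u = 0)
    (hbd : Bornology.IsBounded B₀) (η : ℝ) (hη : 0 < η) :
    ∃ O : Set E3, IsOpen O ∧ Bornology.IsBounded (O ∩ {x | inner ℝ x u = 0}) ∧
      B₀ ⊆ O ∩ {x | inner ℝ x u = 0} ∧
      (μHE[2] (O ∩ {x | inner ℝ x u = 0})).toReal ≤ (μHE[2] B₀).toReal + η := by
  set t₀ : Set (plane u) := (Subtype.val : plane u → E3) ⁻¹' B₀ with ht₀
  have hfin : μHE[2] B₀ < ⊤ := area_lt_top u hu B₀ hB₀ hbd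
  have hB₀eq : μHE[2] B₀ = volume t₀ := by
    rw [← muHE_image_val u hu, image_val_preimage u B₀ hB₀]
  have hfin' : volume t₀ ≠ ⊤ := by rw [← hB₀eq]; exact hfin.ne
  obtain ⟨W, hW₀, hWo, hWlt⟩ := Set.exists_isOpen_lt_add t₀ hfin'
    (ε := ENNReal.ofReal η) (by simpa using hη.ne' |> fun _ => (ENNReal.ofReal_pos.2 hη).ne')
  obtain ⟨O', hO'o, hO'⟩ := isOpen_induced_iff.1 hWo
  obtain ⟨r, hr⟩ := hbd.subset_ball (0 : E3)
  refine ⟨O' ∩ Metric.ball 0 r, hO'o.inter Metric.isOpen_ball, ?_, ?_, ?_⟩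
  · exact Metric.isBounded_ball.subset (fun x hx => hx.1.2)
  · intro x hx
    refine ⟨⟨?_, hr hx⟩, hB₀ x hx⟩
    have hxp : x ∈ plane u := (mem_plane u x).2 (hB₀ x hx)
    have : (⟨x, hxp⟩ : plane u) ∈ W := hW₀ (by simpa [ht₀] using hx)
    rw [← hO'] at this
    exact this
  · have hsub : (O' ∩ Metric.ball 0 r ∩ {x | inner ℝ x u = 0} : Set E3) ⊆ Subtype.val '' W := by
      rintro x ⟨⟨hx1, -⟩, hx2⟩
      refine ⟨⟨x, (mem_plane u x).2 hx2⟩, ?_, rfl⟩
      rw [← hO']
      exact hx1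
    have h1 : μHE[2] (O' ∩ Metric.ball 0 r ∩ {x | inner ℝ x u = 0} : Set E3) ≤ volume W := by
      rw [← muHE_image_val u hu]
      exact measure_mono hsub
    have h2 : volume W ≤ μHE[2] B₀ + ENNReal.ofReal η := by
      rw [hB₀eq]; exact hWlt.le
    have h3 : (μHE[2] B₀ + ENNReal.ofReal η).toReal = (μHE[2] B₀).toReal + η := by
      rw [ENNReal.toReal_add hfin.ne ENNReal.ofReal_ne_top, ENNReal.toReal_ofReal hη.le]
    rw [← h3]
    exact ENNReal.toReal_mono (ENNReal.add_ne_top.2 ⟨hfin.ne, ENNReal.ofReal_ne_top⟩) (h1.trans h2)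

end Crest.Agent.S0324.OpenBase
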