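import Mathlib

/-!
# Planar lemmas for row 211 (S0324 .. S0329)
-/

set_option autoImplicit false
open MeasureTheory Measure

namespace Crest.Agent.S0324.Planar

abbrev E2 := EuclideanSpace ℝ (Fin 2)
abbrev E3 := EuclideanSpace ℝ (Fin 3)

/-- explicit description of the convex hull of three points -/
theorem convexHull_triple {E : Type*} [AddCommGroup E] [Module ℝ E] (A B C : E) :
    convexHull ℝ ({A, B, C} : Set E) =
      {x | ∃ s t : ℝ, 0 ≤ s ∧ 0 ≤ t ∧ s + t ≤ 1 ∧ x = A + s • (B - A) + t • (C - A)} := by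
  apply Set.Subset.antisymm
  · apply convexHull_min
    · intro x hx
      simp only [Set.mem_insert_iff, Set.mem_singleton_iff] at hx
      rcases hx with rfl | rfl | rfl
      · exact ⟨0, 0, le_rfl, le_rfl, by norm_num, by simp⟩
      · exact ⟨1, 0, by norm_num, le_rfl, by norm_num, by simp⟩
      · exact ⟨0, 1, le_rfl, by norm_num, by norm_num, by simp⟩
    · rintro x ⟨s, t, hs, ht, hst, rfl⟩ y ⟨s', t', hs', ht', hst', rfl⟩ a b ha hb hab
      refine ⟨a * s + b * s', a * t + b * t', by positivity, by positivity, ?_, ?_⟩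
      · nlinarith
      · have : b = 1 - a := by linarith
        subst this
        module
  · rintro x ⟨s, t, hs, ht, hst, rfl⟩
    have hA : A ∈ convexHull ℝ ({A, B, C} : Set E) := subset_convexHull ℝ _ (by simp)
    have hB : B ∈ convexHull ℝ ({A, B, C} : Set E) := subset_convexHull ℝ _ (by simp)
    have hC : C ∈ convexHull ℝ ({A, B, C} : Set E) := subset_convexHull ℝ _ (by simp)
    have hconv := convex_convexHull ℝ ({A, B, C} : Set E)
    rcases eq_or_lt_of_le (add_nonneg hs ht) with h0 | hpos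
    · have hs0 : s = 0 := by linarith
      have ht0 : t = 0 := by linarith
      subst hs0 ht0
      simpa using hA
    · have h1 : (s / (s + t)) • B + (t / (s + t)) • C ∈ convexHull ℝ ({A, B, C} : Set E) :=
        hconv hB hC (by positivity) (by positivity) (by field_simp)
      have h2 := hconv hA h1 (show 0 ≤ 1 - (s + t) by linarith) hpos.le (by ring)
      convert h2 using 1
      have e1 : (s + t) * (s / (s + t)) = s := by field_simp
      have e2 : (s + t) * (t / (s + t)) = t := by field_simp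
      rw [smul_add, smul_smul, smul_smul, e1, e2]
      module


/-- lines are null -/
theorem volume_line_null (a b c : ℝ) (h : a ≠ 0 ∨ b ≠ 0) :
    volume {x : E2 | a * x 0 + b * x 1 = c} = 0 := by
  let S : AffineSubspace ℝ E2 :=
    { carrier := {x : E2 | a * x 0 + b * x 1 = c}
      smul_vsub_vadd_mem' := by
        intro k p1 p2 p3 h1 h2 h3
        simp only [Set.mem_ofPred_eq] at h1 h2 h3 ⊢
        simp only [vsub_eq_sub, vadd_eq_add, PiLp.add_apply, PiLp.smul_apply, PiLp.sub_apply,
          smul_eq_mul]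
        linear_combination k * h1 - k * h2 + h3 }
  have hS : S ≠ ⊤ := by
    intro hS
    have h0 : (0 : E2) ∈ S := by rw [hS]; trivial
    have h1 : (!₂[1, 0] : E2) ∈ S := by rw [hS]; trivial
    have h2 : (!₂[0, 1] : E2) ∈ S := by rw [hS]; trivial
    change a * (0 : E2) 0 + b * (0 : E2) 1 = c at h0
    change a * (!₂[1, 0] : E2) 0 + b * (!₂[1, 0] : E2) 1 = c at h1
    change a * (!₂[0, 1] : E2) 0 + b * (!₂[0, 1] : E2) 1 = c at h2
    simp at h0 h1 h2
    rcases h with h | h
    · exact h (by linarith)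
    · exact h (by linarith)
  exact Measure.addHaar_affineSubspace volume S hS

def T0 : Set E2 := {x | 0 ≤ x 0 ∧ 0 ≤ x 1 ∧ x 0 + x 1 ≤ 1}

theorem volume_square : volume {x : E2 | 0 ≤ x 0 ∧ x 0 ≤ 1 ∧ 0 ≤ x 1 ∧ x 1 ≤ 1} = 1 := by
  have hmp := PiLp.volume_preserving_ofLp (Fin 2)
  have heq : {x : E2 | 0 ≤ x 0 ∧ x 0 ≤ 1 ∧ 0 ≤ x 1 ∧ x 1 ≤ 1} =
      (@WithLp.ofLp 2 (Fin 2 → ℝ)) ⁻¹' (Set.Icc (0 : Fin 2 → ℝ) 1) := by
    ext x
    simp only [Set.mem_ofPred_eq, Set.mem_preimage, Set.mem_Icc, Pi.le_def, Fin.forall_fin_two]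
    simp
    tauto
  rw [heq, hmp.measure_preimage measurableSet_Icc.nullMeasurableSet, Real.volume_Icc_pi]
  simp

theorem measurableSet_T0 : MeasurableSet T0 := by
  apply IsClosed.measurableSet
  have h0 : Continuous fun x : E2 => x 0 := by fun_prop
  have h1 : Continuous fun x : E2 => x 1 := by fun_prop
  exact (isClosed_le continuous_const h0).inter
    ((isClosed_le continuous_const h1).inter (isClosed_le (h0.add h1) continuous_const))

theorem volume_T0 : volume T0 = 2⁻¹ := by
  set T1 : Set E2 := (fun x => (!₂[1, 1] : E2) - x) ⁻¹' T0 with hT1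
  have hvol : volume T1 = volume T0 :=
    (measurePreserving_sub_left volume (!₂[1, 1] : E2)).measure_preimage
      measurableSet_T0.nullMeasurableSet
  have hT1m : MeasurableSet T1 := by
    apply measurableSet_T0.preimage
    fun_prop
  have hunion : T0 ∪ T1 = {x : E2 | 0 ≤ x 0 ∧ x 0 ≤ 1 ∧ 0 ≤ x 1 ∧ x 1 ≤ 1} := by
    ext x
    simp only [hT1, T0, Set.mem_union, Set.mem_ofPred_eq, Set.mem_preimage, PiLp.sub_apply]
    simp
    constructor
    · rintro (⟨h1, h2, h3⟩ | ⟨h1, h2, h3⟩) <;> refine ⟨?_, ?_, ?_, ?_⟩ <;> linarith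
    · rintro ⟨h1, h2, h3, h4⟩
      by_cases h : x 0 + x 1 ≤ 1
      · exact Or.inl ⟨h1, h3, h⟩
      · exact Or.inr ⟨h2, h4, by linarith⟩
  have hinter : volume (T0 ∩ T1) = 0 := by
    apply measure_mono_null _ (volume_line_null 1 1 1 (Or.inl one_ne_zero))
    intro x hx
    simp only [hT1, T0, Set.mem_inter_iff, Set.mem_ofPred_eq, Set.mem_preimage, PiLp.sub_apply] at hx
    simp at hx
    simp only [Set.mem_ofPred_eq]
    linarith [hx.1.2.2, hx.2.2.2]
  have h := measure_union_add_inter T0 hT1m (μ := volume)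
  rw [hunion, volume_square, hinter, hvol, add_zero, ← two_mul] at h
  rw [ENNReal.eq_inv_of_mul_eq_one_left (a := volume T0) (b := 2)]
  rw [mul_comm]; exact h.symm

/-- planar determinant -/
def det2 (x y : E2) : ℝ := x 0 * y 1 - x 1 * y 0

/-- the linear map `x ↦ x 0 • u + x 1 • v` -/
noncomputable def lin2 {E : Type*} [AddCommGroup E] [Module ℝ E] (u v : E) : E2 →ₗ[ℝ] E :=
  (EuclideanSpace.proj (0 : Fin 2) : E2 →L[ℝ] ℝ).toLinearMap.smulRight u +
    (EuclideanSpace.proj (1 : Fin 2) : E2 →L[ℝ] ℝ).toLinearMap.smulRight v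

@[simp] theorem lin2_apply {E : Type*} [AddCommGroup E] [Module ℝ E] (u v : E) (x : E2) :
    lin2 u v x = x 0 • u + x 1 • v := by
  simp [lin2]

theorem det_lin2 (u v : E2) : LinearMap.det (lin2 u v) = det2 u v := by
  rw [← LinearMap.det_toMatrix (EuclideanSpace.basisFun (Fin 2) ℝ).toBasis, Matrix.det_fin_two]
  simp [LinearMap.toMatrix_apply, det2, mul_comm]

theorem convexHull_triple_eq_image {E : Type*} [AddCommGroup E] [Module ℝ E] (A B C : E) :
    convexHull ℝ ({A, B, C} : Set E) = (fun y => A + y) '' (lin2 (B - A) (C - A) '' T0) := by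
  rw [convexHull_triple]
  ext x
  simp only [Set.mem_ofPred_eq, Set.mem_image, T0, exists_exists_and_eq_and, lin2_apply]
  constructor
  · rintro ⟨s, t, hs, ht, hst, rfl⟩
    exact ⟨!₂[s, t], by simpa using ⟨hs, ht, hst⟩, by simp [add_assoc]⟩
  · rintro ⟨y, ⟨h0, h1, h2⟩, rfl⟩
    exact ⟨y 0, y 1, h0, h1, h2, by simp [add_assoc]⟩

/-- area of a planar triangle -/
theorem volume_triangle (A B C : E2) :
    volume (convexHull ℝ ({A, B, C} : Set E2)) = ENNReal.ofReal (|det2 (B - A) (C - A)| / 2) := by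
  rw [convexHull_triple_eq_image, Set.image_add_left, measure_preimage_add,
    addHaar_image_linearMap, det_lin2, volume_T0, div_eq_mul_inv,
    ENNReal.ofReal_mul (abs_nonneg _), ENNReal.ofReal_inv_of_pos (by norm_num)]
  simp

theorem measurableSet_convexHull_finite {E : Type*} [NormedAddCommGroup E] [NormedSpace ℝ E]
    [MeasurableSpace E] [BorelSpace E] {s : Set E} (hs : s.Finite) :
    MeasurableSet (convexHull ℝ s) :=
  (hs.isCompact_convexHull ℝ).isClosed.measurableSet

/-- the convex hull of four planar points has area at least half the determinant of "diagonals" -/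
theorem volume_quadrilateral_ge (A B C D : E2) :
    ENNReal.ofReal (|det2 (A - B) (C - D)| / 2) ≤ volume (convexHull ℝ ({A, B, C, D} : Set E2)) := by
  have hT1 : convexHull ℝ ({A, B, C} : Set E2) ⊆ convexHull ℝ ({A, B, C, D} : Set E2) := by
    apply convexHull_mono
    intro x hx
    simp only [Set.mem_insert_iff, Set.mem_singleton_iff] at hx ⊢
    tauto
  have hT2 : convexHull ℝ ({A, B, D} : Set E2) ⊆ convexHull ℝ ({A, B, C, D} : Set E2) := by
    apply convexHull_mono
    intro x hx
    simp only [Set.mem_insert_iff, Set.mem_singleton_iff] at hx ⊢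
    tauto
  have hv1 := volume_triangle A B C
  have hv2 := volume_triangle A B D
  set fC := det2 (B - A) (C - A) with hfC
  set fD := det2 (B - A) (D - A) with hfD
  have hdet : det2 (A - B) (C - D) = fD - fC := by
    simp only [hfC, hfD, det2, PiLp.sub_apply]; ring
  rw [hdet]
  by_cases hsame : 0 ≤ fC * fD
  · -- same side
    have hle : |fD - fC| ≤ max |fC| |fD| := by
      rcases le_total 0 fC with h1 | h1 <;> rcases le_total 0 fD with h2 | h2
      · rw [abs_of_nonneg h1, abs_of_nonneg h2, abs_le]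
        constructor
        · linarith [le_max_left fC fD]
        · linarith [le_max_right fC fD]
      · have : fC * fD ≤ 0 := mul_nonpos_of_nonneg_of_nonpos h1 h2
        have h0 : fC * fD = 0 := le_antisymm this hsame
        rcases mul_eq_zero.mp h0 with h | h <;> simp [h]
      · have : fC * fD ≤ 0 := mul_nonpos_of_nonpos_of_nonneg h1 h2
        have h0 : fC * fD = 0 := le_antisymm this hsame
        rcases mul_eq_zero.mp h0 with h | h <;> simp [h]
      · rw [abs_of_nonpos h1, abs_of_nonpos h2, abs_le]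
        constructor
        · linarith [le_max_right (-fC) (-fD)]
        · linarith [le_max_left (-fC) (-fD)]
    rcases le_total |fC| |fD| with h | h
    · rw [max_eq_right h] at hle
      calc ENNReal.ofReal (|fD - fC| / 2) ≤ ENNReal.ofReal (|fD| / 2) :=
            ENNReal.ofReal_le_ofReal (by linarith)
        _ = volume (convexHull ℝ ({A, B, D} : Set E2)) := hv2.symm
        _ ≤ _ := measure_mono hT2
    · rw [max_eq_left h] at hle
      calc ENNReal.ofReal (|fD - fC| / 2) ≤ ENNReal.ofReal (|fC| / 2) :=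
            ENNReal.ofReal_le_ofReal (by linarith)
        _ = volume (convexHull ℝ ({A, B, C} : Set E2)) := hv1.symm
        _ ≤ _ := measure_mono hT1
  · -- opposite sides
    push Not at hsame
    have hAB : (B - A) 0 ≠ 0 ∨ (B - A) 1 ≠ 0 := by
      by_contra hcon
      push Not at hcon
      have : fC = 0 := by simp only [hfC, det2, hcon.1, hcon.2]; ring
      rw [this] at hsame
      simp at hsame
    have hsum : |fD - fC| = |fC| + |fD| := by
      rcases le_total 0 fC with h1 | h1 <;> rcases le_total 0 fD with h2 | h2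
      · exact absurd (mul_nonneg h1 h2) (not_le.mpr hsame)
      · rw [abs_of_nonneg h1, abs_of_nonpos h2, abs_of_nonpos (by linarith)]; ring
      · rw [abs_of_nonpos h1, abs_of_nonneg h2, abs_of_nonneg (by linarith)]; ring
      · exact absurd (mul_nonneg_of_nonpos_of_nonpos h1 h2) (not_le.mpr hsame)
    have hinter : volume (convexHull ℝ ({A, B, C} : Set E2) ∩ convexHull ℝ ({A, B, D} : Set E2)) = 0 := by
      apply measure_mono_null _ (volume_line_null (-(B - A) 1) ((B - A) 0)
        (-(B - A) 1 * A 0 + (B - A) 0 * A 1) (by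
          rcases hAB with h | h
          · exact Or.inr h
          · exact Or.inl (neg_ne_zero.mpr h)))
      rintro x ⟨hx1, hx2⟩
      rw [convexHull_triple] at hx1 hx2
      obtain ⟨s, t, hs, ht, hst, hx⟩ := hx1
      obtain ⟨s', t', hs', ht', hst', hx'⟩ := hx2
      have e1 : det2 (B - A) (x - A) = t * fC := by
        rw [hx]; simp only [hfC, det2, PiLp.sub_apply, PiLp.add_apply, PiLp.smul_apply, smul_eq_mul]
        ring
      have e2 : det2 (B - A) (x - A) = t' * fD := by
        rw [hx']; simp only [hfD, det2, PiLp.sub_apply, PiLp.add_apply, PiLp.smul_apply, smul_eq_mul]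
        ring
      have h0 : det2 (B - A) (x - A) = 0 := by
        have hsq : det2 (B - A) (x - A) * det2 (B - A) (x - A) ≤ 0 := by
          nth_rewrite 1 [e1]
          rw [e2]
          have : t * fC * (t' * fD) = (t * t') * (fC * fD) := by ring
          rw [this]
          exact mul_nonpos_of_nonneg_of_nonpos (mul_nonneg ht ht') hsame.le
        nlinarith [mul_self_nonneg (det2 (B - A) (x - A))]
      simp only [Set.mem_ofPred_eq]
      simp only [det2, PiLp.sub_apply] at h0 ⊢
      linarith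
    have hm : MeasurableSet (convexHull ℝ ({A, B, D} : Set E2)) :=
      measurableSet_convexHull_finite (by simp)
    have h := measure_union_add_inter (convexHull ℝ ({A, B, C} : Set E2)) hm (μ := volume)
    rw [hinter, add_zero, hv1, hv2, ← ENNReal.ofReal_add (by positivity) (by positivity)] at h
    calc ENNReal.ofReal (|fD - fC| / 2) = ENNReal.ofReal (|fC| / 2 + |fD| / 2) := by
          rw [hsum]; ring_nf
      _ = _ := h.symm
      _ ≤ _ := measure_mono (Set.union_subset hT1 hT2)

/-- Gram determinant of two vectors (squared area of the parallelogram they span). -/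
noncomputable def gram {E : Type*} [NormedAddCommGroup E] [InnerProductSpace ℝ E] (a b : E) : ℝ :=
  ‖a‖ ^ 2 * ‖b‖ ^ 2 - inner ℝ a b ^ 2

theorem gram_eq_det2_sq (x y : E2) : gram x y = det2 x y ^ 2 := by
  simp only [gram, det2, EuclideanSpace.norm_sq_eq, Fin.sum_univ_two, Real.norm_eq_abs, sq_abs,
    PiLp.inner_apply, RCLike.inner_apply, conj_trivial]
  ring

theorem gram_map {E F : Type*} [NormedAddCommGroup E] [InnerProductSpace ℝ E]
    [NormedAddCommGroup F] [InnerProductSpace ℝ F] (J : E →ₗᵢ[ℝ] F) (a b : E) :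
    gram (J a) (J b) = gram a b := by
  simp [gram, J.norm_map, J.inner_map_map]

/-- planar reduction with the isometry made explicit -/
theorem exists_planar_reduction' (v : E3) (hv : ‖v‖ = 1) :
    ∃ (π : E3 →ₗ[ℝ] E2) (J : E2 →ₗᵢ[ℝ] E3), ∀ y, J (π y) = y - inner ℝ y v • v := by
  have hv0 : v ≠ 0 := by
    intro h; rw [h] at hv; simp at hv
  have : Fact (Module.finrank ℝ E3 = 2 + 1) := ⟨by simp⟩
  let b := OrthonormalBasis.fromOrthogonalSpanSingleton (𝕜 := ℝ) 2 hv0
  refine ⟨b.repr.toLinearEquiv.toLinearMap ∘ₗ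
      ((ℝ ∙ v)ᗮ.orthogonalProjectionOnto).toLinearMap,
    ((ℝ ∙ v)ᗮ).subtypeₗᵢ.comp b.repr.symm.toLinearIsometry, ?_⟩
  intro y
  simp only [LinearIsometry.coe_comp, Function.comp_apply, LinearMap.coe_comp,
    LinearEquiv.coe_coe, LinearIsometryEquiv.coe_toLinearEquiv,
    LinearIsometryEquiv.coe_toLinearIsometry, LinearIsometryEquiv.symm_apply_apply,
    ContinuousLinearMap.coe_coe, Submodule.coe_subtypeₗᵢ, Submodule.subtype_apply]
  rw [Submodule.coe_orthogonalProjectionOnto_apply, Submodule.starProjection_orthogonal_val,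
    Submodule.starProjection_unit_singleton ℝ hv, real_inner_comm]

theorem exists_planar_reduction (v : E3) (hv : ‖v‖ = 1) :
    ∃ π : E3 →ₗ[ℝ] E2, (∀ S : Set E3, μHE[2] ((fun y => y - inner ℝ y v • v) '' S) = volume (π '' S)) ∧
      (∀ a b : E3, det2 (π a) (π b) ^ 2 = gram (a - inner ℝ a v • v) (b - inner ℝ b v • v)) := by
  obtain ⟨π, J, h⟩ := exists_planar_reduction' v hv
  refine ⟨π, ?_, ?_⟩
  · intro S
    have : (fun y => y - inner ℝ y v • v) '' S = J '' (π '' S) := by
      rw [Set.image_image]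
      exact Set.image_congr fun y _ => (h y).symm
    rw [this, J.isometry.euclideanHausdorffMeasure_image,
      EuclideanSpace.euclideanHausdorffMeasure_eq_volume]
  · intro a b
    rw [← h a, ← h b, gram_map, gram_eq_det2_sq]

/-- triple product -/
def det3 (a b v : E3) : ℝ :=
  (a 1 * b 2 - a 2 * b 1) * v 0 + (a 2 * b 0 - a 0 * b 2) * v 1 + (a 0 * b 1 - a 1 * b 0) * v 2

theorem gram_proj_unit (v a b : E3) (hv : ‖v‖ = 1) :
    gram (a - inner ℝ a v • v) (b - inner ℝ b v • v) = det3 a b v ^ 2 := by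
  have h1 : ‖a - inner ℝ a v • v‖ ^ 2 = ‖a‖ ^ 2 - inner ℝ a v ^ 2 := by
    rw [norm_sub_sq_real, inner_smul_right, norm_smul, hv]
    simp only [Real.norm_eq_abs, mul_one, sq_abs]
    ring
  have h2 : ‖b - inner ℝ b v • v‖ ^ 2 = ‖b‖ ^ 2 - inner ℝ b v ^ 2 := by
    rw [norm_sub_sq_real, inner_smul_right, norm_smul, hv]
    simp only [Real.norm_eq_abs, mul_one, sq_abs]
    ring
  have h3 : inner ℝ (a - inner ℝ a v • v) (b - inner ℝ b v • v) =
      inner ℝ a b - inner ℝ a v * inner ℝ b v := by
    rw [inner_sub_left, inner_sub_right, inner_sub_right, inner_smul_left, inner_smul_left,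
      inner_smul_right, inner_smul_right, real_inner_self_eq_norm_sq, hv, real_inner_comm b v]
    simp
    ring
  have hN : v 0 ^ 2 + v 1 ^ 2 + v 2 ^ 2 = 1 := by
    have := congrArg (· ^ 2) hv
    simpa [EuclideanSpace.norm_sq_eq, Fin.sum_univ_three] using this
  rw [gram, h1, h2, h3]
  simp only [det3, EuclideanSpace.norm_sq_eq, Fin.sum_univ_three, Real.norm_eq_abs, sq_abs,
    PiLp.inner_apply, RCLike.inner_apply, conj_trivial]
  linear_combination (-((a 0 ^ 2 + a 1 ^ 2 + a 2 ^ 2) * (b 0 ^ 2 + b 1 ^ 2 + b 2 ^ 2) -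
    (a 0 * b 0 + a 1 * b 1 + a 2 * b 2) ^ 2)) * hN

/-- lower bound for the area of a projection of a convex hull -/
theorem proj_area_ge (v : E3) (hv : ‖v‖ = 1) (S : Set E3) {X Y Z W : E3} (hX : X ∈ S) (hY : Y ∈ S)
    (hZ : Z ∈ S) (hW : W ∈ S) :
    ENNReal.ofReal (|det3 (X - Y) (Z - W) v| / 2) ≤
      μHE[2] ((fun y => y - inner ℝ y v • v) '' convexHull ℝ S) := by
  obtain ⟨π, h1, h2⟩ := exists_planar_reduction v hv
  rw [h1, LinearMap.image_convexHull]
  have habs : |det3 (X - Y) (Z - W) v| = |det2 (π X - π Y) (π Z - π W)| := by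
    rw [← sq_eq_sq_iff_abs_eq_abs, ← gram_proj_unit v _ _ hv, ← h2, map_sub, map_sub]
  rw [habs]
  refine (volume_quadrilateral_ge _ _ _ _).trans (measure_mono (convexHull_mono ?_))
  intro x hx
  simp only [Set.mem_insert_iff, Set.mem_singleton_iff] at hx
  rcases hx with rfl | rfl | rfl | rfl
  exacts [⟨X, hX, rfl⟩, ⟨Y, hY, rfl⟩, ⟨Z, hZ, rfl⟩, ⟨W, hW, rfl⟩]

end Crest.Agent.S0324.Planar
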