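import Mathlib

/-!
# Frame lemma for S0326 (row 211, package W2b)

A traceless operator on the Euclidean plane has zero diagonal in a suitable orthonormal frame.
-/

set_option autoImplicit false

namespace Crest.Agent.S0326

abbrev E2 := EuclideanSpace ℝ (Fin 2)

/-- the rotated standard frame -/
noncomputable def rotFrame (φ : ℝ) : Fin 2 → E2 :=
  ![!₂[Real.cos φ, Real.sin φ], !₂[-Real.sin φ, Real.cos φ]]

theorem rotFrame_orthonormal (φ : ℝ) : Orthonormal ℝ (rotFrame φ) := by
  have h := Real.sin_sq_add_cos_sq φ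
  rw [orthonormal_iff_ite]
  intro i j
  fin_cases i <;> fin_cases j <;>
    simp [rotFrame, PiLp.inner_apply, Fin.sum_univ_two, -inner_self_eq_norm_sq_to_K] <;> nlinarith

theorem exists_rotBasis (φ : ℝ) :
    ∃ b : OrthonormalBasis (Fin 2) ℝ E2, ∀ i, b i = rotFrame φ i := by
  obtain ⟨b, hb⟩ := Orthonormal.exists_orthonormalBasis_extension_of_card_eq (𝕜 := ℝ) (E := E2)
    (ι := Fin 2) (by simp) (v := rotFrame φ) (s := Set.univ)
    ((rotFrame_orthonormal φ).comp _ Subtype.val_injective)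
  exact ⟨b, fun i => hb i (Set.mem_univ i)⟩

theorem exists_frame (A : E2 →L[ℝ] E2) (htr : LinearMap.trace ℝ _ A.toLinearMap = 0) :
    ∃ (b : OrthonormalBasis (Fin 2) ℝ E2) (γ β : ℝ),
      A (b 0) = γ • b 1 ∧ A (b 1) = β • b 0 ∧ LinearMap.det A.toLinearMap = -(γ * β) ∧
      |γ| ≤ ‖A‖ ∧ |β| ≤ ‖A‖ := by
  -- trace in a rotated frame
  have htrφ : ∀ b : OrthonormalBasis (Fin 2) ℝ E2,
      inner ℝ (b 0) (A (b 0)) + inner ℝ (b 1) (A (b 1)) = 0 := by
    intro b
    have := LinearMap.trace_eq_sum_inner A.toLinearMap b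
    rw [htr, Fin.sum_univ_two] at this
    simpa using this.symm
  set q : ℝ → ℝ := fun φ => inner ℝ (rotFrame φ 0) (A (rotFrame φ 0)) with hq
  have hqc : Continuous q := by
    have h0 : Continuous fun φ : ℝ => rotFrame φ 0 := by
      simp only [rotFrame, Matrix.cons_val_zero]
      apply (PiLp.continuous_toLp 2 _).comp
      apply continuous_pi
      intro i
      fin_cases i
      · simpa using Real.continuous_cos
      · simpa using Real.continuous_sin
    exact h0.inner (A.continuous.comp h0)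
  have hq2 : q (Real.pi / 2) = - q 0 := by
    obtain ⟨b, hb⟩ := exists_rotBasis 0
    have h := htrφ b
    rw [hb 0, hb 1] at h
    have e : rotFrame (Real.pi / 2) 0 = rotFrame 0 1 := by
      simp [rotFrame]
    simp only [hq, e]
    linarith
  have h0 : (0 : ℝ) ∈ Set.range q := by
    rcases le_total (q 0) 0 with h | h
    · exact mem_range_of_exists_le_of_exists_ge hqc ⟨0, h⟩ ⟨Real.pi / 2, by rw [hq2]; linarith⟩
    · exact mem_range_of_exists_le_of_exists_ge hqc ⟨Real.pi / 2, by rw [hq2]; linarith⟩ ⟨0, h⟩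
  obtain ⟨φ, hφ⟩ := h0
  obtain ⟨b, hb⟩ := exists_rotBasis φ
  have h00 : inner ℝ (b 0) (A (b 0)) = 0 := by rw [hb 0]; exact hφ
  have h11 : inner ℝ (b 1) (A (b 1)) = 0 := by have := htrφ b; linarith
  have hexp : ∀ x : E2, x = inner ℝ (b 0) x • b 0 + inner ℝ (b 1) x • b 1 := by
    intro x
    have := b.sum_repr' x
    rw [Fin.sum_univ_two] at this
    exact this.symm
  have hn : ∀ i, ‖b i‖ = 1 := fun i => b.orthonormal.1 i
  have hbound : ∀ i j, |inner ℝ (b i) (A (b j))| ≤ ‖A‖ := by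
    intro i j
    calc |inner ℝ (b i) (A (b j))| ≤ ‖b i‖ * ‖A (b j)‖ := abs_real_inner_le_norm _ _
      _ ≤ 1 * (‖A‖ * ‖b j‖) := by rw [hn i]; gcongr; exact A.le_opNorm _
      _ = ‖A‖ := by rw [hn j]; ring
  refine ⟨b, inner ℝ (b 1) (A (b 0)), inner ℝ (b 0) (A (b 1)), ?_, ?_, ?_, hbound 1 0, hbound 0 1⟩
  · conv_lhs => rw [hexp (A (b 0)), h00]
    simp
  · conv_lhs => rw [hexp (A (b 1)), h11]
    simp
  · rw [← LinearMap.det_toMatrix b.toBasis, Matrix.det_fin_two]
    simp only [LinearMap.toMatrix_apply, OrthonormalBasis.coe_toBasis,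
      OrthonormalBasis.coe_toBasis_repr_apply, OrthonormalBasis.repr_apply_apply,
      ContinuousLinearMap.coe_coe, h00, h11]
    ring

end Crest.Agent.S0326
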