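import Mathlib
import Crest.Agent.S0326_Frame

/-!
# Counting lemma for S0326 (row 211, package W2d): disjoint rotated cells
-/

set_option autoImplicit false
open MeasureTheory

namespace Crest.Agent.S0326

/-- frame coordinates relative to `p₀` -/
noncomputable def coords (b : OrthonormalBasis (Fin 2) ℝ E2) (p₀ : E2) (x : E2) : Fin 2 → ℝ :=
  WithLp.ofLp (b.repr (x - p₀))

theorem coords_apply (b : OrthonormalBasis (Fin 2) ℝ E2) (p₀ x : E2) (i : Fin 2) :
    coords b p₀ x i = inner ℝ (b i) (x - p₀) := by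
  simp [coords, OrthonormalBasis.repr_apply_apply, inner_sub_right]

theorem measurePreserving_coords (b : OrthonormalBasis (Fin 2) ℝ E2) (p₀ : E2) :
    MeasurePreserving (coords b p₀) volume volume :=
  (PiLp.volume_preserving_ofLp (Fin 2)).comp
    (b.measurePreserving_repr.comp (measurePreserving_sub_right volume p₀))

/-- lattice point -/
noncomputable def latPt (b : OrthonormalBasis (Fin 2) ℝ E2) (p₀ : E2) (r : ℝ) (mn : ℤ × ℤ) : E2 :=
  p₀ + (r * mn.1) • b 0 + (r * mn.2) • b 1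

/-- the box in coordinates -/
def box (r : ℝ) (mn : ℤ × ℤ) : Set (Fin 2 → ℝ) :=
  Set.pi Set.univ fun i => Set.Ico (r * (![(mn.1 : ℝ), mn.2] i) - r / 2) (r * (![(mn.1 : ℝ), mn.2] i) + r / 2)

theorem volume_box (r : ℝ) (hr : 0 < r) (mn : ℤ × ℤ) :
    volume (box r mn) = ENNReal.ofReal (r ^ 2) := by
  rw [box, Real.volume_pi_Ico, Fin.prod_univ_two]
  rw [← ENNReal.ofReal_mul (by simp; linarith)]
  congr 1
  simp
  ring

theorem box_disjoint (r : ℝ) (hr : 0 < r) (mn mn' : ℤ × ℤ) (hne : mn ≠ mn') :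
    Disjoint (box r mn) (box r mn') := by
  rw [Set.disjoint_left]
  intro x hx hx'
  apply hne
  have key : ∀ (m m' : ℤ) (t : ℝ), t ∈ Set.Ico (r * (m : ℝ) - r / 2) (r * m + r / 2) →
      t ∈ Set.Ico (r * (m' : ℝ) - r / 2) (r * m' + r / 2) → m = m' := by
    intro m m' t h1 h2
    have h3 : r * ((m : ℝ) - m') < r * 1 := by nlinarith [h1.1, h2.2]
    have h4 : r * ((m' : ℝ) - m) < r * 1 := by nlinarith [h1.2, h2.1]
    have h5 : (m : ℝ) - m' < 1 := lt_of_mul_lt_mul_left h3 hr.le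
    have h6 : (m' : ℝ) - m < 1 := lt_of_mul_lt_mul_left h4 hr.le
    have h7 : m - m' < 1 := by exact_mod_cast h5
    have h8 : m' - m < 1 := by exact_mod_cast h6
    omega
  have h0 := key mn.1 mn'.1 (x 0) (by simpa using hx 0 (Set.mem_univ _))
    (by simpa using hx' 0 (Set.mem_univ _))
  have h1 := key mn.2 mn'.2 (x 1) (by simpa using hx 1 (Set.mem_univ _))
    (by simpa using hx' 1 (Set.mem_univ _))
  exact Prod.ext h0 h1

theorem measurableSet_box (r : ℝ) (mn : ℤ × ℤ) : MeasurableSet (box r mn) :=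
  MeasurableSet.univ_pi fun _ => measurableSet_Ico

/-- expansion in the frame -/
theorem frame_expand (b : OrthonormalBasis (Fin 2) ℝ E2) (x : E2) :
    x = inner ℝ (b 0) x • b 0 + inner ℝ (b 1) x • b 1 := by
  have := b.sum_repr' x
  rw [Fin.sum_univ_two] at this
  exact this.symm

theorem norm_frame_le (b : OrthonormalBasis (Fin 2) ℝ E2) (u v : ℝ) :
    ‖u • b 0 + v • b 1‖ ≤ |u| + |v| := by
  calc ‖u • b 0 + v • b 1‖ ≤ ‖u • b 0‖ + ‖v • b 1‖ := norm_add_le _ _
    _ = |u| + |v| := by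
      rw [norm_smul, norm_smul, b.orthonormal.1 0, b.orthonormal.1 1]; simp

theorem cell_subset_closedBall (b : OrthonormalBasis (Fin 2) ℝ E2) (p₀ : E2) (r : ℝ)
    (mn : ℤ × ℤ) : coords b p₀ ⁻¹' box r mn ⊆ Metric.closedBall (latPt b p₀ r mn) r := by
  intro x hx
  have h0 : coords b p₀ x 0 ∈ Set.Ico (r * (mn.1 : ℝ) - r / 2) (r * mn.1 + r / 2) := by
    simpa using hx 0 (Set.mem_univ _)
  have h1 : coords b p₀ x 1 ∈ Set.Ico (r * (mn.2 : ℝ) - r / 2) (r * mn.2 + r / 2) := by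
    simpa using hx 1 (Set.mem_univ _)
  rw [coords_apply] at h0 h1
  rw [Metric.mem_closedBall, dist_eq_norm]
  have e : x - latPt b p₀ r mn = (inner ℝ (b 0) (x - p₀) - r * mn.1) • b 0 +
      (inner ℝ (b 1) (x - p₀) - r * mn.2) • b 1 := by
    have := frame_expand b (x - p₀)
    rw [sub_smul, sub_smul, latPt]
    calc x - (p₀ + (r * mn.1) • b 0 + (r * mn.2) • b 1)
        = (x - p₀) - (r * mn.1) • b 0 - (r * mn.2) • b 1 := by abel
      _ = _ := by
        conv_lhs => rw [this]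
        abel
  rw [e]
  refine (norm_frame_le b _ _).trans ?_
  have a0 : |inner ℝ (b 0) (x - p₀) - r * mn.1| ≤ r / 2 := by
    rw [abs_le]; constructor <;> linarith [h0.1, h0.2]
  have a1 : |inner ℝ (b 1) (x - p₀) - r * mn.2| ≤ r / 2 := by
    rw [abs_le]; constructor <;> linarith [h1.1, h1.2]
  linarith

/-- **Counting lemma.** -/
theorem card_cells_le (b : OrthonormalBasis (Fin 2) ℝ E2) (p₀ : E2) (r : ℝ) (hr : 0 < r)
    (Λ : Finset (ℤ × ℤ)) (S : Set E2)
    (hS : ∀ mn ∈ Λ, Metric.closedBall (latPt b p₀ r mn) r ⊆ S) :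
    ENNReal.ofReal (Λ.card * r ^ 2) ≤ volume S := by
  have hmp := measurePreserving_coords b p₀
  have hvol : ∀ mn : ℤ × ℤ, volume (coords b p₀ ⁻¹' box r mn) = ENNReal.ofReal (r ^ 2) := by
    intro mn
    rw [hmp.measure_preimage (measurableSet_box r mn).nullMeasurableSet, volume_box r hr]
  have hdisj : Set.PairwiseDisjoint (↑Λ) fun mn => coords b p₀ ⁻¹' box r mn := by
    intro mn _ mn' _ hne
    exact (box_disjoint r hr mn mn' hne).preimage _
  have hU : volume (⋃ mn ∈ Λ, coords b p₀ ⁻¹' box r mn) = ENNReal.ofReal (Λ.card * r ^ 2) := by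
    rw [measure_biUnion_finset hdisj (fun mn _ => hmp.measurable (measurableSet_box r mn))]
    simp only [hvol, Finset.sum_const, nsmul_eq_mul]
    rw [ENNReal.ofReal_mul (by positivity), ENNReal.ofReal_natCast]
  rw [← hU]
  apply measure_mono
  intro x hx
  simp only [Set.mem_iUnion, exists_prop] at hx
  obtain ⟨mn, hmn, hx⟩ := hx
  exact hS mn hmn (cell_subset_closedBall b p₀ r mn hx)

end Crest.Agent.S0326
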