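import Mathlib
import Crest.Agent.S0326_Frame

/-!
# The predicate `Good` for S0326 (row 211, package W2d): finite covers by sheared cylinders
-/

set_option autoImplicit false
open MeasureTheory

namespace Crest.Agent.S0326

/-- the weight `J(g) = (1 + g₀² + h² g₁²)^(-1/2)` -/
noncomputable def J (h : ℝ) (g : E2) : ℝ := 1 / Real.sqrt (1 + (g 0) ^ 2 + h ^ 2 * (g 1) ^ 2)

/-- `Good V L h C B`: the ruled set over `C` is covered by finitely many sheared cylinders over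
squares with total weighted area `≤ B`. -/
def Good (V : E2 → E2) (L h : ℝ) (C : Set E2) (B : ℝ) : Prop :=
  ∃ (ι : Type) (_ : Fintype ι) (c a b g : ι → E2),
    (∀ i, a i ≠ 0 ∧ ‖b i‖ = ‖a i‖ ∧ inner ℝ (a i) (b i) = 0) ∧
    {z : ℝ × E2 | ∃ p ∈ C, abs z.1 ≤ L ∧ z.2 = p + z.1 • V p} ⊆
      ⋃ i, {z : ℝ × E2 | ∃ x ∈ Set.Icc (0 : ℝ) 1, ∃ y ∈ Set.Icc (0 : ℝ) 1,
        z.2 = c i + x • a i + y • b i + z.1 • g i} ∧
    ∑ i, ‖a i‖ ^ 2 / Real.sqrt (1 + (g i 0) ^ 2 + h ^ 2 * (g i 1) ^ 2) ≤ B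

variable {V : E2 → E2} {L h : ℝ}

theorem Good.empty : Good V L h ∅ 0 := by
  refine ⟨Empty, inferInstance, Empty.elim, Empty.elim, Empty.elim, Empty.elim, fun i => i.elim,
    ?_, by simp⟩
  rintro z ⟨p, hp, -⟩
  exact hp.elim

theorem Good.mono {C C' : Set E2} {B B' : ℝ} (hg : Good V L h C B) (hC : C' ⊆ C) (hB : B ≤ B') :
    Good V L h C' B' := by
  obtain ⟨ι, hι, c, a, b, g, h1, h2, h3⟩ := hg
  refine ⟨ι, hι, c, a, b, g, h1, ?_, h3.trans hB⟩
  rintro z ⟨p, hp, hz⟩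
  exact h2 ⟨p, hC hp, hz⟩

theorem Good.union {C₁ C₂ : Set E2} {B₁ B₂ : ℝ} (hg₁ : Good V L h C₁ B₁)
    (hg₂ : Good V L h C₂ B₂) : Good V L h (C₁ ∪ C₂) (B₁ + B₂) := by
  obtain ⟨ι₁, hι₁, c₁, a₁, b₁, g₁, h11, h12, h13⟩ := hg₁
  obtain ⟨ι₂, hι₂, c₂, a₂, b₂, g₂, h21, h22, h23⟩ := hg₂
  refine ⟨ι₁ ⊕ ι₂, inferInstance, Sum.elim c₁ c₂, Sum.elim a₁ a₂, Sum.elim b₁ b₂, Sum.elim g₁ g₂,
    ?_, ?_, ?_⟩
  · rintro (i | i)
    · exact h11 i
    · exact h21 i
  · rintro z ⟨p, hp | hp, hz⟩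
    · obtain ⟨i, hi⟩ := Set.mem_iUnion.mp (h12 ⟨p, hp, hz⟩)
      exact Set.mem_iUnion.mpr ⟨Sum.inl i, hi⟩
    · obtain ⟨i, hi⟩ := Set.mem_iUnion.mp (h22 ⟨p, hp, hz⟩)
      exact Set.mem_iUnion.mpr ⟨Sum.inr i, hi⟩
  · rw [Fintype.sum_sum_type]
    exact add_le_add h13 h23

theorem Good.toFin {C : Set E2} {B : ℝ} (hg : Good V L h C B) :
    ∃ (k : ℕ) (c a b g : Fin k → E2),
      (∀ i, a i ≠ 0 ∧ ‖b i‖ = ‖a i‖ ∧ inner ℝ (a i) (b i) = 0) ∧
      {z : ℝ × E2 | ∃ p ∈ C, abs z.1 ≤ L ∧ z.2 = p + z.1 • V p} ⊆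
        ⋃ i, {z : ℝ × E2 | ∃ x ∈ Set.Icc (0 : ℝ) 1, ∃ y ∈ Set.Icc (0 : ℝ) 1,
          z.2 = c i + x • a i + y • b i + z.1 • g i} ∧
      ∑ i, ‖a i‖ ^ 2 / Real.sqrt (1 + (g i 0) ^ 2 + h ^ 2 * (g i 1) ^ 2) ≤ B := by
  obtain ⟨ι, hι, c, a, b, g, h1, h2, h3⟩ := hg
  let e := Fintype.equivFin ι
  refine ⟨Fintype.card ι, c ∘ e.symm, a ∘ e.symm, b ∘ e.symm, g ∘ e.symm, fun i => h1 _, ?_, ?_⟩
  · intro z hz
    obtain ⟨i, hi⟩ := Set.mem_iUnion.mp (h2 hz)
    refine Set.mem_iUnion.mpr ⟨e i, ?_⟩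
    simpa using hi
  · refine le_trans (le_of_eq ?_) h3
    exact Equiv.sum_comp e.symm
      (fun i => ‖a i‖ ^ 2 / Real.sqrt (1 + (g i 0) ^ 2 + h ^ 2 * (g i 1) ^ 2))

/-- Peeling a compact set by balls. -/
theorem good_of_pieces (f : E2 → ℝ) (D : Set E2) (hD : IsCompact D) (hf : IntegrableOn f D)
    (ρ : ℝ) (hρ : 0 < ρ)
    (hpiece : ∀ p₀ ∈ D, ∀ C : Set E2, IsCompact C → C ⊆ D → C ⊆ Metric.closedBall p₀ ρ →
      ∀ ε' > 0, Good V L h C ((∫ x in C, f x) + ε')) :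
    ∀ ε' > 0, Good V L h D ((∫ x in D, f x) + ε') := by
  obtain ⟨t, htD, htfin, htcov⟩ := hD.finite_cover_balls hρ
  have key : ∀ t : Set E2, t.Finite → t ⊆ D → ∀ D' : Set E2, IsCompact D' → D' ⊆ D →
      D' ⊆ ⋃ x ∈ t, Metric.ball x ρ → ∀ ε' > 0, Good V L h D' ((∫ x in D', f x) + ε') := by
    intro t ht
    induction t, ht using Set.Finite.induction_on with
    | empty =>
      intro _ D' _ _ hcov ε' hε'
      have : D' = ∅ := by
        apply Set.eq_empty_of_subset_empty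
        simpa using hcov
      subst this
      exact Good.empty.mono le_rfl (by simpa using hε'.le)
    | @insert x t' hx ht' ih =>
      intro htD D' hD' hD'D hcov ε' hε'
      have hxD : x ∈ D := htD (Set.mem_insert _ _)
      set C₁ := D' ∩ Metric.closedBall x ρ with hC₁
      set D'' := D' ∩ (Metric.ball x ρ)ᶜ with hD''
      have hC₁c : IsCompact C₁ := hD'.inter_right Metric.isClosed_closedBall
      have hD''c : IsCompact D'' := hD'.inter_right Metric.isOpen_ball.isClosed_compl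
      have hun : D' = C₁ ∪ D'' := by
        ext y
        simp only [hC₁, hD'', Set.mem_union, Set.mem_inter_iff, Set.mem_compl_iff]
        constructor
        · intro hy
          by_cases hyb : y ∈ Metric.ball x ρ
          · exact Or.inl ⟨hy, Metric.ball_subset_closedBall hyb⟩
          · exact Or.inr ⟨hy, hyb⟩
        · rintro (⟨hy, -⟩ | ⟨hy, -⟩) <;> exact hy
      have hae : AEDisjoint volume C₁ D'' := by
        have hsub : C₁ ∩ D'' ⊆ Metric.sphere x ρ := by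
          rintro y ⟨⟨-, hy1⟩, ⟨-, hy2⟩⟩
          simp only [Metric.mem_closedBall, Set.mem_compl_iff, Metric.mem_ball, not_lt] at hy1 hy2
          exact le_antisymm hy1 hy2
        exact measure_mono_null hsub (Measure.addHaar_sphere _ x ρ)
      have hint : (∫ y in D', f y) = (∫ y in C₁, f y) + ∫ y in D'', f y := by
        conv_lhs => rw [hun]
        exact setIntegral_union₀ hae hD''c.measurableSet.nullMeasurableSet
          (hf.mono_set (Set.inter_subset_left.trans hD'D))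
          (hf.mono_set (Set.inter_subset_left.trans hD'D))
      have g1 := hpiece x hxD C₁ hC₁c (Set.inter_subset_left.trans hD'D) Set.inter_subset_right
        (ε' / 2) (by positivity)
      have g2 := ih (fun y hy => htD (Set.mem_insert_of_mem _ hy)) D'' hD''c
        (Set.inter_subset_left.trans hD'D) (by
          rintro y ⟨hy1, hy2⟩
          have := hcov hy1
          simp only [Set.mem_iUnion, Set.mem_insert_iff, exists_prop] at this ⊢
          obtain ⟨z, rfl | hz, hyz⟩ := this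
          · exact absurd hyz hy2
          · exact ⟨z, hz, hyz⟩) (ε' / 2) (by positivity)
      have := g1.union g2
      rw [← hun] at this
      exact this.mono le_rfl (by rw [hint]; linarith)
  exact key t htfin htD D hD le_rfl htcov

end Crest.Agent.S0326
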