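import Mathlib

/-!
# Lattice covering lemma for S0326 (row 211, package W2a)

If `0 ≤ a * b < 1`, the unit squares centred at the lattice points `(m + b n, a m + n)` cover the
plane.
-/

set_option autoImplicit false

namespace Crest.Agent.S0326

/-- Nonnegative case. -/
theorem lattice_cover_nonneg (a b ξ η : ℝ) (ha : 0 ≤ a) (hb : 0 ≤ b) (hab1 : a * b < 1) :
    ∃ m n : ℤ, |(ξ - m) + b * (η - n)| ≤ 1 / 2 ∧ |a * (ξ - m) + (η - n)| ≤ 1 / 2 := by
  -- `n m = round (a (ξ - m) + η)`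
  set nn : ℤ → ℤ := fun m => round (a * (ξ - m) + η) with hnn
  set f : ℤ → ℝ := fun m => (ξ - m) + b * (η - nn m) with hf
  have hround : ∀ m : ℤ, |a * (ξ - m) + (η - nn m)| ≤ 1 / 2 := by
    intro m
    have := abs_sub_round (a * (ξ - m) + η)
    have e : a * (ξ - m) + (η - nn m) = a * (ξ - m) + η - round (a * (ξ - m) + η) := by
      simp only [hnn]; ring
    rw [e]; exact this
  have hκ : 0 < 1 - a * b := by linarith
  -- formula for f
  have hfb : ∀ m : ℤ, |f m - (1 - a * b) * (ξ - m)| ≤ b / 2 := by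
    intro m
    have e : f m - (1 - a * b) * (ξ - m) = b * (a * (ξ - m) + (η - nn m)) := by
      simp only [hf]; ring
    rw [e, abs_mul, abs_of_nonneg hb]
    have := hround m
    nlinarith
  -- steps
  have hstep : ∀ m : ℤ, f m - 1 ≤ f (m + 1) := by
    intro m
    have hmono : nn (m + 1) ≤ nn m := by
      simp only [hnn, round_eq]
      apply Int.floor_mono
      push_cast
      nlinarith
    have hmono' : (nn (m + 1) : ℝ) ≤ nn m := by exact_mod_cast hmono
    simp only [hf]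
    push_cast
    nlinarith
  -- the set of m with f m ≤ 1/2 is nonempty and bounded below
  have hex : ∃ m : ℤ, f m ≤ 1 / 2 := by
    obtain ⟨m, hm⟩ := exists_int_gt (ξ + b / 2 / (1 - a * b))
    refine ⟨m, ?_⟩
    have h1 := (abs_le.mp (hfb m)).2
    have h2 : b / 2 / (1 - a * b) < m - ξ := by linarith
    rw [div_lt_iff₀ hκ] at h2
    nlinarith
  have hbdd : ∃ m₀ : ℤ, ∀ m : ℤ, f m ≤ 1 / 2 → m₀ ≤ m := by
    obtain ⟨m₀, hm₀⟩ := exists_int_lt (ξ - (b / 2 + 1 / 2) / (1 - a * b))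
    refine ⟨m₀, fun m hm => ?_⟩
    by_contra hlt
    push Not at hlt
    have hlt' : (m : ℝ) < m₀ := by exact_mod_cast hlt
    have h1 := (abs_le.mp (hfb m)).1
    have h2 : (b / 2 + 1 / 2) / (1 - a * b) < ξ - m := by linarith
    rw [div_lt_iff₀ hκ] at h2
    nlinarith
  obtain ⟨m₀, hm₀⟩ := hbdd
  obtain ⟨m, hm, hmin⟩ := Int.exists_least_of_bdd (P := fun m => f m ≤ 1 / 2) ⟨m₀, hm₀⟩ hex
  refine ⟨m, nn m, ?_, hround m⟩
  have hprev : 1 / 2 < f (m - 1) := by
    by_contra hle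
    push Not at hle
    have := hmin (m - 1) hle
    omega
  have hs := hstep (m - 1)
  rw [sub_add_cancel] at hs
  rw [abs_le]
  constructor
  · have : f m = (ξ - m) + b * (η - nn m) := rfl
    linarith
  · exact hm

/-- **Lattice covering lemma.** -/
theorem lattice_cover (a b ξ η : ℝ) (hab0 : 0 ≤ a * b) (hab1 : a * b < 1) :
    ∃ m n : ℤ, |(ξ - m) + b * (η - n)| ≤ 1 / 2 ∧ |a * (ξ - m) + (η - n)| ≤ 1 / 2 := by
  rcases mul_nonneg_iff.mp hab0 with ⟨ha, hb⟩ | ⟨ha, hb⟩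
  · exact lattice_cover_nonneg a b ξ η ha hb hab1
  · obtain ⟨m, n, h1, h2⟩ := lattice_cover_nonneg (-a) (-b) ξ (-η) (by linarith) (by linarith)
      (by linarith)
    refine ⟨m, -n, ?_, ?_⟩
    · have e : (ξ - m) + b * (η - ((-n : ℤ) : ℝ)) = (ξ - m) + -b * (-η - n) := by push_cast; ring
      rw [e]; exact h1
    · have e : a * (ξ - m) + (η - ((-n : ℤ) : ℝ)) = -(-a * (ξ - m) + (-η - n)) := by
        push_cast; ring
      rw [e, abs_neg]; exact h2

/-- Inverting the matrix `[[1, b], [a, 1]]`. -/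
theorem lattice_bound (a b x y : ℝ) (κ B : ℝ) (hκ : 0 < κ) (hab : κ ≤ 1 - a * b)
    (ha : |a| ≤ B) (hb : |b| ≤ B)
    (h1 : |x + b * y| ≤ 1 / 2) (h2 : |a * x + y| ≤ 1 / 2) :
    |x| ≤ (1 + B) / (2 * κ) ∧ |y| ≤ (1 + B) / (2 * κ) := by
  have hB : 0 ≤ B := (abs_nonneg a).trans ha
  have key : ∀ t u v c : ℝ, (1 - a * b) * t = u - c * v → |c| ≤ B → |u| ≤ 1 / 2 → |v| ≤ 1 / 2 →
      |t| ≤ (1 + B) / (2 * κ) := by
    intro t u v c ht hc hu hv
    rw [le_div_iff₀ (by positivity)]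
    have h3 : |(1 - a * b) * t| ≤ 1 / 2 + B * (1 / 2) := by
      rw [ht]
      calc |u - c * v| ≤ |u| + |c * v| := abs_sub _ _
        _ = |u| + |c| * |v| := by rw [abs_mul]
        _ ≤ 1 / 2 + B * (1 / 2) := by
          have := mul_le_mul hc hv (abs_nonneg v) hB
          linarith
    rw [abs_mul, abs_of_pos (by linarith : 0 < 1 - a * b)] at h3
    have : κ * |t| ≤ (1 - a * b) * |t| := mul_le_mul_of_nonneg_right hab (abs_nonneg t)
    nlinarith
  exact ⟨key x (x + b * y) (a * x + y) b (by ring) hb h1 h2,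
    key y (a * x + y) (x + b * y) a (by ring) ha h2 h1⟩

end Crest.Agent.S0326
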