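import Mathlib
import Crest.Agent.S0326_Lattice
import Crest.Agent.S0326_Frame
import Crest.Agent.S0326_Count
import Crest.Agent.S0326_Good

/-!
# Local covering for S0326 (row 211, package W2c)
-/

set_option autoImplicit false
open MeasureTheory

namespace Crest.Agent.S0326

theorem J_arg_pos (h : ℝ) (g : E2) : 1 ≤ 1 + (g 0) ^ 2 + h ^ 2 * (g 1) ^ 2 := by
  nlinarith [sq_nonneg (g 0), sq_nonneg (h * g 1)]

theorem J_nonneg (h : ℝ) (g : E2) : 0 ≤ J h g := by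
  unfold J; positivity

theorem J_le_one (h : ℝ) (g : E2) : J h g ≤ 1 := by
  unfold J
  rw [div_le_one (Real.sqrt_pos.mpr (by linarith [J_arg_pos h g]))]
  rw [Real.le_sqrt' one_pos]
  simpa using J_arg_pos h g

theorem continuous_J (h : ℝ) : Continuous (J h) := by
  unfold J
  apply Continuous.div continuous_const
  · apply Continuous.sqrt
    fun_prop
  · intro g
    exact (Real.sqrt_pos.mpr (by linarith [J_arg_pos h g])).ne'

theorem local_linear (b : OrthonormalBasis (Fin 2) ℝ E2) (A : E2 →L[ℝ] E2) (γ β : ℝ)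
    (hA0 : A (b 0) = γ • b 1) (hA1 : A (b 1) = β • b 0)
    (p₀ p : E2) (r s κ B : ℝ) (hr : 0 < r) (hκ : 0 < κ)
    (h0 : 0 ≤ (s * γ) * (s * β)) (h1 : κ ≤ 1 - (s * γ) * (s * β))
    (hγ : |s * γ| ≤ B) (hβ : |s * β| ≤ B) :
    ∃ mn : ℤ × ℤ, ∃ u v : ℝ, |u| ≤ 1 / 2 ∧ |v| ≤ 1 / 2 ∧
      (p - latPt b p₀ r mn) + s • A (p - latPt b p₀ r mn) = (r * u) • b 0 + (r * v) • b 1 ∧
      ‖p - latPt b p₀ r mn‖ ≤ (1 + B) / κ * r := by
  set ξ := inner ℝ (b 0) (p - p₀) / r with hξ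
  set η := inner ℝ (b 1) (p - p₀) / r with hη
  obtain ⟨m, n, hu, hv⟩ := lattice_cover (s * γ) (s * β) ξ η h0 (by linarith)
  obtain ⟨hx, hy⟩ := lattice_bound (s * γ) (s * β) (ξ - m) (η - n) κ B hκ h1 hγ hβ hu hv
  have e : p - latPt b p₀ r (m, n) = (r * (ξ - m)) • b 0 + (r * (η - n)) • b 1 := by
    have h := frame_expand b (p - p₀)
    have h0' : inner ℝ (b 0) (p - p₀) = r * ξ := by rw [hξ]; field_simp
    have h1' : inner ℝ (b 1) (p - p₀) = r * η := by rw [hη]; field_simp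
    rw [h0', h1'] at h
    have : p - latPt b p₀ r (m, n) = (p - p₀) - (r * m) • b 0 - (r * n) • b 1 := by
      simp only [latPt]; abel
    rw [this, h]
    module
  refine ⟨(m, n), (ξ - m) + s * β * (η - n), s * γ * (ξ - m) + (η - n), hu, hv, ?_, ?_⟩
  · rw [e, map_add, map_smul, map_smul, hA0, hA1]
    module
  · rw [e]
    refine (norm_frame_le b _ _).trans ?_
    rw [abs_mul, abs_mul, abs_of_pos hr]
    have : (1 + B) / κ * r = r * ((1 + B) / (2 * κ)) + r * ((1 + B) / (2 * κ)) := by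
      field_simp; ring
    rw [this]
    gcongr

theorem exists_small_thickening (C : Set E2) (hC : IsCompact C) (τ : ℝ) (hτ : 0 < τ) :
    ∃ δ > 0, volume (Metric.cthickening δ C) ≤ volume C + ENNReal.ofReal τ := by
  have ht := tendsto_measure_cthickening_of_isClosed (μ := (volume : Measure E2)) (s := C)
    ⟨1, one_pos, (hC.cthickening).measure_lt_top.ne⟩ hC.isClosed
  have hlt : volume C < volume C + ENNReal.ofReal τ :=
    ENNReal.lt_add_right hC.measure_lt_top.ne (by simpa using hτ)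
  have hev := ht.eventually (gt_mem_nhds hlt)
  rw [Metric.eventually_nhds_iff] at hev
  obtain ⟨ε, hε, hall⟩ := hev
  refine ⟨ε / 2, by positivity, (hall (y := ε / 2) ?_).le⟩
  rw [Real.dist_eq, sub_zero, abs_of_pos (by positivity)]
  linarith


theorem abs_inner_frame_le (b : OrthonormalBasis (Fin 2) ℝ E2) (i : Fin 2) (x : E2) :
    |inner ℝ (b i) x| ≤ ‖x‖ := by
  calc |inner ℝ (b i) x| ≤ ‖b i‖ * ‖x‖ := abs_real_inner_le_norm _ _
    _ = ‖x‖ := by rw [b.orthonormal.1 i, one_mul]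

theorem cover_point (V : E2 → E2) (L : ℝ) (hL : 0 < L)
    (p₀ : E2) (ρ : ℝ)
    (hdiff : ∀ x ∈ Metric.closedBall p₀ (2 * ρ), DifferentiableAt ℝ V x)
    (b : OrthonormalBasis (Fin 2) ℝ E2) (γ β : ℝ)
    (hA0 : fderiv ℝ V p₀ (b 0) = γ • b 1) (hA1 : fderiv ℝ V p₀ (b 1) = β • b 0)
    (κ G θ : ℝ) (hκ : 0 < κ) (hG0 : 0 ≤ G) (hγ : |γ| ≤ G) (hβ : |β| ≤ G) (hθ : 0 < θ)
    (hdet0 : 0 ≤ γ * β) (hdet : L ^ 2 * (γ * β) ≤ 1 - κ)
    (hosc : ∀ x ∈ Metric.closedBall p₀ (2 * ρ),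
      ‖fderiv ℝ V x - fderiv ℝ V p₀‖ ≤ θ * κ / (2 * L * (1 + L * G)))
    (r : ℝ) (hr : 0 < r) (hrρ : (1 + L * G) / κ * r ≤ ρ)
    (p : E2) (hp : p ∈ Metric.closedBall p₀ ρ) (s : ℝ) (hs : |s| ≤ L) :
    ∃ mn : ℤ × ℤ, ‖p - latPt b p₀ r mn‖ ≤ (1 + L * G) / κ * r ∧
      ∃ x ∈ Set.Icc (0 : ℝ) 1, ∃ y ∈ Set.Icc (0 : ℝ) 1,
        p + s • V p = (latPt b p₀ r mn - ((1 + θ) * r / 2) • (b 0 + b 1))
          + x • (((1 + θ) * r) • b 0) + y • (((1 + θ) * r) • b 1) + s • V (latPt b p₀ r mn) := by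
  have hs2 : s ^ 2 ≤ L ^ 2 := by
    rw [← sq_abs s]; exact pow_le_pow_left₀ (abs_nonneg s) hs 2
  have hsb : ∀ t : ℝ, |t| ≤ G → |s * t| ≤ L * G := by
    intro t ht
    rw [abs_mul]
    exact mul_le_mul hs ht (abs_nonneg t) hL.le
  obtain ⟨mn, u, v, hu, hv, hlin, hnorm⟩ := local_linear b (fderiv ℝ V p₀) γ β hA0 hA1 p₀ p r s κ
    (L * G) hr hκ (by nlinarith [sq_nonneg s]) (by nlinarith [sq_nonneg s]) (hsb γ hγ) (hsb β hβ)
  set c := latPt b p₀ r mn with hc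
  refine ⟨mn, hnorm, ?_⟩
  have hρ0 : 0 ≤ ρ := le_trans (by positivity) hrρ
  have hp2 : p ∈ Metric.closedBall p₀ (2 * ρ) :=
    Metric.closedBall_subset_closedBall (by linarith) hp
  have hc2 : c ∈ Metric.closedBall p₀ (2 * ρ) := by
    rw [Metric.mem_closedBall] at hp ⊢
    calc dist c p₀ ≤ dist c p + dist p p₀ := dist_triangle _ _ _
      _ ≤ ρ + ρ := by
        gcongr
        rw [dist_comm, dist_eq_norm]; exact hnorm.trans hrρ
      _ = 2 * ρ := by ring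
  have hmvt := Convex.norm_image_sub_le_of_norm_fderiv_le' (𝕜 := ℝ) hdiff hosc
    (convex_closedBall p₀ (2 * ρ)) hc2 hp2
  set err := s • (V p - V c - fderiv ℝ V p₀ (p - c)) with herr
  have hLG : 0 < 1 + L * G := by positivity
  have herrn : ‖err‖ ≤ θ * r / 2 := by
    rw [herr, norm_smul, Real.norm_eq_abs]
    calc |s| * ‖V p - V c - fderiv ℝ V p₀ (p - c)‖
        ≤ L * (θ * κ / (2 * L * (1 + L * G)) * ((1 + L * G) / κ * r)) := by
          gcongr
          exact hmvt.trans (by gcongr)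
      _ = θ * r / 2 := by field_simp
  set e0 := inner ℝ (b 0) err with he0
  set e1 := inner ℝ (b 1) err with he1
  have he0n : |e0| ≤ θ * r / 2 := (abs_inner_frame_le b 0 err).trans herrn
  have he1n : |e1| ≤ θ * r / 2 := (abs_inner_frame_le b 1 err).trans herrn
  have hexp : err = e0 • b 0 + e1 • b 1 := frame_expand b err
  have hpos : 0 < (1 + θ) * r := by positivity
  have hmain : p + s • V p = c + s • V c + (r * u + e0) • b 0 + (r * v + e1) • b 1 := by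
    have h1 : p + s • V p = c + s • V c + ((p - c) + s • fderiv ℝ V p₀ (p - c)) + err := by
      rw [herr]; module
    rw [h1, hlin, hexp]; module
  have hcoord : ∀ w e : ℝ, |w| ≤ 1 / 2 → |e| ≤ θ * r / 2 →
      ∃ x ∈ Set.Icc (0 : ℝ) 1, x * ((1 + θ) * r) = r * w + e + (1 + θ) * r / 2 := by
    intro w e hw he
    refine ⟨(r * w + e + (1 + θ) * r / 2) / ((1 + θ) * r), ⟨?_, ?_⟩, by field_simp⟩
    · apply div_nonneg _ hpos.le
      have := (abs_le.mp hw).1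
      have := (abs_le.mp he).1
      nlinarith
    · rw [div_le_one hpos]
      have := (abs_le.mp hw).2
      have := (abs_le.mp he).2
      nlinarith
  obtain ⟨x, hx, hxe⟩ := hcoord u e0 hu he0n
  obtain ⟨y, hy, hye⟩ := hcoord v e1 hv he1n
  refine ⟨x, hx, y, hy, ?_⟩
  rw [hmain, smul_smul, smul_smul, hxe, hye]
  module

theorem inner_latPt (b : OrthonormalBasis (Fin 2) ℝ E2) (p₀ : E2) (r : ℝ) (mn : ℤ × ℤ) :
    inner ℝ (b 0) (latPt b p₀ r mn - p₀) = r * mn.1 ∧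
    inner ℝ (b 1) (latPt b p₀ r mn - p₀) = r * mn.2 := by
  have e : latPt b p₀ r mn - p₀ = (r * mn.1) • b 0 + (r * mn.2) • b 1 := by
    simp only [latPt]; abel
  have h00 : inner ℝ (b 0) (b 0) = (1 : ℝ) := by
    rw [real_inner_self_eq_norm_sq, b.orthonormal.1 0]; norm_num
  have h11 : inner ℝ (b 1) (b 1) = (1 : ℝ) := by
    rw [real_inner_self_eq_norm_sq, b.orthonormal.1 1]; norm_num
  have h01 : inner ℝ (b 0) (b 1) = (0 : ℝ) := b.orthonormal.2 (by decide)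
  have h10 : inner ℝ (b 1) (b 0) = (0 : ℝ) := b.orthonormal.2 (by decide)
  rw [e]
  constructor
  · rw [inner_add_right, inner_smul_right, inner_smul_right, h00, h01]; ring
  · rw [inner_add_right, inner_smul_right, inner_smul_right, h10, h11]; ring

theorem finite_lat (b : OrthonormalBasis (Fin 2) ℝ E2) (p₀ : E2) (r : ℝ) (hr : 0 < r) (R : ℝ) :
    {mn : ℤ × ℤ | ‖latPt b p₀ r mn - p₀‖ ≤ R}.Finite := by
  set N : ℤ := ⌈R / r⌉ with hN
  apply Set.Finite.subset (Set.finite_Icc ((-N, -N) : ℤ × ℤ) (N, N))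
  intro mn hmn
  have hmn' : ‖latPt b p₀ r mn - p₀‖ ≤ R := hmn
  obtain ⟨h0, h1⟩ := inner_latPt b p₀ r mn
  have key : ∀ m : ℤ, |r * (m : ℝ)| ≤ R → -N ≤ m ∧ m ≤ N := by
    intro m hm
    rw [abs_mul, abs_of_pos hr] at hm
    have h2 : |(m : ℝ)| ≤ R / r := by rw [le_div_iff₀ hr]; linarith
    have h3 : |(m : ℝ)| ≤ N := h2.trans (Int.le_ceil _)
    have h4 := abs_le.mp h3
    constructor
    · have : (-(N : ℝ)) ≤ m := h4.1
      exact_mod_cast this
    · exact_mod_cast h4.2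
  have k0 := key mn.1 (by rw [← h0]; exact (abs_inner_frame_le b 0 _).trans hmn')
  have k1 := key mn.2 (by rw [← h1]; exact (abs_inner_frame_le b 1 _).trans hmn')
  exact ⟨⟨k0.1, k1.1⟩, ⟨k0.2, k1.2⟩⟩

theorem good_piece (V : E2 → E2) (L h : ℝ) (hL : 0 < L)
    (p₀ : E2) (ρ : ℝ) (hρ : 0 < ρ)
    (hdiff : ∀ x ∈ Metric.closedBall p₀ (2 * ρ), DifferentiableAt ℝ V x)
    (htr : LinearMap.trace ℝ _ (fderiv ℝ V p₀).toLinearMap = 0)
    (κ G θ ω' : ℝ) (hκ : 0 < κ) (hG : ‖fderiv ℝ V p₀‖ ≤ G) (hθ : 0 < θ) (hθ1 : θ ≤ 1)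
    (hω' : 0 < ω') (hω'1 : ω' ≤ 1)
    (hdet0 : LinearMap.det (fderiv ℝ V p₀).toLinearMap ≤ 0)
    (hdet : L ^ 2 * (-LinearMap.det (fderiv ℝ V p₀).toLinearMap) ≤ 1 - κ)
    (hosc : ∀ x ∈ Metric.closedBall p₀ (2 * ρ),
      ‖fderiv ℝ V x - fderiv ℝ V p₀‖ ≤ θ * κ / (2 * L * (1 + L * G)))
    (hJ : ∀ x ∈ Metric.closedBall p₀ (2 * ρ), |J h (V x) - J h (V p₀)| ≤ ω' / 2)
    (C : Set E2) (hC : IsCompact C) (hCρ : C ⊆ Metric.closedBall p₀ ρ) (ε' : ℝ) (hε' : 0 < ε') :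
    Good V L h C ((∫ x in C, (1 + θ) ^ 2 * (J h (V x) + ω')) + ε') := by
  obtain ⟨b, γ, β, hA0, hA1, hdetA, hγ, hβ⟩ := exists_frame (fderiv ℝ V p₀) htr
  have hG0 : 0 ≤ G := (norm_nonneg _).trans hG
  have hγβ : γ * β = -LinearMap.det (fderiv ℝ V p₀).toLinearMap := by rw [hdetA]; ring
  set M0 := (1 + L * G) / κ with hM0
  have hM0pos : 0 < M0 := by positivity
  obtain ⟨δ₁, hδ₁, hthick⟩ := exists_small_thickening C hC (ε' / 8) (by positivity)
  set r := min δ₁ ρ / (M0 + 1) with hr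
  have hrpos : 0 < r := by positivity
  have hr1 : (M0 + 1) * r = min δ₁ ρ := by rw [hr]; field_simp
  have hrδ : (M0 + 1) * r ≤ δ₁ := hr1.le.trans (min_le_left _ _)
  have hrρ : M0 * r ≤ ρ := by
    have : (M0 + 1) * r ≤ ρ := hr1.le.trans (min_le_right _ _)
    nlinarith
  -- the index set
  have hfin : {mn : ℤ × ℤ | ∃ p ∈ C, ‖p - latPt b p₀ r mn‖ ≤ M0 * r}.Finite := by
    apply (finite_lat b p₀ r hrpos (2 * ρ)).subset
    rintro mn ⟨p, hp, hpn⟩
    have hp' := hCρ hp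
    rw [Metric.mem_closedBall, dist_eq_norm] at hp'
    show ‖latPt b p₀ r mn - p₀‖ ≤ 2 * ρ
    calc ‖latPt b p₀ r mn - p₀‖ = ‖(p - p₀) - (p - latPt b p₀ r mn)‖ := by congr 1; abel
      _ ≤ ‖p - p₀‖ + ‖p - latPt b p₀ r mn‖ := norm_sub_le _ _
      _ ≤ 2 * ρ := by linarith
  set Λ := hfin.toFinset with hΛ
  have hΛmem : ∀ mn, mn ∈ Λ ↔ ∃ p ∈ C, ‖p - latPt b p₀ r mn‖ ≤ M0 * r := by
    intro mn; rw [hΛ, Set.Finite.mem_toFinset]; rfl
  have hside : 0 < (1 + θ) * r := by positivity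
  have hnb : ∀ i, ‖((1 + θ) * r) • b i‖ = (1 + θ) * r := by
    intro i
    rw [norm_smul, b.orthonormal.1 i, mul_one, Real.norm_eq_abs, abs_of_pos hside]
  refine ⟨Λ, inferInstance, fun i => latPt b p₀ r i.1 - ((1 + θ) * r / 2) • (b 0 + b 1),
    fun _ => ((1 + θ) * r) • b 0, fun _ => ((1 + θ) * r) • b 1, fun i => V (latPt b p₀ r i.1),
    ?_, ?_, ?_⟩
  · intro i
    refine ⟨?_, ?_, ?_⟩
    · intro h0
      have h0' : ((1 + θ) * r) • b 0 = 0 := h0
      have := hnb 0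
      rw [h0', norm_zero] at this
      linarith
    · rw [hnb 0, hnb 1]
    · rw [inner_smul_left, inner_smul_right, b.orthonormal.2 (by decide : (0 : Fin 2) ≠ 1)]
      simp
  · rintro ⟨s, ζ⟩ ⟨p, hp, hs, hζ⟩
    simp only at hs hζ
    obtain ⟨mn, hmn, x, hx, y, hy, hxy⟩ := cover_point V L hL p₀ ρ hdiff b γ β hA0 hA1 κ G θ hκ hG0
      (hγ.trans hG) (hβ.trans hG) hθ (by rw [hγβ]; linarith) (by rw [hγβ]; exact hdet) hosc r hrpos
      hrρ p (hCρ hp) s hs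
    refine Set.mem_iUnion.mpr ⟨⟨mn, (hΛmem mn).mpr ⟨p, hp, hmn⟩⟩, x, hx, y, hy, ?_⟩
    simp only
    rw [hζ, hxy]
  · -- the sum
    set J0 := J h (V p₀) with hJ0
    have hJ0le : J0 ≤ 1 := J_le_one _ _
    have hJ0nn : 0 ≤ J0 := J_nonneg _ _
    set vC := (volume C).toReal with hvC
    have hvCnn : 0 ≤ vC := ENNReal.toReal_nonneg
    -- each lattice point is in the big ball
    have hball : ∀ mn ∈ Λ, latPt b p₀ r mn ∈ Metric.closedBall p₀ (2 * ρ) := by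
      intro mn hmn
      obtain ⟨p, hp, hpn⟩ := (hΛmem mn).mp hmn
      have hp' := hCρ hp
      rw [Metric.mem_closedBall, dist_eq_norm] at hp' ⊢
      calc ‖latPt b p₀ r mn - p₀‖ = ‖(p - p₀) - (p - latPt b p₀ r mn)‖ := by congr 1; abel
        _ ≤ ‖p - p₀‖ + ‖p - latPt b p₀ r mn‖ := norm_sub_le _ _
        _ ≤ 2 * ρ := by linarith
    have hterm : ∀ i : Λ, ‖((1 + θ) * r) • b 0‖ ^ 2 /
        Real.sqrt (1 + (V (latPt b p₀ r i.1) 0) ^ 2 + h ^ 2 * (V (latPt b p₀ r i.1) 1) ^ 2) ≤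
        ((1 + θ) * r) ^ 2 * (J0 + ω' / 2) := by
      intro i
      rw [hnb 0, div_eq_mul_one_div]
      have := (abs_le.mp (hJ _ (hball i.1 i.2))).2
      have hJe : 1 / Real.sqrt (1 + (V (latPt b p₀ r i.1) 0) ^ 2 +
        h ^ 2 * (V (latPt b p₀ r i.1) 1) ^ 2) = J h (V (latPt b p₀ r i.1)) := rfl
      rw [hJe]
      gcongr
      linarith
    have hcount : (Λ.card : ℝ) * r ^ 2 ≤ vC + ε' / 8 := by
      have h1 := card_cells_le b p₀ r hrpos Λ (Metric.cthickening δ₁ C) (by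
        intro mn hmn
        obtain ⟨p, hp, hpn⟩ := (hΛmem mn).mp hmn
        intro x hx
        apply Metric.cthickening_mono hrδ
        apply Metric.mem_cthickening_of_dist_le x p _ _ hp
        rw [Metric.mem_closedBall] at hx
        calc dist x p ≤ dist x (latPt b p₀ r mn) + dist (latPt b p₀ r mn) p := dist_triangle _ _ _
          _ ≤ r + M0 * r := by
            gcongr
            rw [dist_comm, dist_eq_norm]; exact hpn
          _ = (M0 + 1) * r := by ring)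
      have h2 := h1.trans hthick
      have h3 : volume C + ENNReal.ofReal (ε' / 8) = ENNReal.ofReal (vC + ε' / 8) := by
        rw [ENNReal.ofReal_add hvCnn (by positivity), hvC, ENNReal.ofReal_toReal hC.measure_lt_top.ne]
      rw [h3] at h2
      exact (ENNReal.ofReal_le_ofReal_iff (by positivity)).mp h2
    have hcont : ContinuousOn (fun x => (1 + θ) ^ 2 * (J h (V x) + ω')) C := by
      intro x hx
      have hx2 : x ∈ Metric.closedBall p₀ (2 * ρ) :=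
        Metric.closedBall_subset_closedBall (by linarith) (hCρ hx)
      have hVc : ContinuousAt V x := (hdiff x hx2).continuousAt
      have : ContinuousAt (fun x => (1 + θ) ^ 2 * (J h (V x) + ω')) x :=
        continuousAt_const.mul
          ((((continuous_J h).continuousAt).comp hVc).add continuousAt_const)
      exact this.continuousWithinAt
    have hint : (1 + θ) ^ 2 * (J0 + ω' / 2) * vC ≤ ∫ x in C, (1 + θ) ^ 2 * (J h (V x) + ω') := by
      apply setIntegral_ge_of_const_le_real hC.measurableSet hC.measure_lt_top.ne _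
        (hcont.integrableOn_compact hC)
      intro x hx
      have hx2 : x ∈ Metric.closedBall p₀ (2 * ρ) :=
        Metric.closedBall_subset_closedBall (by linarith) (hCρ hx)
      have := (abs_le.mp (hJ x hx2)).1
      apply mul_le_mul_of_nonneg_left _ (by positivity)
      linarith
    calc ∑ i : Λ, ‖((1 + θ) * r) • b 0‖ ^ 2 /
        Real.sqrt (1 + (V (latPt b p₀ r i.1) 0) ^ 2 + h ^ 2 * (V (latPt b p₀ r i.1) 1) ^ 2)
        ≤ ∑ _i : Λ, ((1 + θ) * r) ^ 2 * (J0 + ω' / 2) := Finset.sum_le_sum fun i _ => hterm i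
      _ = (1 + θ) ^ 2 * (J0 + ω' / 2) * ((Λ.card : ℝ) * r ^ 2) := by
        rw [Finset.sum_const, Finset.card_univ, Fintype.card_coe, nsmul_eq_mul]; ring
      _ ≤ (1 + θ) ^ 2 * (J0 + ω' / 2) * (vC + ε' / 8) := by gcongr
      _ = (1 + θ) ^ 2 * (J0 + ω' / 2) * vC + (1 + θ) ^ 2 * (J0 + ω' / 2) * (ε' / 8) := by ring
      _ ≤ (∫ x in C, (1 + θ) ^ 2 * (J h (V x) + ω')) + ε' := by
        have h1 : (1 + θ) ^ 2 ≤ 4 := by nlinarith
        have h2 : J0 + ω' / 2 ≤ 2 := by linarith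
        have h3 : (1 + θ) ^ 2 * (J0 + ω' / 2) ≤ 4 * 2 :=
          mul_le_mul h1 h2 (by positivity) (by norm_num)
        have h4 : (1 + θ) ^ 2 * (J0 + ω' / 2) * (ε' / 8) ≤ 4 * 2 * (ε' / 8) :=
          mul_le_mul_of_nonneg_right h3 (by positivity)
        linarith

end Crest.Agent.S0326
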