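import Crest.Statements.S0326
import Crest.Agent.S0326_Local

set_option autoImplicit false
open MeasureTheory
open scoped ENNReal
open Crest Crest.GeometryTopology Crest.GeometryTopology.Convex

namespace Crest.Agent.S0326

theorem good_main
    (D : Set E2) (hD : IsCompact D) (hne : D.Nonempty)
    (V : E2 → E2) (U : Set E2)
    (hU : IsOpen U) (hDU : D ⊆ U) (hV : ContDiffOn ℝ 1 V U) (L h : ℝ) (hL : 0 < L)
    (htr : ∀ p ∈ D, LinearMap.trace ℝ _ (fderiv ℝ V p).toLinearMap = 0)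
    (hdet : ∀ p ∈ D, -(L ^ 2)⁻¹ < LinearMap.det (fderiv ℝ V p).toLinearMap ∧
      LinearMap.det (fderiv ℝ V p).toLinearMap ≤ 0)
    (ε : ℝ) (hε : 0 < ε) :
    Good V L h D ((∫ p in D, J h (V p)) + ε) := by
  obtain ⟨δ₀, hδ₀, hK⟩ := hD.exists_cthickening_subset_open hU hDU
  set K := Metric.cthickening δ₀ D with hKdef
  have hKc : IsCompact K := hD.cthickening
  have hDVc : ContinuousOn (fderiv ℝ V) U := hV.continuousOn_fderiv_of_isOpen hU le_rfl
  have hVd : ∀ x ∈ U, DifferentiableAt ℝ V x := fun x hx =>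
    (hV.differentiableOn one_ne_zero).differentiableAt (hU.mem_nhds hx)
  have hVc : ContinuousOn V U := hV.continuousOn
  have hJVc : ContinuousOn (fun x => J h (V x)) U := (continuous_J h).comp_continuousOn hVc
  -- bound on the derivative
  obtain ⟨G, hG⟩ := hD.exists_bound_of_continuousOn (hDVc.mono hDU)
  -- the determinant
  have hdc : ContinuousOn (fun p => LinearMap.det (fderiv ℝ V p).toLinearMap) D :=
    ContinuousLinearMap.continuous_det.comp_continuousOn (hDVc.mono hDU)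
  obtain ⟨pm, hpm, hmin⟩ := hD.exists_isMinOn hne hdc
  set dm := LinearMap.det (fderiv ℝ V pm).toLinearMap with hdm
  set κ := 1 + L ^ 2 * dm with hκdef
  have hL2 : 0 < L ^ 2 := by positivity
  have hκ : 0 < κ := by
    have h1 := (hdet pm hpm).1
    have h2 : L ^ 2 * (-(L ^ 2)⁻¹) < L ^ 2 * dm := mul_lt_mul_of_pos_left h1 hL2
    have h3 : L ^ 2 * (-(L ^ 2)⁻¹) = -1 := by field_simp
    rw [hκdef]; linarith
  have hdetκ : ∀ p ∈ D, L ^ 2 * (-LinearMap.det (fderiv ℝ V p).toLinearMap) ≤ 1 - κ := by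
    intro p hp
    have h1 : dm ≤ LinearMap.det (fderiv ℝ V p).toLinearMap := hmin hp
    have h2 : L ^ 2 * dm ≤ L ^ 2 * LinearMap.det (fderiv ℝ V p).toLinearMap :=
      mul_le_mul_of_nonneg_left h1 hL2.le
    rw [hκdef]; linarith
  have hG0 : 0 ≤ G := (norm_nonneg _).trans (hG pm hpm)
  -- the small parameters
  set W := (volume D).toReal with hW
  have hW0 : 0 ≤ W := ENNReal.toReal_nonneg
  set ω' := min 1 (ε / (4 * (W + 1))) with hω'def
  have hω' : 0 < ω' := by positivity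
  have hω'1 : ω' ≤ 1 := min_le_left _ _
  have hω'W : ω' * W ≤ ε / 4 := by
    have h1 : ω' ≤ ε / (4 * (W + 1)) := min_le_right _ _
    calc ω' * W ≤ ε / (4 * (W + 1)) * (W + 1) := by gcongr; linarith
      _ = ε / 4 := by field_simp
  set θ := min 1 (ε / (24 * (W + 1))) with hθdef
  have hθ : 0 < θ := by positivity
  have hθ1 : θ ≤ 1 := min_le_left _ _
  have hθW : θ * W ≤ ε / 24 := by
    have h1 : θ ≤ ε / (24 * (W + 1)) := min_le_right _ _
    calc θ * W ≤ ε / (24 * (W + 1)) * (W + 1) := by gcongr; linarith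
      _ = ε / 24 := by field_simp
  set ω := θ * κ / (2 * L * (1 + L * G)) with hωdef
  have hω : 0 < ω := by positivity
  -- uniform continuity
  have huc1 := hKc.uniformContinuousOn_of_continuous (hDVc.mono hK)
  have huc2 := hKc.uniformContinuousOn_of_continuous (hJVc.mono hK)
  rw [Metric.uniformContinuousOn_iff] at huc1 huc2
  obtain ⟨δa, hδa, hua⟩ := huc1 ω hω
  obtain ⟨δb, hδb, hub⟩ := huc2 (ω' / 2) (by positivity)
  set ρ := min δ₀ (min δa δb) / 4 with hρdef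
  have hρ : 0 < ρ := by positivity
  have hρ0 : 2 * ρ ≤ δ₀ := by
    have : min δ₀ (min δa δb) ≤ δ₀ := min_le_left _ _
    rw [hρdef]; linarith
  have hρa : 2 * ρ < δa := by
    have : min δ₀ (min δa δb) ≤ δa := (min_le_right _ _).trans (min_le_left _ _)
    have h2 : 0 < min δ₀ (min δa δb) := by positivity
    rw [hρdef]; linarith
  have hρb : 2 * ρ < δb := by
    have : min δ₀ (min δa δb) ≤ δb := (min_le_right _ _).trans (min_le_right _ _)
    have h2 : 0 < min δ₀ (min δa δb) := by positivity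
    rw [hρdef]; linarith
  have hDK : D ⊆ K := Metric.self_subset_cthickening D
  have hballK : ∀ p₀ ∈ D, Metric.closedBall p₀ (2 * ρ) ⊆ K := by
    intro p₀ hp₀ x hx
    exact Metric.mem_cthickening_of_dist_le x p₀ δ₀ D hp₀ ((Metric.mem_closedBall.mp hx).trans hρ0)
  set f : E2 → ℝ := fun x => (1 + θ) ^ 2 * (J h (V x) + ω') with hf
  have hJint : IntegrableOn (fun x => J h (V x)) D := (hJVc.mono hDU).integrableOn_compact hD
  have hfint : IntegrableOn f D :=
    (hJint.add (integrableOn_const hD.measure_lt_top.ne)).const_mul _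
  have hgood := good_of_pieces (V := V) (L := L) (h := h) f D hD hfint ρ hρ (by
    intro p₀ hp₀ C hC _ hCρ ε' hε'
    exact good_piece V L h hL p₀ ρ hρ (fun x hx => hVd x (hK (hballK p₀ hp₀ hx))) (htr p₀ hp₀)
      κ G θ ω' hκ (hG p₀ hp₀) hθ hθ1 hω' hω'1 (hdet p₀ hp₀).2 (hdetκ p₀ hp₀)
      (fun x hx => by
        rw [← dist_eq_norm]
        exact (hua x (hballK p₀ hp₀ hx) p₀ (hDK hp₀)
          ((Metric.mem_closedBall.mp hx).trans_lt hρa)).le)
      (fun x hx => by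
        rw [← Real.dist_eq]
        exact (hub x (hballK p₀ hp₀ hx) p₀ (hDK hp₀)
          ((Metric.mem_closedBall.mp hx).trans_lt hρb)).le)
      C hC hCρ ε' hε') (ε / 4) (by positivity)
  refine hgood.mono le_rfl ?_
  set I := ∫ p in D, J h (V p) with hI
  have hI0 : 0 ≤ I := setIntegral_nonneg hD.measurableSet fun x _ => J_nonneg _ _
  have hIW : I ≤ W := by
    have h1 : I ≤ ∫ _p in D, (1 : ℝ) :=
      setIntegral_mono_on hJint (integrableOn_const hD.measure_lt_top.ne) hD.measurableSet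
        fun x _ => J_le_one _ _
    rw [setIntegral_const] at h1
    simpa [hW, Measure.real] using h1
  have hfI : (∫ x in D, f x) = (1 + θ) ^ 2 * (I + ω' * W) := by
    simp only [hf]
    rw [integral_const_mul, integral_add hJint (integrableOn_const hD.measure_lt_top.ne),
      setIntegral_const]
    simp [hW, hI, Measure.real, mul_comm]
  rw [hfI]
  have h1 : (1 + θ) ^ 2 ≤ 1 + 3 * θ := by nlinarith
  have h2 : 0 ≤ I + ω' * W := by positivity
  have h3 : (1 + θ) ^ 2 * (I + ω' * W) ≤ (1 + 3 * θ) * (I + ω' * W) :=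
    mul_le_mul_of_nonneg_right h1 h2
  have h4 : θ * (I + ω' * W) ≤ θ * (2 * W) := by
    apply mul_le_mul_of_nonneg_left _ hθ.le
    nlinarith
  nlinarith

/-- Let D ⊂ ℝ² be compact, V : ℝ² → ℝ² be C¹ on an open set containing D, and L, h > 0, with tr DV(p) = 0 and −1/L² < det DV(p) ≤ 0 for p ∈ D. Let E ⊂ ℝ × ℝ² be the ruled set of points (s, p + s V(p)), p ∈ D, −L ≤ s ≤ L. For every ε > 0, finitely many squares Tᵢ = cᵢ + [0,1]aᵢ + [0,1]bᵢ (aᵢ ⊥ bᵢ of equal nonzero length) and velocities gᵢ ∈ ℝ² exist whose sheared cylinders {(s, ξ) : ξ ∈ Tᵢ + s gᵢ} cover E, with ∑ᵢ area(Tᵢ) J(gᵢ) ≤ ∫_D J(V(p)) dp + ε, where J(g) = (1 + g₁² + h² g₂²)^(−1/2). -/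
theorem result
    (D : Set (EuclideanSpace ℝ (Fin 2))) (hD : IsCompact D)
    (V : EuclideanSpace ℝ (Fin 2) → EuclideanSpace ℝ (Fin 2)) (U : Set (EuclideanSpace ℝ (Fin 2)))
    (hU : IsOpen U) (hDU : D ⊆ U) (hV : ContDiffOn ℝ 1 V U) (L h : ℝ) (hL : 0 < L) (hh : 0 < h)
    (htr : ∀ p ∈ D, LinearMap.trace ℝ _ (fderiv ℝ V p).toLinearMap = 0)
    (hdet : ∀ p ∈ D, -(L ^ 2)⁻¹ < LinearMap.det (fderiv ℝ V p).toLinearMap ∧
      LinearMap.det (fderiv ℝ V p).toLinearMap ≤ 0)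
    (ε : ℝ) (hε : 0 < ε) :
    ∃ (k : ℕ) (c a b g : Fin k → EuclideanSpace ℝ (Fin 2)),
      (∀ i, a i ≠ 0 ∧ ‖b i‖ = ‖a i‖ ∧ inner ℝ (a i) (b i) = 0) ∧
      {z : ℝ × EuclideanSpace ℝ (Fin 2) | ∃ p ∈ D, abs z.1 ≤ L ∧ z.2 = p + z.1 • V p} ⊆
        ⋃ i, {z : ℝ × EuclideanSpace ℝ (Fin 2) | ∃ x ∈ Set.Icc (0 : ℝ) 1, ∃ y ∈ Set.Icc (0 : ℝ) 1,
          z.2 = c i + x • a i + y • b i + z.1 • g i} ∧
      ∑ i, ‖a i‖ ^ 2 / Real.sqrt (1 + (g i 0) ^ 2 + h ^ 2 * (g i 1) ^ 2) ≤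
        (∫ p in D, 1 / Real.sqrt (1 + (V p 0) ^ 2 + h ^ 2 * (V p 1) ^ 2)) + ε := by
  rcases D.eq_empty_or_nonempty with rfl | hne
  · exact (Good.empty.mono le_rfl (by simpa using hε.le)).toFin
  · exact (good_main D hD hne V U hU hDU hV L h hL htr hdet ε hε).toFin

end Crest.Agent.S0326
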