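import Mathlib
import Crest.Agent.S0324_Area
import Crest.Agent.S0324_OpenBase

/-!
# Row 211, package W6: S0329 from the planar square covering (S0326)
-/

set_option autoImplicit false
open MeasureTheory Measure

namespace Crest.Agent.S0329

open Crest.Agent.S0324 Crest.Agent.S0324.OpenBase

/-- closed parallelogram -/
def par (c a b : E3) : Set E3 :=
  {x : E3 | ∃ s ∈ Set.Icc (0 : ℝ) 1, ∃ t ∈ Set.Icc (0 : ℝ) 1, x = c + s • a + t • b}

theorem par_bounded (c a b : E3) : Bornology.IsBounded (par c a b) := by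
  refine (Metric.isBounded_closedBall (x := (0 : E3)) (r := ‖c‖ + ‖a‖ + ‖b‖)).subset ?_
  rintro x ⟨s, hs, t, ht, rfl⟩
  rw [mem_closedBall_zero_iff]
  have h1 : ‖s • a‖ ≤ ‖a‖ := by
    rw [norm_smul, Real.norm_eq_abs, abs_of_nonneg hs.1]
    exact mul_le_of_le_one_left (norm_nonneg _) hs.2
  have h2 : ‖t • b‖ ≤ ‖b‖ := by
    rw [norm_smul, Real.norm_eq_abs, abs_of_nonneg ht.1]
    exact mul_le_of_le_one_left (norm_nonneg _) ht.2
  calc ‖c + s • a + t • b‖ ≤ ‖c + s • a‖ + ‖t • b‖ := norm_add_le _ _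
    _ ≤ ‖c‖ + ‖s • a‖ + ‖t • b‖ := by gcongr; exact norm_add_le _ _
    _ ≤ ‖c‖ + ‖a‖ + ‖b‖ := by gcongr

theorem par_perp (u c a b : E3) (hc : inner ℝ c u = 0) (ha : inner ℝ a u = 0)
    (hb : inner ℝ b u = 0) : ∀ x ∈ par c a b, inner ℝ x u = 0 := by
  rintro x ⟨s, -, t, -, rfl⟩
  simp [inner_add_left, inner_smul_left, hc, ha, hb]

/-- lift of the plane into `ℝ³` with the second coordinate stretched by `h` -/
noncomputable def lift (h : ℝ) (ξ : E2) : E3 := !₂[0, ξ 0, h * ξ 1]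

theorem lift_add (h : ℝ) (x y : E2) : lift h (x + y) = lift h x + lift h y := by
  ext i; fin_cases i <;> simp [lift, mul_add]

theorem lift_smul (h t : ℝ) (x : E2) : lift h (t • x) = t • lift h x := by
  ext i; fin_cases i <;> simp [lift]; ring

theorem proj_add (d x y : E3) : proj d (x + y) = proj d x + proj d y := by
  simp only [proj, inner_add_left, add_div, add_smul]; abel

theorem proj_smul (d x : E3) (t : ℝ) : proj d (t • x) = t • proj d x := by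
  simp only [proj, inner_smul_left, smul_sub, smul_smul]
  congr 2
  simp [mul_div_assoc]

theorem gram_lift (h : ℝ) (a b : E2) (hab : ‖b‖ = ‖a‖) (hin : inner ℝ a b = 0) :
    gram (lift h a) (lift h b) = (h * ‖a‖ ^ 2) ^ 2 := by
  have h1 : ‖a‖ ^ 2 = a 0 ^ 2 + a 1 ^ 2 := by
    simp [EuclideanSpace.norm_sq_eq, Fin.sum_univ_two]
  have h2 : ‖b‖ ^ 2 = b 0 ^ 2 + b 1 ^ 2 := by
    simp [EuclideanSpace.norm_sq_eq, Fin.sum_univ_two]
  have h3 : a 0 * b 0 + a 1 * b 1 = 0 := by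
    have : inner ℝ a b = a 0 * b 0 + a 1 * b 1 := by
      simp [PiLp.inner_apply, Fin.sum_univ_two]; ring
    rw [← this, hin]
  have h4 : b 0 ^ 2 + b 1 ^ 2 = a 0 ^ 2 + a 1 ^ 2 := by rw [← h1, ← h2, hab]
  have e1 : ‖lift h a‖ ^ 2 = a 0 ^ 2 + (h * a 1) ^ 2 := by
    simp [lift, EuclideanSpace.norm_sq_eq, Fin.sum_univ_three]
  have e2 : ‖lift h b‖ ^ 2 = b 0 ^ 2 + (h * b 1) ^ 2 := by
    simp [lift, EuclideanSpace.norm_sq_eq, Fin.sum_univ_three]
  have e3 : inner ℝ (lift h a) (lift h b) = a 0 * b 0 + (h * a 1) * (h * b 1) := by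
    simp [lift, PiLp.inner_apply, Fin.sum_univ_three]; ring
  rw [gram, e1, e2, e3, h1]
  have key : (a 0 * b 1 - a 1 * b 0) ^ 2 = (a 0 ^ 2 + a 1 ^ 2) ^ 2 := by
    have : (a 0 * b 1 - a 1 * b 0) ^ 2 + (a 0 * b 0 + a 1 * b 1) ^ 2
        = (a 0 ^ 2 + a 1 ^ 2) * (b 0 ^ 2 + b 1 ^ 2) := by ring
    rw [h3, h4] at this
    nlinarith [this]
  calc (a 0 ^ 2 + (h * a 1) ^ 2) * (b 0 ^ 2 + (h * b 1) ^ 2)
        - (a 0 * b 0 + h * a 1 * (h * b 1)) ^ 2
      = h ^ 2 * (a 0 * b 1 - a 1 * b 0) ^ 2 := by ring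
    _ = (h * (a 0 ^ 2 + a 1 ^ 2)) ^ 2 := by rw [key]; ring

theorem norm_sq_lift (h : ℝ) (g : E2) : ‖lift h g‖ ^ 2 = g 0 ^ 2 + h ^ 2 * g 1 ^ 2 := by
  simp [lift, EuclideanSpace.norm_sq_eq, Fin.sum_univ_three]; ring

theorem inner_lift_e (h : ℝ) (g : E2) : inner ℝ (lift h g) (!₂[1, 0, 0] : E3) = 0 := by
  simp [lift, PiLp.inner_apply, Fin.sum_univ_three]

theorem norm_e : ‖(!₂[1, 0, 0] : E3)‖ = 1 := by
  have : ‖(!₂[1, 0, 0] : E3)‖ ^ 2 = 1 := by
    simp [EuclideanSpace.norm_sq_eq, Fin.sum_univ_three]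
  nlinarith [norm_nonneg (!₂[1, 0, 0] : E3)]

theorem norm_sq_e_add_lift (h : ℝ) (g : E2) :
    ‖(!₂[1, 0, 0] : E3) + lift h g‖ ^ 2 = 1 + g 0 ^ 2 + h ^ 2 * g 1 ^ 2 := by
  simp [lift, EuclideanSpace.norm_sq_eq, Fin.sum_univ_three]; ring

theorem of_squares (h M : ℝ) (hh : 0 < h) (D : Set E2) (V : E2 → E2) (I ε : ℝ) (hε : 0 < ε)
    (hsq : ∃ (k : ℕ) (c a b g : Fin k → E2),
      (∀ i, a i ≠ 0 ∧ ‖b i‖ = ‖a i‖ ∧ inner ℝ (a i) (b i) = 0) ∧
      {z : ℝ × E2 | ∃ p ∈ D, abs z.1 ≤ M ∧ z.2 = p + z.1 • V p} ⊆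
        ⋃ i, {z : ℝ × E2 | ∃ x ∈ Set.Icc (0 : ℝ) 1, ∃ y ∈ Set.Icc (0 : ℝ) 1,
          z.2 = c i + x • a i + y • b i + z.1 • g i} ∧
      ∑ i, ‖a i‖ ^ 2 / Real.sqrt (1 + (g i 0) ^ 2 + h ^ 2 * (g i 1) ^ 2) ≤ I + ε / (2 * h)) :
    ∃ (k : ℕ) (u : Fin k → E3) (B : Fin k → Set E3),
      (∀ i, ‖u i‖ = 1) ∧
      (∀ i, Bornology.IsBounded (B i) ∧ ∃ O : Set E3, IsOpen O ∧
        B i = O ∩ {x | inner ℝ x (u i) = 0}) ∧
      {z : E3 | ∃ p ∈ D, ∃ x : ℝ, abs x ≤ M ∧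
          z = !₂[x, p 0 + x * V p 0, h * (p 1 + x * V p 1)]} ⊆
        ⋃ i, {z : E3 | ∃ y ∈ B i, ∃ τ : ℝ, z = y + τ • u i} ∧
      ∑ i, (μHE[2] (B i)).toReal ≤ h * I + ε := by
  obtain ⟨k, c, a, b, g, hab, hcov, hsum⟩ := hsq
  set e : E3 := !₂[1, 0, 0] with he
  set d : Fin k → E3 := fun i => e + lift h (g i) with hd
  have hd2 : ∀ i, ‖d i‖ ^ 2 = 1 + g i 0 ^ 2 + h ^ 2 * g i 1 ^ 2 := fun i =>
    norm_sq_e_add_lift h (g i)
  have hq : ∀ i, 0 < 1 + g i 0 ^ 2 + h ^ 2 * g i 1 ^ 2 := fun i => by positivity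
  have hdpos : ∀ i, 0 < ‖d i‖ := by
    intro i
    have h2 := hd2 i
    have h3 := hq i
    rcases (norm_nonneg (d i)).lt_or_eq with h4 | h4
    · exact h4
    · rw [← h4] at h2; norm_num at h2; linarith
  have hdne : ∀ i, d i ≠ 0 := fun i => norm_pos_iff.1 (hdpos i)
  have hdn : ∀ i, ‖d i‖ = Real.sqrt (1 + g i 0 ^ 2 + h ^ 2 * g i 1 ^ 2) := by
    intro i
    rw [← hd2 i, Real.sqrt_sq (norm_nonneg _)]
  set u : Fin k → E3 := fun i => (‖d i‖)⁻¹ • d i with hu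
  have hu1 : ∀ i, ‖u i‖ = 1 := by
    intro i
    simp only [hu, norm_smul, norm_inv, norm_norm]
    exact inv_mul_cancel₀ (hdpos i).ne'
  have hune : ∀ i, u i ≠ 0 := fun i => by
    intro h0
    have := hu1 i
    rw [h0, norm_zero] at this
    exact zero_ne_one this
  have hperp : ∀ i (y : E3), inner ℝ (proj (d i) y) (u i) = 0 := by
    intro i y
    simp only [hu, inner_smul_right, inner_proj_self (d i) y (hdne i), mul_zero]
  set B₀ : Fin k → Set E3 := fun i =>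
    par (proj (d i) (lift h (c i))) (proj (d i) (lift h (a i))) (proj (d i) (lift h (b i))) with hB₀
  have hB₀perp : ∀ i, ∀ x ∈ B₀ i, inner ℝ x (u i) = 0 := fun i =>
    par_perp (u i) _ _ _ (hperp i _) (hperp i _) (hperp i _)
  have hB₀bd : ∀ i, Bornology.IsBounded (B₀ i) := fun i => par_bounded _ _ _
  have harea : ∀ i, (μHE[2] (B₀ i)).toReal
      = h * (‖a i‖ ^ 2 / Real.sqrt (1 + g i 0 ^ 2 + h ^ 2 * g i 1 ^ 2)) := by
    intro i
    have h1 : μHE[2] (B₀ i) = ENNReal.ofReal (Real.sqrt (gram (proj (d i) (lift h (a i)))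
        (proj (d i) (lift h (b i))))) := area_parallelogram _ _ _
    have h2 : gram (proj (d i) (lift h (a i))) (proj (d i) (lift h (b i)))
        = (h * ‖a i‖ ^ 2) ^ 2 / (1 + g i 0 ^ 2 + h ^ 2 * g i 1 ^ 2) := by
      have := gram_proj e (lift h (a i)) (lift h (b i)) (lift h (g i)) norm_e
        (inner_lift_e h _) (inner_lift_e h _) (inner_lift_e h _)
      rw [gram_lift h (a i) (b i) (hab i).2.1 (hab i).2.2, norm_sq_lift] at this
      rw [this, add_assoc]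
    rw [h1, ENNReal.toReal_ofReal (Real.sqrt_nonneg _), h2, Real.sqrt_div (sq_nonneg _),
      Real.sqrt_sq (by positivity), mul_div_assoc]
  set η : ℝ := ε / (2 * (k + 1)) with hη
  have hηpos : 0 < η := by positivity
  choose O hOo hObd hOsub hOarea using fun i =>
    exists_open_base (u i) (hune i) (B₀ i) (hB₀perp i) (hB₀bd i) η hηpos
  refine ⟨k, u, fun i => O i ∩ {x | inner ℝ x (u i) = 0}, hu1,
    fun i => ⟨hObd i, O i, hOo i, rfl⟩, ?_, ?_⟩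
  · rintro z ⟨p, hp, x, hx, rfl⟩
    have hmem : ((x, p + x • V p) : ℝ × E2) ∈
        {z : ℝ × E2 | ∃ p ∈ D, abs z.1 ≤ M ∧ z.2 = p + z.1 • V p} := ⟨p, hp, hx, rfl⟩
    obtain ⟨i, hi⟩ := Set.mem_iUnion.1 (hcov hmem)
    obtain ⟨s, hs, t, ht, hst⟩ := hi
    simp only at hst
    refine Set.mem_iUnion.2 ⟨i, ?_⟩
    set y : E2 := c i + s • a i + t • b i with hy
    refine ⟨proj (d i) (lift h y), hOsub i ⟨s, hs, t, ht, ?_⟩,
      (x + inner ℝ (lift h y) (d i) / ‖d i‖ ^ 2) * ‖d i‖, ?_⟩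
    · rw [hy, lift_add, lift_add, lift_smul, lift_smul, proj_add, proj_add, proj_smul, proj_smul]
    · have e1 : (!₂[x, p 0 + x * V p 0, h * (p 1 + x * V p 1)] : E3)
          = x • e + lift h (p + x • V p) := by
        ext j; fin_cases j <;> simp [lift, he]
      have e2 : ((x + inner ℝ (lift h y) (d i) / ‖d i‖ ^ 2) * ‖d i‖) • u i
          = (x + inner ℝ (lift h y) (d i) / ‖d i‖ ^ 2) • d i := by
        simp only [hu, smul_smul]
        congr 1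
        rw [mul_assoc, mul_inv_cancel₀ (hdpos i).ne', mul_one]
      rw [e1, e2, hst, lift_add, lift_smul, proj, add_smul]
      simp only [hd, smul_add]
      abel
  · calc ∑ i, (μHE[2] (O i ∩ {x | inner ℝ x (u i) = 0})).toReal
        ≤ ∑ i, ((μHE[2] (B₀ i)).toReal + η) := Finset.sum_le_sum fun i _ => hOarea i
      _ = h * ∑ i, ‖a i‖ ^ 2 / Real.sqrt (1 + g i 0 ^ 2 + h ^ 2 * g i 1 ^ 2) + k * η := by
          rw [Finset.sum_add_distrib, Finset.mul_sum]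
          simp [harea]
      _ ≤ h * (I + ε / (2 * h)) + k * η := by gcongr
      _ ≤ h * I + ε := by
          have h1 : h * (I + ε / (2 * h)) = h * I + ε / 2 := by field_simp
          have h2 : (k : ℝ) * η ≤ ε / 2 := by
            rw [hη]
            rw [mul_div_assoc', div_le_div_iff₀ (by positivity) (by norm_num)]
            nlinarith
          linarith

end Crest.Agent.S0329
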