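import Mathlib
import Crest.Agent.S0324_Area
import Crest.Agent.S0324_OpenBase
import Crest.Agent.S0329_Main

/-!
# Row 211, package W5 (part A): a triangle is covered by `n` parallelograms of total area
`(1 + 1/n)` times its area.
-/

set_option autoImplicit false
open MeasureTheory Measure

namespace Crest.Agent.S0327

open Crest.Agent.S0324 Crest.Agent.S0324.OpenBase Crest.Agent.S0329

theorem mem_tri (p q r x : E3) (hx : x ∈ convexHull ℝ ({p, q, r} : Set E3)) :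
    ∃ l m : ℝ, 0 ≤ m ∧ m ≤ l ∧ l ≤ 1 ∧ x = p + l • (q - p) + m • (r - q) := by
  have hconv : Convex ℝ {x : E3 | ∃ l m : ℝ, 0 ≤ m ∧ m ≤ l ∧ l ≤ 1 ∧
      x = p + l • (q - p) + m • (r - q)} := by
    rintro x ⟨l₁, m₁, h1, h2, h3, rfl⟩ y ⟨l₂, m₂, h4, h5, h6, rfl⟩ a b ha hb hab
    refine ⟨a * l₁ + b * l₂, a * m₁ + b * m₂, by positivity, ?_, ?_, ?_⟩
    · nlinarith
    · nlinarith
    · have hb' : b = 1 - a := by linarith
      subst hb'
      module
  have hsub : ({p, q, r} : Set E3) ⊆ {x : E3 | ∃ l m : ℝ, 0 ≤ m ∧ m ≤ l ∧ l ≤ 1 ∧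
      x = p + l • (q - p) + m • (r - q)} := by
    rintro x (rfl | rfl | rfl)
    · exact ⟨0, 0, le_rfl, le_rfl, zero_le_one, by simp⟩
    · exact ⟨1, 0, le_rfl, zero_le_one, le_rfl, by simp⟩
    · exact ⟨1, 1, zero_le_one, le_rfl, le_rfl, by simp⟩
  exact convexHull_min hsub hconv hx

theorem tri_subset_strips (p q r : E3) (n : ℕ) (hn : 0 < n) :
    convexHull ℝ ({p, q, r} : Set E3) ⊆ ⋃ k : Fin n,
      par (p + ((k : ℝ) / n) • (q - p)) ((1 / (n : ℝ)) • (q - p)) ((((k : ℝ) + 1) / n) • (r - q)) := by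
  intro x hx
  obtain ⟨l, m, hm0, hml, hl1, rfl⟩ := mem_tri p q r x hx
  have hn' : (0 : ℝ) < n := by exact_mod_cast hn
  have hl0 : 0 ≤ l := hm0.trans hml
  obtain ⟨k, hkn, hk1, hk2⟩ : ∃ k : ℕ, k < n ∧ (k : ℝ) ≤ l * n ∧ l * n ≤ (k : ℝ) + 1 := by
    by_cases h1 : l * n < n
    · refine ⟨⌊l * n⌋₊, ?_, Nat.floor_le (by positivity), (Nat.lt_floor_add_one _).le⟩
      exact (Nat.floor_lt (by positivity)).2 h1
    · refine ⟨n - 1, by omega, ?_, ?_⟩
      · have : ((n - 1 : ℕ) : ℝ) = (n : ℝ) - 1 := by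
          rw [Nat.cast_sub hn]; simp
        rw [this]; linarith [not_lt.1 h1]
      · have : ((n - 1 : ℕ) : ℝ) = (n : ℝ) - 1 := by
          rw [Nat.cast_sub hn]; simp
        rw [this]; nlinarith
  refine Set.mem_iUnion.2 ⟨⟨k, hkn⟩, l * n - k, ⟨by linarith, by linarith⟩,
    m * n / ((k : ℝ) + 1), ⟨by positivity, ?_⟩, ?_⟩
  · rw [div_le_one (by positivity)]
    nlinarith
  · have hk : ((k : ℝ) + 1) ≠ 0 := by positivity
    simp only [smul_smul]
    have e1 : (l * n - k) * (1 / (n : ℝ)) = l - k / n := by field_simp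
    have e2 : m * n / ((k : ℝ) + 1) * (((k : ℝ) + 1) / n) = m := by field_simp
    rw [e1, e2]
    module

theorem sum_fin_succ (n : ℕ) : ∑ k : Fin n, ((k : ℝ) + 1) = (n : ℝ) * (n + 1) / 2 := by
  rw [Fin.sum_univ_eq_sum_range (fun k => ((k : ℝ) + 1)) n]
  induction n with
  | zero => simp
  | succ n ih => rw [Finset.sum_range_succ, ih]; push_cast; ring

theorem area_par (c a b : E3) : (μHE[2] (par c a b)).toReal = Real.sqrt (gram a b) := by
  have : μHE[2] (par c a b) = ENNReal.ofReal (Real.sqrt (gram a b)) := area_parallelogram c a b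
  rw [this, ENNReal.toReal_ofReal (Real.sqrt_nonneg _)]

theorem area_tri (p q r : E3) :
    (μHE[2] (convexHull ℝ ({p, q, r} : Set E3))).toReal = Real.sqrt (gram (q - p) (r - p)) / 2 := by
  rw [area_triangle, ENNReal.toReal_ofReal (by positivity)]

theorem area_strips (p q r : E3) (n : ℕ) (hn : 0 < n) :
    ∑ k : Fin n, (μHE[2] (par (p + ((k : ℝ) / n) • (q - p)) ((1 / (n : ℝ)) • (q - p))
        ((((k : ℝ) + 1) / n) • (r - q)))).toReal
      = (1 + 1 / (n : ℝ)) * (μHE[2] (convexHull ℝ ({p, q, r} : Set E3))).toReal := by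
  have hn' : (0 : ℝ) < n := by exact_mod_cast hn
  have h1 : ∀ k : Fin n, (μHE[2] (par (p + ((k : ℝ) / n) • (q - p)) ((1 / (n : ℝ)) • (q - p))
        ((((k : ℝ) + 1) / n) • (r - q)))).toReal
      = ((k : ℝ) + 1) * (Real.sqrt (gram (q - p) (r - p)) / (n : ℝ) ^ 2) := by
    intro k
    rw [area_par]
    have e1 : (1 / (n : ℝ)) • (q - p) = (1 / (n : ℝ)) • (q - p) + (0 : ℝ) • (r - p) := by simp
    have e2 : (((k : ℝ) + 1) / n) • (r - q)
        = (-(((k : ℝ) + 1) / n)) • (q - p) + (((k : ℝ) + 1) / n) • (r - p) := by module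
    rw [e1, e2, gram_lincomb, Real.sqrt_mul (sq_nonneg _), Real.sqrt_sq_eq_abs, abs_of_nonneg]
    · field_simp
      ring
    · have : (0 : ℝ) ≤ ((k : ℝ) + 1) / n := by positivity
      have h2 : (0 : ℝ) ≤ 1 / (n : ℝ) := by positivity
      nlinarith
  rw [Finset.sum_congr rfl (fun k _ => h1 k), ← Finset.sum_mul, sum_fin_succ, area_tri]
  field_simp

end Crest.Agent.S0327
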