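import Mathlib
import Crest.Agent.S0327_Strips

/-!
# Row 211, package W5 (part B): parallelogram covers, reindexing, transport by similarities
-/

set_option autoImplicit false
open MeasureTheory Measure

namespace Crest.Agent.S0327

open Crest.Agent.S0324 Crest.Agent.S0324.OpenBase Crest.Agent.S0329

/-- `K` is covered by finitely many cylinders with parallelogram bases of total area `≤ A`. -/
def ParCover (K : Set E3) (A : ℝ) : Prop :=
  ∃ (k : ℕ) (u c a b : Fin k → E3), (∀ i, ‖u i‖ = 1) ∧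
    (∀ i, inner ℝ (c i) (u i) = 0 ∧ inner ℝ (a i) (u i) = 0 ∧ inner ℝ (b i) (u i) = 0) ∧
    K ⊆ ⋃ i, {x : E3 | ∃ s ∈ Set.Icc (0 : ℝ) 1, ∃ t ∈ Set.Icc (0 : ℝ) 1, ∃ τ : ℝ,
      x = c i + s • a i + t • b i + τ • u i} ∧
    ∑ i, (μHE[2] (par (c i) (a i) (b i))).toReal ≤ A

theorem ParCover.of_fintype {ι : Type} [Fintype ι] (K : Set E3) (A : ℝ) (u c a b : ι → E3)
    (h1 : ∀ i, ‖u i‖ = 1)
    (h2 : ∀ i, inner ℝ (c i) (u i) = 0 ∧ inner ℝ (a i) (u i) = 0 ∧ inner ℝ (b i) (u i) = 0)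
    (h3 : K ⊆ ⋃ i, {x : E3 | ∃ s ∈ Set.Icc (0 : ℝ) 1, ∃ t ∈ Set.Icc (0 : ℝ) 1, ∃ τ : ℝ,
      x = c i + s • a i + t • b i + τ • u i})
    (h4 : ∑ i, (μHE[2] (par (c i) (a i) (b i))).toReal ≤ A) : ParCover K A := by
  set e := (Fintype.equivFin ι).symm with he
  refine ⟨Fintype.card ι, u ∘ e, c ∘ e, a ∘ e, b ∘ e, fun i => h1 _, fun i => h2 _, ?_, ?_⟩
  · intro x hx
    obtain ⟨i, hi⟩ := Set.mem_iUnion.1 (h3 hx)
    exact Set.mem_iUnion.2 ⟨e.symm i, by simpa using hi⟩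
  · exact (Equiv.sum_comp e (fun i => (μHE[2] (par (c i) (a i) (b i))).toReal)).le.trans h4

theorem parCover_of_tri (K : Set E3) (m : ℕ) (u p q r : Fin m → E3) (hu : ∀ i, ‖u i‖ = 1)
    (hperp : ∀ i, inner ℝ (p i) (u i) = 0 ∧ inner ℝ (q i) (u i) = 0 ∧ inner ℝ (r i) (u i) = 0)
    (hcov : K ⊆ ⋃ i, {x : E3 | ∃ b ∈ convexHull ℝ {p i, q i, r i}, ∃ t : ℝ, x = b + t • u i})
    (n : ℕ) (hn : 0 < n) :
    ParCover K ((1 + 1 / (n : ℝ)) *
      ∑ i, (μHE[2] (convexHull ℝ ({p i, q i, r i} : Set E3))).toReal) := by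
  refine ParCover.of_fintype (ι := Fin m × Fin n) K _ (fun j => u j.1)
    (fun j => p j.1 + ((j.2 : ℝ) / n) • (q j.1 - p j.1))
    (fun j => (1 / (n : ℝ)) • (q j.1 - p j.1))
    (fun j => (((j.2 : ℝ) + 1) / n) • (r j.1 - q j.1)) (fun j => hu j.1) ?_ ?_ ?_
  · intro j
    obtain ⟨h1, h2, h3⟩ := hperp j.1
    simp [inner_add_left, inner_sub_left, inner_smul_left, h1, h2, h3]
  · intro x hx
    obtain ⟨i, y, hy, t, rfl⟩ := Set.mem_iUnion.1 (hcov hx)
    obtain ⟨k, s₁, hs₁, t₁, ht₁, rfl⟩ := Set.mem_iUnion.1 (tri_subset_strips (p i) (q i) (r i) n hn hy)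
    exact Set.mem_iUnion.2 ⟨(i, k), s₁, hs₁, t₁, ht₁, t, rfl⟩
  · rw [Fintype.sum_prod_type, Finset.mul_sum]
    exact (Finset.sum_congr rfl fun i _ => area_strips (p i) (q i) (r i) n hn).le

theorem gram_similarity (U : E3 ≃ₗᵢ[ℝ] E3) (s : ℝ) (a b : E3) :
    gram (s • U a) (s • U b) = (s ^ 2) ^ 2 * gram a b := by
  simp only [gram, norm_smul, LinearIsometryEquiv.norm_map, inner_smul_left, inner_smul_right,
    LinearIsometryEquiv.inner_map_map, Real.norm_eq_abs, mul_pow, sq_abs]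
  simp
  ring

theorem ParCover.similarity {K : Set E3} {A : ℝ} (h : ParCover K A) (U : E3 ≃ₗᵢ[ℝ] E3) (s : ℝ)
    (hs : 0 < s) (x₀ : E3) : ParCover ((fun x => x₀ + s • U x) '' K) (s ^ 2 * A) := by
  obtain ⟨k, u, c, a, b, h1, h2, h3, h4⟩ := h
  have hne : ∀ i, U (u i) ≠ 0 := by
    intro i h0
    have := h1 i
    rw [← LinearIsometryEquiv.norm_map U, h0, norm_zero] at this
    exact zero_ne_one this
  refine ⟨k, fun i => U (u i), fun i => proj (U (u i)) x₀ + s • U (c i), fun i => s • U (a i),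
    fun i => s • U (b i), fun i => by simp [h1 i], ?_, ?_, ?_⟩
  · intro i
    obtain ⟨g1, g2, g3⟩ := h2 i
    simp [inner_add_left, inner_smul_left, LinearIsometryEquiv.inner_map_map, g1, g2, g3,
      inner_proj_self _ _ (hne i)]
  · rintro _ ⟨x, hx, rfl⟩
    obtain ⟨i, s₁, hs₁, t₁, ht₁, τ, rfl⟩ := Set.mem_iUnion.1 (h3 hx)
    refine Set.mem_iUnion.2 ⟨i, s₁, hs₁, t₁, ht₁,
      s * τ + inner ℝ x₀ (U (u i)) / ‖U (u i)‖ ^ 2, ?_⟩
    simp only [proj, map_add, map_smul]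
    module
  · have : ∀ i, (μHE[2] (par (proj (U (u i)) x₀ + s • U (c i)) (s • U (a i))
        (s • U (b i)))).toReal = s ^ 2 * (μHE[2] (par (c i) (a i) (b i))).toReal := by
      intro i
      rw [area_par, area_par, gram_similarity, Real.sqrt_mul (sq_nonneg _),
        Real.sqrt_sq (sq_nonneg _)]
    rw [Finset.sum_congr rfl fun i _ => this i, ← Finset.mul_sum]
    gcongr

open scoped Pointwise in
theorem area_similarity (U : E3 ≃ₗᵢ[ℝ] E3) (s : ℝ) (hs : 0 < s) (y₀ : E3) (S : Set E3) :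
    μHE[2] ((fun x => y₀ + s • U x) '' S) = ENNReal.ofReal (s ^ 2) * μHE[2] S := by
  have e1 : (fun x => y₀ + s • U x) '' S = (fun z => y₀ +ᵥ z) '' (s • (U '' S)) := by
    ext z
    simp only [Set.mem_image, Set.mem_smul_set, vadd_eq_add]
    constructor
    · rintro ⟨x, hx, rfl⟩
      exact ⟨s • U x, ⟨U x, ⟨x, hx, rfl⟩, rfl⟩, rfl⟩
    · rintro ⟨_, ⟨_, ⟨x, hx, rfl⟩, rfl⟩, rfl⟩
      exact ⟨x, hx, rfl⟩
  rw [e1, (isometry_vadd E3 y₀).euclideanHausdorffMeasure_image,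
    euclideanHausdorffMeasure_smul₀ 2 hs.ne', U.isometry.euclideanHausdorffMeasure_image]
  rw [ENNReal.smul_def, smul_eq_mul]
  congr 1
  rw [ENNReal.coe_pow, ENNReal.ofReal_pow hs.le]
  congr 1
  rw [ENNReal.ofReal, Real.toNNReal_of_nonneg hs.le]
  congr 1
  ext
  simp [abs_of_pos hs]

theorem proj_image_similarity (U : E3 ≃ₗᵢ[ℝ] E3) (s : ℝ) (x₀ v : E3) (K₀ : Set E3) :
    (fun y => y - inner ℝ y v • v) '' ((fun x => x₀ + s • U x) '' K₀)
      = (fun x => (x₀ - inner ℝ x₀ v • v) + s • U x) ''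
        ((fun y => y - inner ℝ y (U.symm v) • U.symm v) '' K₀) := by
  rw [Set.image_image, Set.image_image]
  apply Set.image_congr
  intro x _
  have : inner ℝ x (U.symm v) = inner ℝ (U x) v := (U.inner_map_eq_flip x v).symm
  simp only [this, map_sub, map_smul, LinearIsometryEquiv.apply_symm_apply, inner_add_left,
    inner_smul_left]
  simp
  module

end Crest.Agent.S0327
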