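import Mathlib
import Crest.Agent.S0324_Area

/-!
# Row 211, package W5 (part C): every regular tetrahedron is similar to the standard one
-/

set_option autoImplicit false
open MeasureTheory Measure

namespace Crest.Agent.S0327

open Crest.Agent.S0324

/-- the linear map sending `k₁-k₀, k₂-k₀, k₃-k₀` to `g₁, g₂, g₃` -/
noncomputable def Tmap (g₁ g₂ g₃ : E3) : E3 →ₗ[ℝ] E3 where
  toFun x := (-(x 0 + x 2 * (Real.sqrt 2 / 2)) / 2) • g₁ + ((x 2 * (Real.sqrt 2 / 2) + x 1) / 2) • g₂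
    + ((x 2 * (Real.sqrt 2 / 2) - x 1) / 2) • g₃
  map_add' x y := by
    simp only [PiLp.add_apply]
    module
  map_smul' c x := by
    simp only [PiLp.smul_apply, smul_eq_mul, RingHom.id_apply]
    module

theorem Tmap_apply (g₁ g₂ g₃ x : E3) : Tmap g₁ g₂ g₃ x =
    (-(x 0 + x 2 * (Real.sqrt 2 / 2)) / 2) • g₁ + ((x 2 * (Real.sqrt 2 / 2) + x 1) / 2) • g₂
    + ((x 2 * (Real.sqrt 2 / 2) - x 1) / 2) • g₃ := rfl

theorem Tmap_norm (g₁ g₂ g₃ : E3) (h11 : inner ℝ g₁ g₁ = 4) (h22 : inner ℝ g₂ g₂ = 4)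
    (h33 : inner ℝ g₃ g₃ = 4) (h12 : inner ℝ g₁ g₂ = 2) (h13 : inner ℝ g₁ g₃ = 2)
    (h23 : inner ℝ g₂ g₃ = 2) (x : E3) : ‖Tmap g₁ g₂ g₃ x‖ = ‖x‖ := by
  have h21 : inner ℝ g₂ g₁ = 2 := by rw [real_inner_comm, h12]
  have h31 : inner ℝ g₃ g₁ = 2 := by rw [real_inner_comm, h13]
  have h32 : inner ℝ g₃ g₂ = 2 := by rw [real_inner_comm, h23]
  have hr : Real.sqrt 2 * Real.sqrt 2 = 2 := Real.mul_self_sqrt (by norm_num)
  have h1 : ‖Tmap g₁ g₂ g₃ x‖ ^ 2 = ‖x‖ ^ 2 := by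
    rw [← real_inner_self_eq_norm_sq, Tmap_apply]
    simp only [inner_add_left, inner_add_right, inner_smul_left, inner_smul_right, h11, h22, h33,
      h12, h13, h23, h21, h31, h32]
    have : ‖x‖ ^ 2 = x 0 ^ 2 + x 1 ^ 2 + x 2 ^ 2 := by
      simp [EuclideanSpace.norm_sq_eq, Fin.sum_univ_three]
    rw [this]
    simp only [conj_trivial]
    linear_combination (x 2 ^ 2 / 2) * hr
  exact (sq_eq_sq₀ (norm_nonneg _) (norm_nonneg _)).1 h1

theorem inner_of_dist (ℓ : ℝ) (p q o : E3) (h1 : dist p o = ℓ) (h2 : dist q o = ℓ)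
    (h3 : dist p q = ℓ) : inner ℝ (p - o) (q - o) = ℓ ^ 2 / 2 := by
  rw [real_inner_eq_norm_mul_self_add_norm_mul_self_sub_norm_sub_mul_self_div_two,
    sub_sub_sub_cancel_right, ← dist_eq_norm, ← dist_eq_norm, ← dist_eq_norm, h1, h2, h3]
  ring

theorem inner_self_of_dist (ℓ : ℝ) (p o : E3) (h1 : dist p o = ℓ) :
    inner ℝ (p - o) (p - o) = ℓ ^ 2 := by
  rw [real_inner_self_eq_norm_sq, ← dist_eq_norm, h1]

/-- Every regular tetrahedron is the image of the standard one under a similarity. -/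
theorem exists_similarity (w : Fin 4 → E3) (ℓ : ℝ) (hℓ : 0 < ℓ)
    (hw : ∀ i j, i ≠ j → dist (w i) (w j) = ℓ) :
    ∃ (U : E3 ≃ₗᵢ[ℝ] E3) (x₀ : E3),
      w 0 = x₀ + (ℓ / 2) • U !₂[1, 0, 0] ∧ w 1 = x₀ + (ℓ / 2) • U !₂[-1, 0, 0] ∧
      w 2 = x₀ + (ℓ / 2) • U !₂[0, 1, Real.sqrt 2] ∧
      w 3 = x₀ + (ℓ / 2) • U !₂[0, -1, Real.sqrt 2] := by
  set g₁ : E3 := (2 / ℓ) • (w 1 - w 0) with hg₁
  set g₂ : E3 := (2 / ℓ) • (w 2 - w 0) with hg₂
  set g₃ : E3 := (2 / ℓ) • (w 3 - w 0) with hg₃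
  have hr : Real.sqrt 2 * Real.sqrt 2 = 2 := Real.mul_self_sqrt (by norm_num)
  have h11 : inner ℝ g₁ g₁ = 4 := by
    simp only [hg₁, inner_smul_left, inner_smul_right, conj_trivial,
      inner_self_of_dist ℓ _ _ (hw 1 0 (by decide))]
    field_simp; norm_num
  have h22 : inner ℝ g₂ g₂ = 4 := by
    simp only [hg₂, inner_smul_left, inner_smul_right, conj_trivial,
      inner_self_of_dist ℓ _ _ (hw 2 0 (by decide))]
    field_simp; norm_num
  have h33 : inner ℝ g₃ g₃ = 4 := by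
    simp only [hg₃, inner_smul_left, inner_smul_right, conj_trivial,
      inner_self_of_dist ℓ _ _ (hw 3 0 (by decide))]
    field_simp; norm_num
  have h12 : inner ℝ g₁ g₂ = 2 := by
    simp only [hg₁, hg₂, inner_smul_left, inner_smul_right, conj_trivial,
      inner_of_dist ℓ _ _ _ (hw 1 0 (by decide)) (hw 2 0 (by decide)) (hw 1 2 (by decide))]
    field_simp
  have h13 : inner ℝ g₁ g₃ = 2 := by
    simp only [hg₁, hg₃, inner_smul_left, inner_smul_right, conj_trivial,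
      inner_of_dist ℓ _ _ _ (hw 1 0 (by decide)) (hw 3 0 (by decide)) (hw 1 3 (by decide))]
    field_simp
  have h23 : inner ℝ g₂ g₃ = 2 := by
    simp only [hg₂, hg₃, inner_smul_left, inner_smul_right, conj_trivial,
      inner_of_dist ℓ _ _ _ (hw 2 0 (by decide)) (hw 3 0 (by decide)) (hw 2 3 (by decide))]
    field_simp
  let li : E3 →ₗᵢ[ℝ] E3 := ⟨Tmap g₁ g₂ g₃, Tmap_norm g₁ g₂ g₃ h11 h22 h33 h12 h13 h23⟩
  let U : E3 ≃ₗᵢ[ℝ] E3 := li.toLinearIsometryEquiv rfl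
  have hU : ∀ x, U x = Tmap g₁ g₂ g₃ x := fun x => rfl
  have hr2 : Real.sqrt 2 * (Real.sqrt 2 / 2) = 1 := by linarith
  refine ⟨U, w 0 - (ℓ / 2) • U !₂[1, 0, 0], by simp, ?_, ?_, ?_⟩
  · simp only [hU, Tmap_apply, hg₁, hg₂, hg₃]
    simp only [Matrix.cons_val_zero, Matrix.cons_val_one, Matrix.cons_val]
    match_scalars <;> field_simp <;> ring
  · simp only [hU, Tmap_apply, hg₁, hg₂, hg₃]
    simp only [Matrix.cons_val_zero, Matrix.cons_val_one, Matrix.cons_val, hr2]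
    match_scalars <;> field_simp <;> ring
  · simp only [hU, Tmap_apply, hg₁, hg₂, hg₃]
    simp only [Matrix.cons_val_zero, Matrix.cons_val_one, Matrix.cons_val, hr2]
    match_scalars <;> field_simp <;> ring

end Crest.Agent.S0327
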