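import Mathlib
import Crest.Agent.S0327_Cover
import Crest.Agent.S0327_Sim

/-!
# Row 211, package W5 (part D): S0327 from S0325
-/

set_option autoImplicit false
open MeasureTheory Measure

namespace Crest.Agent.S0327

open Crest.Agent.S0324 Crest.Agent.S0324.OpenBase Crest.Agent.S0329

theorem ParCover.mono {K : Set E3} {A A' : ℝ} (h : ParCover K A) (hA : A ≤ A') : ParCover K A' := by
  obtain ⟨k, u, c, a, b, h1, h2, h3, h4⟩ := h
  exact ⟨k, u, c, a, b, h1, h2, h3, h4.trans hA⟩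

/-- the similarity as an affine map -/
noncomputable def simAff (U : E3 ≃ₗᵢ[ℝ] E3) (s : ℝ) (x₀ : E3) : E3 →ᵃ[ℝ] E3 where
  toFun x := x₀ + s • U x
  linear := s • (U.toLinearEquiv : E3 →ₗ[ℝ] E3)
  map_vadd' p v := by
    simp only [vadd_eq_add, map_add, smul_add, LinearMap.smul_apply, LinearEquiv.coe_coe,
      LinearIsometryEquiv.coe_toLinearEquiv]
    abel

theorem image_convexHull_sim (U : E3 ≃ₗᵢ[ℝ] E3) (s : ℝ) (x₀ : E3) (S : Set E3) :
    (fun x => x₀ + s • U x) '' convexHull ℝ S = convexHull ℝ ((fun x => x₀ + s • U x) '' S) :=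
  (simAff U s x₀).image_convexHull S

theorem range_eq (w : Fin 4 → E3) : Set.range w = {w 0, w 1, w 2, w 3} := by
  ext x
  simp only [Set.mem_range, Set.mem_insert_iff, Set.mem_singleton_iff]
  constructor
  · rintro ⟨i, rfl⟩
    fin_cases i <;> simp
  · rintro (rfl | rfl | rfl | rfl) <;> exact ⟨_, rfl⟩

theorem sum_ratio_lt {k : ℕ} (x P : Fin k → ℝ) (T P₀ : ℝ) (hx : ∀ i, 0 ≤ x i) (hP₀ : 0 < P₀)
    (hP : ∀ i, P₀ ≤ P i) (hT : ∑ i, x i ≤ T) (hTP : T < P₀ / 2) : ∑ i, x i / P i < 1 / 2 := by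
  calc ∑ i, x i / P i ≤ ∑ i, x i / P₀ :=
        Finset.sum_le_sum fun i _ => div_le_div_of_nonneg_left (hx i) hP₀ (hP i)
    _ = (∑ i, x i) / P₀ := by rw [Finset.sum_div]
    _ ≤ T / P₀ := by gcongr
    _ < 1 / 2 := by
        rw [div_lt_iff₀ hP₀]; linarith

theorem proj_perp (v y : E3) (hv : ‖v‖ = 1) : inner ℝ (y - inner ℝ y v • v) v = 0 := by
  rw [inner_sub_left, inner_smul_left, real_inner_self_eq_norm_sq, hv]
  simp

theorem main
    (h325 : ((∀ v : EuclideanSpace ℝ (Fin 3), ‖v‖ = 1 →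
        ENNReal.ofReal (Real.sqrt 2) ≤ μHE[2] ((fun y => y - inner ℝ y v • v) '' convexHull ℝ {!₂[1, 0, 0], !₂[-1, 0, 0], !₂[0, 1, Real.sqrt 2], !₂[0, -1, Real.sqrt 2]})) ∧
      ∃ v : EuclideanSpace ℝ (Fin 3), ‖v‖ = 1 ∧
        μHE[2] ((fun y => y - inner ℝ y v • v) '' convexHull ℝ {!₂[1, 0, 0], !₂[-1, 0, 0], !₂[0, 1, Real.sqrt 2], !₂[0, -1, Real.sqrt 2]}) = ENNReal.ofReal (Real.sqrt 2)) ∧
    ∀ ε : ℝ, 0 < ε → ε ≤ 1 / 2000 →
      ∃ (u p q r : Fin (2 * ⌈2 / ε ^ 2⌉₊) → EuclideanSpace ℝ (Fin 3)),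
        (∀ i, ‖u i‖ = 1) ∧
        (∀ i, inner ℝ (p i) (u i) = 0 ∧ inner ℝ (q i) (u i) = 0 ∧ inner ℝ (r i) (u i) = 0) ∧
        convexHull ℝ {!₂[1, 0, 0], !₂[-1, 0, 0], !₂[0, 1, Real.sqrt 2], !₂[0, -1, Real.sqrt 2]} ⊆
          ⋃ i, {x : EuclideanSpace ℝ (Fin 3) | ∃ b ∈ convexHull ℝ {p i, q i, r i}, ∃ t : ℝ, x = b + t • u i} ∧
        abs ((∑ i, (μHE[2] (convexHull ℝ ({p i, q i, r i} : Set (EuclideanSpace ℝ (Fin 3))))).toReal) / Real.sqrt 2 -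
            (1 / 2 - 13 / 6000 * ε ^ 2)) ≤ 2 * ε ^ 4)
    (w : Fin 4 → EuclideanSpace ℝ (Fin 3)) (ℓ : ℝ) (hℓ : 0 < ℓ)
    (hw : ∀ i j, i ≠ j → dist (w i) (w j) = ℓ) :
    (∃ (k : ℕ) (u c a b : Fin k → EuclideanSpace ℝ (Fin 3)),
      (∀ i, ‖u i‖ = 1) ∧
      (∀ i, inner ℝ (c i) (u i) = 0 ∧ inner ℝ (a i) (u i) = 0 ∧ inner ℝ (b i) (u i) = 0) ∧
      convexHull ℝ (Set.range w) ⊆ ⋃ i, {x : EuclideanSpace ℝ (Fin 3) |
        ∃ s ∈ Set.Icc (0 : ℝ) 1, ∃ t ∈ Set.Icc (0 : ℝ) 1, ∃ τ : ℝ, x = c i + s • a i + t • b i + τ • u i} ∧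
      (∃ δ : ℝ, 0 < δ ∧ ∀ v : EuclideanSpace ℝ (Fin 3), ‖v‖ = 1 →
        (∑ i, (μHE[2] {x : EuclideanSpace ℝ (Fin 3) |
            ∃ s ∈ Set.Icc (0 : ℝ) 1, ∃ t ∈ Set.Icc (0 : ℝ) 1, x = c i + s • a i + t • b i}).toReal) + δ ≤
          (μHE[2] ((fun y => y - inner ℝ y v • v) '' convexHull ℝ (Set.range w))).toReal / 2) ∧
      ∑ i, (μHE[2] {x : EuclideanSpace ℝ (Fin 3) |
            ∃ s ∈ Set.Icc (0 : ℝ) 1, ∃ t ∈ Set.Icc (0 : ℝ) 1, x = c i + s • a i + t • b i}).toReal /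
          (μHE[2] ((fun y => y - inner ℝ y (u i) • u i) '' convexHull ℝ (Set.range w))).toReal < 1 / 2) ∧
    (∃ (k : ℕ) (u : Fin k → EuclideanSpace ℝ (Fin 3)) (B : Fin k → Set (EuclideanSpace ℝ (Fin 3))),
      (∀ i, ‖u i‖ = 1) ∧
      (∀ i, Bornology.IsBounded (B i) ∧ ∃ O : Set (EuclideanSpace ℝ (Fin 3)), IsOpen O ∧
        B i = O ∩ {x | inner ℝ x (u i) = 0}) ∧
      convexHull ℝ (Set.range w) ⊆
        ⋃ i, {x : EuclideanSpace ℝ (Fin 3) | ∃ y ∈ B i, ∃ τ : ℝ, x = y + τ • u i} ∧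
      (∃ δ : ℝ, 0 < δ ∧ ∀ v : EuclideanSpace ℝ (Fin 3), ‖v‖ = 1 →
        (∑ i, (μHE[2] (B i)).toReal) + δ ≤
          (μHE[2] ((fun y => y - inner ℝ y v • v) '' convexHull ℝ (Set.range w))).toReal / 2) ∧
      ∑ i, (μHE[2] (B i)).toReal /
          (μHE[2] ((fun y => y - inner ℝ y (u i) • u i) '' convexHull ℝ (Set.range w))).toReal < 1 / 2) := by
  obtain ⟨⟨hmin, -⟩, hcov⟩ := h325
  set K₀ : Set E3 := convexHull ℝ {!₂[1, 0, 0], !₂[-1, 0, 0], !₂[0, 1, Real.sqrt 2],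
    !₂[0, -1, Real.sqrt 2]} with hK₀
  have hs2 : 0 < Real.sqrt 2 := by positivity
  -- step 1, 2 : a parallelogram cover of the standard tetrahedron
  have hpar₀ : ParCover K₀ (Real.sqrt 2 * (1 / 2 - 1 / 10 ^ 10)) := by
    obtain ⟨u, p, q, r, h1, h2, h3, h4⟩ := hcov (1 / 2000) (by norm_num) le_rfl
    have h5 := parCover_of_tri K₀ _ u p q r h1 h2 h3 2000000000 (by norm_num)
    refine h5.mono ?_
    set A₀ := ∑ i, (μHE[2] (convexHull ℝ ({p i, q i, r i} : Set E3))).toReal with hA₀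
    have h6 := (abs_le.1 h4).2
    have h7 : A₀ / Real.sqrt 2 ≤ 1 / 2 - 13 / 6000 * (1 / 2000) ^ 2 + 2 * (1 / 2000) ^ 4 := by
      linarith
    rw [div_le_iff₀ hs2] at h7
    have h8 : (1 + 1 / ((2000000000 : ℕ) : ℝ)) * A₀ ≤ (1 + 1 / ((2000000000 : ℕ) : ℝ)) *
        ((1 / 2 - 13 / 6000 * (1 / 2000) ^ 2 + 2 * (1 / 2000) ^ 4) * Real.sqrt 2) := by
      gcongr
    refine h8.trans ?_
    have : (1 + 1 / ((2000000000 : ℕ) : ℝ)) * (1 / 2 - 13 / 6000 * (1 / 2000) ^ 2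
        + 2 * (1 / 2000) ^ 4) ≤ 1 / 2 - 1 / 10 ^ 10 := by norm_num
    nlinarith
  -- step 3 : transport
  obtain ⟨U, x₀, hw0, hw1, hw2, hw3⟩ := exists_similarity w ℓ hℓ hw
  set s : ℝ := ℓ / 2 with hs
  have hspos : 0 < s := by positivity
  have hK : convexHull ℝ (Set.range w) = (fun x => x₀ + s • U x) '' K₀ := by
    rw [hK₀, image_convexHull_sim, range_eq, hw0, hw1, hw2, hw3]
    simp only [Set.image_insert_eq, Set.image_singleton]
  set K : Set E3 := convexHull ℝ (Set.range w) with hKdef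
  have hpar : ParCover K (s ^ 2 * (Real.sqrt 2 * (1 / 2 - 1 / 10 ^ 10))) := by
    rw [hK]; exact hpar₀.similarity U s hspos x₀
  -- step 4 : projections
  have hKcomp : IsCompact K := (Set.finite_range w).isCompact_convexHull (𝕜 := ℝ)
  have hproj : ∀ v : E3, ‖v‖ = 1 →
      s ^ 2 * Real.sqrt 2 ≤ (μHE[2] ((fun y => y - inner ℝ y v • v) '' K)).toReal := by
    intro v hv
    have hvne : v ≠ 0 := by
      intro h0; rw [h0, norm_zero] at hv; exact zero_ne_one hv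
    have hfin : μHE[2] ((fun y => y - inner ℝ y v • v) '' K) < ⊤ := by
      apply area_lt_top v hvne
      · rintro _ ⟨y, -, rfl⟩
        exact proj_perp v y hv
      · exact (hKcomp.image (by fun_prop)).isBounded
    rw [← ENNReal.ofReal_le_iff_le_toReal hfin.ne, hK, proj_image_similarity, area_similarity U s hspos,
      ENNReal.ofReal_mul (sq_nonneg _)]
    gcongr
    exact hmin (U.symm v) (by simpa using hv)
  obtain ⟨k, u, c, a, b, h1, h2, h3, h4⟩ := hpar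
  set δ : ℝ := s ^ 2 * Real.sqrt 2 / 10 ^ 10 with hδ
  have hδpos : 0 < δ := by positivity
  have hT : s ^ 2 * (Real.sqrt 2 * (1 / 2 - 1 / 10 ^ 10)) = s ^ 2 * Real.sqrt 2 / 2 - δ := by
    rw [hδ]; ring
  rw [hT] at h4
  have hP₀ : 0 < s ^ 2 * Real.sqrt 2 := by positivity
  refine ⟨⟨k, u, c, a, b, h1, h2, h3, ⟨δ, hδpos, ?_⟩, ?_⟩, ?_⟩
  · intro v hv
    have := hproj v hv
    change (∑ i, (μHE[2] (par (c i) (a i) (b i))).toReal) + δ ≤ _
    linarith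
  · change ∑ i, (μHE[2] (par (c i) (a i) (b i))).toReal / _ < 1 / 2
    exact sum_ratio_lt _ _ _ _ (fun i => ENNReal.toReal_nonneg) hP₀ (fun i => hproj (u i) (h1 i)) h4
      (by linarith)
  · set η : ℝ := δ / (2 * (k + 1)) with hη
    have hηpos : 0 < η := by positivity
    have hune : ∀ i, u i ≠ 0 := fun i h0 => by
      have := h1 i
      rw [h0, norm_zero] at this
      exact zero_ne_one this
    choose O hOo hObd hOsub hOarea using fun i =>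
      exists_open_base (u i) (hune i) (par (c i) (a i) (b i))
        (par_perp (u i) _ _ _ (h2 i).1 (h2 i).2.1 (h2 i).2.2) (par_bounded _ _ _) η hηpos
    have hsum : ∑ i, (μHE[2] (O i ∩ {x | inner ℝ x (u i) = 0})).toReal
        ≤ s ^ 2 * Real.sqrt 2 / 2 - δ / 2 := by
      calc ∑ i, (μHE[2] (O i ∩ {x | inner ℝ x (u i) = 0})).toReal
          ≤ ∑ i, ((μHE[2] (par (c i) (a i) (b i))).toReal + η) :=
            Finset.sum_le_sum fun i _ => hOarea i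
        _ = ∑ i, (μHE[2] (par (c i) (a i) (b i))).toReal + k * η := by
            rw [Finset.sum_add_distrib]; simp
        _ ≤ s ^ 2 * Real.sqrt 2 / 2 - δ + δ / 2 := by
            have h2 : (k : ℝ) * η ≤ δ / 2 := by
              rw [hη, mul_div_assoc', div_le_div_iff₀ (by positivity) (by norm_num)]
              nlinarith
            linarith
        _ = s ^ 2 * Real.sqrt 2 / 2 - δ / 2 := by ring
    refine ⟨k, u, fun i => O i ∩ {x | inner ℝ x (u i) = 0}, h1,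
      fun i => ⟨hObd i, O i, hOo i, rfl⟩, ?_, ⟨δ / 2, by positivity, ?_⟩, ?_⟩
    · intro x hx
      obtain ⟨i, s₁, hs₁, t₁, ht₁, τ, rfl⟩ := Set.mem_iUnion.1 (h3 hx)
      exact Set.mem_iUnion.2 ⟨i, _, hOsub i ⟨s₁, hs₁, t₁, ht₁, rfl⟩, τ, rfl⟩
    · intro v hv
      have := hproj v hv
      linarith
    · exact sum_ratio_lt _ _ _ _ (fun i => ENNReal.toReal_nonneg) hP₀
        (fun i => hproj (u i) (h1 i)) hsum (by linarith)

end Crest.Agent.S0327
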