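import Crest.Statements.S0328
import Crest.Agent.S0324_Sector

set_option autoImplicit false
open MeasureTheory
open scoped ENNReal
open Crest Crest.GeometryTopology Crest.GeometryTopology.Convex
open Crest.Agent.S0324 Crest.Agent.S0324.Sector

namespace Crest.Agent.S0328

/-- Unit e; a, b, p₀ ∈ e^⊥, a, b independent; α < β; L > 0; R ≥ 0, λ both continuous on [α, β]; w(t) ∈ e^⊥, w′ = λ(t)(a + tb). S = {p₀ + ρ(a + t b) + s(e + w t) : α ≤ t ≤ β, 0 ≤ ρ ≤ R t, ‖s‖ ≤ L}; A = κ ∫_α^β R²/(2√(1 + ‖w‖²)), κ = area spanned by a, b. For η > 0 a δ > 0 makes each partition t₀ < … < t_N of [α, β] of mesh ≤ δ, tags cᵢ, admit N cylinders (axes e + w(cᵢ), nondegenerate triangle bases) covering S, total area within η of A; same for S's pieces tᵢ ≤ t ≤ tᵢ₊₁ projected along these axes. -/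
theorem result
    (e a b p₀ : EuclideanSpace ℝ (Fin 3)) (he : ‖e‖ = 1)
    (ha : inner ℝ a e = 0) (hb : inner ℝ b e = 0) (hp₀ : inner ℝ p₀ e = 0)
    (hab : LinearIndependent ℝ ![a, b]) (L : ℝ) (hL : 0 < L) (α β : ℝ) (hαβ : α < β)
    (R : ℝ → ℝ) (hR : ContinuousOn R (Set.Icc α β)) (hR0 : ∀ t ∈ Set.Icc α β, 0 ≤ R t)
    (w : ℝ → EuclideanSpace ℝ (Fin 3)) (hw : ∀ t ∈ Set.Icc α β, inner ℝ (w t) e = 0)
    (lam : ℝ → ℝ) (hlam : ContinuousOn lam (Set.Icc α β))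
    (hw' : ∀ t ∈ Set.Icc α β, HasDerivWithinAt w (lam t • (a + t • b)) (Set.Icc α β) t)
    (η : ℝ) (hη : 0 < η) :
    ∃ δ : ℝ, 0 < δ ∧ ∀ (N : ℕ) (t : Fin (N + 1) → ℝ) (c : Fin N → ℝ),
      StrictMono t → t 0 = α → t (Fin.last N) = β →
      (∀ i : Fin N, t i.succ - t i.castSucc ≤ δ) →
      (∀ i : Fin N, t i.castSucc ≤ c i ∧ c i ≤ t i.succ) →
      (∃ (p q r : Fin N → EuclideanSpace ℝ (Fin 3)),
        (∀ i, inner ℝ (p i) (e + w (c i)) = 0 ∧ inner ℝ (q i) (e + w (c i)) = 0 ∧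
          inner ℝ (r i) (e + w (c i)) = 0) ∧
        (∀ i, AffineIndependent ℝ ![p i, q i, r i]) ∧
        {x : EuclideanSpace ℝ (Fin 3) | ∃ τ ∈ Set.Icc α β, ∃ ρ ∈ Set.Icc 0 (R τ), ∃ s : ℝ, abs s ≤ L ∧
            x = p₀ + ρ • (a + τ • b) + s • (e + w τ)} ⊆
          ⋃ i, {x : EuclideanSpace ℝ (Fin 3) | ∃ y ∈ convexHull ℝ {p i, q i, r i}, ∃ σ : ℝ,
            x = y + σ • (e + w (c i))} ∧
        abs ((∑ i, (μHE[2] (convexHull ℝ ({p i, q i, r i} : Set (EuclideanSpace ℝ (Fin 3))))).toReal) -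
            Real.sqrt (‖a‖ ^ 2 * ‖b‖ ^ 2 - inner ℝ a b ^ 2) *
              ∫ τ in α..β, R τ ^ 2 / (2 * Real.sqrt (1 + ‖w τ‖ ^ 2))) ≤ η) ∧
      abs ((∑ i : Fin N, (μHE[2] ((fun y => y - (inner ℝ y (e + w (c i)) / ‖e + w (c i)‖ ^ 2) • (e + w (c i))) ''
            {x : EuclideanSpace ℝ (Fin 3) | ∃ τ ∈ Set.Icc (t i.castSucc) (t i.succ), ∃ ρ ∈ Set.Icc 0 (R τ),
              ∃ s : ℝ, abs s ≤ L ∧ x = p₀ + ρ • (a + τ • b) + s • (e + w τ)})).toReal) -
          Real.sqrt (‖a‖ ^ 2 * ‖b‖ ^ 2 - inner ℝ a b ^ 2) *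
            ∫ τ in α..β, R τ ^ 2 / (2 * Real.sqrt (1 + ‖w τ‖ ^ 2))) ≤ η := by
  classical
  have hwcont : ContinuousOn w (Set.Icc α β) := fun t ht => (hw' t ht).continuousWithinAt
  obtain ⟨C, hC⟩ := isCompact_Icc.exists_bound_of_continuousOn hlam
  set Lam : ℝ := |C| + 1 with hLamdef
  have hLam : 0 < Lam := by positivity
  have hLamb : ∀ t ∈ Set.Icc α β, |lam t| ≤ Lam := by
    intro t ht
    have := hC t ht
    rw [Real.norm_eq_abs] at this
    have h2 := le_abs_self C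
    rw [hLamdef]; linarith
  have hκeq : Real.sqrt (‖a‖ ^ 2 * ‖b‖ ^ 2 - inner ℝ a b ^ 2) = Real.sqrt (gram a b) := rfl
  rw [hκeq]
  set κ : ℝ := Real.sqrt (gram a b) with hκ
  have hκ0 : 0 ≤ κ := Real.sqrt_nonneg _
  set f : ℝ → ℝ := fun τ => R τ ^ 2 / (2 * Real.sqrt (1 + ‖w τ‖ ^ 2)) with hf
  have hβα : 0 < β - α := sub_pos.2 hαβ
  set ε : ℝ := η / ((κ + 1) * (β - α)) with hεdef
  have hε : 0 < ε := by positivity
  have hεη : κ * (ε * (β - α)) ≤ η := by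
    have h1 : ε * (β - α) = η / (κ + 1) := by
      rw [hεdef]; field_simp
    rw [h1, ← mul_div_assoc, div_le_iff₀ (by positivity)]
    nlinarith
  obtain ⟨δ, hδ, hδP⟩ := exists_delta α β R w hR hwcont (5 * L * Lam) ε hε
  refine ⟨δ, hδ, ?_⟩
  intro N t c hmono ht0 htN hmesh hc
  have hmem : ∀ j, t j ∈ Set.Icc α β := fun j =>
    ⟨ht0 ▸ hmono.monotone (Fin.zero_le j), htN ▸ hmono.monotone (Fin.le_last j)⟩
  have hlt : ∀ i : Fin N, t i.castSucc < t i.succ := fun i => hmono Fin.castSucc_lt_succ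
  have hcell : ∀ i : Fin N, Set.Icc (t i.castSucc) (t i.succ) ⊆ Set.Icc α β := fun i x hx =>
    ⟨(hmem _).1.trans hx.1, hx.2.trans (hmem _).2⟩
  have hmax : ∀ i : Fin N, ∃ x ∈ Set.Icc (t i.castSucc) (t i.succ),
      ∀ τ ∈ Set.Icc (t i.castSucc) (t i.succ), R τ ≤ R x := by
    intro i
    obtain ⟨x, hx, hx'⟩ := isCompact_Icc.exists_isMaxOn (Set.nonempty_Icc.2 (hlt i).le)
      (hR.mono (hcell i))
    exact ⟨x, hx, fun τ hτ => hx' hτ⟩
  have hmin : ∀ i : Fin N, ∃ x ∈ Set.Icc (t i.castSucc) (t i.succ),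
      ∀ τ ∈ Set.Icc (t i.castSucc) (t i.succ), R x ≤ R τ := by
    intro i
    obtain ⟨x, hx, hx'⟩ := isCompact_Icc.exists_isMinOn (Set.nonempty_Icc.2 (hlt i).le)
      (hR.mono (hcell i))
    exact ⟨x, hx, fun τ hτ => hx' hτ⟩
  choose xM hxM hxM' using hmax
  choose xm hxm hxm' using hmin
  have hout := fun i : Fin N => sector_outer e a b p₀ he ha hb hab L hL α β w hw lam hlam hw' Lam
    hLam hLamb (t i.castSucc) (t i.succ) (c i) (R (xM i)) (hmem _).1 (hlt i) (hmem _).2 (hc i)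
    (hR0 _ (hcell i (hxM i)))
  choose p q r hp hq hr haff hcont harea using hout
  have hin := fun i : Fin N => sector_inner e a b p₀ (w (c i)) he ha hb (hw _ (hcell i (hc i)))
    (t i.castSucc) (t i.succ) (R (xm i)) (hlt i).le (hR0 _ (hcell i (hxm i)))
  choose T hT hTarea using hin
  set vU : Fin N → ℝ := fun i =>
    (R (xM i) + 5 * L * Lam * (t i.succ - t i.castSucc)) ^ 2 / (2 * Real.sqrt (1 + ‖w (c i)‖ ^ 2))
    with hvU
  set vL : Fin N → ℝ := fun i => R (xm i) ^ 2 / (2 * Real.sqrt (1 + ‖w (c i)‖ ^ 2)) with hvL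
  have hfc : ContinuousOn f (Set.Icc (t 0) (t (Fin.last N))) := by
    rw [ht0, htN]
    apply ContinuousOn.div (hR.pow 2)
    · exact continuousOn_const.mul ((continuousOn_const.add (hwcont.norm.pow 2)).sqrt)
    · intro z _
      have : 0 < Real.sqrt (1 + ‖w z‖ ^ 2) := Real.sqrt_pos.2 (by positivity)
      positivity
  have habs : ∀ i : Fin N, ∀ x ∈ Set.Icc (t i.castSucc) (t i.succ),
      ∀ τ ∈ Set.Icc (t i.castSucc) (t i.succ), |x - τ| ≤ δ := by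
    intro i x hx τ hτ
    have := hmesh i
    rw [abs_le]; constructor <;> linarith [hx.1, hx.2, hτ.1, hτ.2]
  have hU := riemann_fin f N t hmono.monotone hfc vU ε (fun i τ hτ =>
    hδP (xM i) (hcell i (hxM i)) (c i) (hcell i (hc i)) τ (hcell i hτ) _
      (habs i _ (hxM i) τ hτ) (habs i _ (hc i) τ hτ) (sub_nonneg.2 (hlt i).le) (hmesh i))
  have hLo := riemann_fin f N t hmono.monotone hfc vL ε (fun i τ hτ => by
    have := hδP (xm i) (hcell i (hxm i)) (c i) (hcell i (hc i)) τ (hcell i hτ) 0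
      (habs i _ (hxm i) τ hτ) (habs i _ (hc i) τ hτ) (le_refl _) hδ.le
    simpa using this)
  rw [ht0, htN] at hU hLo
  have hsq : ∀ i : Fin N, 0 < Real.sqrt (1 + ‖w (c i)‖ ^ 2) := fun i =>
    Real.sqrt_pos.2 (by positivity)
  have hUval : ∀ i : Fin N, κ * ((t i.succ - t i.castSucc) / 2) *
      (R (xM i) + 5 * L * Lam * (t i.succ - t i.castSucc)) ^ 2 / Real.sqrt (1 + ‖w (c i)‖ ^ 2)
      = κ * ((t i.succ - t i.castSucc) * vU i) := by
    intro i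
    have := (hsq i).ne'
    simp only [hvU]
    field_simp
  have hLval : ∀ i : Fin N, κ * ((t i.succ - t i.castSucc) / 2) *
      R (xm i) ^ 2 / Real.sqrt (1 + ‖w (c i)‖ ^ 2)
      = κ * ((t i.succ - t i.castSucc) * vL i) := by
    intro i
    have := (hsq i).ne'
    simp only [hvL]
    field_simp
  have hvU0 : ∀ i : Fin N, 0 ≤ κ * ((t i.succ - t i.castSucc) * vU i) := by
    intro i
    have h1 := (hsq i).le
    have h2 : 0 ≤ t i.succ - t i.castSucc := sub_nonneg.2 (hlt i).le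
    simp only [hvU]
    positivity
  have hvL0 : ∀ i : Fin N, 0 ≤ κ * ((t i.succ - t i.castSucc) * vL i) := by
    intro i
    have h1 := (hsq i).le
    have h2 : 0 ≤ t i.succ - t i.castSucc := sub_nonneg.2 (hlt i).le
    simp only [hvL]
    positivity
  have hUsum : |κ * ∑ i : Fin N, (t i.succ - t i.castSucc) * vU i - κ * ∫ τ in α..β, f τ| ≤ η := by
    rw [← mul_sub, abs_mul, abs_of_nonneg hκ0]
    exact (mul_le_mul_of_nonneg_left hU hκ0).trans hεη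
  have hLsum : |κ * ∑ i : Fin N, (t i.succ - t i.castSucc) * vL i - κ * ∫ τ in α..β, f τ| ≤ η := by
    rw [← mul_sub, abs_mul, abs_of_nonneg hκ0]
    exact (mul_le_mul_of_nonneg_left hLo hκ0).trans hεη
  have hAreaU : ∀ i : Fin N, (μHE[2] (convexHull ℝ ({p i, q i, r i} :
      Set (EuclideanSpace ℝ (Fin 3))))).toReal = κ * ((t i.succ - t i.castSucc) * vU i) := by
    intro i
    rw [harea i, hUval i, ENNReal.toReal_ofReal (hvU0 i)]
  constructor
  · refine ⟨p, q, r, fun i => ⟨hp i, hq i, hr i⟩, haff, ?_, ?_⟩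
    · rintro x ⟨τ, hτ, ρ, hρ, s, hs, rfl⟩
      obtain ⟨i, hi⟩ := exists_cell N t (by rw [ht0, htN]; exact hαβ) τ (by rw [ht0, htN]; exact hτ)
      refine Set.mem_iUnion.2 ⟨i, _, hcont i τ hi ρ ⟨hρ.1, hρ.2.trans (hxM' i τ hi)⟩ s hs,
        inner ℝ (p₀ + ρ • (a + τ • b) + s • (e + w τ)) (e + w (c i)) / ‖e + w (c i)‖ ^ 2, ?_⟩
      simp [proj]
    · rw [Finset.sum_congr rfl (fun i _ => hAreaU i), ← Finset.mul_sum]
      exact hUsum
  · have hle1 : ∀ i : Fin N, κ * ((t i.succ - t i.castSucc) * vL i) ≤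
        (μHE[2] ((fun y => y - (inner ℝ y (e + w (c i)) / ‖e + w (c i)‖ ^ 2) • (e + w (c i))) ''
            {x : EuclideanSpace ℝ (Fin 3) | ∃ τ ∈ Set.Icc (t i.castSucc) (t i.succ),
              ∃ ρ ∈ Set.Icc 0 (R τ),
              ∃ s : ℝ, abs s ≤ L ∧ x = p₀ + ρ • (a + τ • b) + s • (e + w τ)})).toReal ∧
        (μHE[2] ((fun y => y - (inner ℝ y (e + w (c i)) / ‖e + w (c i)‖ ^ 2) • (e + w (c i))) ''
            {x : EuclideanSpace ℝ (Fin 3) | ∃ τ ∈ Set.Icc (t i.castSucc) (t i.succ),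
              ∃ ρ ∈ Set.Icc 0 (R τ),
              ∃ s : ℝ, abs s ≤ L ∧ x = p₀ + ρ • (a + τ • b) + s • (e + w τ)})).toReal ≤
          κ * ((t i.succ - t i.castSucc) * vU i) := by
      intro i
      have hsub1 : T i ⊆ ((fun y => y - (inner ℝ y (e + w (c i)) / ‖e + w (c i)‖ ^ 2) •
          (e + w (c i))) ''
            {x : EuclideanSpace ℝ (Fin 3) | ∃ τ ∈ Set.Icc (t i.castSucc) (t i.succ),
              ∃ ρ ∈ Set.Icc 0 (R τ),
              ∃ s : ℝ, abs s ≤ L ∧ x = p₀ + ρ • (a + τ • b) + s • (e + w τ)}) := by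
        intro y hy
        obtain ⟨τ, hτ, ρ, hρ, rfl⟩ := hT i y hy
        refine ⟨p₀ + ρ • (a + τ • b), ⟨τ, hτ, ρ, ⟨hρ.1, hρ.2.trans (hxm' i τ hτ)⟩, 0, ?_, ?_⟩, rfl⟩
        · simpa using hL.le
        · simp
      have hsub2 : ((fun y => y - (inner ℝ y (e + w (c i)) / ‖e + w (c i)‖ ^ 2) •
          (e + w (c i))) ''
            {x : EuclideanSpace ℝ (Fin 3) | ∃ τ ∈ Set.Icc (t i.castSucc) (t i.succ),
              ∃ ρ ∈ Set.Icc 0 (R τ),
              ∃ s : ℝ, abs s ≤ L ∧ x = p₀ + ρ • (a + τ • b) + s • (e + w τ)}) ⊆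
          convexHull ℝ ({p i, q i, r i} : Set (EuclideanSpace ℝ (Fin 3))) := by
        rintro _ ⟨x, ⟨τ, hτ, ρ, hρ, s, hs, rfl⟩, rfl⟩
        exact hcont i τ hτ ρ ⟨hρ.1, hρ.2.trans (hxM' i τ hτ)⟩ s hs
      have hfin : μHE[2] (convexHull ℝ ({p i, q i, r i} : Set (EuclideanSpace ℝ (Fin 3)))) ≠ ⊤ := by
        rw [harea i]; exact ENNReal.ofReal_ne_top
      constructor
      · have h1 := ENNReal.toReal_mono (ne_top_of_le_ne_top hfin (measure_mono hsub2))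
          (measure_mono hsub1 (μ := μHE[2]))
        rwa [hTarea i, hLval i, ENNReal.toReal_ofReal (hvL0 i)] at h1
      · have h1 := ENNReal.toReal_mono hfin (measure_mono hsub2 (μ := μHE[2]))
        rwa [hAreaU i] at h1
    have hs1 := Finset.sum_le_sum (fun i (_ : i ∈ Finset.univ) => (hle1 i).1)
    have hs2 := Finset.sum_le_sum (fun i (_ : i ∈ Finset.univ) => (hle1 i).2)
    rw [← Finset.mul_sum] at hs1 hs2
    rw [abs_le] at hUsum hLsum ⊢
    constructor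
    · linarith [hLsum.1]
    · linarith [hUsum.2]

end Crest.Agent.S0328
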