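import Mathlib
import Crest.Prelude.Def_TruncExpWeight

/-! Interface for S0423: one-dimensional averaging operators against the exponential law. -/

set_option autoImplicit false

namespace Crest.Agent.S0423

/-- `T b F u = E F(u + b X)` for `X` a mean-one exponential variable. -/
noncomputable def T (b : ℝ) (F : ℝ → ℝ) (u : ℝ) : ℝ :=
  ∫ x in Set.Ioi (0 : ℝ), F (u + b * x) * Real.exp (-x)

/-- Iterated averaging: `TL [b₁,…,b_k] F u = E F(u + b₁ X₁ + ⋯ + b_k X_k)`. -/
noncomputable def TL : List ℝ → (ℝ → ℝ) → (ℝ → ℝ)
  | [], F => F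
  | b :: l, F => T b (TL l F)

/-- realises the equation lemmas of `TL` in this module, so that no two later modules generate
their own copies -/
theorem TL_realize : (∀ F, TL [] F = F) ∧ (∀ b l F, TL (b :: l) F = T b (TL l F)) ∧ True :=
  ⟨fun F => by simp only [TL], fun b l F => by simp only [TL], (fun _ => trivial) @TL.eq_def⟩

/-- The hinge function `u ↦ max u 0`. -/
noncomputable def hinge (u : ℝ) : ℝ := max u 0

end Crest.Agent.S0423
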