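import Mathlib
import Crest.Agent.S0423_Defs

/-! Bridge lemma for S0423: the `N`-dimensional integral over the positive orthant against the
product exponential density equals the iterated one-dimensional averaging operator `TL`. -/

set_option autoImplicit false

open MeasureTheory Set

namespace Crest.Agent.S0423

/-- The restriction of Lebesgue measure to the positive half-line. -/
noncomputable abbrev nuPos : Measure ℝ := (volume : Measure ℝ).restrict (Set.Ioi (0 : ℝ))

lemma integrable_exp_neg_sum (n : ℕ) :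
    Integrable (fun x : Fin n → ℝ => Real.exp (-∑ i, x i)) (Measure.pi fun _ : Fin n => nuPos) := by
  have h : Integrable (fun x : Fin n → ℝ => ∏ i, Real.exp (-(x i)))
      (Measure.pi fun _ : Fin n => nuPos) :=
    Integrable.fintype_prod (f := fun _ : Fin n => fun t : ℝ => Real.exp (-t))
      (μ := fun _ : Fin n => nuPos) (fun _ => integrableOn_exp_neg_Ioi 0)
  refine h.congr (Filter.Eventually.of_forall fun x => ?_)
  simp only [← Real.exp_sum, Finset.sum_neg_distrib]

lemma integrable_bridge (n : ℕ) (a : Fin n → ℝ) (f : ℝ → ℝ) (hf : Continuous f)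
    (hb : ∃ C, ∀ y, |f y| ≤ C) (u : ℝ) :
    Integrable (fun x : Fin n → ℝ => f (u + ∑ i, a i * x i) * Real.exp (-∑ i, x i))
      (Measure.pi fun _ : Fin n => nuPos) := by
  obtain ⟨C, hC⟩ := hb
  have hcont : Continuous (fun x : Fin n → ℝ => f (u + ∑ i, a i * x i)) := by fun_prop
  refine ((integrable_exp_neg_sum n).const_mul C).mono'
    ((hcont.mul (by fun_prop)).aestronglyMeasurable) (Filter.Eventually.of_forall fun x => ?_)
  rw [norm_mul, Real.norm_eq_abs, Real.norm_eq_abs, abs_of_pos (Real.exp_pos _)]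
  exact mul_le_mul_of_nonneg_right (hC _) (Real.exp_pos _).le

lemma bridge_pi (n : ℕ) : ∀ (a : Fin n → ℝ) (f : ℝ → ℝ) (_ : Continuous f)
    (_ : ∃ C, ∀ y, |f y| ≤ C) (u : ℝ),
    ∫ x : Fin n → ℝ, f (u + ∑ i, a i * x i) * Real.exp (-∑ i, x i)
      ∂(Measure.pi fun _ : Fin n => nuPos) = TL (List.ofFn a) f u := by
  induction n with
  | zero =>
    intro a f _ _ u
    rw [Measure.pi_of_empty (fun _ : Fin 0 => nuPos) (0 : Fin 0 → ℝ)]
    simp [TL]
  | succ n ih =>
    intro a f hf hb u
    have hmp := (measurePreserving_piFinSuccAbove (fun _ : Fin (n + 1) => nuPos) 0).symm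
    rw [← hmp.integral_comp']
    have hint := integrable_bridge (n + 1) a f hf hb u
    rw [← hmp.integrable_comp_emb (MeasurableEquiv.measurableEmbedding _)] at hint
    refine (integral_prod _ hint).trans ?_
    rw [List.ofFn_succ]
    simp only [TL, T, Function.comp]
    refine integral_congr_ae (Filter.Eventually.of_forall fun t => ?_)
    simp only [MeasurableEquiv.piFinSuccAbove_symm_apply, Fin.insertNthEquiv_apply,
      Fin.sum_univ_succ, Fin.insertNth_zero', Fin.cons_zero, Fin.cons_succ]
    rw [← ih (fun i => a i.succ) f hf hb (u + a 0 * t), ← integral_mul_const]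
    refine integral_congr_ae (Filter.Eventually.of_forall fun y => ?_)
    simp only
    rw [neg_add, Real.exp_add]
    ring_nf

theorem bridge (N : ℕ) (a : Fin N → ℝ) (f : ℝ → ℝ) (hf : Continuous f)
    (hb : ∃ C, ∀ y, |f y| ≤ C) (u : ℝ) :
    ∫ x in Set.pi Set.univ (fun _ : Fin N => Set.Ioi (0 : ℝ)),
      f (u + ∑ i, a i * x i) * Real.exp (-∑ i, x i) = TL (List.ofFn a) f u := by
  rw [← bridge_pi N a f hf hb u, volume_pi, Measure.restrict_pi_pi]

end Crest.Agent.S0423
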