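import Mathlib
import Crest.Prelude.Def_TruncExpWeight

set_option autoImplicit false
open MeasureTheory Set Real Filter Topology

namespace Crest.Agent.S0423_Part2

local notation "gw" => Crest.AlgGeometry.truncExpWeight

lemma gw_of_pos {y : ℝ} (hy : 0 < y) : gw y = (1 + y) * Real.exp (-y) := by
  unfold Crest.AlgGeometry.truncExpWeight
  rw [if_neg (not_le.mpr hy)]

lemma gw_of_nonpos {y : ℝ} (hy : y ≤ 0) : gw y = 1 := by
  unfold Crest.AlgGeometry.truncExpWeight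
  rw [if_pos hy]

lemma gw_nonneg (y : ℝ) : 0 ≤ gw y := by
  rcases le_or_gt y 0 with h | h
  · rw [gw_of_nonpos h]; norm_num
  · rw [gw_of_pos h]; positivity

lemma gw_le_one (y : ℝ) : gw y ≤ 1 := by
  rcases le_or_gt y 0 with h | h
  · rw [gw_of_nonpos h]
  · rw [gw_of_pos h]
    have h1 : 1 + y ≤ Real.exp y := by linarith [Real.add_one_le_exp y]
    have h2 : Real.exp (-y) > 0 := Real.exp_pos _
    calc (1 + y) * Real.exp (-y) ≤ Real.exp y * Real.exp (-y) := by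
          exact mul_le_mul_of_nonneg_right h1 h2.le
      _ = 1 := by rw [← Real.exp_add]; simp

lemma gw_measurable : Measurable gw := by
  unfold Crest.AlgGeometry.truncExpWeight
  exact Measurable.ite measurableSet_Iic measurable_const (by fun_prop)

/-- antiderivative of `(1+u+2x) e^{-u-3x}` -/
noncomputable def prim (u x : ℝ) : ℝ := -(Real.exp (-u - 3 * x) * ((1 + u + 2 * x) / 3 + 2 / 9))

lemma prim_hasDerivAt (u x : ℝ) :
    HasDerivAt (prim u) ((1 + u + 2 * x) * Real.exp (-u - 3 * x)) x := by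
  unfold prim
  have h1 : HasDerivAt (fun x : ℝ => Real.exp (-u - 3 * x)) (Real.exp (-u - 3 * x) * (-3)) x := by
    have : HasDerivAt (fun x : ℝ => -u - 3 * x) (-3) x := by
      simpa using ((hasDerivAt_id x).const_mul (3:ℝ)).const_sub (-u)
    exact this.exp
  have h2 : HasDerivAt (fun x : ℝ => (1 + u + 2 * x) / 3 + 2 / 9) (2 / 3) x := by
    have : HasDerivAt (fun x : ℝ => 1 + u + 2 * x) 2 x := by
      simpa using ((hasDerivAt_id x).const_mul (2:ℝ)).const_add (1 + u)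
    simpa using (this.div_const 3).add_const (2 / 9 : ℝ)
  have h3 : HasDerivAt (fun x : ℝ => -(Real.exp (-u - 3 * x) * ((1 + u + 2 * x) / 3 + 2 / 9)))
      (-(Real.exp (-u - 3 * x) * -3 * ((1 + u + 2 * x) / 3 + 2 / 9)
        + Real.exp (-u - 3 * x) * (2 / 3))) x := (h1.mul h2).neg
  exact h3.congr_deriv (by ring)

lemma prim_tendsto (u : ℝ) : Tendsto (prim u) atTop (𝓝 0) := by
  have h3 : Tendsto (fun x : ℝ => 3 * x) atTop atTop :=
    tendsto_id.const_mul_atTop (by norm_num : (0:ℝ) < 3)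
  have e0 : Tendsto (fun x : ℝ => Real.exp (-(3 * x))) atTop (𝓝 0) :=
    Real.tendsto_exp_neg_atTop_nhds_zero.comp h3
  have e1 : Tendsto (fun x : ℝ => (3 * x) ^ 1 * Real.exp (-(3 * x))) atTop (𝓝 0) :=
    (Real.tendsto_pow_mul_exp_neg_atTop_nhds_zero 1).comp h3
  have : Tendsto (fun x : ℝ => -(Real.exp (-u) * ((1 + u) / 3 + 2 / 9)) * Real.exp (-(3 * x))
      + -(Real.exp (-u) * (2 / 9)) * ((3 * x) ^ 1 * Real.exp (-(3 * x)))) atTop
      (𝓝 (-(Real.exp (-u) * ((1 + u) / 3 + 2 / 9)) * 0 + -(Real.exp (-u) * (2 / 9)) * 0)) :=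
    (e0.const_mul _).add (e1.const_mul _)
  simp only [mul_zero, add_zero] at this
  refine this.congr (fun x => ?_)
  unfold prim
  have : Real.exp (-u - 3 * x) = Real.exp (-u) * Real.exp (-(3 * x)) := by
    rw [← Real.exp_add]; ring_nf
  rw [this]; ring

lemma integral_tail (u a : ℝ) (ha : 0 ≤ 1 + u + 2 * a) :
    ∫ x in Ioi a, (1 + u + 2 * x) * Real.exp (-u - 3 * x) = - prim u a := by
  have := integral_Ioi_of_hasDerivAt_of_nonneg' (g := prim u) (a := a) (l := 0)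
    (g' := fun x => (1 + u + 2 * x) * Real.exp (-u - 3 * x))
    (fun x _ => prim_hasDerivAt u x)
    (fun x hx => by
      have : a < x := hx
      have : 0 ≤ 1 + u + 2 * x := by linarith
      positivity)
    (prim_tendsto u)
  simpa using this

lemma integrableOn_tail (u a : ℝ) (ha : 0 ≤ 1 + u + 2 * a) :
    IntegrableOn (fun x => (1 + u + 2 * x) * Real.exp (-u - 3 * x)) (Ioi a) :=
  integrableOn_Ioi_deriv_of_nonneg' (g := prim u) (a := a) (l := 0)
    (fun x _ => prim_hasDerivAt u x)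
    (fun x hx => by
      have : a < x := hx
      have : 0 ≤ 1 + u + 2 * x := by linarith
      positivity)
    (prim_tendsto u)

lemma aux_m_nonneg (u : ℝ) (hu : 0 ≤ u) :
    0 ≤ 5 / 9 + u / 3 + (4 / 9) * Real.exp (3 * u / 2) - Real.exp u := by
  set m : ℝ → ℝ := fun u => 5 / 9 + u / 3 + (4 / 9) * Real.exp (3 * u / 2) - Real.exp u with hm
  have hder : ∀ x : ℝ, HasDerivAt m (1 / 3 + (4 / 9) * (Real.exp (3 * x / 2) * (3 / 2)) - Real.exp x) x := by
    intro x
    have h1 : HasDerivAt (fun x : ℝ => 3 * x / 2) (3 / 2) x := by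
      simpa using ((hasDerivAt_id x).const_mul (3:ℝ)).div_const 2
    have h2 : HasDerivAt (fun x : ℝ => 5 / 9 + x / 3) (1 / 3) x := by
      simpa using ((hasDerivAt_id x).div_const (3:ℝ)).const_add (5 / 9 : ℝ)
    exact (h2.add (h1.exp.const_mul (4 / 9 : ℝ))).sub (Real.hasDerivAt_exp x)
  have hmono : MonotoneOn m (Ici 0) := by
    refine monotoneOn_of_deriv_nonneg (convex_Ici 0)
      (fun x _ => (hder x).continuousAt.continuousWithinAt)
      (fun x _ => (hder x).differentiableAt.differentiableWithinAt) ?_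
    intro x _
    rw [(hder x).deriv]
    set w := Real.exp (x / 2) with hw
    have hwpos : 0 < w := Real.exp_pos _
    have e3 : Real.exp (3 * x / 2) = w ^ 3 := by
      rw [hw, ← Real.exp_nat_mul]; congr 1; push_cast; ring
    have e2 : Real.exp x = w ^ 2 := by
      rw [hw, ← Real.exp_nat_mul]; congr 1; push_cast; ring
    rw [e3, e2]
    nlinarith [mul_nonneg (sq_nonneg (w - 1)) (by linarith : (0:ℝ) ≤ 2 * w + 1)]
  have h0 : m 0 = 0 := by simp [hm]; norm_num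
  have := hmono (self_mem_Ici) (show u ∈ Ici (0:ℝ) from hu) hu
  rw [h0] at this
  exact this

lemma inner_bound_nonneg (u : ℝ) (hu : 0 ≤ u) :
    1 - (4 / 9) * Real.exp (u / 2) ≤ ∫ x in Ioi (0:ℝ), gw (u + 2 * x) * Real.exp (-x) := by
  have hcongr : ∫ x in Ioi (0:ℝ), gw (u + 2 * x) * Real.exp (-x)
      = ∫ x in Ioi (0:ℝ), (1 + u + 2 * x) * Real.exp (-u - 3 * x) := by
    refine setIntegral_congr_fun measurableSet_Ioi (fun x hx => ?_)
    have hx' : (0:ℝ) < x := hx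
    show gw (u + 2 * x) * Real.exp (-x) = (1 + u + 2 * x) * Real.exp (-u - 3 * x)
    rw [gw_of_pos (by linarith), mul_assoc, ← Real.exp_add]
    congr 1
    · ring
    · congr 1; ring
  rw [hcongr, integral_tail u 0 (by linarith)]
  unfold prim
  have hm := aux_m_nonneg u hu
  have hpos : 0 < Real.exp (-u) := Real.exp_pos _
  have h1 : Real.exp (-u) * Real.exp (3 * u / 2) = Real.exp (u / 2) := by
    rw [← Real.exp_add]; congr 1; ring
  have h2 : Real.exp (-u) * Real.exp u = 1 := by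
    rw [← Real.exp_add]; simp
  have h3 := mul_nonneg hpos.le hm
  have h4 : Real.exp (-u - 3 * 0) = Real.exp (-u) := by congr 1; ring
  rw [h4]
  nlinarith [h1, h2, h3]

lemma inner_bound_neg (u : ℝ) (hu : u < 0) :
    1 - (4 / 9) * Real.exp (u / 2) ≤ ∫ x in Ioi (0:ℝ), gw (u + 2 * x) * Real.exp (-x) := by
  set x₀ : ℝ := -u / 2 with hx₀
  have hx₀pos : 0 < x₀ := by rw [hx₀]; linarith
  have hsplit : Ioi (0:ℝ) = Ioc 0 x₀ ∪ Ioi x₀ := (Ioc_union_Ioi_eq_Ioi hx₀pos.le).symm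
  have hint : IntegrableOn (fun x => gw (u + 2 * x) * Real.exp (-x)) (Ioi (0:ℝ)) := by
    refine Integrable.mono' (integrableOn_exp_neg_Ioi 0) ?_ ?_
    · exact ((gw_measurable.comp (by fun_prop)).mul (by fun_prop)).aestronglyMeasurable
    · refine Filter.Eventually.of_forall (fun x => ?_)
      rw [Real.norm_eq_abs, abs_mul, abs_of_nonneg (gw_nonneg _), abs_of_pos (Real.exp_pos _)]
      exact mul_le_of_le_one_left (Real.exp_pos _).le (gw_le_one _)
  have h1 : ∫ x in Ioc 0 x₀, gw (u + 2 * x) * Real.exp (-x) = ∫ x in Ioc 0 x₀, Real.exp (-x) := by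
    refine setIntegral_congr_fun measurableSet_Ioc (fun x hx => ?_)
    show gw (u + 2 * x) * Real.exp (-x) = Real.exp (-x)
    have : x ≤ x₀ := hx.2
    rw [gw_of_nonpos (by rw [hx₀] at this; linarith), one_mul]
  have h2 : ∫ x in Ioi x₀, gw (u + 2 * x) * Real.exp (-x)
      = ∫ x in Ioi x₀, (1 + u + 2 * x) * Real.exp (-u - 3 * x) := by
    refine setIntegral_congr_fun measurableSet_Ioi (fun x hx => ?_)
    have hx' : x₀ < x := hx
    show gw (u + 2 * x) * Real.exp (-x) = (1 + u + 2 * x) * Real.exp (-u - 3 * x)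
    rw [gw_of_pos (by rw [hx₀] at hx'; linarith), mul_assoc, ← Real.exp_add]
    congr 1
    · ring
    · congr 1; ring
  have h3 : ∫ x in Ioc 0 x₀, Real.exp (-x) = 1 - Real.exp (-x₀) := by
    have hu1 := setIntegral_union (μ := volume) (f := fun x : ℝ => Real.exp (-x))
      (s := Ioc 0 x₀) (t := Ioi x₀)
      (Set.disjoint_left.mpr (fun x hx hx' => not_lt.mpr hx.2 hx')) measurableSet_Ioi
      ((integrableOn_exp_neg_Ioi 0).mono_set Ioc_subset_Ioi_self)
      (integrableOn_exp_neg_Ioi x₀)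
    rw [← hsplit, integral_exp_neg_Ioi_zero, integral_exp_neg_Ioi] at hu1
    linarith
  have hu2 := setIntegral_union (μ := volume) (f := fun x : ℝ => gw (u + 2 * x) * Real.exp (-x))
      (s := Ioc 0 x₀) (t := Ioi x₀)
      (Set.disjoint_left.mpr (fun x hx hx' => not_lt.mpr hx.2 hx')) measurableSet_Ioi
      (hint.mono_set Ioc_subset_Ioi_self)
      (hint.mono_set (Ioi_subset_Ioi hx₀pos.le))
  rw [← hsplit] at hu2
  rw [hu2, h1, h2, h3, integral_tail u x₀ (by rw [hx₀]; linarith)]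
  unfold prim
  have e1 : -u - 3 * x₀ = u / 2 := by rw [hx₀]; ring
  have e2 : -x₀ = u / 2 := by rw [hx₀]; ring
  have e3 : 1 + u + 2 * x₀ = 1 := by rw [hx₀]; ring
  rw [e1, e2, e3]
  apply le_of_eq
  ring

lemma inner_bound (u : ℝ) :
    1 - (4 / 9) * Real.exp (u / 2) ≤ ∫ x in Ioi (0:ℝ), gw (u + 2 * x) * Real.exp (-x) := by
  rcases lt_or_ge u 0 with h | h
  · exact inner_bound_neg u h
  · exact inner_bound_nonneg u h

/-- Lebesgue measure on the positive half line. -/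
noncomputable abbrev μ₀ : Measure ℝ := volume.restrict (Ioi (0:ℝ))

lemma restrict_orthant (N : ℕ) :
    (volume : Measure (Fin N → ℝ)).restrict (Set.pi Set.univ (fun _ : Fin N => Set.Ioi (0 : ℝ)))
      = Measure.pi (fun _ : Fin N => μ₀) := by
  rw [volume_pi]
  exact Measure.restrict_pi_pi _ _

lemma exp_neg_mul_sum (M : ℕ) (κ : ℝ) (y : Fin M → ℝ) :
    Real.exp (-(κ * ∑ j, y j)) = ∏ j, Real.exp (-κ * y j) := by
  rw [← Real.exp_sum]
  congr 1
  rw [Finset.mul_sum, ← Finset.sum_neg_distrib]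
  exact Finset.sum_congr rfl (fun j _ => by ring)

lemma integrable_exp_neg_mul_sum (M : ℕ) (κ : ℝ) (hκ : 0 < κ) :
    Integrable (fun y : Fin M → ℝ => Real.exp (-(κ * ∑ j, y j)))
      (Measure.pi (fun _ : Fin M => μ₀)) := by
  simp_rw [exp_neg_mul_sum]
  exact Integrable.fintype_prod (f := fun _ x => Real.exp (-κ * x)) (μ := fun _ : Fin M => μ₀)
    (fun _ => integrableOn_exp_mul_Ioi (by linarith) 0)

lemma integral_exp_neg_mul_sum (M : ℕ) (κ : ℝ) (hκ : 0 < κ) :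
    ∫ y : Fin M → ℝ, Real.exp (-(κ * ∑ j, y j)) ∂(Measure.pi (fun _ : Fin M => μ₀))
      = (1 / κ) ^ M := by
  simp_rw [exp_neg_mul_sum]
  rw [integral_fintype_prod_eq_pow (f := fun x => Real.exp (-κ * x)) (μ := μ₀)]
  rw [integral_exp_mul_Ioi (by linarith) 0]
  simp only [mul_zero, Real.exp_zero, Fintype.card_fin]
  congr 1
  field_simp

lemma mp_cons (M : ℕ) :
    MeasurePreserving (fun p : ℝ × (Fin M → ℝ) => (Fin.cons p.1 p.2 : Fin (M + 1) → ℝ))
      (μ₀.prod (Measure.pi (fun _ : Fin M => μ₀))) (Measure.pi (fun _ : Fin (M + 1) => μ₀)) := by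
  have h := (measurePreserving_piFinSuccAbove (fun _ : Fin (M + 1) => μ₀) 0).symm
  have he : (fun p : ℝ × (Fin M → ℝ) => (Fin.cons p.1 p.2 : Fin (M + 1) → ℝ))
      = ⇑(MeasurableEquiv.piFinSuccAbove (fun _ : Fin (M + 1) => ℝ) 0).symm := by
    funext p
    simp [MeasurableEquiv.piFinSuccAbove_symm_apply, Fin.insertNthEquiv]
  rw [he]
  exact h

lemma integrable_cons (M : ℕ) (F : (Fin (M + 1) → ℝ) → ℝ)
    (hF : Integrable F (Measure.pi (fun _ : Fin (M + 1) => μ₀))) :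
    Integrable (fun p : ℝ × (Fin M → ℝ) => F (Fin.cons p.1 p.2))
      (μ₀.prod (Measure.pi (fun _ : Fin M => μ₀))) :=
  (mp_cons M).integrable_comp_of_integrable hF

lemma peel (M : ℕ) (F : (Fin (M + 1) → ℝ) → ℝ)
    (hF : Integrable F (Measure.pi (fun _ : Fin (M + 1) => μ₀))) :
    ∫ x, F x ∂(Measure.pi (fun _ : Fin (M + 1) => μ₀))
      = ∫ y, ∫ x₀, F (Fin.cons x₀ y) ∂μ₀ ∂(Measure.pi (fun _ : Fin M => μ₀)) := by
  have h1 : ∫ x, F x ∂(Measure.pi (fun _ : Fin (M + 1) => μ₀))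
      = ∫ p : ℝ × (Fin M → ℝ), F (Fin.cons p.1 p.2)
          ∂(μ₀.prod (Measure.pi (fun _ : Fin M => μ₀))) := by
    rw [← (mp_cons M).map_eq]
    exact integral_map (mp_cons M).measurable.aemeasurable
      (by rw [(mp_cons M).map_eq]; exact hF.aestronglyMeasurable)
  rw [h1, integral_prod_symm _ (integrable_cons M F hF)]

/-- The near-extremal coefficient vector `(2, -2/M, …, -2/M)`. -/
noncomputable def aM (M : ℕ) : Fin (M + 1) → ℝ := Fin.cons 2 (fun _ => -2 / (M : ℝ))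

lemma sum_aM (M : ℕ) (hM : 1 ≤ M) : ∑ i, aM M i = 0 := by
  have hM' : (M : ℝ) ≠ 0 := by
    have : (1:ℝ) ≤ M := by exact_mod_cast hM
    linarith
  simp only [aM, Fin.sum_univ_succ, Fin.cons_zero, Fin.cons_succ, Finset.sum_const,
    Finset.card_univ, Fintype.card_fin, nsmul_eq_mul]
  field_simp
  ring

lemma integrable_F (N : ℕ) (a : Fin N → ℝ) (t : ℝ) :
    Integrable (fun x : Fin N → ℝ => gw (t + ∑ i, a i * x i) * Real.exp (-∑ i, x i))
      (Measure.pi (fun _ : Fin N => μ₀)) := by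
  refine Integrable.mono' (integrable_exp_neg_mul_sum N 1 one_pos) ?_ ?_
  · exact ((gw_measurable.comp (by fun_prop)).mul (by fun_prop)).aestronglyMeasurable
  · refine Filter.Eventually.of_forall (fun x => ?_)
    rw [Real.norm_eq_abs, abs_mul, abs_of_nonneg (gw_nonneg _), abs_of_pos (Real.exp_pos _),
      one_mul]
    exact mul_le_of_le_one_left (Real.exp_pos _).le (gw_le_one _)

lemma main_bound (M : ℕ) (hM : 1 ≤ M) :
    1 - 4 / 9 * Real.exp (2 / 3) * (1 / (1 + 1 / (M : ℝ))) ^ M ≤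
      ∫ x in Set.pi Set.univ (fun _ : Fin (M + 1) => Set.Ioi (0 : ℝ)),
        gw (4 / 3 + ∑ i, aM M i * x i) * Real.exp (-∑ i, x i) := by
  have hMpos : (0:ℝ) < M := by
    have : (1:ℝ) ≤ M := by exact_mod_cast hM
    linarith
  rw [restrict_orthant, peel M _ (integrable_F (M + 1) (aM M) (4 / 3))]
  have hκ : (0:ℝ) < 1 + 1 / (M:ℝ) := by positivity
  have hL : Integrable (fun y : Fin M → ℝ => Real.exp (-(1 * ∑ j, y j))
      - 4 / 9 * Real.exp (2 / 3) * Real.exp (-((1 + 1 / (M:ℝ)) * ∑ j, y j)))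
      (Measure.pi (fun _ : Fin M => μ₀)) :=
    (integrable_exp_neg_mul_sum M 1 one_pos).sub
      ((integrable_exp_neg_mul_sum M _ hκ).const_mul _)
  have hLint : ∫ y : Fin M → ℝ, (Real.exp (-(1 * ∑ j, y j))
      - 4 / 9 * Real.exp (2 / 3) * Real.exp (-((1 + 1 / (M:ℝ)) * ∑ j, y j)))
      ∂(Measure.pi (fun _ : Fin M => μ₀))
      = 1 - 4 / 9 * Real.exp (2 / 3) * (1 / (1 + 1 / (M : ℝ))) ^ M := by
    rw [integral_sub (integrable_exp_neg_mul_sum M 1 one_pos)
      ((integrable_exp_neg_mul_sum M _ hκ).const_mul _), integral_const_mul,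
      integral_exp_neg_mul_sum M 1 one_pos, integral_exp_neg_mul_sum M _ hκ]
    simp
  rw [← hLint]
  refine integral_mono hL
    ((integrable_cons M _ (integrable_F (M + 1) (aM M) (4 / 3))).integral_prod_right) ?_
  intro y
  show Real.exp (-(1 * ∑ j, y j))
      - 4 / 9 * Real.exp (2 / 3) * Real.exp (-((1 + 1 / (M:ℝ)) * ∑ j, y j))
    ≤ ∫ x₀, gw (4 / 3 + ∑ i, aM M i * (Fin.cons x₀ y : Fin (M + 1) → ℝ) i)
        * Real.exp (-∑ i, (Fin.cons x₀ y : Fin (M + 1) → ℝ) i) ∂μ₀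
  set S : ℝ := ∑ j, y j with hS
  set u : ℝ := 4 / 3 - 2 / (M:ℝ) * S with hu
  have hrew : ∀ x₀ : ℝ, gw (4 / 3 + ∑ i, aM M i * (Fin.cons x₀ y : Fin (M + 1) → ℝ) i)
        * Real.exp (-∑ i, (Fin.cons x₀ y : Fin (M + 1) → ℝ) i)
      = Real.exp (-S) * (gw (u + 2 * x₀) * Real.exp (-x₀)) := by
    intro x₀
    have h1 : ∑ i, aM M i * (Fin.cons x₀ y : Fin (M + 1) → ℝ) i = 2 * x₀ - 2 / (M:ℝ) * S := by
      simp only [aM, Fin.sum_univ_succ, Fin.cons_zero, Fin.cons_succ]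
      rw [hS, Finset.mul_sum, sub_eq_add_neg, ← Finset.sum_neg_distrib]
      congr 1
      exact Finset.sum_congr rfl (fun j _ => by ring)
    have h2 : ∑ i, (Fin.cons x₀ y : Fin (M + 1) → ℝ) i = x₀ + S := by
      simp only [Fin.sum_univ_succ, Fin.cons_zero, Fin.cons_succ]
      rfl
    rw [h1, h2]
    have h3 : 4 / 3 + (2 * x₀ - 2 / (M:ℝ) * S) = u + 2 * x₀ := by rw [hu]; ring
    have h4 : Real.exp (-(x₀ + S)) = Real.exp (-S) * Real.exp (-x₀) := by
      rw [← Real.exp_add]; congr 1; ring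
    rw [h3, h4]; ring
  simp_rw [hrew]
  rw [integral_const_mul]
  have hin := inner_bound u
  have hpos : 0 < Real.exp (-S) := Real.exp_pos _
  have h5 : Real.exp (-S) * (1 - 4 / 9 * Real.exp (u / 2))
      = Real.exp (-(1 * S)) - 4 / 9 * Real.exp (2 / 3) * Real.exp (-((1 + 1 / (M:ℝ)) * S)) := by
    have e1 : Real.exp (-S) * Real.exp (u / 2)
        = Real.exp (2 / 3) * Real.exp (-((1 + 1 / (M:ℝ)) * S)) := by
      rw [← Real.exp_add, ← Real.exp_add]
      congr 1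
      rw [hu]; field_simp; ring
    rw [one_mul, mul_sub, mul_one]
    linear_combination (-(4:ℝ) / 9) * e1
  rw [← h5]
  exact mul_le_mul_of_nonneg_left hin hpos.le

lemma tendsto_bound :
    Tendsto (fun M : ℕ => Real.exp (4 / 3) / (4 / 3) *
        (1 - 4 / 9 * Real.exp (2 / 3) * (1 / (1 + 1 / (M : ℝ))) ^ M)) atTop
      (𝓝 (3 / 4 * Real.exp (4 / 3) - Real.exp 1 / 3)) := by
  have h1 : Tendsto (fun M : ℕ => (1 + 1 / (M : ℝ)) ^ M) atTop (𝓝 (Real.exp 1)) :=
    Real.tendsto_one_add_div_pow_exp 1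
  have h2 : Tendsto (fun M : ℕ => ((1 + 1 / (M : ℝ)) ^ M)⁻¹) atTop (𝓝 (Real.exp 1)⁻¹) :=
    h1.inv₀ (Real.exp_pos 1).ne'
  have h3 : Tendsto (fun M : ℕ => Real.exp (4 / 3) / (4 / 3) *
        (1 - 4 / 9 * Real.exp (2 / 3) * ((1 + 1 / (M : ℝ)) ^ M)⁻¹)) atTop
      (𝓝 (Real.exp (4 / 3) / (4 / 3) * (1 - 4 / 9 * Real.exp (2 / 3) * (Real.exp 1)⁻¹))) :=
    ((h2.const_mul _).const_sub _).const_mul _
  have hlim : Real.exp (4 / 3) / (4 / 3) * (1 - 4 / 9 * Real.exp (2 / 3) * (Real.exp 1)⁻¹)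
      = 3 / 4 * Real.exp (4 / 3) - Real.exp 1 / 3 := by
    have e1 : Real.exp (4 / 3) * Real.exp (2 / 3) * (Real.exp 1)⁻¹ = Real.exp 1 := by
      rw [← Real.exp_neg, ← Real.exp_add, ← Real.exp_add]; congr 1; norm_num
    linear_combination (-(1:ℝ) / 3) * e1
  rw [hlim] at h3
  refine h3.congr (fun M => ?_)
  rw [one_div (1 + 1 / (M:ℝ)), inv_pow]

/-- The second conjunct of S0423: the bound is approached. -/
theorem part2 : ∀ ε : ℝ, 0 < ε → ∃ (N : ℕ) (a : Fin N → ℝ), 1 ≤ N ∧ ∑ i, a i = 0 ∧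
      3 / 4 * Real.exp (4 / 3) - Real.exp 1 / 3 - ε <
        Real.exp (4 / 3) / (4 / 3) *
          ∫ x in Set.pi Set.univ (fun _ : Fin N => Set.Ioi (0 : ℝ)),
            Crest.AlgGeometry.truncExpWeight (4 / 3 + ∑ i, a i * x i) * Real.exp (-∑ i, x i) := by
  intro ε hε
  have hev := (tendsto_bound.eventually (lt_mem_nhds
    (show 3 / 4 * Real.exp (4 / 3) - Real.exp 1 / 3 - ε
      < 3 / 4 * Real.exp (4 / 3) - Real.exp 1 / 3 by linarith))).and (eventually_ge_atTop 1)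
  obtain ⟨M, hM1, hM2⟩ := hev.exists
  refine ⟨M + 1, aM M, by omega, sum_aM M hM2, lt_of_lt_of_le hM1 ?_⟩
  exact mul_le_mul_of_nonneg_left (main_bound M hM2) (by positivity)

end Crest.Agent.S0423_Part2
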