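import Crest.Agent.S0423_SOp

/-! The upper bound: `TL l truncExpWeight (4/3) ≤ 1 - (4/9) e^{-1/3}` when `l.sum = 0`. -/

set_option autoImplicit false

open MeasureTheory Set Real

namespace Crest.Agent.S0423

open Crest.AlgGeometry

lemma S_hinge (u : ℝ) : S hinge u = 1 - truncExpWeight u := by
  unfold S truncExpWeight
  by_cases hu : u ≤ 0
  · rw [if_pos hu, sub_self]
    have : ∀ y ∈ Ioi (0 : ℝ), (1 - y) * Real.exp (-y) * hinge (u - y) = 0 := by
      intro y hy
      have hy0 : (0 : ℝ) < y := hy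
      rw [hinge_of_nonpos (by linarith), mul_zero]
    rw [setIntegral_congr_fun measurableSet_Ioi this]
    simp
  · rw [if_neg hu]
    push Not at hu
    have hsplit : Ioi (0 : ℝ) = Ioc 0 u ∪ Ioi u := (Ioc_union_Ioi_eq_Ioi hu.le).symm
    have hI := S_integrable hinge_lipschitz u
    rw [hsplit, setIntegral_union Ioc_disjoint_Ioi_same measurableSet_Ioi
      (hI.mono_set (by rw [hsplit]; exact subset_union_left))
      (hI.mono_set (by rw [hsplit]; exact subset_union_right))]
    have h2 : ∫ y in Ioi u, (1 - y) * Real.exp (-y) * hinge (u - y) = 0 := by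
      have : ∀ y ∈ Ioi u, (1 - y) * Real.exp (-y) * hinge (u - y) = 0 := by
        intro y hy
        have hy0 : u < y := hy
        rw [hinge_of_nonpos (by linarith), mul_zero]
      rw [setIntegral_congr_fun measurableSet_Ioi this]
      simp
    have h1 : ∫ y in Ioc 0 u, (1 - y) * Real.exp (-y) * hinge (u - y)
        = ∫ y in (0 : ℝ)..u, (1 - y) * Real.exp (-y) * (u - y) := by
      rw [intervalIntegral.integral_of_le hu.le]
      refine setIntegral_congr_fun measurableSet_Ioc (fun y hy => ?_)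
      have : 0 ≤ u - y := by linarith [hy.2]
      simp only [hinge, max_eq_left this]
    rw [h1, h2, add_zero]
    have hder : ∀ y ∈ uIcc (0 : ℝ) u,
        HasDerivAt (fun y : ℝ => (-y ^ 2 + (u - 1) * y - 1) * Real.exp (-y))
          ((1 - y) * Real.exp (-y) * (u - y)) y := by
      intro y _
      have hp : HasDerivAt (fun y : ℝ => -y ^ 2 + (u - 1) * y - 1) (-(2 * y) + (u - 1)) y := by
        have a1 : HasDerivAt (fun y : ℝ => y ^ 2) (2 * y) y := by
          simpa using hasDerivAt_pow 2 y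
        have a2 : HasDerivAt (fun y : ℝ => (u - 1) * y) (u - 1) y := by
          simpa using (hasDerivAt_id y).const_mul (u - 1)
        exact (a1.neg.add a2).sub_const 1
      have he : HasDerivAt (fun y : ℝ => Real.exp (-y)) (Real.exp (-y) * (-1)) y :=
        (hasDerivAt_id y).neg.exp
      exact (hp.mul he).congr_deriv (by ring)
    rw [intervalIntegral.integral_eq_sub_of_hasDerivAt hder]
    · simp only [neg_zero, Real.exp_zero]
      ring
    · apply Continuous.intervalIntegrable
      fun_prop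

lemma S_exp (C σ c : ℝ) (hσ : 0 ≤ σ) :
    S (fun u => C * Real.exp (σ * (u - c))) c = C * (σ / (1 + σ) ^ 2) := by
  unfold S
  have hr : 0 < 1 + σ := by linarith
  have h0 := integral_pow_mul_exp 0 hr
  have h1 := integral_pow_mul_exp 1 hr
  have i0 := integrableOn_pow_mul_exp 0 hr
  have i1 := integrableOn_pow_mul_exp 1 hr
  simp only [pow_zero, one_mul, pow_one, zero_add, Nat.factorial_zero, Nat.cast_one, mul_one,
    Nat.factorial_one] at h0 h1 i0 i1
  have e : ∀ y : ℝ, (1 - y) * Real.exp (-y) * (C * Real.exp (σ * (c - y - c)))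
      = C * (Real.exp (-((1 + σ) * y)) - y * Real.exp (-((1 + σ) * y))) := by
    intro y
    have : Real.exp (-((1 + σ) * y)) = Real.exp (-y) * Real.exp (σ * (c - y - c)) := by
      rw [← Real.exp_add]; congr 1; ring
    rw [this]; ring
  simp_rw [e]
  rw [integral_const_mul, integral_sub i0 i1, h0, h1]
  have : 1 / (1 + σ) - (1 / (1 + σ)) ^ (1 + 1) = σ / (1 + σ) ^ 2 := by
    have hne : (1 + σ) ≠ 0 := hr.ne'
    rw [show (1 + 1 : ℕ) = 2 from rfl, div_pow, one_pow,
      div_sub_div _ _ hne (pow_ne_zero 2 hne), div_eq_div_iff (by positivity) (by positivity)]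
    ring
  rw [this]

lemma integrable_S_exp (C σ c : ℝ) (hσ : 0 ≤ σ) :
    IntegrableOn (fun y : ℝ => (1 - y) * Real.exp (-y) * (C * Real.exp (σ * (c - y - c))))
      (Ioi 0) := by
  have hr : 0 < 1 + σ := by linarith
  have i0 := integrableOn_pow_mul_exp 0 hr
  have i1 := integrableOn_pow_mul_exp 1 hr
  simp only [pow_zero, one_mul, pow_one] at i0 i1
  have e : ∀ y : ℝ, (1 - y) * Real.exp (-y) * (C * Real.exp (σ * (c - y - c)))
      = C * (Real.exp (-((1 + σ) * y)) - y * Real.exp (-((1 + σ) * y))) := by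
    intro y
    have : Real.exp (-((1 + σ) * y)) = Real.exp (-y) * Real.exp (σ * (c - y - c)) := by
      rw [← Real.exp_add]; congr 1; ring
    rw [this]; ring
  simp_rw [e]
  exact (i0.sub i1).const_mul C

/-- Secant comparison for a log-concave function (unit spacing `c = p + 1`). -/
lemma Nice.secant {A : ℝ → ℝ} (hA : Nice A) {p c : ℝ} (hpc : c = p + 1) (hp : 0 < A p) :
    let σ := Real.log (A c) - Real.log (A p)
    (∀ u, p ≤ u → u ≤ c → A c * Real.exp (σ * (u - c)) ≤ A u) ∧
    (∀ u, u ≤ p → A u ≤ A c * Real.exp (σ * (u - c))) ∧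
    (∀ u, c ≤ u → A u ≤ A c * Real.exp (σ * (u - c))) := by
  intro σ
  have hc : 0 < A c := lt_of_lt_of_le hp (hA.mono (by linarith))
  have hlc := hA.logconc
  have key : ∀ u, 0 < A u → (A c * Real.exp (σ * (u - c)) ≤ A u ↔
      Real.log (A c) + σ * (u - c) ≤ Real.log (A u)) := by
    intro u hu
    rw [← Real.log_le_log_iff (mul_pos hc (Real.exp_pos _)) hu, Real.log_mul hc.ne'
      (Real.exp_pos _).ne', Real.log_exp]
  have key' : ∀ u, 0 < A u → (A u ≤ A c * Real.exp (σ * (u - c)) ↔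
      Real.log (A u) ≤ Real.log (A c) + σ * (u - c)) := by
    intro u hu
    rw [← Real.log_le_log_iff hu (mul_pos hc (Real.exp_pos _)), Real.log_mul hc.ne'
      (Real.exp_pos _).ne', Real.log_exp]
  refine ⟨fun u h1 h2 => ?_, fun u h1 => ?_, fun u h1 => ?_⟩
  · have hu : 0 < A u := lt_of_lt_of_le hp (hA.mono h1)
    rw [key u hu]
    have hlc2 := hlc.2
    have := hlc2 (x := p) (y := c) hp hc (a := c - u) (b := u - p) (by linarith) (by linarith)
      (by linarith)
    have e : (c - u) • p + (u - p) • c = u := by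
      simp only [smul_eq_mul]; rw [hpc]; ring
    rw [e] at this
    simp only [smul_eq_mul] at this
    have hσ : σ = Real.log (A c) - Real.log (A p) := rfl
    rw [hσ]
    have e3 : u - p = u - c + 1 := by linarith
    rw [e3] at this
    linarith
  · rcases (hA.nonneg u).eq_or_lt with h0 | hu
    · rw [← h0]; exact (mul_pos hc (Real.exp_pos _)).le
    rw [key' u hu]
    rcases h1.eq_or_lt with rfl | hlt
    · have hσ : σ = Real.log (A c) - Real.log (A u) := rfl
      rw [hσ, hpc]; ring_nf; rfl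
    have := hlc.slope_anti_adjacent (x := u) (y := p) (z := c) hu hc hlt (by linarith)
    have e : c - p = 1 := by linarith
    rw [e, div_one, le_div_iff₀ (by linarith)] at this
    have hσ : σ = Real.log (A c) - Real.log (A p) := rfl
    rw [hσ]
    have e2 : u - c = -(p - u) - 1 := by linarith
    rw [e2]
    nlinarith
  · have hu : 0 < A u := lt_of_lt_of_le hc (hA.mono h1)
    rw [key' u hu]
    rcases h1.eq_or_lt with rfl | hlt
    · simp
    have := hlc.slope_anti_adjacent (x := p) (y := c) (z := u) hp hu (by linarith) hlt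
    have e : c - p = 1 := by linarith
    rw [e, div_one, div_le_iff₀ (by linarith)] at this
    have hσ : σ = Real.log (A c) - Real.log (A p) := rfl
    rw [hσ]
    linarith


lemma exp_neg_third_le : Real.exp (-(1 / 3 : ℝ)) ≤ 18 / 25 := by
  have h := Real.quadratic_le_exp_of_nonneg (x := (1 / 3 : ℝ)) (by norm_num)
  have h2 : (25 / 18 : ℝ) ≤ Real.exp (1 / 3) := by
    refine le_trans (by norm_num) h
  rw [Real.exp_neg]
  rw [inv_le_comm₀ (Real.exp_pos _) (by norm_num)]
  refine le_trans (by norm_num) h2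

/-- The purely numerical part of the argument. -/
lemma numeric_core {a σ q : ℝ} (hσ : 0 ≤ σ) (ha : 4 / 3 ≤ a) (hq : 1 / 3 ≤ q)
    (hrel : a = q * Real.exp σ)
    (hup : ∀ u : ℝ, 4 / 3 ≤ u → u ≤ a * Real.exp (σ * (u - 4 / 3))) :
    4 / 9 * Real.exp (-(1 / 3 : ℝ)) ≤ a * (σ / (1 + σ) ^ 2) := by
  have hσpos : 0 < σ := by
    rcases hσ.eq_or_lt with h0 | h
    · exfalso
      have := hup (a + 1) (by linarith)
      rw [← h0] at this
      simp at this
      linarith
    · exact h
  have h1σ : 0 < (1 + σ) ^ 2 := by positivity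
  have he3 := exp_neg_third_le
  rcases le_total σ (3 / 4) with hcase | hcase
  · -- small slope: use the tangency point `u = 1 / σ`
    have hu : (4 / 3 : ℝ) ≤ 1 / σ := by
      rw [le_div_iff₀ hσpos]; linarith
    have h1 := hup (1 / σ) hu
    have e1 : σ * (1 / σ - 4 / 3) = 1 - 4 / 3 * σ := by field_simp
    rw [e1] at h1
    -- a σ ≥ exp (4/3 σ - 1)
    have h2 : Real.exp (4 / 3 * σ - 1) ≤ a * σ := by
      have h3 : 1 ≤ a * σ * Real.exp (1 - 4 / 3 * σ) := by
        rw [div_le_iff₀ hσpos] at h1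
        linarith
      have h4 : Real.exp (4 / 3 * σ - 1) * Real.exp (1 - 4 / 3 * σ) = 1 := by
        rw [← Real.exp_add]; ring_nf; exact Real.exp_zero
      have h5 := Real.exp_pos (1 - 4 / 3 * σ)
      have h6 : Real.exp (4 / 3 * σ - 1) * Real.exp (1 - 4 / 3 * σ)
          ≤ a * σ * Real.exp (1 - 4 / 3 * σ) := by rw [h4]; exact h3
      exact le_of_mul_le_mul_right h6 h5
    have h7 : 4 / 9 * Real.exp (-(1 / 3 : ℝ)) * (1 + σ) ^ 2 ≤ Real.exp (4 / 3 * σ - 1) := by
      have hx := Real.add_one_le_exp (2 / 3 * σ - 1 / 3)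
      have hx0 : 0 ≤ 2 / 3 * σ - 1 / 3 + 1 := by linarith
      have hsq : (2 / 3 * σ - 1 / 3 + 1) ^ 2 ≤ Real.exp (2 / 3 * σ - 1 / 3) ^ 2 :=
        pow_le_pow_left₀ hx0 hx 2
      have e2 : Real.exp (2 / 3 * σ - 1 / 3) ^ 2 = Real.exp (4 / 3 * σ - 2 / 3) := by
        rw [← Real.exp_nat_mul]; congr 1; push_cast; ring
      have e3 : Real.exp (4 / 3 * σ - 1) = Real.exp (-(1 / 3 : ℝ)) * Real.exp (4 / 3 * σ - 2 / 3) := by
        rw [← Real.exp_add]; congr 1; ring
      rw [e3, ← e2]
      have hpos := Real.exp_pos (-(1 / 3 : ℝ))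
      have e4 : (4 / 9 : ℝ) * (1 + σ) ^ 2 = (2 / 3 * σ - 1 / 3 + 1) ^ 2 := by ring
      calc 4 / 9 * Real.exp (-(1 / 3 : ℝ)) * (1 + σ) ^ 2
          = Real.exp (-(1 / 3 : ℝ)) * (4 / 9 * (1 + σ) ^ 2) := by ring
        _ ≤ Real.exp (-(1 / 3 : ℝ)) * Real.exp (2 / 3 * σ - 1 / 3) ^ 2 := by
            rw [e4]; exact mul_le_mul_of_nonneg_left hsq hpos.le
    rw [← mul_div_assoc, le_div_iff₀ h1σ]
    linarith
  · rcases le_total σ (3 / 2) with hcase2 | hcase2
    · -- middle range
      have h1 : (6 / 25 : ℝ) ≤ σ / (1 + σ) ^ 2 := by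
        rw [le_div_iff₀ h1σ]; nlinarith
      have h2 : (4 / 3 : ℝ) * (6 / 25) ≤ a * (σ / (1 + σ) ^ 2) :=
        mul_le_mul ha h1 (by norm_num) (by linarith)
      linarith
    · -- large slope
      have h := Real.sum_le_exp_of_nonneg hσ 5
      simp only [Finset.sum_range_succ, Finset.sum_range_zero, Nat.factorial] at h
      norm_num at h
      have h1 : (1 + σ) ^ 2 ≤ Real.exp σ * σ := by
        have : (1 + σ) ^ 2 ≤ (1 + σ + σ ^ 2 / 2 + σ ^ 3 / 6 + σ ^ 4 / 24) * σ := by
          nlinarith [pow_pos hσpos 2, pow_pos hσpos 3, pow_pos hσpos 4, pow_pos hσpos 5,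
            mul_nonneg (sub_nonneg.2 hcase2) (sub_nonneg.2 hcase2)]
        exact this.trans (mul_le_mul_of_nonneg_right h hσ)
      have h2 : (1 : ℝ) ≤ Real.exp σ * (σ / (1 + σ) ^ 2) := by
        rw [← mul_div_assoc, le_div_iff₀ h1σ]; linarith
      have h3 : (1 / 3 : ℝ) * 1 ≤ q * (Real.exp σ * (σ / (1 + σ) ^ 2)) :=
        mul_le_mul hq h2 (by norm_num) (by linarith)
      rw [hrel, mul_assoc]
      linarith

lemma J_lower {A : ℝ → ℝ} (hA : Nice A) (hlow : ∀ u, u ≤ A u) :
    4 / 9 * Real.exp (-(1 / 3 : ℝ)) ≤ S A (4 / 3) := by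
  have hp : 0 < A (1 / 3) := lt_of_lt_of_le (by norm_num) (hlow (1 / 3))
  have hc : 0 < A (4 / 3) := lt_of_lt_of_le (by norm_num) (hlow (4 / 3))
  obtain ⟨h1, h2, h3⟩ := hA.secant (p := 1 / 3) (c := 4 / 3) (by norm_num) hp
  set σ := Real.log (A (4 / 3)) - Real.log (A (1 / 3)) with hσdef
  have hσ : 0 ≤ σ := by
    rw [hσdef, sub_nonneg]
    exact Real.log_le_log hp (hA.mono (by norm_num))
  have hrel : A (4 / 3) = A (1 / 3) * Real.exp σ := by
    rw [hσdef, Real.exp_sub, Real.exp_log hc, Real.exp_log hp]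
    field_simp
  have hnum := numeric_core hσ (hlow (4 / 3)) (hlow (1 / 3)) hrel
    (fun u hu => (hlow u).trans (h3 u hu))
  refine hnum.trans ?_
  rw [← S_exp (A (4 / 3)) σ (4 / 3) hσ]
  unfold S
  refine setIntegral_mono_on (integrable_S_exp _ _ _ hσ) (S_integrable hA.lip _) measurableSet_Ioi
    (fun y hy => ?_)
  have hy0 : (0 : ℝ) < y := hy
  have he := Real.exp_pos (-y)
  rcases le_total y 1 with hy1 | hy1
  · have := h1 (4 / 3 - y) (by linarith) (by linarith)
    exact mul_le_mul_of_nonneg_left this (mul_nonneg (by linarith) he.le)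
  · have := h2 (4 / 3 - y) (by linarith)
    exact mul_le_mul_of_nonpos_left this (mul_nonpos_of_nonpos_of_nonneg (by linarith) he.le)

/-- **Upper bound** in list form. -/
theorem upper (l : List ℝ) (hl : l.sum = 0) :
    TL l truncExpWeight (4 / 3) ≤ 1 - 4 / 9 * Real.exp (-(1 / 3 : ℝ)) := by
  have hg : truncExpWeight = fun u => 1 - S hinge u := by
    funext u; rw [S_hinge]; ring
  rw [hg, TL_one_sub_fun (S_lipschitz hinge_lipschitz) l, TL_S_comm hinge_lipschitz l]
  have hA := nice_TL nice_hinge l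
  have hlow : ∀ u, u ≤ TL l hinge u := by
    intro u
    have := (TL_lower_affine hinge_lipschitz (k := 0) (fun u => by
      rw [add_zero]; exact le_max_left u 0) l).2 u
    simpa [hl] using this
  have := J_lower hA hlow
  linarith

end Crest.Agent.S0423
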