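import Mathlib
import Crest.Agent.S0423_Defs

/-! Elementary facts on `truncExpWeight` for S0423. -/

set_option autoImplicit false

open MeasureTheory Set

namespace Crest.Agent.S0423

open Crest.AlgGeometry

lemma truncExpWeight_continuous : Continuous truncExpWeight := by
  unfold truncExpWeight
  refine Continuous.if_le continuous_const (by fun_prop) continuous_id continuous_const ?_
  intro x hx
  simp [hx]

lemma truncExpWeight_nonneg (y : ℝ) : 0 ≤ truncExpWeight y := by
  unfold truncExpWeight
  split_ifs with h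
  · exact zero_le_one
  · have h' : 0 < y := not_le.mp h
    positivity

lemma truncExpWeight_le_one (y : ℝ) : truncExpWeight y ≤ 1 := by
  unfold truncExpWeight
  split_ifs with h
  · exact le_rfl
  · have h1 : 1 + y ≤ Real.exp y := by linarith [Real.add_one_le_exp y]
    have h2 : (1 + y) * Real.exp (-y) ≤ Real.exp y * Real.exp (-y) :=
      mul_le_mul_of_nonneg_right h1 (Real.exp_pos _).le
    rwa [← Real.exp_add, add_neg_cancel, Real.exp_zero] at h2

lemma truncExpWeight_bounded : ∃ C, ∀ y, |truncExpWeight y| ≤ C :=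
  ⟨1, fun y => by rw [abs_of_nonneg (truncExpWeight_nonneg y)]; exact truncExpWeight_le_one y⟩

/-- Antiderivative used for the representation formula. -/
lemma hasDerivAt_aux (z y : ℝ) :
    HasDerivAt (fun y : ℝ => (-(y ^ 2) + (z - 1) * y - 1) * Real.exp (-y))
      ((1 - y) * Real.exp (-y) * (z - y)) y := by
  have h1 : HasDerivAt (fun y : ℝ => -(y ^ 2) + (z - 1) * y - 1) (-(2 * y) + (z - 1)) y := by
    have := (((hasDerivAt_pow 2 y).neg).add ((hasDerivAt_id y).const_mul (z - 1))).sub_const 1
    simpa using this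
  have h2 : HasDerivAt (fun y : ℝ => Real.exp (-y)) (-Real.exp (-y)) y := by
    have := (hasDerivAt_neg y).exp
    simpa using this
  have h3 := h1.mul h2
  have e : (-(2 * y) + (z - 1)) * Real.exp (-y) + (-(y ^ 2) + (z - 1) * y - 1) * -Real.exp (-y)
      = (1 - y) * Real.exp (-y) * (z - y) := by ring
  rw [e] at h3
  exact h3

/-- `1 - g(z) = ∫₀^∞ (1 - y) e^{-y} (z - y)₊ dy`. -/
theorem one_sub_truncExpWeight (z : ℝ) :
    1 - truncExpWeight z =
      ∫ y in Set.Ioi (0 : ℝ), (1 - y) * Real.exp (-y) * hinge (z - y) := by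
  by_cases hz : z ≤ 0
  · have h0 : ∀ y ∈ Set.Ioi (0 : ℝ), (1 - y) * Real.exp (-y) * hinge (z - y) = 0 := by
      intro y hy
      have : z - y ≤ 0 := by have := mem_Ioi.mp hy; linarith
      simp [hinge, max_eq_right this]
    rw [setIntegral_congr_fun measurableSet_Ioi h0]
    simp [truncExpWeight, hz]
  · replace hz : 0 < z := not_le.mp hz
    have hsplit : Set.Ioi (0 : ℝ) = Set.Ioc 0 z ∪ Set.Ioi z := (Ioc_union_Ioi_eq_Ioi hz.le).symm
    have h0 : ∀ y ∈ Set.Ioi z, (1 - y) * Real.exp (-y) * hinge (z - y) = 0 := by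
      intro y hy
      have : z - y ≤ 0 := by have := mem_Ioi.mp hy; linarith
      simp [hinge, max_eq_right this]
    have h1 : ∀ y ∈ Set.Ioc 0 z, (1 - y) * Real.exp (-y) * hinge (z - y)
        = (1 - y) * Real.exp (-y) * (z - y) := by
      intro y hy
      have : 0 ≤ z - y := by have := hy.2; linarith
      simp [hinge, max_eq_left this]
    have hcont : Continuous fun y : ℝ => (1 - y) * Real.exp (-y) * (z - y) := by fun_prop
    have hI1 : IntegrableOn (fun y => (1 - y) * Real.exp (-y) * hinge (z - y)) (Set.Ioc 0 z) := by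
      refine IntegrableOn.congr_fun ?_ (fun y hy => (h1 y hy).symm) measurableSet_Ioc
      exact (hcont.integrableOn_Icc (a := 0) (b := z)).mono_set Ioc_subset_Icc_self
    have hI2 : IntegrableOn (fun y => (1 - y) * Real.exp (-y) * hinge (z - y)) (Set.Ioi z) := by
      refine IntegrableOn.congr_fun (f := fun _ => (0 : ℝ)) ?_ (fun y hy => (h0 y hy).symm)
        measurableSet_Ioi
      exact integrableOn_zero
    rw [hsplit, setIntegral_union (Ioc_disjoint_Ioi le_rfl) measurableSet_Ioi hI1 hI2,
      setIntegral_congr_fun measurableSet_Ioi h0, setIntegral_congr_fun measurableSet_Ioc h1,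
      ← intervalIntegral.integral_of_le hz.le,
      intervalIntegral.integral_eq_sub_of_hasDerivAt (fun y _ => hasDerivAt_aux z y)
        (hcont.intervalIntegrable _ _)]
    simp only [truncExpWeight, not_le.mpr hz, if_false]
    simp
    ring

end Crest.Agent.S0423
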