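import Crest.Statements.S0423
import Crest.Agent.S0423_Upper
import Crest.Agent.S0423_Bridge
import Crest.Agent.S0423_Weight
import Crest.Agent.S0423_Part2

set_option autoImplicit false
open Crest Crest.AlgGeometry

namespace Crest.Agent.S0423

/-- For independent mean-one exponential random variables `X_1, …, X_N` (written as an integral over the positive orthant against the density `exp (-(x_1 + ⋯ + x_N))`), real coefficients `a_1, …, a_N` summing to zero, and the weight `g = truncExpWeight`, the quantity `(e^{4/3} / (4/3)) · E[g(4/3 + a_1 X_1 + ⋯ + a_N X_N)]` has supremum over all `N ≥ 1` and all such `a` exactly `(3/4) e^{4/3} − e/3`: it never exceeds this value, and comes within any `ε > 0` of it for some `N` and `a`. -/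
theorem result :
    (∀ (N : ℕ) (a : Fin N → ℝ), 1 ≤ N → ∑ i, a i = 0 →
      Real.exp (4 / 3) / (4 / 3) *
          ∫ x in Set.pi Set.univ (fun _ : Fin N => Set.Ioi (0 : ℝ)),
            Crest.AlgGeometry.truncExpWeight (4 / 3 + ∑ i, a i * x i) * Real.exp (-∑ i, x i)
        ≤ 3 / 4 * Real.exp (4 / 3) - Real.exp 1 / 3) ∧
    (∀ ε : ℝ, 0 < ε → ∃ (N : ℕ) (a : Fin N → ℝ), 1 ≤ N ∧ ∑ i, a i = 0 ∧
      3 / 4 * Real.exp (4 / 3) - Real.exp 1 / 3 - ε <
        Real.exp (4 / 3) / (4 / 3) *
          ∫ x in Set.pi Set.univ (fun _ : Fin N => Set.Ioi (0 : ℝ)),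
            Crest.AlgGeometry.truncExpWeight (4 / 3 + ∑ i, a i * x i) * Real.exp (-∑ i, x i)) := by
  refine ⟨fun N a _ ha => ?_, Crest.Agent.S0423_Part2.part2⟩
  rw [bridge N a truncExpWeight truncExpWeight_continuous truncExpWeight_bounded (4 / 3)]
  have hsum : (List.ofFn a).sum = 0 := by rw [List.sum_ofFn]; exact ha
  have hup := upper (List.ofFn a) hsum
  have he : Real.exp 1 = Real.exp (4 / 3) * Real.exp (-(1 / 3 : ℝ)) := by
    rw [← Real.exp_add]; norm_num
  have hpos : 0 < Real.exp (4 / 3) / (4 / 3) := by positivity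
  calc Real.exp (4 / 3) / (4 / 3) * TL (List.ofFn a) truncExpWeight (4 / 3)
      ≤ Real.exp (4 / 3) / (4 / 3) * (1 - 4 / 9 * Real.exp (-(1 / 3 : ℝ))) :=
        mul_le_mul_of_nonneg_left hup hpos.le
    _ = 3 / 4 * Real.exp (4 / 3) - Real.exp 1 / 3 := by rw [he]; ring

end Crest.Agent.S0423
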