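import Crest.Agent.S0423_Defs

/-! Basic facts on the averaging operators `T b`. -/

set_option autoImplicit false

open MeasureTheory Set Real

namespace Crest.Agent.S0423

/-! ### Elementary exponential integrals -/

lemma integrableOn_pow_mul_exp (k : ℕ) {r : ℝ} (hr : 0 < r) :
    IntegrableOn (fun x : ℝ => x ^ k * Real.exp (-(r * x))) (Ioi 0) := by
  have h := integrableOn_rpow_mul_exp_neg_mul_rpow (p := 1) (s := (k : ℝ)) (b := r)
    (by have : (0 : ℝ) ≤ k := Nat.cast_nonneg k; linarith) one_pos hr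
  refine h.congr_fun (fun x _ => ?_) measurableSet_Ioi
  simp [Real.rpow_natCast]

lemma integral_pow_mul_exp (k : ℕ) {r : ℝ} (hr : 0 < r) :
    ∫ x in Ioi (0 : ℝ), x ^ k * Real.exp (-(r * x)) = (1 / r) ^ (k + 1) * (k.factorial : ℝ) := by
  have h := Real.integral_rpow_mul_exp_neg_mul_Ioi (a := (k : ℝ) + 1) (r := r)
    (by positivity) hr
  rw [Real.Gamma_nat_eq_factorial] at h
  rw [← Real.rpow_natCast (1 / r) (k + 1)]
  push_cast
  rw [← h]
  refine setIntegral_congr_fun measurableSet_Ioi (fun x _ => ?_)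
  simp [Real.rpow_natCast]

lemma integrableOn_exp_neg' : IntegrableOn (fun x : ℝ => Real.exp (-x)) (Ioi 0) :=
  integrableOn_exp_neg_Ioi 0

lemma integrableOn_mul_exp_neg : IntegrableOn (fun x : ℝ => x * Real.exp (-x)) (Ioi 0) := by
  simpa using integrableOn_pow_mul_exp 1 one_pos

lemma integral_mul_exp_neg : ∫ x in Ioi (0 : ℝ), x * Real.exp (-x) = 1 := by
  simpa using integral_pow_mul_exp 1 one_pos


/-! ### Integrability and elementary properties of `T` -/

lemma lip_bound {F : ℝ → ℝ} {K : NNReal} (hF : LipschitzWith K F) (u v : ℝ) :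
    |F (u + v)| ≤ |F u| + K * |v| := by
  have h := hF.dist_le_mul (u + v) u
  rw [Real.dist_eq, Real.dist_eq] at h
  have h2 : |F (u + v)| ≤ |F u| + |F (u + v) - F u| := by
    have := abs_add_le (F u) (F (u + v) - F u)
    simpa using this
  have h3 : u + v - u = v := by ring
  rw [h3] at h
  linarith

lemma T_integrable {F : ℝ → ℝ} {K : NNReal} (hF : LipschitzWith K F) (b u : ℝ) :
    IntegrableOn (fun x : ℝ => F (u + b * x) * Real.exp (-x)) (Ioi 0) := by
  have hdom : IntegrableOn (fun x : ℝ => |F u| * Real.exp (-x) + (K * |b|) * (x * Real.exp (-x)))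
      (Ioi 0) :=
    (integrableOn_exp_neg'.const_mul _).add (integrableOn_mul_exp_neg.const_mul _)
  refine Integrable.mono' hdom ?_ ?_
  · have hc : Continuous (fun x : ℝ => F (u + b * x) * Real.exp (-x)) := by
      have := hF.continuous
      fun_prop
    exact hc.aestronglyMeasurable
  · refine (ae_restrict_iff' measurableSet_Ioi).2 (Filter.Eventually.of_forall fun x hx => ?_)
    have hx0 : (0 : ℝ) < x := hx
    have h1 := lip_bound hF u (b * x)
    rw [abs_mul, abs_of_pos hx0] at h1
    rw [Real.norm_eq_abs, abs_mul, abs_of_pos (Real.exp_pos _)]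
    have he := Real.exp_pos (-x)
    nlinarith

lemma T_mono {F G : ℝ → ℝ} {K K' : NNReal} (hF : LipschitzWith K F) (hG : LipschitzWith K' G)
    (h : ∀ u, F u ≤ G u) (b u : ℝ) : T b F u ≤ T b G u := by
  unfold T
  refine setIntegral_mono (T_integrable hF b u) (T_integrable hG b u) (fun x => ?_)
  exact mul_le_mul_of_nonneg_right (h _) (Real.exp_pos _).le

lemma T_const (b k u : ℝ) : T b (fun _ => k) u = k := by
  unfold T
  rw [integral_const_mul, integral_exp_neg_Ioi_zero, mul_one]

lemma T_add {F G : ℝ → ℝ} {K K' : NNReal} (hF : LipschitzWith K F) (hG : LipschitzWith K' G)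
    (b u : ℝ) : T b (fun v => F v + G v) u = T b F u + T b G u := by
  unfold T
  rw [← integral_add (T_integrable hF b u) (T_integrable hG b u)]
  congr 1
  funext x
  ring

lemma T_sub {F G : ℝ → ℝ} {K K' : NNReal} (hF : LipschitzWith K F) (hG : LipschitzWith K' G)
    (b u : ℝ) : T b (fun v => F v - G v) u = T b F u - T b G u := by
  unfold T
  rw [← integral_sub (T_integrable hF b u) (T_integrable hG b u)]
  congr 1
  funext x
  ring

lemma T_const_mul (F : ℝ → ℝ) (k b u : ℝ) : T b (fun v => k * F v) u = k * T b F u := by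
  unfold T
  rw [← integral_const_mul]
  congr 1
  funext x
  ring

lemma T_zero (F : ℝ → ℝ) : T 0 F = F := by
  funext u
  unfold T
  simp only [zero_mul, add_zero]
  rw [integral_const_mul, integral_exp_neg_Ioi_zero, mul_one]

lemma T_id_add (b k u : ℝ) : T b (fun v => v + k) u = u + (b + k) := by
  unfold T
  have h : ∀ x : ℝ, (u + b * x + k) * Real.exp (-x)
      = (u + k) * Real.exp (-x) + b * (x * Real.exp (-x)) := by intro x; ring
  simp_rw [h]
  rw [integral_add (integrableOn_exp_neg'.const_mul _) (integrableOn_mul_exp_neg.const_mul _),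
    integral_const_mul, integral_const_mul, integral_exp_neg_Ioi_zero, integral_mul_exp_neg]
  ring

lemma T_nonneg {F : ℝ → ℝ} (h : ∀ u, 0 ≤ F u) (b u : ℝ) : 0 ≤ T b F u := by
  unfold T
  exact integral_nonneg (fun x => mul_nonneg (h _) (Real.exp_pos _).le)

lemma T_monotone {F : ℝ → ℝ} {K : NNReal} (hF : LipschitzWith K F) (hm : Monotone F) (b : ℝ) :
    Monotone (T b F) := by
  intro u v huv
  unfold T
  refine setIntegral_mono (T_integrable hF b u) (T_integrable hF b v) (fun x => ?_)
  exact mul_le_mul_of_nonneg_right (hm (by linarith)) (Real.exp_pos _).le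

lemma T_lipschitz {F : ℝ → ℝ} {K : NNReal} (hF : LipschitzWith K F) (b : ℝ) :
    LipschitzWith K (T b F) := by
  refine LipschitzWith.of_dist_le_mul (fun u v => ?_)
  rw [Real.dist_eq, Real.dist_eq]
  unfold T
  rw [← integral_sub (T_integrable hF b u) (T_integrable hF b v)]
  have h1 : ‖∫ x in Ioi (0 : ℝ), (F (u + b * x) * Real.exp (-x) - F (v + b * x) * Real.exp (-x))‖
      ≤ ∫ x in Ioi (0 : ℝ), (K * |u - v|) * Real.exp (-x) := by
    refine norm_integral_le_of_norm_le (integrableOn_exp_neg'.const_mul _) ?_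
    refine Filter.Eventually.of_forall (fun x => ?_)
    have h := hF.dist_le_mul (u + b * x) (v + b * x)
    rw [Real.dist_eq, Real.dist_eq] at h
    have h3 : u + b * x - (v + b * x) = u - v := by ring
    rw [h3] at h
    rw [← sub_mul, Real.norm_eq_abs, abs_mul, abs_of_pos (Real.exp_pos _)]
    exact mul_le_mul_of_nonneg_right h (Real.exp_pos _).le
  rw [integral_const_mul, integral_exp_neg_Ioi_zero, mul_one, Real.norm_eq_abs] at h1
  exact h1

lemma T_lower_affine {F : ℝ → ℝ} {K : NNReal} (hF : LipschitzWith K F) {k : ℝ}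
    (h : ∀ u, u + k ≤ F u) (b u : ℝ) : u + (b + k) ≤ T b F u := by
  rw [← T_id_add b k u]
  have hl : LipschitzWith 1 (fun v : ℝ => v + k) :=
    LipschitzWith.of_dist_le_mul (fun x y => by simp [Real.dist_eq])
  exact T_mono hl hF h b u

end Crest.Agent.S0423
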