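import Mathlib
import Crest.Agent.S0423_Defs
import Crest.Agent.S0423_Weight

/-! Commutation (Fubini) step for S0423:
`1 - TL l g z = ∫₀^∞ (1 - y) e^{-y} (TL l hinge) (z - y) dy`. -/

set_option autoImplicit false

open MeasureTheory Set

namespace Crest.Agent.S0423

namespace H22

/-- Real-valued Lipschitz predicate. -/
def Lip (F : ℝ → ℝ) : Prop := ∃ K : ℝ, 0 ≤ K ∧ ∀ u v, |F u - F v| ≤ K * |u - v|

lemma Lip.continuous {F : ℝ → ℝ} (h : Lip F) : Continuous F := by
  obtain ⟨K, hK, hF⟩ := h
  have : LipschitzWith K.toNNReal F := by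
    refine LipschitzWith.of_dist_le_mul fun u v => ?_
    rw [Real.dist_eq, Real.dist_eq, Real.coe_toNNReal K hK]
    exact hF u v
  exact this.continuous

lemma one_add_le_two_exp_half {x : ℝ} : 1 + x ≤ 2 * Real.exp (x / 2) := by
  have := Real.add_one_le_exp (x / 2)
  linarith

lemma integrableOn_exp_half : IntegrableOn (fun x : ℝ => Real.exp (-(x / 2))) (Ioi 0) := by
  have := exp_neg_integrableOn_Ioi 0 (b := 1 / 2) (by norm_num)
  refine this.congr_fun (fun x _ => ?_) measurableSet_Ioi
  show Real.exp (-(1 / 2) * x) = Real.exp (-(x / 2))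
  congr 1
  ring

/-- growth bound for Lipschitz functions along a ray -/
lemma Lip.growth {F : ℝ → ℝ} (h : Lip F) (b : ℝ) :
    ∃ K : ℝ, 0 ≤ K ∧ ∀ u x, 0 ≤ x → |F (u + b * x)| ≤ (|F u| + K) * (1 + x) := by
  obtain ⟨K, hK, hF⟩ := h
  refine ⟨K * |b|, by positivity, fun u x hx => ?_⟩
  have h1 : |F (u + b * x) - F u| ≤ K * |u + b * x - u| := hF _ _
  have h2 : |u + b * x - u| = |b| * x := by
    rw [add_sub_cancel_left, abs_mul, abs_of_nonneg hx]
  rw [h2] at h1
  have h3 : |F (u + b * x)| ≤ |F u| + |F (u + b * x) - F u| := by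
    have := abs_add_le (F u) (F (u + b * x) - F u)
    simpa using this
  have h4 : 0 ≤ |F u| * x := by positivity
  have h5 : 0 ≤ K * |b| := by positivity
  nlinarith

lemma Lip.integrableOn {F : ℝ → ℝ} (h : Lip F) (b u : ℝ) :
    IntegrableOn (fun x => F (u + b * x) * Real.exp (-x)) (Ioi 0) := by
  obtain ⟨K, hK, hg⟩ := h.growth b
  have hc : Continuous fun x => F (u + b * x) * Real.exp (-x) := by
    have := h.continuous
    fun_prop
  refine Integrable.mono' (integrableOn_exp_half.const_mul (2 * (|F u| + K)))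
    hc.aestronglyMeasurable ?_
  refine (ae_restrict_iff' measurableSet_Ioi).mpr (Filter.Eventually.of_forall fun x hx => ?_)
  have hx0 : 0 ≤ x := (mem_Ioi.mp hx).le
  rw [norm_mul, Real.norm_eq_abs, Real.norm_eq_abs, abs_of_pos (Real.exp_pos _)]
  have h1 := hg u x hx0
  have h2 : (1 + x) * Real.exp (-x) ≤ 2 * Real.exp (-(x / 2)) := by
    have h3 := mul_le_mul_of_nonneg_right (one_add_le_two_exp_half (x := x)) (Real.exp_pos (-x)).le
    have h4 : Real.exp (x / 2) * Real.exp (-x) = Real.exp (-(x / 2)) := by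
      rw [← Real.exp_add]; congr 1; ring
    calc (1 + x) * Real.exp (-x) ≤ 2 * Real.exp (x / 2) * Real.exp (-x) := h3
      _ = 2 * Real.exp (-(x / 2)) := by rw [mul_assoc, h4]
  have h5 : 0 ≤ |F u| + K := by positivity
  calc |F (u + b * x)| * Real.exp (-x) ≤ (|F u| + K) * (1 + x) * Real.exp (-x) :=
        mul_le_mul_of_nonneg_right h1 (Real.exp_pos _).le
    _ = (|F u| + K) * ((1 + x) * Real.exp (-x)) := by ring
    _ ≤ (|F u| + K) * (2 * Real.exp (-(x / 2))) := mul_le_mul_of_nonneg_left h2 h5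
    _ = 2 * (|F u| + K) * Real.exp (-(x / 2)) := by ring

lemma T_sub {F G : ℝ → ℝ} (hF : Lip F) (hG : Lip G) (b u : ℝ) :
    T b (fun z => F z - G z) u = T b F u - T b G u := by
  unfold T
  rw [← integral_sub (hF.integrableOn b u) (hG.integrableOn b u)]
  refine integral_congr_ae (Filter.Eventually.of_forall fun x => ?_)
  simp only
  ring

lemma T_one (b u : ℝ) : T b (fun _ => (1 : ℝ)) u = 1 := by
  unfold T
  simp only [one_mul]
  exact integral_exp_neg_Ioi_zero

lemma lip_const (c : ℝ) : Lip (fun _ => c) := ⟨0, le_rfl, fun u v => by simp⟩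

lemma Lip.sub {F G : ℝ → ℝ} (hF : Lip F) (hG : Lip G) : Lip (fun z => F z - G z) := by
  obtain ⟨K, hK, hF⟩ := hF
  obtain ⟨L, hL, hG⟩ := hG
  refine ⟨K + L, by positivity, fun u v => ?_⟩
  have h1 : F u - G u - (F v - G v) = (F u - F v) - (G u - G v) := by ring
  rw [h1]
  calc |F u - F v - (G u - G v)| ≤ |F u - F v| + |G u - G v| := abs_sub _ _
    _ ≤ K * |u - v| + L * |u - v| := add_le_add (hF u v) (hG u v)
    _ = (K + L) * |u - v| := by ring

lemma Lip.T {F : ℝ → ℝ} (hF : Lip F) (b : ℝ) : Lip (T b F) := by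
  obtain ⟨K, hK, hK'⟩ := id hF
  refine ⟨K, hK, fun u v => ?_⟩
  unfold Crest.Agent.S0423.T
  rw [← integral_sub (hF.integrableOn b u) (hF.integrableOn b v)]
  have hbound : ∀ x ∈ Ioi (0 : ℝ), ‖F (u + b * x) * Real.exp (-x) - F (v + b * x) * Real.exp (-x)‖
      ≤ K * |u - v| * Real.exp (-x) := by
    intro x _
    rw [← sub_mul, norm_mul, Real.norm_eq_abs, Real.norm_eq_abs, abs_of_pos (Real.exp_pos _)]
    refine mul_le_mul_of_nonneg_right ?_ (Real.exp_pos _).le
    have := hK' (u + b * x) (v + b * x)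
    rwa [add_sub_add_right_eq_sub] at this
  have h1 := norm_integral_le_of_norm_le ((integrableOn_exp_neg_Ioi 0).const_mul (K * |u - v|))
    ((ae_restrict_iff' measurableSet_Ioi).mpr (Filter.Eventually.of_forall hbound))
  rw [integral_const_mul, integral_exp_neg_Ioi_zero, mul_one, Real.norm_eq_abs] at h1
  exact h1

lemma Lip.TL {F : ℝ → ℝ} (hF : Lip F) (l : List ℝ) : Lip (TL l F) := by
  induction l with
  | nil => exact hF
  | cons b l ih => exact ih.T b

lemma lip_hinge : Lip hinge := by
  refine ⟨1, zero_le_one, fun u v => ?_⟩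
  unfold hinge
  rw [one_mul]
  exact abs_max_sub_max_le_abs u v 0

/-- The operator `M F z = ∫₀^∞ (1 - y) e^{-y} F (z - y) dy`. -/
noncomputable def M (F : ℝ → ℝ) (z : ℝ) : ℝ :=
  ∫ y in Ioi (0 : ℝ), (1 - y) * Real.exp (-y) * F (z - y)

lemma sq_le_eight_exp_half {y : ℝ} (hy : 0 ≤ y) : (1 + y) ^ 2 ≤ 8 * Real.exp (y / 2) := by
  have h := Real.quadratic_le_exp_of_nonneg (x := y / 2) (by positivity)
  nlinarith

lemma kernel_bound {y : ℝ} (hy : 0 ≤ y) :
    |1 - y| * Real.exp (-y) * (1 + y) ≤ 8 * Real.exp (-(y / 2)) := by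
  have h1 : |1 - y| ≤ 1 + y := by
    rw [abs_le]; constructor <;> linarith
  have h4 : Real.exp (y / 2) * Real.exp (-y) = Real.exp (-(y / 2)) := by
    rw [← Real.exp_add]; congr 1; ring
  have h5 : 0 ≤ 1 + y := by linarith
  calc |1 - y| * Real.exp (-y) * (1 + y) ≤ (1 + y) * Real.exp (-y) * (1 + y) := by
        gcongr
    _ = (1 + y) ^ 2 * Real.exp (-y) := by ring
    _ ≤ 8 * Real.exp (y / 2) * Real.exp (-y) :=
        mul_le_mul_of_nonneg_right (sq_le_eight_exp_half hy) (Real.exp_pos _).le
    _ = 8 * Real.exp (-(y / 2)) := by rw [mul_assoc, h4]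

lemma Lip.M_integrableOn {F : ℝ → ℝ} (h : Lip F) (z : ℝ) :
    IntegrableOn (fun y => (1 - y) * Real.exp (-y) * F (z - y)) (Ioi 0) := by
  obtain ⟨K, hK, hg⟩ := h.growth (-1)
  have hc : Continuous fun y => (1 - y) * Real.exp (-y) * F (z - y) := by
    have := h.continuous
    fun_prop
  refine Integrable.mono' (integrableOn_exp_half.const_mul (8 * (|F z| + K)))
    hc.aestronglyMeasurable ?_
  refine (ae_restrict_iff' measurableSet_Ioi).mpr (Filter.Eventually.of_forall fun y hy => ?_)
  have hy0 : 0 ≤ y := (mem_Ioi.mp hy).le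
  rw [norm_mul, norm_mul, Real.norm_eq_abs, Real.norm_eq_abs, Real.norm_eq_abs,
    abs_of_pos (Real.exp_pos _)]
  have h1 := hg z y hy0
  have e : z + -1 * y = z - y := by ring
  rw [e] at h1
  have h5 : 0 ≤ |F z| + K := by positivity
  calc |1 - y| * Real.exp (-y) * |F (z - y)|
      ≤ |1 - y| * Real.exp (-y) * ((|F z| + K) * (1 + y)) := by gcongr
    _ = (|F z| + K) * (|1 - y| * Real.exp (-y) * (1 + y)) := by ring
    _ ≤ (|F z| + K) * (8 * Real.exp (-(y / 2))) := mul_le_mul_of_nonneg_left (kernel_bound hy0) h5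
    _ = 8 * (|F z| + K) * Real.exp (-(y / 2)) := by ring

lemma integral_exp_half : ∫ x in Ioi (0 : ℝ), Real.exp (-(x / 2)) = 2 := by
  have h := integral_exp_mul_Ioi (a := -(1 / 2)) (by norm_num) 0
  have e : (fun x : ℝ => Real.exp (-(x / 2))) = fun x : ℝ => Real.exp (-(1 / 2) * x) := by
    funext x; congr 1; ring
  rw [e, h]
  norm_num

lemma Lip.M {F : ℝ → ℝ} (hF : Lip F) : Lip (M F) := by
  obtain ⟨K, hK, hK'⟩ := id hF
  refine ⟨16 * K, by positivity, fun u v => ?_⟩
  unfold H22.M
  rw [← integral_sub (hF.M_integrableOn u) (hF.M_integrableOn v)]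
  have hbound : ∀ y ∈ Ioi (0 : ℝ),
      ‖(1 - y) * Real.exp (-y) * F (u - y) - (1 - y) * Real.exp (-y) * F (v - y)‖
      ≤ 8 * (K * |u - v|) * Real.exp (-(y / 2)) := by
    intro y hy
    have hy0 : 0 ≤ y := (mem_Ioi.mp hy).le
    rw [← mul_sub, norm_mul, norm_mul, Real.norm_eq_abs, Real.norm_eq_abs, Real.norm_eq_abs,
      abs_of_pos (Real.exp_pos _)]
    have h1 := hK' (u - y) (v - y)
    rw [sub_sub_sub_cancel_right] at h1
    have h2 := kernel_bound hy0
    have h3 : |1 - y| * Real.exp (-y) ≤ |1 - y| * Real.exp (-y) * (1 + y) := by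
      have : 0 ≤ |1 - y| * Real.exp (-y) := by positivity
      nlinarith
    have h4 : 0 ≤ K * |u - v| := by positivity
    calc |1 - y| * Real.exp (-y) * |F (u - y) - F (v - y)|
        ≤ (8 * Real.exp (-(y / 2))) * (K * |u - v|) := by
          apply mul_le_mul (h3.trans h2) h1 (abs_nonneg _) (by positivity)
      _ = 8 * (K * |u - v|) * Real.exp (-(y / 2)) := by ring
  have h1 := norm_integral_le_of_norm_le (integrableOn_exp_half.const_mul (8 * (K * |u - v|)))
    ((ae_restrict_iff' measurableSet_Ioi).mpr (Filter.Eventually.of_forall hbound))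
  rw [integral_const_mul, integral_exp_half, Real.norm_eq_abs] at h1
  calc _ ≤ 8 * (K * |u - v|) * 2 := h1
    _ = 16 * K * |u - v| := by ring

/-- Fubini: `T b` commutes with `M` on Lipschitz functions. -/
lemma T_M_comm {F : ℝ → ℝ} (hF : Lip F) (b u : ℝ) : T b (M F) u = M (T b F) u := by
  obtain ⟨K, hK, hK'⟩ := id hF
  unfold Crest.Agent.S0423.T H22.M
  have hcontF := hF.continuous
  -- the two-variable integrand
  set f : ℝ → ℝ → ℝ := fun x y => (1 - y) * Real.exp (-y) * F (u + b * x - y) * Real.exp (-x)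
    with hf
  have hint : Integrable (Function.uncurry f)
      (((volume : Measure ℝ).restrict (Ioi 0)).prod ((volume : Measure ℝ).restrict (Ioi 0))) := by
    have hdom : Integrable (fun p : ℝ × ℝ =>
        (2 * (|F u| + K * |b| + K) * Real.exp (-(p.1 / 2))) * (8 * Real.exp (-(p.2 / 2))))
        (((volume : Measure ℝ).restrict (Ioi 0)).prod ((volume : Measure ℝ).restrict (Ioi 0))) :=
      Integrable.mul_prod (f := fun x : ℝ => 2 * (|F u| + K * |b| + K) * Real.exp (-(x / 2)))
        (g := fun y : ℝ => 8 * Real.exp (-(y / 2)))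
        (integrableOn_exp_half.const_mul _) (integrableOn_exp_half.const_mul _)
    have hc : Continuous (Function.uncurry f) := by
      simp only [hf, Function.uncurry_def]
      fun_prop
    refine hdom.mono' hc.aestronglyMeasurable ?_
    rw [Measure.prod_restrict]
    refine (ae_restrict_iff' (measurableSet_Ioi.prod measurableSet_Ioi)).mpr
      (Filter.Eventually.of_forall fun p hp => ?_)
    obtain ⟨x, y⟩ := p
    have hx0 : 0 ≤ x := (mem_Ioi.mp hp.1).le
    have hy0 : 0 ≤ y := (mem_Ioi.mp hp.2).le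
    simp only [Function.uncurry_apply_pair, hf]
    rw [norm_mul, norm_mul, norm_mul, Real.norm_eq_abs, Real.norm_eq_abs, Real.norm_eq_abs,
      Real.norm_eq_abs, abs_of_pos (Real.exp_pos _), abs_of_pos (Real.exp_pos _)]
    have h1 : |F (u + b * x - y)| ≤ (|F u| + K * |b| + K) * ((1 + x) * (1 + y)) := by
      have h2 := hK' (u + b * x - y) u
      have h3 : |u + b * x - y - u| ≤ |b| * x + y := by
        have e : u + b * x - y - u = b * x + -y := by ring
        rw [e]
        calc |b * x + -y| ≤ |b * x| + |-y| := abs_add_le _ _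
          _ = |b| * x + y := by rw [abs_mul, abs_of_nonneg hx0, abs_neg, abs_of_nonneg hy0]
      have h4 : |F (u + b * x - y)| ≤ |F u| + |F (u + b * x - y) - F u| := by
        have := abs_add_le (F u) (F (u + b * x - y) - F u)
        simpa using this
      have h5 : |F (u + b * x - y) - F u| ≤ K * (|b| * x + y) :=
        h2.trans (mul_le_mul_of_nonneg_left h3 hK)
      have hb0 := abs_nonneg b
      have hF0 := abs_nonneg (F u)
      have e1 : 0 ≤ |F u| * (x + y + x * y) := by positivity
      have e2 : 0 ≤ K * |b| * (1 + y + x * y) := by positivity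
      have e3 : 0 ≤ K * (1 + x + x * y) := by positivity
      nlinarith
    have h6 : (1 + x) * Real.exp (-x) ≤ 2 * Real.exp (-(x / 2)) := by
      have h3 := mul_le_mul_of_nonneg_right (one_add_le_two_exp_half (x := x))
        (Real.exp_pos (-x)).le
      have h4 : Real.exp (x / 2) * Real.exp (-x) = Real.exp (-(x / 2)) := by
        rw [← Real.exp_add]; congr 1; ring
      calc (1 + x) * Real.exp (-x) ≤ 2 * Real.exp (x / 2) * Real.exp (-x) := h3
        _ = 2 * Real.exp (-(x / 2)) := by rw [mul_assoc, h4]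
    have h7 := kernel_bound hy0
    have hC : 0 ≤ |F u| + K * |b| + K := by positivity
    calc |1 - y| * Real.exp (-y) * |F (u + b * x - y)| * Real.exp (-x)
        ≤ |1 - y| * Real.exp (-y) * ((|F u| + K * |b| + K) * ((1 + x) * (1 + y)))
            * Real.exp (-x) := by gcongr
      _ = (|F u| + K * |b| + K) * ((1 + x) * Real.exp (-x))
            * (|1 - y| * Real.exp (-y) * (1 + y)) := by ring
      _ ≤ (|F u| + K * |b| + K) * (2 * Real.exp (-(x / 2))) * (8 * Real.exp (-(y / 2))) := by
          gcongr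
      _ = 2 * (|F u| + K * |b| + K) * Real.exp (-(x / 2)) * (8 * Real.exp (-(y / 2))) := by ring
  have hswap := integral_integral_swap hint
  calc ∫ x in Ioi (0 : ℝ), (∫ y in Ioi (0 : ℝ), (1 - y) * Real.exp (-y) * F (u + b * x - y))
          * Real.exp (-x)
      = ∫ x in Ioi (0 : ℝ), ∫ y in Ioi (0 : ℝ), f x y := by
        refine integral_congr_ae (Filter.Eventually.of_forall fun x => ?_)
        simp only [hf]
        rw [integral_mul_const]
    _ = ∫ y in Ioi (0 : ℝ), ∫ x in Ioi (0 : ℝ), f x y := hswap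
    _ = ∫ y in Ioi (0 : ℝ), (1 - y) * Real.exp (-y)
          * ∫ x in Ioi (0 : ℝ), F (u - y + b * x) * Real.exp (-x) := by
        refine integral_congr_ae (Filter.Eventually.of_forall fun y => ?_)
        simp only [hf]
        rw [← integral_const_mul]
        refine integral_congr_ae (Filter.Eventually.of_forall fun x => ?_)
        simp only
        have e : u + b * x - y = u - y + b * x := by ring
        rw [e]
        ring

end H22

open H22 Crest.AlgGeometry in
/-- `1 - TL l g z = ∫₀^∞ (1 - y) e^{-y} (TL l hinge) (z - y) dy`. -/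
theorem TL_one_sub (l : List ℝ) (z : ℝ) :
    1 - TL l truncExpWeight z =
      ∫ y in Set.Ioi (0 : ℝ), (1 - y) * Real.exp (-y) * TL l hinge (z - y) := by
  have hg : truncExpWeight = fun z => (1 : ℝ) - M hinge z := by
    funext z
    have := one_sub_truncExpWeight z
    unfold H22.M
    linarith
  have key : ∀ l : List ℝ, (∀ z, TL l truncExpWeight z = 1 - M (TL l hinge) z) := by
    intro l
    induction l with
    | nil => intro z; simp only [TL]; rw [hg]
    | cons b l ih =>
      intro z
      simp only [TL]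
      have h1 : TL l truncExpWeight = fun z => (fun _ => (1 : ℝ)) z - M (TL l hinge) z := by
        funext z; exact ih z
      rw [h1, T_sub (lip_const 1) (lip_hinge.TL l).M, T_one, T_M_comm (lip_hinge.TL l)]
  rw [key l z]
  unfold H22.M
  ring

end Crest.Agent.S0423
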