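import Crest.Agent.S0423_Basic

/-! The derivative of `T b F`:  `(T b F)' = (T b F - F) / b`. -/

set_option autoImplicit false

open MeasureTheory Set Real

namespace Crest.Agent.S0423

lemma integrableOn_tail {F : ℝ → ℝ} {K : NNReal} (hF : LipschitzWith K F) {b : ℝ} (hb : 0 < b)
    (u : ℝ) : IntegrableOn (fun s : ℝ => F s * Real.exp (-(s / b))) (Ioi u) := by
  have h1 := T_integrable hF b u
  have h2 : IntegrableOn (fun y : ℝ => F (u + y) * Real.exp (-(y / b))) (Ioi (b * 0)) := by
    rw [← integrableOn_Ioi_comp_mul_left_iff _ _ hb]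
    refine h1.congr_fun (fun x _ => ?_) measurableSet_Ioi
    have : b * x / b = x := by field_simp
    simp only [this]
  rw [mul_zero] at h2
  have h3 : IntegrableOn (fun s : ℝ => F s * Real.exp (-((s - u) / b))) (Ioi u) := by
    have := (measurePreserving_add_left volume u).integrableOn_comp_preimage
      (measurableEmbedding_addLeft u) (f := fun s : ℝ => F s * Real.exp (-((s - u) / b)))
      (s := Ioi u)
    rw [← this]
    have hpre : (fun x : ℝ => u + x) ⁻¹' Ioi u = Ioi 0 := by
      rw [Set.preimage_const_add_Ioi]; simp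
    rw [hpre]
    refine h2.congr_fun (fun y _ => ?_) measurableSet_Ioi
    simp [Function.comp]
  have h4 : IntegrableOn (fun s : ℝ => Real.exp (-(u / b)) * (F s * Real.exp (-((s - u) / b))))
      (Ioi u) := h3.const_mul (Real.exp (-(u / b)))
  refine h4.congr_fun (fun s _ => ?_) measurableSet_Ioi
  have : Real.exp (-(s / b)) = Real.exp (-(u / b)) * Real.exp (-((s - u) / b)) := by
    rw [← Real.exp_add]; congr 1; field_simp; ring
  simp only [this]; ring

lemma T_eq_tail {F : ℝ → ℝ} {b : ℝ} (hb : 0 < b) (u : ℝ) :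
    T b F u = b⁻¹ * Real.exp (u / b) * ∫ s in Ioi u, F s * Real.exp (-(s / b)) := by
  unfold T
  have h1 : ∫ x in Ioi (0 : ℝ), F (u + b * x) * Real.exp (-x)
      = b⁻¹ • ∫ y in Ioi (b * 0), F (u + y) * Real.exp (-(y / b)) := by
    rw [← integral_comp_mul_left_Ioi (fun y : ℝ => F (u + y) * Real.exp (-(y / b))) 0 hb]
    refine setIntegral_congr_fun measurableSet_Ioi (fun x _ => ?_)
    have : b * x / b = x := by field_simp
    simp only [this]
  rw [h1, mul_zero]
  have h2 : ∫ y in Ioi (0 : ℝ), F (u + y) * Real.exp (-(y / b))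
      = ∫ s in Ioi u, F s * Real.exp (-((s - u) / b)) := by
    have := (measurePreserving_add_left volume u).setIntegral_preimage_emb
      (measurableEmbedding_addLeft u) (fun s : ℝ => F s * Real.exp (-((s - u) / b))) (Ioi u)
    have hpre : (fun x : ℝ => u + x) ⁻¹' Ioi u = Ioi 0 := by
      rw [Set.preimage_const_add_Ioi]; simp
    rw [hpre] at this
    rw [← this]
    refine setIntegral_congr_fun measurableSet_Ioi (fun y _ => ?_)
    simp
  rw [h2, smul_eq_mul, mul_assoc]
  have h3 : ∫ s in Ioi u, F s * Real.exp (-((s - u) / b))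
      = Real.exp (u / b) * ∫ s in Ioi u, F s * Real.exp (-(s / b)) := by
    rw [← integral_const_mul]
    refine setIntegral_congr_fun measurableSet_Ioi (fun s _ => ?_)
    have : Real.exp (-((s - u) / b)) = Real.exp (u / b) * Real.exp (-(s / b)) := by
      rw [← Real.exp_add]; congr 1; field_simp; ring
    simp only [this]; ring
  rw [h3]

lemma hasDerivAt_tail {h : ℝ → ℝ} (hc : Continuous h) (hi : ∀ a, IntegrableOn h (Ioi a)) (u : ℝ) :
    HasDerivAt (fun v => ∫ s in Ioi v, h s) (-h u) u := by
  have h1 : (fun v => ∫ s in Ioi v, h s) = fun v => (∫ s in Ioi (0 : ℝ), h s) - ∫ s in (0 : ℝ)..v, h s := by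
    funext v
    rw [← intervalIntegral.integral_Ioi_sub_Ioi' (hi 0) (hi v)]
    ring
  rw [h1]
  have h2 := (hc.integral_hasStrictDerivAt 0 u).hasDerivAt
  exact h2.const_sub _

lemma T_hasDerivAt_pos {F : ℝ → ℝ} {K : NNReal} (hF : LipschitzWith K F) {b : ℝ} (hb : 0 < b)
    (u : ℝ) : HasDerivAt (T b F) ((T b F u - F u) / b) u := by
  have hfun : T b F = fun v => b⁻¹ * Real.exp (v / b) * ∫ s in Ioi v, F s * Real.exp (-(s / b)) := by
    funext v; exact T_eq_tail hb v
  have hc : Continuous (fun s : ℝ => F s * Real.exp (-(s / b))) := by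
    have := hF.continuous
    fun_prop
  have hK := hasDerivAt_tail hc (fun a => integrableOn_tail hF hb a) u
  have hE : HasDerivAt (fun v : ℝ => b⁻¹ * Real.exp (v / b)) (b⁻¹ * (Real.exp (u / b) * (1 / b))) u := by
    have := ((hasDerivAt_id u).div_const b).exp
    exact this.const_mul _
  have hP := hE.mul hK
  have hval : (T b F u - F u) / b = b⁻¹ * (Real.exp (u / b) * (1 / b)) *
      (∫ s in Ioi u, F s * Real.exp (-(s / b))) +
      b⁻¹ * Real.exp (u / b) * -(F u * Real.exp (-(u / b))) := by
    rw [T_eq_tail hb u]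
    have he : Real.exp (u / b) * Real.exp (-(u / b)) = 1 := by
      rw [← Real.exp_add]; simp
    have : b⁻¹ * Real.exp (u / b) * -(F u * Real.exp (-(u / b)))
        = - (b⁻¹ * F u * (Real.exp (u / b) * Real.exp (-(u / b)))) := by ring
    rw [this, he]
    field_simp
    ring
  rw [hval, hfun]
  exact hP

lemma T_neg_eq (F : ℝ → ℝ) (b u : ℝ) : T (-b) F u = T b (fun v => F (-v)) (-u) := by
  unfold T
  congr 1
  funext x
  congr 2
  ring

lemma T_hasDerivAt {F : ℝ → ℝ} {K : NNReal} (hF : LipschitzWith K F) {b : ℝ} (hb : b ≠ 0)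
    (u : ℝ) : HasDerivAt (T b F) ((T b F u - F u) / b) u := by
  rcases lt_or_gt_of_ne hb with hneg | hpos
  · have hF' : LipschitzWith K (fun v => F (-v)) := by
      refine LipschitzWith.of_dist_le_mul (fun x y => ?_)
      have := hF.dist_le_mul (-x) (-y)
      simpa [Real.dist_eq, abs_sub_comm, neg_add_eq_sub] using this
    have hb' : 0 < -b := by linarith
    have h1 := T_hasDerivAt_pos hF' hb' (-u)
    have h2 : HasDerivAt (fun v : ℝ => -v) (-1) u := (hasDerivAt_id u).neg
    have h3 := HasDerivAt.comp u h1 h2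
    have hfun : T b F = (T (-b) fun v => F (-v)) ∘ fun v => -v := by
      funext v
      have := T_neg_eq F (-b) v
      simpa using this
    have hu : T b F u = T (-b) (fun v => F (-v)) (-u) := by
      have := T_neg_eq F (-b) u
      simpa using this
    have hval : (T (-b) (fun v => F (-v)) (-u) - F u) / b
        = (T (-b) (fun v => F (-v)) (-u) - F (- -u)) / -b * -1 := by
      rw [neg_neg]; field_simp
    rw [hu, hfun, hval]
    exact h3
  · exact T_hasDerivAt_pos hF hpos u

end Crest.Agent.S0423
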