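import Mathlib
import Crest.Agent.S0423_Defs
import Crest.Agent.S0423_Commute

/-! Final calculus step for S0423: from log-concavity of `A` and `A u ≥ u` to the sharp bound. -/

set_option autoImplicit false

open MeasureTheory Set

namespace Crest.Agent.S0423

namespace H22

/-- The "exponential comparison" form of log-concavity. -/
def LC (A : ℝ → ℝ) : Prop :=
  ∀ c σ x y z : ℝ, 0 < c → x < y → y < z →
    c * Real.exp (σ * x) ≤ A x → c * Real.exp (σ * z) ≤ A z → c * Real.exp (σ * y) ≤ A y

/-- shifted form of `LC` -/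
lemma LC.shift {A : ℝ → ℝ} (h : LC A) (a σ t x y z : ℝ) (ha : 0 < a) (hxy : x ≤ y) (hyz : y ≤ z)
    (hx : a * Real.exp (σ * (x - t)) ≤ A x) (hz : a * Real.exp (σ * (z - t)) ≤ A z) :
    a * Real.exp (σ * (y - t)) ≤ A y := by
  rcases hxy.eq_or_lt with rfl | hxy
  · exact hx
  rcases hyz.eq_or_lt with rfl | hyz
  · exact hz
  have e : ∀ w, a * Real.exp (σ * (w - t)) = (a * Real.exp (-(σ * t))) * Real.exp (σ * w) := by
    intro w
    rw [mul_assoc, ← Real.exp_add]
    congr 2
    ring
  rw [e] at hx hz ⊢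
  exact h _ σ x y z (by positivity) hxy hyz hx hz

lemma integral_mul_exp_neg_mul {κ : ℝ} (hκ : 0 < κ) :
    ∫ y in Ioi (0 : ℝ), y * Real.exp (-(κ * y)) = 1 / κ ^ 2 := by
  have h := Real.integral_rpow_mul_exp_neg_mul_Ioi (a := 2) (r := κ) (by norm_num) hκ
  have e : ∀ y ∈ Ioi (0 : ℝ), y ^ ((2 : ℝ) - 1) * Real.exp (-(κ * y)) = y * Real.exp (-(κ * y)) := by
    intro y _
    have : (2 : ℝ) - 1 = 1 := by norm_num
    rw [this, Real.rpow_one]
  rw [setIntegral_congr_fun measurableSet_Ioi e] at h
  rw [h, Real.Gamma_two, mul_one]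
  have : (1 / κ) ^ (2 : ℝ) = (1 / κ) ^ (2 : ℕ) := by
    rw [← Real.rpow_natCast]; norm_num
  rw [this]
  field_simp

lemma integral_exp_neg_mul {κ : ℝ} (hκ : 0 < κ) :
    ∫ y in Ioi (0 : ℝ), Real.exp (-(κ * y)) = 1 / κ := by
  have h := integral_exp_mul_Ioi (a := -κ) (by linarith) 0
  have e : (fun y : ℝ => Real.exp (-(κ * y))) = fun y : ℝ => Real.exp (-κ * y) := by
    funext y; congr 1; ring
  rw [e, h]
  simp

lemma integrableOn_exp_neg_mul {κ : ℝ} (hκ : 0 < κ) :
    IntegrableOn (fun y : ℝ => Real.exp (-(κ * y))) (Ioi 0) := by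
  have := exp_neg_integrableOn_Ioi 0 hκ
  refine this.congr_fun (fun y _ => ?_) measurableSet_Ioi
  show Real.exp (-κ * y) = Real.exp (-(κ * y))
  congr 1
  ring

lemma integrableOn_mul_exp_neg_mul {κ : ℝ} (hκ : 0 < κ) :
    IntegrableOn (fun y : ℝ => y * Real.exp (-(κ * y))) (Ioi 0) := by
  by_contra hcon
  have h := integral_mul_exp_neg_mul hκ
  rw [integral_undef hcon] at h
  have : 0 < 1 / κ ^ 2 := by positivity
  linarith

/-- `∫₀^∞ (1 - y) e^{-y} e^{-s y} dy = s / (1 + s)^2`. -/
lemma integral_kernel_exp {s : ℝ} (hs : 0 < s) :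
    ∫ y in Ioi (0 : ℝ), (1 - y) * Real.exp (-y) * Real.exp (-(s * y)) = s / (1 + s) ^ 2 := by
  have hκ : 0 < 1 + s := by linarith
  have e : ∀ y : ℝ, (1 - y) * Real.exp (-y) * Real.exp (-(s * y))
      = Real.exp (-((1 + s) * y)) - y * Real.exp (-((1 + s) * y)) := by
    intro y
    rw [mul_assoc, ← Real.exp_add]
    have : -y + -(s * y) = -((1 + s) * y) := by ring
    rw [this]
    ring
  simp_rw [e]
  rw [integral_sub (integrableOn_exp_neg_mul hκ) (integrableOn_mul_exp_neg_mul hκ),
    integral_exp_neg_mul hκ, integral_mul_exp_neg_mul hκ]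
  field_simp
  ring

lemma integrableOn_kernel_exp {s : ℝ} (hs : 0 < s) :
    IntegrableOn (fun y : ℝ => (1 - y) * Real.exp (-y) * Real.exp (-(s * y))) (Ioi 0) := by
  have hκ : 0 < 1 + s := by linarith
  have e : ∀ y : ℝ, (1 - y) * Real.exp (-y) * Real.exp (-(s * y))
      = Real.exp (-((1 + s) * y)) - y * Real.exp (-((1 + s) * y)) := by
    intro y
    rw [mul_assoc, ← Real.exp_add]
    have : -y + -(s * y) = -((1 + s) * y) := by ring
    rw [this]
    ring
  simp_rw [e]
  exact (integrableOn_exp_neg_mul hκ).sub (integrableOn_mul_exp_neg_mul hκ)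

/-- numerical fact `(4/9) e^{-1/3} ≤ 8/25`. -/
lemma const_le : 4 / 9 * Real.exp (-(1 / 3)) ≤ 8 / 25 := by
  have h := Real.quadratic_le_exp_of_nonneg (x := 1 / 3) (by norm_num)
  have h1 : (25 : ℝ) / 18 ≤ Real.exp (1 / 3) := by norm_num at h ⊢; linarith
  have h2 : Real.exp (-(1 / 3)) * Real.exp (1 / 3) = 1 := by
    rw [← Real.exp_add]; simp
  have h3 : 0 < Real.exp (-(1 / 3)) := Real.exp_pos _
  nlinarith

lemma poly_ineq {s : ℝ} (hs : 3 / 2 ≤ s) :
    (24 : ℝ) / 25 * (1 + s) ^ 2 ≤ (1 + s / 2 + (s / 2) ^ 2 / 2) ^ 2 * s := by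
  obtain ⟨t, ht, rfl⟩ : ∃ t : ℝ, 0 ≤ t ∧ s = 3 / 2 + t := ⟨s - 3 / 2, by linarith, by ring⟩
  have e : (1 + (3 / 2 + t) / 2 + ((3 / 2 + t) / 2) ^ 2 / 2) ^ 2 * (3 / 2 + t)
      - 24 / 25 * (1 + (3 / 2 + t)) ^ 2
      = 1/64 * t^5 + 31/128 * t^4 + 205/128 * t^3 + 28831/6400 * t^2 + 23849/5120 * t
        + 387/2048 := by ring
  have : 0 ≤ 1/64 * t^5 + 31/128 * t^4 + 205/128 * t^3 + 28831/6400 * t^2 + 23849/5120 * t
        + 387/2048 := by positivity
  linarith

theorem final_bound (A : ℝ → ℝ) (hLip : Lip A) (hge : ∀ u, u ≤ A u) (hLC : LC A) :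
    4 / 9 * Real.exp (-(1 / 3)) ≤
      ∫ y in Set.Ioi (0 : ℝ), (1 - y) * Real.exp (-y) * A (4 / 3 - y) := by
  set p : ℝ := 1 / 3 with hp
  set c : ℝ := 4 / 3 with hc
  have hAp : 1 / 3 ≤ A p := hge p
  have hAc : 4 / 3 ≤ A c := hge c
  have hAp0 : 0 < A p := by linarith
  have hAc0 : 0 < A c := by linarith
  set s : ℝ := Real.log (A c / A p) with hs
  have hexp_s : Real.exp s = A c / A p := Real.exp_log (by positivity)
  -- the chord
  set L : ℝ → ℝ := fun u => A c * Real.exp (s * (u - c)) with hL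
  have hLc : L c = A c := by simp [hL]
  have hLp : L p = A p := by
    simp only [hL]
    have : s * (p - c) = -s := by rw [hp, hc]; ring
    rw [this, Real.exp_neg, hexp_s]
    field_simp
  have hLpos : ∀ u, 0 < L u := fun u => by simp only [hL]; positivity
  -- inside
  have hin : ∀ u, p ≤ u → u ≤ c → L u ≤ A u := by
    intro u h1 h2
    exact hLC.shift (A c) s c p u c hAc0 h1 h2 hLp.le hLc.le
  -- outside, left
  have hleft : ∀ u, u < p → A u ≤ L u := by
    intro u hu
    by_contra hcon
    have hcon : L u < A u := not_le.mp hcon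
    have hAu0 : 0 < A u := (hLpos u).trans hcon
    have hcu : 0 < c - u := by rw [hc]; rw [hp] at hu; linarith
    set ρ : ℝ := Real.log (A u / L u) / (c - u) with hρ
    have hr : 1 < A u / L u := by rw [one_lt_div (hLpos u)]; exact hcon
    have hρ0 : 0 < ρ := div_pos (Real.log_pos hr) hcu
    have hE : ∀ t, A c * Real.exp ((s - ρ) * (t - c)) = L t * Real.exp (ρ * (c - t)) := by
      intro t
      simp only [hL]
      rw [mul_assoc, ← Real.exp_add]
      congr 2
      ring
    have hEu : A c * Real.exp ((s - ρ) * (u - c)) = A u := by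
      rw [hE u]
      have : ρ * (c - u) = Real.log (A u / L u) := by rw [hρ]; field_simp
      rw [this, Real.exp_log (by positivity)]
      exact mul_div_cancel₀ (A u) (hLpos u).ne'
    have hEc : A c * Real.exp ((s - ρ) * (c - c)) = A c := by simp
    have h1 := hLC.shift (A c) (s - ρ) c u p c hAc0 hu.le (by rw [hp, hc]; norm_num)
      hEu.le hEc.le
    rw [hE p, hLp] at h1
    have h2 : 1 < Real.exp (ρ * (c - p)) := by
      apply Real.one_lt_exp_iff.mpr
      have : 0 < c - p := by rw [hp, hc]; norm_num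
      positivity
    nlinarith
  -- outside, right
  have hright : ∀ u, c < u → A u ≤ L u := by
    intro u hu
    by_contra hcon
    have hcon : L u < A u := not_le.mp hcon
    have hAu0 : 0 < A u := (hLpos u).trans hcon
    have hup : 0 < u - p := by rw [hc] at hu; rw [hp]; linarith
    set ρ : ℝ := Real.log (A u / L u) / (u - p) with hρ
    have hr : 1 < A u / L u := by rw [one_lt_div (hLpos u)]; exact hcon
    have hρ0 : 0 < ρ := div_pos (Real.log_pos hr) hup
    have hE : ∀ t, A p * Real.exp ((s + ρ) * (t - p)) = L t * Real.exp (ρ * (t - p)) := by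
      intro t
      rw [← hLp]
      simp only [hL]
      rw [mul_assoc, ← Real.exp_add, mul_assoc, ← Real.exp_add]
      congr 2
      ring
    have hEu : A p * Real.exp ((s + ρ) * (u - p)) = A u := by
      rw [hE u]
      have : ρ * (u - p) = Real.log (A u / L u) := by rw [hρ]; field_simp
      rw [this, Real.exp_log (by positivity)]
      exact mul_div_cancel₀ (A u) (hLpos u).ne'
    have hEp : A p * Real.exp ((s + ρ) * (p - p)) = A p := by simp
    have h1 := hLC.shift (A p) (s + ρ) p p c u hAp0 (by rw [hp, hc]; norm_num) hu.le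
      hEp.le hEu.le
    rw [hE c, hLc] at h1
    have h2 : 1 < Real.exp (ρ * (c - p)) := by
      apply Real.one_lt_exp_iff.mpr
      have : 0 < c - p := by rw [hp, hc]; norm_num
      positivity
    nlinarith
  -- positivity of s
  have hs0 : 0 < s := by
    by_contra hcon
    have hcon : s ≤ 0 := not_lt.mp hcon
    set u : ℝ := A c + c + 1 with hu
    have hcu : c < u := by rw [hu]; linarith
    have h1 := hright u hcu
    have h2 : L u ≤ A c := by
      simp only [hL]
      have : Real.exp (s * (u - c)) ≤ 1 := by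
        apply Real.exp_le_one_iff.mpr
        have : 0 ≤ u - c := by linarith
        nlinarith
      nlinarith
    have h3 := hge u
    rw [hc] at hu
    linarith
  -- the integral comparison
  have hJ : A c * (s / (1 + s) ^ 2) ≤
      ∫ y in Set.Ioi (0 : ℝ), (1 - y) * Real.exp (-y) * A (c - y) := by
    have hI : ∫ y in Ioi (0 : ℝ), (1 - y) * Real.exp (-y) * L (c - y) = A c * (s / (1 + s) ^ 2) := by
      rw [← integral_kernel_exp hs0, ← integral_const_mul]
      refine integral_congr_ae (Filter.Eventually.of_forall fun y => ?_)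
      simp only [hL]
      have : s * (c - y - c) = -(s * y) := by ring
      rw [this]
      ring
    have hIL : IntegrableOn (fun y => (1 - y) * Real.exp (-y) * L (c - y)) (Ioi 0) := by
      have this : IntegrableOn
          (fun y : ℝ => A c * ((1 - y) * Real.exp (-y) * Real.exp (-(s * y)))) (Ioi 0) :=
        (integrableOn_kernel_exp hs0).const_mul (A c)
      refine this.congr_fun (fun y _ => ?_) measurableSet_Ioi
      simp only [hL]
      have : s * (c - y - c) = -(s * y) := by ring
      rw [this]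
      ring
    rw [← hI]
    refine setIntegral_mono_on hIL (hLip.M_integrableOn c) measurableSet_Ioi (fun y hy => ?_)
    have hy0 : 0 < y := hy
    rcases le_or_gt y 1 with h1 | h1
    · have h2 : L (c - y) ≤ A (c - y) := hin _ (by rw [hp, hc]; linarith) (by linarith)
      have h3 : 0 ≤ (1 - y) * Real.exp (-y) := mul_nonneg (by linarith) (Real.exp_pos _).le
      exact mul_le_mul_of_nonneg_left h2 h3
    · have h2 : A (c - y) ≤ L (c - y) := hleft _ (by rw [hp, hc]; linarith)
      have h3 : (1 - y) * Real.exp (-y) ≤ 0 :=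
        mul_nonpos_of_nonpos_of_nonneg (by linarith) (Real.exp_pos _).le
      exact mul_le_mul_of_nonpos_left h2 h3
  refine le_trans ?_ hJ
  have h1s : 0 < 1 + s := by linarith
  -- three cases
  rcases le_total s (3 / 4) with hs1 | hs1
  · -- s ≤ 3/4
    have hu0 : c ≤ 1 / s := by
      rw [hc, le_div_iff₀ hs0]; linarith
    have h1 : 1 / s ≤ L (1 / s) := by
      rcases hu0.eq_or_lt with h | h
      · rw [← h, hLc]; exact hge c
      · exact (hge _).trans (hright _ h)
    have h2 : L (1 / s) = A c * Real.exp (1 - s * c) := by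
      simp only [hL]
      congr 2
      field_simp
    rw [h2] at h1
    -- A c ≥ exp (s c - 1) / s
    have h3 : Real.exp (s * c - 1) / s ≤ A c := by
      have h4 : Real.exp (s * c - 1) * Real.exp (1 - s * c) = 1 := by
        rw [← Real.exp_add]; simp
      have h5 : 0 < Real.exp (s * c - 1) := Real.exp_pos _
      rw [div_le_iff₀ hs0]
      have h6 : 1 ≤ A c * Real.exp (1 - s * c) * s := by
        rw [div_le_iff₀ hs0] at h1; exact h1
      calc Real.exp (s * c - 1) = Real.exp (s * c - 1) * 1 := by ring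
        _ ≤ Real.exp (s * c - 1) * (A c * Real.exp (1 - s * c) * s) :=
            mul_le_mul_of_nonneg_left h6 h5.le
        _ = A c * s * (Real.exp (s * c - 1) * Real.exp (1 - s * c)) := by ring
        _ = A c * s := by rw [h4, mul_one]
    have h7 : Real.exp (s * c - 1) / (1 + s) ^ 2 ≤ A c * (s / (1 + s) ^ 2) := by
      have : Real.exp (s * c - 1) / (1 + s) ^ 2 = Real.exp (s * c - 1) / s * (s / (1 + s) ^ 2) := by
        field_simp
      rw [this]
      exact mul_le_mul_of_nonneg_right h3 (by positivity)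
    refine le_trans ?_ h7
    rw [le_div_iff₀ (by positivity)]
    -- 4/9 e^{-1/3} (1+s)^2 ≤ e^{4s/3 - 1}
    set w : ℝ := (2 * s - 1) / 3 with hw
    have h8 : 1 + w ≤ Real.exp w := by linarith [Real.add_one_le_exp w]
    have h9 : 0 < 1 + w := by rw [hw]; linarith
    have h10 : (1 + w) ^ 2 ≤ Real.exp w ^ 2 := by
      apply pow_le_pow_left₀ h9.le h8
    have h11 : Real.exp (s * c - 1) = Real.exp (-(1 / 3)) * Real.exp w ^ 2 := by
      rw [← Real.exp_nat_mul, ← Real.exp_add]
      congr 1
      rw [hw, hc]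
      push_cast
      ring
    rw [h11]
    have h12 : (4 : ℝ) / 9 * (1 + s) ^ 2 = (1 + w) ^ 2 := by rw [hw]; ring
    calc 4 / 9 * Real.exp (-(1 / 3)) * (1 + s) ^ 2
        = Real.exp (-(1 / 3)) * (4 / 9 * (1 + s) ^ 2) := by ring
      _ = Real.exp (-(1 / 3)) * (1 + w) ^ 2 := by rw [h12]
      _ ≤ Real.exp (-(1 / 3)) * Real.exp w ^ 2 :=
          mul_le_mul_of_nonneg_left h10 (Real.exp_pos _).le
  · refine le_trans const_le ?_
    rcases le_total s (3 / 2) with hs2 | hs2
    · -- 3/4 ≤ s ≤ 3/2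
      have h1 : (6 : ℝ) / 25 ≤ s / (1 + s) ^ 2 := by
        rw [le_div_iff₀ (by positivity)]
        nlinarith
      have h2 : 0 ≤ s / (1 + s) ^ 2 := by positivity
      nlinarith
    · -- 3/2 ≤ s
      have h1 : A c = A p * Real.exp s := by rw [hexp_s]; field_simp
      have h2 := Real.quadratic_le_exp_of_nonneg (x := s / 2) (by positivity)
      have h3 : Real.exp s = Real.exp (s / 2) ^ 2 := by
        rw [← Real.exp_nat_mul]; congr 1; push_cast; ring
      have h4 : (1 + s / 2 + (s / 2) ^ 2 / 2) ^ 2 ≤ Real.exp s := by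
        rw [h3]
        apply pow_le_pow_left₀ (by positivity) h2
      have h5 : (24 : ℝ) / 25 * (1 + s) ^ 2 ≤ (1 + s / 2 + (s / 2) ^ 2 / 2) ^ 2 * s :=
        poly_ineq hs2
      have h6 : (24 : ℝ) / 25 ≤ Real.exp s * (s / (1 + s) ^ 2) := by
        have : Real.exp s * (s / (1 + s) ^ 2) = Real.exp s * s / (1 + s) ^ 2 := by ring
        rw [this, le_div_iff₀ (by positivity)]
        nlinarith
      rw [h1]
      have h7 : 0 ≤ Real.exp s * (s / (1 + s) ^ 2) := by positivity
      nlinarith

end H22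

end Crest.Agent.S0423
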