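import Crest.Agent.S0423_Deriv

/-! Log-concavity is preserved by the averaging operators `T b`. -/

set_option autoImplicit false

open MeasureTheory Set Real

namespace Crest.Agent.S0423

/-- The class of functions preserved by all `T b`. -/
structure Nice (F : ℝ → ℝ) : Prop where
  nonneg : ∀ u, 0 ≤ F u
  mono : Monotone F
  lip : LipschitzWith 1 F
  logconc : ConcaveOn ℝ {u | 0 < F u} (fun u => Real.log (F u))

lemma Nice.four_point {F : ℝ → ℝ} (hF : Nice F) {r s δ : ℝ} (hrs : r ≤ s) (hδ : 0 ≤ δ) :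
    F r * F (s + δ) ≤ F (r + δ) * F s := by
  rcases (hF.nonneg r).eq_or_lt with h0 | hpos
  · rw [← h0, zero_mul]
    exact mul_nonneg (hF.nonneg _) (hF.nonneg _)
  have h1 : 0 < F (s + δ) := lt_of_lt_of_le hpos (hF.mono (by linarith))
  have h2 : 0 < F (r + δ) := lt_of_lt_of_le hpos (hF.mono (by linarith))
  have h3 : 0 < F s := lt_of_lt_of_le hpos (hF.mono hrs)
  rcases (add_nonneg (sub_nonneg.2 hrs) hδ).eq_or_lt with hD | hD
  · have hs : s = r := by linarith
    have hd : δ = 0 := by linarith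
    subst hs; subst hd; simp [mul_comm]
  set D := s - r + δ with hDdef
  have hc := hF.logconc.2
  have e1 := hc (x := r) (y := s + δ) hpos h1 (a := 1 - δ / D) (b := δ / D)
    (by rw [sub_nonneg, div_le_one hD]; linarith) (by positivity) (by ring)
  have e2 := hc (x := r) (y := s + δ) hpos h1 (a := δ / D) (b := 1 - δ / D)
    (by positivity) (by rw [sub_nonneg, div_le_one hD]; linarith) (by ring)
  have p1 : (1 - δ / D) • r + (δ / D) • (s + δ) = r + δ := by
    simp only [smul_eq_mul]; field_simp; rw [hDdef]; ring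
  have p2 : (δ / D) • r + (1 - δ / D) • (s + δ) = s := by
    simp only [smul_eq_mul]; field_simp; rw [hDdef]; ring
  rw [p1] at e1
  rw [p2] at e2
  simp only [smul_eq_mul] at e1 e2
  have hsum : Real.log (F r) + Real.log (F (s + δ)) ≤ Real.log (F (r + δ)) + Real.log (F s) := by
    nlinarith
  rw [← Real.log_mul hpos.ne' h1.ne', ← Real.log_mul h2.ne' h3.ne'] at hsum
  exact (Real.log_le_log_iff (mul_pos hpos h1) (mul_pos h2 h3)).1 hsum

lemma hinge_nonneg (u : ℝ) : 0 ≤ hinge u := le_max_right _ _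

lemma hinge_of_pos {u : ℝ} (h : 0 < u) : hinge u = u := max_eq_left h.le

lemma hinge_of_nonpos {u : ℝ} (h : u ≤ 0) : hinge u = 0 := max_eq_right h

lemma hinge_pos_iff {u : ℝ} : 0 < hinge u ↔ 0 < u := by
  unfold hinge; simp

lemma hinge_lipschitz : LipschitzWith 1 hinge := by
  refine LipschitzWith.of_dist_le_mul (fun x y => ?_)
  simp only [NNReal.coe_one, one_mul, Real.dist_eq]
  exact abs_max_sub_max_le_abs x y 0

lemma nice_hinge : Nice hinge where
  nonneg := hinge_nonneg
  mono := fun u v h => max_le_max h le_rfl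
  lip := hinge_lipschitz
  logconc := by
    have hset : {u | 0 < hinge u} = Ioi (0 : ℝ) := by
      ext u; simp [hinge_pos_iff]
    rw [hset]
    refine ⟨convex_Ioi 0, fun x hx y hy a b ha hb hab => ?_⟩
    have hz : (0 : ℝ) < a • x + b • y := (convex_Ioi (0 : ℝ)) hx hy ha hb hab
    have := strictConcaveOn_log_Ioi.concaveOn.2 hx hy ha hb hab
    simp only [hinge_of_pos (show (0 : ℝ) < x from hx), hinge_of_pos (show (0 : ℝ) < y from hy),
      hinge_of_pos hz]
    exact this

lemma cross_pos {F : ℝ → ℝ} (hF : Nice F) {b : ℝ} (hb : 0 < b) {w₁ w₂ : ℝ} (h : w₁ ≤ w₂) :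
    F w₁ * T b F w₂ ≤ F w₂ * T b F w₁ := by
  unfold T
  rw [← integral_const_mul, ← integral_const_mul]
  refine setIntegral_mono_on ((T_integrable hF.lip b w₂).const_mul _)
    ((T_integrable hF.lip b w₁).const_mul _) measurableSet_Ioi (fun x hx => ?_)
  have hx0 : (0 : ℝ) < x := hx
  have h4 := hF.four_point h (δ := b * x) (by positivity)
  have he := Real.exp_pos (-x)
  nlinarith

lemma cross_neg {F : ℝ → ℝ} (hF : Nice F) {b : ℝ} (hb : b < 0) {w₁ w₂ : ℝ} (h : w₁ ≤ w₂) :
    F w₂ * T b F w₁ ≤ F w₁ * T b F w₂ := by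
  unfold T
  rw [← integral_const_mul, ← integral_const_mul]
  refine setIntegral_mono_on ((T_integrable hF.lip b w₁).const_mul _)
    ((T_integrable hF.lip b w₂).const_mul _) measurableSet_Ioi (fun x hx => ?_)
  have hx0 : (0 : ℝ) < x := hx
  have h4 := hF.four_point (r := w₁ + b * x) (s := w₂ + b * x) (by linarith) (δ := -(b * x))
    (by nlinarith)
  have e1 : w₂ + b * x + -(b * x) = w₂ := by ring
  have e2 : w₁ + b * x + -(b * x) = w₁ := by ring
  rw [e1, e2] at h4
  have he := Real.exp_pos (-x)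
  nlinarith

lemma nice_T {F : ℝ → ℝ} (hF : Nice F) (b : ℝ) : Nice (T b F) := by
  by_cases hb : b = 0
  · subst hb; rw [T_zero]; exact hF
  have hm : Monotone (T b F) := T_monotone hF.lip hF.mono b
  have hl : LipschitzWith 1 (T b F) := T_lipschitz hF.lip b
  refine ⟨T_nonneg hF.nonneg b, hm, hl, ?_⟩
  have hopen : IsOpen {u | 0 < T b F u} := isOpen_lt continuous_const hl.continuous
  have hconv : Convex ℝ {u | 0 < T b F u} := by
    apply Set.OrdConnected.convex
    exact ⟨fun x hx y _ z hz => lt_of_lt_of_le hx (hm hz.1)⟩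
  have hder : ∀ u ∈ {u | 0 < T b F u},
      HasDerivAt (fun u => Real.log (T b F u)) (((T b F u - F u) / b) / T b F u) u := by
    intro u hu
    exact (T_hasDerivAt hF.lip hb u).log (ne_of_gt hu)
  refine AntitoneOn.concaveOn_of_deriv hconv ?_ ?_ ?_
  · exact ContinuousOn.log hl.continuous.continuousOn (fun u hu => ne_of_gt hu)
  · rw [hopen.interior_eq]
    exact fun u hu => (hder u hu).differentiableAt.differentiableWithinAt
  · rw [hopen.interior_eq]
    intro w₁ h₁ w₂ h₂ h12
    rw [(hder w₁ h₁).deriv, (hder w₂ h₂).deriv]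
    have g1 : 0 < T b F w₁ := h₁
    have g2 : 0 < T b F w₂ := h₂
    rw [div_le_div_iff₀ g2 g1]
    rcases lt_or_gt_of_ne hb with hneg | hpos
    · have hc := cross_neg hF hneg h12
      rw [div_mul_eq_mul_div, div_mul_eq_mul_div, div_le_div_right_of_neg hneg]
      nlinarith
    · have hc := cross_pos hF hpos h12
      rw [div_mul_eq_mul_div, div_mul_eq_mul_div, div_le_div_iff_of_pos_right hpos]
      nlinarith

lemma nice_TL {F : ℝ → ℝ} (hF : Nice F) (l : List ℝ) : Nice (TL l F) := by
  induction l with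
  | nil => exact hF
  | cons b l ih => exact nice_T ih b

lemma TL_lower_affine {F : ℝ → ℝ} {K : NNReal} (hF : LipschitzWith K F) {k : ℝ}
    (h : ∀ u, u + k ≤ F u) (l : List ℝ) :
    LipschitzWith K (TL l F) ∧ ∀ u, u + (l.sum + k) ≤ TL l F u := by
  induction l with
  | nil => exact ⟨hF, fun u => by simpa [TL] using h u⟩
  | cons b l ih =>
    refine ⟨T_lipschitz ih.1 b, fun u => ?_⟩
    have := T_lower_affine ih.1 ih.2 b u
    simp only [List.sum_cons, TL]
    linarith

end Crest.Agent.S0423
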