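import Crest.Agent.S0423_LogConc

/-! The operator `S F u = ∫₀^∞ (1 - y) e^{-y} F (u - y) dy`; it commutes with the `T b`, and
`S hinge = 1 - truncExpWeight`. -/

set_option autoImplicit false

open MeasureTheory Set Real

namespace Crest.Agent.S0423

noncomputable def S (F : ℝ → ℝ) (u : ℝ) : ℝ :=
  ∫ y in Ioi (0 : ℝ), (1 - y) * Real.exp (-y) * F (u - y)

lemma integrableOn_sq_mul_exp_neg : IntegrableOn (fun x : ℝ => x ^ 2 * Real.exp (-x)) (Ioi 0) := by
  simpa using integrableOn_pow_mul_exp 2 one_pos

lemma S_integrable {F : ℝ → ℝ} {K : NNReal} (hF : LipschitzWith K F) (u : ℝ) :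
    IntegrableOn (fun y : ℝ => (1 - y) * Real.exp (-y) * F (u - y)) (Ioi 0) := by
  have hdom : IntegrableOn (fun y : ℝ => |F u| * Real.exp (-y) + (|F u| + K) * (y * Real.exp (-y))
      + K * (y ^ 2 * Real.exp (-y))) (Ioi 0) :=
    ((integrableOn_exp_neg'.const_mul _).add (integrableOn_mul_exp_neg.const_mul _)).add
      (integrableOn_sq_mul_exp_neg.const_mul _)
  refine Integrable.mono' hdom ?_ ?_
  · have hc : Continuous (fun y : ℝ => (1 - y) * Real.exp (-y) * F (u - y)) := by
      have := hF.continuous
      fun_prop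
    exact hc.aestronglyMeasurable
  · refine (ae_restrict_iff' measurableSet_Ioi).2 (Filter.Eventually.of_forall fun y hy => ?_)
    have hy0 : (0 : ℝ) < y := hy
    have h1 := lip_bound hF u (-y)
    rw [abs_neg, abs_of_pos hy0, ← sub_eq_add_neg] at h1
    rw [Real.norm_eq_abs, abs_mul, abs_mul, abs_of_pos (Real.exp_pos _)]
    have he := Real.exp_pos (-y)
    have h2 : |1 - y| ≤ 1 + y := by
      rw [abs_le]; constructor <;> linarith
    have hK : (0 : ℝ) ≤ K := K.coe_nonneg
    have h3 : |1 - y| * |F (u - y)| ≤ (1 + y) * (|F u| + K * y) :=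
      mul_le_mul h2 h1 (abs_nonneg _) (by linarith)
    calc |1 - y| * Real.exp (-y) * |F (u - y)| = (|1 - y| * |F (u - y)|) * Real.exp (-y) := by ring
      _ ≤ ((1 + y) * (|F u| + K * y)) * Real.exp (-y) := mul_le_mul_of_nonneg_right h3 he.le
      _ = _ := by ring

lemma S_lipschitz {F : ℝ → ℝ} {K : NNReal} (hF : LipschitzWith K F) :
    LipschitzWith (2 * K) (S F) := by
  refine LipschitzWith.of_dist_le_mul (fun u v => ?_)
  rw [Real.dist_eq, Real.dist_eq]
  unfold S
  rw [← integral_sub (S_integrable hF u) (S_integrable hF v)]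
  have hdom : IntegrableOn (fun y : ℝ => (K * |u - v|) * (Real.exp (-y) + y * Real.exp (-y)))
      (Ioi 0) := (integrableOn_exp_neg'.add integrableOn_mul_exp_neg).const_mul _
  have h1 : ‖∫ y in Ioi (0 : ℝ), ((1 - y) * Real.exp (-y) * F (u - y)
        - (1 - y) * Real.exp (-y) * F (v - y))‖
      ≤ ∫ y in Ioi (0 : ℝ), (K * |u - v|) * (Real.exp (-y) + y * Real.exp (-y)) := by
    refine norm_integral_le_of_norm_le hdom ?_
    refine (ae_restrict_iff' measurableSet_Ioi).2 (Filter.Eventually.of_forall fun y hy => ?_)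
    have hy0 : (0 : ℝ) < y := hy
    have h := hF.dist_le_mul (u - y) (v - y)
    rw [Real.dist_eq, Real.dist_eq] at h
    have h3 : u - y - (v - y) = u - v := by ring
    rw [h3] at h
    rw [← mul_sub, Real.norm_eq_abs, abs_mul, abs_mul, abs_of_pos (Real.exp_pos _)]
    have he := Real.exp_pos (-y)
    have h2 : |1 - y| ≤ 1 + y := by
      rw [abs_le]; constructor <;> linarith
    have hK : (0 : ℝ) ≤ K * |u - v| := mul_nonneg K.coe_nonneg (abs_nonneg _)
    have h4 : |1 - y| * |F (u - y) - F (v - y)| ≤ (1 + y) * (K * |u - v|) :=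
      mul_le_mul h2 h (abs_nonneg _) (by linarith)
    calc |1 - y| * Real.exp (-y) * |F (u - y) - F (v - y)|
        = (|1 - y| * |F (u - y) - F (v - y)|) * Real.exp (-y) := by ring
      _ ≤ ((1 + y) * (K * |u - v|)) * Real.exp (-y) := mul_le_mul_of_nonneg_right h4 he.le
      _ = _ := by ring
  rw [integral_const_mul, integral_add integrableOn_exp_neg' integrableOn_mul_exp_neg,
    integral_exp_neg_Ioi_zero, integral_mul_exp_neg, Real.norm_eq_abs] at h1
  push_cast
  linarith

/-- Fubini: `T b` commutes with `S`. -/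
lemma T_S_comm {F : ℝ → ℝ} {K : NNReal} (hF : LipschitzWith K F) (b u : ℝ) :
    T b (S F) u = S (T b F) u := by
  unfold T S
  have hint : Integrable (Function.uncurry fun x y : ℝ =>
      (1 - y) * Real.exp (-y) * F (u + b * x - y) * Real.exp (-x))
      ((volume.restrict (Ioi (0 : ℝ))).prod (volume.restrict (Ioi (0 : ℝ)))) := by
    have g1 : Integrable (fun x : ℝ => |F u| * Real.exp (-x) + (K * |b|) * (x * Real.exp (-x)))
        (volume.restrict (Ioi (0 : ℝ))) :=
      (integrableOn_exp_neg'.const_mul _).add (integrableOn_mul_exp_neg.const_mul _)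
    have g2 : Integrable (fun y : ℝ => Real.exp (-y) + y * Real.exp (-y))
        (volume.restrict (Ioi (0 : ℝ))) := integrableOn_exp_neg'.add integrableOn_mul_exp_neg
    have g3 : Integrable (fun x : ℝ => Real.exp (-x)) (volume.restrict (Ioi (0 : ℝ))) :=
      integrableOn_exp_neg'
    have g4 : Integrable (fun y : ℝ => K * (y * Real.exp (-y) + y ^ 2 * Real.exp (-y)))
        (volume.restrict (Ioi (0 : ℝ))) :=
      (integrableOn_mul_exp_neg.add integrableOn_sq_mul_exp_neg).const_mul _
    have hdom := (g1.mul_prod g2).add (g3.mul_prod g4)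
    refine Integrable.mono' hdom ?_ ?_
    · have hc : Continuous (Function.uncurry fun x y : ℝ =>
          (1 - y) * Real.exp (-y) * F (u + b * x - y) * Real.exp (-x)) := by
        have := hF.continuous
        simp only [Function.uncurry_def]
        fun_prop
      exact hc.aestronglyMeasurable
    · rw [Measure.prod_restrict]
      refine (ae_restrict_iff' (measurableSet_Ioi.prod measurableSet_Ioi)).2
        (Filter.Eventually.of_forall fun z hz => ?_)
      obtain ⟨x, y⟩ := z
      have hx0 : (0 : ℝ) < x := hz.1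
      have hy0 : (0 : ℝ) < y := hz.2
      simp only [Function.uncurry_apply_pair, Pi.add_apply]
      have h1 := lip_bound hF u (b * x - y)
      have h1' : |b * x - y| ≤ |b| * x + y := by
        have := abs_sub (b * x) y
        rw [abs_mul, abs_of_pos hx0, abs_of_pos hy0] at this
        exact this
      have hK : (0 : ℝ) ≤ K := K.coe_nonneg
      have h1'' : |F (u + b * x - y)| ≤ |F u| + K * (|b| * x + y) := by
        have e : u + b * x - y = u + (b * x - y) := by ring
        rw [e]
        exact h1.trans (by nlinarith)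
      rw [Real.norm_eq_abs, abs_mul, abs_mul, abs_mul, abs_of_pos (Real.exp_pos _),
        abs_of_pos (Real.exp_pos _)]
      have hex := Real.exp_pos (-x)
      have hey := Real.exp_pos (-y)
      have h2 : |1 - y| ≤ 1 + y := by
        rw [abs_le]; constructor <;> linarith
      have hb0 := abs_nonneg b
      have h3 : |1 - y| * |F (u + b * x - y)| ≤ (1 + y) * (|F u| + K * (|b| * x + y)) :=
        mul_le_mul h2 h1'' (abs_nonneg _) (by linarith)
      calc |1 - y| * Real.exp (-y) * |F (u + b * x - y)| * Real.exp (-x)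
          = (|1 - y| * |F (u + b * x - y)|) * (Real.exp (-y) * Real.exp (-x)) := by ring
        _ ≤ ((1 + y) * (|F u| + K * (|b| * x + y))) * (Real.exp (-y) * Real.exp (-x)) :=
            mul_le_mul_of_nonneg_right h3 (mul_pos hey hex).le
        _ = _ := by ring
  calc ∫ x in Ioi (0 : ℝ), (∫ y in Ioi (0 : ℝ), (1 - y) * Real.exp (-y) * F (u + b * x - y))
          * Real.exp (-x)
      = ∫ x in Ioi (0 : ℝ), ∫ y in Ioi (0 : ℝ),
          (1 - y) * Real.exp (-y) * F (u + b * x - y) * Real.exp (-x) := by
        congr 1; funext x; rw [integral_mul_const]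
    _ = ∫ y in Ioi (0 : ℝ), ∫ x in Ioi (0 : ℝ),
          (1 - y) * Real.exp (-y) * F (u + b * x - y) * Real.exp (-x) :=
        integral_integral_swap hint
    _ = ∫ y in Ioi (0 : ℝ), (1 - y) * Real.exp (-y) *
          ∫ x in Ioi (0 : ℝ), F (u - y + b * x) * Real.exp (-x) := by
        congr 1; funext y; rw [← integral_const_mul]
        congr 1; funext x
        have e : u + b * x - y = u - y + b * x := by ring
        rw [e]; ring

lemma TL_lipschitz {F : ℝ → ℝ} {K : NNReal} (hF : LipschitzWith K F) (l : List ℝ) :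
    LipschitzWith K (TL l F) := by
  induction l with
  | nil => exact hF
  | cons b l ih => exact T_lipschitz ih b

lemma TL_S_comm {F : ℝ → ℝ} {K : NNReal} (hF : LipschitzWith K F) (l : List ℝ) :
    TL l (S F) = S (TL l F) := by
  induction l with
  | nil => rfl
  | cons b l ih =>
    funext u
    simp only [TL]
    rw [ih]
    exact T_S_comm (TL_lipschitz hF l) b u

lemma TL_one_sub_fun {F : ℝ → ℝ} {K : NNReal} (hF : LipschitzWith K F) (l : List ℝ) :
    TL l (fun u => 1 - F u) = fun u => 1 - TL l F u := by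
  induction l with
  | nil => rfl
  | cons b l ih =>
    funext u
    simp only [TL]
    rw [ih]
    have hc : LipschitzWith 0 (fun _ : ℝ => (1 : ℝ)) := LipschitzWith.const 1
    rw [T_sub hc (TL_lipschitz hF l), T_const]

end Crest.Agent.S0423
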