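import Mathlib
import Crest.Prelude.Def_SwitchChain

set_option autoImplicit false
set_option linter.unusedSectionVars false
open Finset

namespace Crest.Agent.S0453Abs
open Crest.SwitchChain

variable {X : Type*} [Fintype X] [DecidableEq X]

/-- Jensen for a stochastic row. -/
lemma sq_sum_le (w h : X → ℝ) (hw : ∀ z, 0 ≤ w z) (hw1 : ∑ z, w z = 1) :
    (∑ z, w z * h z) ^ 2 ≤ ∑ z, w z * (h z) ^ 2 := by
  have key : ∀ m : ℝ, ∑ z, w z * (h z - m) ^ 2
      = ∑ z, w z * (h z) ^ 2 - 2 * m * ∑ z, w z * h z + m ^ 2 * ∑ z, w z := by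
    intro m
    rw [Finset.mul_sum, Finset.mul_sum, ← Finset.sum_sub_distrib, ← Finset.sum_add_distrib]
    apply Finset.sum_congr rfl
    intros
    ring
  have h0 : 0 ≤ ∑ z, w z * (h z - ∑ z, w z * h z) ^ 2 :=
    Finset.sum_nonneg (fun z _ => mul_nonneg (hw z) (sq_nonneg _))
  rw [key, hw1] at h0
  nlinarith

/-- hypotheses on the non-lazy part `Q` of the kernel. -/
structure Setup (Q : X → X → ℝ) (Ω : Finset X) : Prop where
  symm : ∀ x y, Q x y = Q y x
  nonneg : ∀ x y, 0 ≤ Q x y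
  row : ∀ x, ∑ y, Q x y = 1
  pres : ∀ x ∈ Ω, ∀ y, y ∉ Ω → Q x y = 0

variable {Q : X → X → ℝ} {Ω : Finset X}

/-- `‖Q h‖² ≤ ‖h‖²`. -/
lemma Q_contract (hQ : Setup Q Ω) (h : X → ℝ) :
    ∑ y, (∑ z, Q y z * h z) ^ 2 ≤ ∑ z, (h z) ^ 2 := by
  calc ∑ y, (∑ z, Q y z * h z) ^ 2 ≤ ∑ y, ∑ z, Q y z * (h z) ^ 2 :=
        Finset.sum_le_sum (fun y _ => sq_sum_le _ _ (hQ.nonneg y) (hQ.row y))
    _ = ∑ z, ∑ y, Q y z * (h z) ^ 2 := Finset.sum_comm
    _ = ∑ z, (h z) ^ 2 := by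
        apply Finset.sum_congr rfl
        intro z _
        rw [← Finset.sum_mul]
        have : ∑ y, Q y z = 1 := by
          rw [← hQ.row z]
          exact Finset.sum_congr rfl (fun y _ => hQ.symm y z)
        rw [this, one_mul]

/-- the lazy operator -/
noncomputable def T (Q : X → X → ℝ) (h : X → ℝ) : X → ℝ :=
  fun y => h y / 2 + (∑ z, Q y z * h z) / 2

lemma T_supp (hQ : Setup Q Ω) (h : X → ℝ) (hs : ∀ z, z ∉ Ω → h z = 0) :
    ∀ y, y ∉ Ω → T Q h y = 0 := by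
  intro y hy
  unfold T
  rw [hs y hy]
  have : ∑ z, Q y z * h z = 0 := by
    apply Finset.sum_eq_zero
    intro z _
    by_cases hz : z ∈ Ω
    · rw [hQ.symm y z, hQ.pres z hz y hy, zero_mul]
    · rw [hs z hz, mul_zero]
  rw [this]; simp

lemma T_sum (hQ : Setup Q Ω) (h : X → ℝ) : ∑ y, T Q h y = ∑ z, h z := by
  unfold T
  rw [Finset.sum_add_distrib, ← Finset.sum_div, ← Finset.sum_div, Finset.sum_comm]
  have : ∑ z, ∑ y, Q y z * h z = ∑ z, h z := by
    apply Finset.sum_congr rfl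
    intro z _
    rw [← Finset.sum_mul]
    have : ∑ y, Q y z = 1 := by
      rw [← hQ.row z]
      exact Finset.sum_congr rfl (fun y _ => hQ.symm y z)
    rw [this, one_mul]
  rw [this]; ring

lemma row_Ω (hQ : Setup Q Ω) (x : X) (hx : x ∈ Ω) : ∑ y ∈ Ω, Q x y = 1 := by
  rw [← hQ.row x]
  apply Finset.sum_subset (Finset.subset_univ _)
  intro y _ hy
  exact hQ.pres x hx y hy

lemma T_unif (hQ : Setup Q Ω) : T Q (unifOn Ω) = unifOn Ω := by
  funext y
  unfold T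
  have h1 : ∑ z, Q y z * unifOn Ω z = (∑ z ∈ Ω, Q y z) * (1 / (Ω.card : ℝ)) := by
    rw [Finset.sum_mul]
    symm
    apply Finset.sum_subset_zero_on_sdiff (Finset.subset_univ _)
    · intro z hz
      have : z ∉ Ω := (Finset.mem_sdiff.mp hz).2
      simp [unifOn, this]
    · intro z hz
      simp [unifOn, hz]
  rw [h1]
  by_cases hy : y ∈ Ω
  · rw [row_Ω hQ y hy]
    simp [unifOn, hy]
  · have : ∑ z ∈ Ω, Q y z = 0 := by
      apply Finset.sum_eq_zero
      intro z hz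
      rw [hQ.symm y z, hQ.pres z hz y hy]
    rw [this]
    simp [unifOn, hy]

/-- laziness: `‖T h‖² ≤ ⟨h, T h⟩`. -/
lemma T_norm_le (hQ : Setup Q Ω) (h : X → ℝ) :
    ∑ y, (T Q h y) ^ 2 ≤ ∑ y, h y * T Q h y := by
  have hc := Q_contract hQ h
  have e1 : ∑ y, (T Q h y) ^ 2 = (∑ y, (h y) ^ 2) / 4 + (∑ y, h y * ∑ z, Q y z * h z) / 2
      + (∑ y, (∑ z, Q y z * h z) ^ 2) / 4 := by
    rw [Finset.sum_div, Finset.sum_div, Finset.sum_div, ← Finset.sum_add_distrib,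
      ← Finset.sum_add_distrib]
    apply Finset.sum_congr rfl
    intro y _
    unfold T
    ring
  have e2 : ∑ y, h y * T Q h y = (∑ y, (h y) ^ 2) / 2 + (∑ y, h y * ∑ z, Q y z * h z) / 2 := by
    rw [Finset.sum_div, Finset.sum_div, ← Finset.sum_add_distrib]
    apply Finset.sum_congr rfl
    intro y _
    unfold T
    ring
  rw [e1, e2]
  linarith


lemma sum_univ_of_supp (g : X → ℝ) (hs : ∀ z, z ∉ Ω → g z = 0) :
    ∑ z ∈ Ω, g z = ∑ z, g z :=
  Finset.sum_subset (Finset.subset_univ _) (fun z _ hz => hs z hz)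

/-- the restricted kernel sum is the lazy operator. -/
lemma K_sum_eq (hQ : Setup Q Ω) (K : X → X → ℝ)
    (hK : ∀ x y, K x y = (if x = y then 1 / 2 else 0) + Q x y / 2) (f : X → ℝ)
    (x : X) (hx : x ∈ Ω) : ∑ y ∈ Ω, K x y * f y = T Q f x := by
  unfold T
  have h1 : ∑ y ∈ Ω, K x y * f y
      = ∑ y ∈ Ω, (if x = y then 1 / 2 else 0) * f y + (∑ y ∈ Ω, Q x y * f y) / 2 := by
    rw [Finset.sum_div, ← Finset.sum_add_distrib]
    apply Finset.sum_congr rfl
    intro y _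
    rw [hK]; ring
  have h2 : ∑ y ∈ Ω, (if x = y then (1 : ℝ) / 2 else 0) * f y = f x / 2 := by
    simp only [ite_mul, zero_mul]
    rw [Finset.sum_ite_eq]
    simp [hx]; ring
  have h3 : ∑ y ∈ Ω, Q x y * f y = ∑ y, Q x y * f y := by
    apply Finset.sum_subset (Finset.subset_univ _)
    intro y _ hy
    rw [hQ.pres x hx y hy, zero_mul]
  rw [h1, h2, h3]

/-- the same for the full sum. -/
lemma K_sum_univ (K : X → X → ℝ)
    (hK : ∀ x y, K x y = (if x = y then 1 / 2 else 0) + Q x y / 2) (f : X → ℝ)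
    (x : X) : ∑ y, K x y * f y = T Q f x := by
  unfold T
  have h1 : ∑ y, K x y * f y
      = ∑ y, (if x = y then 1 / 2 else 0) * f y + (∑ y, Q x y * f y) / 2 := by
    rw [Finset.sum_div, ← Finset.sum_add_distrib]
    apply Finset.sum_congr rfl
    intro y _
    rw [hK]; ring
  have h2 : ∑ y, (if x = y then (1 : ℝ) / 2 else 0) * f y = f x / 2 := by
    simp only [ite_mul, zero_mul]
    rw [Finset.sum_ite_eq]
    simp; ring
  rw [h1, h2]

/-- Poincare inequality, in the form of the statement (with `T`). -/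
def Poinc (Q : X → X → ℝ) (Ω : Finset X) (A : ℝ) : Prop :=
  ∀ f : X → ℝ, (Ω.card : ℝ) * (∑ x ∈ Ω, f x ^ 2) - (∑ x ∈ Ω, f x) ^ 2 ≤
    A * Ω.card * ∑ x ∈ Ω, f x * (f x - T Q f x)

lemma T_contract (hQ : Setup Q Ω) (hΩ : Ω.Nonempty) {A : ℝ} (hA : 0 < A) (hP : Poinc Q Ω A)
    (h : X → ℝ) (hs : ∀ z, z ∉ Ω → h z = 0) (h0 : ∑ z, h z = 0) :
    ∑ y, (T Q h y) ^ 2 ≤ (1 - 1 / A) * ∑ y, (h y) ^ 2 := by
  have hN : (0 : ℝ) < Ω.card := by exact_mod_cast hΩ.card_pos
  have h1 := hP h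
  rw [sum_univ_of_supp h hs, h0,
    sum_univ_of_supp (fun x => h x ^ 2) (fun z hz => by simp [hs z hz]),
    sum_univ_of_supp (fun x => h x * (h x - T Q h x)) (fun z hz => by simp [hs z hz])] at h1
  have h2 : ∑ x, h x * (h x - T Q h x) = ∑ x, h x ^ 2 - ∑ x, h x * T Q h x := by
    rw [← Finset.sum_sub_distrib]
    apply Finset.sum_congr rfl
    intros; ring
  rw [h2] at h1
  have h3 := T_norm_le hQ h
  set S := ∑ x, h x ^ 2
  set D := ∑ x, h x * T Q h x
  have h4 : S ≤ A * (S - D) := by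
    have : (Ω.card : ℝ) * S ≤ Ω.card * (A * (S - D)) := by nlinarith
    exact le_of_mul_le_mul_left this hN
  have h5 : D ≤ (1 - 1 / A) * S := by
    have : (1 - 1 / A) * S = S - S / A := by ring
    rw [this]
    have : S / A ≤ S - D := by
      rw [div_le_iff₀ hA]; linarith
    linarith
  linarith

lemma unif_sum (hΩ : Ω.Nonempty) : ∑ y, unifOn Ω y = 1 := by
  have hN : (Ω.card : ℝ) ≠ 0 := by exact_mod_cast hΩ.card_pos.ne'
  unfold unifOn
  rw [Finset.sum_ite_mem]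
  simp [hN]

lemma unif_sq_sum (hΩ : Ω.Nonempty) : ∑ y, (unifOn Ω y) ^ 2 = 1 / (Ω.card : ℝ) := by
  have hN : (Ω.card : ℝ) ≠ 0 := by exact_mod_cast hΩ.card_pos.ne'
  unfold unifOn
  have : ∀ y, (if y ∈ Ω then 1 / (Ω.card : ℝ) else 0) ^ 2
      = if y ∈ Ω then (1 / (Ω.card : ℝ)) ^ 2 else 0 := by
    intro y; split_ifs <;> simp
  simp only [this]
  rw [Finset.sum_ite_mem]
  simp
  field_simp

theorem tv_sq_le (hQ : Setup Q Ω) (hΩ : Ω.Nonempty) {A : ℝ} (hA : 1 ≤ A) (hP : Poinc Q Ω A)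
    (K : Matrix X X ℝ) (hK : ∀ x y, K x y = (if x = y then 1 / 2 else 0) + Q x y / 2)
    (x : X) (hx : x ∈ Ω) (t : ℕ) :
    (tvDist (fun y => (K ^ t) x y) (unifOn Ω)) ^ 2 ≤ (Ω.card : ℝ) / 4 * (1 - 1 / A) ^ t := by
  have hA0 : 0 < A := by linarith
  have hN : (0 : ℝ) < Ω.card := by exact_mod_cast hΩ.card_pos
  have hr : 0 ≤ 1 - 1 / A := by
    have : 1 / A ≤ 1 := by rw [div_le_one hA0]; exact hA
    linarith
  have hKsymm : ∀ a b, K a b = K b a := by
    intro a b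
    rw [hK, hK, hQ.symm a b]
    by_cases hab : a = b
    · simp [hab]
    · simp [hab, Ne.symm hab]
  -- main induction
  have main : ∀ t : ℕ, (∀ z, z ∉ Ω → (K ^ t) x z - unifOn Ω z = 0) ∧
      ∑ z, ((K ^ t) x z - unifOn Ω z) = 0 ∧
      ∑ z, ((K ^ t) x z - unifOn Ω z) ^ 2 ≤ (1 - 1 / A) ^ t := by
    intro t
    induction t with
    | zero =>
      refine ⟨?_, ?_, ?_⟩
      · intro z hz
        have : x ≠ z := fun h => hz (h ▸ hx)
        simp [unifOn, hz, Matrix.one_apply, this]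
      · rw [Finset.sum_sub_distrib, unif_sum hΩ]
        simp [Matrix.one_apply]
      · have e : ∑ z, ((K ^ 0) x z - unifOn Ω z) ^ 2
            = ∑ z, (if x = z then (1 : ℝ) else 0) - 2 * ∑ z, (if x = z then unifOn Ω z else 0)
              + ∑ z, (unifOn Ω z) ^ 2 := by
          rw [Finset.mul_sum, ← Finset.sum_sub_distrib, ← Finset.sum_add_distrib]
          apply Finset.sum_congr rfl
          intro z _
          rw [pow_zero, Matrix.one_apply]
          split_ifs <;> ring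
        rw [e, unif_sq_sum hΩ, Finset.sum_ite_eq, Finset.sum_ite_eq]
        simp only [Finset.mem_univ, if_true, pow_zero]
        have : unifOn Ω x = 1 / (Ω.card : ℝ) := by simp [unifOn, hx]
        rw [this]
        have : 0 < 1 / (Ω.card : ℝ) := by positivity
        linarith
    | succ t ih =>
      obtain ⟨ih1, ih2, ih3⟩ := ih
      have step : ∀ y, (K ^ (t + 1)) x y - unifOn Ω y
          = T Q (fun z => (K ^ t) x z - unifOn Ω z) y := by
        intro y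
        rw [← K_sum_univ K hK]
        have e1 : (K ^ (t + 1)) x y = ∑ z, K y z * (K ^ t) x z := by
          rw [pow_succ, Matrix.mul_apply]
          apply Finset.sum_congr rfl
          intro z _
          rw [hKsymm z y]; ring
        have e2 : unifOn Ω y = ∑ z, K y z * unifOn Ω z := by
          rw [K_sum_univ K hK, T_unif hQ]
        rw [e1]
        conv_lhs => rw [e2]
        rw [← Finset.sum_sub_distrib]
        apply Finset.sum_congr rfl
        intros; ring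
      refine ⟨?_, ?_, ?_⟩
      · intro z hz
        rw [step]
        exact T_supp hQ _ ih1 z hz
      · simp only [step]
        rw [T_sum hQ]
        exact ih2
      · simp only [step]
        calc _ ≤ (1 - 1 / A) * ∑ y, ((K ^ t) x y - unifOn Ω y) ^ 2 :=
              T_contract hQ hΩ hA0 hP _ ih1 ih2
          _ ≤ (1 - 1 / A) * (1 - 1 / A) ^ t := mul_le_mul_of_nonneg_left ih3 hr
          _ = (1 - 1 / A) ^ (t + 1) := by ring
  obtain ⟨m1, _, m3⟩ := main t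
  unfold tvDist
  have c1 : ∑ a, |(K ^ t) x a - unifOn Ω a| = ∑ a ∈ Ω, |(K ^ t) x a - unifOn Ω a| := by
    symm
    apply Finset.sum_subset (Finset.subset_univ _)
    intro z _ hz
    rw [m1 z hz, abs_zero]
  have c2 : (∑ a ∈ Ω, |(K ^ t) x a - unifOn Ω a|) ^ 2
      ≤ Ω.card * ∑ a ∈ Ω, |(K ^ t) x a - unifOn Ω a| ^ 2 := sq_sum_le_card_mul_sum_sq
  have c3 : ∑ a ∈ Ω, |(K ^ t) x a - unifOn Ω a| ^ 2 ≤ ∑ a, ((K ^ t) x a - unifOn Ω a) ^ 2 := by
    simp only [sq_abs]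
    apply Finset.sum_le_sum_of_subset_of_nonneg (Finset.subset_univ _)
    intros; positivity
  rw [c1, div_pow]
  have : (∑ a ∈ Ω, |(K ^ t) x a - unifOn Ω a|) ^ 2 ≤ Ω.card * (1 - 1 / A) ^ t := by
    calc _ ≤ _ := c2
      _ ≤ Ω.card * (1 - 1 / A) ^ t := by
        apply mul_le_mul_of_nonneg_left (le_trans c3 m3) hN.le
  calc _ ≤ (Ω.card * (1 - 1 / A) ^ t) / 2 ^ 2 := by
        apply div_le_div_of_nonneg_right this (by norm_num)
    _ = _ := by ring

/-- Dirichlet form identity for a symmetric kernel. -/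
lemma dirichlet_eq (hQ : Setup Q Ω) (f : X → ℝ) :
    ∑ x ∈ Ω, f x * (f x - T Q f x) = (1 / 4) * ∑ x ∈ Ω, ∑ y ∈ Ω, Q x y * (f x - f y) ^ 2 := by
  have hT : ∀ x ∈ Ω, f x * (f x - T Q f x)
      = (1 / 2) * (f x ^ 2 - ∑ y ∈ Ω, Q x y * (f x * f y)) := by
    intro x hx
    unfold T
    have h3 : ∑ y ∈ Ω, Q x y * f y = ∑ y, Q x y * f y := by
      apply Finset.sum_subset (Finset.subset_univ _)
      intro y _ hy
      rw [hQ.pres x hx y hy, zero_mul]
    rw [← h3]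
    have : ∑ y ∈ Ω, Q x y * (f x * f y) = f x * ∑ y ∈ Ω, Q x y * f y := by
      rw [Finset.mul_sum]
      apply Finset.sum_congr rfl
      intros; ring
    rw [this]; ring
  rw [Finset.sum_congr rfl hT, ← Finset.mul_sum, Finset.sum_sub_distrib]
  have e1 : ∑ x ∈ Ω, ∑ y ∈ Ω, Q x y * (f x - f y) ^ 2
      = ∑ x ∈ Ω, ∑ y ∈ Ω, Q x y * f x ^ 2 + ∑ x ∈ Ω, ∑ y ∈ Ω, Q x y * f y ^ 2
        - 2 * ∑ x ∈ Ω, ∑ y ∈ Ω, Q x y * (f x * f y) := by
    rw [Finset.mul_sum, ← Finset.sum_add_distrib, ← Finset.sum_sub_distrib]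
    apply Finset.sum_congr rfl
    intro x _
    rw [Finset.mul_sum, ← Finset.sum_add_distrib, ← Finset.sum_sub_distrib]
    apply Finset.sum_congr rfl
    intros; ring
  have e2 : ∑ x ∈ Ω, ∑ y ∈ Ω, Q x y * f x ^ 2 = ∑ x ∈ Ω, f x ^ 2 := by
    apply Finset.sum_congr rfl
    intro x hx
    rw [← Finset.sum_mul, row_Ω hQ x hx, one_mul]
  have e3 : ∑ x ∈ Ω, ∑ y ∈ Ω, Q x y * f y ^ 2 = ∑ x ∈ Ω, f x ^ 2 := by
    rw [Finset.sum_comm]
    apply Finset.sum_congr rfl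
    intro y hy
    rw [← Finset.sum_mul]
    have : ∑ x ∈ Ω, Q x y = 1 := by
      rw [← row_Ω hQ y hy]
      exact Finset.sum_congr rfl (fun x _ => hQ.symm x y)
    rw [this, one_mul]
  rw [e1, e2, e3]
  ring

end Crest.Agent.S0453Abs
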