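import Mathlib
import Crest.Prelude.Def_SwitchChain

set_option autoImplicit false
open Finset

namespace Crest.Agent.S0453PM
open Crest.SwitchChain

variable {n : ℕ}

/-- edge constructor -/
def mkE (x y : Fin n) (h : x ≠ y) : Edge n := ⟨s(x, y), by simpa using h⟩

lemma mkE_eq_iff {a b x y : Fin n} (h : a ≠ b) (h' : x ≠ y) :
    mkE a b h = mkE x y h' ↔ (a = x ∧ b = y) ∨ (a = y ∧ b = x) := by
  simp [mkE, Subtype.ext_iff, Sym2.eq_iff]

lemma mem_mkE {a b v : Fin n} (h : a ≠ b) : v ∈ (mkE a b h).1 ↔ v = a ∨ v = b := by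
  simp [mkE]

lemma mem_pmSet {S : Finset (Fin n)} {F : Finset (Edge n)} :
    F ∈ pmSet S ↔ F.card = 2 ∧ (∀ e ∈ F, ∀ v : Fin n, v ∈ e.1 → v ∈ S) ∧
      ∀ v ∈ S, (F.filter fun e => v ∈ e.1).card = 1 := by
  unfold pmSet
  rw [Finset.mem_filter, Finset.mem_powersetCard]
  simp

/-- the matching `{ab, cd}` is a perfect matching of `{a,b,c,d}`. -/
lemma pm_mem {a b c d : Fin n} (hab : a ≠ b) (hac : a ≠ c) (had : a ≠ d) (hbc : b ≠ c)
    (hbd : b ≠ d) (hcd : c ≠ d) :
    ({mkE a b hab, mkE c d hcd} : Finset (Edge n)) ∈ pmSet ({a, b, c, d} : Finset (Fin n)) := by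
  have hne : mkE a b hab ≠ mkE c d hcd := by
    rw [Ne, mkE_eq_iff]
    tauto
  rw [mem_pmSet]
  refine ⟨Finset.card_pair hne, ?_, ?_⟩
  · intro e he v hv
    rw [Finset.mem_insert, Finset.mem_singleton] at he
    rcases he with rfl | rfl
    · rw [mem_mkE] at hv
      rcases hv with rfl | rfl <;> simp
    · rw [mem_mkE] at hv
      rcases hv with rfl | rfl <;> simp
  · intro v hv
    simp only [Finset.mem_insert, Finset.mem_singleton] at hv
    rw [Finset.filter_insert, Finset.filter_singleton]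
    simp only [mem_mkE]
    rcases hv with rfl | rfl | rfl | rfl
    · simp [hac, had]
    · simp [hbc, hbd]
    · simp [hac.symm, hbc.symm]
    · simp [had.symm, hbd.symm]

/-- a perfect matching of `{a,b,c,d}` containing `ab` is `{ab, cd}`. -/
lemma pm_form {a b c d : Fin n} (hab : a ≠ b) (hac : a ≠ c) (had : a ≠ d) (hbc : b ≠ c)
    (hbd : b ≠ d) (hcd : c ≠ d) {S : Finset (Fin n)} (hc : c ∈ S) (hd : d ∈ S)
    {F : Finset (Edge n)} (hF : F ∈ pmSet S)
    (he : mkE a b hab ∈ F) : F = {mkE a b hab, mkE c d hcd} := by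
  rw [mem_pmSet] at hF
  obtain ⟨h2, -, h1⟩ := hF
  -- the other edge
  have hex : ∃ e', F = {mkE a b hab, e'} := by
    obtain ⟨x, y, hxy, rfl⟩ := Finset.card_eq_two.mp h2
    rw [Finset.mem_insert, Finset.mem_singleton] at he
    rcases he with h | h
    · exact ⟨y, by rw [h]⟩
    · exact ⟨x, by rw [h, Finset.pair_comm]⟩
  obtain ⟨e', rfl⟩ := hex
  have hmem : ∀ v ∈ S, v ≠ a → v ≠ b → v ∈ e'.1 := by
    intro v hv hva hvb
    have := h1 v hv
    have hpos : 0 < (Finset.filter (fun e : Edge n => v ∈ e.1) {mkE a b hab, e'}).card := by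
      rw [this]; exact one_pos
    obtain ⟨e, he⟩ := Finset.card_pos.mp hpos
    rw [Finset.mem_filter, Finset.mem_insert, Finset.mem_singleton] at he
    rcases he with ⟨rfl | rfl, hv'⟩
    · rw [mem_mkE] at hv'
      tauto
    · exact hv'
  have h3 : e'.1 = s(c, d) :=
    (Sym2.mem_and_mem_iff hcd).mp ⟨hmem c hc hac.symm hbc.symm, hmem d hd had.symm hbd.symm⟩
  have : e' = mkE c d hcd := Subtype.ext h3
  rw [this]

lemma pmSet_eq {a b c d : Fin n} (hab : a ≠ b) (hac : a ≠ c) (had : a ≠ d) (hbc : b ≠ c)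
    (hbd : b ≠ d) (hcd : c ≠ d) :
    pmSet ({a, b, c, d} : Finset (Fin n)) =
      {{mkE a b hab, mkE c d hcd}, {mkE a c hac, mkE b d hbd}, {mkE a d had, mkE b c hbc}} := by
  ext F
  simp only [Finset.mem_insert, Finset.mem_singleton]
  constructor
  · intro hF
    have hF' := mem_pmSet.mp hF
    obtain ⟨h2, hS, h1⟩ := hF'
    have hpos : 0 < (Finset.filter (fun e : Edge n => a ∈ e.1) F).card := by
      rw [h1 a (by simp)]; exact one_pos
    obtain ⟨e, he⟩ := Finset.card_pos.mp hpos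
    rw [Finset.mem_filter] at he
    obtain ⟨heF, hae⟩ := he
    obtain ⟨x, hx⟩ := Sym2.mem_iff_exists.mp hae
    have hxS : x ∈ ({a, b, c, d} : Finset (Fin n)) := hS e heF x (by rw [hx]; simp)
    have hxa : a ≠ x := by
      intro h
      apply e.2
      rw [hx, Sym2.mk_isDiag_iff]
      exact h
    have hee : e = mkE a x hxa := Subtype.ext hx
    simp only [Finset.mem_insert, Finset.mem_singleton] at hxS
    rcases hxS with rfl | rfl | rfl | rfl
    · exact absurd rfl hxa
    · left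
      exact pm_form hab hac had hbc hbd hcd (by simp) (by simp) hF (hee ▸ heF)
    · right; left
      exact pm_form hac hab had hbc.symm hcd hbd (by simp) (by simp) hF (hee ▸ heF)
    · right; right
      exact pm_form had hab hac hbd.symm hcd.symm hbc (by simp) (by simp) hF (hee ▸ heF)
  · rintro (rfl | rfl | rfl)
    · exact pm_mem hab hac had hbc hbd hcd
    · have : ({a, b, c, d} : Finset (Fin n)) = {a, c, b, d} := by
        ext v; simp only [Finset.mem_insert, Finset.mem_singleton]; tauto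
      rw [this]
      exact pm_mem hac hab had hbc.symm hcd hbd
    · have : ({a, b, c, d} : Finset (Fin n)) = {a, d, b, c} := by
        ext v; simp only [Finset.mem_insert, Finset.mem_singleton]; tauto
      rw [this]
      exact pm_mem had hab hac hbd.symm hcd.symm hbc

lemma pair_ne {a b x y z w : Fin n} (hab : a ≠ b) (hxy : x ≠ y) (hzw : z ≠ w)
    (e : Edge n) (h1 : mkE a b hab ≠ mkE x y hxy) (h2 : mkE a b hab ≠ mkE z w hzw) :
    ({mkE a b hab, e} : Finset (Edge n)) ≠ {mkE x y hxy, mkE z w hzw} := by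
  intro h
  have : mkE a b hab ∈ ({mkE x y hxy, mkE z w hzw} : Finset (Edge n)) := by
    rw [← h]; simp
  rw [Finset.mem_insert, Finset.mem_singleton] at this
  tauto

lemma card_pmSet {S : Finset (Fin n)} (hS : S.card = 4) : (pmSet S).card = 3 := by
  obtain ⟨a, t, hat, rfl, ht⟩ := Finset.card_eq_succ.mp hS
  obtain ⟨b, c, d, hbc, hbd, hcd, rfl⟩ := Finset.card_eq_three.mp ht
  simp only [Finset.mem_insert, Finset.mem_singleton, not_or] at hat
  obtain ⟨hab, hac, had⟩ := hat
  rw [pmSet_eq hab hac had hbc hbd hcd]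
  apply Finset.card_eq_three.mpr
  refine ⟨_, _, _, ?_, ?_, ?_, rfl⟩
  · apply pair_ne
    · rw [Ne, mkE_eq_iff]; tauto
    · rw [Ne, mkE_eq_iff]; tauto
  · apply pair_ne
    · rw [Ne, mkE_eq_iff]; tauto
    · rw [Ne, mkE_eq_iff]; tauto
  · apply pair_ne
    · rw [Ne, mkE_eq_iff]; tauto
    · rw [Ne, mkE_eq_iff]; tauto

end Crest.Agent.S0453PM
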