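import Mathlib
import Crest.Prelude.Def_SwitchChain
import Crest.Agent.S0453Abs
import Crest.Agent.S0453PM

set_option autoImplicit false
open Finset

namespace Crest.Agent.S0453Red
open Crest.SwitchChain Crest.Agent.S0453Abs Crest.Agent.S0453PM

variable {n : ℕ}

/-! ### degrees -/

lemma deg_union {A B : Finset (Edge n)} (h : Disjoint A B) (v : Fin n) :
    deg (A ∪ B) v = deg A v + deg B v := by
  unfold deg
  rw [Finset.filter_union, Finset.card_union_of_disjoint]
  exact Finset.disjoint_filter_filter h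

lemma deg_pm {S : Finset (Fin n)} {F : Finset (Edge n)} (hF : F ∈ pmSet S) (v : Fin n) :
    deg F v = if v ∈ S then 1 else 0 := by
  obtain ⟨-, hS, h1⟩ := mem_pmSet.mp hF
  unfold deg
  split_ifs with hv
  · exact h1 v hv
  · rw [Finset.card_eq_zero, Finset.filter_eq_empty_iff]
    intro e he hve
    exact hv (hS e he v hve)

lemma switchResult_mem {d : Fin n → ℕ} {S : Finset (Fin n)} {E F F' : Finset (Edge n)}
    (hE : E ∈ realizations d) (hF : F ∈ pmSet S) (hF' : F' ∈ pmSet S) :
    switchResult E F F' ∈ realizations d := by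
  unfold switchResult
  split_ifs with h
  · obtain ⟨h1, h2⟩ := h
    unfold realizations at hE ⊢
    rw [Finset.mem_filter] at hE ⊢
    refine ⟨Finset.mem_univ _, fun v => ?_⟩
    have e1 : deg E v = deg (E \ F) v + deg F v := by
      conv_lhs => rw [← Finset.sdiff_union_of_subset h1]
      exact deg_union Finset.sdiff_disjoint v
    have e2 : deg (E \ F ∪ F') v = deg (E \ F) v + deg F' v := by
      apply deg_union
      exact (h2.mono_right Finset.sdiff_subset).symm
    rw [e2, deg_pm hF', ← deg_pm hF, ← e1]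
    exact hE.2 v
  · exact hE

/-! ### reversibility -/

lemma switch_symm_aux {E E' F F' : Finset (Edge n)} (hne : E ≠ E')
    (h : switchResult E F F' = E') : switchResult E' F' F = E := by
  unfold switchResult at h
  split_ifs at h with hc
  · obtain ⟨h1, h2⟩ := hc
    subst h
    unfold switchResult
    have hFF : Disjoint F F' := (h2.mono_right h1).symm
    rw [if_pos ⟨Finset.subset_union_right,
      Finset.disjoint_union_right.mpr ⟨Finset.disjoint_sdiff, hFF⟩⟩]
    ext e
    have a1 : e ∈ F → e ∈ E := fun h => h1 h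
    have a2 : e ∈ F' → e ∉ E := fun h => Finset.disjoint_left.mp h2 h
    simp only [Finset.mem_union, Finset.mem_sdiff]
    tauto
  · exact absurd h hne

lemma switch_symm {E E' F F' : Finset (Edge n)} (hne : E ≠ E') :
    switchResult E F F' = E' ↔ switchResult E' F' F = E :=
  ⟨switch_symm_aux hne, switch_symm_aux hne.symm⟩

lemma proposalCount_symm (E E' : Finset (Edge n)) : proposalCount E E' = proposalCount E' E := by
  by_cases hne : E = E'
  · rw [hne]
  unfold proposalCount
  apply Finset.sum_congr rfl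
  intro S _
  rw [Finset.sum_comm' (t' := pmSet S) (s' := fun F' => (pmSet S).erase F')]
  · apply Finset.sum_congr rfl
    intro F' _
    apply Finset.sum_congr rfl
    intro F _
    simp only [switch_symm hne]
  · intro F F'
    simp only [Finset.mem_erase]
    tauto

/-! ### sums against the proposal count -/

/-- sum over all proposals -/
noncomputable def propSum (n : ℕ) (g : Finset (Edge n) → Finset (Edge n) → ℝ) : ℝ :=
  ∑ S ∈ (univ : Finset (Fin n)).powersetCard 4, ∑ F ∈ pmSet S, ∑ F' ∈ (pmSet S).erase F, g F F'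

lemma sum_pc (Ω : Finset (Finset (Edge n))) (E : Finset (Edge n)) (φ : Finset (Edge n) → ℝ)
    (hres : ∀ S ∈ (univ : Finset (Fin n)).powersetCard 4, ∀ F ∈ pmSet S,
      ∀ F' ∈ (pmSet S).erase F, switchResult E F F' ∈ Ω) :
    ∑ E' ∈ Ω, (proposalCount E E' : ℝ) * φ E' = propSum n fun F F' => φ (switchResult E F F') := by
  unfold proposalCount propSum
  push_cast
  simp only [Finset.sum_mul]
  rw [Finset.sum_comm]
  apply Finset.sum_congr rfl; intro S hS
  rw [Finset.sum_comm]
  apply Finset.sum_congr rfl; intro F hF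
  rw [Finset.sum_comm]
  apply Finset.sum_congr rfl; intro F' hF'
  simp only [ite_mul, one_mul, zero_mul]
  rw [Finset.sum_ite_eq]
  simp [hres S hS F hF F' hF']

lemma propSum_one : propSum n (fun _ _ => 1) = 6 * (n.choose 4 : ℝ) := by
  unfold propSum
  have : ∀ S ∈ (univ : Finset (Fin n)).powersetCard 4,
      ∑ F ∈ pmSet S, ∑ F' ∈ (pmSet S).erase F, (1 : ℝ) = 6 := by
    intro S hS
    have hc := card_pmSet (Finset.mem_powersetCard.mp hS).2
    have : ∀ F ∈ pmSet S, ∑ F' ∈ (pmSet S).erase F, (1 : ℝ) = 2 := by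
      intro F hF
      rw [Finset.sum_const, Finset.card_erase_of_mem hF, hc]
      norm_num
    rw [Finset.sum_congr rfl this, Finset.sum_const, hc]
    norm_num
  rw [Finset.sum_congr rfl this, Finset.sum_const, Finset.card_powersetCard, Finset.card_univ,
    Fintype.card_fin]
  simp; ring

/-- the non-lazy part of the kernel -/
noncomputable def Qk (n : ℕ) : Finset (Edge n) → Finset (Edge n) → ℝ :=
  fun E E' => (proposalCount E E' : ℝ) / (6 * (n.choose 4 : ℝ))

lemma choose_pos (hn : 4 ≤ n) : (0 : ℝ) < (n.choose 4 : ℝ) := by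
  exact_mod_cast Nat.choose_pos hn

lemma kernel_eq (E E' : Finset (Edge n)) :
    kernel n E E' = (if E = E' then 1 / 2 else 0) + Qk n E E' / 2 := by
  unfold kernel Qk
  congr 1
  rw [div_div]
  congr 1
  ring

lemma setup (hn : 4 ≤ n) (d : Fin n → ℕ) : Setup (Qk n) (realizations d) where
  symm := by
    intro x y
    unfold Qk
    rw [proposalCount_symm]
  nonneg := by
    intro x y
    unfold Qk
    positivity
  row := by
    intro x
    unfold Qk
    rw [← Finset.sum_div]
    have := sum_pc (univ : Finset (Finset (Edge n))) x (fun _ => 1) (by simp)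
    simp only [mul_one] at this
    rw [this, propSum_one]
    have := choose_pos hn
    field_simp
  pres := by
    intro x hx y hy
    unfold Qk
    have : proposalCount x y = 0 := by
      unfold proposalCount
      apply Finset.sum_eq_zero; intro S _
      apply Finset.sum_eq_zero; intro F hF
      apply Finset.sum_eq_zero; intro F' hF'
      rw [if_neg]
      intro h
      exact hy (h ▸ switchResult_mem hx hF (Finset.mem_of_mem_erase hF'))
    rw [this]; simp

/-- the (ordered) Dirichlet sum over switches. -/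
noncomputable def dir (d : Fin n → ℕ) (f : Finset (Edge n) → ℝ) : ℝ :=
  ∑ G ∈ realizations d, ∑ S ∈ (univ : Finset (Fin n)).powersetCard 4, ∑ F ∈ pmSet S,
    ∑ F' ∈ (pmSet S).erase F, (f G - f (switchResult G F F')) ^ 2

lemma dirichlet (hn : 4 ≤ n) (d : Fin n → ℕ) (f : Finset (Edge n) → ℝ) :
    ∑ G ∈ realizations d, f G * (f G - T (Qk n) f G) = dir d f / (24 * (n.choose 4 : ℝ)) := by
  rw [dirichlet_eq (setup hn d)]
  have : ∀ G ∈ realizations d, ∑ G' ∈ realizations d, Qk n G G' * (f G - f G') ^ 2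
      = (propSum n fun F F' => (f G - f (switchResult G F F')) ^ 2) / (6 * (n.choose 4 : ℝ)) := by
    intro G hG
    rw [← sum_pc (realizations d) G (fun G' => (f G - f G') ^ 2)
      (fun S _ F hF F' hF' => switchResult_mem hG hF (Finset.mem_of_mem_erase hF')),
      Finset.sum_div]
    apply Finset.sum_congr rfl
    intro G' _
    unfold Qk
    ring
  rw [Finset.sum_congr rfl this, ← Finset.sum_div]
  unfold dir propSum
  have := choose_pos hn
  field_simp
  ring


/-- **GAP**: `λ₂(L) ≥ 1/(2n²)` for the unnormalised switch Laplacian (`dir` counts every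
unordered switch edge twice). -/
def Gap (n : ℕ) (d : Fin n → ℕ) : Prop :=
  ∀ f : Finset (Edge n) → ℝ,
    ((realizations d).card : ℝ) * (∑ G ∈ realizations d, f G ^ 2)
        - (∑ G ∈ realizations d, f G) ^ 2
      ≤ (n : ℝ) ^ 2 * (realizations d).card * dir d f

lemma poinc_of_gap (hn : 4 ≤ n) (d : Fin n → ℕ) (hg : Gap n d) :
    Poinc (Qk n) (realizations d) (24 * (n : ℝ) ^ 2 * (n.choose 4 : ℝ)) := by
  intro f
  rw [dirichlet hn d f]
  refine le_trans (hg f) (le_of_eq ?_)
  have := choose_pos hn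
  field_simp

lemma card_realizations_le (d : Fin n → ℕ) : (realizations d).card ≤ 2 ^ (n.choose 2) := by
  calc (realizations d).card ≤ (univ : Finset (Finset (Edge n))).card :=
        Finset.card_le_card (Finset.subset_univ _)
    _ = 2 ^ (n.choose 2) := by
        rw [Finset.card_univ, Fintype.card_finset]
        congr 1
        have := Sym2.card_subtype_not_diag (α := Fin n)
        rw [Fintype.card_fin] at this
        exact this

lemma one_le_A (hn : 4 ≤ n) : (1 : ℝ) ≤ 24 * (n : ℝ) ^ 2 * (n.choose 4 : ℝ) := by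
  have hC : (1 : ℝ) ≤ (n.choose 4 : ℝ) := by exact_mod_cast Nat.choose_pos hn
  have hn' : (4 : ℝ) ≤ n := by exact_mod_cast hn
  have : (1 : ℝ) ≤ (n : ℝ) ^ 2 := by nlinarith
  nlinarith

lemma numeric (hn : 4 ≤ n) {N : ℕ} (hN : N ≤ 2 ^ (n.choose 2)) :
    (N : ℝ) / 4 * (1 - 1 / (24 * (n : ℝ) ^ 2 * (n.choose 4 : ℝ))) ^ (2 * n ^ 8) ≤ 1 / 16 := by
  have hC := choose_pos hn
  have hn' : (4 : ℝ) ≤ n := by exact_mod_cast hn
  have hA1 := one_le_A hn
  set A : ℝ := 24 * (n : ℝ) ^ 2 * (n.choose 4 : ℝ) with hA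
  have hA0 : 0 < A := by linarith
  have hA6 : A ≤ (n : ℝ) ^ 6 := by
    have h0 := Nat.choose_le_pow_div (α := ℝ) 4 n
    have h24 : ((4 : ℕ).factorial : ℝ) = 24 := by norm_num [Nat.factorial]
    rw [h24, le_div_iff₀ (by norm_num)] at h0
    calc A = (n : ℝ) ^ 2 * ((n.choose 4 : ℝ) * 24) := by rw [hA]; ring
      _ ≤ (n : ℝ) ^ 2 * (n : ℝ) ^ 4 := by gcongr
      _ = (n : ℝ) ^ 6 := by ring
  have hr : 0 ≤ 1 - 1 / A := by
    have : 1 / A ≤ 1 := by rw [div_le_one hA0]; exact hA1
    linarith
  have h1 : (1 - 1 / A) ^ (2 * n ^ 8) ≤ Real.exp (-(2 * (n : ℝ) ^ 2)) := by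
    calc (1 - 1 / A) ^ (2 * n ^ 8) ≤ (Real.exp (-(1 / A))) ^ (2 * n ^ 8) :=
          pow_le_pow_left₀ hr (Real.one_sub_le_exp_neg _) _
      _ = Real.exp (((2 * n ^ 8 : ℕ) : ℝ) * (-(1 / A))) := by rw [Real.exp_nat_mul]
      _ ≤ _ := by
          apply Real.exp_le_exp.mpr
          push_cast
          have : 2 * (n : ℝ) ^ 2 ≤ 2 * (n : ℝ) ^ 8 * (1 / A) := by
            rw [mul_one_div, le_div_iff₀ hA0]
            calc 2 * (n : ℝ) ^ 2 * A ≤ 2 * (n : ℝ) ^ 2 * (n : ℝ) ^ 6 := by gcongr
              _ = 2 * (n : ℝ) ^ 8 := by ring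
          linarith
  have h2 : (N : ℝ) ≤ Real.exp ((n : ℝ) ^ 2) := by
    have e2 : (2 : ℝ) ≤ Real.exp 1 := by
      have := Real.add_one_le_exp (1 : ℝ); linarith
    calc (N : ℝ) ≤ (2 : ℝ) ^ (n.choose 2) := by exact_mod_cast hN
      _ ≤ (Real.exp 1) ^ (n.choose 2) := pow_le_pow_left₀ (by norm_num) e2 _
      _ = Real.exp ((n.choose 2 : ℕ) * 1) := by rw [Real.exp_nat_mul]
      _ ≤ _ := by
          apply Real.exp_le_exp.mpr
          rw [mul_one]
          exact_mod_cast Nat.choose_le_pow n 2
  have h3 : Real.exp (-((n : ℝ) ^ 2)) ≤ 1 / 4 := by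
    rw [Real.exp_neg, one_div]
    apply inv_anti₀ (by norm_num)
    have := Real.add_one_le_exp ((n : ℝ) ^ 2)
    nlinarith
  calc (N : ℝ) / 4 * (1 - 1 / A) ^ (2 * n ^ 8)
      ≤ Real.exp ((n : ℝ) ^ 2) / 4 * Real.exp (-(2 * (n : ℝ) ^ 2)) := by
        gcongr
    _ = Real.exp (-((n : ℝ) ^ 2)) / 4 := by
        rw [div_mul_eq_mul_div, ← Real.exp_add]
        congr 2
        ring
    _ ≤ 1 / 16 := by linarith

/-- The statement S0453 follows from `Gap`. -/
theorem result_of_gap (n : ℕ) (hn : 4 ≤ n)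
    (d : Fin n → ℕ) (hd : (Crest.SwitchChain.realizations d).Nonempty) (hg : Gap n d) :
    (∃ t : ℕ, t ≤ 2 * n ^ 8 ∧ ∀ G ∈ Crest.SwitchChain.realizations d,
        Crest.SwitchChain.tvDist (fun G' => (Crest.SwitchChain.kernel n ^ t) G G')
          (Crest.SwitchChain.unifOn (Crest.SwitchChain.realizations d)) ≤ 1 / 4) ∧
      ∀ f : Finset (Crest.SwitchChain.Edge n) → ℝ,
        ((Crest.SwitchChain.realizations d).card : ℝ) *
              (∑ G ∈ Crest.SwitchChain.realizations d, f G ^ 2) -
            (∑ G ∈ Crest.SwitchChain.realizations d, f G) ^ 2 ≤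
          24 * (n : ℝ) ^ 2 * (n.choose 4 : ℝ) * (Crest.SwitchChain.realizations d).card *
            ∑ G ∈ Crest.SwitchChain.realizations d,
              f G * (f G - ∑ G' ∈ Crest.SwitchChain.realizations d,
                Crest.SwitchChain.kernel n G G' * f G') := by
  have hP := poinc_of_gap hn d hg
  have hS := setup hn d
  refine ⟨⟨2 * n ^ 8, le_rfl, ?_⟩, ?_⟩
  · intro G hG
    have h1 := tv_sq_le hS hd (one_le_A hn) hP (kernel n) kernel_eq G hG (2 * n ^ 8)
    have h2 := numeric hn (card_realizations_le d)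
    have h3 : (tvDist (fun G' => (kernel n ^ (2 * n ^ 8)) G G') (unifOn (realizations d))) ^ 2
        ≤ (1 / 4 : ℝ) ^ 2 := by
      refine le_trans h1 (le_trans h2 ?_)
      norm_num
    exact (abs_le_of_sq_le_sq' h3 (by norm_num)).2
  · intro f
    have h1 := hP f
    have h2 : ∑ G ∈ realizations d, f G * (f G - ∑ G' ∈ realizations d, kernel n G G' * f G')
        = ∑ G ∈ realizations d, f G * (f G - T (Qk n) f G) := by
      apply Finset.sum_congr rfl
      intro G hG
      rw [K_sum_eq hS (kernel n) kernel_eq f G hG]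
    rw [h2]
    exact h1

end Crest.Agent.S0453Red
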