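import Mathlib

/-!
# Row 299 (S0453): core definitions — conditional expectations for the uniform measure on a Finset

`cE Ω φ f x` = average of `f` over the fibre `{y ∈ Ω | φ y = φ x}` of the label map `φ`.
`ip Ω f g`  = unnormalised inner product `∑ x ∈ Ω, f x * g x`.
All packages of row 299 use exactly these definitions.
-/

set_option autoImplicit false
open Finset

namespace Crest.Agent.S0453Core

variable {α β γ : Type*} [DecidableEq β]

/-- the fibre of `x` for the label map `φ` inside `Ω` -/
def fib (Ω : Finset α) (φ : α → β) (x : α) : Finset α := Ω.filter (fun y => φ y = φ x)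

/-- conditional expectation given the label `φ` (uniform measure on `Ω`) -/
noncomputable def cE (Ω : Finset α) (φ : α → β) (f : α → ℝ) (x : α) : ℝ :=
  (∑ y ∈ fib Ω φ x, f y) / ((fib Ω φ x).card : ℝ)

/-- unnormalised inner product on `Ω` -/
def ip (Ω : Finset α) (f g : α → ℝ) : ℝ := ∑ x ∈ Ω, f x * g x

/-- `f - E[f | φ]` -/
noncomputable def cP (Ω : Finset α) (φ : α → β) (f : α → ℝ) (x : α) : ℝ := f x - cE Ω φ f x

end Crest.Agent.S0453Core
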