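import Mathlib
import Crest.Agent.S0453_Core

/-!
# Row 299 (S0453): API for `fib`, `cE`, `ip`, `cP` of `S0453_Core`  (package P0)
-/

set_option autoImplicit false
set_option linter.unusedSectionVars false
set_option linter.unusedVariables false
open Finset

namespace Crest.Agent.S0453Core

variable {α α' β γ : Type*} [DecidableEq β] [DecidableEq γ]
variable {Ω : Finset α} {φ : α → β} {ψ : α → γ} {f g : α → ℝ} {x y : α}

/-! ### fibres -/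

lemma mem_fib : y ∈ fib Ω φ x ↔ y ∈ Ω ∧ φ y = φ x := by simp [fib]

lemma self_mem_fib (hx : x ∈ Ω) : x ∈ fib Ω φ x := mem_fib.mpr ⟨hx, rfl⟩

lemma fib_subset : fib Ω φ x ⊆ Ω := Finset.filter_subset _ _

lemma fib_nonempty (hx : x ∈ Ω) : (fib Ω φ x).Nonempty := ⟨x, self_mem_fib hx⟩

lemma fib_card_pos (hx : x ∈ Ω) : (0 : ℝ) < ((fib Ω φ x).card : ℝ) := by
  exact_mod_cast (fib_nonempty hx).card_pos

lemma fib_card_ne (hx : x ∈ Ω) : ((fib Ω φ x).card : ℝ) ≠ 0 := (fib_card_pos hx).ne'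

lemma fib_eq (h : φ y = φ x) : fib Ω φ y = fib Ω φ x := by unfold fib; rw [h]

lemma fib_eq_of_mem (h : y ∈ fib Ω φ x) : fib Ω φ y = fib Ω φ x := fib_eq (mem_fib.mp h).2

/-- `cE` is constant on fibres (no membership needed). -/
lemma cE_eq (h : φ y = φ x) : cE Ω φ f y = cE Ω φ f x := by unfold cE; rw [fib_eq h]

lemma cE_eq_of_mem (h : y ∈ fib Ω φ x) : cE Ω φ f y = cE Ω φ f x := cE_eq (mem_fib.mp h).2

/-- the defining equation, multiplied out -/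
lemma card_mul_cE (hx : x ∈ Ω) : ((fib Ω φ x).card : ℝ) * cE Ω φ f x = ∑ y ∈ fib Ω φ x, f y := by
  unfold cE; field_simp [fib_card_ne hx]

lemma cE_def (Ω : Finset α) (φ : α → β) (f : α → ℝ) (x : α) :
    cE Ω φ f x = (∑ y ∈ fib Ω φ x, f y) / ((fib Ω φ x).card : ℝ) := rfl

lemma cP_def (Ω : Finset α) (φ : α → β) (f : α → ℝ) (x : α) :
    cP Ω φ f x = f x - cE Ω φ f x := rfl

lemma ip_def (Ω : Finset α) (f g : α → ℝ) : ip Ω f g = ∑ x ∈ Ω, f x * g x := rfl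

/-! ### congruence -/

/-- `cE` only looks at the values of `f` on `Ω`. -/
lemma cE_congr {f g : α → ℝ} (h : ∀ y ∈ Ω, f y = g y) (x : α) : cE Ω φ f x = cE Ω φ g x := by
  unfold cE
  rw [Finset.sum_congr rfl (fun y hy => h y (fib_subset hy))]

lemma ip_congr {f f' g g' : α → ℝ} (h : ∀ y ∈ Ω, f y = f' y) (h' : ∀ y ∈ Ω, g y = g' y) :
    ip Ω f g = ip Ω f' g' := by
  unfold ip
  exact Finset.sum_congr rfl (fun y hy => by rw [h y hy, h' y hy])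

/-- two labels with the same fibres on `Ω` give the same `fib`. -/
lemma fib_congr_label (h : ∀ y ∈ Ω, (φ y = φ x ↔ ψ y = ψ x)) : fib Ω φ x = fib Ω ψ x := by
  unfold fib
  exact Finset.filter_congr h

/-- two labels with the same fibres on `Ω` give the same `cE`. -/
lemma cE_congr_label (h : ∀ y ∈ Ω, (φ y = φ x ↔ ψ y = ψ x)) : cE Ω φ f x = cE Ω ψ f x := by
  unfold cE; rw [fib_congr_label h]

/-! ### linearity -/

lemma cE_add (f g : α → ℝ) (x : α) :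
    cE Ω φ (fun z => f z + g z) x = cE Ω φ f x + cE Ω φ g x := by
  unfold cE; rw [Finset.sum_add_distrib, add_div]

lemma cE_sub (f g : α → ℝ) (x : α) :
    cE Ω φ (fun z => f z - g z) x = cE Ω φ f x - cE Ω φ g x := by
  unfold cE; rw [Finset.sum_sub_distrib, sub_div]

lemma cE_neg (f : α → ℝ) (x : α) : cE Ω φ (fun z => - f z) x = - cE Ω φ f x := by
  unfold cE; rw [Finset.sum_neg_distrib, neg_div]

lemma cE_const_mul (c : ℝ) (f : α → ℝ) (x : α) :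
    cE Ω φ (fun z => c * f z) x = c * cE Ω φ f x := by
  unfold cE; rw [← Finset.mul_sum, mul_div_assoc]

lemma cE_mul_const (c : ℝ) (f : α → ℝ) (x : α) :
    cE Ω φ (fun z => f z * c) x = cE Ω φ f x * c := by
  unfold cE; rw [← Finset.sum_mul]; ring

lemma cE_div_const (c : ℝ) (f : α → ℝ) (x : α) :
    cE Ω φ (fun z => f z / c) x = cE Ω φ f x / c := by
  unfold cE; rw [← Finset.sum_div]; ring

lemma cE_zero (x : α) : cE Ω φ (fun _ => 0) x = 0 := by unfold cE; simp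

lemma cE_const (hx : x ∈ Ω) (c : ℝ) : cE Ω φ (fun _ => c) x = c := by
  unfold cE
  rw [Finset.sum_const, nsmul_eq_mul]
  field_simp [fib_card_ne hx]

lemma cE_finset_sum {ι : Type*} (s : Finset ι) (F : ι → α → ℝ) (x : α) :
    cE Ω φ (fun z => ∑ i ∈ s, F i z) x = ∑ i ∈ s, cE Ω φ (F i) x := by
  unfold cE; rw [Finset.sum_comm, Finset.sum_div]

lemma cP_add (f g : α → ℝ) (x : α) :
    cP Ω φ (fun z => f z + g z) x = cP Ω φ f x + cP Ω φ g x := by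
  unfold cP; rw [cE_add]; ring

lemma cP_sub (f g : α → ℝ) (x : α) :
    cP Ω φ (fun z => f z - g z) x = cP Ω φ f x - cP Ω φ g x := by
  unfold cP; rw [cE_sub]; ring

lemma cP_const_mul (c : ℝ) (f : α → ℝ) (x : α) :
    cP Ω φ (fun z => c * f z) x = c * cP Ω φ f x := by
  unfold cP; rw [cE_const_mul]; ring

lemma cP_congr {f g : α → ℝ} (h : ∀ y ∈ Ω, f y = g y) (hx : x ∈ Ω) :
    cP Ω φ f x = cP Ω φ g x := by
  unfold cP; rw [cE_congr h, h x hx]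

lemma ip_comm (f g : α → ℝ) : ip Ω f g = ip Ω g f := by
  unfold ip; exact Finset.sum_congr rfl (fun _ _ => mul_comm _ _)

lemma ip_add_left (f g h : α → ℝ) : ip Ω (fun z => f z + g z) h = ip Ω f h + ip Ω g h := by
  unfold ip; rw [← Finset.sum_add_distrib]; exact Finset.sum_congr rfl (fun _ _ => by ring)

lemma ip_add_right (f g h : α → ℝ) : ip Ω h (fun z => f z + g z) = ip Ω h f + ip Ω h g := by
  unfold ip; rw [← Finset.sum_add_distrib]; exact Finset.sum_congr rfl (fun _ _ => by ring)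

lemma ip_sub_left (f g h : α → ℝ) : ip Ω (fun z => f z - g z) h = ip Ω f h - ip Ω g h := by
  unfold ip; rw [← Finset.sum_sub_distrib]; exact Finset.sum_congr rfl (fun _ _ => by ring)

lemma ip_sub_right (f g h : α → ℝ) : ip Ω h (fun z => f z - g z) = ip Ω h f - ip Ω h g := by
  unfold ip; rw [← Finset.sum_sub_distrib]; exact Finset.sum_congr rfl (fun _ _ => by ring)

lemma ip_const_mul_left (c : ℝ) (f h : α → ℝ) : ip Ω (fun z => c * f z) h = c * ip Ω f h := by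
  unfold ip; rw [Finset.mul_sum]; exact Finset.sum_congr rfl (fun _ _ => by ring)

lemma ip_const_mul_right (c : ℝ) (f h : α → ℝ) : ip Ω h (fun z => c * f z) = c * ip Ω h f := by
  unfold ip; rw [Finset.mul_sum]; exact Finset.sum_congr rfl (fun _ _ => by ring)

lemma ip_finset_sum_left {ι : Type*} (s : Finset ι) (F : ι → α → ℝ) (h : α → ℝ) :
    ip Ω (fun z => ∑ i ∈ s, F i z) h = ∑ i ∈ s, ip Ω (F i) h := by
  unfold ip; rw [Finset.sum_comm]; exact Finset.sum_congr rfl (fun _ _ => Finset.sum_mul _ _ _)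

lemma ip_finset_sum_right {ι : Type*} (s : Finset ι) (F : ι → α → ℝ) (h : α → ℝ) :
    ip Ω h (fun z => ∑ i ∈ s, F i z) = ∑ i ∈ s, ip Ω h (F i) := by
  unfold ip; rw [Finset.sum_comm]; exact Finset.sum_congr rfl (fun _ _ => Finset.mul_sum _ _ _)

lemma ip_self_nonneg (f : α → ℝ) : 0 ≤ ip Ω f f :=
  Finset.sum_nonneg (fun _ _ => mul_self_nonneg _)

lemma ip_self_eq_sum_sq (f : α → ℝ) : ip Ω f f = ∑ x ∈ Ω, f x ^ 2 :=
  Finset.sum_congr rfl (fun _ _ => by ring)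

lemma ip_self_eq_zero (h : ip Ω f f = 0) : ∀ x ∈ Ω, f x = 0 := by
  intro x hx
  have := (Finset.sum_eq_zero_iff_of_nonneg (fun y _ => mul_self_nonneg (f y))).mp h x hx
  exact mul_self_eq_zero.mp this

/-- Cauchy-Schwarz -/
lemma ip_sq_le (f g : α → ℝ) : ip Ω f g ^ 2 ≤ ip Ω f f * ip Ω g g := by
  rw [ip_self_eq_sum_sq, ip_self_eq_sum_sq]
  exact Finset.sum_mul_sq_le_sq_mul_sq _ _ _

/-! ### measurability -/

/-- `g` is a function of the label `φ` on `Ω`. -/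
def Meas (Ω : Finset α) (φ : α → β) (g : α → ℝ) : Prop :=
  ∀ y ∈ Ω, ∀ z ∈ Ω, φ y = φ z → g y = g z

lemma meas_cE (f : α → ℝ) : Meas Ω φ (cE Ω φ f) := fun _ _ _ _ h => cE_eq h

lemma meas_const (c : ℝ) : Meas Ω φ (fun _ => c) := fun _ _ _ _ _ => rfl

lemma Meas.add (hf : Meas Ω φ f) (hg : Meas Ω φ g) : Meas Ω φ (fun z => f z + g z) :=
  fun y hy z hz h => by simp only [hf y hy z hz h, hg y hy z hz h]

lemma Meas.sub (hf : Meas Ω φ f) (hg : Meas Ω φ g) : Meas Ω φ (fun z => f z - g z) :=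
  fun y hy z hz h => by simp only [hf y hy z hz h, hg y hy z hz h]

lemma Meas.mul (hf : Meas Ω φ f) (hg : Meas Ω φ g) : Meas Ω φ (fun z => f z * g z) :=
  fun y hy z hz h => by simp only [hf y hy z hz h, hg y hy z hz h]

/-- `ψ` is finer than `φ` on `Ω`. -/
def Finer (Ω : Finset α) (ψ : α → γ) (φ : α → β) : Prop :=
  ∀ y ∈ Ω, ∀ z ∈ Ω, ψ y = ψ z → φ y = φ z

lemma Meas.of_finer (h : Finer Ω ψ φ) (hg : Meas Ω φ g) : Meas Ω ψ g :=
  fun y hy z hz e => hg y hy z hz (h y hy z hz e)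

/-- taking out what is known -/
lemma cE_mul_of_meas (hg : Meas Ω φ g) (hx : x ∈ Ω) (f : α → ℝ) :
    cE Ω φ (fun z => g z * f z) x = g x * cE Ω φ f x := by
  unfold cE
  rw [← mul_div_assoc, Finset.mul_sum]
  congr 1
  apply Finset.sum_congr rfl
  intro y hy
  show g y * f y = g x * f y
  rw [hg y (fib_subset hy) x hx (mem_fib.mp hy).2]

lemma cE_of_meas (hg : Meas Ω φ g) (hx : x ∈ Ω) : cE Ω φ g x = g x := by
  have := cE_mul_of_meas hg hx (fun _ => 1)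
  simp only [mul_one] at this
  rw [this, cE_const hx, mul_one]

lemma cP_of_meas (hg : Meas Ω φ g) (hx : x ∈ Ω) : cP Ω φ g x = 0 := by
  unfold cP; rw [cE_of_meas hg hx, sub_self]

/-- if `cP f = 0` on `Ω` then `f` is measurable -/
lemma meas_of_cP_eq_zero (h : ∀ x ∈ Ω, cP Ω φ f x = 0) : Meas Ω φ f := by
  intro y hy z hz e
  have h1 := h y hy
  have h2 := h z hz
  unfold cP at h1 h2
  have : cE Ω φ f y = cE Ω φ f z := cE_eq e
  linarith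

/-- idempotent (everywhere) -/
lemma cE_cE (f : α → ℝ) (x : α) : cE Ω φ (cE Ω φ f) x = cE Ω φ f x := by
  by_cases h : (fib Ω φ x).Nonempty
  · obtain ⟨y, hy⟩ := h
    have hyΩ := fib_subset hy
    rw [← cE_eq_of_mem hy, ← cE_eq_of_mem (f := f) hy]
    exact cE_of_meas (meas_cE f) hyΩ
  · rw [Finset.not_nonempty_iff_eq_empty] at h
    unfold cE
    simp [h]

lemma cE_cP (f : α → ℝ) (x : α) : cE Ω φ (cP Ω φ f) x = 0 := by
  have : cE Ω φ (cP Ω φ f) x = cE Ω φ f x - cE Ω φ (cE Ω φ f) x := cE_sub _ _ _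
  rw [this, cE_cE, sub_self]

lemma cP_cE (f : α → ℝ) (x : α) : cP Ω φ (cE Ω φ f) x = 0 := by
  unfold cP; rw [cE_cE, sub_self]

lemma cP_cP (f : α → ℝ) (x : α) : cP Ω φ (cP Ω φ f) x = cP Ω φ f x := by
  show cP Ω φ f x - cE Ω φ (cP Ω φ f) x = _
  rw [cE_cP, sub_zero]

/-! ### sums, self-adjointness, Pythagoras -/

lemma sum_cE (f : α → ℝ) : ∑ x ∈ Ω, cE Ω φ f x = ∑ x ∈ Ω, f x := by
  have h1 : ∀ x ∈ Ω, cE Ω φ f x
      = ∑ y ∈ Ω, if φ y = φ x then f y / ((fib Ω φ y).card : ℝ) else 0 := by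
    intro x _
    rw [cE_def, Finset.sum_div]
    conv_lhs => rw [fib, Finset.sum_filter]
    apply Finset.sum_congr rfl
    intro y _
    split_ifs with h
    · rw [fib_eq h]; rfl
    · rfl
  rw [Finset.sum_congr rfl h1, Finset.sum_comm]
  apply Finset.sum_congr rfl
  intro y hy
  have : ∀ c : ℝ, ∑ x ∈ Ω, (if φ y = φ x then c else 0) = ∑ x ∈ fib Ω φ y, c := by
    intro c
    unfold fib
    rw [Finset.sum_filter]
    apply Finset.sum_congr rfl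
    intro x _
    simp only [eq_comm]
  rw [this, Finset.sum_const, nsmul_eq_mul]
  field_simp [fib_card_ne hy]

lemma sum_cP (f : α → ℝ) : ∑ x ∈ Ω, cP Ω φ f x = 0 := by
  unfold cP; rw [Finset.sum_sub_distrib, sum_cE, sub_self]

/-- `∑ g * f = ∑ g * E f` for measurable `g`. -/
lemma ip_meas_left (hg : Meas Ω φ g) (f : α → ℝ) : ip Ω g f = ip Ω g (cE Ω φ f) := by
  unfold ip
  rw [← sum_cE (φ := φ)]
  exact Finset.sum_congr rfl (fun x hx => cE_mul_of_meas hg hx f)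

lemma ip_cE_left (f g : α → ℝ) : ip Ω (cE Ω φ f) g = ip Ω (cE Ω φ f) (cE Ω φ g) :=
  ip_meas_left (meas_cE f) g

lemma ip_cE_right (f g : α → ℝ) : ip Ω f (cE Ω φ g) = ip Ω (cE Ω φ f) (cE Ω φ g) := by
  rw [ip_comm, ip_cE_left, ip_comm]

/-- self-adjointness -/
lemma ip_cE_symm (f g : α → ℝ) : ip Ω (cE Ω φ f) g = ip Ω f (cE Ω φ g) := by
  rw [ip_cE_left]; exact (ip_cE_right f g).symm

lemma ip_cP_cE (f g : α → ℝ) : ip Ω (cP Ω φ f) (cE Ω φ g) = 0 := by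
  have : ip Ω (cP Ω φ f) (cE Ω φ g) = ip Ω f (cE Ω φ g) - ip Ω (cE Ω φ f) (cE Ω φ g) :=
    ip_sub_left _ _ _
  rw [this, ip_cE_right, sub_self]

lemma ip_cE_cP (f g : α → ℝ) : ip Ω (cE Ω φ g) (cP Ω φ f) = 0 := by
  rw [ip_comm, ip_cP_cE]

lemma ip_cP_meas (hg : Meas Ω φ g) (f : α → ℝ) : ip Ω (cP Ω φ f) g = 0 := by
  rw [ip_comm, ip_meas_left hg]
  unfold ip
  exact Finset.sum_eq_zero (fun x _ => by rw [cE_cP, mul_zero])

lemma ip_cP_symm (f g : α → ℝ) : ip Ω (cP Ω φ f) g = ip Ω f (cP Ω φ g) := by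
  have h1 : ip Ω (cP Ω φ f) g = ip Ω f g - ip Ω (cE Ω φ f) g := ip_sub_left _ _ _
  have h2 : ip Ω f (cP Ω φ g) = ip Ω f g - ip Ω f (cE Ω φ g) := ip_sub_right _ _ _
  rw [h1, h2, ip_cE_symm]

lemma ip_cP_left (f g : α → ℝ) : ip Ω (cP Ω φ f) g = ip Ω (cP Ω φ f) (cP Ω φ g) := by
  have h2 : ip Ω (cP Ω φ f) (cP Ω φ g) = ip Ω (cP Ω φ f) g - ip Ω (cP Ω φ f) (cE Ω φ g) :=
    ip_sub_right _ _ _
  rw [h2, ip_cP_cE, sub_zero]

lemma ip_cP_right (f g : α → ℝ) : ip Ω f (cP Ω φ g) = ip Ω (cP Ω φ f) (cP Ω φ g) := by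
  rw [← ip_cP_symm, ip_cP_left]

/-- Pythagoras -/
lemma ip_pythagoras (f : α → ℝ) :
    ip Ω f f = ip Ω (cE Ω φ f) (cE Ω φ f) + ip Ω (cP Ω φ f) (cP Ω φ f) := by
  rw [← ip_cP_right, ← ip_cE_right]
  have : ip Ω f (cP Ω φ f) = ip Ω f f - ip Ω f (cE Ω φ f) := ip_sub_right _ _ _
  rw [this]; ring

lemma ip_cP_self (f : α → ℝ) :
    ip Ω (cP Ω φ f) (cP Ω φ f) = ip Ω f f - ip Ω (cE Ω φ f) (cE Ω φ f) := by
  rw [ip_pythagoras (φ := φ) f]; ring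

lemma ip_cE_self_le (f : α → ℝ) : ip Ω (cE Ω φ f) (cE Ω φ f) ≤ ip Ω f f := by
  rw [ip_pythagoras (φ := φ) f]
  have := ip_self_nonneg (Ω := Ω) (cP Ω φ f)
  linarith

lemma ip_cP_self_le (f : α → ℝ) : ip Ω (cP Ω φ f) (cP Ω φ f) ≤ ip Ω f f := by
  rw [ip_pythagoras (φ := φ) f]
  have := ip_self_nonneg (Ω := Ω) (cE Ω φ f)
  linarith

/-- Jensen -/
lemma cE_sq_le (hx : x ∈ Ω) (f : α → ℝ) : cE Ω φ f x ^ 2 ≤ cE Ω φ (fun z => f z ^ 2) x := by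
  unfold cE
  have hc := fib_card_pos (φ := φ) hx
  rw [div_pow, div_le_div_iff₀ (by positivity) hc]
  have := sq_sum_le_card_mul_sum_sq (s := fib Ω φ x) (f := f)
  nlinarith

/-! ### tower -/

lemma cE_cE_of_finer (h : Finer Ω ψ φ) (hx : x ∈ Ω) (f : α → ℝ) :
    cE Ω ψ (cE Ω φ f) x = cE Ω φ f x :=
  cE_of_meas ((meas_cE f).of_finer h) hx

/-- sums over a coarse fibre of a fine conditional expectation -/
lemma sum_fib_cE_of_finer (h : Finer Ω ψ φ) (x : α) (f : α → ℝ) :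
    ∑ y ∈ fib Ω φ x, cE Ω ψ f y = ∑ y ∈ fib Ω φ x, f y := by
  -- on the coarse fibre `Ω' = fib Ω φ x`, `cE Ω ψ = cE Ω' ψ`
  have key : ∀ y ∈ fib Ω φ x, cE Ω ψ f y = cE (fib Ω φ x) ψ f y := by
    intro y hy
    have : fib Ω ψ y = fib (fib Ω φ x) ψ y := by
      ext z
      simp only [mem_fib]
      constructor
      · rintro ⟨hz, e⟩
        exact ⟨⟨hz, (h z hz y (fib_subset hy) e).trans (mem_fib.mp hy).2⟩, e⟩
      · rintro ⟨⟨hz, _⟩, e⟩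
        exact ⟨hz, e⟩
    unfold cE
    rw [this]
  rw [Finset.sum_congr rfl key, sum_cE]

lemma cE_cE_of_coarser (h : Finer Ω ψ φ) (f : α → ℝ) (x : α) :
    cE Ω φ (cE Ω ψ f) x = cE Ω φ f x := by
  unfold cE
  rw [show (∑ y ∈ fib Ω φ x, (∑ y ∈ fib Ω ψ y, f y) / ((fib Ω ψ y).card : ℝ))
      = ∑ y ∈ fib Ω φ x, cE Ω ψ f y from rfl, sum_fib_cE_of_finer h]

/-- total variance: `|f - E_φ f|² = |f - E_ψ f|² + |E_ψ f - E_φ f|²` for `ψ` finer than `φ`. -/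
lemma total_variance (h : Finer Ω ψ φ) (f : α → ℝ) :
    ip Ω (cP Ω φ f) (cP Ω φ f) = ip Ω (cP Ω ψ f) (cP Ω ψ f)
      + ip Ω (fun z => cE Ω ψ f z - cE Ω φ f z) (fun z => cE Ω ψ f z - cE Ω φ f z) := by
  have h1 : ip Ω (cE Ω ψ f) (cE Ω φ f) = ip Ω (cE Ω φ f) (cE Ω φ f) := by
    rw [ip_cE_symm]
    rw [ip_congr (fun _ _ => rfl) (fun y hy => cE_cE_of_finer h hy f), ip_cE_right]
  rw [ip_cP_self, ip_cP_self, ip_sub_left, ip_sub_right, ip_sub_right, h1,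
    ip_comm (cE Ω φ f) (cE Ω ψ f), h1]
  ring

lemma ip_cE_self_mono (h : Finer Ω ψ φ) (f : α → ℝ) :
    ip Ω (cE Ω φ f) (cE Ω φ f) ≤ ip Ω (cE Ω ψ f) (cE Ω ψ f) := by
  have h1 := ip_cE_self_le (Ω := Ω) (φ := φ) (cE Ω ψ f)
  rwa [ip_congr (fun y _ => cE_cE_of_coarser h f y) (fun y _ => cE_cE_of_coarser h f y)] at h1

lemma ip_cP_self_anti (h : Finer Ω ψ φ) (f : α → ℝ) :
    ip Ω (cP Ω ψ f) (cP Ω ψ f) ≤ ip Ω (cP Ω φ f) (cP Ω φ f) := by
  rw [ip_cP_self, ip_cP_self]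
  have := ip_cE_self_mono h f
  linarith

/-! ### the trivial label -/

lemma fib_unit (x : α) : fib Ω (fun _ => ()) x = Ω := by simp [fib]

lemma cE_unit (f : α → ℝ) (x : α) :
    cE Ω (fun _ => ()) f x = (∑ y ∈ Ω, f y) / (Ω.card : ℝ) := by
  unfold cE; rw [fib_unit]

lemma finer_unit : Finer Ω φ (fun _ : α => ()) := fun _ _ _ _ _ => rfl

/-- `|Ω| * |f - mean|² = |Ω| ∑ f² - (∑ f)²` -/
lemma card_mul_ip_cP_unit (f : α → ℝ) :
    (Ω.card : ℝ) * ip Ω (cP Ω (fun _ => ()) f) (cP Ω (fun _ => ()) f)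
      = (Ω.card : ℝ) * ∑ x ∈ Ω, f x ^ 2 - (∑ x ∈ Ω, f x) ^ 2 := by
  rw [ip_cP_self, ip_self_eq_sum_sq, ip_self_eq_sum_sq]
  simp only [cE_unit]
  rw [Finset.sum_const, nsmul_eq_mul]
  by_cases h : (Ω.card : ℝ) = 0
  · have : Ω = ∅ := by
      rw [← Finset.card_eq_zero]; exact_mod_cast h
    subst this; simp
  · field_simp


/-! ### localisation to the fibres of a coarser label `κ` -/

section Localise
variable {κ : α → γ}

lemma fib_filter_eq (hx : x ∈ Ω) : Ω.filter (fun z => κ z = κ x) = fib Ω κ x := rfl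

/-- inside a `κ`-fibre the `φ`-fibres are the same (`φ` finer than `κ`). -/
lemma fib_fib (h : Finer Ω φ κ) (hy : y ∈ fib Ω κ x) : fib (fib Ω κ x) φ y = fib Ω φ y := by
  ext z
  simp only [mem_fib]
  constructor
  · rintro ⟨⟨hz, _⟩, e⟩
    exact ⟨hz, e⟩
  · rintro ⟨hz, e⟩
    exact ⟨⟨hz, (h z hz y (fib_subset hy) e).trans (mem_fib.mp hy).2⟩, e⟩

/-- LOCALISATION: `cE` computed in the `κ`-fibre = `cE` computed in `Ω`. -/
lemma cE_fib (h : Finer Ω φ κ) (hy : y ∈ fib Ω κ x) (f : α → ℝ) :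
    cE (fib Ω κ x) φ f y = cE Ω φ f y := by
  unfold cE; rw [fib_fib h hy]

lemma cP_fib (h : Finer Ω φ κ) (hy : y ∈ fib Ω κ x) (f : α → ℝ) :
    cP (fib Ω κ x) φ f y = cP Ω φ f y := by
  unfold cP; rw [cE_fib h hy]

lemma cE_fib_self (h : Finer Ω φ κ) (hx : x ∈ Ω) (f : α → ℝ) :
    cE (fib Ω κ x) φ f x = cE Ω φ f x := cE_fib h (self_mem_fib hx) f

/-- `κ` itself restricted to one of its fibres is the trivial label. -/
lemma cE_fib_label (hy : y ∈ fib Ω κ x) (f : α → ℝ) :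
    cE (fib Ω κ x) (fun _ => ()) f y = cE Ω κ f y := by
  rw [cE_unit, cE_def, fib_eq_of_mem hy]

lemma finer_fib (h : Finer Ω ψ φ) {κ' : α → β} (x : α) : Finer (fib Ω κ' x) ψ φ :=
  fun y hy z hz e => h y (fib_subset hy) z (fib_subset hz) e

lemma Finer.mono {Ω' : Finset α} (h : Finer Ω ψ φ) (hs : Ω' ⊆ Ω) : Finer Ω' ψ φ :=
  fun y hy z hz e => h y (hs hy) z (hs hz) e

lemma Meas.mono {Ω' : Finset α} (h : Meas Ω φ g) (hs : Ω' ⊆ Ω) : Meas Ω' φ g :=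
  fun y hy z hz e => h y (hs hy) z (hs hz) e

/-- sums over `Ω` = sums over the fibres of `κ`. -/
lemma sum_eq_sum_fibers (κ : α → γ) (F : α → ℝ) :
    ∑ x ∈ Ω, F x = ∑ c ∈ Ω.image κ, ∑ x ∈ Ω.filter (fun z => κ z = c), F x :=
  (Finset.sum_fiberwise_of_maps_to (fun x hx => Finset.mem_image_of_mem κ hx) F).symm

lemma ip_eq_sum_fibers (κ : α → γ) (f g : α → ℝ) :
    ip Ω f g = ∑ c ∈ Ω.image κ, ip (Ω.filter (fun z => κ z = c)) f g :=
  sum_eq_sum_fibers κ _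

/-- to prove `0 ≤ ∑_Ω F` it is enough to do it on each `κ`-fibre. -/
lemma sum_nonneg_of_fib (κ : α → γ) (F : α → ℝ)
    (h : ∀ x ∈ Ω, 0 ≤ ∑ y ∈ fib Ω κ x, F y) : 0 ≤ ∑ x ∈ Ω, F x := by
  rw [sum_eq_sum_fibers κ]
  apply Finset.sum_nonneg
  intro c hc
  obtain ⟨x, hx, rfl⟩ := Finset.mem_image.mp hc
  exact h x hx

/-- to prove `∑_Ω F ≤ ∑_Ω F'` it is enough to do it on each `κ`-fibre. -/
lemma sum_le_sum_of_fib (κ : α → γ) (F F' : α → ℝ)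
    (h : ∀ x ∈ Ω, ∑ y ∈ fib Ω κ x, F y ≤ ∑ y ∈ fib Ω κ x, F' y) :
    ∑ x ∈ Ω, F x ≤ ∑ x ∈ Ω, F' x := by
  rw [sum_eq_sum_fibers κ, sum_eq_sum_fibers κ F']
  apply Finset.sum_le_sum
  intro c hc
  obtain ⟨x, hx, rfl⟩ := Finset.mem_image.mp hc
  exact h x hx

lemma sum_eq_sum_of_fib (κ : α → γ) (F F' : α → ℝ)
    (h : ∀ x ∈ Ω, ∑ y ∈ fib Ω κ x, F y = ∑ y ∈ fib Ω κ x, F' y) :
    ∑ x ∈ Ω, F x = ∑ x ∈ Ω, F' x :=
  le_antisymm (sum_le_sum_of_fib κ F F' (fun x hx => (h x hx).le))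
    (sum_le_sum_of_fib κ F' F (fun x hx => (h x hx).ge))

end Localise

/-! ### explicit fibre formulas -/

lemma sum_fib_cE (x : α) (f : α → ℝ) : ∑ y ∈ fib Ω φ x, cE Ω φ f y = ∑ y ∈ fib Ω φ x, f y :=
  sum_fib_cE_of_finer (fun _ _ _ _ e => e) x f

/-- `∑_{fibre} (E f)² = (∑_{fibre} f)² / card`. -/
lemma sum_fib_cE_sq (hx : x ∈ Ω) (f : α → ℝ) :
    ∑ y ∈ fib Ω φ x, cE Ω φ f y ^ 2 = (∑ y ∈ fib Ω φ x, f y) ^ 2 / ((fib Ω φ x).card : ℝ) := by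
  rw [Finset.sum_congr rfl (fun y hy => by rw [cE_eq_of_mem hy]), Finset.sum_const, nsmul_eq_mul,
    cE_def]
  field_simp [fib_card_ne hx]

/-- `∑_{fibre} (f - E f)² = ∑_{fibre} f² - (∑_{fibre} f)² / card`. -/
lemma sum_fib_cP_sq (hx : x ∈ Ω) (f : α → ℝ) :
    ∑ y ∈ fib Ω φ x, cP Ω φ f y ^ 2
      = ∑ y ∈ fib Ω φ x, f y ^ 2 - (∑ y ∈ fib Ω φ x, f y) ^ 2 / ((fib Ω φ x).card : ℝ) := by
  have h1 : ∀ y ∈ fib Ω φ x, cP Ω φ f y ^ 2
      = f y ^ 2 - 2 * cE Ω φ f x * f y + cE Ω φ f x ^ 2 := by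
    intro y hy
    unfold cP
    rw [cE_eq_of_mem hy]; ring
  rw [Finset.sum_congr rfl h1, Finset.sum_add_distrib, Finset.sum_sub_distrib, ← Finset.mul_sum,
    Finset.sum_const, nsmul_eq_mul, cE_def]
  field_simp [fib_card_ne hx]
  ring

/-- variance in a fibre as a double sum -/
lemma card_mul_sum_fib_cP_sq (hx : x ∈ Ω) (f : α → ℝ) :
    ((fib Ω φ x).card : ℝ) * ∑ y ∈ fib Ω φ x, cP Ω φ f y ^ 2
      = ((fib Ω φ x).card : ℝ) * ∑ y ∈ fib Ω φ x, f y ^ 2 - (∑ y ∈ fib Ω φ x, f y) ^ 2 := by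
  rw [sum_fib_cP_sq hx]
  field_simp [fib_card_ne hx]

/-! ### pair labels -/

lemma finer_pair_left : Finer Ω (fun z => (φ z, ψ z)) φ :=
  fun _ _ _ _ e => (Prod.ext_iff.mp e).1

lemma finer_pair_right : Finer Ω (fun z => (φ z, ψ z)) ψ :=
  fun _ _ _ _ e => (Prod.ext_iff.mp e).2

lemma finer_refl : Finer Ω φ φ := fun _ _ _ _ e => e

lemma Finer.trans {δ : Type*} [DecidableEq δ] {χ : α → δ} (h1 : Finer Ω χ ψ) (h2 : Finer Ω ψ φ) :
    Finer Ω χ φ := fun y hy z hz e => h2 y hy z hz (h1 y hy z hz e)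

/-- conditioning on `φ` inside the event `{ψ = ψ x}` = conditioning on the pair. -/
lemma cE_fib_pair (hy : y ∈ fib Ω ψ x) (f : α → ℝ) :
    cE (fib Ω ψ x) φ f y = cE Ω (fun z => (φ z, ψ z)) f y := by
  have : fib (fib Ω ψ x) φ y = fib Ω (fun z => (φ z, ψ z)) y := by
    ext z
    simp only [mem_fib, Prod.mk.injEq]
    have := (mem_fib.mp hy).2
    constructor
    · rintro ⟨⟨hz, e1⟩, e2⟩
      exact ⟨hz, e2, e1.trans this.symm⟩
    · rintro ⟨hz, e2, e1⟩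
      exact ⟨⟨hz, e1.trans this⟩, e2⟩
  unfold cE; rw [this]

/-- if `φ` is finer than `ψ`, the pair label is equivalent to `φ`. -/
lemma cE_pair_of_finer (h : Finer Ω φ ψ) (hx : x ∈ Ω) (f : α → ℝ) :
    cE Ω (fun z => (φ z, ψ z)) f x = cE Ω φ f x := by
  apply cE_congr_label
  intro y hy
  simp only [Prod.mk.injEq]
  exact ⟨fun e => e.1, fun e => ⟨e, h y hy x hx e⟩⟩

/-! ### transport along an injective map -/

section Transport
variable {β' : Type*} [DecidableEq β'] [DecidableEq α'] {e : α → α'} {φ' : α' → β'}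

lemma fib_image (he : Set.InjOn e Ω)
    (hl : ∀ y ∈ Ω, ∀ z ∈ Ω, (φ' (e y) = φ' (e z) ↔ φ y = φ z)) (hx : x ∈ Ω) :
    fib (Ω.image e) φ' (e x) = (fib Ω φ x).image e := by
  ext z
  simp only [mem_fib, Finset.mem_image]
  constructor
  · rintro ⟨⟨y, hy, rfl⟩, h⟩
    exact ⟨y, ⟨hy, (hl y hy x hx).mp h⟩, rfl⟩
  · rintro ⟨y, ⟨hy, h⟩, rfl⟩
    exact ⟨⟨y, hy, rfl⟩, (hl y hy x hx).mpr h⟩

/-- TRANSPORT of `cE`. -/
lemma cE_image (he : Set.InjOn e Ω)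
    (hl : ∀ y ∈ Ω, ∀ z ∈ Ω, (φ' (e y) = φ' (e z) ↔ φ y = φ z)) (hx : x ∈ Ω) (g : α' → ℝ) :
    cE (Ω.image e) φ' g (e x) = cE Ω φ (fun z => g (e z)) x := by
  have hinj : Set.InjOn e (fib Ω φ x) := he.mono (fun z hz => fib_subset hz)
  unfold cE
  rw [fib_image he hl hx, Finset.sum_image hinj, Finset.card_image_of_injOn hinj]

lemma cP_image (he : Set.InjOn e Ω)
    (hl : ∀ y ∈ Ω, ∀ z ∈ Ω, (φ' (e y) = φ' (e z) ↔ φ y = φ z)) (hx : x ∈ Ω) (g : α' → ℝ) :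
    cP (Ω.image e) φ' g (e x) = cP Ω φ (fun z => g (e z)) x := by
  unfold cP; rw [cE_image he hl hx]

lemma sum_image_inj (he : Set.InjOn e Ω) (F : α' → ℝ) :
    ∑ z ∈ Ω.image e, F z = ∑ x ∈ Ω, F (e x) := Finset.sum_image he

lemma ip_image (he : Set.InjOn e Ω) (g h : α' → ℝ) :
    ip (Ω.image e) g h = ip Ω (fun z => g (e z)) (fun z => h (e z)) := Finset.sum_image he

end Transport

/-! ### invariance under a bijection of `Ω` -/

section Bij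
variable [DecidableEq α] {t : α → α}

/-- `t` permutes `Ω` and respects the fibres: `E (f ∘ t) = (E f) ∘ t`. -/
lemma cE_comp_bij (hinj : Set.InjOn t Ω) (hmap : ∀ z ∈ Ω, t z ∈ Ω)
    (hl : ∀ y ∈ Ω, ∀ z ∈ Ω, (φ (t y) = φ (t z) ↔ φ y = φ z)) (hx : x ∈ Ω) (f : α → ℝ) :
    cE Ω φ (fun z => f (t z)) x = cE Ω φ f (t x) := by
  have himg : Ω.image t = Ω := by
    apply Finset.eq_of_subset_of_card_le
    · intro z hz
      obtain ⟨y, hy, rfl⟩ := Finset.mem_image.mp hz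
      exact hmap y hy
    · rw [Finset.card_image_of_injOn hinj]
  have := cE_image (φ' := φ) hinj hl hx f
  rw [himg] at this
  exact this.symm

/-- `t` permutes `Ω` and preserves the label: `E (f ∘ t) = E f`. -/
lemma cE_comp_of_label_inv (hinj : Set.InjOn t Ω) (hmap : ∀ z ∈ Ω, t z ∈ Ω)
    (hl : ∀ z ∈ Ω, φ (t z) = φ z) (hx : x ∈ Ω) (f : α → ℝ) :
    cE Ω φ (fun z => f (t z)) x = cE Ω φ f x := by
  rw [cE_comp_bij hinj hmap (fun y hy z hz => by rw [hl y hy, hl z hz]) hx, cE_eq (hl x hx)]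

lemma sum_comp_bij (hinj : Set.InjOn t Ω) (hmap : ∀ z ∈ Ω, t z ∈ Ω) (F : α → ℝ) :
    ∑ x ∈ Ω, F (t x) = ∑ x ∈ Ω, F x := by
  have himg : Ω.image t = Ω := by
    apply Finset.eq_of_subset_of_card_le
    · intro z hz
      obtain ⟨y, hy, rfl⟩ := Finset.mem_image.mp hz
      exact hmap y hy
    · rw [Finset.card_image_of_injOn hinj]
  conv_rhs => rw [← himg]
  rw [Finset.sum_image hinj]

end Bij

/-! ### commutation -/

/-- `cE φ` and `cE ψ` commute on `Ω`. -/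
def Comm (Ω : Finset α) (φ : α → β) (ψ : α → γ) : Prop :=
  ∀ f : α → ℝ, ∀ x ∈ Ω, cE Ω φ (cE Ω ψ f) x = cE Ω ψ (cE Ω φ f) x

lemma Comm.symm (h : Comm Ω φ ψ) : Comm Ω ψ φ := fun f x hx => (h f x hx).symm

/-- if `cE φ` maps `ψ`-measurable functions to `ψ`-measurable functions, they commute. -/
lemma comm_of_meas (h : ∀ g : α → ℝ, Meas Ω ψ g → Meas Ω ψ (cE Ω φ g)) : Comm Ω φ ψ := by
  -- E2 E1 E2 = E1 E2
  have h1 : ∀ f : α → ℝ, ∀ x ∈ Ω, cE Ω ψ (cE Ω φ (cE Ω ψ f)) x = cE Ω φ (cE Ω ψ f) x :=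
    fun f x hx => cE_of_meas (h _ (meas_cE f)) hx
  -- adjoint: E2 E1 E2 = E2 E1
  have h2 : ∀ f : α → ℝ, ∀ x ∈ Ω, cE Ω ψ (cE Ω φ (cE Ω ψ f)) x = cE Ω ψ (cE Ω φ f) x := by
    intro f
    have key : ∀ g : α → ℝ, ip Ω g (cE Ω ψ (cE Ω φ (cE Ω ψ f))) = ip Ω g (cE Ω ψ (cE Ω φ f)) := by
      intro g
      rw [← ip_cE_symm, ← ip_cE_symm, ← ip_cE_symm, ← ip_cE_symm, ← ip_cE_symm]
      exact ip_congr (fun y hy => h1 g y hy) (fun _ _ => rfl)
    have hz : ip Ω (fun z => cE Ω ψ (cE Ω φ (cE Ω ψ f)) z - cE Ω ψ (cE Ω φ f) z)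
        (fun z => cE Ω ψ (cE Ω φ (cE Ω ψ f)) z - cE Ω ψ (cE Ω φ f) z) = 0 := by
      rw [ip_sub_right, key, sub_self]
    intro x hx
    have := ip_self_eq_zero hz x hx
    linarith
  intro f x hx
  rw [← h1 f x hx, h2 f x hx]

/-- COMMUTATION CRITERION: for `ω₁, ω₂` with the same `ψ`-label there is a bijection between
their `φ`-fibres preserving the `ψ`-label. -/
lemma comm_of_bij
    (h : ∀ ω₁ ∈ Ω, ∀ ω₂ ∈ Ω, ψ ω₁ = ψ ω₂ → ∃ θ : α → α,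
      Set.BijOn θ (fib Ω φ ω₁) (fib Ω φ ω₂) ∧ ∀ η ∈ fib Ω φ ω₁, ψ (θ η) = ψ η) :
    Comm Ω φ ψ := by
  apply comm_of_meas
  intro g hg ω₁ h₁ ω₂ h₂ e
  obtain ⟨θ, hθ, hψ⟩ := h ω₁ h₁ ω₂ h₂ e
  have hcard : (fib Ω φ ω₁).card = (fib Ω φ ω₂).card :=
    Finset.card_bij (fun a _ => θ a) (fun a ha => hθ.mapsTo ha)
      (fun a ha b hb hab => hθ.injOn ha hb hab)
      (fun b hb => by
        obtain ⟨a, ha, rfl⟩ := hθ.surjOn hb
        exact ⟨a, ha, rfl⟩)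
  have hsum : ∑ y ∈ fib Ω φ ω₁, g y = ∑ y ∈ fib Ω φ ω₂, g y :=
    Finset.sum_bij (fun a _ => θ a) (fun a ha => hθ.mapsTo ha)
      (fun a ha b hb hab => hθ.injOn ha hb hab)
      (fun b hb => by
        obtain ⟨a, ha, rfl⟩ := hθ.surjOn hb
        exact ⟨a, ha, rfl⟩)
      (fun a ha => (hg (θ a) (fib_subset (hθ.mapsTo ha)) a (fib_subset ha) (hψ a ha)).symm)
  unfold cE
  rw [hsum, hcard]

/-- for commuting conditional expectations: `⟨E_φ f, E_ψ f⟩ = |E_φ E_ψ f|²`. -/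
lemma Comm.ip_cE_cE (h : Comm Ω φ ψ) (f : α → ℝ) :
    ip Ω (cE Ω φ f) (cE Ω ψ f) = ip Ω (cE Ω φ (cE Ω ψ f)) (cE Ω φ (cE Ω ψ f)) := by
  rw [← ip_cE_right, ip_cE_symm]
  -- ip f (E_φ E_ψ f) on both sides after moving
  have : ip Ω (cE Ω ψ f) (cE Ω φ (cE Ω ψ f)) = ip Ω f (cE Ω ψ (cE Ω φ (cE Ω ψ f))) := ip_cE_symm _ _
  rw [this]
  apply ip_congr (fun _ _ => rfl)
  intro y hy
  rw [← h (cE Ω ψ f) y hy]
  exact (cE_congr (fun z _ => (cE_cE f z)) y).symm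

lemma Comm.cP_cP (h : Comm Ω φ ψ) (f : α → ℝ) (hx : x ∈ Ω) :
    cP Ω φ (cP Ω ψ f) x = cP Ω ψ (cP Ω φ f) x := by
  have e1 : cE Ω φ (cP Ω ψ f) x = cE Ω φ f x - cE Ω φ (cE Ω ψ f) x := cE_sub _ _ _
  have e2 : cE Ω ψ (cP Ω φ f) x = cE Ω ψ f x - cE Ω ψ (cE Ω φ f) x := cE_sub _ _ _
  rw [cP_def Ω φ (cP Ω ψ f), cP_def Ω ψ (cP Ω φ f), e1, e2, cP_def, cP_def, h f x hx]
  ring

/-- for commuting conditional expectations: `⟨p_φ f, p_ψ f⟩ = |p_φ p_ψ f|² ≥ 0`. -/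
lemma Comm.ip_cP_cP (h : Comm Ω φ ψ) (f : α → ℝ) :
    ip Ω (cP Ω φ f) (cP Ω ψ f) = ip Ω (cP Ω φ (cP Ω ψ f)) (cP Ω φ (cP Ω ψ f)) := by
  rw [← ip_cP_right, ip_cP_symm, ip_cP_symm (φ := ψ)]
  apply ip_congr (fun _ _ => rfl)
  intro y hy
  rw [← h.cP_cP (cP Ω ψ f) hy]
  exact (cP_congr (fun z _ => (Crest.Agent.S0453Core.cP_cP f z)) hy).symm

lemma Comm.ip_cP_cP_nonneg (h : Comm Ω φ ψ) (f : α → ℝ) : 0 ≤ ip Ω (cP Ω φ f) (cP Ω ψ f) := by
  rw [h.ip_cP_cP]; exact ip_self_nonneg _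

/-! ### biregular averaging -/

/-- `P`, `Q` finite sets, `R` a biregular relation (`a > 0` partners for every `p`, `b > 0`
partners for every `q`). Then `|avg_P u - avg_Q v| ≤ C` if `|u p - v q| ≤ C` on related pairs. -/
lemma biregular_avg {ι κ : Type*} (P : Finset ι) (Q : Finset κ) (R : ι → κ → Prop)
    [∀ p q, Decidable (R p q)] (a b : ℕ) (ha : 0 < a) (hb : 0 < b)
    (hP : ∀ p ∈ P, (Q.filter (fun q => R p q)).card = a)
    (hQ : ∀ q ∈ Q, (P.filter (fun p => R p q)).card = b)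
    (u : ι → ℝ) (v : κ → ℝ) :
    (∑ p ∈ P, u p) * (a : ℝ) = ∑ p ∈ P, ∑ q ∈ Q.filter (fun q => R p q), u p ∧
    (∑ q ∈ Q, v q) * (b : ℝ) = ∑ p ∈ P, ∑ q ∈ Q.filter (fun q => R p q), v q ∧
    (P.card : ℝ) * a = (Q.card : ℝ) * b := by
  have e1 : ∀ w : ι → ℝ, (∑ p ∈ P, w p) * (a : ℝ) = ∑ p ∈ P, ∑ q ∈ Q.filter (fun q => R p q), w p := by
    intro w
    rw [Finset.sum_mul]
    apply Finset.sum_congr rfl
    intro p hp
    rw [Finset.sum_const, hP p hp, nsmul_eq_mul, mul_comm]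
  have e2 : ∀ w : κ → ℝ, (∑ q ∈ Q, w q) * (b : ℝ) = ∑ p ∈ P, ∑ q ∈ Q.filter (fun q => R p q), w q := by
    intro w
    have : ∑ p ∈ P, ∑ q ∈ Q.filter (fun q => R p q), w q
        = ∑ q ∈ Q, ∑ p ∈ P.filter (fun p => R p q), w q := by
      simp only [Finset.sum_filter]
      exact Finset.sum_comm
    rw [this, Finset.sum_mul]
    apply Finset.sum_congr rfl
    intro q hq
    rw [Finset.sum_const, hQ q hq, nsmul_eq_mul, mul_comm]
  refine ⟨e1 u, e2 v, ?_⟩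
  have h1 := e1 (fun _ => 1)
  have h2 := e2 (fun _ => 1)
  simp only [Finset.sum_const, nsmul_eq_mul, mul_one] at h1 h2
  rw [h1, h2]

lemma biregular_avg_le {ι κ : Type*} (P : Finset ι) (Q : Finset κ) (R : ι → κ → Prop)
    [∀ p q, Decidable (R p q)] (a b : ℕ) (ha : 0 < a) (hb : 0 < b)
    (hP : ∀ p ∈ P, (Q.filter (fun q => R p q)).card = a)
    (hQ : ∀ q ∈ Q, (P.filter (fun p => R p q)).card = b) (hne : P.Nonempty)
    (u : ι → ℝ) (v : κ → ℝ) (C : ℝ) (hC : ∀ p ∈ P, ∀ q ∈ Q, R p q → |u p - v q| ≤ C) :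
    |(∑ p ∈ P, u p) / (P.card : ℝ) - (∑ q ∈ Q, v q) / (Q.card : ℝ)| ≤ C := by
  obtain ⟨h1, h2, h3⟩ := biregular_avg P Q R a b ha hb hP hQ u v
  have hPc : (0 : ℝ) < P.card := by exact_mod_cast hne.card_pos
  have ha' : (0 : ℝ) < a := by exact_mod_cast ha
  have hb' : (0 : ℝ) < b := by exact_mod_cast hb
  have hQc : (0 : ℝ) < Q.card := by
    have : (0 : ℝ) < (Q.card : ℝ) * b := by rw [← h3]; positivity
    by_contra hcon
    have : (Q.card : ℝ) ≤ 0 := not_lt.mp hcon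
    nlinarith
  set M : ℝ := (P.card : ℝ) * a with hM
  have hMpos : 0 < M := by positivity
  have e1 : (∑ p ∈ P, u p) / (P.card : ℝ) = (∑ p ∈ P, ∑ q ∈ Q.filter (fun q => R p q), u p) / M := by
    rw [← h1, hM]; field_simp
  have e2 : (∑ q ∈ Q, v q) / (Q.card : ℝ) = (∑ p ∈ P, ∑ q ∈ Q.filter (fun q => R p q), v q) / M := by
    rw [← h2, h3]; field_simp
  rw [e1, e2, ← sub_div, ← Finset.sum_sub_distrib, abs_div, abs_of_pos hMpos, div_le_iff₀ hMpos]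
  calc |∑ p ∈ P, (∑ q ∈ Q.filter (fun q => R p q), u p - ∑ q ∈ Q.filter (fun q => R p q), v q)|
      ≤ ∑ p ∈ P, |∑ q ∈ Q.filter (fun q => R p q), u p - ∑ q ∈ Q.filter (fun q => R p q), v q| :=
        Finset.abs_sum_le_sum_abs _ _
    _ ≤ ∑ p ∈ P, (a : ℝ) * C := by
        apply Finset.sum_le_sum
        intro p hp
        rw [← Finset.sum_sub_distrib]
        calc |∑ q ∈ Q.filter (fun q => R p q), (u p - v q)|
            ≤ ∑ q ∈ Q.filter (fun q => R p q), |u p - v q| := Finset.abs_sum_le_sum_abs _ _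
          _ ≤ ∑ q ∈ Q.filter (fun q => R p q), C := by
              apply Finset.sum_le_sum
              intro q hq
              rw [Finset.mem_filter] at hq
              exact hC p hp q hq.1 hq.2
          _ = (a : ℝ) * C := by rw [Finset.sum_const, hP p hp, nsmul_eq_mul]
    _ = C * M := by rw [Finset.sum_const, nsmul_eq_mul, hM]; ring

end Crest.Agent.S0453Core
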