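import Mathlib
import Crest.Agent.S0453_Core
import Crest.Agent.S0453_CoreLemmas

/-!
# Row 299 (S0453), package A1: the abstract operator lemma behind Claim A

`E = cE Ω φ`, `E' = cE Ω φ'`, `T = cE Ω (φ, D)`, `T' = cE Ω (φ', D)`.
From the three commutation relations, the `τ`-invariance of the labels and the "off `D`" alternative
we get the inequality of `ClaimAabs` (with `D` in place of `isMB ∘ W`).
-/

set_option autoImplicit false
open Finset

namespace Crest.Agent.S0453A1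
open Crest.Agent.S0453Core

variable {α β β' : Type*} [DecidableEq β] [DecidableEq β']

/-- `⟨(I-T) f, (S - S₀) f⟩ ≥ 0` when `S₀ ≤ S` (tower) and both commute with `T`. -/
lemma cross_nonneg {γ δ ε : Type*} [DecidableEq γ] [DecidableEq δ] [DecidableEq ε]
    (Ω : Finset α) (t : α → γ) (s : α → δ) (s0 : α → ε)
    (hfin : Finer Ω s s0)
    (c1 : ∀ f : α → ℝ, ∀ x ∈ Ω, cE Ω t (cE Ω s f) x = cE Ω s (cE Ω t f) x)
    (c2 : ∀ f : α → ℝ, ∀ x ∈ Ω, cE Ω t (cE Ω s0 f) x = cE Ω s0 (cE Ω t f) x)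
    (f : α → ℝ) :
    0 ≤ ip Ω (cP Ω t f) (fun z => cE Ω s f z - cE Ω s0 f z) := by
  set u : α → ℝ := cP Ω t f with hu
  -- `S f = S u + S (T f)`
  have e1 : ∀ z, cE Ω s f z = cE Ω s u z + cE Ω s (cE Ω t f) z := by
    intro z
    have : cE Ω s u z = cE Ω s f z - cE Ω s (cE Ω t f) z := by
      rw [hu]; exact cE_sub f (cE Ω t f) z
    linarith
  have e2 : ∀ z, cE Ω s0 f z = cE Ω s0 u z + cE Ω s0 (cE Ω t f) z := by
    intro z
    have : cE Ω s0 u z = cE Ω s0 f z - cE Ω s0 (cE Ω t f) z := by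
      rw [hu]; exact cE_sub f (cE Ω t f) z
    linarith
  have z1 : ip Ω u (cE Ω s (cE Ω t f)) = 0 := by
    rw [ip_congr (fun _ _ => rfl) (fun y hy => (c1 f y hy).symm)]
    exact ip_cP_cE f _
  have z2 : ip Ω u (cE Ω s0 (cE Ω t f)) = 0 := by
    rw [ip_congr (fun _ _ => rfl) (fun y hy => (c2 f y hy).symm)]
    exact ip_cP_cE f _
  have h1 : ip Ω u (fun z => cE Ω s f z - cE Ω s0 f z)
      = ip Ω u (cE Ω s u) - ip Ω u (cE Ω s0 u) := by
    rw [ip_sub_right]
    have a1 : ip Ω u (cE Ω s f) = ip Ω u (cE Ω s u) + ip Ω u (cE Ω s (cE Ω t f)) := by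
      rw [← ip_add_right]; exact ip_congr (fun _ _ => rfl) (fun y _ => e1 y)
    have a2 : ip Ω u (cE Ω s0 f) = ip Ω u (cE Ω s0 u) + ip Ω u (cE Ω s0 (cE Ω t f)) := by
      rw [← ip_add_right]; exact ip_congr (fun _ _ => rfl) (fun y _ => e2 y)
    rw [a1, a2, z1, z2]; ring
  rw [h1, ip_cE_right (φ := s) u u, ip_cE_right (φ := s0) u u]
  have := ip_cE_self_mono hfin u
  linarith

/-- `⟨(I-T) f, (I-T') f⟩ = |(I-T')(I-T) f|²` for commuting `T, T'`. -/
lemma main_term {γ δ : Type*} [DecidableEq γ] [DecidableEq δ]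
    (Ω : Finset α) (t : α → γ) (s : α → δ)
    (c1 : ∀ f : α → ℝ, ∀ x ∈ Ω, cE Ω t (cE Ω s f) x = cE Ω s (cE Ω t f) x)
    (f : α → ℝ) :
    ip Ω (cP Ω t f) (cP Ω s f) = ip Ω (cP Ω s (cP Ω t f)) (cP Ω s (cP Ω t f)) := by
  set u : α → ℝ := cP Ω t f with hu
  have e1 : ∀ z, cP Ω s f z = cP Ω s u z + (cE Ω t f z - cE Ω s (cE Ω t f) z) := by
    intro z
    have : cE Ω s u z = cE Ω s f z - cE Ω s (cE Ω t f) z := by
      rw [hu]; exact cE_sub f (cE Ω t f) z
    simp only [cP_def, hu] at this ⊢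
    linarith
  have z0 : ip Ω u (cE Ω t f) = 0 := ip_cP_cE f f
  have z1 : ip Ω u (cE Ω s (cE Ω t f)) = 0 := by
    rw [ip_congr (fun _ _ => rfl) (fun y hy => (c1 f y hy).symm)]
    exact ip_cP_cE f _
  have h1 : ip Ω u (cP Ω s f) = ip Ω u (cP Ω s u) := by
    have : ip Ω u (cP Ω s f)
        = ip Ω u (cP Ω s u) + (ip Ω u (cE Ω t f) - ip Ω u (cE Ω s (cE Ω t f))) := by
      rw [← ip_sub_right, ← ip_add_right]
      exact ip_congr (fun _ _ => rfl) (fun y _ => e1 y)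
    rw [this, z0, z1]; ring
  rw [h1, ip_cP_right]

/-- contraction of the antisymmetrisation. -/
lemma antisym_le (Ω : Finset α) (τ : α → α)
    (tau_mem : ∀ x ∈ Ω, τ x ∈ Ω) (tau_tau : ∀ x ∈ Ω, τ (τ x) = x) (g : α → ℝ) :
    ∑ x ∈ Ω, (g x - g (τ x)) ^ 2 ≤ 4 * ip Ω g g := by
  have hre : ∑ x ∈ Ω, g (τ x) ^ 2 = ∑ x ∈ Ω, g x ^ 2 :=
    Finset.sum_nbij' τ τ tau_mem tau_mem tau_tau tau_tau (fun _ _ => rfl)
  have h1 : ∑ x ∈ Ω, (g x - g (τ x)) ^ 2 ≤ ∑ x ∈ Ω, (2 * g x ^ 2 + 2 * g (τ x) ^ 2) := by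
    apply Finset.sum_le_sum
    intro x _
    nlinarith [sq_nonneg (g x + g (τ x))]
  rw [Finset.sum_add_distrib, ← Finset.mul_sum, ← Finset.mul_sum, hre] at h1
  rw [ip_self_eq_sum_sq]
  linarith

theorem A1
    (Ω : Finset α) (φ : α → β) (φ' : α → β') (D : α → Bool) (τ : α → α)
    (c1 : ∀ f : α → ℝ, ∀ x ∈ Ω, cE Ω (fun x => (φ x, D x)) (cE Ω (fun x => (φ' x, D x)) f) x
        = cE Ω (fun x => (φ' x, D x)) (cE Ω (fun x => (φ x, D x)) f) x)
    (c2 : ∀ f : α → ℝ, ∀ x ∈ Ω, cE Ω (fun x => (φ x, D x)) (cE Ω φ' f) x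
        = cE Ω φ' (cE Ω (fun x => (φ x, D x)) f) x)
    (c3 : ∀ f : α → ℝ, ∀ x ∈ Ω, cE Ω φ (cE Ω (fun x => (φ' x, D x)) f) x
        = cE Ω (fun x => (φ' x, D x)) (cE Ω φ f) x)
    (tau_mem : ∀ x ∈ Ω, τ x ∈ Ω) (tau_tau : ∀ x ∈ Ω, τ (τ x) = x)
    (tau_phi : ∀ x ∈ Ω, φ (τ x) = φ x) (tau_phi' : ∀ x ∈ Ω, φ' (τ x) = φ' x)
    (tau_D : ∀ x ∈ Ω, D (τ x) = D x)
    (v : ∀ x ∈ Ω, D x = false →
      (∀ y ∈ fib Ω φ x, D y = false) ∨ (∀ y ∈ fib Ω φ' x, D y = false))
    (f : α → ℝ) :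
    (∑ x ∈ Ω, (f x - f (τ x)) ^ 2) / 2 ≤ 2 * ip Ω (cP Ω φ f) (cP Ω φ' f)
      + ∑ x ∈ Ω.filter (fun x => D x = true),
          (cE Ω (fun x => (φ x, D x)) f x - cE Ω φ f x) ^ 2
      + ∑ x ∈ Ω.filter (fun x => D x = true),
          (cE Ω (fun x => (φ' x, D x)) f x - cE Ω φ' f x) ^ 2 := by
  set t : α → β × Bool := fun x => (φ x, D x) with ht
  set t' : α → β' × Bool := fun x => (φ' x, D x) with ht'
  have fin1 : Finer Ω t φ := fun y _ z _ h => congrArg Prod.fst h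
  have fin2 : Finer Ω t' φ' := fun y _ z _ h => congrArg Prod.fst h
  set b : α → ℝ := fun z => cE Ω t f z - cE Ω φ f z with hb
  set b' : α → ℝ := fun z => cE Ω t' f z - cE Ω φ' f z with hb'
  -- the four terms
  have T2 : 0 ≤ ip Ω (cP Ω t f) b' := cross_nonneg Ω t t' φ' fin2 c1 c2 f
  have T3 : 0 ≤ ip Ω (cP Ω t' f) b :=
    cross_nonneg Ω t' t φ fin1 (fun g x hx => (c1 g x hx).symm) (fun g x hx => (c3 g x hx).symm) f
  have T1 : ip Ω (cP Ω t f) (cP Ω t' f)
      = ip Ω (cP Ω t' (cP Ω t f)) (cP Ω t' (cP Ω t f)) := main_term Ω t t' c1 f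
  -- antisymmetric part
  have T1' : ∑ x ∈ Ω, (f x - f (τ x)) ^ 2 ≤ 4 * ip Ω (cP Ω t f) (cP Ω t' f) := by
    rw [T1]
    refine le_trans (le_of_eq ?_) (antisym_le Ω τ tau_mem tau_tau _)
    apply Finset.sum_congr rfl
    intro x hx
    have i1 : cE Ω t f (τ x) = cE Ω t f x :=
      cE_eq (by simp only [ht, tau_phi x hx, tau_D x hx])
    have i2 : cE Ω t' (cP Ω t f) (τ x) = cE Ω t' (cP Ω t f) x :=
      cE_eq (by simp only [ht', tau_phi' x hx, tau_D x hx])
    simp only [cP_def, i1, i2]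
    ring
  -- the last term
  have T4 : - (∑ x ∈ Ω.filter (fun x => D x = true), b x ^ 2)
      - (∑ x ∈ Ω.filter (fun x => D x = true), b' x ^ 2) ≤ 2 * ip Ω b b' := by
    have hoff : ∀ x ∈ Ω, ¬ (D x = true) → b x * b' x = 0 := by
      intro x hx hD
      have hD' : D x = false := by simpa using hD
      rcases v x hx hD' with h | h
      · have : cE Ω t f x = cE Ω φ f x := by
          apply cE_congr_label
          intro y hy
          constructor
          · intro e; exact congrArg Prod.fst e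
          · intro e
            have := h y (mem_fib.mpr ⟨hy, e⟩)
            simp only [ht, e, this, hD']
        simp only [hb, this, sub_self, zero_mul]
      · have : cE Ω t' f x = cE Ω φ' f x := by
          apply cE_congr_label
          intro y hy
          constructor
          · intro e; exact congrArg Prod.fst e
          · intro e
            have := h y (mem_fib.mpr ⟨hy, e⟩)
            simp only [ht', e, this, hD']
        simp only [hb', this, sub_self, mul_zero]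
    have hsplit : ip Ω b b' = ∑ x ∈ Ω.filter (fun x => D x = true), b x * b' x := by
      rw [ip_def, Finset.sum_filter]
      apply Finset.sum_congr rfl
      intro x hx
      by_cases hD : D x = true
      · simp [hD]
      · rw [if_neg hD]; exact hoff x hx hD
    rw [hsplit, Finset.mul_sum, ← Finset.sum_neg_distrib, ← Finset.sum_sub_distrib]
    apply Finset.sum_le_sum
    intro x _
    nlinarith [sq_nonneg (b x + b' x)]
  -- decomposition of the inner product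
  have dec : ip Ω (cP Ω φ f) (cP Ω φ' f)
      = ip Ω (cP Ω t f) (cP Ω t' f) + ip Ω (cP Ω t f) b' + ip Ω (cP Ω t' f) b + ip Ω b b' := by
    have e1 : ip Ω (cP Ω φ f) (cP Ω φ' f)
        = ip Ω (fun z => cP Ω t f z + b z) (fun z => cP Ω t' f z + b' z) := by
      apply ip_congr
      · intro y _; simp only [cP_def, hb]; ring
      · intro y _; simp only [cP_def, hb']; ring
    rw [e1, ip_add_left, ip_add_right, ip_add_right, ip_comm b (cP Ω t' f)]
    ring
  rw [dec]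
  linarith

end Crest.Agent.S0453A1
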