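import Mathlib
import Crest.Agent.S0453_Core

/-!
# Row 299 (S0453), package P7/P8: abstract model for Claim A

`Ω` = state space, `φ` = label `G - {v,w}`, `φ'` = label `G - {x,y}`, `W` = the 2x2 block
`(vx, vy, wx, wy)` of adjacency bits between `{v,w}` (rows) and `{x,y}` (columns).
-/

set_option autoImplicit false
open Finset

namespace Crest.Agent.S0453A
open Crest.Agent.S0453Core

/-- a 2x2 block `(vx, vy, wx, wy)` -/
abbrev Blk := Bool × Bool × Bool × Bool

/-- row sums `(vx+vy, wx+wy)` -/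
def rowsB (b : Blk) : ℕ × ℕ := (b.1.toNat + b.2.1.toNat, b.2.2.1.toNat + b.2.2.2.toNat)

/-- column sums `(vx+wx, vy+wy)` -/
def colsB (b : Blk) : ℕ × ℕ := (b.1.toNat + b.2.2.1.toNat, b.2.1.toNat + b.2.2.2.toNat)

/-- the block is one of the two perfect matchings -/
def isMB (b : Blk) : Bool := decide (b = (true, false, false, true) ∨ b = (false, true, true, false))

/-- complement of all four bits -/
def flipB (b : Blk) : Blk := (!b.1, !b.2.1, !b.2.2.1, !b.2.2.2)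

variable {α β β' : Type*} [DecidableEq α] [DecidableEq β] [DecidableEq β']

/-- the structural facts about a pair of disjoint vertex pairs (to be proved for graphs in P8). -/
structure Model (Ω : Finset α) (φ : α → β) (φ' : α → β') (W : α → Blk) (τ : α → α) : Prop where
  /-- column sums of the block are determined by `G - {v,w}` -/
  cols_of : ∀ x ∈ Ω, ∀ y ∈ Ω, φ x = φ y → colsB (W x) = colsB (W y)
  /-- row sums of the block are determined by `G - {x,y}` -/
  rows_of : ∀ x ∈ Ω, ∀ y ∈ Ω, φ' x = φ' y → rowsB (W x) = rowsB (W y)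
  /-- a state is determined by the two labels and the block -/
  inj : ∀ x ∈ Ω, ∀ y ∈ Ω, φ x = φ y → φ' x = φ' y → W x = W y → x = y
  /-- hybrid: `x₁ ~φ y ~φ' x₂`; glue `φ'` of `x₁`, `φ` of `x₂` and any block with the right margins -/
  hyb : ∀ x₁ ∈ Ω, ∀ y ∈ Ω, ∀ x₂ ∈ Ω, φ x₁ = φ y → φ' y = φ' x₂ → ∀ b : Blk,
    rowsB b = rowsB (W x₁) → colsB b = colsB (W x₂) → ∃ z ∈ Ω, φ' z = φ' x₁ ∧ φ z = φ x₂ ∧ W z = b
  /-- the switch -/
  tau_mem : ∀ x ∈ Ω, τ x ∈ Ω
  tau_phi : ∀ x ∈ Ω, φ (τ x) = φ x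
  tau_phi' : ∀ x ∈ Ω, φ' (τ x) = φ' x
  tau_W : ∀ x ∈ Ω, W (τ x) = if isMB (W x) then flipB (W x) else W x

/-- the abstract Claim A (target of P7). -/
def ClaimAabs (Ω : Finset α) (φ : α → β) (φ' : α → β') (W : α → Blk) (τ : α → α) : Prop :=
  ∀ f : α → ℝ,
    (∑ x ∈ Ω, (f x - f (τ x)) ^ 2) / 2 ≤ 2 * ip Ω (cP Ω φ f) (cP Ω φ' f)
      + ∑ x ∈ Ω.filter (fun x => isMB (W x) = true),
          (cE Ω (fun x => (φ x, isMB (W x))) f x - cE Ω φ f x) ^ 2
      + ∑ x ∈ Ω.filter (fun x => isMB (W x) = true),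
          (cE Ω (fun x => (φ' x, isMB (W x))) f x - cE Ω φ' f x) ^ 2

end Crest.Agent.S0453A
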