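import Mathlib

/-!
# Conditional expectations on finite sets with the uniform measure (row 299, S0453)

`X : Finset α`, a *key* `k : α → κ`; `ce X k F x` is the average of `F` over the fibre of `k`
through `x` inside `X`.  All statements are about unnormalised sums over `X`.
-/

set_option autoImplicit false
open Finset

namespace Crest.Agent.S0453CE

variable {α : Type*}

section basic
variable {κ : Type*} [DecidableEq κ]

/-- fibre of the key `k` over the value `c` -/
def fib (X : Finset α) (k : α → κ) (c : κ) : Finset α := X.filter (fun y => k y = c)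

/-- conditional expectation of `F` given the key `k` (uniform measure on `X`) -/
noncomputable def ce (X : Finset α) (k : α → κ) (F : α → ℝ) (x : α) : ℝ :=
  (∑ y ∈ fib X k (k x), F y) / ((fib X k (k x)).card : ℝ)

/-- `G` is measurable w.r.t. the key `k` on `X` -/
def Meas (X : Finset α) (k : α → κ) (G : α → ℝ) : Prop :=
  ∀ x ∈ X, ∀ y ∈ X, k x = k y → G x = G y

lemma mem_fib {X : Finset α} {k : α → κ} {c : κ} {y : α} : y ∈ fib X k c ↔ y ∈ X ∧ k y = c := by
  simp [fib]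

lemma ce_congr (X : Finset α) (k : α → κ) (F : α → ℝ) {x y : α} (h : k x = k y) :
    ce X k F x = ce X k F y := by
  unfold ce; rw [h]

lemma meas_ce (X : Finset α) (k : α → κ) (F : α → ℝ) : Meas X k (ce X k F) :=
  fun _ _ _ _ h => ce_congr X k F h

lemma card_fib_pos {X : Finset α} {k : α → κ} {x : α} (hx : x ∈ X) :
    0 < (fib X k (k x)).card :=
  Finset.card_pos.mpr ⟨x, mem_fib.mpr ⟨hx, rfl⟩⟩

lemma ce_of_meas {X : Finset α} {k : α → κ} {G : α → ℝ} (hG : Meas X k G) {x : α} (hx : x ∈ X) :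
    ce X k G x = G x := by
  unfold ce
  have h1 : ∑ y ∈ fib X k (k x), G y = ∑ _y ∈ fib X k (k x), G x := by
    apply Finset.sum_congr rfl
    intro y hy
    obtain ⟨hyX, hk⟩ := mem_fib.mp hy
    exact hG y hyX x hx hk
  rw [h1, Finset.sum_const, nsmul_eq_mul]
  have : ((fib X k (k x)).card : ℝ) ≠ 0 := by
    exact_mod_cast (card_fib_pos hx).ne'
  field_simp

lemma ce_add (X : Finset α) (k : α → κ) (F G : α → ℝ) (x : α) :
    ce X k (fun y => F y + G y) x = ce X k F x + ce X k G x := by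
  unfold ce; rw [Finset.sum_add_distrib, add_div]

lemma ce_sub (X : Finset α) (k : α → κ) (F G : α → ℝ) (x : α) :
    ce X k (fun y => F y - G y) x = ce X k F x - ce X k G x := by
  unfold ce; rw [Finset.sum_sub_distrib, sub_div]

lemma ce_smul (X : Finset α) (k : α → κ) (c : ℝ) (F : α → ℝ) (x : α) :
    ce X k (fun y => c * F y) x = c * ce X k F x := by
  unfold ce; rw [← Finset.mul_sum, mul_div_assoc]

/-- `ce` only depends on the values of `F` on `X` -/
lemma ce_congr_fun {X : Finset α} (k : α → κ) {F G : α → ℝ} (h : ∀ x ∈ X, F x = G x) (x : α) :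
    ce X k F x = ce X k G x := by
  unfold ce
  congr 1
  apply Finset.sum_congr rfl
  intro y hy
  exact h y (mem_fib.mp hy).1

/-- self-adjointness -/
lemma ce_adjoint (X : Finset α) (k : α → κ) (F G : α → ℝ) :
    ∑ x ∈ X, ce X k F x * G x = ∑ x ∈ X, F x * ce X k G x := by
  have e1 : ∀ x ∈ X, ce X k F x * G x
      = ∑ y ∈ X, if k y = k x then F y * G x / ((fib X k (k x)).card : ℝ) else 0 := by
    intro x _
    unfold ce fib
    rw [Finset.sum_div, Finset.sum_mul, Finset.sum_filter]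
    apply Finset.sum_congr rfl
    intro y _
    split_ifs <;> ring
  have e2 : ∀ y ∈ X, F y * ce X k G y
      = ∑ x ∈ X, if k y = k x then F y * G x / ((fib X k (k x)).card : ℝ) else 0 := by
    intro y _
    unfold ce fib
    rw [Finset.sum_div, Finset.mul_sum, Finset.sum_filter]
    apply Finset.sum_congr rfl
    intro x _
    by_cases h : k x = k y
    · rw [if_pos h, if_pos h.symm, h]; ring
    · rw [if_neg h, if_neg (fun h' => h h'.symm)]
  rw [Finset.sum_congr rfl e1, Finset.sum_congr rfl e2, Finset.sum_comm]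

lemma sum_ce_mul_of_meas {X : Finset α} {k : α → κ} (F : α → ℝ) {G : α → ℝ} (hG : Meas X k G) :
    ∑ x ∈ X, ce X k F x * G x = ∑ x ∈ X, F x * G x := by
  rw [ce_adjoint]
  apply Finset.sum_congr rfl
  intro x hx
  rw [ce_of_meas hG hx]

lemma sum_ce (X : Finset α) (k : α → κ) (F : α → ℝ) : ∑ x ∈ X, ce X k F x = ∑ x ∈ X, F x := by
  have := sum_ce_mul_of_meas (X := X) (k := k) F (G := fun _ => 1) (fun _ _ _ _ _ => rfl)
  simpa using this

/-- `‖E F‖² = ⟨F, E F⟩` -/
lemma sum_ce_sq (X : Finset α) (k : α → κ) (F : α → ℝ) :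
    ∑ x ∈ X, ce X k F x ^ 2 = ∑ x ∈ X, F x * ce X k F x := by
  rw [← sum_ce_mul_of_meas F (meas_ce X k F)]
  apply Finset.sum_congr rfl
  intro x _; ring

/-- `‖F - E F‖² = ‖F‖² - ‖E F‖²` -/
lemma sum_sub_ce_sq (X : Finset α) (k : α → κ) (F : α → ℝ) :
    ∑ x ∈ X, (F x - ce X k F x) ^ 2 = ∑ x ∈ X, F x ^ 2 - ∑ x ∈ X, ce X k F x ^ 2 := by
  have : ∀ x ∈ X, (F x - ce X k F x) ^ 2 = F x ^ 2 - 2 * (F x * ce X k F x) + ce X k F x ^ 2 := by
    intro x _; ring
  rw [Finset.sum_congr rfl this, Finset.sum_add_distrib, Finset.sum_sub_distrib, ← Finset.mul_sum,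
    ← sum_ce_sq]
  ring

/-- contraction -/
lemma sum_ce_sq_le (X : Finset α) (k : α → κ) (F : α → ℝ) :
    ∑ x ∈ X, ce X k F x ^ 2 ≤ ∑ x ∈ X, F x ^ 2 := by
  have h := sum_sub_ce_sq X k F
  have h0 : 0 ≤ ∑ x ∈ X, (F x - ce X k F x) ^ 2 := Finset.sum_nonneg fun _ _ => sq_nonneg _
  linarith

/-- explicit formula: `‖E F‖² = ∑_c S_c² / n_c` -/
lemma sum_ce_sq_eq [Fintype κ] (X : Finset α) (k : α → κ) (F : α → ℝ) :
    ∑ x ∈ X, ce X k F x ^ 2
      = ∑ c, (∑ y ∈ fib X k c, F y) ^ 2 / ((fib X k c).card : ℝ) := by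
  rw [← Finset.sum_fiberwise X k]
  apply Finset.sum_congr rfl
  intro c _
  have : ∀ x ∈ X.filter (fun x => k x = c), ce X k F x ^ 2
      = ((∑ y ∈ fib X k c, F y) / ((fib X k c).card : ℝ)) ^ 2 := by
    intro x hx
    unfold ce
    rw [(Finset.mem_filter.mp hx).2]
  rw [Finset.sum_congr rfl this, Finset.sum_const, nsmul_eq_mul]
  change ((fib X k c).card : ℝ) * _ = _
  rcases Nat.eq_zero_or_pos (fib X k c).card with h | h
  · simp [h]
  · have : ((fib X k c).card : ℝ) ≠ 0 := by exact_mod_cast h.ne'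
    field_simp

/-- the trivial key -/
lemma ce_unit (X : Finset α) (F : α → ℝ) (x : α) :
    ce X (fun _ => ()) F x = (∑ y ∈ X, F y) / (X.card : ℝ) := by
  unfold ce fib
  simp

lemma sum_ce_unit_sq (X : Finset α) (F : α → ℝ) :
    ∑ x ∈ X, ce X (fun _ => ()) F x ^ 2 = (∑ y ∈ X, F y) ^ 2 / (X.card : ℝ) := by
  simp only [ce_unit, Finset.sum_const, nsmul_eq_mul]
  rcases Nat.eq_zero_or_pos X.card with h | h
  · simp [h]
  · have : (X.card : ℝ) ≠ 0 := by exact_mod_cast h.ne'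
    field_simp

end basic

section two
variable {κ κ' : Type*} [DecidableEq κ] [DecidableEq κ']

/-- the key `k0` is coarser than `k` on `X` -/
def Coarser (X : Finset α) (k0 : α → κ') (k : α → κ) : Prop :=
  ∀ x ∈ X, ∀ y ∈ X, k x = k y → k0 x = k0 y

omit [DecidableEq κ] [DecidableEq κ'] in
lemma Meas.of_coarser {X : Finset α} {k0 : α → κ'} {k : α → κ} (h : Coarser X k0 k) {G : α → ℝ}
    (hG : Meas X k0 G) : Meas X k G :=
  fun x hx y hy hxy => hG x hx y hy (h x hx y hy hxy)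

/-- tower property -/
lemma ce_ce_of_coarser {X : Finset α} {k0 : α → κ'} {k : α → κ} (h : Coarser X k0 k) (F : α → ℝ)
    (x : α) : ce X k0 (ce X k F) x = ce X k0 F x := by
  unfold ce
  congr 1
  have hm : Meas X k (fun y => if k0 y = k0 x then (1 : ℝ) else 0) := by
    intro a ha b hb hab
    simp only [h a ha b hb hab]
  have := sum_ce_mul_of_meas (X := X) (k := k) F hm
  simp only [mul_ite, mul_one, mul_zero] at this
  rw [← Finset.sum_filter, ← Finset.sum_filter] at this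
  exact this

lemma ce_ce_of_coarser' {X : Finset α} {k0 : α → κ'} {k : α → κ} (h : Coarser X k0 k) (F : α → ℝ)
    {x : α} (hx : x ∈ X) : ce X k (ce X k0 F) x = ce X k0 F x :=
  ce_of_meas ((meas_ce X k0 F).of_coarser h) hx

/-- Pythagoras for nested keys -/
lemma sum_ce_sub_ce_sq {X : Finset α} {k0 : α → κ'} {k : α → κ} (h : Coarser X k0 k) (F : α → ℝ) :
    ∑ x ∈ X, (ce X k F x - ce X k0 F x) ^ 2
      = ∑ x ∈ X, ce X k F x ^ 2 - ∑ x ∈ X, ce X k0 F x ^ 2 := by
  have e : ∑ x ∈ X, ce X k F x * ce X k0 F x = ∑ x ∈ X, ce X k0 F x ^ 2 := by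
    rw [sum_ce_mul_of_meas F ((meas_ce X k0 F).of_coarser h), sum_ce_sq]
  have : ∀ x ∈ X, (ce X k F x - ce X k0 F x) ^ 2
      = ce X k F x ^ 2 - 2 * (ce X k F x * ce X k0 F x) + ce X k0 F x ^ 2 := by
    intro x _; ring
  rw [Finset.sum_congr rfl this, Finset.sum_add_distrib, Finset.sum_sub_distrib, ← Finset.mul_sum, e]
  ring

lemma sum_ce_sq_mono {X : Finset α} {k0 : α → κ'} {k : α → κ} (h : Coarser X k0 k) (F : α → ℝ) :
    ∑ x ∈ X, ce X k0 F x ^ 2 ≤ ∑ x ∈ X, ce X k F x ^ 2 := by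
  have h1 := sum_ce_sub_ce_sq h F
  have h0 : 0 ≤ ∑ x ∈ X, (ce X k F x - ce X k0 F x) ^ 2 := Finset.sum_nonneg fun _ _ => sq_nonneg _
  linarith

/-- keys inducing the same partition give the same conditional expectation -/
lemma ce_eq_of_equiv {X : Finset α} {k0 : α → κ'} {k : α → κ} (h1 : Coarser X k0 k)
    (h2 : Coarser X k k0) (F : α → ℝ) {x : α} (hx : x ∈ X) : ce X k0 F x = ce X k F x := by
  rw [← ce_ce_of_coarser' h2 F hx, ce_ce_of_coarser h1]

/-- restriction to a level set of a second key -/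
lemma ce_filter (X : Finset α) (k : α → κ) (Y : α → κ') (F : α → ℝ) (x : α) :
    ce (X.filter (fun y => Y y = Y x)) k F x = ce X (fun y => (k y, Y y)) F x := by
  have : fib (X.filter (fun y => Y y = Y x)) k (k x) = fib X (fun y => (k y, Y y)) (k x, Y x) := by
    ext y
    simp only [fib, Finset.mem_filter, Prod.mk.injEq]
    tauto
  unfold ce
  rw [this]

end two

section four
variable {κ0 κ1 κ2 κ3 : Type*} [DecidableEq κ0] [DecidableEq κ1] [DecidableEq κ2] [DecidableEq κ3]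

/-- **Abstract lemma** (commuting square):
`‖E₃F‖² - ‖E₁F‖² ≥ ‖E₂F‖² - ‖E₀F‖²`. -/
theorem commuting_square {X : Finset α} {k0 : α → κ0} {k1 : α → κ1} {k2 : α → κ2} {k3 : α → κ3}
    (h13 : Coarser X k1 k3) (h23 : Coarser X k2 k3) (h02 : Coarser X k0 k2)
    (F : α → ℝ) (hcs : ∀ x ∈ X, ce X k2 (ce X k1 F) x = ce X k0 F x) :
    ∑ x ∈ X, ce X k2 F x ^ 2 - ∑ x ∈ X, ce X k0 F x ^ 2
      ≤ ∑ x ∈ X, ce X k3 F x ^ 2 - ∑ x ∈ X, ce X k1 F x ^ 2 := by
  rw [← sum_ce_sub_ce_sq h13 F, ← sum_ce_sub_ce_sq h02 F]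
  have e : ∀ x ∈ X, ce X k2 F x - ce X k0 F x
      = ce X k2 (fun y => ce X k3 F y - ce X k1 F y) x := by
    intro x hx
    rw [ce_sub, ce_ce_of_coarser h23, hcs x hx]
  calc ∑ x ∈ X, (ce X k2 F x - ce X k0 F x) ^ 2
      = ∑ x ∈ X, ce X k2 (fun y => ce X k3 F y - ce X k1 F y) x ^ 2 := by
        apply Finset.sum_congr rfl
        intro x hx
        rw [e x hx]
    _ ≤ ∑ x ∈ X, (ce X k3 F x - ce X k1 F x) ^ 2 := sum_ce_sq_le X k2 _

end four

end Crest.Agent.S0453CE
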