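import Mathlib
import Crest.Agent.S0453_CE
import Crest.Agent.S0453_ADefs

/-!
# Row 299 (S0453), package P7, part A3: the abstract model gives the commutation relations
-/

set_option autoImplicit false
open Finset

namespace Crest.Agent.S0453A
open Crest.Agent.S0453CE

section criterion
variable {α κ1 κ2 : Type*} [DecidableEq α] [DecidableEq κ1] [DecidableEq κ2]

/-- if `E₁` preserves `k2`-measurability then `E₁` and `E₂` commute. -/
theorem comm_of_preserve {X : Finset α} {k1 : α → κ1} {k2 : α → κ2}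
    (H : ∀ g : α → ℝ, Meas X k2 g → Meas X k2 (ce X k1 g)) (F : α → ℝ) :
    ∀ x ∈ X, ce X k1 (ce X k2 F) x = ce X k2 (ce X k1 F) x := by
  have key : ∀ g : α → ℝ, ∑ x ∈ X, ce X k1 (ce X k2 F) x * g x
      = ∑ x ∈ X, ce X k2 (ce X k1 F) x * g x := by
    intro g
    have hu : Meas X k2 (ce X k1 (ce X k2 F)) := H _ (meas_ce X k2 F)
    have hw : Meas X k2 (ce X k1 (ce X k2 g)) := H _ (meas_ce X k2 g)
    have e1 : ∑ x ∈ X, ce X k1 (ce X k2 F) x * g x
        = ∑ x ∈ X, ce X k1 (ce X k2 F) x * ce X k2 g x := by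
      have := sum_ce_mul_of_meas (X := X) (k := k2) g hu
      simp only [mul_comm] at this ⊢
      exact this.symm
    have e2 : ∑ x ∈ X, ce X k1 (ce X k2 F) x * ce X k2 g x
        = ∑ x ∈ X, F x * ce X k1 (ce X k2 g) x := by
      rw [ce_adjoint, sum_ce_mul_of_meas F hw]
    have e3 : ∑ x ∈ X, ce X k2 (ce X k1 F) x * g x
        = ∑ x ∈ X, F x * ce X k1 (ce X k2 g) x := by
      rw [ce_adjoint, ce_adjoint]
    rw [e1, e2, e3]
  have h0 : ∑ x ∈ X, (ce X k1 (ce X k2 F) x - ce X k2 (ce X k1 F) x) ^ 2 = 0 := by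
    have := key (fun x => ce X k1 (ce X k2 F) x - ce X k2 (ce X k1 F) x)
    have e : ∀ x ∈ X, (ce X k1 (ce X k2 F) x - ce X k2 (ce X k1 F) x) ^ 2
        = ce X k1 (ce X k2 F) x * (ce X k1 (ce X k2 F) x - ce X k2 (ce X k1 F) x)
          - ce X k2 (ce X k1 F) x * (ce X k1 (ce X k2 F) x - ce X k2 (ce X k1 F) x) := by
      intro x _; ring
    rw [Finset.sum_congr rfl e, Finset.sum_sub_distrib, this, sub_self]
  intro x hx
  have := (Finset.sum_eq_zero_iff_of_nonneg (fun _ _ => sq_nonneg _)).mp h0 x hx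
  have := pow_eq_zero_iff (two_ne_zero) |>.mp this
  linarith

/-- measurability is preserved if fibres of `k1` over `k2`-equivalent points are matched by
`k2`-preserving injections. -/
theorem preserve_of_inj {X : Finset α} {k1 : α → κ1} {k2 : α → κ2}
    (hθ : ∀ x ∈ X, ∀ y ∈ X, k2 x = k2 y → ∃ θ : α → α,
      (∀ η ∈ fib X k1 (k1 x), θ η ∈ fib X k1 (k1 y) ∧ k2 (θ η) = k2 η) ∧
      Set.InjOn θ (fib X k1 (k1 x) : Set α)) :
    ∀ g : α → ℝ, Meas X k2 g → Meas X k2 (ce X k1 g) := by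
  intro g hg x hx y hy hxy
  obtain ⟨θ, hθ1, hθ2⟩ := hθ x hx y hy hxy
  obtain ⟨θ', hθ1', hθ2'⟩ := hθ y hy x hx hxy.symm
  have hc1 : (fib X k1 (k1 x)).card ≤ (fib X k1 (k1 y)).card :=
    Finset.card_le_card_of_injOn θ (fun η hη => (hθ1 η hη).1) hθ2
  have hc2 : (fib X k1 (k1 y)).card ≤ (fib X k1 (k1 x)).card :=
    Finset.card_le_card_of_injOn θ' (fun η hη => (hθ1' η hη).1) hθ2'
  have hc : (fib X k1 (k1 x)).card = (fib X k1 (k1 y)).card := le_antisymm hc1 hc2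
  have himg : (fib X k1 (k1 x)).image θ = fib X k1 (k1 y) := by
    apply Finset.eq_of_subset_of_card_le
    · intro z hz
      obtain ⟨η, hη, rfl⟩ := Finset.mem_image.mp hz
      exact (hθ1 η hη).1
    · rw [Finset.card_image_of_injOn hθ2, hc]
  unfold ce
  rw [hc, ← himg, Finset.sum_image hθ2]
  congr 1
  apply Finset.sum_congr rfl
  intro η hη
  have h1 := hθ1 η hη
  exact hg η (mem_fib.mp hη).1 (θ η) (mem_fib.mp h1.1).1 h1.2.symm

end criterion

/-! ### block facts -/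

/-- swap the two rows of a block -/
def rswapB (b : Blk) : Blk := (b.2.2.1, b.2.2.2, b.1, b.2.1)

/-- transpose -/
def trB (b : Blk) : Blk := (b.1, b.2.2.1, b.2.1, b.2.2.2)

lemma rswapB_inj : Function.Injective rswapB := by decide
lemma isMB_rswapB : ∀ b : Blk, isMB (rswapB b) = isMB b := by decide
lemma colsB_rswapB : ∀ b : Blk, colsB (rswapB b) = colsB b := by decide
lemma rowsB_rswapB : ∀ b : Blk, rowsB (rswapB b) = (rowsB b).swap := by decide
lemma rows_swap_of : ∀ b c : Blk, colsB b = colsB c → isMB b = isMB c → rowsB b ≠ rowsB c →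
    rowsB c = (rowsB b).swap := by decide
lemma isMB_of_margins : ∀ b b1 b2 : Blk, isMB b1 = true → isMB b2 = true → colsB b = colsB b1 →
    rowsB b = rowsB b2 → isMB b = true := by decide
lemma trB_trB : ∀ b : Blk, trB (trB b) = b := by decide
lemma rowsB_trB : ∀ b : Blk, rowsB (trB b) = colsB b := by decide
lemma colsB_trB : ∀ b : Blk, colsB (trB b) = rowsB b := by decide
lemma isMB_trB : ∀ b : Blk, isMB (trB b) = isMB b := by decide
lemma flipB_trB : ∀ b : Blk, flipB (trB b) = trB (flipB b) := by decide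
lemma flipB_flipB : ∀ b : Blk, flipB (flipB b) = b := by decide
lemma isMB_flipB : ∀ b : Blk, isMB (flipB b) = isMB b := by decide


/-! ### the model -/
section model
variable {α β β' : Type*} [DecidableEq α] [DecidableEq β] [DecidableEq β']
variable {Ω : Finset α} {φ : α → β} {φ' : α → β'} {W : α → Blk} {τ : α → α}

/-- the transposed model (roles of the two pairs exchanged). -/
theorem Model.symm (M : Model Ω φ φ' W τ) : Model Ω φ' φ (fun x => trB (W x)) τ where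
  cols_of := by
    intro x hx y hy h
    simp only [colsB_trB]
    exact M.rows_of x hx y hy h
  rows_of := by
    intro x hx y hy h
    simp only [rowsB_trB]
    exact M.cols_of x hx y hy h
  inj := by
    intro x hx y hy h1 h2 h3
    apply M.inj x hx y hy h2 h1
    have := congrArg trB h3
    simpa only [trB_trB] using this
  hyb := by
    intro x₁ h1 y hy x₂ h2 e1 e2 b hr hc
    simp only [rowsB_trB] at hr
    simp only [colsB_trB] at hc
    obtain ⟨z, hz, a1, a2, a3⟩ := M.hyb x₂ h2 y hy x₁ h1 e2.symm e1.symm (trB b)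
      (by rw [rowsB_trB, hc]) (by rw [colsB_trB, hr])
    exact ⟨z, hz, a2, a1, by rw [a3, trB_trB]⟩
  tau_mem := M.tau_mem
  tau_phi := M.tau_phi'
  tau_phi' := M.tau_phi
  tau_W := by
    intro x hx
    rw [M.tau_W x hx, isMB_trB]
    split_ifs
    · rw [flipB_trB]
    · rfl

/-- the basic transfer map. -/
theorem Model.transfer (M : Model Ω φ φ' W τ) {x y : α} (hx : x ∈ Ω) (hy : y ∈ Ω)
    (hφ : φ x = φ y) (hD : isMB (W x) = isMB (W y)) :
    ∃ θ : α → α, (∀ η ∈ Ω, φ' η = φ' x →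
        θ η ∈ Ω ∧ φ' (θ η) = φ' y ∧ φ (θ η) = φ η ∧ isMB (W (θ η)) = isMB (W η)) ∧
      (∀ η ∈ Ω, ∀ η' ∈ Ω, φ' η = φ' x → φ' η' = φ' x → θ η = θ η' → η = η') := by
  classical
  -- the block map
  obtain ⟨T, hTinj, hTM, hTc, hTr⟩ : ∃ T : Blk → Blk, Function.Injective T ∧
      (∀ b, isMB (T b) = isMB b) ∧ (∀ b, colsB (T b) = colsB b) ∧
      (∀ b, rowsB b = rowsB (W x) → rowsB (T b) = rowsB (W y)) := by
    by_cases h : rowsB (W x) = rowsB (W y)
    · exact ⟨id, Function.injective_id, fun _ => rfl, fun _ => rfl, fun b hb => by simpa [hb] using h⟩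
    · refine ⟨rswapB, rswapB_inj, isMB_rswapB, colsB_rswapB, fun b hb => ?_⟩
      rw [rowsB_rswapB, hb, rows_swap_of (W x) (W y) (M.cols_of x hx y hy hφ) hD h]
  have hex : ∀ η : α, η ∈ Ω → φ' η = φ' x →
      ∃ z ∈ Ω, φ' z = φ' y ∧ φ z = φ η ∧ W z = T (W η) := by
    intro η hη he
    exact M.hyb y hy x hx η hη hφ.symm he.symm (T (W η))
      (hTr _ (M.rows_of η hη x hx he)) (hTc _)
  refine ⟨fun η => if h : η ∈ Ω ∧ φ' η = φ' x then (hex η h.1 h.2).choose else η, ?_, ?_⟩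
  · intro η hη he
    have hh : η ∈ Ω ∧ φ' η = φ' x := ⟨hη, he⟩
    simp only [dif_pos hh]
    obtain ⟨h1, h2, h3, h4⟩ := (hex η hη he).choose_spec
    exact ⟨h1, h2, h3, by rw [h4, hTM]⟩
  · intro η hη η' hη' he he' heq
    have hh : η ∈ Ω ∧ φ' η = φ' x := ⟨hη, he⟩
    have hh' : η' ∈ Ω ∧ φ' η' = φ' x := ⟨hη', he'⟩
    simp only [dif_pos hh, dif_pos hh'] at heq
    obtain ⟨_, _, h3, h4⟩ := (hex η hη he).choose_spec
    obtain ⟨_, _, h3', h4'⟩ := (hex η' hη' he').choose_spec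
    apply M.inj η hη η' hη'
    · rw [← h3, ← h3', heq]
    · rw [he, he']
    · apply hTinj
      rw [← h4, ← h4', heq]

/-- (c2) `E' = E[.|φ']` commutes with `Ẽ = E[.|φ, D]`. -/
theorem Model.comm2 (M : Model Ω φ φ' W τ) (F : α → ℝ) : ∀ x ∈ Ω,
    ce Ω φ' (ce Ω (fun x => (φ x, isMB (W x))) F) x
      = ce Ω (fun x => (φ x, isMB (W x))) (ce Ω φ' F) x := by
  apply comm_of_preserve
  apply preserve_of_inj
  intro x hx y hy hxy
  simp only [Prod.mk.injEq] at hxy
  obtain ⟨θ, h1, h2⟩ := M.transfer hx hy hxy.1 hxy.2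
  refine ⟨θ, ?_, ?_⟩
  · intro η hη
    obtain ⟨hη1, hη2⟩ := mem_fib.mp hη
    obtain ⟨a1, a2, a3, a4⟩ := h1 η hη1 hη2
    exact ⟨mem_fib.mpr ⟨a1, a2⟩, by simp only [a3, a4]⟩
  · intro η hη η' hη' heq
    obtain ⟨hη1, hη2⟩ := mem_fib.mp (Finset.mem_coe.mp hη)
    obtain ⟨hη1', hη2'⟩ := mem_fib.mp (Finset.mem_coe.mp hη')
    exact h2 η hη1 η' hη1' hη2 hη2' heq

/-- (c1) `Ẽ' = E[.|φ', D]` commutes with `Ẽ = E[.|φ, D]`. -/
theorem Model.comm1 (M : Model Ω φ φ' W τ) (F : α → ℝ) : ∀ x ∈ Ω,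
    ce Ω (fun x => (φ' x, isMB (W x))) (ce Ω (fun x => (φ x, isMB (W x))) F) x
      = ce Ω (fun x => (φ x, isMB (W x))) (ce Ω (fun x => (φ' x, isMB (W x))) F) x := by
  apply comm_of_preserve
  apply preserve_of_inj
  intro x hx y hy hxy
  simp only [Prod.mk.injEq] at hxy
  obtain ⟨θ, h1, h2⟩ := M.transfer hx hy hxy.1 hxy.2
  refine ⟨θ, ?_, ?_⟩
  · intro η hη
    obtain ⟨hη1, hη2⟩ := mem_fib.mp hη
    simp only [Prod.mk.injEq] at hη2
    obtain ⟨a1, a2, a3, a4⟩ := h1 η hη1 hη2.1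
    refine ⟨mem_fib.mpr ⟨a1, ?_⟩, by simp only [a3, a4]⟩
    simp only [Prod.mk.injEq]
    exact ⟨a2, by rw [a4, hη2.2, hxy.2]⟩
  · intro η hη η' hη' heq
    obtain ⟨hη1, hη2⟩ := mem_fib.mp (Finset.mem_coe.mp hη)
    obtain ⟨hη1', hη2'⟩ := mem_fib.mp (Finset.mem_coe.mp hη')
    simp only [Prod.mk.injEq] at hη2 hη2'
    exact h2 η hη1 η' hη1' hη2.1 hη2'.1 heq

/-- (c3) `E = E[.|φ]` commutes with `Ẽ' = E[.|φ', D]`. -/
theorem Model.comm3 (M : Model Ω φ φ' W τ) (F : α → ℝ) : ∀ x ∈ Ω,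
    ce Ω φ (ce Ω (fun x => (φ' x, isMB (W x))) F) x
      = ce Ω (fun x => (φ' x, isMB (W x))) (ce Ω φ F) x := by
  have := M.symm.comm2 F
  simpa only [isMB_trB] using this

/-- (v) off `D` one of the two corrections vanishes. -/
theorem Model.offD (M : Model Ω φ φ' W τ) {x : α} (hx : x ∈ Ω) (hD : isMB (W x) = false) :
    (∀ y ∈ Ω, φ y = φ x → isMB (W y) = false) ∨ (∀ y ∈ Ω, φ' y = φ' x → isMB (W y) = false) := by
  by_contra hcon
  push Not at hcon
  obtain ⟨⟨y, hy, e1, d1⟩, ⟨y', hy', e2, d2⟩⟩ := hcon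
  have d1' : isMB (W y) = true := by simpa using d1
  have d2' : isMB (W y') = true := by simpa using d2
  have := isMB_of_margins (W x) (W y) (W y') d1' d2' (M.cols_of x hx y hy e1.symm)
    (M.rows_of x hx y' hy' e2.symm)
  rw [hD] at this
  exact Bool.false_ne_true this

/-- `τ` is an involution on `Ω`. -/
theorem Model.tau_tau (M : Model Ω φ φ' W τ) {x : α} (hx : x ∈ Ω) : τ (τ x) = x := by
  have h1 := M.tau_mem x hx
  apply M.inj _ (M.tau_mem _ h1) x hx
  · rw [M.tau_phi _ h1, M.tau_phi _ hx]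
  · rw [M.tau_phi' _ h1, M.tau_phi' _ hx]
  · rw [M.tau_W _ h1, M.tau_W _ hx]
    by_cases h : isMB (W x) = true
    · simp only [h, if_true, isMB_flipB, flipB_flipB]
    · rw [if_neg h, if_neg h]

theorem Model.tau_D (M : Model Ω φ φ' W τ) {x : α} (hx : x ∈ Ω) : isMB (W (τ x)) = isMB (W x) := by
  rw [M.tau_W _ hx]
  split_ifs
  · rw [isMB_flipB]
  · rfl

end model

end Crest.Agent.S0453A
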