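import Mathlib
import Crest.Prelude.Def_SwitchChain
import Crest.Agent.S0453_Core

/-!
# Row 299 (S0453): graph-side definitions shared by all packages
-/

set_option autoImplicit false
open Finset

namespace Crest.Agent.S0453Defs
open Crest.SwitchChain Crest.Agent.S0453Core

variable {n : ℕ}

/-- the edges of `G` avoiding the two vertices `v`, `w` (the label `G - {v,w}`) -/
def key2 (v w : Fin n) (G : Finset (Edge n)) : Finset (Edge n) :=
  G.filter (fun e => v ∉ e.1 ∧ w ∉ e.1)

/-- `p_{vw} f = f - E[f | G - {v,w}]` on the realizations of `d` -/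
noncomputable def p2 (d : Fin n → ℕ) (v w : Fin n) (f : Finset (Edge n) → ℝ) :
    Finset (Edge n) → ℝ := cP (realizations d) (key2 v w) f

/-- the two-edge set `{ab, ce}` (no proofs of distinctness needed) -/
def M2 (a b c e : Fin n) : Finset (Edge n) := univ.filter (fun t => t.1 = s(a, b) ∨ t.1 = s(c, e))

/-- the 2x2 block between `{v,w}` and `{x,y}` is the matching `vx, wy` -/
def isI (v w x y : Fin n) (G : Finset (Edge n)) : Prop :=
  M2 v x w y ⊆ G ∧ Disjoint (M2 v y w x) G

instance (v w x y : Fin n) (G : Finset (Edge n)) : Decidable (isI v w x y G) := by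
  unfold isI; infer_instance

/-- the block is one of the two matchings (`x`, `y` are separated by `v`, `w`) -/
def isM (v w x y : Fin n) (G : Finset (Edge n)) : Prop := isI v w x y G ∨ isI v w y x G

instance (v w x y : Fin n) (G : Finset (Edge n)) : Decidable (isM v w x y G) := by
  unfold isM; infer_instance

/-- the switch involution on the 4-cycle `v x w y` -/
def tau (v w x y : Fin n) (G : Finset (Edge n)) : Finset (Edge n) :=
  if isI v w x y G then G \ M2 v x w y ∪ M2 v y w x
  else if isI v w y x G then G \ M2 v y w x ∪ M2 v x w y else G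

/-- switch energy of the square `{v,w} | {x,y}` -/
def En (d : Fin n → ℕ) (v w x y : Fin n) (f : Finset (Edge n) → ℝ) : ℝ :=
  ∑ G ∈ realizations d, (f G - f (tau v w x y G)) ^ 2

/-- the rank-one correction `⟨f, N_{vw|xy} f⟩`:
`∑_{fibres F of G-{v,w}} |F_D| (mean_{F_D} f - mean_F f)^2`, `F_D = {G ∈ F : x,y separated}` -/
noncomputable def nn (d : Fin n → ℕ) (v w x y : Fin n) (f : Finset (Edge n) → ℝ) : ℝ :=
  ∑ G ∈ (realizations d).filter (fun G => isM v w x y G),
    (cE (realizations d) (fun G => (key2 v w G, decide (isM v w x y G))) f G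
      - cE (realizations d) (key2 v w) f G) ^ 2

/-- four pairwise distinct vertices -/
def Dist4 (v w x y : Fin n) : Prop := v ≠ w ∧ v ≠ x ∧ v ≠ y ∧ w ≠ x ∧ w ≠ y ∧ x ≠ y

instance (v w x y : Fin n) : Decidable (Dist4 v w x y) := by unfold Dist4; infer_instance

/-- INTERFACE S3 (K3 + transport). -/
def S3 (d : Fin n → ℕ) : Prop := ∀ (u v w : Fin n), u ≠ v → u ≠ w → v ≠ w →
  ∀ f : Finset (Edge n) → ℝ,
    0 ≤ ip (realizations d) (p2 d u v f) (p2 d u w f) + ip (realizations d) (p2 d u v f) (p2 d v w f)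
      + ip (realizations d) (p2 d u w f) (p2 d v w f)

/-- INTERFACE Claim A. -/
def ClaimA (d : Fin n → ℕ) : Prop := ∀ (v w x y : Fin n), Dist4 v w x y →
  ∀ f : Finset (Edge n) → ℝ,
    En d v w x y f / 2 ≤ 2 * ip (realizations d) (p2 d v w f) (p2 d x y f)
      + nn d v w x y f + nn d x y v w f

/-- INTERFACE Claim B. -/
def ClaimB (d : Fin n → ℕ) : Prop := ∀ (v w : Fin n), v ≠ w →
  ∀ f : Finset (Edge n) → ℝ,
    ∑ x, ∑ y, (if Dist4 v w x y then nn d v w x y f else 0)
      ≤ (∑ x, ∑ y, (if Dist4 v w x y then En d v w x y f else 0)) / 4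

/-- INTERFACE G4 (Johnson gap in the fibres of `G - {v,w}`). -/
def G4 (d : Fin n → ℕ) : Prop := ∀ (v w : Fin n), v ≠ w →
  ∀ f : Finset (Edge n) → ℝ,
    ip (realizations d) (p2 d v w f) (p2 d v w f)
      ≤ (∑ x, ∑ y, (if Dist4 v w x y then En d v w x y f else 0)) / 8

end Crest.Agent.S0453Defs
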