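import Mathlib
import Crest.Prelude.Def_SwitchChain
import Crest.Agent.S0453_Defs

/-!
# Row 299 (S0453): adjacency API for `Finset (Edge n)` (proof-free edges), `ofAdj`, `key2`, `tau`.
-/

set_option autoImplicit false
open Finset

namespace Crest.Agent.S0453Graph
open Crest.SwitchChain Crest.Agent.S0453Core Crest.Agent.S0453Defs

variable {n : ℕ}

/-- adjacency -/
def adj (G : Finset (Edge n)) (a b : Fin n) : Prop := ∃ e ∈ G, e.1 = s(a, b)

instance (G : Finset (Edge n)) (a b : Fin n) : Decidable (adj G a b) := by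
  unfold adj; infer_instance

lemma adj_comm {G : Finset (Edge n)} {a b : Fin n} : adj G a b ↔ adj G b a := by
  unfold adj; simp only [Sym2.eq_swap]

lemma adj_symm {G : Finset (Edge n)} {a b : Fin n} (h : adj G a b) : adj G b a := adj_comm.1 h

lemma adj_ne {G : Finset (Edge n)} {a b : Fin n} (h : adj G a b) : a ≠ b := by
  obtain ⟨e, _, he⟩ := h
  intro hab
  apply e.2
  rw [he, hab]
  exact Sym2.mk_isDiag_iff.2 rfl

lemma not_adj_self (G : Finset (Edge n)) (a : Fin n) : ¬ adj G a a := fun h => adj_ne h rfl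

/-- every edge is `s(a,b)` with `a ≠ b` -/
lemma edge_cases (e : Edge n) : ∃ a b : Fin n, a ≠ b ∧ e.1 = s(a, b) := by
  obtain ⟨s, hs⟩ := e
  induction s using Sym2.ind with
  | _ x y => exact ⟨x, y, by simpa [Sym2.mk_isDiag_iff] using hs, rfl⟩

lemma mem_iff_adj {G : Finset (Edge n)} {e : Edge n} {a b : Fin n} (h : e.1 = s(a, b)) :
    e ∈ G ↔ adj G a b := by
  constructor
  · intro he; exact ⟨e, he, h⟩
  · rintro ⟨e', he', h'⟩
    have : e = e' := Subtype.ext (h.trans h'.symm)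
    rw [this]; exact he'

lemma ext_adj {G G' : Finset (Edge n)} (h : ∀ a b, adj G a b ↔ adj G' a b) : G = G' := by
  ext e
  obtain ⟨a, b, _, he⟩ := edge_cases e
  rw [mem_iff_adj he, mem_iff_adj he]; exact h a b

/-- the graph with adjacency `a ≠ b ∧ (r a b ∨ r b a)` -/
def ofAdj (r : Fin n → Fin n → Prop) [DecidableRel r] : Finset (Edge n) :=
  univ.filter (fun e => ∃ a b, e.1 = s(a, b) ∧ r a b)

lemma adj_ofAdj (r : Fin n → Fin n → Prop) [DecidableRel r] {a b : Fin n} :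
    adj (ofAdj r) a b ↔ a ≠ b ∧ (r a b ∨ r b a) := by
  constructor
  · intro h
    refine ⟨adj_ne h, ?_⟩
    obtain ⟨e, he, hab⟩ := h
    obtain ⟨-, a', b', h', hr⟩ := Finset.mem_filter.1 he
    rw [hab, Sym2.eq_iff] at h'
    rcases h' with ⟨rfl, rfl⟩ | ⟨rfl, rfl⟩
    · exact Or.inl hr
    · exact Or.inr hr
  · rintro ⟨hne, hr⟩
    refine ⟨⟨s(a, b), by simpa [Sym2.mk_isDiag_iff] using hne⟩, ?_, rfl⟩
    rw [ofAdj, Finset.mem_filter]
    refine ⟨Finset.mem_univ _, ?_⟩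
    rcases hr with hr | hr
    · exact ⟨a, b, rfl, hr⟩
    · exact ⟨b, a, Sym2.eq_swap, hr⟩

/-- neighbourhood -/
def nb (G : Finset (Edge n)) (v : Fin n) : Finset (Fin n) := univ.filter (fun x => adj G v x)

lemma mem_nb {G : Finset (Edge n)} {v x : Fin n} : x ∈ nb G v ↔ adj G v x := by simp [nb]

lemma deg_eq_card_nb (G : Finset (Edge n)) (v : Fin n) : deg G v = (nb G v).card := by
  symm
  unfold deg
  refine Finset.card_bij
    (fun x hx => (⟨s(v, x), by simpa [Sym2.mk_isDiag_iff] using adj_ne (mem_nb.1 hx)⟩ : Edge n))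
    ?_ ?_ ?_
  · intro x hx
    rw [Finset.mem_filter]
    exact ⟨(mem_iff_adj rfl).2 (mem_nb.1 hx), by simp⟩
  · intro x hx x' hx' h
    have h2 : s(v, x) = s(v, x') := congrArg Subtype.val h
    rw [Sym2.eq_iff] at h2
    rcases h2 with h2 | h2
    · exact h2.2
    · exact absurd h2.2.symm (adj_ne (mem_nb.1 hx))
  · intro e he
    rw [Finset.mem_filter] at he
    obtain ⟨heG, hv⟩ := he
    obtain ⟨x, hx⟩ := Sym2.mem_iff_exists.1 hv
    exact ⟨x, mem_nb.2 ((mem_iff_adj hx).1 heG), Subtype.ext hx.symm⟩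

lemma mem_realizations {d : Fin n → ℕ} {G : Finset (Edge n)} :
    G ∈ realizations d ↔ ∀ v, (nb G v).card = d v := by
  simp [realizations, deg_eq_card_nb]

/-! ### key2 -/

lemma adj_key2 {v w a b : Fin n} {G : Finset (Edge n)} :
    adj (key2 v w G) a b ↔ adj G a b ∧ a ≠ v ∧ a ≠ w ∧ b ≠ v ∧ b ≠ w := by
  constructor
  · rintro ⟨e, he, hab⟩
    obtain ⟨heG, h1, h2⟩ := Finset.mem_filter.1 he
    rw [hab] at h1 h2
    simp only [Sym2.mem_iff, not_or] at h1 h2
    exact ⟨⟨e, heG, hab⟩, Ne.symm h1.1, Ne.symm h2.1, Ne.symm h1.2, Ne.symm h2.2⟩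
  · rintro ⟨⟨e, heG, hab⟩, h1, h2, h3, h4⟩
    refine ⟨e, Finset.mem_filter.2 ⟨heG, ?_, ?_⟩, hab⟩
    · rw [hab]; simp only [Sym2.mem_iff, not_or]; exact ⟨h1.symm, h3.symm⟩
    · rw [hab]; simp only [Sym2.mem_iff, not_or]; exact ⟨h2.symm, h4.symm⟩

lemma key2_eq_iff {v w : Fin n} {G G' : Finset (Edge n)} :
    key2 v w G = key2 v w G' ↔
      ∀ a b, a ≠ v → a ≠ w → b ≠ v → b ≠ w → (adj G a b ↔ adj G' a b) := by
  constructor
  · intro h a b h1 h2 h3 h4
    have := @adj_key2 n v w a b G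
    have h' := @adj_key2 n v w a b G'
    rw [h] at this
    constructor
    · intro hG; exact (h'.1 (this.2 ⟨hG, h1, h2, h3, h4⟩)).1
    · intro hG; exact (this.1 (h'.2 ⟨hG, h1, h2, h3, h4⟩)).1
  · intro h
    apply ext_adj
    intro a b
    rw [adj_key2, adj_key2]
    constructor
    · rintro ⟨hG, h1, h2, h3, h4⟩; exact ⟨(h a b h1 h2 h3 h4).1 hG, h1, h2, h3, h4⟩
    · rintro ⟨hG, h1, h2, h3, h4⟩; exact ⟨(h a b h1 h2 h3 h4).2 hG, h1, h2, h3, h4⟩

lemma key2_comm (v w : Fin n) (G : Finset (Edge n)) : key2 v w G = key2 w v G := by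
  unfold key2; congr 1; funext e; exact propext and_comm

/-! ### M2, isI, tau -/

lemma M2_subset_iff {a b c e : Fin n} (hab : a ≠ b) (hce : c ≠ e) {G : Finset (Edge n)} :
    M2 a b c e ⊆ G ↔ adj G a b ∧ adj G c e := by
  constructor
  · intro h
    constructor
    · refine ⟨⟨s(a, b), by simpa [Sym2.mk_isDiag_iff] using hab⟩, h ?_, rfl⟩
      simp [M2]
    · refine ⟨⟨s(c, e), by simpa [Sym2.mk_isDiag_iff] using hce⟩, h ?_, rfl⟩
      simp [M2]
  · rintro ⟨h1, h2⟩ t ht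
    obtain ⟨-, ht⟩ := Finset.mem_filter.1 ht
    rcases ht with ht | ht
    · exact (mem_iff_adj ht).2 h1
    · exact (mem_iff_adj ht).2 h2

lemma M2_disjoint_iff {a b c e : Fin n} {G : Finset (Edge n)} :
    Disjoint (M2 a b c e) G ↔ ¬ adj G a b ∧ ¬ adj G c e := by
  rw [Finset.disjoint_left]
  constructor
  · intro h
    constructor
    · rintro ⟨t, htG, ht⟩
      exact h (Finset.mem_filter.2 ⟨Finset.mem_univ _, Or.inl ht⟩) htG
    · rintro ⟨t, htG, ht⟩
      exact h (Finset.mem_filter.2 ⟨Finset.mem_univ _, Or.inr ht⟩) htG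
  · rintro ⟨h1, h2⟩ t ht htG
    obtain ⟨-, ht⟩ := Finset.mem_filter.1 ht
    rcases ht with ht | ht
    · exact h1 ⟨t, htG, ht⟩
    · exact h2 ⟨t, htG, ht⟩

lemma isI_iff {v w x y : Fin n} (h : Dist4 v w x y) {G : Finset (Edge n)} :
    isI v w x y G ↔ adj G v x ∧ adj G w y ∧ ¬ adj G v y ∧ ¬ adj G w x := by
  obtain ⟨h1, h2, h3, h4, h5, h6⟩ := h
  unfold isI
  rw [M2_subset_iff h2 h5, M2_disjoint_iff]
  tauto

lemma adj_sdiff_union_M2 {a b c e a' b' c' e' p q : Fin n} {G : Finset (Edge n)}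
    (ha' : a' ≠ b') (hc' : c' ≠ e') :
    adj (G \ M2 a b c e ∪ M2 a' b' c' e') p q ↔
      (adj G p q ∧ s(p, q) ≠ s(a, b) ∧ s(p, q) ≠ s(c, e)) ∨ s(p, q) = s(a', b') ∨
        s(p, q) = s(c', e') := by
  constructor
  · rintro ⟨t, ht, hpq⟩
    rw [Finset.mem_union, Finset.mem_sdiff] at ht
    rcases ht with ⟨htG, htM⟩ | ht
    · left
      refine ⟨⟨t, htG, hpq⟩, ?_, ?_⟩
      · intro h; exact htM (Finset.mem_filter.2 ⟨Finset.mem_univ _, Or.inl (hpq.trans h)⟩)
      · intro h; exact htM (Finset.mem_filter.2 ⟨Finset.mem_univ _, Or.inr (hpq.trans h)⟩)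
    · right
      obtain ⟨-, ht⟩ := Finset.mem_filter.1 ht
      rcases ht with ht | ht
      · exact Or.inl (hpq.symm.trans ht)
      · exact Or.inr (hpq.symm.trans ht)
  · rintro (⟨⟨t, htG, hpq⟩, h1, h2⟩ | h | h)
    · refine ⟨t, ?_, hpq⟩
      rw [Finset.mem_union, Finset.mem_sdiff]
      left
      refine ⟨htG, ?_⟩
      intro htM
      obtain ⟨-, ht⟩ := Finset.mem_filter.1 htM
      rcases ht with ht | ht
      · exact h1 (hpq.symm.trans ht)
      · exact h2 (hpq.symm.trans ht)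
    · refine ⟨⟨s(a', b'), by simpa [Sym2.mk_isDiag_iff] using ha'⟩, ?_, h.symm⟩
      rw [Finset.mem_union]; right
      simp [M2]
    · refine ⟨⟨s(c', e'), by simpa [Sym2.mk_isDiag_iff] using hc'⟩, ?_, h.symm⟩
      rw [Finset.mem_union]; right
      simp [M2]

end Crest.Agent.S0453Graph
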