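import Mathlib
import Crest.Prelude.Def_SwitchChain
import Crest.Agent.S0453_Graph
import Crest.Agent.S0453_ADefs

/-!
# Row 299 (S0453), package A2: the hybrid lemma

`B`, `B'` disjoint vertex sets.  A graph is determined by `del B' G` (everything avoiding `B'`),
`del B G` (everything avoiding `B`) and the block `G ∩ cross B B'`; conversely these three pieces can
be glued (`hyb`) as soon as they are compatible, and the result is again a realization of `d`.
-/

set_option autoImplicit false
open Finset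

namespace Crest.Agent.S0453Hyb
open Crest.SwitchChain Crest.Agent.S0453Defs Crest.Agent.S0453Graph Crest.Agent.S0453A

variable {n : ℕ}

/-- the graph `G - B`: edges of `G` avoiding the vertex set `B`. -/
def del (B : Finset (Fin n)) (G : Finset (Edge n)) : Finset (Edge n) :=
  G.filter (fun e => ∀ v ∈ B, v ∉ e.1)

/-- all slots with one end in `B` and one end in `B'`. -/
def cross (B B' : Finset (Fin n)) : Finset (Edge n) :=
  univ.filter (fun e => (∃ v ∈ B, v ∈ e.1) ∧ (∃ x ∈ B', x ∈ e.1))

/-- number of neighbours of `v` inside `A`. -/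
def nbc (G : Finset (Edge n)) (v : Fin n) (A : Finset (Fin n)) : ℕ :=
  (A.filter (fun x => adj G v x)).card

lemma mem_del {B : Finset (Fin n)} {G : Finset (Edge n)} {e : Edge n} :
    e ∈ del B G ↔ e ∈ G ∧ ∀ v ∈ B, v ∉ e.1 := by
  simp [del]

lemma mem_cross {B B' : Finset (Fin n)} {e : Edge n} :
    e ∈ cross B B' ↔ (∃ v ∈ B, v ∈ e.1) ∧ (∃ x ∈ B', x ∈ e.1) := by
  simp [cross]

lemma cross_comm (B B' : Finset (Fin n)) : cross B B' = cross B' B := by
  ext e; rw [mem_cross, mem_cross, and_comm]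

lemma del_union (B B' : Finset (Fin n)) (G : Finset (Edge n)) :
    del (B ∪ B') G = del B' (del B G) := by
  ext e
  simp only [mem_del, Finset.mem_union]
  constructor
  · rintro ⟨h, h'⟩
    exact ⟨⟨h, fun v hv => h' v (Or.inl hv)⟩, fun v hv => h' v (Or.inr hv)⟩
  · rintro ⟨⟨h, h1⟩, h2⟩
    exact ⟨h, fun v hv => hv.elim (h1 v) (h2 v)⟩

lemma del_union' (B B' : Finset (Fin n)) (G : Finset (Edge n)) :
    del (B ∪ B') G = del B (del B' G) := by
  rw [Finset.union_comm, del_union]

lemma del_union_of_del {B : Finset (Fin n)} (B' : Finset (Fin n)) {G1 G2 : Finset (Edge n)}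
    (h : del B G1 = del B G2) : del (B ∪ B') G1 = del (B ∪ B') G2 := by
  rw [del_union, del_union, h]

lemma del_union_of_del' (B : Finset (Fin n)) {B' : Finset (Fin n)} {G1 G2 : Finset (Edge n)}
    (h : del B' G1 = del B' G2) : del (B ∪ B') G1 = del (B ∪ B') G2 := by
  rw [del_union', del_union', h]

/-- every slot avoids `B'`, or avoids `B`, or is a cross slot. -/
lemma trichotomy (B B' : Finset (Fin n)) (e : Edge n) :
    (∀ x ∈ B', x ∉ e.1) ∨ (∀ v ∈ B, v ∉ e.1) ∨ e ∈ cross B B' := by
  by_cases h1 : ∀ x ∈ B', x ∉ e.1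
  · exact Or.inl h1
  by_cases h2 : ∀ v ∈ B, v ∉ e.1
  · exact Or.inr (Or.inl h2)
  push Not at h1 h2
  exact Or.inr (Or.inr (mem_cross.mpr ⟨h2, h1⟩))

/-- a graph is determined by its three parts. -/
theorem ext_of_parts {B B' : Finset (Fin n)} {G G' : Finset (Edge n)}
    (h1 : del B' G = del B' G') (h2 : del B G = del B G')
    (h3 : G ∩ cross B B' = G' ∩ cross B B') : G = G' := by
  ext e
  rcases trichotomy B B' e with h | h | h
  · have := Finset.ext_iff.mp h1 e
    simp only [mem_del] at this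
    constructor
    · intro he; exact (this.mp ⟨he, h⟩).1
    · intro he; exact (this.mpr ⟨he, h⟩).1
  · have := Finset.ext_iff.mp h2 e
    simp only [mem_del] at this
    constructor
    · intro he; exact (this.mp ⟨he, h⟩).1
    · intro he; exact (this.mpr ⟨he, h⟩).1
  · have := Finset.ext_iff.mp h3 e
    simp only [Finset.mem_inter] at this
    constructor
    · intro he; exact (this.mp ⟨he, h⟩).1
    · intro he; exact (this.mpr ⟨he, h⟩).1

/-- the hybrid: rows of `B` (and `G[Z]`) from `G1`, rows of `B'` from `G2`, block `W`. -/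
def hyb (B B' : Finset (Fin n)) (G1 G2 W : Finset (Edge n)) : Finset (Edge n) :=
  del B' G1 ∪ del B G2 ∪ W

lemma mem_hyb {B B' : Finset (Fin n)} {G1 G2 W : Finset (Edge n)} {e : Edge n} :
    e ∈ hyb B B' G1 G2 W ↔ e ∈ del B' G1 ∨ e ∈ del B G2 ∨ e ∈ W := by
  simp [hyb]

theorem del_hyb_right {B B' : Finset (Fin n)} {G1 G2 W : Finset (Edge n)}
    (hZ : del (B ∪ B') G1 = del (B ∪ B') G2) (hW : W ⊆ cross B B') :
    del B' (hyb B B' G1 G2 W) = del B' G1 := by
  ext e
  rw [mem_del, mem_hyb]
  constructor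
  · rintro ⟨h | h | h, h'⟩
    · exact h
    · have : e ∈ del (B ∪ B') G2 := by rw [del_union]; exact mem_del.mpr ⟨h, h'⟩
      rw [← hZ, del_union'] at this
      exact (mem_del.mp this).1
    · obtain ⟨x, hx, hxe⟩ := (mem_cross.mp (hW h)).2
      exact absurd hxe (h' x hx)
  · intro h
    exact ⟨Or.inl h, (mem_del.mp h).2⟩

theorem del_hyb_left {B B' : Finset (Fin n)} {G1 G2 W : Finset (Edge n)}
    (hZ : del (B ∪ B') G1 = del (B ∪ B') G2) (hW : W ⊆ cross B B') :
    del B (hyb B B' G1 G2 W) = del B G2 := by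
  ext e
  rw [mem_del, mem_hyb]
  constructor
  · rintro ⟨h | h | h, h'⟩
    · have : e ∈ del (B ∪ B') G1 := by rw [del_union']; exact mem_del.mpr ⟨h, h'⟩
      rw [hZ, del_union] at this
      exact (mem_del.mp this).1
    · exact h
    · obtain ⟨x, hx, hxe⟩ := (mem_cross.mp (hW h)).1
      exact absurd hxe (h' x hx)
  · intro h
    exact ⟨Or.inr (Or.inl h), (mem_del.mp h).2⟩

theorem hyb_inter_cross {B B' : Finset (Fin n)} {G1 G2 W : Finset (Edge n)}
    (hW : W ⊆ cross B B') : hyb B B' G1 G2 W ∩ cross B B' = W := by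
  ext e
  rw [Finset.mem_inter, mem_hyb]
  constructor
  · rintro ⟨h | h | h, h'⟩
    · obtain ⟨x, hx, hxe⟩ := (mem_cross.mp h').2
      exact absurd hxe ((mem_del.mp h).2 x hx)
    · obtain ⟨x, hx, hxe⟩ := (mem_cross.mp h').1
      exact absurd hxe ((mem_del.mp h).2 x hx)
    · exact h
  · intro h
    exact ⟨Or.inr (Or.inr h), hW h⟩

theorem hyb_self (B B' : Finset (Fin n)) (G : Finset (Edge n)) :
    hyb B B' G G (G ∩ cross B B') = G :=
  ext_of_parts (B := B) (B' := B') (del_hyb_right rfl Finset.inter_subset_right)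
    (del_hyb_left rfl Finset.inter_subset_right) (by
      rw [hyb_inter_cross Finset.inter_subset_right])

/-! ### adjacency and `nb` -/

lemma adj_congr {G G' : Finset (Edge n)} {a b : Fin n}
    (h : ∀ e : Edge n, e.1 = s(a, b) → (e ∈ G ↔ e ∈ G')) : adj G a b ↔ adj G' a b := by
  unfold adj
  constructor
  · rintro ⟨e, he, hh⟩; exact ⟨e, (h e hh).mp he, hh⟩
  · rintro ⟨e, he, hh⟩; exact ⟨e, (h e hh).mpr he, hh⟩

lemma nb_congr {G G' : Finset (Edge n)} {u : Fin n} {A : Finset (Fin n)}
    (h : ∀ a ∈ A, (adj G u a ↔ adj G' u a)) : nbc G u A = nbc G' u A := by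
  unfold nbc
  congr 1
  apply Finset.filter_congr
  intro a ha
  exact h a ha

/-- adjacency between `B` and `B'` only depends on the block. -/
lemma adj_inter_cross {B B' : Finset (Fin n)} (G : Finset (Edge n)) {v x : Fin n} (hv : v ∈ B)
    (hx : x ∈ B') : adj (G ∩ cross B B') v x ↔ adj G v x := by
  apply adj_congr
  intro e he
  rw [Finset.mem_inter, mem_cross]
  constructor
  · exact fun h => h.1
  · intro h
    exact ⟨h, ⟨v, hv, by rw [he]; simp⟩, ⟨x, hx, by rw [he]; simp⟩⟩

/-- adjacency of two vertices outside `A` only depends on `del A G`. -/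
lemma adj_del {A : Finset (Fin n)} (G : Finset (Edge n)) {a b : Fin n} (ha : a ∉ A) (hb : b ∉ A) :
    adj (del A G) a b ↔ adj G a b := by
  apply adj_congr
  intro e he
  rw [mem_del]
  constructor
  · exact fun h => h.1
  · intro h
    refine ⟨h, ?_⟩
    intro v hv hve
    rw [he, Sym2.mem_iff] at hve
    rcases hve with rfl | rfl
    · exact ha hv
    · exact hb hv

lemma nb_inter_cross {B B' : Finset (Fin n)} (G : Finset (Edge n)) {v : Fin n} (hv : v ∈ B) :
    nbc (G ∩ cross B B') v B' = nbc G v B' :=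
  nb_congr fun _ hx => adj_inter_cross G hv hx

lemma nb_inter_cross' {B B' : Finset (Fin n)} (G : Finset (Edge n)) {x : Fin n} (hx : x ∈ B') :
    nbc (G ∩ cross B B') x B = nbc G x B :=
  nb_congr fun v hv => by
    rw [adj_comm, adj_inter_cross G hv hx, adj_comm]

lemma nb_del {A A' : Finset (Fin n)} (hAA : Disjoint A A') (G : Finset (Edge n)) {u : Fin n}
    (hu : u ∉ A) : nbc (del A G) u A' = nbc G u A' :=
  nb_congr fun _ hx => adj_del G hu (Finset.disjoint_right.mp hAA hx)

lemma nb_union {A A' : Finset (Fin n)} (hAA : Disjoint A A') (G : Finset (Edge n)) (u : Fin n) :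
    nbc G u (A ∪ A') = nbc G u A + nbc G u A' := by
  unfold nbc
  rw [Finset.filter_union, Finset.card_union_of_disjoint]
  exact Finset.disjoint_filter_filter hAA

/-- degree = degree in `G - A` + number of neighbours in `A`, for `u ∉ A`. -/
lemma deg_eq_deg_del_add_nb (A : Finset (Fin n)) (G : Finset (Edge n)) {u : Fin n} (hu : u ∉ A) :
    deg G u = deg (del A G) u + nbc G u A := by
  unfold deg
  rw [← Finset.card_filter_add_card_filter_not (s := G.filter fun e => u ∈ e.1)
    (fun e => ∀ v ∈ A, v ∉ e.1)]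
  congr 1
  · congr 1
    ext e
    simp only [Finset.mem_filter, mem_del]
    tauto
  · unfold nbc
    symm
    apply Finset.card_bij (fun a ha => (⟨s(u, a), by
        rw [Sym2.mk_isDiag_iff]
        rintro rfl
        exact hu (Finset.mem_filter.mp ha).1⟩ : Edge n))
    · intro a ha
      rw [Finset.mem_filter] at ha
      obtain ⟨haA, e, he, hh⟩ := ha
      simp only [Finset.mem_filter]
      have : e = ⟨s(u, a), by rw [← hh]; exact e.2⟩ := Subtype.ext hh
      refine ⟨⟨this ▸ he, by simp⟩, ?_⟩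
      push Not
      exact ⟨a, haA, by simp⟩
    · intro a _ a' _ h
      have h' : s(u, a) = s(u, a') := congrArg Subtype.val h
      rw [Sym2.eq_iff] at h'
      rcases h' with ⟨-, h'⟩ | ⟨h1, h2⟩
      · exact h'
      · rw [h2, h1]
    · intro e he
      simp only [Finset.mem_filter] at he
      obtain ⟨⟨heG, hue⟩, hne⟩ := he
      push Not at hne
      obtain ⟨a, haA, hae⟩ := hne
      have hua : u ≠ a := by rintro rfl; exact hu haA
      have hh : e.1 = s(u, a) := (Sym2.mem_and_mem_iff hua).mp ⟨hue, hae⟩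
      exact ⟨a, Finset.mem_filter.mpr ⟨haA, e, heG, hh⟩, Subtype.ext hh.symm⟩

lemma mem_real {d : Fin n → ℕ} {G : Finset (Edge n)} :
    G ∈ realizations d ↔ ∀ v, deg G v = d v := by
  simp [realizations]

/-- margins are functions of `del`. -/
theorem nb_eq_of_del_eq {d : Fin n → ℕ} {A : Finset (Fin n)} {G G' : Finset (Edge n)}
    (hG : G ∈ realizations d) (hG' : G' ∈ realizations d) (h : del A G = del A G') {u : Fin n}
    (hu : u ∉ A) : nbc G u A = nbc G' u A := by
  have h1 := deg_eq_deg_del_add_nb A G hu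
  have h2 := deg_eq_deg_del_add_nb A G' hu
  rw [mem_real.mp hG u] at h1
  rw [mem_real.mp hG' u, ← h] at h2
  omega

section hyb
variable {B B' : Finset (Fin n)} {G1 G2 W : Finset (Edge n)}

lemma nb_hyb_row (hW : W ⊆ cross B B') {v : Fin n} (hv : v ∈ B) :
    nbc (hyb B B' G1 G2 W) v B' = nbc W v B' := by
  rw [← nb_inter_cross (B := B) (B' := B') _ hv, hyb_inter_cross hW]

lemma nb_hyb_col (hW : W ⊆ cross B B') {x : Fin n} (hx : x ∈ B') :
    nbc (hyb B B' G1 G2 W) x B = nbc W x B := by
  rw [← nb_inter_cross' (B := B) (B' := B') _ hx, hyb_inter_cross hW]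

/-- **Hybrid lemma**. -/
theorem hyb_mem {d : Fin n → ℕ} (hBB : Disjoint B B') (h1 : G1 ∈ realizations d)
    (h2 : G2 ∈ realizations d) (hZ : del (B ∪ B') G1 = del (B ∪ B') G2)
    (hcol : ∀ z, z ∉ B → z ∉ B' → nbc G1 z B = nbc G2 z B) (hW : W ⊆ cross B B')
    (hr : ∀ v ∈ B, nbc W v B' = nbc G1 v B') (hc : ∀ x ∈ B', nbc W x B = nbc G2 x B) :
    hyb B B' G1 G2 W ∈ realizations d := by
  rw [mem_real]
  intro u
  by_cases hu' : u ∈ B'
  · have hu : u ∉ B := Finset.disjoint_right.mp hBB hu'
    rw [deg_eq_deg_del_add_nb B _ hu, del_hyb_left hZ hW, nb_hyb_col hW hu', hc u hu',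
      ← deg_eq_deg_del_add_nb B _ hu]
    exact mem_real.mp h2 u
  · rw [deg_eq_deg_del_add_nb B' _ hu', del_hyb_right hZ hW]
    have key : nbc (hyb B B' G1 G2 W) u B' = nbc G1 u B' := by
      by_cases hu : u ∈ B
      · rw [nb_hyb_row hW hu, hr u hu]
      · rw [← nb_del hBB _ hu, del_hyb_left hZ hW, nb_del hBB _ hu]
        have huu : u ∉ B ∪ B' := by
          rw [Finset.mem_union]; tauto
        have := nb_eq_of_del_eq h1 h2 hZ huu
        rw [nb_union hBB, nb_union hBB, hcol u hu hu'] at this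
        omega
    rw [key, ← deg_eq_deg_del_add_nb B' _ hu']
    exact mem_real.mp h1 u

end hyb

/-! ### bridge to the tuple language (`key2`, `Blk`) -/

lemma del_pair (v w : Fin n) (G : Finset (Edge n)) : del {v, w} G = key2 v w G := by
  ext e
  simp [del, key2]

/-- the 2x2 block of adjacency bits `(vx, vy, wx, wy)`. -/
def Wb (v w x y : Fin n) (G : Finset (Edge n)) : Blk :=
  (decide (adj G v x), decide (adj G v y), decide (adj G w x), decide (adj G w y))

/-- the edge set of a block. -/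
def blkE (v w x y : Fin n) (b : Blk) : Finset (Edge n) :=
  univ.filter fun e => (b.1 = true ∧ e.1 = s(v, x)) ∨ (b.2.1 = true ∧ e.1 = s(v, y)) ∨
    (b.2.2.1 = true ∧ e.1 = s(w, x)) ∨ (b.2.2.2 = true ∧ e.1 = s(w, y))

lemma blkE_subset (v w x y : Fin n) (b : Blk) : blkE v w x y b ⊆ cross {v, w} {x, y} := by
  intro e he
  rw [blkE, Finset.mem_filter] at he
  rw [mem_cross]
  rcases he.2 with ⟨-, h⟩ | ⟨-, h⟩ | ⟨-, h⟩ | ⟨-, h⟩ <;> rw [h] <;> simp

lemma adj_blkE {v w x y : Fin n} (b : Blk) (p q : Fin n) (hpq : p ≠ q) :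
    adj (blkE v w x y b) p q ↔ (b.1 = true ∧ s(p, q) = s(v, x)) ∨ (b.2.1 = true ∧ s(p, q) = s(v, y)) ∨
    (b.2.2.1 = true ∧ s(p, q) = s(w, x)) ∨ (b.2.2.2 = true ∧ s(p, q) = s(w, y)) := by
  constructor
  · rintro ⟨e, he, h⟩
    rw [blkE, Finset.mem_filter, h] at he
    exact he.2
  · intro h
    refine ⟨⟨s(p, q), by simpa [Sym2.mk_isDiag_iff] using hpq⟩, ?_, rfl⟩
    rw [blkE, Finset.mem_filter]
    exact ⟨Finset.mem_univ _, h⟩

lemma Wb_blkE {v w x y : Fin n} (h : Dist4 v w x y) (b : Blk) : Wb v w x y (blkE v w x y b) = b := by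
  obtain ⟨h1, h2, h3, h4, h5, h6⟩ := h
  obtain ⟨b1, b2, b3, b4⟩ := b
  unfold Wb
  have e1 : adj (blkE v w x y (b1, b2, b3, b4)) v x ↔ b1 = true := by
    rw [adj_blkE _ _ _ h2]
    simp only [Sym2.eq_iff]
    constructor
    · rintro (h | h | h | h)
      · exact h.1
      · rcases h.2 with h | h
        · exact absurd h.2 h6
        · exact absurd h.1 h3
      · rcases h.2 with h | h
        · exact absurd h.1 h1
        · exact absurd h.1 h2
      · rcases h.2 with h | h
        · exact absurd h.1 h1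
        · exact absurd h.1 h3
    · intro h; exact Or.inl ⟨h, trivial⟩
  have e2 : adj (blkE v w x y (b1, b2, b3, b4)) v y ↔ b2 = true := by
    rw [adj_blkE _ _ _ h3]
    simp only [Sym2.eq_iff]
    constructor
    · rintro (h | h | h | h)
      · rcases h.2 with h | h
        · exact absurd h.2 h6.symm
        · exact absurd h.1 h2
      · exact h.1
      · rcases h.2 with h | h
        · exact absurd h.1 h1
        · exact absurd h.1 h2
      · rcases h.2 with h | h
        · exact absurd h.1 h1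
        · exact absurd h.1 h3
    · intro h; exact Or.inr (Or.inl ⟨h, trivial⟩)
  have e3 : adj (blkE v w x y (b1, b2, b3, b4)) w x ↔ b3 = true := by
    rw [adj_blkE _ _ _ h4]
    simp only [Sym2.eq_iff]
    constructor
    · rintro (h | h | h | h)
      · rcases h.2 with h | h
        · exact absurd h.1 h1.symm
        · exact absurd h.1 h4
      · rcases h.2 with h | h
        · exact absurd h.1 h1.symm
        · exact absurd h.1 h5
      · exact h.1
      · rcases h.2 with h | h
        · exact absurd h.2 h6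
        · exact absurd h.1 h5
    · intro h; exact Or.inr (Or.inr (Or.inl ⟨h, trivial⟩))
  have e4 : adj (blkE v w x y (b1, b2, b3, b4)) w y ↔ b4 = true := by
    rw [adj_blkE _ _ _ h5]
    simp only [Sym2.eq_iff]
    constructor
    · rintro (h | h | h | h)
      · rcases h.2 with h | h
        · exact absurd h.1 h1.symm
        · exact absurd h.1 h4
      · rcases h.2 with h | h
        · exact absurd h.1 h1.symm
        · exact absurd h.1 h5
      · rcases h.2 with h | h
        · exact absurd h.2 h6.symm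
        · exact absurd h.1 h4
      · exact h.1
    · intro h; exact Or.inr (Or.inr (Or.inr ⟨h, trivial⟩))
  simp only [e1, e2, e3, e4, Bool.decide_eq_true]

lemma nbc_pair (G : Finset (Edge n)) (u : Fin n) {a b : Fin n} (hab : a ≠ b) :
    nbc G u {a, b} = (decide (adj G u a)).toNat + (decide (adj G u b)).toNat := by
  unfold nbc
  rw [Finset.filter_insert, Finset.filter_singleton]
  by_cases h1 : adj G u a <;> by_cases h2 : adj G u b <;> simp [h1, h2, hab]

lemma rowsB_Wb {v w x y : Fin n} (hxy : x ≠ y) (G : Finset (Edge n)) :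
    rowsB (Wb v w x y G) = (nbc G v {x, y}, nbc G w {x, y}) := by
  rw [nbc_pair G v hxy, nbc_pair G w hxy]
  rfl

lemma colsB_Wb {v w x y : Fin n} (hvw : v ≠ w) (G : Finset (Edge n)) :
    colsB (Wb v w x y G) = (nbc G x {v, w}, nbc G y {v, w}) := by
  rw [nbc_pair G x hvw, nbc_pair G y hvw]
  simp only [colsB, Wb, @adj_comm n G x, @adj_comm n G y]

lemma Wb_congr {v w x y : Fin n} {G G' : Finset (Edge n)}
    (h : G ∩ cross {v, w} {x, y} = G' ∩ cross {v, w} {x, y}) : Wb v w x y G = Wb v w x y G' := by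
  have key : ∀ p ∈ ({v, w} : Finset (Fin n)), ∀ q ∈ ({x, y} : Finset (Fin n)),
      (adj G p q ↔ adj G' p q) := by
    intro p hp q hq
    rw [← adj_inter_cross G hp hq, h, adj_inter_cross G' hp hq]
  unfold Wb
  rw [decide_eq_decide.mpr (key v (by simp) x (by simp)),
    decide_eq_decide.mpr (key v (by simp) y (by simp)),
    decide_eq_decide.mpr (key w (by simp) x (by simp)),
    decide_eq_decide.mpr (key w (by simp) y (by simp))]

lemma disjoint_pairs {v w x y : Fin n} (h : Dist4 v w x y) :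
    Disjoint ({v, w} : Finset (Fin n)) {x, y} := by
  obtain ⟨h1, h2, h3, h4, h5, h6⟩ := h
  rw [Finset.disjoint_left]
  intro a ha hb
  simp only [Finset.mem_insert, Finset.mem_singleton] at ha hb
  rcases ha with rfl | rfl <;> rcases hb with rfl | rfl <;> simp_all

/-- **Hybrid lemma in the tuple language** (field `hyb` of `S0453A.Model`). -/
theorem hyb_tuple {d : Fin n → ℕ} {v w x y : Fin n} (h : Dist4 v w x y)
    {G1 G G2 : Finset (Edge n)} (h1 : G1 ∈ realizations d) (hG : G ∈ realizations d)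
    (h2 : G2 ∈ realizations d) (e1 : key2 v w G1 = key2 v w G) (e2 : key2 x y G = key2 x y G2)
    (b : Blk) (hr : rowsB b = rowsB (Wb v w x y G1)) (hc : colsB b = colsB (Wb v w x y G2)) :
    ∃ z ∈ realizations d, key2 x y z = key2 x y G1 ∧ key2 v w z = key2 v w G2 ∧
      Wb v w x y z = b := by
  have hBB := disjoint_pairs h
  have hvw : v ≠ w := h.1
  have hxy : x ≠ y := h.2.2.2.2.2
  rw [← del_pair, ← del_pair] at e1 e2
  have hW := blkE_subset v w x y b
  have hZ : del ({v, w} ∪ {x, y}) G1 = del ({v, w} ∪ {x, y}) G2 :=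
    (del_union_of_del _ e1).trans (del_union_of_del' _ e2)
  rw [← Wb_blkE h b, rowsB_Wb hxy, rowsB_Wb hxy, Prod.mk.injEq] at hr
  rw [← Wb_blkE h b, colsB_Wb hvw, colsB_Wb hvw, Prod.mk.injEq] at hc
  refine ⟨hyb {v, w} {x, y} G1 G2 (blkE v w x y b), ?_, ?_, ?_, ?_⟩
  · apply hyb_mem hBB h1 h2 hZ _ hW
    · intro p hp
      simp only [Finset.mem_insert, Finset.mem_singleton] at hp
      rcases hp with rfl | rfl
      · exact hr.1
      · exact hr.2
    · intro p hp
      simp only [Finset.mem_insert, Finset.mem_singleton] at hp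
      rcases hp with rfl | rfl
      · exact hc.1
      · exact hc.2
    · intro z hz hz'
      rw [nb_eq_of_del_eq h1 hG e1 hz, ← nb_del hBB.symm G hz', e2, nb_del hBB.symm G2 hz']
  · rw [← del_pair, ← del_pair, del_hyb_right hZ hW]
  · rw [← del_pair, ← del_pair, del_hyb_left hZ hW]
  · rw [Wb_congr (G' := blkE v w x y b), Wb_blkE h b]
    rw [hyb_inter_cross hW, Finset.inter_eq_left.mpr hW]

/-- a state is determined by the two labels and the block (field `inj`). -/
theorem inj_tuple {v w x y : Fin n} (h : Dist4 v w x y) {G G' : Finset (Edge n)}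
    (e1 : key2 v w G = key2 v w G') (e2 : key2 x y G = key2 x y G')
    (e3 : Wb v w x y G = Wb v w x y G') : G = G' := by
  rw [← del_pair, ← del_pair] at e1 e2
  apply ext_of_parts (B := {v, w}) (B' := {x, y}) e2 e1
  simp only [Wb, Prod.mk.injEq, decide_eq_decide] at e3
  obtain ⟨a1, a2, a3, a4⟩ := e3
  ext e
  simp only [Finset.mem_inter, and_congr_left_iff]
  intro he
  obtain ⟨⟨p, hp, hpe⟩, ⟨q, hq, hqe⟩⟩ := mem_cross.mp he
  have hpq : p ≠ q := fun hpq => Finset.disjoint_left.mp (disjoint_pairs h) hp (hpq ▸ hq)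
  have hh : e.1 = s(p, q) := (Sym2.mem_and_mem_iff hpq).mp ⟨hpe, hqe⟩
  rw [mem_iff_adj hh, mem_iff_adj hh]
  simp only [Finset.mem_insert, Finset.mem_singleton] at hp hq
  rcases hp with rfl | rfl <;> rcases hq with rfl | rfl <;> assumption

/-- column sums of the block are determined by `G - {v,w}` (field `cols_of`). -/
theorem cols_tuple {d : Fin n → ℕ} {v w x y : Fin n} (h : Dist4 v w x y)
    {G G' : Finset (Edge n)} (hG : G ∈ realizations d) (hG' : G' ∈ realizations d)
    (e : key2 v w G = key2 v w G') : colsB (Wb v w x y G) = colsB (Wb v w x y G') := by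
  obtain ⟨h1, h2, h3, h4, h5, h6⟩ := h
  rw [← del_pair, ← del_pair] at e
  rw [colsB_Wb h1, colsB_Wb h1, nb_eq_of_del_eq hG hG' e (u := x) (by simp [h2.symm, h4.symm]),
    nb_eq_of_del_eq hG hG' e (u := y) (by simp [h3.symm, h5.symm])]

/-- row sums of the block are determined by `G - {x,y}` (field `rows_of`). -/
theorem rows_tuple {d : Fin n → ℕ} {v w x y : Fin n} (h : Dist4 v w x y)
    {G G' : Finset (Edge n)} (hG : G ∈ realizations d) (hG' : G' ∈ realizations d)
    (e : key2 x y G = key2 x y G') : rowsB (Wb v w x y G) = rowsB (Wb v w x y G') := by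
  obtain ⟨h1, h2, h3, h4, h5, h6⟩ := h
  rw [← del_pair, ← del_pair] at e
  rw [rowsB_Wb h6, rowsB_Wb h6, nb_eq_of_del_eq hG hG' e (u := v) (by simp [h2, h3]),
    nb_eq_of_del_eq hG hG' e (u := w) (by simp [h4, h5])]

end Crest.Agent.S0453Hyb
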