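import Mathlib
import Crest.Agent.S0453_Graph
import Crest.Agent.S0453_ADefs
import Crest.Agent.S0453_Hyb

/-!
# Row 299 (S0453), package P8: the graph model for Claim A

For four distinct vertices `v w x y` the realizations of `d` with the labels `key2 v w`, `key2 x y`,
the 2x2 block `Wb` and the switch `tau v w x y` form a `S0453A.Model`; hence the abstract Claim A
gives the graph Claim A.
-/

set_option autoImplicit false
set_option linter.unusedSimpArgs false
open Finset

namespace Crest.Agent.S0453P8
open Crest.SwitchChain Crest.Agent.S0453Core Crest.Agent.S0453Defs Crest.Agent.S0453Graph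
open Crest.Agent.S0453A
open Crest.Agent.S0453Hyb (Wb hyb_tuple)

variable {n : ℕ}

lemma dist4_swapR {v w x y : Fin n} (h : Dist4 v w x y) : Dist4 v w y x := by
  obtain ⟨h1, h2, h3, h4, h5, h6⟩ := h
  exact ⟨h1, h3, h2, h5, h4, h6.symm⟩

lemma dist4_flip {v w x y : Fin n} (h : Dist4 v w x y) : Dist4 x y v w := by
  obtain ⟨h1, h2, h3, h4, h5, h6⟩ := h
  exact ⟨h6, h2.symm, h4.symm, h3.symm, h5.symm, h1⟩

lemma isM_iff {v w x y : Fin n} (h : Dist4 v w x y) (G : Finset (Edge n)) :
    isM v w x y G ↔ isMB (Wb v w x y G) = true := by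
  unfold isM
  rw [isI_iff h, isI_iff (dist4_swapR h)]
  by_cases a1 : adj G v x <;> by_cases a2 : adj G v y <;> by_cases a3 : adj G w x <;>
    by_cases a4 : adj G w y <;> simp [isMB, Wb, a1, a2, a3, a4]

lemma isM_flip_iff {v w x y : Fin n} (h : Dist4 v w x y) (G : Finset (Edge n)) :
    isM x y v w G ↔ isMB (Wb v w x y G) = true := by
  unfold isM
  rw [isI_iff (dist4_flip h), isI_iff (dist4_swapR (dist4_flip h)), @adj_comm _ G x v, @adj_comm _ G y w,
    @adj_comm _ G x w, @adj_comm _ G y v]
  by_cases a1 : adj G v x <;> by_cases a2 : adj G v y <;> by_cases a3 : adj G w x <;>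
    by_cases a4 : adj G w y <;> simp [isMB, Wb, a1, a2, a3, a4]

lemma decide_isM {v w x y : Fin n} (h : Dist4 v w x y) (G : Finset (Edge n)) :
    decide (isM v w x y G) = isMB (Wb v w x y G) := by
  rw [Bool.eq_iff_iff, decide_eq_true_iff]; exact isM_iff h G

lemma decide_isM_flip {v w x y : Fin n} (h : Dist4 v w x y) (G : Finset (Edge n)) :
    decide (isM x y v w G) = isMB (Wb v w x y G) := by
  rw [Bool.eq_iff_iff, decide_eq_true_iff]; exact isM_flip_iff h G

/-- splitting the neighbourhood of `u` into the part seen by `key2 p q` and the two slots `up`, `uq` -/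
lemma card_nb_split (G : Finset (Edge n)) {p q u : Fin n} (hpq : p ≠ q) (hup : u ≠ p)
    (huq : u ≠ q) :
    (nb G u).card = (nb (key2 p q G) u).card
      + ((decide (adj G u p)).toNat + (decide (adj G u q)).toNat) := by
  have e1 : nb (key2 p q G) u = (nb G u).filter (fun a => a ≠ p ∧ a ≠ q) := by
    ext a
    simp only [mem_nb, Finset.mem_filter, adj_key2]
    tauto
  have e2 : ((nb G u).filter (fun a => ¬ (a ≠ p ∧ a ≠ q))).card
      = (decide (adj G u p)).toNat + (decide (adj G u q)).toNat := by
    by_cases a1 : adj G u p <;> by_cases a2 : adj G u q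
    · have : (nb G u).filter (fun a => ¬ (a ≠ p ∧ a ≠ q)) = {p, q} := by
        ext a
        simp only [mem_nb, Finset.mem_filter, Finset.mem_insert, Finset.mem_singleton]
        constructor
        · rintro ⟨_, h⟩; tauto
        · rintro (rfl | rfl)
          · exact ⟨a1, by tauto⟩
          · exact ⟨a2, by tauto⟩
      rw [this, Finset.card_pair hpq]; simp [a1, a2]
    · have : (nb G u).filter (fun a => ¬ (a ≠ p ∧ a ≠ q)) = {p} := by
        ext a
        simp only [mem_nb, Finset.mem_filter, Finset.mem_singleton]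
        constructor
        · rintro ⟨h0, h⟩
          by_contra hne
          have : a = q := by tauto
          exact a2 (this ▸ h0)
        · rintro rfl
          exact ⟨a1, by tauto⟩
      rw [this]; simp [a1, a2]
    · have : (nb G u).filter (fun a => ¬ (a ≠ p ∧ a ≠ q)) = {q} := by
        ext a
        simp only [mem_nb, Finset.mem_filter, Finset.mem_singleton]
        constructor
        · rintro ⟨h0, h⟩
          by_contra hne
          have : a = p := by tauto
          exact a1 (this ▸ h0)
        · rintro rfl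
          exact ⟨a2, by tauto⟩
      rw [this]; simp [a1, a2]
    · have : (nb G u).filter (fun a => ¬ (a ≠ p ∧ a ≠ q)) = ∅ := by
        ext a
        simp only [mem_nb, Finset.mem_filter, Finset.notMem_empty, iff_false, not_and]
        intro h0 h
        exact h (by rintro rfl; exact a1 h0) (by rintro rfl; exact a2 h0)
      rw [this]; simp [a1, a2]
  rw [e1, ← e2, Finset.card_filter_add_card_filter_not]


lemma dec_comm (G : Finset (Edge n)) (a b : Fin n) : decide (adj G a b) = decide (adj G b a) :=
  decide_eq_decide.2 adj_comm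

/-- margins are determined by the label (inside the realizations of `d`) -/
lemma margin_eq {d : Fin n → ℕ} {G G' : Finset (Edge n)} (hG : G ∈ realizations d)
    (hG' : G' ∈ realizations d) {p q u : Fin n} (hpq : p ≠ q) (hup : u ≠ p) (huq : u ≠ q)
    (hk : key2 p q G = key2 p q G') :
    (decide (adj G u p)).toNat + (decide (adj G u q)).toNat
      = (decide (adj G' u p)).toNat + (decide (adj G' u q)).toNat := by
  have h1 := card_nb_split G hpq hup huq
  have h2 := card_nb_split G' hpq hup huq
  rw [mem_realizations.1 hG u] at h1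
  rw [mem_realizations.1 hG' u, ← hk] at h2
  omega

lemma cols_of {d : Fin n → ℕ} {v w x y : Fin n} (h : Dist4 v w x y) {G G' : Finset (Edge n)}
    (hG : G ∈ realizations d) (hG' : G' ∈ realizations d) (hk : key2 v w G = key2 v w G') :
    colsB (Wb v w x y G) = colsB (Wb v w x y G') := by
  obtain ⟨h1, h2, h3, h4, h5, h6⟩ := h
  have e1 := margin_eq hG hG' h1 h2.symm h4.symm hk
  have e2 := margin_eq hG hG' h1 h3.symm h5.symm hk
  rw [dec_comm G x v, dec_comm G x w, dec_comm G' x v, dec_comm G' x w] at e1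
  rw [dec_comm G y v, dec_comm G y w, dec_comm G' y v, dec_comm G' y w] at e2
  exact Prod.ext e1 e2

lemma rows_of {d : Fin n → ℕ} {v w x y : Fin n} (h : Dist4 v w x y) {G G' : Finset (Edge n)}
    (hG : G ∈ realizations d) (hG' : G' ∈ realizations d) (hk : key2 x y G = key2 x y G') :
    rowsB (Wb v w x y G) = rowsB (Wb v w x y G') := by
  obtain ⟨h1, h2, h3, h4, h5, h6⟩ := h
  have e1 := margin_eq hG hG' h6 h2 h3 hk
  have e2 := margin_eq hG hG' h6 h4 h5 hk
  exact Prod.ext e1 e2

/-- a graph is determined by the two labels and the block -/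
lemma inj {v w x y : Fin n} (h : Dist4 v w x y) {G G' : Finset (Edge n)}
    (k1 : key2 v w G = key2 v w G') (k2 : key2 x y G = key2 x y G')
    (hW : Wb v w x y G = Wb v w x y G') : G = G' := by
  obtain ⟨h1, h2, h3, h4, h5, h6⟩ := h
  rw [key2_eq_iff] at k1 k2
  simp only [Wb, Prod.mk.injEq, decide_eq_decide] at hW
  obtain ⟨w1, w2, w3, w4⟩ := hW
  apply ext_adj
  intro a b
  by_cases c1 : a ≠ v ∧ a ≠ w ∧ b ≠ v ∧ b ≠ w
  · exact k1 a b c1.1 c1.2.1 c1.2.2.1 c1.2.2.2
  by_cases c2 : a ≠ x ∧ a ≠ y ∧ b ≠ x ∧ b ≠ y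
  · exact k2 a b c2.1 c2.2.1 c2.2.2.1 c2.2.2.2
  by_cases e1 : a = v
  · subst e1
    have : b = x ∨ b = y := by
      by_contra hcon
      push Not at hcon
      exact c2 ⟨h2, h3, hcon.1, hcon.2⟩
    rcases this with rfl | rfl
    · exact w1
    · exact w2
  by_cases e2 : a = w
  · subst e2
    have : b = x ∨ b = y := by
      by_contra hcon
      push Not at hcon
      exact c2 ⟨h4, h5, hcon.1, hcon.2⟩
    rcases this with rfl | rfl
    · exact w3
    · exact w4
  by_cases e3 : b = v
  · subst e3
    have : a = x ∨ a = y := by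
      by_contra hcon
      push Not at hcon
      exact c2 ⟨hcon.1, hcon.2, h2, h3⟩
    rcases this with rfl | rfl
    · rw [adj_comm, w1, adj_comm]
    · rw [adj_comm, w2, adj_comm]
  by_cases e4 : b = w
  · subst e4
    have : a = x ∨ a = y := by
      by_contra hcon
      push Not at hcon
      exact c2 ⟨hcon.1, hcon.2, h4, h5⟩
    rcases this with rfl | rfl
    · rw [adj_comm, w3, adj_comm]
    · rw [adj_comm, w4, adj_comm]
  exact absurd ⟨e1, e2, e3, e4⟩ c1

/-- membership in the realizations from the coordinates -/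
lemma mem_of_coords {d : Fin n → ℕ} {v w x y : Fin n} (h : Dist4 v w x y)
    {z G1 G2 : Finset (Edge n)} (hG1 : G1 ∈ realizations d) (hG2 : G2 ∈ realizations d)
    (k1 : key2 x y z = key2 x y G1) (k2 : key2 v w z = key2 v w G2)
    (hr : rowsB (Wb v w x y z) = rowsB (Wb v w x y G1))
    (hc : colsB (Wb v w x y z) = colsB (Wb v w x y G2))
    (hZ : ∀ u, u ≠ v → u ≠ w → u ≠ x → u ≠ y →
      (decide (adj G2 u x)).toNat + (decide (adj G2 u y)).toNat
        = (decide (adj G1 u x)).toNat + (decide (adj G1 u y)).toNat) :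
    z ∈ realizations d := by
  obtain ⟨h1, h2, h3, h4, h5, h6⟩ := h
  simp only [rowsB, colsB, Wb, Prod.mk.injEq] at hr hc
  rw [mem_realizations]
  intro u
  by_cases ux : u = x
  · subst ux
    have e1 := card_nb_split z h1 h2.symm h4.symm
    have e2 := card_nb_split G2 h1 h2.symm h4.symm
    rw [mem_realizations.1 hG2 u, ← k2] at e2
    rw [dec_comm z u v, dec_comm z u w] at e1
    rw [dec_comm G2 u v, dec_comm G2 u w] at e2
    omega
  by_cases uy : u = y
  · subst uy
    have e1 := card_nb_split z h1 h3.symm h5.symm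
    have e2 := card_nb_split G2 h1 h3.symm h5.symm
    rw [mem_realizations.1 hG2 u, ← k2] at e2
    rw [dec_comm z u v, dec_comm z u w] at e1
    rw [dec_comm G2 u v, dec_comm G2 u w] at e2
    omega
  have e1 := card_nb_split z h6 ux uy
  have e2 := card_nb_split G1 h6 ux uy
  rw [mem_realizations.1 hG1 u, ← k1] at e2
  by_cases uv : u = v
  · subst uv; omega
  by_cases uw : u = w
  · subst uw; omega
  have e3 := hZ u uv uw ux uy
  rw [key2_eq_iff] at k2
  have e4 : decide (adj z u x) = decide (adj G2 u x) :=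
    decide_eq_decide.2 (k2 u x uv uw h2.symm h4.symm)
  have e5 : decide (adj z u y) = decide (adj G2 u y) :=
    decide_eq_decide.2 (k2 u y uv uw h3.symm h5.symm)
  rw [e4, e5] at e1
  omega


/-! ### the switch -/

/-- one switch: remove `vx, wy`, insert `vy, wx` -/
lemma flip_facts {v w x y : Fin n} (h : Dist4 v w x y) {G : Finset (Edge n)}
    (hI : isI v w x y G) :
    key2 v w (G \ M2 v x w y ∪ M2 v y w x) = key2 v w G ∧
    key2 x y (G \ M2 v x w y ∪ M2 v y w x) = key2 x y G ∧
    Wb v w x y G = (true, false, false, true) ∧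
    Wb v w x y (G \ M2 v x w y ∪ M2 v y w x) = (false, true, true, false) := by
  obtain ⟨a1, a4, a2, a3⟩ := (isI_iff h).1 hI
  obtain ⟨h1, h2, h3, h4, h5, h6⟩ := h
  refine ⟨?_, ?_, ?_, ?_⟩
  · rw [key2_eq_iff]
    intro a b ha1 ha2 hb1 hb2
    rw [adj_sdiff_union_M2 h3 h4]
    simp [Sym2.eq_iff, ha1, ha2, hb1, hb2]
  · rw [key2_eq_iff]
    intro a b ha1 ha2 hb1 hb2
    rw [adj_sdiff_union_M2 h3 h4]
    simp [Sym2.eq_iff, ha1, ha2, hb1, hb2]
  · simp [Wb, a1, a2, a3, a4]
  · have b1 : ¬ adj (G \ M2 v x w y ∪ M2 v y w x) v x := by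
      rw [adj_sdiff_union_M2 h3 h4]
      simp [Sym2.eq_iff, h1, h2, h3, h4, h5, h6, h1.symm, h2.symm, h3.symm, h4.symm, h5.symm,
        h6.symm]
    have b2 : adj (G \ M2 v x w y ∪ M2 v y w x) v y := by
      rw [adj_sdiff_union_M2 h3 h4]
      simp
    have b3 : adj (G \ M2 v x w y ∪ M2 v y w x) w x := by
      rw [adj_sdiff_union_M2 h3 h4]
      simp
    have b4 : ¬ adj (G \ M2 v x w y ∪ M2 v y w x) w y := by
      rw [adj_sdiff_union_M2 h3 h4]
      simp [Sym2.eq_iff, h1, h2, h3, h4, h5, h6, h1.symm, h2.symm, h3.symm, h4.symm, h5.symm,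
        h6.symm]
    simp [Wb, b1, b2, b3, b4]

lemma Wb_swapR (v w x y : Fin n) (G : Finset (Edge n)) :
    Wb v w x y G = ((Wb v w y x G).2.1, (Wb v w y x G).1, (Wb v w y x G).2.2.2,
      (Wb v w y x G).2.2.1) := rfl

lemma tau_facts {v w x y : Fin n} (h : Dist4 v w x y) (G : Finset (Edge n)) :
    key2 v w (tau v w x y G) = key2 v w G ∧ key2 x y (tau v w x y G) = key2 x y G ∧
    Wb v w x y (tau v w x y G)
      = if isMB (Wb v w x y G) then flipB (Wb v w x y G) else Wb v w x y G := by
  unfold tau
  by_cases c1 : isI v w x y G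
  · rw [if_pos c1, if_pos ((isM_iff h G).1 (Or.inl c1))]
    obtain ⟨f1, f2, f3, f4⟩ := flip_facts h c1
    refine ⟨f1, f2, ?_⟩
    rw [f4, f3]; rfl
  rw [if_neg c1]
  by_cases c2 : isI v w y x G
  · rw [if_pos c2, if_pos ((isM_iff h G).1 (Or.inr c2))]
    obtain ⟨f1, f2, f3, f4⟩ := flip_facts (dist4_swapR h) c2
    refine ⟨f1, ?_, ?_⟩
    · rw [key2_comm x y, key2_comm x y]; exact f2
    · rw [Wb_swapR, f4, Wb_swapR v w x y G, f3]; rfl
  rw [if_neg c2]
  have c3 : ¬ (isMB (Wb v w x y G) = true) := by
    intro c3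
    rcases (isM_iff h G).2 c3 with h' | h'
    · exact c1 h'
    · exact c2 h'
  rw [if_neg c3]
  exact ⟨rfl, rfl, rfl⟩

lemma rows_flip (b : Blk) (hb : isMB b = true) : rowsB (flipB b) = rowsB b := by
  revert hb; revert b; decide

lemma cols_flip (b : Blk) (hb : isMB b = true) : colsB (flipB b) = colsB b := by
  revert hb; revert b; decide

lemma tau_mem {d : Fin n → ℕ} {v w x y : Fin n} (h : Dist4 v w x y) {G : Finset (Edge n)}
    (hG : G ∈ realizations d) : tau v w x y G ∈ realizations d := by
  obtain ⟨f1, f2, f3⟩ := tau_facts h G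
  refine mem_of_coords h hG hG f2 f1 ?_ ?_ (fun _ _ _ _ _ => rfl)
  · rw [f3]; split_ifs with c
    · exact rows_flip _ c
    · rfl
  · rw [f3]; split_ifs with c
    · exact cols_flip _ c
    · rfl


/-! ### the model and the final reduction -/

/-- **P8**: the realizations of `d` form a `Model` for every four distinct vertices. -/
theorem model (d : Fin n → ℕ) {v w x y : Fin n} (h : Dist4 v w x y) :
    Model (realizations d) (key2 v w) (key2 x y) (Wb v w x y) (tau v w x y) where
  cols_of := fun _ hG _ hG' hk => cols_of h hG hG' hk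
  rows_of := fun _ hG _ hG' hk => rows_of h hG hG' hk
  inj := fun _ _ _ _ k1 k2 hW => inj h k1 k2 hW
  hyb := fun _ h1 _ hG _ h2 e1 e2 b hr hc => hyb_tuple h h1 hG h2 e1 e2 b hr hc
  tau_mem := fun _ hG => tau_mem h hG
  tau_phi := fun G _ => (tau_facts h G).1
  tau_phi' := fun G _ => (tau_facts h G).2.1
  tau_W := fun G _ => (tau_facts h G).2.2

/-- the abstract Claim A for the graph model is the graph Claim A. -/
theorem claimA_of_abs (d : Fin n → ℕ)
    (H : ∀ v w x y : Fin n, Dist4 v w x y →
      ClaimAabs (realizations d) (key2 v w) (key2 x y) (Wb v w x y) (tau v w x y)) :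
    ClaimA d := by
  intro v w x y h f
  have key := H v w x y h f
  have e1 : (fun G => (key2 v w G, decide (isM v w x y G)))
      = (fun G => (key2 v w G, isMB (Wb v w x y G))) := by
    funext G; rw [decide_isM h G]
  have e2 : (fun G => (key2 x y G, decide (isM x y v w G)))
      = (fun G => (key2 x y G, isMB (Wb v w x y G))) := by
    funext G; rw [decide_isM_flip h G]
  have f1 : (realizations d).filter (fun G => isM v w x y G)
      = (realizations d).filter (fun G => isMB (Wb v w x y G) = true) :=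
    Finset.filter_congr (fun G _ => isM_iff h G)
  have f2 : (realizations d).filter (fun G => isM x y v w G)
      = (realizations d).filter (fun G => isMB (Wb v w x y G) = true) :=
    Finset.filter_congr (fun G _ => isM_flip_iff h G)
  unfold En nn p2
  rw [e1, e2, f1, f2]
  exact key

/-- Claim A for graphs from the abstract theorem `Model → ClaimAabs` (package P7). -/
theorem claimA_of_P7 (d : Fin n → ℕ)
    (P7 : ∀ v w x y : Fin n, Model (realizations d) (key2 v w) (key2 x y) (Wb v w x y)
      (tau v w x y) → ClaimAabs (realizations d) (key2 v w) (key2 x y) (Wb v w x y)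
      (tau v w x y)) : ClaimA d :=
  claimA_of_abs d (fun v w x y h => P7 v w x y (model d h))

end Crest.Agent.S0453P8
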