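import Mathlib
import Crest.Agent.S0453_A1
import Crest.Agent.S0453_A3
import Crest.Agent.S0453_P8

/-!
# Row 299 (S0453): Claim A (abstract model ⇒ `ClaimAabs`, graph model ⇒ `ClaimA d`)
-/

set_option autoImplicit false
open Finset

namespace Crest.Agent.S0453ClaimA
open Crest.SwitchChain Crest.Agent.S0453Core Crest.Agent.S0453Defs Crest.Agent.S0453A

variable {α β β' : Type*} [DecidableEq α] [DecidableEq β] [DecidableEq β']

/-- **P7**: every model satisfies the abstract Claim A. -/
theorem claimAabs_of_model {Ω : Finset α} {φ : α → β} {φ' : α → β'} {W : α → Blk} {τ : α → α}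
    (M : Model Ω φ φ' W τ) : ClaimAabs Ω φ φ' W τ := by
  intro f
  refine S0453A1.A1 Ω φ φ' (fun x => isMB (W x)) τ ?_ ?_ ?_ M.tau_mem (fun x hx => M.tau_tau hx)
    M.tau_phi M.tau_phi' (fun x hx => M.tau_D hx) ?_ f
  · intro g x hx
    exact (M.comm1 g x hx).symm
  · intro g x hx
    exact (M.comm2 g x hx).symm
  · intro g x hx
    exact M.comm3 g x hx
  · intro x hx hD
    rcases M.offD hx hD with h | h
    · left
      intro y hy
      obtain ⟨hy1, hy2⟩ := Finset.mem_filter.1 hy
      exact h y hy1 hy2
    · right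
      intro y hy
      obtain ⟨hy1, hy2⟩ := Finset.mem_filter.1 hy
      exact h y hy1 hy2

/-- **Claim A** for the realizations of every degree vector. -/
theorem claimA {n : ℕ} (d : Fin n → ℕ) : ClaimA d :=
  S0453P8.claimA_of_P7 d (fun _ _ _ _ M => claimAabs_of_model M)

end Crest.Agent.S0453ClaimA
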