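import Mathlib
import Crest.Agent.S0453_Core

/-!
# Row 299 (S0453): the three-colour ensemble (interface of the abstract K3, colouring form)

Columns `A` (column sum 1, colour = the row holding the `1`), columns `B` (column sum 2,
colour = the row holding the `0`), all other columns are frozen to colour `0`.
-/

set_option autoImplicit false
open Finset

namespace Crest.Agent.S0453K3Col
open Crest.Agent.S0453Core

/-- colour class -/
def cls {α : Type} [Fintype α] [DecidableEq α] (χ : α → Fin 3) (u : Fin 3) : Finset α :=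
  univ.filter fun x => χ x = u

/-- the colouring ensemble: `#(A, colour u) - #(B, colour u) = δ u`. -/
def Ens {α : Type} [Fintype α] [DecidableEq α] (A B : Finset α) (δ : Fin 3 → ℤ) :
    Finset (α → Fin 3) :=
  univ.filter fun χ => (∀ x, x ∉ A → x ∉ B → χ x = 0) ∧
    ∀ u, ((A.filter fun x => χ x = u).card : ℤ) - ((B.filter fun x => χ x = u).card : ℤ) = δ u

/-- K3 for the colouring ensemble, Poincare form: `Var f ≤ ∑ᵤ E Var(f | class u)`. -/
def K3Col : Prop := ∀ (α : Type) [Fintype α] [DecidableEq α] (A B : Finset α), Disjoint A B →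
  ∀ (δ : Fin 3 → ℤ) (f : (α → Fin 3) → ℝ),
    ip (Ens A B δ) (cP (Ens A B δ) (fun _ => ()) f) (cP (Ens A B δ) (fun _ => ()) f)
      ≤ ∑ u : Fin 3, ip (Ens A B δ) (cP (Ens A B δ) (fun χ => cls χ u) f)
          (cP (Ens A B δ) (fun χ => cls χ u) f)

end Crest.Agent.S0453K3Col
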