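import Mathlib

/-!
# Row 299 (S0453), package "K3 non-radial"

Uniform 3-colourings of a finite set of columns with prescribed class sizes in every species:
`Var (∑ u, g u (class u)) ≤ 2 ∑ u, Var (g u (class u))`.
Only Mathlib is used.
-/

set_option autoImplicit false
set_option linter.unusedSectionVars false
open Finset

namespace Crest.Agent.S0453K3NR

/-- `|S| · Var_S F` (zero for empty `S`). -/
noncomputable def W {β : Type*} (S : Finset β) (F : β → ℝ) : ℝ :=
  ∑ x ∈ S, F x ^ 2 - (∑ x ∈ S, F x) ^ 2 / (S.card : ℝ)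

lemma W_of_subsingleton {β : Type*} (S : Finset β) (F : β → ℝ)
    (h : ∀ a ∈ S, ∀ b ∈ S, a = b) : W S F = 0 := by
  rcases S.eq_empty_or_nonempty with rfl | ⟨a, ha⟩
  · simp [W]
  · have : S = {a} := by
      ext b
      constructor
      · intro hb; simp [h b hb a ha]
      · intro hb; simp at hb; rw [hb]; exact ha
    subst this
    simp [W]

lemma sq_mul_div (n x : ℝ) : (n * x) ^ 2 / n = n * x ^ 2 := by
  rcases eq_or_ne n 0 with h | h
  · simp [h]
  · field_simp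

lemma row_param (a b c x y z : ℝ) (h0a : a = 0 → x = 0) (h0b : b = 0 → y = 0)
    (h0c : c = 0 → z = 0) (h : c * y = b * z) :
    ∃ β γ : ℝ, x = a * (β + γ) ∧ y = b * β ∧ z = c * β := by
  have key : ∃ β : ℝ, y = b * β ∧ z = c * β := by
    by_cases hb : b = 0
    · by_cases hc : c = 0
      · exact ⟨0, by simp [h0b hb], by simp [h0c hc]⟩
      · refine ⟨z / c, by simp [h0b hb, hb], by field_simp⟩
    · refine ⟨y / b, by field_simp, ?_⟩
      field_simp
      linarith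
  obtain ⟨β, h1, h2⟩ := key
  by_cases ha : a = 0
  · exact ⟨β, 0, by simp [h0a ha, ha], h1, h2⟩
  · refine ⟨β, x / a - β, ?_, h1, h2⟩
    field_simp
    ring

lemma scalar_ineq (n0 n1 n2 s b0 b1 b2 g0 g1 g2 : ℝ) (h0 : 0 ≤ n0) (h1 : 0 ≤ n1) (h2 : 0 ≤ n2) :
    (n0 * (s + g0) ^ 2 + n1 * (s + g1) ^ 2 + n2 * (s + g2) ^ 2
        - (n0 * (s + g0) + n1 * (s + g1) + n2 * (s + g2)) ^ 2 / (n0 + n1 + n2))
      ≤ 2 * ((n0 * (b0 + g0) ^ 2 + n1 * b0 ^ 2 + n2 * b0 ^ 2
          - (n0 * (b0 + g0) + n1 * b0 + n2 * b0) ^ 2 / (n0 + n1 + n2))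
        + (n0 * b1 ^ 2 + n1 * (b1 + g1) ^ 2 + n2 * b1 ^ 2
          - (n0 * b1 + n1 * (b1 + g1) + n2 * b1) ^ 2 / (n0 + n1 + n2))
        + (n0 * b2 ^ 2 + n1 * b2 ^ 2 + n2 * (b2 + g2) ^ 2
          - (n0 * b2 + n1 * b2 + n2 * (b2 + g2)) ^ 2 / (n0 + n1 + n2))) := by
  rcases eq_or_lt_of_le (add_nonneg (add_nonneg h0 h1) h2) with hN | hN
  · have e0 : n0 = 0 := by linarith
    have e1 : n1 = 0 := by linarith
    have e2 : n2 = 0 := by linarith
    simp [e0, e1, e2]
  · have hN' : (n0 + n1 + n2) ≠ 0 := ne_of_gt hN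
    have L : (n0 * (s + g0) ^ 2 + n1 * (s + g1) ^ 2 + n2 * (s + g2) ^ 2
        - (n0 * (s + g0) + n1 * (s + g1) + n2 * (s + g2)) ^ 2 / (n0 + n1 + n2))
        = (n0 * n1 * (g0 - g1) ^ 2 + n0 * n2 * (g0 - g2) ^ 2 + n1 * n2 * (g1 - g2) ^ 2)
          / (n0 + n1 + n2) := by
      field_simp
      ring
    have R : 2 * ((n0 * (b0 + g0) ^ 2 + n1 * b0 ^ 2 + n2 * b0 ^ 2
          - (n0 * (b0 + g0) + n1 * b0 + n2 * b0) ^ 2 / (n0 + n1 + n2))
        + (n0 * b1 ^ 2 + n1 * (b1 + g1) ^ 2 + n2 * b1 ^ 2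
          - (n0 * b1 + n1 * (b1 + g1) + n2 * b1) ^ 2 / (n0 + n1 + n2))
        + (n0 * b2 ^ 2 + n1 * b2 ^ 2 + n2 * (b2 + g2) ^ 2
          - (n0 * b2 + n1 * b2 + n2 * (b2 + g2)) ^ 2 / (n0 + n1 + n2)))
        = (2 * (n0 * (n1 + n2) * g0 ^ 2 + n1 * (n0 + n2) * g1 ^ 2 + n2 * (n0 + n1) * g2 ^ 2))
          / (n0 + n1 + n2) := by
      field_simp
      ring
    rw [L, R]
    apply div_le_div_of_nonneg_right _ hN.le
    nlinarith [mul_nonneg (mul_nonneg h0 h1) (sq_nonneg (g0 + g1)),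
      mul_nonneg (mul_nonneg h0 h2) (sq_nonneg (g0 + g2)),
      mul_nonneg (mul_nonneg h1 h2) (sq_nonneg (g1 + g2))]

lemma three_point (n : Fin 3 → ℝ) (hn : ∀ c, 0 ≤ n c) (A : Fin 3 → Fin 3 → ℝ)
    (h0 : ∀ u c, n c = 0 → A u c = 0)
    (h1 : ∀ u c c', c ≠ u → c' ≠ u → n c' * A u c = n c * A u c') :
    (∑ c, (∑ u, A u c) ^ 2 / n c - (∑ c, ∑ u, A u c) ^ 2 / ∑ c, n c)
      ≤ 2 * ∑ u, (∑ c, (A u c) ^ 2 / n c - (∑ c, A u c) ^ 2 / ∑ c, n c) := by
  obtain ⟨b0, g0, e00, e01, e02⟩ := row_param (n 0) (n 1) (n 2) (A 0 0) (A 0 1) (A 0 2)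
    (h0 0 0) (h0 0 1) (h0 0 2) (h1 0 1 2 (by decide) (by decide))
  obtain ⟨b1, g1, e11, e10, e12⟩ := row_param (n 1) (n 0) (n 2) (A 1 1) (A 1 0) (A 1 2)
    (h0 1 1) (h0 1 0) (h0 1 2) (h1 1 0 2 (by decide) (by decide))
  obtain ⟨b2, g2, e22, e20, e21⟩ := row_param (n 2) (n 0) (n 1) (A 2 2) (A 2 0) (A 2 1)
    (h0 2 2) (h0 2 0) (h0 2 1) (h1 2 0 1 (by decide) (by decide))
  simp only [Fin.sum_univ_three]
  rw [e00, e01, e02, e10, e11, e12, e20, e21, e22]
  have c0 : n 0 * (b0 + g0) + n 0 * b1 + n 0 * b2 = n 0 * ((b0 + b1 + b2) + g0) := by ring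
  have c1 : n 1 * b0 + n 1 * (b1 + g1) + n 1 * b2 = n 1 * ((b0 + b1 + b2) + g1) := by ring
  have c2 : n 2 * b0 + n 2 * b1 + n 2 * (b2 + g2) = n 2 * ((b0 + b1 + b2) + g2) := by ring
  rw [c0, c1, c2]
  simp only [sq_mul_div]
  exact scalar_ineq (n 0) (n 1) (n 2) (b0 + b1 + b2) b0 b1 b2 g0 g1 g2 (hn 0) (hn 1) (hn 2)


lemma W_split {β : Type*} [DecidableEq β] (S : Finset β) (k : β → Fin 3) (F : β → ℝ) :
    W S F = ∑ c, W (S.filter fun x => k x = c) F +
      (∑ c, (∑ x ∈ S.filter fun x => k x = c, F x) ^ 2 / ((S.filter fun x => k x = c).card : ℝ)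
        - (∑ c, ∑ x ∈ S.filter fun x => k x = c, F x) ^ 2
            / ∑ c, ((S.filter fun x => k x = c).card : ℝ)) := by
  have e1 : ∑ x ∈ S, F x ^ 2 = ∑ c, ∑ x ∈ S.filter fun x => k x = c, F x ^ 2 :=
    (Finset.sum_fiberwise S k fun x => F x ^ 2).symm
  have e2 : ∑ x ∈ S, F x = ∑ c, ∑ x ∈ S.filter fun x => k x = c, F x :=
    (Finset.sum_fiberwise S k F).symm
  have e3 : (S.card : ℝ) = ∑ c, ((S.filter fun x => k x = c).card : ℝ) := by
    have := Finset.card_eq_sum_card_fiberwise (s := S) (t := (univ : Finset (Fin 3))) (f := k)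
      (fun x _ => Finset.mem_coe.2 (Finset.mem_univ _))
    rw [this]
    push_cast
    rfl
  unfold W
  rw [e1, e2, e3, Finset.sum_sub_distrib]
  ring

section colourings

variable {α κ : Type*} [Fintype α] [DecidableEq α] [Fintype κ] [DecidableEq κ]
variable (s : α → κ) (cnt : Fin 3 → κ → ℕ)

/-- colourings that agree with `χ₀` outside the free set `J` and have the prescribed
class sizes in every species. -/
def Col (J : Finset α) (χ₀ : α → Fin 3) : Finset (α → Fin 3) :=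
  univ.filter fun χ => (∀ x, x ∉ J → χ x = χ₀ x) ∧
    ∀ u t, (univ.filter fun x => χ x = u ∧ s x = t).card = cnt u t

/-- colour class. -/
def cls (χ : α → Fin 3) (u : Fin 3) : Finset α := univ.filter fun x => χ x = u

lemma mem_Col {J : Finset α} {χ₀ χ : α → Fin 3} :
    χ ∈ Col s cnt J χ₀ ↔ (∀ x, x ∉ J → χ x = χ₀ x) ∧
      ∀ u t, (univ.filter fun x => χ x = u ∧ s x = t).card = cnt u t := by
  simp [Col]

lemma Col_insert_filter {J : Finset α} {j : α} (hj : j ∉ J) (χ₀ : α → Fin 3) (c : Fin 3) :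
    (Col s cnt (insert j J) χ₀).filter (fun χ => χ j = c)
      = Col s cnt J (Function.update χ₀ j c) := by
  ext χ
  simp only [Finset.mem_filter, mem_Col]
  constructor
  · rintro ⟨⟨h1, h2⟩, h3⟩
    refine ⟨fun x hx => ?_, h2⟩
    by_cases hxj : x = j
    · subst hxj; simp [h3]
    · rw [Function.update_of_ne hxj]
      exact h1 x (by simp [hxj, hx])
  · rintro ⟨h1, h2⟩
    refine ⟨⟨fun x hx => ?_, h2⟩, ?_⟩
    · have hxj : x ≠ j := fun h => hx (by simp [h])
      have hxJ : x ∉ J := fun h => hx (by simp [h])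
      rw [h1 x hxJ, Function.update_of_ne hxj]
    · rw [h1 j hj]; simp


variable {s cnt}

lemma s_swap {i j : α} (hs : s i = s j) (x : α) : s (Equiv.swap i j x) = s x := by
  rw [Equiv.swap_apply_def]
  split_ifs with h1 h2
  · rw [h1, hs]
  · rw [h2, hs]
  · rfl

lemma card_filter_swap {i j : α} (hs : s i = s j) (χ : α → Fin 3) (u : Fin 3) (t : κ) :
    (univ.filter fun x => (χ ∘ Equiv.swap i j) x = u ∧ s x = t).card
      = (univ.filter fun x => χ x = u ∧ s x = t).card := by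
  apply Finset.card_bij (fun x _ => Equiv.swap i j x)
  · intro x hx
    simp only [Finset.mem_filter, Finset.mem_univ, true_and, Function.comp] at hx ⊢
    exact ⟨hx.1, by rw [s_swap hs]; exact hx.2⟩
  · intro x _ y _ h
    exact (Equiv.swap i j).injective h
  · intro y hy
    simp only [Finset.mem_filter, Finset.mem_univ, true_and] at hy
    refine ⟨Equiv.swap i j y, ?_, by simp⟩
    simp only [Finset.mem_filter, Finset.mem_univ, true_and, Function.comp, Equiv.swap_apply_self]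
    exact ⟨hy.1, by rw [s_swap hs]; exact hy.2⟩

lemma swap_mem {J : Finset α} {j : α} (hj : j ∉ J) {χ₀ χ : α → Fin 3} {c c' : Fin 3} {i : α}
    (hχ : χ ∈ Col s cnt J (Function.update χ₀ j c)) (hi : i ∈ J) (hs : s i = s j)
    (hic : χ i = c') :
    χ ∘ Equiv.swap i j ∈ Col s cnt J (Function.update χ₀ j c') ∧ (χ ∘ Equiv.swap i j) i = c := by
  rw [mem_Col] at hχ ⊢
  obtain ⟨h1, h2⟩ := hχ
  have hχj : χ j = c := by rw [h1 j hj]; simp
  refine ⟨⟨fun x hx => ?_, fun u t => ?_⟩, ?_⟩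
  · have hxi : x ≠ i := fun h => hx (h ▸ hi)
    by_cases hxj : x = j
    · subst hxj
      simp [hic]
    · simp only [Function.comp]
      rw [Equiv.swap_apply_of_ne_of_ne hxi hxj, h1 x hx, Function.update_of_ne hxj,
        Function.update_of_ne hxj]
  · rw [card_filter_swap hs, h2]
  · simp [hχj]

lemma cls_swap {j : α} {χ : α → Fin 3} {c c' u : Fin 3} {i : α}
    (hχj : χ j = c) (hic : χ i = c') (huc : u ≠ c) (huc' : u ≠ c') :
    cls (χ ∘ Equiv.swap i j) u = cls χ u := by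
  ext x
  simp only [cls, Finset.mem_filter, Finset.mem_univ, true_and, Function.comp]
  by_cases hxi : x = i
  · subst hxi
    simp only [Equiv.swap_apply_left]
    rw [hχj, hic]
    exact ⟨fun h => absurd h.symm huc, fun h => absurd h.symm huc'⟩
  · by_cases hxj : x = j
    · subst hxj
      simp only [Equiv.swap_apply_right]
      rw [hχj, hic]
      exact ⟨fun h => absurd h.symm huc', fun h => absurd h.symm huc⟩
    · rw [Equiv.swap_apply_of_ne_of_ne hxi hxj]

lemma Col_apply_j {J : Finset α} {j : α} (hj : j ∉ J) {χ₀ χ : α → Fin 3} {c : Fin 3}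
    (hχ : χ ∈ Col s cnt J (Function.update χ₀ j c)) : χ j = c := by
  rw [mem_Col] at hχ
  rw [hχ.1 j hj]; simp

lemma swap_sum {J : Finset α} {j : α} (hj : j ∉ J) (χ₀ : α → Fin 3) {c c' u : Fin 3}
    (huc : u ≠ c) (huc' : u ≠ c') (h : Finset α → ℝ) :
    ∑ χ ∈ Col s cnt J (Function.update χ₀ j c),
        ∑ _i ∈ J.filter (fun i => s i = s j ∧ χ i = c'), h (cls χ u)
      = ∑ χ ∈ Col s cnt J (Function.update χ₀ j c'),
        ∑ _i ∈ J.filter (fun i => s i = s j ∧ χ i = c), h (cls χ u) := by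
  rw [Finset.sum_sigma', Finset.sum_sigma']
  refine Finset.sum_bij' (fun p _ => ⟨p.1 ∘ Equiv.swap p.2 j, p.2⟩)
    (fun p _ => ⟨p.1 ∘ Equiv.swap p.2 j, p.2⟩) ?_ ?_ ?_ ?_ ?_
  · rintro ⟨χ, i⟩ hp
    simp only [Finset.mem_sigma, Finset.mem_filter] at hp ⊢
    obtain ⟨hχ, hi, hs, hic⟩ := hp
    obtain ⟨m1, m2⟩ := swap_mem hj hχ hi hs hic
    exact ⟨m1, hi, hs, m2⟩
  · rintro ⟨χ, i⟩ hp
    simp only [Finset.mem_sigma, Finset.mem_filter] at hp ⊢
    obtain ⟨hχ, hi, hs, hic⟩ := hp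
    obtain ⟨m1, m2⟩ := swap_mem hj hχ hi hs hic
    exact ⟨m1, hi, hs, m2⟩
  · rintro ⟨χ, i⟩ _
    simp only [Sigma.mk.injEq, heq_eq_eq, and_true]
    funext x
    simp
  · rintro ⟨χ, i⟩ _
    simp only [Sigma.mk.injEq, heq_eq_eq, and_true]
    funext x
    simp
  · rintro ⟨χ, i⟩ hp
    simp only [Finset.mem_sigma, Finset.mem_filter] at hp
    obtain ⟨hχ, hi, hs, hic⟩ := hp
    simp only
    rw [cls_swap (Col_apply_j hj hχ) hic huc huc']


/-- number of frozen columns (outside `insert j J`) of colour `e` in the species of `j`. -/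
def frz (s : α → κ) (J : Finset α) (j : α) (χ₀ : α → Fin 3) (e : Fin 3) : ℕ :=
  (univ.filter fun x => x ∉ insert j J ∧ χ₀ x = e ∧ s x = s j).card

lemma deg_const {J : Finset α} {j : α} (hj : j ∉ J) {χ₀ χ : α → Fin 3} {c e : Fin 3}
    (hχ : χ ∈ Col s cnt J (Function.update χ₀ j c)) (hec : e ≠ c) :
    (J.filter fun i => s i = s j ∧ χ i = e).card + frz s J j χ₀ e = cnt e (s j) := by
  have hχj := Col_apply_j hj hχ
  rw [mem_Col] at hχ
  obtain ⟨h1, h2⟩ := hχ
  rw [← h2 e (s j), frz, ← Finset.card_union_of_disjoint]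
  · congr 1
    ext x
    simp only [Finset.mem_union, Finset.mem_filter, Finset.mem_univ, true_and, Finset.mem_insert,
      not_or]
    constructor
    · rintro (⟨_, h3, h4⟩ | ⟨⟨h3, h4⟩, h5, h6⟩)
      · exact ⟨h4, h3⟩
      · rw [h1 x h4, Function.update_of_ne h3]
        exact ⟨h5, h6⟩
    · rintro ⟨h3, h4⟩
      by_cases hxJ : x ∈ J
      · exact Or.inl ⟨hxJ, h4, h3⟩
      · have hxj : x ≠ j := by
          rintro rfl
          exact hec (h3 ▸ hχj)
        refine Or.inr ⟨⟨hxj, hxJ⟩, ?_, h4⟩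
        rw [← h3, h1 x hxJ, Function.update_of_ne hxj]
  · rw [Finset.disjoint_left]
    intro x hx hx'
    simp only [Finset.mem_filter, Finset.mem_univ, true_and, Finset.mem_insert, not_or] at hx hx'
    exact hx'.1.2 hx.1

lemma frz_lt {J : Finset α} {j : α} (hj : j ∉ J) {χ₀ χ : α → Fin 3} {c : Fin 3}
    (hχ : χ ∈ Col s cnt J (Function.update χ₀ j c)) :
    frz s J j χ₀ c < cnt c (s j) := by
  have hχj := Col_apply_j hj hχ
  rw [mem_Col] at hχ
  obtain ⟨h1, h2⟩ := hχ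
  rw [← h2 c (s j), frz]
  apply Finset.card_lt_card
  rw [Finset.ssubset_iff_of_subset]
  · refine ⟨j, by simp [hχj], by simp⟩
  · intro x hx
    simp only [Finset.mem_filter, Finset.mem_univ, true_and, Finset.mem_insert, not_or] at hx ⊢
    obtain ⟨⟨h3, h4⟩, h5, h6⟩ := hx
    rw [h1 x h4, Function.update_of_ne h3]
    exact ⟨h5, h6⟩

lemma cross {J : Finset α} {j : α} (hj : j ∉ J) (χ₀ : α → Fin 3) {c c' u : Fin 3}
    (huc : u ≠ c) (huc' : u ≠ c') (h : Finset α → ℝ) :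
    ((Col s cnt J (Function.update χ₀ j c')).card : ℝ)
        * ∑ χ ∈ Col s cnt J (Function.update χ₀ j c), h (cls χ u)
      = ((Col s cnt J (Function.update χ₀ j c)).card : ℝ)
        * ∑ χ ∈ Col s cnt J (Function.update χ₀ j c'), h (cls χ u) := by
  by_cases hcc : c = c'
  · subst hcc; rfl
  rcases (Col s cnt J (Function.update χ₀ j c')).eq_empty_or_nonempty with he | ⟨χ', hχ'⟩
  · simp [he]
  -- general double counting identity
  have key : ∀ h : Finset α → ℝ,
      ((cnt c' (s j) - frz s J j χ₀ c' : ℕ) : ℝ)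
          * ∑ χ ∈ Col s cnt J (Function.update χ₀ j c), h (cls χ u)
        = ((cnt c (s j) - frz s J j χ₀ c : ℕ) : ℝ)
          * ∑ χ ∈ Col s cnt J (Function.update χ₀ j c'), h (cls χ u) := by
    intro h
    have := swap_sum (s := s) (cnt := cnt) hj χ₀ huc huc' h
    simp only [Finset.sum_const, nsmul_eq_mul] at this
    have e1 : ∑ χ ∈ Col s cnt J (Function.update χ₀ j c),
          ((cnt c' (s j) - frz s J j χ₀ c' : ℕ) : ℝ) * h (cls χ u)
        = ∑ χ ∈ Col s cnt J (Function.update χ₀ j c),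
          ((J.filter fun i => s i = s j ∧ χ i = c').card : ℝ) * h (cls χ u) := by
      refine Finset.sum_congr rfl fun χ hχ => ?_
      have := deg_const hj hχ (Ne.symm hcc)
      congr 2
      omega
    have e2 : ∑ χ ∈ Col s cnt J (Function.update χ₀ j c'),
          ((cnt c (s j) - frz s J j χ₀ c : ℕ) : ℝ) * h (cls χ u)
        = ∑ χ ∈ Col s cnt J (Function.update χ₀ j c'),
          ((J.filter fun i => s i = s j ∧ χ i = c).card : ℝ) * h (cls χ u) := by
      refine Finset.sum_congr rfl fun χ hχ => ?_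
      have := deg_const hj hχ hcc
      congr 2
      omega
    rw [Finset.mul_sum, Finset.mul_sum, e1, e2]
    exact this
  have hpos : (0 : ℝ) < ((cnt c' (s j) - frz s J j χ₀ c' : ℕ) : ℝ) := by
    have := frz_lt hj hχ'
    exact_mod_cast Nat.sub_pos_of_lt this
  have k1 := key h
  have k2 := key (fun _ => 1)
  simp only [Finset.sum_const, nsmul_eq_mul, mul_one] at k2
  apply mul_left_cancel₀ (ne_of_gt hpos)
  calc ((cnt c' (s j) - frz s J j χ₀ c' : ℕ) : ℝ)
        * (((Col s cnt J (Function.update χ₀ j c')).card : ℝ)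
          * ∑ χ ∈ Col s cnt J (Function.update χ₀ j c), h (cls χ u))
      = ((Col s cnt J (Function.update χ₀ j c')).card : ℝ)
        * (((cnt c' (s j) - frz s J j χ₀ c' : ℕ) : ℝ)
          * ∑ χ ∈ Col s cnt J (Function.update χ₀ j c), h (cls χ u)) := by ring
    _ = (((cnt c (s j) - frz s J j χ₀ c : ℕ) : ℝ)
          * ((Col s cnt J (Function.update χ₀ j c')).card : ℝ))
        * ∑ χ ∈ Col s cnt J (Function.update χ₀ j c'), h (cls χ u) := by rw [k1]; ring
    _ = ((cnt c' (s j) - frz s J j χ₀ c' : ℕ) : ℝ)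
        * (((Col s cnt J (Function.update χ₀ j c)).card : ℝ)
          * ∑ χ ∈ Col s cnt J (Function.update χ₀ j c'), h (cls χ u)) := by rw [← k2]; ring

/-- **K3, non-radial part** (dual form). -/
theorem nonradial (J : Finset α) (χ₀ : α → Fin 3) (g : Fin 3 → Finset α → ℝ) :
    W (Col s cnt J χ₀) (fun χ => ∑ u, g u (cls χ u))
      ≤ 2 * ∑ u, W (Col s cnt J χ₀) (fun χ => g u (cls χ u)) := by
  induction J using Finset.induction_on generalizing χ₀ with
  | empty =>
    have hsub : ∀ a ∈ Col s cnt ∅ χ₀, ∀ b ∈ Col s cnt ∅ χ₀, a = b := by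
      intro a ha b hb
      rw [mem_Col] at ha hb
      funext x
      rw [ha.1 x (by simp), hb.1 x (by simp)]
    rw [W_of_subsingleton _ _ hsub]
    simp [W_of_subsingleton _ _ hsub]
  | insert j J hj ih =>
    rw [W_split (Col s cnt (insert j J) χ₀) (fun χ => χ j)]
    have hu : ∀ u, W (Col s cnt (insert j J) χ₀) (fun χ => g u (cls χ u)) = _ :=
      fun u => W_split (Col s cnt (insert j J) χ₀) (fun χ => χ j) (fun χ => g u (cls χ u))
    simp only [hu, Col_insert_filter s cnt hj]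
    rw [Finset.sum_add_distrib, mul_add]
    apply add_le_add
    · rw [Finset.sum_comm, Finset.mul_sum]
      exact Finset.sum_le_sum fun c _ => ih (Function.update χ₀ j c)
    · have := three_point (fun c => ((Col s cnt J (Function.update χ₀ j c)).card : ℝ))
        (fun c => Nat.cast_nonneg _)
        (fun u c => ∑ χ ∈ Col s cnt J (Function.update χ₀ j c), g u (cls χ u))
        (fun u c hc => by
          have : Col s cnt J (Function.update χ₀ j c) = ∅ := by
            rw [← Finset.card_eq_zero]; exact_mod_cast hc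
          simp [this])
        (fun u c c' hc hc' => cross hj χ₀ (Ne.symm hc) (Ne.symm hc') (g u))
      have hc : ∀ c, ∑ χ ∈ Col s cnt J (Function.update χ₀ j c), ∑ u, g u (cls χ u)
          = ∑ u, ∑ χ ∈ Col s cnt J (Function.update χ₀ j c), g u (cls χ u) :=
        fun c => Finset.sum_comm
      simp only [hc]
      exact this

end colourings

end Crest.Agent.S0453K3NR
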