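import Mathlib
import Crest.Agent.S0453_CE
import Crest.Agent.S0453_K3NR

/-!
# Row 299 (S0453), K3: dual form ⇒ primal form, and the primal form of the non-radial part
-/

set_option autoImplicit false
set_option linter.unusedSectionVars false
open Finset

namespace Crest.Agent.S0453K3NRp
open Crest.Agent.S0453CE Crest.Agent.S0453K3NR

variable {β : Type*}

lemma W_eq (S : Finset β) (F : β → ℝ) :
    W S F = ∑ x ∈ S, (F x - (∑ y ∈ S, F y) / (S.card : ℝ)) ^ 2 := by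
  rcases S.eq_empty_or_nonempty with rfl | hS
  · simp [W]
  have hN : (S.card : ℝ) ≠ 0 := by exact_mod_cast (Finset.card_pos.mpr hS).ne'
  have : ∀ x ∈ S, (F x - (∑ y ∈ S, F y) / (S.card : ℝ)) ^ 2
      = F x ^ 2 - 2 * ((∑ y ∈ S, F y) / (S.card : ℝ)) * F x
        + ((∑ y ∈ S, F y) / (S.card : ℝ)) ^ 2 := by
    intro x _; ring
  rw [Finset.sum_congr rfl this, Finset.sum_add_distrib, Finset.sum_sub_distrib,
    ← Finset.mul_sum, Finset.sum_const, nsmul_eq_mul]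
  unfold W
  field_simp
  ring

lemma W_nonneg (S : Finset β) (F : β → ℝ) : 0 ≤ W S F := by
  rw [W_eq]; exact Finset.sum_nonneg fun _ _ => sq_nonneg _

lemma cov_eq (S : Finset β) (F G : β → ℝ) :
    ∑ x ∈ S, F x * G x - (∑ x ∈ S, F x) * (∑ x ∈ S, G x) / (S.card : ℝ)
      = ∑ x ∈ S, (F x - (∑ y ∈ S, F y) / (S.card : ℝ)) * (G x - (∑ y ∈ S, G y) / (S.card : ℝ)) := by
  rcases S.eq_empty_or_nonempty with rfl | hS
  · simp
  have hN : (S.card : ℝ) ≠ 0 := by exact_mod_cast (Finset.card_pos.mpr hS).ne'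
  have : ∀ x ∈ S, (F x - (∑ y ∈ S, F y) / (S.card : ℝ)) * (G x - (∑ y ∈ S, G y) / (S.card : ℝ))
      = F x * G x - ((∑ y ∈ S, G y) / (S.card : ℝ)) * F x - ((∑ y ∈ S, F y) / (S.card : ℝ)) * G x
        + ((∑ y ∈ S, F y) / (S.card : ℝ)) * ((∑ y ∈ S, G y) / (S.card : ℝ)) := by
    intro x _; ring
  rw [Finset.sum_congr rfl this, Finset.sum_add_distrib, Finset.sum_sub_distrib,
    Finset.sum_sub_distrib, ← Finset.mul_sum, ← Finset.mul_sum, Finset.sum_const, nsmul_eq_mul]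
  field_simp
  ring

/-- Cauchy-Schwarz for covariances. -/
lemma cov_sq_le (S : Finset β) (F G : β → ℝ) :
    (∑ x ∈ S, F x * G x - (∑ x ∈ S, F x) * (∑ x ∈ S, G x) / (S.card : ℝ)) ^ 2
      ≤ W S F * W S G := by
  rw [cov_eq, W_eq, W_eq]
  exact Finset.sum_mul_sq_le_sq_mul_sq _ _ _

/-- K3 in `ce` form: `∑ᵤ ‖Eᵤ F‖² ≤ 2 ‖F‖² + ‖E F‖²` (equivalently `Var F ≤ ∑ᵤ E Var(F | kᵤ)`). -/
def K3prop {κ : Type*} [DecidableEq κ] (X : Finset β) (k : Fin 3 → β → κ) : Prop :=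
  ∀ F : β → ℝ, ∑ u, ∑ x ∈ X, ce X (k u) F x ^ 2
    ≤ 2 * ∑ x ∈ X, F x ^ 2 + ∑ x ∈ X, ce X (fun _ => ()) F x ^ 2

/-- dual form for the three projections of `F` ⇒ primal form for `F`. -/
theorem primal_of_dual {κ : Type*} [DecidableEq κ] (X : Finset β) (k : Fin 3 → β → κ) (F : β → ℝ)
    (h : W X (fun x => ∑ u, ce X (k u) F x) ≤ 2 * ∑ u, W X (ce X (k u) F)) :
    ∑ u, ∑ x ∈ X, ce X (k u) F x ^ 2
      ≤ 2 * ∑ x ∈ X, F x ^ 2 + ∑ x ∈ X, ce X (fun _ => ()) F x ^ 2 := by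
  rw [sum_ce_unit_sq]
  set T : ℝ := (∑ y ∈ X, F y) ^ 2 / (X.card : ℝ) with hT
  set A : ℝ := ∑ u, ∑ x ∈ X, ce X (k u) F x ^ 2 - 3 * T with hA
  have hW : ∑ u, W X (ce X (k u) F) = A := by
    unfold W
    simp only [sum_ce]
    rw [Finset.sum_sub_distrib]
    simp [hA, hT]
  have hcov : ∑ x ∈ X, F x * (∑ u, ce X (k u) F x)
      - (∑ x ∈ X, F x) * (∑ x ∈ X, ∑ u, ce X (k u) F x) / (X.card : ℝ) = A := by
    have e1 : ∑ x ∈ X, F x * (∑ u, ce X (k u) F x) = ∑ u, ∑ x ∈ X, ce X (k u) F x ^ 2 := by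
      simp only [Finset.mul_sum, sum_ce_sq]
      exact Finset.sum_comm
    have e2 : ∑ x ∈ X, ∑ u, ce X (k u) F x = 3 * ∑ x ∈ X, F x := by
      rw [Finset.sum_comm]
      simp [sum_ce]
    rw [e1, e2, hA, hT]
    ring
  have hcs := cov_sq_le X F (fun x => ∑ u, ce X (k u) F x)
  rw [hcov] at hcs
  rw [hW] at h
  have hWF : W X F = ∑ x ∈ X, F x ^ 2 - T := rfl
  have hWF0 := W_nonneg X F
  have hA2 : A ≤ 2 * W X F := by
    by_contra hcon
    rw [not_le] at hcon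
    have hApos : 0 < A := by linarith
    have : A ^ 2 ≤ W X F * (2 * A) := hcs.trans (mul_le_mul_of_nonneg_left h hWF0)
    nlinarith
  linarith

section colourings
variable {α κ : Type*} [Fintype α] [DecidableEq α] [Fintype κ] [DecidableEq κ]
variable (s : α → κ) (cnt : Fin 3 → κ → ℕ)

/-- **K3, non-radial part, primal form.** -/
theorem K3prop_Col (J : Finset α) (χ₀ : α → Fin 3) :
    K3prop (Col s cnt J χ₀) (fun u χ => cls χ u) := by
  intro F
  apply primal_of_dual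
  exact nonradial (s := s) (cnt := cnt) J χ₀
    (fun u c => (∑ y ∈ fib (Col s cnt J χ₀) (fun χ => cls χ u) c, F y)
      / ((fib (Col s cnt J χ₀) (fun χ => cls χ u) c).card : ℝ))

end colourings

end Crest.Agent.S0453K3NRp
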