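import Mathlib
import Crest.Agent.S0453_Core
import Crest.Agent.S0453_CE
import Crest.Agent.S0453_K3NR
import Crest.Agent.S0453_K3NRp
import Crest.Agent.S0453_K3ColDefs

/-!
# Row 299 (S0453), K3-alpha: the glue

`K3` for the colouring ensemble `Ens A B δ` from
* the non-radial part (fixed class sizes, `S0453_K3NR`),
* conditional independence of `cls u` and the radial vector given its `u`-th entry,
* the radial inequality (hypothesis `RadialProp`).
-/

set_option autoImplicit false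
set_option linter.unusedSectionVars false
open Finset

namespace Crest.Agent.S0453K3Glue
open Crest.Agent.S0453CE Crest.Agent.S0453K3NRp

section abstract
variable {β κ1 κB κ0 : Type*} [DecidableEq κ1] [DecidableEq κB] [DecidableEq κ0]

/-- fibrewise K3 sums up. -/
lemma sum_fibres_K3 (X : Finset β) (k1 : Fin 3 → β → κ1) (kB : β → κB)
    (hNR : ∀ x ∈ X, K3prop (X.filter (fun y => kB y = kB x)) k1) (F : β → ℝ) :
    ∑ u, ∑ x ∈ X, ce X (fun y => (k1 u y, kB y)) F x ^ 2
      ≤ 2 * ∑ x ∈ X, F x ^ 2 + ∑ x ∈ X, ce X kB F x ^ 2 := by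
  have hmaps : ∀ x ∈ X, kB x ∈ X.image kB := fun x hx => Finset.mem_image_of_mem _ hx
  have dec : ∀ G : β → ℝ, ∑ x ∈ X, G x
      = ∑ b ∈ X.image kB, ∑ x ∈ X.filter (fun y => kB y = b), G x :=
    fun G => (Finset.sum_fiberwise_of_maps_to hmaps G).symm
  simp only [dec]
  rw [Finset.sum_comm, Finset.mul_sum, ← Finset.sum_add_distrib]
  apply Finset.sum_le_sum
  intro b hb
  obtain ⟨x₀, hx₀, rfl⟩ := Finset.mem_image.mp hb
  have h := hNR x₀ hx₀ F
  have e1 : ∀ u, ∑ x ∈ X.filter (fun y => kB y = kB x₀), ce X (fun y => (k1 u y, kB y)) F x ^ 2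
      = ∑ x ∈ X.filter (fun y => kB y = kB x₀),
          ce (X.filter (fun y => kB y = kB x₀)) (k1 u) F x ^ 2 := by
    intro u
    apply Finset.sum_congr rfl
    intro x hx
    have hx' : kB x = kB x₀ := (Finset.mem_filter.mp hx).2
    rw [← ce_filter, hx']
  have e2 : ∑ x ∈ X.filter (fun y => kB y = kB x₀), ce X kB F x ^ 2
      = ∑ x ∈ X.filter (fun y => kB y = kB x₀),
          ce (X.filter (fun y => kB y = kB x₀)) (fun _ => ()) F x ^ 2 := by
    apply Finset.sum_congr rfl
    intro x hx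
    have hx' : kB x = kB x₀ := (Finset.mem_filter.mp hx).2
    rw [ce_unit]
    unfold ce fib
    rw [hx']
  simp only [e1, e2]
  exact h

/-- **Abstract glue.** -/
theorem glue (X : Finset β) (k1 : Fin 3 → β → κ1) (kB : β → κB) (k0 : Fin 3 → β → κ0)
    (h01 : ∀ u, Coarser X (k0 u) (k1 u)) (h0B : ∀ u, Coarser X (k0 u) kB)
    (hNR : ∀ x ∈ X, K3prop (X.filter (fun y => kB y = kB x)) k1)
    (hCI : ∀ u F, Meas X (k0 u) (ce X kB (ce X (k1 u) F)))
    (hRad : ∀ F, ∑ u, ∑ x ∈ X, ce X (k0 u) (ce X kB F) x ^ 2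
      ≤ 2 * ∑ x ∈ X, ce X kB F x ^ 2 + ∑ x ∈ X, ce X (fun _ => ()) (ce X kB F) x ^ 2) :
    K3prop X k1 := by
  intro F
  have s1 := sum_fibres_K3 X k1 kB hNR F
  have s2 : ∀ u, ∑ x ∈ X, ce X kB F x ^ 2 - ∑ x ∈ X, ce X (k0 u) F x ^ 2
      ≤ ∑ x ∈ X, ce X (fun y => (k1 u y, kB y)) F x ^ 2 - ∑ x ∈ X, ce X (k1 u) F x ^ 2 := by
    intro u
    apply commuting_square (k0 := k0 u) (k1 := k1 u) (k2 := kB) (k3 := fun y => (k1 u y, kB y))
    · intro x _ y _ h; exact (Prod.mk.inj h).1
    · intro x _ y _ h; exact (Prod.mk.inj h).2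
    · exact h0B u
    · intro x hx
      rw [← ce_of_meas (hCI u F) hx, ce_ce_of_coarser (h0B u), ce_ce_of_coarser (h01 u)]
  have s3 := hRad F
  have e3 : ∀ u, ∑ x ∈ X, ce X (k0 u) (ce X kB F) x ^ 2 = ∑ x ∈ X, ce X (k0 u) F x ^ 2 := by
    intro u
    apply Finset.sum_congr rfl
    intro x _
    rw [ce_ce_of_coarser (h0B u)]
  have e4 : ∑ x ∈ X, ce X (fun _ => ()) (ce X kB F) x ^ 2 = ∑ x ∈ X, ce X (fun _ => ()) F x ^ 2 := by
    apply Finset.sum_congr rfl
    intro x _
    rw [ce_ce_of_coarser (k0 := fun _ => ()) (k := kB) (fun _ _ _ _ _ => rfl)]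
  simp only [e3, e4] at s3
  have s2' := Finset.sum_le_sum (fun u (_ : u ∈ (univ : Finset (Fin 3))) => s2 u)
  simp only [Finset.sum_sub_distrib, Finset.sum_const, Finset.card_univ, Fintype.card_fin,
    nsmul_eq_mul] at s2'
  push_cast at s2'
  linarith

end abstract

section uniform
open Crest.Agent.S0453K3NR
variable {α κ : Type*} [Fintype α] [DecidableEq α] [Fintype κ] [DecidableEq κ]
variable {s : α → κ} {cnt : Fin 3 → κ → ℕ}

lemma swap_mem' {J : Finset α} {χ₀ χ : α → Fin 3} {i j : α} (hi : i ∈ J) (hj : j ∈ J)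
    (hs : s i = s j) (hχ : χ ∈ Col s cnt J χ₀) : χ ∘ Equiv.swap i j ∈ Col s cnt J χ₀ := by
  rw [mem_Col] at hχ ⊢
  refine ⟨fun x hx => ?_, fun u t => ?_⟩
  · have hxi : x ≠ i := fun h => hx (h ▸ hi)
    have hxj : x ≠ j := fun h => hx (h ▸ hj)
    simp only [Function.comp]
    rw [Equiv.swap_apply_of_ne_of_ne hxi hxj, hχ.1 x hx]
  · rw [card_filter_swap hs, hχ.2]

lemma mem_image_swap (C : Finset α) (i j z : α) :
    z ∈ C.image (Equiv.swap i j) ↔ Equiv.swap i j z ∈ C := by
  simp only [Finset.mem_image]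
  constructor
  · rintro ⟨y, hy, rfl⟩; simpa using hy
  · intro h; exact ⟨_, h, by simp⟩

lemma cls_comp_swap (χ : α → Fin 3) (i j : α) (u : Fin 3) :
    cls (χ ∘ Equiv.swap i j) u = (cls χ u).image (Equiv.swap i j) := by
  ext x
  rw [mem_image_swap]
  simp [cls]

/-- number of colourings in `Y` whose `u`-class is `C` -/
def Ncl (Y : Finset (α → Fin 3)) (u : Fin 3) (C : Finset α) : ℕ :=
  (Y.filter fun χ => cls χ u = C).card

lemma image_swap_swap (C : Finset α) (i j : α) :
    (C.image (Equiv.swap i j)).image (Equiv.swap i j) = C := by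
  ext z
  rw [mem_image_swap, mem_image_swap]
  simp

lemma Ncl_swap {J : Finset α} {χ₀ : α → Fin 3} {i j : α} (hi : i ∈ J) (hj : j ∈ J)
    (hs : s i = s j) (u : Fin 3) (C : Finset α) :
    Ncl (Col s cnt J χ₀) u (C.image (Equiv.swap i j)) = Ncl (Col s cnt J χ₀) u C := by
  symm
  apply Finset.card_bij (fun χ _ => χ ∘ Equiv.swap i j)
  · intro χ hχ
    simp only [Finset.mem_filter] at hχ ⊢
    exact ⟨swap_mem' hi hj hs hχ.1, by rw [cls_comp_swap, hχ.2]⟩
  · intro χ _ χ' _ h
    funext x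
    have := congrFun h (Equiv.swap i j x)
    simpa using this
  · intro χ hχ
    simp only [Finset.mem_filter] at hχ
    refine ⟨χ ∘ Equiv.swap i j, ?_, ?_⟩
    · simp only [Finset.mem_filter]
      refine ⟨swap_mem' hi hj hs hχ.1, ?_⟩
      rw [cls_comp_swap, hχ.2, image_swap_swap]
    · funext x; simp

/-- the invariants of a class: sizes in every species and the frozen part -/
def inv (s : α → κ) (J : Finset α) (C : Finset α) : (κ → ℕ) × Finset α :=
  (fun t => (C.filter fun x => s x = t).card, C \ J)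

lemma inv_image_swap {J : Finset α} {i j : α} (hi : i ∈ J) (hj : j ∈ J) (hs : s i = s j)
    (C : Finset α) : inv s J (C.image (Equiv.swap i j)) = inv s J C := by
  unfold inv
  refine Prod.ext ?_ ?_
  · funext t
    simp only
    rw [Finset.filter_image, Finset.card_image_of_injective _ (Equiv.swap i j).injective]
    simp only [s_swap hs]
  · ext z
    simp only [Finset.mem_sdiff, mem_image_swap]
    constructor
    · rintro ⟨h1, h2⟩
      have hzi : z ≠ i := fun h => h2 (h ▸ hi)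
      have hzj : z ≠ j := fun h => h2 (h ▸ hj)
      rw [Equiv.swap_apply_of_ne_of_ne hzi hzj] at h1
      exact ⟨h1, h2⟩
    · rintro ⟨h1, h2⟩
      have hzi : z ≠ i := fun h => h2 (h ▸ hi)
      have hzj : z ≠ j := fun h => h2 (h ▸ hj)
      rw [Equiv.swap_apply_of_ne_of_ne hzi hzj]
      exact ⟨h1, h2⟩

lemma conn (J : Finset α) (f : Finset α → ℕ)
    (hf : ∀ i ∈ J, ∀ j ∈ J, s i = s j → ∀ C, f (C.image (Equiv.swap i j)) = f C) :
    ∀ (n : ℕ) (C C' : Finset α), (C \ C').card = n → inv s J C = inv s J C' → f C = f C' := by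
  intro n
  induction n with
  | zero =>
    intro C C' h0 hinv
    have hsub : C ⊆ C' := by
      rw [Finset.card_eq_zero, Finset.sdiff_eq_empty_iff_subset] at h0
      exact h0
    have hc : ∀ D : Finset α, D.card = ∑ t, (D.filter fun x => s x = t).card := fun D =>
      Finset.card_eq_sum_card_fiberwise (s := D) (t := (univ : Finset κ)) (f := s)
        (fun x _ => Finset.mem_coe.2 (Finset.mem_univ _))
    have hcard : C.card = C'.card := by
      rw [hc C, hc C']
      exact Finset.sum_congr rfl fun t _ => congrFun (congrArg Prod.fst hinv) t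
    rw [Finset.eq_of_subset_of_card_le hsub hcard.ge]
  | succ n ih =>
    intro C C' hn hinv
    have hne : (C \ C').Nonempty := by
      rw [← Finset.card_pos]; omega
    obtain ⟨x, hx⟩ := hne
    rw [Finset.mem_sdiff] at hx
    obtain ⟨hxC, hxC'⟩ := hx
    have hJ : C \ J = C' \ J := congrArg Prod.snd hinv
    have hxJ : x ∈ J := by
      by_contra h
      have : x ∈ C' \ J := hJ ▸ Finset.mem_sdiff.mpr ⟨hxC, h⟩
      exact hxC' (Finset.mem_sdiff.mp this).1
    have hcard : (C.filter fun z => s z = s x).card = (C'.filter fun z => s z = s x).card :=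
      congrFun (congrArg Prod.fst hinv) (s x)
    have hy : ∃ y ∈ C'.filter (fun z => s z = s x), y ∉ C.filter (fun z => s z = s x) := by
      by_contra hcon
      push Not at hcon
      have := Finset.eq_of_subset_of_card_le hcon hcard.le
      have hx' : x ∈ C'.filter (fun z => s z = s x) := by
        rw [this]; simp [hxC]
      exact hxC' (Finset.mem_filter.mp hx').1
    obtain ⟨y, hy1, hy2⟩ := hy
    rw [Finset.mem_filter] at hy1
    obtain ⟨hyC', hys⟩ := hy1
    have hyC : y ∉ C := fun h => hy2 (Finset.mem_filter.mpr ⟨h, hys⟩)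
    have hyJ : y ∈ J := by
      by_contra h
      have : y ∈ C \ J := hJ.symm ▸ Finset.mem_sdiff.mpr ⟨hyC', h⟩
      exact hyC (Finset.mem_sdiff.mp this).1
    have hxy : x ≠ y := fun h => hyC (h ▸ hxC)
    rw [← hf x hxJ y hyJ hys.symm C]
    apply ih
    · have : (C.image (Equiv.swap x y)) \ C' = (C \ C').erase x := by
        ext z
        simp only [Finset.mem_sdiff, mem_image_swap, Finset.mem_erase]
        by_cases hzx : z = x
        · subst hzx
          simp [hyC]
        · by_cases hzy : z = y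
          · subst hzy
            simp [hyC']
          · rw [Equiv.swap_apply_of_ne_of_ne hzx hzy]
            simp [hzx]
      rw [this, Finset.card_erase_of_mem (Finset.mem_sdiff.mpr ⟨hxC, hxC'⟩), hn]
      rfl
    · rw [inv_image_swap hxJ hyJ hys.symm, hinv]

lemma inv_cls_Col {J : Finset α} {χ₀ χ : α → Fin 3} (hχ : χ ∈ Col s cnt J χ₀) (u : Fin 3) :
    inv s J (cls χ u) = (fun t => cnt u t, cls χ₀ u \ J) := by
  rw [mem_Col] at hχ
  unfold inv
  refine Prod.ext ?_ ?_
  · funext t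
    simp only [cls]
    rw [Finset.filter_filter, hχ.2]
  · ext z
    simp only [cls, Finset.mem_sdiff, Finset.mem_filter, Finset.mem_univ, true_and]
    constructor
    · rintro ⟨h1, h2⟩; exact ⟨by rw [← hχ.1 z h2]; exact h1, h2⟩
    · rintro ⟨h1, h2⟩; exact ⟨by rw [hχ.1 z h2]; exact h1, h2⟩

lemma Ncl_eq {J : Finset α} {χ₀ χ : α → Fin 3} (u : Fin 3) (hχ : χ ∈ Col s cnt J χ₀)
    (C : Finset α) :
    Ncl (Col s cnt J χ₀) u C
      = if inv s J C = inv s J (cls χ u) then Ncl (Col s cnt J χ₀) u (cls χ u) else 0 := by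
  split_ifs with h
  · exact conn (s := s) J (Ncl (Col s cnt J χ₀) u)
      (fun i hi j hj hs C => Ncl_swap hi hj hs u C) _ C (cls χ u) rfl h
  · unfold Ncl
    rw [Finset.card_eq_zero, Finset.filter_eq_empty_iff]
    intro χ' hχ' hC
    apply h
    rw [← hC, inv_cls_Col hχ', inv_cls_Col hχ]

lemma sum_Col_cls {J : Finset α} {χ₀ χ : α → Fin 3} (u : Fin 3) (hχ : χ ∈ Col s cnt J χ₀)
    (h : Finset α → ℝ) :
    ∑ χ' ∈ Col s cnt J χ₀, h (cls χ' u)
      = (Ncl (Col s cnt J χ₀) u (cls χ u) : ℝ)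
        * ∑ C ∈ univ.filter (fun C => inv s J C = inv s J (cls χ u)), h C := by
  rw [← Finset.sum_fiberwise (Col s cnt J χ₀) (fun χ' => cls χ' u)]
  have e : ∀ C : Finset α, ∑ χ' ∈ (Col s cnt J χ₀).filter (fun χ' => cls χ' u = C), h (cls χ' u)
      = if inv s J C = inv s J (cls χ u)
          then (Ncl (Col s cnt J χ₀) u (cls χ u) : ℝ) * h C else 0 := by
    intro C
    have : ∑ χ' ∈ (Col s cnt J χ₀).filter (fun χ' => cls χ' u = C), h (cls χ' u)
        = ∑ _χ' ∈ (Col s cnt J χ₀).filter (fun χ' => cls χ' u = C), h C :=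
      Finset.sum_congr rfl fun χ' hχ' => by rw [(Finset.mem_filter.mp hχ').2]
    rw [this, Finset.sum_const, nsmul_eq_mul]
    change ((Ncl (Col s cnt J χ₀) u C : ℕ) : ℝ) * h C = _
    rw [Ncl_eq u hχ C]
    split_ifs <;> simp
  simp only [e]
  rw [← Finset.sum_filter, Finset.mul_sum]

/-- given the class sizes, `cls u` is uniform on the set of classes with its invariants. -/
lemma avg_Col_cls {J : Finset α} {χ₀ χ : α → Fin 3} (u : Fin 3) (hχ : χ ∈ Col s cnt J χ₀)
    (h : Finset α → ℝ) :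
    (∑ χ' ∈ Col s cnt J χ₀, h (cls χ' u)) / ((Col s cnt J χ₀).card : ℝ)
      = (∑ C ∈ univ.filter (fun C => inv s J C = inv s J (cls χ u)), h C)
        / ((univ.filter (fun C => inv s J C = inv s J (cls χ u))).card : ℝ) := by
  have h1 := sum_Col_cls u hχ h
  have h2 := sum_Col_cls u hχ (fun _ => 1)
  simp only [Finset.sum_const, nsmul_eq_mul, mul_one] at h2
  have hpos : (0 : ℝ) < (Ncl (Col s cnt J χ₀) u (cls χ u) : ℝ) := by
    have : 0 < Ncl (Col s cnt J χ₀) u (cls χ u) :=
      Finset.card_pos.mpr ⟨χ, Finset.mem_filter.mpr ⟨hχ, rfl⟩⟩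
    exact_mod_cast this
  rw [h1, h2]
  exact mul_div_mul_left _ _ hpos.ne'

end uniform

section ensemble
open Crest.Agent.S0453K3NR Crest.Agent.S0453Core
open Crest.Agent.S0453K3Col (Ens K3Col)
variable {α : Type} [Fintype α] [DecidableEq α]

/-- `‖F - E F‖²` in the language of `S0453_Core` and of `S0453_CE`. -/
lemma ip_cP {β κ : Type*} [DecidableEq κ] (X : Finset β) (k : β → κ) (F : β → ℝ) :
    ip X (cP X k F) (cP X k F) = ∑ x ∈ X, F x ^ 2 - ∑ x ∈ X, ce X k F x ^ 2 := by
  rw [← sum_sub_ce_sq]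
  unfold ip
  apply Finset.sum_congr rfl
  intro x _
  change (F x - ce X k F x) * (F x - ce X k F x) = _
  ring

/-- the radial vector -/
def bv (B : Finset α) (χ : α → Fin 3) : Fin 3 → ℕ := fun u => (B.filter fun x => χ x = u).card

/-- the radial inequality on the colouring ensemble (input of the glue). -/
def RadialProp (A B : Finset α) (δ : Fin 3 → ℤ) : Prop := ∀ Φ : (Fin 3 → ℕ) → ℝ,
  ip (Ens A B δ) (cP (Ens A B δ) (fun _ => ()) (fun χ => Φ (bv B χ)))
      (cP (Ens A B δ) (fun _ => ()) (fun χ => Φ (bv B χ)))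
    ≤ ∑ u : Fin 3, ip (Ens A B δ) (cP (Ens A B δ) (fun χ => bv B χ u) (fun χ => Φ (bv B χ)))
        (cP (Ens A B δ) (fun χ => bv B χ u) (fun χ => Φ (bv B χ)))

/-- species of a column -/
def sp (A B : Finset α) (z : α) : Fin 3 := if z ∈ A then 0 else if z ∈ B then 1 else 2

lemma sp_zero {A B : Finset α} {z : α} : sp A B z = 0 ↔ z ∈ A := by
  unfold sp
  split_ifs <;> simp_all

lemma sp_one {A B : Finset α} (h : Disjoint A B) {z : α} : sp A B z = 1 ↔ z ∈ B := by
  unfold sp
  split_ifs with h1 h2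
  · have := Finset.disjoint_left.mp h h1
    simp_all
  · simp_all
  · simp_all

lemma sp_two {A B : Finset α} {z : α} : sp A B z = 2 ↔ z ∉ A ∧ z ∉ B := by
  unfold sp
  split_ifs <;> simp_all

/-- class sizes of a colouring in every species -/
def cntOf (A B : Finset α) (χ : α → Fin 3) (u t : Fin 3) : ℕ :=
  (univ.filter fun z => χ z = u ∧ sp A B z = t).card

lemma cntOf_zero (A B : Finset α) (χ : α → Fin 3) (u : Fin 3) :
    cntOf A B χ u 0 = (A.filter fun z => χ z = u).card := by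
  unfold cntOf
  congr 1
  ext z
  simp only [Finset.mem_filter, Finset.mem_univ, true_and, sp_zero]
  tauto

lemma cntOf_one {A B : Finset α} (h : Disjoint A B) (χ : α → Fin 3) (u : Fin 3) :
    cntOf A B χ u 1 = (B.filter fun z => χ z = u).card := by
  unfold cntOf
  congr 1
  ext z
  simp only [Finset.mem_filter, Finset.mem_univ, true_and, sp_one h]
  tauto

lemma mem_Ens {A B : Finset α} {δ : Fin 3 → ℤ} {χ : α → Fin 3} :
    χ ∈ Ens A B δ ↔ (∀ x, x ∉ A → x ∉ B → χ x = 0) ∧
      ∀ u, ((A.filter fun x => χ x = u).card : ℤ) - ((B.filter fun x => χ x = u).card : ℤ) = δ u := by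
  simp [Ens]

lemma cntOf_eq {A B : Finset α} (hAB : Disjoint A B) {δ : Fin 3 → ℤ} {χ χ' : α → Fin 3}
    (hχ : χ ∈ Ens A B δ) (hχ' : χ' ∈ Ens A B δ) {u : Fin 3} (hb : bv B χ u = bv B χ' u)
    (t : Fin 3) : cntOf A B χ u t = cntOf A B χ' u t := by
  rw [mem_Ens] at hχ hχ'
  unfold bv at hb
  match t with
  | 0 =>
    rw [cntOf_zero, cntOf_zero]
    have h1 := hχ.2 u
    have h2 := hχ'.2 u
    omega
  | 1 =>
    rw [cntOf_one hAB, cntOf_one hAB]
    exact hb
  | 2 =>
    unfold cntOf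
    congr 1
    ext z
    simp only [Finset.mem_filter, Finset.mem_univ, true_and, sp_two]
    constructor
    · rintro ⟨h1, h2, h3⟩
      exact ⟨by rw [hχ'.1 z h2 h3, ← hχ.1 z h2 h3]; exact h1, h2, h3⟩
    · rintro ⟨h1, h2, h3⟩
      exact ⟨by rw [hχ.1 z h2 h3, ← hχ'.1 z h2 h3]; exact h1, h2, h3⟩

lemma filter_eq_Col {A B : Finset α} (hAB : Disjoint A B) {δ : Fin 3 → ℤ} {χ : α → Fin 3}
    (hχ : χ ∈ Ens A B δ) :
    (Ens A B δ).filter (fun y => bv B y = bv B χ)
      = Col (sp A B) (cntOf A B χ) (A ∪ B) (fun _ => 0) := by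
  ext y
  rw [Finset.mem_filter, mem_Col]
  constructor
  · rintro ⟨hy, hb⟩
    refine ⟨fun x hx => ?_, fun u t => ?_⟩
    · rw [Finset.mem_union, not_or] at hx
      exact (mem_Ens.mp hy).1 x hx.1 hx.2
    · exact cntOf_eq hAB hy hχ (congrFun hb u) t
  · rintro ⟨h1, h2⟩
    have hA : ∀ u, (A.filter fun z => y z = u).card = (A.filter fun z => χ z = u).card := by
      intro u
      rw [← cntOf_zero A B, ← cntOf_zero A B]
      exact h2 u 0
    have hB : ∀ u, (B.filter fun z => y z = u).card = (B.filter fun z => χ z = u).card := by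
      intro u
      rw [← cntOf_one hAB, ← cntOf_one hAB]
      exact h2 u 1
    refine ⟨mem_Ens.mpr ⟨fun x hxA hxB => h1 x (by simp [hxA, hxB]), fun u => ?_⟩, ?_⟩
    · rw [hA, hB]
      exact (mem_Ens.mp hχ).2 u
    · funext u
      exact hB u

theorem K3prop_Ens {A B : Finset α} (hAB : Disjoint A B) (δ : Fin 3 → ℤ)
    (hR : RadialProp A B δ) : K3prop (Ens A B δ) (fun u χ => cls χ u) := by
  apply glue (Ens A B δ) (fun u χ => cls χ u) (bv B) (fun u χ => bv B χ u)
  · intro u x _ y _ h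
    have e : ∀ χ : α → Fin 3, bv B χ u = (B ∩ cls χ u).card := by
      intro χ
      unfold bv cls
      congr 1
      ext z
      simp
    simp only at h
    simp only [e, h]
  · intro u x _ y _ h
    exact congrFun h u
  · intro x hx
    rw [filter_eq_Col hAB hx]
    exact K3prop_Col _ _ _ _
  · intro u F
    have key : ∀ x ∈ Ens A B δ, ce (Ens A B δ) (bv B) (ce (Ens A B δ) (fun χ => cls χ u) F) x
        = (∑ C ∈ univ.filter (fun C => inv (sp A B) (A ∪ B) C
              = (fun t => cntOf A B x u t, cls (fun _ => (0 : Fin 3)) u \ (A ∪ B))),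
            (∑ y ∈ fib (Ens A B δ) (fun χ => cls χ u) C, F y)
              / ((fib (Ens A B δ) (fun χ => cls χ u) C).card : ℝ))
          / ((univ.filter (fun C => inv (sp A B) (A ∪ B) C
              = (fun t => cntOf A B x u t, cls (fun _ => (0 : Fin 3)) u \ (A ∪ B)))).card : ℝ) := by
      intro x hx
      have hxC : x ∈ Col (sp A B) (cntOf A B x) (A ∪ B) (fun _ => 0) := by
        rw [← filter_eq_Col hAB hx]
        exact Finset.mem_filter.mpr ⟨hx, rfl⟩
      have := avg_Col_cls u hxC (fun C => (∑ y ∈ fib (Ens A B δ) (fun χ => cls χ u) C, F y)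
              / ((fib (Ens A B δ) (fun χ => cls χ u) C).card : ℝ))
      rw [inv_cls_Col hxC, ← filter_eq_Col hAB hx] at this
      exact this
    intro x hx y hy hxy
    rw [key x hx, key y hy]
    have : (fun t => cntOf A B x u t) = (fun t => cntOf A B y u t) :=
      funext fun t => cntOf_eq hAB hx hy hxy t
    rw [this]
  · intro F
    have h := hR (fun b => (∑ y ∈ fib (Ens A B δ) (bv B) b, F y)
      / ((fib (Ens A B δ) (bv B) b).card : ℝ))
    change ip (Ens A B δ) (cP (Ens A B δ) (fun _ => ()) (ce (Ens A B δ) (bv B) F))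
        (cP (Ens A B δ) (fun _ => ()) (ce (Ens A B δ) (bv B) F))
      ≤ ∑ u : Fin 3, ip (Ens A B δ) (cP (Ens A B δ) (fun χ => bv B χ u) (ce (Ens A B δ) (bv B) F))
        (cP (Ens A B δ) (fun χ => bv B χ u) (ce (Ens A B δ) (bv B) F)) at h
    simp only [ip_cP, Finset.sum_sub_distrib, Finset.sum_const, Finset.card_univ,
      Fintype.card_fin, nsmul_eq_mul] at h
    push_cast at h
    linarith

/-- **K3 for the colouring ensemble from the radial inequality.** -/
theorem K3Col_of_radial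
    (h : ∀ (α : Type) [Fintype α] [DecidableEq α] (A B : Finset α), Disjoint A B →
      ∀ δ : Fin 3 → ℤ, RadialProp A B δ) : K3Col := by
  intro α _ _ A B hAB δ f
  have h1 := K3prop_Ens hAB δ (h α A B hAB δ) f
  change ip (Ens A B δ) (cP (Ens A B δ) (fun _ => ()) f) (cP (Ens A B δ) (fun _ => ()) f)
      ≤ ∑ u : Fin 3, ip (Ens A B δ) (cP (Ens A B δ) (fun χ => cls χ u) f)
          (cP (Ens A B δ) (fun χ => cls χ u) f)
  simp only [ip_cP, Finset.sum_sub_distrib, Finset.sum_const, Finset.card_univ,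
    Fintype.card_fin, nsmul_eq_mul]
  push_cast
  linarith

end ensemble

end Crest.Agent.S0453K3Glue
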