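import Mathlib
import Crest.Prelude.Def_SwitchChain
import Crest.Agent.S0453_Core
import Crest.Agent.S0453_Defs

/-!
# Row 299 (S0453), package P6: interface definitions for the K3 transport
-/

set_option autoImplicit false
open Finset

namespace Crest.Agent.S0453P6
open Crest.SwitchChain Crest.Agent.S0453Core Crest.Agent.S0453Defs

variable {n : ℕ}

/-- the edges of `G` avoiding the three vertices `u`, `v`, `w` (the label `G - {u,v,w}`) -/
def key3 (u v w : Fin n) (G : Finset (Edge n)) : Finset (Edge n) :=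
  G.filter (fun e => u ∉ e.1 ∧ v ∉ e.1 ∧ w ∉ e.1)

/-- Poincare form of the three-vertex cluster inequality. -/
def P3 (d : Fin n → ℕ) : Prop := ∀ (u v w : Fin n), u ≠ v → u ≠ w → v ≠ w →
  ∀ f : Finset (Edge n) → ℝ,
    ip (realizations d) (cP (realizations d) (key3 u v w) f) (cP (realizations d) (key3 u v w) f)
      ≤ ip (realizations d) (p2 d u v f) (p2 d u v f)
        + ip (realizations d) (p2 d u w f) (p2 d u w f)
        + ip (realizations d) (p2 d v w f) (p2 d v w f)

/-- three-row 0/1 matrices (rows as subsets of the column set `J`) with row sums `r` and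
column sums `c` -/
def rows3 {J : Type} [Fintype J] [DecidableEq J] (r : Fin 3 → ℕ) (c : J → ℕ) :
    Finset (Fin 3 → Finset J) :=
  univ.filter (fun R => (∀ i, (R i).card = r i) ∧ ∀ j, (univ.filter (fun i => j ∈ R i)).card = c j)

/-- K3 for three-row ensembles, Poincare form: `Var f ≤ ∑ᵢ E Var(f | row i)`. -/
def K3Rows : Prop := ∀ (J : Type) [Fintype J] [DecidableEq J] (r : Fin 3 → ℕ) (c : J → ℕ)
  (f : (Fin 3 → Finset J) → ℝ),
    ip (rows3 r c) (cP (rows3 r c) (fun _ => ()) f) (cP (rows3 r c) (fun _ => ()) f)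
      ≤ ∑ i : Fin 3, ip (rows3 r c) (cP (rows3 r c) (fun R => R i) f)
          (cP (rows3 r c) (fun R => R i) f)

end Crest.Agent.S0453P6
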