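import Mathlib
import Crest.Prelude.Def_SwitchChain
import Crest.Agent.S0453_Core
import Crest.Agent.S0453_Defs
import Crest.Agent.S0453_P6Defs
import Crest.Agent.S0453_K3ColDefs

/-!
# Row 299 (S0453), package P6 (b): colouring form of K3 implies the three-row form `K3Rows`
-/

set_option autoImplicit false
open Finset

namespace Crest.Agent.S0453K3Rows
open Crest.Agent.S0453Core Crest.Agent.S0453P6 Crest.Agent.S0453K3Col

section transport
variable {α β κ κ' : Type*} [DecidableEq α] [DecidableEq κ] [DecidableEq κ']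

/-- transport of a conditional expectation along a map injective on `Ω'`. -/
lemma cE_transport (e : β → α) (Ω' : Finset β) (hinj : Set.InjOn e Ω')
    (φ' : β → κ') (φ : α → κ)
    (hlab : ∀ x ∈ Ω', ∀ y ∈ Ω', (φ' x = φ' y ↔ φ (e x) = φ (e y)))
    (f : α → ℝ) (x : β) (hx : x ∈ Ω') :
    cE Ω' φ' (fun y => f (e y)) x = cE (Ω'.image e) φ f (e x) := by
  have hfib : fib (Ω'.image e) φ (e x) = (fib Ω' φ' x).image e := by
    ext a
    simp only [fib, Finset.mem_filter, Finset.mem_image]
    constructor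
    · rintro ⟨⟨y, hy, rfl⟩, h⟩
      exact ⟨y, ⟨hy, ((hlab y hy x hx).mpr h)⟩, rfl⟩
    · rintro ⟨y, ⟨hy, h⟩, rfl⟩
      exact ⟨⟨y, hy, rfl⟩, (hlab y hy x hx).mp h⟩
  have hinj' : Set.InjOn e (fib Ω' φ' x : Set β) := by
    intro a ha b hb h
    exact hinj (Finset.mem_filter.mp ha).1 (Finset.mem_filter.mp hb).1 h
  unfold cE
  rw [hfib, Finset.sum_image hinj', Finset.card_image_of_injOn hinj']

lemma ip_cP_transport (e : β → α) (Ω' : Finset β) (hinj : Set.InjOn e Ω')
    (φ' : β → κ') (φ : α → κ)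
    (hlab : ∀ x ∈ Ω', ∀ y ∈ Ω', (φ' x = φ' y ↔ φ (e x) = φ (e y)))
    (f : α → ℝ) :
    ip Ω' (cP Ω' φ' (fun y => f (e y))) (cP Ω' φ' (fun y => f (e y)))
      = ip (Ω'.image e) (cP (Ω'.image e) φ f) (cP (Ω'.image e) φ f) := by
  unfold ip
  rw [Finset.sum_image hinj]
  apply Finset.sum_congr rfl
  intro x hx
  unfold cP
  rw [cE_transport e Ω' hinj φ' φ hlab f x hx]

end transport

section bridge
variable {J : Type} [Fintype J] [DecidableEq J]

/-- the matrix of a colouring -/
def mk (c : J → ℕ) (χ : J → Fin 3) : Fin 3 → Finset J := fun i =>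
  univ.filter fun j => c j = 3 ∨ (c j = 1 ∧ χ j = i) ∨ (c j = 2 ∧ χ j ≠ i)

/-- the colouring of a matrix -/
def col (c : J → ℕ) (R : Fin 3 → Finset J) : J → Fin 3 := fun j =>
  if c j = 1 then (if j ∈ R 0 then 0 else if j ∈ R 1 then 1 else 2)
  else if c j = 2 then (if j ∉ R 0 then 0 else if j ∉ R 1 then 1 else 2) else 0

def cA (c : J → ℕ) : Finset J := univ.filter fun j => c j = 1
def cB (c : J → ℕ) : Finset J := univ.filter fun j => c j = 2
def cC (c : J → ℕ) : Finset J := univ.filter fun j => c j = 3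

lemma mem_mk (c : J → ℕ) (χ : J → Fin 3) (i : Fin 3) (j : J) :
    j ∈ mk c χ i ↔ (c j = 3 ∨ (c j = 1 ∧ χ j = i) ∨ (c j = 2 ∧ χ j ≠ i)) := by
  simp [mk]

lemma card_mk (c : J → ℕ) (χ : J → Fin 3) (i : Fin 3) :
    ((mk c χ i).card : ℤ) = ((cC c).card : ℤ) + (((cA c).filter fun x => χ x = i).card : ℤ)
      + ((cB c).card : ℤ) - (((cB c).filter fun x => χ x = i).card : ℤ) := by
  have h1 : mk c χ i = (cC c) ∪ (((cA c).filter fun x => χ x = i) ∪
      ((cB c).filter fun x => ¬ χ x = i)) := by
    ext j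
    simp only [mem_mk, cA, cB, cC, Finset.mem_union, Finset.mem_filter, Finset.mem_univ, true_and,
      ne_eq]
  have d1 : Disjoint ((cA c).filter fun x => χ x = i) ((cB c).filter fun x => ¬ χ x = i) := by
    rw [Finset.disjoint_left]
    intro j hj hj'
    simp only [cA, cB, Finset.mem_filter, Finset.mem_univ, true_and] at hj hj'
    omega
  have d2 : Disjoint (cC c) (((cA c).filter fun x => χ x = i) ∪
      ((cB c).filter fun x => ¬ χ x = i)) := by
    rw [Finset.disjoint_left]
    intro j hj hj'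
    simp only [cA, cB, cC, Finset.mem_union, Finset.mem_filter, Finset.mem_univ, true_and]
      at hj hj'
    omega
  have h2 := Finset.card_filter_add_card_filter_not (s := cB c) (fun x => χ x = i)
  rw [h1, Finset.card_union_of_disjoint d2, Finset.card_union_of_disjoint d1]
  push_cast
  have h3 : ((cB c).card : ℤ) = (((cB c).filter fun x => χ x = i).card : ℤ)
      + (((cB c).filter fun x => ¬ χ x = i).card : ℤ) := by
    exact_mod_cast h2.symm
  rw [h3]; ring

lemma colsum_mk (c : J → ℕ) (hc : ∀ j, c j ≤ 3) (χ : J → Fin 3) (j : J) :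
    (univ.filter (fun i => j ∈ mk c χ i)).card = c j := by
  have h := hc j
  simp only [mem_mk]
  have h4 : c j = 0 ∨ c j = 1 ∨ c j = 2 ∨ c j = 3 := by omega
  rcases h4 with h0 | h0 | h0 | h0
  · simp [h0]
  · simp [h0, Finset.filter_eq]
  · simp only [h0, Nat.reduceEqDiff, false_and, true_and, false_or, ne_eq,
      OfNat.ofNat_ne_one]
    have := Finset.card_filter_add_card_filter_not (s := (univ : Finset (Fin 3)))
      (fun i => χ j = i)
    simp only [Finset.filter_eq, Finset.mem_univ, if_true, Finset.card_singleton,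
      Finset.card_univ, Fintype.card_fin] at this
    omega
  · simp [h0]

lemma colsum_eq (R : Fin 3 → Finset J) (j : J) :
    (univ.filter (fun i => j ∈ R i)).card
      = (if j ∈ R 0 then 1 else 0) + (if j ∈ R 1 then 1 else 0) + (if j ∈ R 2 then 1 else 0) := by
  rw [Finset.card_filter, Fin.sum_univ_three]

lemma mk_col (c : J → ℕ) (R : Fin 3 → Finset J)
    (hR : ∀ j, (univ.filter (fun i => j ∈ R i)).card = c j) : mk c (col c R) = R := by
  funext i
  ext j
  have h := hR j
  rw [colsum_eq] at h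
  rw [mem_mk]
  unfold col
  by_cases h0 : j ∈ R 0 <;> by_cases h1 : j ∈ R 1 <;> by_cases h2 : j ∈ R 2 <;>
    simp only [h0, h1, h2, if_true, if_false] at h <;>
    fin_cases i <;> simp [← h, h0, h1, h2]

lemma mk_eq_iff (c : J → ℕ) (χ χ' : J → Fin 3)
    (h : ∀ x, x ∉ cA c → x ∉ cB c → χ x = 0) (h' : ∀ x, x ∉ cA c → x ∉ cB c → χ' x = 0)
    (i : Fin 3) : cls χ i = cls χ' i ↔ mk c χ i = mk c χ' i := by
  constructor
  · intro e
    ext j
    have : (χ j = i ↔ χ' j = i) := by
      have := Finset.ext_iff.mp e j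
      simpa [cls] using this
    rw [mem_mk, mem_mk, ne_eq, ne_eq, this]
  · intro e
    ext j
    have e' := Finset.ext_iff.mp e j
    rw [mem_mk, mem_mk] at e'
    simp only [cls, Finset.mem_filter, Finset.mem_univ, true_and]
    by_cases h1 : c j = 1
    · simpa [h1] using e'
    · by_cases h2 : c j = 2
      · have : (¬ χ j = i ↔ ¬ χ' j = i) := by simpa [h2] using e'
        exact not_iff_not.mp this
      · have a1 : j ∉ cA c := by simp [cA, h1]
        have a2 : j ∉ cB c := by simp [cB, h2]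
        rw [h j a1 a2, h' j a1 a2]

/-- the value of `δ` -/
def dl (c : J → ℕ) (r : Fin 3 → ℕ) : Fin 3 → ℤ := fun u =>
  (r u : ℤ) - ((cB c).card : ℤ) - ((cC c).card : ℤ)

lemma image_mk (c : J → ℕ) (hc : ∀ j, c j ≤ 3) (r : Fin 3 → ℕ) :
    (Ens (cA c) (cB c) (dl c r)).image (mk c) = rows3 r c := by
  ext R
  simp only [Finset.mem_image, Ens, rows3, Finset.mem_filter, Finset.mem_univ, true_and]
  constructor
  · rintro ⟨χ, ⟨_, hχ⟩, rfl⟩
    refine ⟨fun i => ?_, fun j => colsum_mk c hc χ j⟩
    have := card_mk c χ i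
    have h2 := hχ i
    unfold dl at h2
    have : ((mk c χ i).card : ℤ) = (r i : ℤ) := by linarith
    exact_mod_cast this
  · rintro ⟨hr, hcs⟩
    refine ⟨col c R, ⟨?_, ?_⟩, mk_col c R hcs⟩
    · intro x hx hx'
      have a1 : c x ≠ 1 := by simpa [cA] using hx
      have a2 : c x ≠ 2 := by simpa [cB] using hx'
      simp [col, a1, a2]
    · intro u
      have := card_mk c (col c R) u
      rw [mk_col c R hcs, hr u] at this
      unfold dl
      linarith

lemma injOn_mk (c : J → ℕ) (δ : Fin 3 → ℤ) :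
    Set.InjOn (mk c) (Ens (cA c) (cB c) δ : Set (J → Fin 3)) := by
  intro χ hχ χ' hχ' e
  have h := (Finset.mem_filter.mp hχ).2.1
  have h' := (Finset.mem_filter.mp hχ').2.1
  funext j
  have := (mk_eq_iff c χ χ' h h' (χ j)).mpr (congrFun e (χ j))
  have hj : j ∈ cls χ (χ j) := by simp [cls]
  rw [this] at hj
  have : χ' j = χ j := by simpa [cls] using hj
  exact this.symm

end bridge

/-- **P6 (b)**: the colouring form of K3 implies the three-row form. -/
theorem K3Rows_of_K3Col (h : K3Col) : K3Rows := by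
  intro J _ _ r c f
  by_cases hc : ∀ j, c j ≤ 3
  · have hd : Disjoint (cA c) (cB c) := by
      rw [Finset.disjoint_left]
      intro j hj hj'
      simp only [cA, cB, Finset.mem_filter, Finset.mem_univ, true_and] at hj hj'
      omega
    have key := h J (cA c) (cB c) hd (dl c r) (fun χ => f (mk c χ))
    have hinj := injOn_mk c (dl c r)
    rw [ip_cP_transport (mk c) _ hinj (fun _ => ()) (fun _ => ()) (fun _ _ _ _ => by simp) f] at key
    have e : ∀ u : Fin 3,
        ip (Ens (cA c) (cB c) (dl c r))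
          (cP (Ens (cA c) (cB c) (dl c r)) (fun χ => cls χ u) (fun χ => f (mk c χ)))
          (cP (Ens (cA c) (cB c) (dl c r)) (fun χ => cls χ u) (fun χ => f (mk c χ)))
        = ip ((Ens (cA c) (cB c) (dl c r)).image (mk c))
          (cP ((Ens (cA c) (cB c) (dl c r)).image (mk c)) (fun R => R u) f)
          (cP ((Ens (cA c) (cB c) (dl c r)).image (mk c)) (fun R => R u) f) := by
      intro u
      apply ip_cP_transport (mk c) _ hinj (fun χ => cls χ u) (fun R => R u)
      intro χ hχ χ' hχ'
      exact mk_eq_iff c χ χ' (Finset.mem_filter.mp hχ).2.1 (Finset.mem_filter.mp hχ').2.1 u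
    rw [Finset.sum_congr rfl (fun u _ => e u), image_mk c hc r] at key
    exact key
  · have hempty : rows3 r c = ∅ := by
      push Not at hc
      obtain ⟨j, hj⟩ := hc
      rw [Finset.eq_empty_iff_forall_notMem]
      intro R hR
      have := (Finset.mem_filter.mp hR).2.2 j
      have h3 : (univ.filter (fun i => j ∈ R i)).card ≤ 3 := by
        calc _ ≤ (univ : Finset (Fin 3)).card := Finset.card_filter_le _ _
          _ = 3 := by simp
      omega
    rw [hempty]
    simp [ip]

end Crest.Agent.S0453K3Rows
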