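import Mathlib
import Crest.Prelude.Def_SwitchChain
import Crest.Agent.S0453_Core
import Crest.Agent.S0453_Defs
import Crest.Agent.S0453_P6Defs

/-!
# Row 299 (S0453), package P6 (a): `P3 d → S3 d`

The Poincare form of the three-vertex cluster inequality implies that the cross terms of the
three projections `p_uv, p_uw, p_vw` have a non-negative sum (`L_T² ≥ L_T`).
-/

set_option autoImplicit false
open Finset

namespace Crest.Agent.S0453P3S3
open Crest.SwitchChain Crest.Agent.S0453Core Crest.Agent.S0453Defs Crest.Agent.S0453P6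

section abstract
variable {α β : Type*} [DecidableEq β]

lemma fib_congr (Ω : Finset α) (φ : α → β) {x y : α} (h : φ x = φ y) :
    fib Ω φ x = fib Ω φ y := by
  unfold fib; rw [h]

lemma cE_congr (Ω : Finset α) (φ : α → β) (f : α → ℝ) {x y : α} (h : φ x = φ y) :
    cE Ω φ f x = cE Ω φ f y := by
  unfold cE; rw [fib_congr Ω φ h]

/-- `∑ h * E f = ∑ h * f` for `φ`-measurable `h`. -/
lemma ip_meas_cE (Ω : Finset α) (φ : α → β) (f h : α → ℝ)
    (hm : ∀ x ∈ Ω, ∀ y ∈ Ω, φ x = φ y → h x = h y) :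
    ip Ω h (cE Ω φ f) = ip Ω h f := by
  classical
  unfold ip
  have h1 : ∀ x ∈ Ω, h x * cE Ω φ f x
      = ∑ y ∈ Ω, if φ y = φ x then h y * f y / ((fib Ω φ y).card : ℝ) else 0 := by
    intro x hx
    unfold cE
    rw [← Finset.sum_filter, mul_div_assoc', Finset.mul_sum, Finset.sum_div]
    apply Finset.sum_congr rfl
    intro y hy
    have hy' := Finset.mem_filter.mp hy
    rw [hm x hx y hy'.1 hy'.2.symm, fib_congr Ω φ hy'.2]
  rw [Finset.sum_congr rfl h1, Finset.sum_comm]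
  apply Finset.sum_congr rfl
  intro y hy
  have h2 : ∀ x ∈ Ω, (if φ y = φ x then h y * f y / ((fib Ω φ y).card : ℝ) else 0)
      = if φ x = φ y then h y * f y / ((fib Ω φ y).card : ℝ) else 0 := by
    intro x _
    by_cases hxy : φ y = φ x
    · rw [if_pos hxy, if_pos hxy.symm]
    · rw [if_neg hxy, if_neg (fun e => hxy e.symm)]
  rw [Finset.sum_congr rfl h2, ← Finset.sum_filter, Finset.sum_const, nsmul_eq_mul]
  have hpos : (0 : ℝ) < ((fib Ω φ y).card : ℝ) := by
    have : y ∈ fib Ω φ y := Finset.mem_filter.mpr ⟨hy, rfl⟩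
    exact_mod_cast Finset.card_pos.mpr ⟨y, this⟩
  change ((fib Ω φ y).card : ℝ) * _ = _
  field_simp

/-- a `φ`-measurable function is orthogonal to `f - E f`. -/
lemma ip_meas_cP (Ω : Finset α) (φ : α → β) (f h : α → ℝ)
    (hm : ∀ x ∈ Ω, ∀ y ∈ Ω, φ x = φ y → h x = h y) :
    ip Ω h (cP Ω φ f) = 0 := by
  have := ip_meas_cE Ω φ f h hm
  unfold ip at this ⊢
  unfold cP
  simp only [mul_sub, Finset.sum_sub_distrib]
  linarith

lemma ip_self_cP (Ω : Finset α) (φ : α → β) (f : α → ℝ) :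
    ip Ω f (cP Ω φ f) = ip Ω (cP Ω φ f) (cP Ω φ f) := by
  have h0 : ip Ω (cE Ω φ f) (cP Ω φ f) = 0 :=
    ip_meas_cP Ω φ f _ (fun x _ y _ h => cE_congr Ω φ f h)
  unfold ip at h0 ⊢
  have : ∀ x ∈ Ω, cP Ω φ f x * cP Ω φ f x = f x * cP Ω φ f x - cE Ω φ f x * cP Ω φ f x := by
    intro x _
    conv_lhs => rw [show cP Ω φ f x = f x - cE Ω φ f x from rfl]
    simp only [cP]; ring
  rw [Finset.sum_congr rfl this, Finset.sum_sub_distrib, h0, sub_zero]

/-- Abstract step: three labels `φ i` finer than `ψ`; the Poincare inequality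
`‖f - E_ψ f‖² ≤ ∑ ‖p_i f‖²` implies that the cross terms have non-negative sum. -/
theorem cross_nonneg {γ : Type*} [DecidableEq γ] (Ω : Finset α) (ψ : α → γ) (φ1 φ2 φ3 : α → β)
    (f : α → ℝ)
    (h1 : ∀ x y, φ1 x = φ1 y → ψ x = ψ y) (h2 : ∀ x y, φ2 x = φ2 y → ψ x = ψ y)
    (h3 : ∀ x y, φ3 x = φ3 y → ψ x = ψ y)
    (hP : ip Ω (cP Ω ψ f) (cP Ω ψ f) ≤ ip Ω (cP Ω φ1 f) (cP Ω φ1 f)
      + ip Ω (cP Ω φ2 f) (cP Ω φ2 f) + ip Ω (cP Ω φ3 f) (cP Ω φ3 f)) :
    0 ≤ ip Ω (cP Ω φ1 f) (cP Ω φ2 f) + ip Ω (cP Ω φ1 f) (cP Ω φ3 f)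
      + ip Ω (cP Ω φ2 f) (cP Ω φ3 f) := by
  set g := cP Ω ψ f with hg
  set a := cP Ω φ1 f with ha
  set b := cP Ω φ2 f with hb
  set c := cP Ω φ3 f with hc
  set Q := ip Ω a a + ip Ω b b + ip Ω c c with hQ
  -- `⟨g, p_i f⟩ = ‖p_i f‖²`
  have key : ∀ (φ : α → β), (∀ x y, φ x = φ y → ψ x = ψ y) →
      ip Ω g (cP Ω φ f) = ip Ω (cP Ω φ f) (cP Ω φ f) := by
    intro φ hφ
    have e0 : ip Ω (cE Ω ψ f) (cP Ω φ f) = 0 :=
      ip_meas_cP Ω φ f _ (fun x _ y _ h => cE_congr Ω ψ f (hφ x y h))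
    have e1 := ip_self_cP Ω φ f
    rw [← e1]
    unfold ip at e0 ⊢
    have : ∀ x ∈ Ω, g x * cP Ω φ f x = f x * cP Ω φ f x - cE Ω ψ f x * cP Ω φ f x := by
      intro x _
      rw [hg]; simp only [cP]; ring
    rw [Finset.sum_congr rfl this, Finset.sum_sub_distrib, e0, sub_zero]
  have ka := key φ1 h1
  have kb := key φ2 h2
  have kc := key φ3 h3
  rw [← ha] at ka; rw [← hb] at kb; rw [← hc] at kc
  -- Cauchy-Schwarz
  set s : α → ℝ := fun x => a x + b x + c x with hs
  have hgs : ip Ω g s = Q := by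
    rw [hQ, ← ka, ← kb, ← kc]
    unfold ip
    simp only [hs, mul_add, Finset.sum_add_distrib]
  have hss : ip Ω s s = Q + 2 * (ip Ω a b + ip Ω a c + ip Ω b c) := by
    rw [hQ]
    unfold ip
    simp only [hs, Finset.mul_sum, ← Finset.sum_add_distrib]
    apply Finset.sum_congr rfl
    intro x _
    ring
  have hcs : ip Ω g s ^ 2 ≤ ip Ω g g * ip Ω s s := by
    unfold ip
    have := Finset.sum_mul_sq_le_sq_mul_sq Ω g s
    simpa [sq] using this
  have hQ0 : 0 ≤ Q := by
    rw [hQ]; unfold ip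
    have : ∀ t : α → ℝ, 0 ≤ ∑ x ∈ Ω, t x * t x :=
      fun t => Finset.sum_nonneg (fun x _ => mul_self_nonneg _)
    linarith [this a, this b, this c]
  have hss0 : 0 ≤ ip Ω s s := by
    unfold ip; exact Finset.sum_nonneg (fun x _ => mul_self_nonneg _)
  rw [hgs] at hcs
  have hle : Q ≤ ip Ω s s := by
    rcases hQ0.eq_or_lt with h0 | hpos
    · rw [← h0]; exact hss0
    · have : Q * Q ≤ Q * ip Ω s s := by
        calc Q * Q = Q ^ 2 := by ring
          _ ≤ ip Ω g g * ip Ω s s := hcs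
          _ ≤ Q * ip Ω s s := mul_le_mul_of_nonneg_right hP hss0
      exact le_of_mul_le_mul_left this hpos
  rw [hss] at hle
  linarith

end abstract

variable {n : ℕ}

lemma key3_of_key2_uv (u v w : Fin n) (G G' : Finset (Edge n)) (h : key2 u v G = key2 u v G') :
    key3 u v w G = key3 u v w G' := by
  have e : ∀ H : Finset (Edge n), key3 u v w H = (key2 u v H).filter (fun e => w ∉ e.1) := by
    intro H
    unfold key3 key2
    rw [Finset.filter_filter]
    apply Finset.filter_congr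
    intro x _
    tauto
  rw [e, e, h]

lemma key3_of_key2_uw (u v w : Fin n) (G G' : Finset (Edge n)) (h : key2 u w G = key2 u w G') :
    key3 u v w G = key3 u v w G' := by
  have e : ∀ H : Finset (Edge n), key3 u v w H = (key2 u w H).filter (fun e => v ∉ e.1) := by
    intro H
    unfold key3 key2
    rw [Finset.filter_filter]
    apply Finset.filter_congr
    intro x _
    tauto
  rw [e, e, h]

lemma key3_of_key2_vw (u v w : Fin n) (G G' : Finset (Edge n)) (h : key2 v w G = key2 v w G') :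
    key3 u v w G = key3 u v w G' := by
  have e : ∀ H : Finset (Edge n), key3 u v w H = (key2 v w H).filter (fun e => u ∉ e.1) := by
    intro H
    unfold key3 key2
    rw [Finset.filter_filter]
    apply Finset.filter_congr
    intro x _
    tauto
  rw [e, e, h]

/-- **P6 (a)**: the Poincare form of the triple cluster inequality implies the interface `S3`. -/
theorem S3_of_P3 (d : Fin n → ℕ) (h : P3 d) : S3 d := by
  intro u v w huv huw hvw f
  exact cross_nonneg (realizations d) (key3 u v w) (key2 u v) (key2 u w) (key2 v w) f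
    (key3_of_key2_uv u v w) (key3_of_key2_uw u v w) (key3_of_key2_vw u v w) (h u v w huv huw hvw f)

end Crest.Agent.S0453P3S3
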