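import Mathlib
import Crest.Prelude.Def_SwitchChain
import Crest.Agent.S0453_Core
import Crest.Agent.S0453_Defs
import Crest.Agent.S0453PM
import Crest.Agent.S0453Red

/-!
# Row 299 (S0453): elementary API for `M2`, `isI`, `isM`, `tau`, `En` of `S0453_Defs`
-/

set_option autoImplicit false
open Finset

namespace Crest.Agent.S0453Tau
open Crest.SwitchChain Crest.Agent.S0453Core Crest.Agent.S0453Defs Crest.Agent.S0453PM

/-! ### abstract switch on finsets -/
section abs
variable {α : Type*} [DecidableEq α]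

lemma abs_I_sw {A B G : Finset α} (hAB : Disjoint A B) (_h1 : A ⊆ G) (_h2 : Disjoint B G) :
    B ⊆ G \ A ∪ B ∧ Disjoint A (G \ A ∪ B) :=
  ⟨subset_union_right, disjoint_union_right.mpr ⟨disjoint_sdiff, hAB⟩⟩

lemma abs_sw_sw {A B G : Finset α} (h1 : A ⊆ G) (h2 : Disjoint B G) :
    (G \ A ∪ B) \ B ∪ A = G := by
  ext e
  have a1 : e ∈ A → e ∈ G := fun h => h1 h
  have a2 : e ∈ B → e ∉ G := fun h => Finset.disjoint_left.mp h2 h
  simp only [Finset.mem_union, Finset.mem_sdiff]
  tauto

lemma abs_not_both {A G : Finset α} (hA : A.Nonempty) (h1 : A ⊆ G) (h2 : Disjoint A G) : False := by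
  obtain ⟨a, ha⟩ := hA
  exact Finset.disjoint_left.mp h2 ha (h1 ha)

lemma abs_sw_ne {A B G : Finset α} (hA : A.Nonempty) (hAB : Disjoint A B) (h1 : A ⊆ G) :
    G \ A ∪ B ≠ G := by
  obtain ⟨a, ha⟩ := hA
  intro h
  have : a ∈ G \ A ∪ B := by rw [h]; exact h1 ha
  rw [Finset.mem_union, Finset.mem_sdiff] at this
  rcases this with h | h
  · exact h.2 ha
  · exact Finset.disjoint_left.mp hAB ha h

end abs

variable {n : ℕ}

/-! ### `M2` -/

lemma mem_M2 {a b c e : Fin n} {t : Edge n} :
    t ∈ M2 a b c e ↔ t.1 = s(a, b) ∨ t.1 = s(c, e) := by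
  simp [M2]

lemma M2_eq_pair {a b c e : Fin n} (hab : a ≠ b) (hce : c ≠ e) :
    M2 a b c e = {mkE a b hab, mkE c e hce} := by
  ext t
  simp [mem_M2, mkE, Subtype.ext_iff]

lemma M2_comm (a b c e : Fin n) : M2 a b c e = M2 c e a b := by
  ext t; simp only [mem_M2]; tauto

lemma M2_swap_left (a b c e : Fin n) : M2 a b c e = M2 b a c e := by
  ext t; simp only [mem_M2, Sym2.eq_swap (a := a) (b := b)]

lemma M2_swap_right (a b c e : Fin n) : M2 a b c e = M2 a b e c := by
  ext t; simp only [mem_M2, Sym2.eq_swap (a := c) (b := e)]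

lemma mkE_mem_M2_left {a b c e : Fin n} (hab : a ≠ b) : mkE a b hab ∈ M2 a b c e := by
  simp [mem_M2, mkE]

lemma mkE_mem_M2_right {a b c e : Fin n} (hce : c ≠ e) : mkE c e hce ∈ M2 a b c e := by
  simp [mem_M2, mkE]

lemma M2_nonempty {a b c e : Fin n} (hab : a ≠ b) : (M2 a b c e).Nonempty :=
  ⟨_, mkE_mem_M2_left hab⟩

lemma M2_subset_iff {a b c e : Fin n} (hab : a ≠ b) (hce : c ≠ e) {G : Finset (Edge n)} :
    M2 a b c e ⊆ G ↔ mkE a b hab ∈ G ∧ mkE c e hce ∈ G := by
  rw [M2_eq_pair hab hce, Finset.insert_subset_iff, Finset.singleton_subset_iff]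

lemma M2_disjoint_iff {a b c e : Fin n} (hab : a ≠ b) (hce : c ≠ e) {G : Finset (Edge n)} :
    Disjoint (M2 a b c e) G ↔ mkE a b hab ∉ G ∧ mkE c e hce ∉ G := by
  rw [M2_eq_pair hab hce, Finset.disjoint_insert_left, Finset.disjoint_singleton_left]

/-- the two matchings of the 4-cycle are disjoint -/
lemma M2_disj {v w x y : Fin n} (h : Dist4 v w x y) : Disjoint (M2 v x w y) (M2 v y w x) := by
  obtain ⟨hvw, hvx, hvy, hwx, hwy, hxy⟩ := h
  rw [Finset.disjoint_left]
  intro t h1 h2
  rw [mem_M2] at h1 h2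
  rcases h1 with h1 | h1 <;> rcases h2 with h2 | h2 <;> rw [h1, Sym2.eq_iff] at h2 <;> tauto

/-- every edge of `M2 v x w y` meets `{v, w}` -/
lemma M2_touch_left {v w x y : Fin n} {t : Edge n} (ht : t ∈ M2 v x w y) : v ∈ t.1 ∨ w ∈ t.1 := by
  rw [mem_M2] at ht
  rcases ht with h | h <;> rw [h] <;> simp

/-- every edge of `M2 v x w y` meets `{x, y}` -/
lemma M2_touch_right {v w x y : Fin n} {t : Edge n} (ht : t ∈ M2 v x w y) : x ∈ t.1 ∨ y ∈ t.1 := by
  rw [mem_M2] at ht
  rcases ht with h | h <;> rw [h] <;> simp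

/-! ### `Dist4` -/

lemma _root_.Crest.Agent.S0453Defs.Dist4.swap_xy {v w x y : Fin n} (h : Dist4 v w x y) : Dist4 v w y x := by
  obtain ⟨hvw, hvx, hvy, hwx, hwy, hxy⟩ := h
  exact ⟨hvw, hvy, hvx, hwy, hwx, hxy.symm⟩

lemma _root_.Crest.Agent.S0453Defs.Dist4.swap_vw {v w x y : Fin n} (h : Dist4 v w x y) : Dist4 w v x y := by
  obtain ⟨hvw, hvx, hvy, hwx, hwy, hxy⟩ := h
  exact ⟨hvw.symm, hwx, hwy, hvx, hvy, hxy⟩

lemma _root_.Crest.Agent.S0453Defs.Dist4.swap_pairs {v w x y : Fin n} (h : Dist4 v w x y) : Dist4 x y v w := by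
  obtain ⟨hvw, hvx, hvy, hwx, hwy, hxy⟩ := h
  exact ⟨hxy, hvx.symm, hwx.symm, hvy.symm, hwy.symm, hvw⟩

lemma Dist4_swap_xy_iff {v w x y : Fin n} : Dist4 v w y x ↔ Dist4 v w x y :=
  ⟨Dist4.swap_xy, Dist4.swap_xy⟩

lemma Dist4_swap_vw_iff {v w x y : Fin n} : Dist4 w v x y ↔ Dist4 v w x y :=
  ⟨Dist4.swap_vw, Dist4.swap_vw⟩

lemma Dist4_swap_pairs_iff {v w x y : Fin n} : Dist4 x y v w ↔ Dist4 v w x y :=
  ⟨Dist4.swap_pairs, Dist4.swap_pairs⟩

/-! ### `isI`, `isM` -/

lemma isI_iff {v w x y : Fin n} (h : Dist4 v w x y) {G : Finset (Edge n)} :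
    isI v w x y G ↔ mkE v x h.2.1 ∈ G ∧ mkE w y h.2.2.2.2.1 ∈ G ∧
      mkE v y h.2.2.1 ∉ G ∧ mkE w x h.2.2.2.1 ∉ G := by
  unfold isI
  rw [M2_subset_iff h.2.1 h.2.2.2.2.1, M2_disjoint_iff h.2.2.1 h.2.2.2.1]
  tauto

lemma isI_swap_both (v w x y : Fin n) (G : Finset (Edge n)) :
    isI w v y x G ↔ isI v w x y G := by
  unfold isI
  rw [M2_comm w y v x, M2_comm w x v y]

lemma isI_swap_pairs (v w x y : Fin n) (G : Finset (Edge n)) :
    isI x y v w G ↔ isI v w x y G := by
  unfold isI
  rw [M2_swap_left x v y w, M2_swap_right v x y w, M2_swap_left x w y v, M2_swap_right w x y v,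
    M2_comm w x v y]

lemma isI_swap_vw (v w x y : Fin n) (G : Finset (Edge n)) :
    isI w v x y G ↔ isI v w y x G := by
  rw [← isI_swap_both]

lemma not_isI_both {v w x y : Fin n} (h : Dist4 v w x y) {G : Finset (Edge n)}
    (h1 : isI v w x y G) (h2 : isI v w y x G) : False :=
  abs_not_both (M2_nonempty h.2.1) h1.1 h2.2

lemma isM_swap_xy (v w x y : Fin n) (G : Finset (Edge n)) : isM v w y x G ↔ isM v w x y G := by
  unfold isM; tauto

lemma isM_swap_vw (v w x y : Fin n) (G : Finset (Edge n)) : isM w v x y G ↔ isM v w x y G := by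
  unfold isM
  rw [isI_swap_vw v w x y, isI_swap_vw v w y x]; tauto

lemma isM_swap_pairs (v w x y : Fin n) (G : Finset (Edge n)) :
    isM x y v w G ↔ isM v w x y G := by
  unfold isM
  rw [isI_swap_pairs v w x y, isI_swap_pairs w v x y, isI_swap_vw v w x y]

/-! ### `tau` -/

lemma tau_of_isI {v w x y : Fin n} {G : Finset (Edge n)} (h : isI v w x y G) :
    tau v w x y G = G \ M2 v x w y ∪ M2 v y w x := by
  unfold tau; rw [if_pos h]

lemma tau_of_isI' {v w x y : Fin n} (hd : Dist4 v w x y) {G : Finset (Edge n)}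
    (h : isI v w y x G) : tau v w x y G = G \ M2 v y w x ∪ M2 v x w y := by
  unfold tau; rw [if_neg (fun h' => not_isI_both hd h' h), if_pos h]

lemma tau_of_not_isM {v w x y : Fin n} {G : Finset (Edge n)} (h : ¬ isM v w x y G) :
    tau v w x y G = G := by
  unfold isM at h
  unfold tau; rw [if_neg (fun h' => h (Or.inl h')), if_neg (fun h' => h (Or.inr h'))]

lemma isI_tau_of_isI {v w x y : Fin n} (hd : Dist4 v w x y) {G : Finset (Edge n)}
    (h : isI v w x y G) : isI v w y x (tau v w x y G) := by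
  rw [tau_of_isI h]
  exact abs_I_sw (M2_disj hd) h.1 h.2

lemma isI_tau_of_isI' {v w x y : Fin n} (hd : Dist4 v w x y) {G : Finset (Edge n)}
    (h : isI v w y x G) : isI v w x y (tau v w x y G) := by
  rw [tau_of_isI' hd h]
  exact abs_I_sw (M2_disj hd).symm h.1 h.2

/-- `tau` is an involution -/
lemma tau_tau {v w x y : Fin n} (hd : Dist4 v w x y) (G : Finset (Edge n)) :
    tau v w x y (tau v w x y G) = G := by
  by_cases h1 : isI v w x y G
  · rw [tau_of_isI' hd (isI_tau_of_isI hd h1), tau_of_isI h1]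
    exact abs_sw_sw h1.1 h1.2
  · by_cases h2 : isI v w y x G
    · rw [tau_of_isI (isI_tau_of_isI' hd h2), tau_of_isI' hd h2]
      exact abs_sw_sw h2.1 h2.2
    · have : ¬ isM v w x y G := fun h => h.elim h1 h2
      rw [tau_of_not_isM this, tau_of_not_isM this]

lemma isI_tau {v w x y : Fin n} (hd : Dist4 v w x y) (G : Finset (Edge n)) :
    isI v w x y (tau v w x y G) ↔ isI v w y x G := by
  constructor
  · intro h
    have := isI_tau_of_isI hd h
    rwa [tau_tau hd] at this
  · exact isI_tau_of_isI' hd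

lemma isI_tau' {v w x y : Fin n} (hd : Dist4 v w x y) (G : Finset (Edge n)) :
    isI v w y x (tau v w x y G) ↔ isI v w x y G := by
  constructor
  · intro h
    have := isI_tau_of_isI' hd h
    rwa [tau_tau hd] at this
  · exact isI_tau_of_isI hd

lemma isM_tau {v w x y : Fin n} (hd : Dist4 v w x y) (G : Finset (Edge n)) :
    isM v w x y (tau v w x y G) ↔ isM v w x y G := by
  unfold isM
  rw [isI_tau hd, isI_tau' hd]; tauto

lemma tau_eq_self_iff {v w x y : Fin n} (hd : Dist4 v w x y) (G : Finset (Edge n)) :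
    tau v w x y G = G ↔ ¬ isM v w x y G := by
  constructor
  · rintro h (h1 | h1)
    · rw [tau_of_isI h1] at h
      exact abs_sw_ne (M2_nonempty hd.2.1) (M2_disj hd) h1.1 h
    · rw [tau_of_isI' hd h1] at h
      exact abs_sw_ne (M2_nonempty hd.2.2.1) (M2_disj hd).symm h1.1 h
  · exact tau_of_not_isM

lemma tau_ne_self {v w x y : Fin n} (hd : Dist4 v w x y) {G : Finset (Edge n)}
    (h : isM v w x y G) : tau v w x y G ≠ G := fun h' => (tau_eq_self_iff hd G).mp h' h

lemma tau_injective {v w x y : Fin n} (hd : Dist4 v w x y) :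
    Function.Injective (tau v w x y : Finset (Edge n) → Finset (Edge n)) :=
  (Function.LeftInverse.injective (g := tau v w x y) (tau_tau hd))

/-! symmetries of `tau` -/

lemma tau_swap_xy {v w x y : Fin n} (hd : Dist4 v w x y) (G : Finset (Edge n)) :
    tau v w y x G = tau v w x y G := by
  by_cases h1 : isI v w x y G
  · rw [tau_of_isI h1, tau_of_isI' hd.swap_xy h1]
  · by_cases h2 : isI v w y x G
    · rw [tau_of_isI h2, tau_of_isI' hd h2]
    · rw [tau_of_not_isM (fun h => h.elim h1 h2), tau_of_not_isM (fun h => h.elim h2 h1)]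

lemma tau_swap_both (v w x y : Fin n) (G : Finset (Edge n)) :
    tau w v y x G = tau v w x y G := by
  unfold tau
  simp only [isI_swap_both, M2_comm w y v x, M2_comm w x v y]

lemma tau_swap_vw {v w x y : Fin n} (hd : Dist4 v w x y) (G : Finset (Edge n)) :
    tau w v x y G = tau v w x y G := by
  rw [← tau_swap_both, tau_swap_xy hd]

lemma tau_swap_pairs {v w x y : Fin n} (_hd : Dist4 v w x y) (G : Finset (Edge n)) :
    tau x y v w G = tau v w x y G := by
  have e1 : M2 x v y w = M2 v x w y := by rw [M2_swap_left x v y w, M2_swap_right v x y w]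
  have e2 : M2 x w y v = M2 v y w x := by
    rw [M2_swap_left x w y v, M2_swap_right w x y v, M2_comm w x v y]
  unfold tau
  simp only [isI_swap_pairs v w x y, isI_swap_pairs w v x y, isI_swap_vw, e1, e2]

/-! `tau` and the labels -/

lemma key2_sw {a b : Fin n} {A B G : Finset (Edge n)}
    (hA : ∀ t ∈ A, a ∈ t.1 ∨ b ∈ t.1) (hB : ∀ t ∈ B, a ∈ t.1 ∨ b ∈ t.1) :
    key2 a b (G \ A ∪ B) = key2 a b G := by
  ext t
  have h1 := hA t
  have h2 := hB t
  simp only [key2, Finset.mem_filter, Finset.mem_union, Finset.mem_sdiff]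
  tauto

lemma key2_tau_left (v w x y : Fin n) (G : Finset (Edge n)) :
    key2 v w (tau v w x y G) = key2 v w G := by
  unfold tau
  split_ifs
  · exact key2_sw (fun t => M2_touch_left) (fun t => M2_touch_left)
  · exact key2_sw (fun t => M2_touch_left) (fun t => M2_touch_left)
  · rfl

lemma key2_tau_right (v w x y : Fin n) (G : Finset (Edge n)) :
    key2 x y (tau v w x y G) = key2 x y G := by
  unfold tau
  split_ifs
  · exact key2_sw (fun t => M2_touch_right) (fun t ht => (M2_touch_right ht).symm)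
  · exact key2_sw (fun t ht => (M2_touch_right ht).symm) (fun t => M2_touch_right)
  · rfl

lemma key2_comm (v w : Fin n) (G : Finset (Edge n)) : key2 w v G = key2 v w G := by
  ext t; simp only [key2, Finset.mem_filter]; tauto

/-! `tau` and the switch chain -/

lemma M2_mem_pmSet {v w x y : Fin n} (hd : Dist4 v w x y) :
    M2 v x w y ∈ pmSet ({v, w, x, y} : Finset (Fin n)) := by
  obtain ⟨hvw, hvx, hvy, hwx, hwy, hxy⟩ := hd
  rw [M2_eq_pair hvx hwy]
  have : ({v, w, x, y} : Finset (Fin n)) = {v, x, w, y} := by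
    ext t; simp only [Finset.mem_insert, Finset.mem_singleton]; tauto
  rw [this]
  exact pm_mem hvx hvw hvy hwx.symm hxy hwy

lemma M2_mem_pmSet' {v w x y : Fin n} (hd : Dist4 v w x y) :
    M2 v y w x ∈ pmSet ({v, w, x, y} : Finset (Fin n)) := by
  have := M2_mem_pmSet hd.swap_xy
  have e : ({v, w, y, x} : Finset (Fin n)) = {v, w, x, y} := by
    ext t; simp only [Finset.mem_insert, Finset.mem_singleton]; tauto
  rwa [e] at this

lemma switchResult_eq (v w x y : Fin n) (G : Finset (Edge n)) :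
    switchResult G (M2 v x w y) (M2 v y w x) = if isI v w x y G then tau v w x y G else G := by
  unfold switchResult
  by_cases h : isI v w x y G
  · rw [if_pos h, tau_of_isI h,
      if_pos (show M2 v x w y ⊆ G ∧ Disjoint (M2 v y w x) G from h)]
  · rw [if_neg h, if_neg (show ¬ (M2 v x w y ⊆ G ∧ Disjoint (M2 v y w x) G) from h)]

lemma switchResult_eq' {v w x y : Fin n} (hd : Dist4 v w x y) (G : Finset (Edge n)) :
    switchResult G (M2 v y w x) (M2 v x w y) = if isI v w y x G then tau v w x y G else G := by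
  rw [switchResult_eq v w y x G, tau_swap_xy hd]

lemma tau_mem_realizations {d : Fin n → ℕ} {v w x y : Fin n} (hd : Dist4 v w x y)
    {G : Finset (Edge n)} (hG : G ∈ realizations d) : tau v w x y G ∈ realizations d := by
  by_cases h1 : isI v w x y G
  · have := S0453Red.switchResult_mem hG (M2_mem_pmSet hd) (M2_mem_pmSet' hd)
    rwa [switchResult_eq, if_pos h1] at this
  · by_cases h2 : isI v w y x G
    · have := S0453Red.switchResult_mem hG (M2_mem_pmSet' hd) (M2_mem_pmSet hd)
      rwa [switchResult_eq' hd, if_pos h2] at this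
    · rwa [tau_of_not_isM (fun h => h.elim h1 h2)]

lemma tau_mem_realizations_iff {d : Fin n → ℕ} {v w x y : Fin n} (hd : Dist4 v w x y)
    {G : Finset (Edge n)} : tau v w x y G ∈ realizations d ↔ G ∈ realizations d := by
  constructor
  · intro h
    have := tau_mem_realizations hd h
    rwa [tau_tau hd] at this
  · exact tau_mem_realizations hd

/-- reindexing a sum over the realizations by `tau` -/
lemma sum_tau {d : Fin n → ℕ} {v w x y : Fin n} (hd : Dist4 v w x y)
    (F : Finset (Edge n) → ℝ) :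
    ∑ G ∈ realizations d, F (tau v w x y G) = ∑ G ∈ realizations d, F G := by
  apply Finset.sum_nbij' (tau v w x y) (tau v w x y)
  · intro G hG; exact tau_mem_realizations hd hG
  · intro G hG; exact tau_mem_realizations hd hG
  · intro G _; exact tau_tau hd G
  · intro G _; exact tau_tau hd G
  · intro G _; rfl

/-- reindexing a sum over a `tau`-invariant part of the realizations -/
lemma sum_filter_tau {d : Fin n → ℕ} {v w x y : Fin n} (hd : Dist4 v w x y)
    (p : Finset (Edge n) → Prop) [DecidablePred p] (hp : ∀ G, p (tau v w x y G) ↔ p G)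
    (F : Finset (Edge n) → ℝ) :
    ∑ G ∈ (realizations d).filter p, F (tau v w x y G) = ∑ G ∈ (realizations d).filter p, F G := by
  apply Finset.sum_nbij' (tau v w x y) (tau v w x y)
  · intro G hG
    rw [Finset.mem_filter] at hG ⊢
    exact ⟨tau_mem_realizations hd hG.1, (hp G).mpr hG.2⟩
  · intro G hG
    rw [Finset.mem_filter] at hG ⊢
    exact ⟨tau_mem_realizations hd hG.1, (hp G).mpr hG.2⟩
  · intro G _; exact tau_tau hd G
  · intro G _; exact tau_tau hd G
  · intro G _; rfl

/-! ### `En` -/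

lemma En_swap_xy {d : Fin n → ℕ} {v w x y : Fin n} (hd : Dist4 v w x y)
    (f : Finset (Edge n) → ℝ) : En d v w y x f = En d v w x y f := by
  unfold En; simp only [tau_swap_xy hd]

lemma En_swap_vw {d : Fin n → ℕ} {v w x y : Fin n} (hd : Dist4 v w x y)
    (f : Finset (Edge n) → ℝ) : En d w v x y f = En d v w x y f := by
  unfold En; simp only [tau_swap_vw hd]

lemma En_swap_pairs {d : Fin n → ℕ} {v w x y : Fin n} (hd : Dist4 v w x y)
    (f : Finset (Edge n) → ℝ) : En d x y v w f = En d v w x y f := by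
  unfold En; simp only [tau_swap_pairs hd]

lemma En_nonneg (d : Fin n → ℕ) (v w x y : Fin n) (f : Finset (Edge n) → ℝ) :
    0 ≤ En d v w x y f := Finset.sum_nonneg fun _ _ => sq_nonneg _

/-- the switch energy is the sum of the two directed proposal energies -/
lemma En_eq_switch {d : Fin n → ℕ} {v w x y : Fin n} (hd : Dist4 v w x y)
    (f : Finset (Edge n) → ℝ) :
    En d v w x y f =
      ∑ G ∈ realizations d, (f G - f (switchResult G (M2 v x w y) (M2 v y w x))) ^ 2 +
      ∑ G ∈ realizations d, (f G - f (switchResult G (M2 v y w x) (M2 v x w y))) ^ 2 := by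
  unfold En
  rw [← Finset.sum_add_distrib]
  apply Finset.sum_congr rfl
  intro G _
  rw [switchResult_eq, switchResult_eq' hd]
  by_cases h1 : isI v w x y G
  · rw [if_pos h1, if_neg (fun h2 => not_isI_both hd h1 h2)]; simp
  · by_cases h2 : isI v w y x G
    · rw [if_neg h1, if_pos h2]; simp
    · rw [if_neg h1, if_neg h2, tau_of_not_isM (fun h => h.elim h1 h2)]; simp

/-- the two directed proposal energies agree -/
lemma switch_energy_symm {d : Fin n → ℕ} {v w x y : Fin n} (hd : Dist4 v w x y)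
    (f : Finset (Edge n) → ℝ) :
    ∑ G ∈ realizations d, (f G - f (switchResult G (M2 v x w y) (M2 v y w x))) ^ 2 =
      ∑ G ∈ realizations d, (f G - f (switchResult G (M2 v y w x) (M2 v x w y))) ^ 2 := by
  rw [← sum_tau hd]
  apply Finset.sum_congr rfl
  intro G _
  rw [switchResult_eq, switchResult_eq' hd, tau_tau hd]
  by_cases h2 : isI v w y x G
  · rw [if_pos ((isI_tau hd G).mpr h2), if_pos h2]; ring
  · rw [if_neg (fun h => h2 ((isI_tau hd G).mp h)), if_neg h2]; simp

/-- `En = 2 *` one directed proposal energy -/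
lemma En_eq_two_switch {d : Fin n → ℕ} {v w x y : Fin n} (hd : Dist4 v w x y)
    (f : Finset (Edge n) → ℝ) :
    En d v w x y f =
      2 * ∑ G ∈ realizations d, (f G - f (switchResult G (M2 v x w y) (M2 v y w x))) ^ 2 := by
  rw [En_eq_switch hd, ← switch_energy_symm hd]; ring

/-- `En` only sees the graphs with a matching block -/
lemma En_eq_sum_isM (d : Fin n → ℕ) (v w x y : Fin n) (f : Finset (Edge n) → ℝ) :
    En d v w x y f =
      ∑ G ∈ (realizations d).filter (fun G => isM v w x y G), (f G - f (tau v w x y G)) ^ 2 := by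
  unfold En
  rw [Finset.sum_filter]
  apply Finset.sum_congr rfl
  intro G _
  by_cases h : isM v w x y G
  · rw [if_pos h]
  · rw [if_neg h, tau_of_not_isM h]; simp

end Crest.Agent.S0453Tau
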