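import Mathlib
import Crest.Prelude.Def_SwitchChain
import Crest.Agent.S0453_Core
import Crest.Agent.S0453_Defs
import Crest.Agent.S0453_Graph
import Crest.Agent.S0453_TauLemmas

/-!
# Row 299 (S0453), package P2 = Jc: Johnson coordinates of a fibre of `key2 v w`.
-/

set_option autoImplicit false
open Finset

namespace Crest.Agent.S0453Jc
open Crest.SwitchChain Crest.Agent.S0453Core Crest.Agent.S0453Defs Crest.Agent.S0453Graph

variable {n : ℕ}

/-- the vertices `z ∉ {v,w}` adjacent to `v` but not to `w`. -/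
def XX (v w : Fin n) (G : Finset (Edge n)) : Finset (Fin n) :=
  univ.filter fun z => z ≠ v ∧ z ≠ w ∧ adj G v z ∧ ¬ adj G w z

/-- the free columns: `z ∉ {v,w}` adjacent to exactly one of `v`, `w`. -/
def SS (v w : Fin n) (G : Finset (Edge n)) : Finset (Fin n) :=
  univ.filter fun z => z ≠ v ∧ z ≠ w ∧ (adj G v z ↔ ¬ adj G w z)

/-- the common neighbours. -/
def CC (v w : Fin n) (G : Finset (Edge n)) : Finset (Fin n) :=
  univ.filter fun z => z ≠ v ∧ z ≠ w ∧ adj G v z ∧ adj G w z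

/-- the graph of the fibre of `G` with coordinate `A ⊆ SS v w G`. -/
def mk (v w : Fin n) (G : Finset (Edge n)) (A : Finset (Fin n)) : Finset (Edge n) :=
  ofAdj fun a b => (a = v ∧ b ∈ A) ∨ (a = w ∧ b ∈ SS v w G \ A) ∨
    (adj G a b ∧ ¬ ((a = v ∨ a = w) ∧ b ∈ SS v w G) ∧ ¬ ((b = v ∨ b = w) ∧ a ∈ SS v w G))

/-- the index set of the fibre of `G`. -/
abbrev PP (v w : Fin n) (G : Finset (Edge n)) : Finset (Finset (Fin n)) :=
  (SS v w G).powersetCard (XX v w G).card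

variable {d : Fin n → ℕ} {v w x y : Fin n} {G G' : Finset (Edge n)} {A : Finset (Fin n)}

lemma mem_XX {z : Fin n} : z ∈ XX v w G ↔ z ≠ v ∧ z ≠ w ∧ adj G v z ∧ ¬ adj G w z := by
  simp [XX]

lemma mem_SS {z : Fin n} : z ∈ SS v w G ↔ z ≠ v ∧ z ≠ w ∧ (adj G v z ↔ ¬ adj G w z) := by
  simp [SS]

lemma mem_CC {z : Fin n} : z ∈ CC v w G ↔ z ≠ v ∧ z ≠ w ∧ adj G v z ∧ adj G w z := by
  simp [CC]

lemma XX_subset_SS : XX v w G ⊆ SS v w G := by
  intro z hz
  rw [mem_XX] at hz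
  rw [mem_SS]
  tauto

lemma v_notMem_SS : v ∉ SS v w G := fun h => (mem_SS.mp h).1 rfl

lemma w_notMem_SS : w ∉ SS v w G := fun h => (mem_SS.mp h).2.1 rfl

lemma dist4_of_mem (hvw : v ≠ w) (hx : x ∈ SS v w G) (hy : y ∈ SS v w G) (hxy : x ≠ y) :
    Dist4 v w x y := by
  rw [mem_SS] at hx hy
  exact ⟨hvw, hx.1.symm, hy.1.symm, hx.2.1.symm, hy.2.1.symm, hxy⟩

lemma mem_fib {G G' : Finset (Edge n)} :
    G' ∈ fib (realizations d) (key2 v w) G ↔ G' ∈ realizations d ∧ key2 v w G' = key2 v w G := by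
  simp [fib]

/-! ### adjacency in `mk` -/

lemma adj_mk {a b : Fin n} : adj (mk v w G A) a b ↔ a ≠ b ∧
    (((a = v ∧ b ∈ A) ∨ (a = w ∧ b ∈ SS v w G \ A) ∨
      (adj G a b ∧ ¬ ((a = v ∨ a = w) ∧ b ∈ SS v w G) ∧ ¬ ((b = v ∨ b = w) ∧ a ∈ SS v w G))) ∨
     ((b = v ∧ a ∈ A) ∨ (b = w ∧ a ∈ SS v w G \ A) ∨
      (adj G b a ∧ ¬ ((b = v ∨ b = w) ∧ a ∈ SS v w G) ∧ ¬ ((a = v ∨ a = w) ∧ b ∈ SS v w G)))) :=
  adj_ofAdj _

lemma adj_mk_v (hvw : v ≠ w) {z : Fin n} (hz : z ∈ SS v w G) :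
    adj (mk v w G A) v z ↔ z ∈ A := by
  have h := mem_SS.mp hz
  rw [adj_mk]
  constructor
  · rintro ⟨-, (⟨-, h1⟩ | ⟨h1, -⟩ | ⟨-, h1, -⟩) | (⟨h1, -⟩ | ⟨h1, -⟩ | ⟨-, -, h1⟩)⟩
    · exact h1
    · exact absurd h1 hvw
    · exact absurd ⟨Or.inl rfl, hz⟩ h1
    · exact absurd h1 h.1
    · exact absurd h1 h.2.1
    · exact absurd ⟨Or.inl rfl, hz⟩ h1
  · intro hA
    exact ⟨h.1.symm, Or.inl (Or.inl ⟨rfl, hA⟩)⟩

lemma adj_mk_w (hvw : v ≠ w) {z : Fin n} (hz : z ∈ SS v w G) :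
    adj (mk v w G A) w z ↔ z ∉ A := by
  have h := mem_SS.mp hz
  rw [adj_mk]
  constructor
  · rintro ⟨-, (⟨h1, -⟩ | ⟨-, h1⟩ | ⟨-, h1, -⟩) | (⟨h1, -⟩ | ⟨h1, -⟩ | ⟨-, -, h1⟩)⟩
    · exact absurd h1.symm hvw
    · exact (Finset.mem_sdiff.mp h1).2
    · exact absurd ⟨Or.inr rfl, hz⟩ h1
    · exact absurd h1 h.1
    · exact absurd h1 h.2.1
    · exact absurd ⟨Or.inr rfl, hz⟩ h1
  · intro hA
    exact ⟨h.2.1.symm, Or.inl (Or.inr (Or.inl ⟨rfl, Finset.mem_sdiff.mpr ⟨hz, hA⟩⟩))⟩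

lemma adj_mk_of_not (hA : A ⊆ SS v w G) {a b : Fin n}
    (h1 : ¬ ((a = v ∨ a = w) ∧ b ∈ SS v w G)) (h2 : ¬ ((b = v ∨ b = w) ∧ a ∈ SS v w G)) :
    adj (mk v w G A) a b ↔ adj G a b := by
  rw [adj_mk]
  constructor
  · rintro ⟨-, (⟨h3, h4⟩ | ⟨h3, h4⟩ | ⟨h3, -, -⟩) | (⟨h3, h4⟩ | ⟨h3, h4⟩ | ⟨h3, -, -⟩)⟩
    · exact absurd ⟨Or.inl h3, hA h4⟩ h1
    · exact absurd ⟨Or.inr h3, (Finset.mem_sdiff.mp h4).1⟩ h1
    · exact h3
    · exact absurd ⟨Or.inl h3, hA h4⟩ h2
    · exact absurd ⟨Or.inr h3, (Finset.mem_sdiff.mp h4).1⟩ h2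
    · exact adj_symm h3
  · intro h
    exact ⟨adj_ne h, Or.inl (Or.inr (Or.inr ⟨h, h1, h2⟩))⟩

lemma key2_mk (hA : A ⊆ SS v w G) : key2 v w (mk v w G A) = key2 v w G := by
  rw [key2_eq_iff]
  intro a b h1 h2 h3 h4
  exact adj_mk_of_not hA (by tauto) (by tauto)

lemma adj_mk_v_of_notMem (hA : A ⊆ SS v w G) {z : Fin n} (hz : z ∉ SS v w G) :
    adj (mk v w G A) v z ↔ adj G v z :=
  adj_mk_of_not hA (fun h => hz h.2) (fun h => v_notMem_SS h.2)

lemma adj_mk_w_of_notMem (hA : A ⊆ SS v w G) {z : Fin n} (hz : z ∉ SS v w G) :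
    adj (mk v w G A) w z ↔ adj G w z :=
  adj_mk_of_not hA (fun h => hz h.2) (fun h => w_notMem_SS h.2)

theorem SS_mk (hvw : v ≠ w) (hA : A ⊆ SS v w G) : SS v w (mk v w G A) = SS v w G := by
  ext z
  by_cases hz : z ∈ SS v w G
  · have h := mem_SS.mp hz
    rw [mem_SS, adj_mk_v hvw hz, adj_mk_w hvw hz]
    simp only [not_not, iff_self, and_true]
    exact ⟨fun _ => hz, fun _ => ⟨h.1, h.2.1⟩⟩
  · rw [mem_SS, adj_mk_v_of_notMem hA hz, adj_mk_w_of_notMem hA hz, ← mem_SS]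

theorem XX_mk (hvw : v ≠ w) (hA : A ⊆ SS v w G) : XX v w (mk v w G A) = A := by
  ext z
  by_cases hz : z ∈ SS v w G
  · have h := mem_SS.mp hz
    rw [mem_XX, adj_mk_v hvw hz, adj_mk_w hvw hz]
    simp only [not_not, and_self]
    exact ⟨fun h' => h'.2.2, fun h' => ⟨h.1, h.2.1, h'⟩⟩
  · rw [mem_XX, adj_mk_v_of_notMem hA hz, adj_mk_w_of_notMem hA hz, ← mem_XX]
    exact ⟨fun h => absurd (XX_subset_SS h) hz, fun h => absurd (hA h) hz⟩

/-! ### degrees -/

lemma card_eq_of_sdiff_inter {s t T : Finset (Fin n)} (h1 : s \ T = t \ T)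
    (h2 : (s ∩ T).card = (t ∩ T).card) : s.card = t.card := by
  rw [← Finset.card_sdiff_add_card_inter s T, ← Finset.card_sdiff_add_card_inter t T, h1, h2]

lemma card_nb_inter_pair (hvw : v ≠ w) (H : Finset (Edge n)) (z : Fin n) :
    (nb H z ∩ {v, w}).card = (if adj H v z then 1 else 0) + (if adj H w z then 1 else 0) := by
  rw [Finset.inter_comm, ← Finset.filter_mem_eq_inter, Finset.filter_insert,
    Finset.filter_singleton]
  simp only [mem_nb, adj_comm (a := z)]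
  split_ifs <;> simp [hvw]

lemma mem_SS_iff_card (hvw : v ≠ w) {H : Finset (Edge n)} {z : Fin n} :
    z ∈ SS v w H ↔ z ≠ v ∧ z ≠ w ∧ (nb H z ∩ {v, w}).card = 1 := by
  rw [mem_SS, card_nb_inter_pair hvw]
  by_cases h1 : adj H v z <;> by_cases h2 : adj H w z <;> simp [h1, h2]

lemma mem_CC_iff_card (hvw : v ≠ w) {H : Finset (Edge n)} {z : Fin n} :
    z ∈ CC v w H ↔ z ≠ v ∧ z ≠ w ∧ (nb H z ∩ {v, w}).card = 2 := by
  rw [mem_CC, card_nb_inter_pair hvw]
  by_cases h1 : adj H v z <;> by_cases h2 : adj H w z <;> simp [h1, h2]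

lemma nb_inter_SS_v : nb G v ∩ SS v w G = XX v w G := by
  ext z
  rw [Finset.mem_inter, mem_nb, mem_SS, mem_XX]
  tauto

lemma nb_inter_SS_w : nb G w ∩ SS v w G = SS v w G \ XX v w G := by
  ext z
  rw [Finset.mem_inter, mem_nb, Finset.mem_sdiff, mem_SS, mem_XX]
  tauto

lemma card_nb_mk (hvw : v ≠ w) (hA : A ∈ PP v w G) (p : Fin n) :
    (nb (mk v w G A) p).card = (nb G p).card := by
  obtain ⟨hAS, hAc⟩ := Finset.mem_powersetCard.mp hA
  by_cases hpv : p = v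
  · subst hpv
    apply card_eq_of_sdiff_inter (T := SS p w G)
    · ext z
      simp only [Finset.mem_sdiff, mem_nb]
      constructor
      · rintro ⟨h1, h2⟩; exact ⟨(adj_mk_v_of_notMem hAS h2).mp h1, h2⟩
      · rintro ⟨h1, h2⟩; exact ⟨(adj_mk_v_of_notMem hAS h2).mpr h1, h2⟩
    · have : nb (mk p w G A) p ∩ SS p w G = A := by
        rw [← SS_mk hvw hAS, nb_inter_SS_v, XX_mk hvw hAS]
      rw [this, nb_inter_SS_v, hAc]
  by_cases hpw : p = w
  · subst hpw
    apply card_eq_of_sdiff_inter (T := SS v p G)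
    · ext z
      simp only [Finset.mem_sdiff, mem_nb]
      constructor
      · rintro ⟨h1, h2⟩; exact ⟨(adj_mk_w_of_notMem hAS h2).mp h1, h2⟩
      · rintro ⟨h1, h2⟩; exact ⟨(adj_mk_w_of_notMem hAS h2).mpr h1, h2⟩
    · have : nb (mk v p G A) p ∩ SS v p G = SS v p G \ A := by
        conv_lhs => rw [← SS_mk hvw hAS]
        rw [nb_inter_SS_w, XX_mk hvw hAS, SS_mk hvw hAS]
      rw [this, nb_inter_SS_w, Finset.card_sdiff_of_subset hAS,
        Finset.card_sdiff_of_subset XX_subset_SS, hAc]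
  by_cases hpS : p ∈ SS v w G
  · apply card_eq_of_sdiff_inter (T := {v, w})
    · ext z
      simp only [Finset.mem_sdiff, mem_nb, Finset.mem_insert, Finset.mem_singleton]
      have : ¬ (z = v ∨ z = w) → (adj (mk v w G A) p z ↔ adj G p z) := fun hz =>
        adj_mk_of_not hAS (fun h => by tauto) (fun h => by tauto)
      tauto
    · have h1 := ((mem_SS_iff_card hvw).mp hpS).2.2
      have h2 : p ∈ SS v w (mk v w G A) := by rw [SS_mk hvw hAS]; exact hpS
      rw [h1, ((mem_SS_iff_card hvw).mp h2).2.2]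
  · congr 1
    ext z
    rw [mem_nb, mem_nb]
    exact adj_mk_of_not hAS (fun h => by tauto) (fun h => by tauto)

theorem mk_mem_fib (hvw : v ≠ w) (hG : G ∈ realizations d) (hA : A ∈ PP v w G) :
    mk v w G A ∈ fib (realizations d) (key2 v w) G := by
  rw [mem_fib]
  refine ⟨?_, key2_mk (Finset.mem_powersetCard.mp hA).1⟩
  rw [mem_realizations] at hG ⊢
  intro p
  rw [card_nb_mk hvw hA, hG]

/-! ### invariants of the fibre -/

lemma card_inter_pair_eq (hG : G ∈ realizations d) (hG' : G' ∈ realizations d)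
    (hk : key2 v w G' = key2 v w G) {z : Fin n} (hzv : z ≠ v) (hzw : z ≠ w) :
    (nb G' z ∩ {v, w}).card = (nb G z ∩ {v, w}).card := by
  rw [mem_realizations] at hG hG'
  have h1 := Finset.card_sdiff_add_card_inter (nb G z) {v, w}
  have h2 := Finset.card_sdiff_add_card_inter (nb G' z) {v, w}
  have h3 : nb G' z \ {v, w} = nb G z \ {v, w} := by
    ext u
    simp only [Finset.mem_sdiff, mem_nb, Finset.mem_insert, Finset.mem_singleton, not_or]
    have := key2_eq_iff.mp hk z u hzv hzw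
    tauto
  rw [hG] at h1
  rw [hG', h3] at h2
  omega

lemma SS_eq (hvw : v ≠ w) (hG : G ∈ realizations d) (hG' : G' ∈ realizations d)
    (hk : key2 v w G' = key2 v w G) : SS v w G' = SS v w G := by
  ext z
  rw [mem_SS_iff_card hvw, mem_SS_iff_card hvw]
  constructor
  · rintro ⟨h1, h2, h3⟩; exact ⟨h1, h2, by rw [← card_inter_pair_eq hG hG' hk h1 h2]; exact h3⟩
  · rintro ⟨h1, h2, h3⟩; exact ⟨h1, h2, by rw [card_inter_pair_eq hG hG' hk h1 h2]; exact h3⟩

lemma CC_eq (hvw : v ≠ w) (hG : G ∈ realizations d) (hG' : G' ∈ realizations d)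
    (hk : key2 v w G' = key2 v w G) : CC v w G' = CC v w G := by
  ext z
  rw [mem_CC_iff_card hvw, mem_CC_iff_card hvw]
  constructor
  · rintro ⟨h1, h2, h3⟩; exact ⟨h1, h2, by rw [← card_inter_pair_eq hG hG' hk h1 h2]; exact h3⟩
  · rintro ⟨h1, h2, h3⟩; exact ⟨h1, h2, by rw [card_inter_pair_eq hG hG' hk h1 h2]; exact h3⟩

lemma CC_comm (v w : Fin n) (H : Finset (Edge n)) : CC w v H = CC v w H := by
  ext z; rw [mem_CC, mem_CC]; tauto

lemma card_SS (v w : Fin n) (H : Finset (Edge n)) :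
    (SS v w H).card = (XX v w H).card + (XX w v H).card := by
  rw [← Finset.card_union_of_disjoint]
  · congr 1
    ext z
    rw [Finset.mem_union, mem_SS, mem_XX, mem_XX]
    tauto
  · rw [Finset.disjoint_left]
    intro z h1 h2
    rw [mem_XX] at h1 h2
    tauto

lemma card_nb_left (v w : Fin n) (H : Finset (Edge n)) :
    (nb H v).card = (XX v w H).card + (CC v w H).card + (if adj H v w then 1 else 0) := by
  have e1 := Finset.card_filter_add_card_filter_not (s := nb H v) (fun z => z = w)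
  have e2 := Finset.card_filter_add_card_filter_not (s := (nb H v).filter (fun z => ¬ z = w))
    (fun z => adj H w z)
  have h1 : ((nb H v).filter (fun z => z = w)).card = if adj H v w then 1 else 0 := by
    rw [Finset.filter_eq']
    simp only [mem_nb]
    split_ifs <;> simp
  have h2 : ((nb H v).filter (fun z => ¬ z = w)).filter (fun z => adj H w z) = CC v w H := by
    ext z
    simp only [Finset.mem_filter, mem_nb, mem_CC]
    constructor
    · rintro ⟨⟨h1, h2⟩, h3⟩; exact ⟨(adj_ne h1).symm, h2, h1, h3⟩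
    · rintro ⟨-, h2, h1, h3⟩; exact ⟨⟨h1, h2⟩, h3⟩
  have h3 : ((nb H v).filter (fun z => ¬ z = w)).filter (fun z => ¬ adj H w z) = XX v w H := by
    ext z
    simp only [Finset.mem_filter, mem_nb, mem_XX]
    constructor
    · rintro ⟨⟨h1, h2⟩, h3⟩; exact ⟨(adj_ne h1).symm, h2, h1, h3⟩
    · rintro ⟨-, h2, h1, h3⟩; exact ⟨⟨h1, h2⟩, h3⟩
  rw [h2, h3] at e2
  rw [h1] at e1
  omega

lemma fib_invariants (hvw : v ≠ w) (hG : G ∈ realizations d) (hG' : G' ∈ realizations d)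
    (hk : key2 v w G' = key2 v w G) :
    (XX v w G').card = (XX v w G).card ∧ (adj G' v w ↔ adj G v w) := by
  have a1 := card_nb_left v w G
  have a2 := card_nb_left w v G
  have b1 := card_nb_left v w G'
  have b2 := card_nb_left w v G'
  have s1 := card_SS v w G
  have s2 := card_SS v w G'
  rw [SS_eq hvw hG hG' hk] at s2
  rw [CC_comm] at a2 b2
  rw [CC_eq hvw hG hG' hk] at b1 b2
  rw [mem_realizations] at hG hG'
  rw [hG] at a1 a2
  rw [hG'] at b1 b2
  simp only [adj_comm (a := w) (b := v)] at a2 b2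
  by_cases h1 : adj G v w <;> by_cases h2 : adj G' v w <;> simp only [h1, h2, if_true, if_false] at * <;>
    first
      | (refine ⟨by omega, by tauto⟩)
      | (exfalso; omega)

theorem XX_mem_PP_of_fib (hvw : v ≠ w) (hG : G ∈ realizations d)
    (hG' : G' ∈ fib (realizations d) (key2 v w) G) : XX v w G' ∈ PP v w G := by
  rw [mem_fib] at hG'
  rw [Finset.mem_powersetCard]
  refine ⟨?_, (fib_invariants hvw hG hG'.1 hG'.2).1⟩
  rw [← SS_eq hvw hG hG'.1 hG'.2]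
  exact XX_subset_SS

lemma adj_v_iff_mem_CC {H : Finset (Edge n)} {z : Fin n} (hzv : z ≠ v) (hzw : z ≠ w)
    (hz : z ∉ SS v w H) : adj H v z ↔ z ∈ CC v w H := by
  have h : ¬ (adj H v z ↔ ¬ adj H w z) := fun h => hz (mem_SS.mpr ⟨hzv, hzw, h⟩)
  rw [mem_CC]
  by_cases a1 : adj H v z <;> by_cases a2 : adj H w z <;> simp_all

lemma adj_w_iff_mem_CC {H : Finset (Edge n)} {z : Fin n} (hzv : z ≠ v) (hzw : z ≠ w)
    (hz : z ∉ SS v w H) : adj H w z ↔ z ∈ CC v w H := by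
  have h : ¬ (adj H v z ↔ ¬ adj H w z) := fun h => hz (mem_SS.mpr ⟨hzv, hzw, h⟩)
  rw [mem_CC]
  by_cases a1 : adj H v z <;> by_cases a2 : adj H w z <;> simp_all

/-- outside the free slots all graphs of a fibre agree. -/
lemma adj_iff_of_fib (hvw : v ≠ w) (hG : G ∈ realizations d) (hG' : G' ∈ realizations d)
    (hk : key2 v w G' = key2 v w G) {a b : Fin n}
    (h1 : ¬ ((a = v ∨ a = w) ∧ b ∈ SS v w G)) (h2 : ¬ ((b = v ∨ b = w) ∧ a ∈ SS v w G)) :
    adj G a b ↔ adj G' a b := by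
  have hvw' := (fib_invariants hvw hG hG' hk).2
  have hS := SS_eq hvw hG hG' hk
  have hC := CC_eq hvw hG hG' hk
  -- rows of `v` and `w` outside `SS`
  have hv : ∀ z, z ∉ SS v w G → (adj G v z ↔ adj G' v z) := by
    intro z hz
    by_cases hzv : z = v
    · subst hzv; exact ⟨fun h => absurd h (not_adj_self _ _), fun h => absurd h (not_adj_self _ _)⟩
    by_cases hzw : z = w
    · subst hzw; exact hvw'.symm
    have hz' : z ∉ SS v w G' := by rw [hS]; exact hz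
    rw [adj_v_iff_mem_CC hzv hzw hz, adj_v_iff_mem_CC hzv hzw hz', hC]
  have hw : ∀ z, z ∉ SS v w G → (adj G w z ↔ adj G' w z) := by
    intro z hz
    by_cases hzw : z = w
    · subst hzw; exact ⟨fun h => absurd h (not_adj_self _ _), fun h => absurd h (not_adj_self _ _)⟩
    by_cases hzv : z = v
    · subst hzv; rw [adj_comm, adj_comm (G := G')]; exact hvw'.symm
    have hz' : z ∉ SS v w G' := by rw [hS]; exact hz
    rw [adj_w_iff_mem_CC hzv hzw hz, adj_w_iff_mem_CC hzv hzw hz', hC]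
  by_cases hav : a = v
  · subst hav; exact hv b (fun h => h1 ⟨Or.inl rfl, h⟩)
  by_cases haw : a = w
  · subst haw; exact hw b (fun h => h1 ⟨Or.inr rfl, h⟩)
  by_cases hbv : b = v
  · subst hbv; rw [adj_comm, adj_comm (G := G')]; exact hv a (fun h => h2 ⟨Or.inl rfl, h⟩)
  by_cases hbw : b = w
  · subst hbw; rw [adj_comm, adj_comm (G := G')]; exact hw a (fun h => h2 ⟨Or.inr rfl, h⟩)
  exact (key2_eq_iff.mp hk a b hav haw hbv hbw).symm

theorem mk_XX (hvw : v ≠ w) (hG : G ∈ realizations d)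
    (hG' : G' ∈ fib (realizations d) (key2 v w) G) : mk v w G (XX v w G') = G' := by
  have hA := (Finset.mem_powersetCard.mp (XX_mem_PP_of_fib hvw hG hG')).1
  rw [mem_fib] at hG'
  obtain ⟨hG'r, hk⟩ := hG'
  have hS := SS_eq hvw hG hG'r hk
  have hv : ∀ z ∈ SS v w G, (adj (mk v w G (XX v w G')) v z ↔ adj G' v z) := by
    intro z hz
    rw [adj_mk_v hvw hz, mem_XX]
    rw [← hS, mem_SS] at hz
    tauto
  have hw : ∀ z ∈ SS v w G, (adj (mk v w G (XX v w G')) w z ↔ adj G' w z) := by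
    intro z hz
    rw [adj_mk_w hvw hz, mem_XX]
    rw [← hS, mem_SS] at hz
    tauto
  apply ext_adj
  intro a b
  by_cases h1 : (a = v ∨ a = w) ∧ b ∈ SS v w G
  · obtain ⟨rfl | rfl, hb⟩ := h1
    · exact hv b hb
    · exact hw b hb
  by_cases h2 : (b = v ∨ b = w) ∧ a ∈ SS v w G
  · obtain ⟨rfl | rfl, ha⟩ := h2
    · rw [adj_comm, adj_comm (G := G')]; exact hv a ha
    · rw [adj_comm, adj_comm (G := G')]; exact hw a ha
  rw [adj_mk_of_not hA h1 h2]
  exact adj_iff_of_fib hvw hG hG'r hk h1 h2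

/-- **transfer**: sums over the fibre are sums over `k`-subsets of `SS`. -/
theorem sum_fib (hvw : v ≠ w) (hG : G ∈ realizations d) (F : Finset (Edge n) → ℝ) :
    ∑ G' ∈ fib (realizations d) (key2 v w) G, F G' = ∑ A ∈ PP v w G, F (mk v w G A) := by
  apply Finset.sum_nbij' (XX v w) (mk v w G)
  · intro G' hG'; exact XX_mem_PP_of_fib hvw hG hG'
  · intro A hA; exact mk_mem_fib hvw hG hA
  · intro G' hG'; exact mk_XX hvw hG hG'
  · intro A hA; exact XX_mk hvw (Finset.mem_powersetCard.mp hA).1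
  · intro G' hG'; rw [mk_XX hvw hG hG']

theorem card_fib (hvw : v ≠ w) (hG : G ∈ realizations d) :
    (fib (realizations d) (key2 v w) G).card = (PP v w G).card := by
  apply Finset.card_nbij' (XX v w) (mk v w G)
  · intro G' hG'; exact XX_mem_PP_of_fib hvw hG hG'
  · intro A hA; exact mk_mem_fib hvw hG hA
  · intro G' hG'; exact mk_XX hvw hG hG'
  · intro A hA; exact XX_mk hvw (Finset.mem_powersetCard.mp hA).1

/-! ### dictionary -/

/-- dictionary: `isM` = "`x`, `y` free and separated by the coordinate". -/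
theorem isM_iff (h : Dist4 v w x y) :
    isM v w x y G ↔ x ∈ SS v w G ∧ y ∈ SS v w G ∧ (x ∈ XX v w G ↔ y ∉ XX v w G) := by
  have h' : Dist4 v w y x := h.swap_xy
  unfold isM
  rw [isI_iff h, isI_iff h', mem_SS, mem_SS, mem_XX, mem_XX]
  obtain ⟨h1, h2, h3, h4, h5, h6⟩ := h
  have := h2.symm
  have := h3.symm
  have := h4.symm
  have := h5.symm
  tauto

theorem isM_mk (h : Dist4 v w x y) (hA : A ⊆ SS v w G) :
    isM v w x y (mk v w G A) ↔ x ∈ SS v w G ∧ y ∈ SS v w G ∧ (x ∈ A ↔ y ∉ A) := by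
  rw [isM_iff h, SS_mk h.1 hA, XX_mk h.1 hA]

lemma mem_image_swap {z : Fin n} {B : Finset (Fin n)} :
    z ∈ B.image (Equiv.swap x y) ↔ Equiv.swap x y z ∈ B := by
  rw [Finset.mem_image]
  constructor
  · rintro ⟨u, hu, rfl⟩; rwa [Equiv.swap_apply_self]
  · intro h; exact ⟨_, h, Equiv.swap_apply_self x y z⟩

lemma XX_switch (h : Dist4 v w x y) (hI : isI v w x y G) :
    XX v w (G \ M2 v x w y ∪ M2 v y w x) = (XX v w G).image (Equiv.swap x y) := by
  rw [isI_iff h] at hI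
  obtain ⟨h1, h2, h3, h4, h5, h6⟩ := h
  obtain ⟨i1, i2, i3, i4⟩ := hI
  have ne2 : ∀ {a b c e : Fin n}, a ≠ c → a ≠ e → ¬ s(a, b) = s(c, e) := by
    intro a b c e hac hae hs
    rw [Sym2.eq_iff] at hs
    rcases hs with ⟨a1, -⟩ | ⟨a1, -⟩
    · exact hac a1
    · exact hae a1
  have av : ∀ z, adj (G \ M2 v x w y ∪ M2 v y w x) v z ↔ (adj G v z ∧ z ≠ x) ∨ z = y := by
    intro z
    rw [adj_sdiff_union_M2 h3 h4]
    simp only [Ne, Sym2.congr_right, ne2 h1 h3, ne2 h1 h2, not_false_eq_true, and_true, or_false]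
  have aw : ∀ z, adj (G \ M2 v x w y ∪ M2 v y w x) w z ↔ (adj G w z ∧ z ≠ y) ∨ z = x := by
    intro z
    rw [adj_sdiff_union_M2 h3 h4]
    simp only [Ne, Sym2.congr_right, ne2 h1.symm h4, ne2 h1.symm h5, not_false_eq_true, true_and,
      false_or]
  ext z
  rw [mem_image_swap, mem_XX, av, aw]
  by_cases hzx : z = x
  · subst hzx
    rw [Equiv.swap_apply_left, mem_XX]
    tauto
  by_cases hzy : z = y
  · subst hzy
    rw [Equiv.swap_apply_right, mem_XX]
    have := h2.symm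
    have := h4.symm
    have := h3.symm
    have := h5.symm
    tauto
  rw [Equiv.swap_apply_of_ne_of_ne hzx hzy, mem_XX]
  tauto

theorem XX_tau (h : Dist4 v w x y) (hx : x ∈ SS v w G) (hy : y ∈ SS v w G) :
    XX v w (tau v w x y G) = (XX v w G).image (Equiv.swap x y) := by
  by_cases h1 : isI v w x y G
  · rw [S0453Tau.tau_of_isI h1, XX_switch h h1]
  by_cases h2 : isI v w y x G
  · rw [S0453Tau.tau_of_isI' h h2, XX_switch h.swap_xy h2, Equiv.swap_comm]
  have hM : ¬ isM v w x y G := fun hM => hM.elim h1 h2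
  rw [S0453Tau.tau_of_not_isM hM]
  rw [isM_iff h] at hM
  have hxy : x ∈ XX v w G ↔ y ∈ XX v w G := by tauto
  ext z
  rw [mem_image_swap]
  by_cases hzx : z = x
  · subst hzx; rw [Equiv.swap_apply_left]; exact hxy
  by_cases hzy : z = y
  · subst hzy; rw [Equiv.swap_apply_right]; exact hxy.symm
  rw [Equiv.swap_apply_of_ne_of_ne hzx hzy]

/-- dictionary: `tau` = swap of the coordinate. -/
theorem tau_mk (h : Dist4 v w x y) (hG : G ∈ realizations d) (hA : A ∈ PP v w G)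
    (hx : x ∈ SS v w G) (hy : y ∈ SS v w G) :
    tau v w x y (mk v w G A) = mk v w G (A.image (Equiv.swap x y)) := by
  have hAS := (Finset.mem_powersetCard.mp hA).1
  have hm := mk_mem_fib h.1 hG hA
  have ht : tau v w x y (mk v w G A) ∈ fib (realizations d) (key2 v w) G := by
    rw [mem_fib] at hm ⊢
    exact ⟨S0453Tau.tau_mem_realizations h hm.1, by rw [S0453Tau.key2_tau_left, hm.2]⟩
  rw [← mk_XX h.1 hG ht, XX_tau h (by rw [SS_mk h.1 hAS]; exact hx)
    (by rw [SS_mk h.1 hAS]; exact hy), XX_mk h.1 hAS]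

theorem tau_mk_of_notMem (h : Dist4 v w x y) (hA : A ⊆ SS v w G)
    (hxy : ¬ (x ∈ SS v w G ∧ y ∈ SS v w G)) :
    tau v w x y (mk v w G A) = mk v w G A := by
  apply S0453Tau.tau_of_not_isM
  rw [isM_mk h hA]
  tauto

end Crest.Agent.S0453Jc
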