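import Mathlib
import Crest.Prelude.Def_SwitchChain
import Crest.Agent.S0453_Core
import Crest.Agent.S0453_Defs

/-!
# Row 299 (S0453), package P4: `ClaimB d` and `G4 d` from the pair-fibre API (P2) and the abstract
Johnson inequalities (P3).
-/

set_option autoImplicit false
open Finset

namespace Crest.Agent.S0453P4
open Crest.SwitchChain Crest.Agent.S0453Core Crest.Agent.S0453Defs

/-! ### the abstract statements consumed -/

/-- `x`, `y` are separated by `A`. -/
def sep {ι : Type*} (x y : ι) (A : Finset ι) : Prop := x ∈ A ↔ y ∉ A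

instance {ι : Type*} [DecidableEq ι] (x y : ι) (A : Finset ι) : Decidable (sep x y A) := by
  unfold sep; infer_instance

/-- abstract Claim B on `p`-subsets of `S`. -/
def JB (ι : Type*) [DecidableEq ι] : Prop :=
  ∀ (S : Finset ι) (p : ℕ) (f : Finset ι → ℝ),
    ∑ x ∈ S, ∑ y ∈ S.erase x,
        (((S.powersetCard p).filter (sep x y)).card : ℝ) *
          ((∑ A ∈ (S.powersetCard p).filter (sep x y), f A) /
              (((S.powersetCard p).filter (sep x y)).card : ℝ)
            - (∑ A ∈ S.powersetCard p, f A) / ((S.powersetCard p).card : ℝ)) ^ 2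
      ≤ (∑ x ∈ S, ∑ y ∈ S.erase x, ∑ A ∈ S.powersetCard p,
          (f A - f (A.image (Equiv.swap x y))) ^ 2) / 4

/-- abstract Johnson gap on `p`-subsets of `S`. -/
def JG (ι : Type*) [DecidableEq ι] : Prop :=
  ∀ (S : Finset ι) (p : ℕ) (f : Finset ι → ℝ),
    ∑ A ∈ S.powersetCard p, (f A - (∑ B ∈ S.powersetCard p, f B) / ((S.powersetCard p).card : ℝ)) ^ 2
      ≤ (∑ x ∈ S, ∑ y ∈ S.erase x, ∑ A ∈ S.powersetCard p,
          (f A - f (A.image (Equiv.swap x y))) ^ 2) / 8

variable {n : ℕ}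

/-- the pair-fibre API (Johnson coordinates of a `key2`-fibre). -/
def FibAPI (d : Fin n → ℕ) (v w : Fin n) : Prop :=
  ∀ G₀ ∈ realizations d, ∃ (S : Finset (Fin n)) (p : ℕ) (Φ : Finset (Edge n) → Finset (Fin n)),
    v ∉ S ∧ w ∉ S ∧
    Set.BijOn Φ (fib (realizations d) (key2 v w) G₀) (S.powersetCard p) ∧
    (∀ x ∈ S, ∀ y ∈ S, x ≠ y → ∀ G ∈ fib (realizations d) (key2 v w) G₀,
      tau v w x y G ∈ fib (realizations d) (key2 v w) G₀ ∧
        Φ (tau v w x y G) = (Φ G).image (Equiv.swap x y)) ∧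
    (∀ x y, Dist4 v w x y → ∀ G ∈ fib (realizations d) (key2 v w) G₀,
      (isM v w x y G ↔ (x ∈ S ∧ y ∈ S ∧ sep x y (Φ G))))

/-! ### abstract transport along a bijection -/

section transport
variable {α ι : Type*} [DecidableEq ι]

lemma sum_transport {β : Type*} {F : Finset α} {P : Finset β} {Φ : α → β}
    (hb : Set.BijOn Φ F P) (g : β → ℝ) : ∑ A ∈ P, g A = ∑ G ∈ F, g (Φ G) :=
  (Finset.sum_nbij Φ hb.mapsTo hb.injOn hb.surjOn (fun _ _ => rfl)).symm

lemma card_transport {β : Type*} {F : Finset α} {P : Finset β} {Φ : α → β}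
    (hb : Set.BijOn Φ F P) : P.card = F.card :=
  (Finset.card_nbij Φ hb.mapsTo hb.injOn hb.surjOn).symm

lemma bijOn_filter {β : Type*} {F : Finset α} {P : Finset β} {Φ : α → β}
    (hb : Set.BijOn Φ F P) (q : β → Prop) [DecidablePred q] :
    Set.BijOn Φ (F.filter (fun G => q (Φ G))) (P.filter q) := by
  refine ⟨?_, ?_, ?_⟩
  · intro G hG
    rw [Finset.mem_coe, Finset.mem_filter] at hG ⊢
    exact ⟨hb.mapsTo hG.1, hG.2⟩
  · intro G hG G' hG' h
    rw [Finset.mem_coe, Finset.mem_filter] at hG hG'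
    exact hb.injOn hG.1 hG'.1 h
  · intro A hA
    rw [Finset.mem_coe, Finset.mem_filter] at hA
    obtain ⟨G, hG, rfl⟩ := hb.surjOn hA.1
    exact ⟨G, by rw [Finset.mem_coe, Finset.mem_filter]; exact ⟨hG, hA.2⟩, rfl⟩

variable [Nonempty α]

/-- fibre version of the abstract Claim B. -/
lemma fibreB (hJ : JB ι) (F : Finset α) (S : Finset ι) (p : ℕ) (Φ : α → Finset ι)
    (hb : Set.BijOn Φ F (S.powersetCard p)) (T : ι → ι → α → α)
    (hT : ∀ x ∈ S, ∀ y ∈ S, x ≠ y → ∀ G ∈ F, T x y G ∈ F ∧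
      Φ (T x y G) = (Φ G).image (Equiv.swap x y)) (f : α → ℝ) :
    ∑ x ∈ S, ∑ y ∈ S.erase x,
        ((F.filter (fun G => sep x y (Φ G))).card : ℝ) *
          ((∑ G ∈ F.filter (fun G => sep x y (Φ G)), f G) /
              ((F.filter (fun G => sep x y (Φ G))).card : ℝ)
            - (∑ G ∈ F, f G) / (F.card : ℝ)) ^ 2
      ≤ (∑ x ∈ S, ∑ y ∈ S.erase x, ∑ G ∈ F, (f G - f (T x y G)) ^ 2) / 4 := by
  have hinv : ∀ G ∈ F, Function.invFunOn Φ (F : Set α) (Φ G) = G := by
    intro G hG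
    exact hb.injOn.leftInvOn_invFunOn hG
  have key := hJ S p (fun A => f (Function.invFunOn Φ (F : Set α) A))
  have e0 : ∑ A ∈ S.powersetCard p, f (Function.invFunOn Φ (F : Set α) A) = ∑ G ∈ F, f G := by
    rw [sum_transport hb]
    exact Finset.sum_congr rfl (fun G hG => by rw [hinv G hG])
  have e1 : ∀ x y, ∑ A ∈ (S.powersetCard p).filter (sep x y),
      f (Function.invFunOn Φ (F : Set α) A) = ∑ G ∈ F.filter (fun G => sep x y (Φ G)), f G := by
    intro x y
    rw [sum_transport (bijOn_filter hb (sep x y))]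
    exact Finset.sum_congr rfl (fun G hG => by rw [hinv G (Finset.mem_filter.mp hG).1])
  have e2 : ∀ x y, ((S.powersetCard p).filter (sep x y)).card
      = (F.filter (fun G => sep x y (Φ G))).card := fun x y =>
    card_transport (bijOn_filter hb (sep x y))
  have e3 : ∀ x ∈ S, ∀ y ∈ S.erase x, ∑ A ∈ S.powersetCard p,
      (f (Function.invFunOn Φ (F : Set α) A)
        - f (Function.invFunOn Φ (F : Set α) (A.image (Equiv.swap x y)))) ^ 2
      = ∑ G ∈ F, (f G - f (T x y G)) ^ 2 := by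
    intro x hx y hy
    rw [sum_transport hb]
    apply Finset.sum_congr rfl
    intro G hG
    obtain ⟨h1, h2⟩ := hT x hx y (Finset.mem_of_mem_erase hy) (Finset.ne_of_mem_erase hy).symm G hG
    rw [hinv G hG, ← h2, hinv _ h1]
  rw [e0, card_transport hb] at key
  simp only [e1, e2] at key
  rw [Finset.sum_congr rfl (fun x hx => Finset.sum_congr rfl (fun y hy => e3 x hx y hy))] at key
  exact key

/-- fibre version of the abstract Johnson gap. -/
lemma fibreG (hJ : JG ι) (F : Finset α) (S : Finset ι) (p : ℕ) (Φ : α → Finset ι)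
    (hb : Set.BijOn Φ F (S.powersetCard p)) (T : ι → ι → α → α)
    (hT : ∀ x ∈ S, ∀ y ∈ S, x ≠ y → ∀ G ∈ F, T x y G ∈ F ∧
      Φ (T x y G) = (Φ G).image (Equiv.swap x y)) (f : α → ℝ) :
    ∑ G ∈ F, (f G - (∑ G' ∈ F, f G') / (F.card : ℝ)) ^ 2
      ≤ (∑ x ∈ S, ∑ y ∈ S.erase x, ∑ G ∈ F, (f G - f (T x y G)) ^ 2) / 8 := by
  have hinv : ∀ G ∈ F, Function.invFunOn Φ (F : Set α) (Φ G) = G := by
    intro G hG
    exact hb.injOn.leftInvOn_invFunOn hG
  have key := hJ S p (fun A => f (Function.invFunOn Φ (F : Set α) A))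
  have e0 : ∑ A ∈ S.powersetCard p, f (Function.invFunOn Φ (F : Set α) A) = ∑ G ∈ F, f G := by
    rw [sum_transport hb]
    exact Finset.sum_congr rfl (fun G hG => by rw [hinv G hG])
  have e3 : ∀ x ∈ S, ∀ y ∈ S.erase x, ∑ A ∈ S.powersetCard p,
      (f (Function.invFunOn Φ (F : Set α) A)
        - f (Function.invFunOn Φ (F : Set α) (A.image (Equiv.swap x y)))) ^ 2
      = ∑ G ∈ F, (f G - f (T x y G)) ^ 2 := by
    intro x hx y hy
    rw [sum_transport hb]
    apply Finset.sum_congr rfl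
    intro G hG
    obtain ⟨h1, h2⟩ := hT x hx y (Finset.mem_of_mem_erase hy) (Finset.ne_of_mem_erase hy).symm G hG
    rw [hinv G hG, ← h2, hinv _ h1]
  rw [e0, card_transport hb] at key
  rw [Finset.sum_congr rfl (fun x hx => Finset.sum_congr rfl (fun y hy => e3 x hx y hy))] at key
  rw [sum_transport hb] at key
  refine le_trans (le_of_eq ?_) key
  exact Finset.sum_congr rfl (fun G hG => by rw [hinv G hG])

end transport


/-! ### summation over fibres -/

lemma sum_le_of_fibres {α β : Type*} [DecidableEq β] (Ω : Finset α) (κ : α → β) (h₁ h₂ : α → ℝ)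
    (h : ∀ G₀ ∈ Ω, ∑ G ∈ fib Ω κ G₀, h₁ G ≤ ∑ G ∈ fib Ω κ G₀, h₂ G) :
    ∑ G ∈ Ω, h₁ G ≤ ∑ G ∈ Ω, h₂ G := by
  have hm : ∀ x ∈ Ω, κ x ∈ Ω.image κ := fun x hx => Finset.mem_image_of_mem κ hx
  rw [← Finset.sum_fiberwise_of_maps_to hm h₁, ← Finset.sum_fiberwise_of_maps_to hm h₂]
  apply Finset.sum_le_sum
  intro k hk
  obtain ⟨G₀, hG₀, rfl⟩ := Finset.mem_image.mp hk
  exact h G₀ hG₀

lemma sum_S (S : Finset (Fin n)) (t : Fin n → Fin n → ℝ) :
    ∑ x ∈ S, ∑ y ∈ S.erase x, t x y
      = ∑ x, ∑ y, if (x ∈ S ∧ y ∈ S ∧ x ≠ y) then t x y else 0 := by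
  rw [← Finset.sum_filter_add_sum_filter_not univ (fun x => x ∈ S)]
  have h0 : ∑ x ∈ univ.filter (fun x => ¬ x ∈ S),
      ∑ y, (if (x ∈ S ∧ y ∈ S ∧ x ≠ y) then t x y else 0) = 0 := by
    apply Finset.sum_eq_zero
    intro x hx
    apply Finset.sum_eq_zero
    intro y _
    rw [if_neg]
    intro h
    exact (Finset.mem_filter.mp hx).2 h.1
  rw [h0, add_zero]
  have hS : univ.filter (fun x => x ∈ S) = S := by ext x; simp
  rw [hS]
  apply Finset.sum_congr rfl
  intro x hx
  rw [← Finset.sum_filter]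
  apply Finset.sum_congr _ (fun _ _ => rfl)
  ext y
  simp only [Finset.mem_erase, Finset.mem_filter, Finset.mem_univ, true_and]
  constructor
  · rintro ⟨h1, h2⟩; exact ⟨hx, h2, h1.symm⟩
  · rintro ⟨_, h2, h3⟩; exact ⟨h3.symm, h2⟩

lemma sum3_comm {α : Type*} (Ω : Finset α) (t : α → Fin n → Fin n → ℝ) :
    ∑ G ∈ Ω, ∑ x, ∑ y, t G x y = ∑ x, ∑ y, ∑ G ∈ Ω, t G x y := by
  rw [Finset.sum_comm]
  apply Finset.sum_congr rfl
  intro x _
  rw [Finset.sum_comm]

lemma fib_eq {α β : Type*} [DecidableEq β] {Ω : Finset α} {κ : α → β} {G₀ G : α}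
    (hG : G ∈ fib Ω κ G₀) : fib Ω κ G = fib Ω κ G₀ := by
  unfold fib at hG ⊢
  rw [(Finset.mem_filter.mp hG).2]

lemma cE_eq {α β : Type*} [DecidableEq β] {Ω : Finset α} {κ : α → β} {G₀ G : α}
    (hG : G ∈ fib Ω κ G₀) (f : α → ℝ) :
    cE Ω κ f G = (∑ G' ∈ fib Ω κ G₀, f G') / ((fib Ω κ G₀).card : ℝ) := by
  unfold cE
  rw [fib_eq hG]

lemma fib_pair {α β : Type*} [DecidableEq β] {Ω : Finset α} {κ : α → β} (q : α → Prop)
    [DecidablePred q] {G₀ G : α} (hG : G ∈ fib Ω κ G₀) (hq : q G) :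
    fib Ω (fun G => (κ G, decide (q G))) G = (fib Ω κ G₀).filter q := by
  unfold fib at hG ⊢
  have hk := (Finset.mem_filter.mp hG).2
  ext y
  simp only [Finset.mem_filter, Prod.mk.injEq, hk, hq, decide_true, decide_eq_true_eq]
  tauto

/-! ### the two interfaces -/

theorem claimB_of (d : Fin n → ℕ) (hJ : JB (Fin n)) (hF : ∀ v w : Fin n, v ≠ w → FibAPI d v w) :
    ClaimB d := by
  intro v w hvw f
  -- rewrite both sides as sums over `Ω`
  have eL : ∑ x, ∑ y, (if Dist4 v w x y then nn d v w x y f else 0)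
      = ∑ G ∈ realizations d, ∑ x, ∑ y, (if Dist4 v w x y then
          (if isM v w x y G then
            (cE (realizations d) (fun G => (key2 v w G, decide (isM v w x y G))) f G
              - cE (realizations d) (key2 v w) f G) ^ 2 else 0) else 0) := by
    rw [sum3_comm]
    apply Finset.sum_congr rfl
    intro x _
    apply Finset.sum_congr rfl
    intro y _
    split_ifs with h
    · unfold nn
      rw [Finset.sum_filter]
    · simp
  have eR : (∑ x, ∑ y, (if Dist4 v w x y then En d v w x y f else 0)) / 4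
      = ∑ G ∈ realizations d, (∑ x, ∑ y, (if Dist4 v w x y then
          (f G - f (tau v w x y G)) ^ 2 else 0)) / 4 := by
    rw [← Finset.sum_div]
    congr 1
    rw [sum3_comm]
    apply Finset.sum_congr rfl
    intro x _
    apply Finset.sum_congr rfl
    intro y _
    split_ifs with h
    · rfl
    · simp
  rw [eL, eR]
  apply sum_le_of_fibres (realizations d) (key2 v w)
  intro G₀ hG₀
  obtain ⟨S, p, Φ, hvS, hwS, hb, hT, hM⟩ := hF v w hvw G₀ hG₀
  set F := fib (realizations d) (key2 v w) G₀ with hFdef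
  have hmain := fibreB hJ F S p Φ hb (fun x y => tau v w x y) hT f
  have hD4 : ∀ x y, (x ∈ S ∧ y ∈ S ∧ x ≠ y) → Dist4 v w x y := by
    rintro x y ⟨hx, hy, hxy⟩
    refine ⟨hvw, ?_, ?_, ?_, ?_, hxy⟩
    · rintro rfl; exact hvS hx
    · rintro rfl; exact hvS hy
    · rintro rfl; exact hwS hx
    · rintro rfl; exact hwS hy
  -- left side
  have e1 : ∑ G ∈ F, ∑ x, ∑ y, (if Dist4 v w x y then
          (if isM v w x y G then
            (cE (realizations d) (fun G => (key2 v w G, decide (isM v w x y G))) f G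
              - cE (realizations d) (key2 v w) f G) ^ 2 else 0) else 0)
      = ∑ x ∈ S, ∑ y ∈ S.erase x,
        ((F.filter (fun G => sep x y (Φ G))).card : ℝ) *
          ((∑ G ∈ F.filter (fun G => sep x y (Φ G)), f G) /
              ((F.filter (fun G => sep x y (Φ G))).card : ℝ)
            - (∑ G ∈ F, f G) / (F.card : ℝ)) ^ 2 := by
    rw [sum_S, sum3_comm]
    apply Finset.sum_congr rfl
    intro x _
    apply Finset.sum_congr rfl
    intro y _
    by_cases hxy : x ∈ S ∧ y ∈ S ∧ x ≠ y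
    · have h4 := hD4 x y hxy
      rw [if_pos hxy]
      simp only [if_pos h4]
      rw [← Finset.sum_filter]
      have hfil : F.filter (fun G => isM v w x y G) = F.filter (fun G => sep x y (Φ G)) := by
        apply Finset.filter_congr
        intro G hG
        rw [hM x y h4 G hG]
        exact ⟨fun h => h.2.2, fun h => ⟨hxy.1, hxy.2.1, h⟩⟩
      have hterm : ∀ G ∈ F.filter (fun G => isM v w x y G),
          (cE (realizations d) (fun G => (key2 v w G, decide (isM v w x y G))) f G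
              - cE (realizations d) (key2 v w) f G) ^ 2
          = ((∑ G ∈ F.filter (fun G => sep x y (Φ G)), f G) /
              ((F.filter (fun G => sep x y (Φ G))).card : ℝ)
            - (∑ G ∈ F, f G) / (F.card : ℝ)) ^ 2 := by
        intro G hG
        obtain ⟨hGF, hGM⟩ := Finset.mem_filter.mp hG
        rw [cE_eq hGF f]
        unfold cE
        rw [fib_pair (fun G => isM v w x y G) hGF hGM, hfil]
      rw [Finset.sum_congr rfl hterm, Finset.sum_const, nsmul_eq_mul, hfil]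
    · rw [if_neg hxy]
      apply Finset.sum_eq_zero
      intro G hG
      split_ifs with h4 hm
      · exfalso
        have := (hM x y h4 G hG).mp hm
        exact hxy ⟨this.1, this.2.1, h4.2.2.2.2.2⟩
      · rfl
      · rfl
  -- right side
  have e2 : (∑ x ∈ S, ∑ y ∈ S.erase x, ∑ G ∈ F, (f G - f (tau v w x y G)) ^ 2) / 4
      ≤ ∑ G ∈ F, (∑ x, ∑ y, (if Dist4 v w x y then
          (f G - f (tau v w x y G)) ^ 2 else 0)) / 4 := by
    rw [← Finset.sum_div]
    apply div_le_div_of_nonneg_right _ (by norm_num : (0:ℝ) ≤ 4)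
    rw [sum_S, sum3_comm]
    apply Finset.sum_le_sum
    intro x _
    apply Finset.sum_le_sum
    intro y _
    by_cases hxy : x ∈ S ∧ y ∈ S ∧ x ≠ y
    · rw [if_pos hxy]
      simp only [if_pos (hD4 x y hxy)]
      exact le_rfl
    · rw [if_neg hxy]
      apply Finset.sum_nonneg
      intro G _
      split_ifs
      · exact sq_nonneg _
      · exact le_rfl
  rw [e1]
  exact le_trans hmain e2

theorem g4_of (d : Fin n → ℕ) (hJ : JG (Fin n)) (hF : ∀ v w : Fin n, v ≠ w → FibAPI d v w) :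
    G4 d := by
  intro v w hvw f
  have eL : ip (realizations d) (p2 d v w f) (p2 d v w f)
      = ∑ G ∈ realizations d, (f G - cE (realizations d) (key2 v w) f G) ^ 2 := by
    unfold ip p2 cP
    apply Finset.sum_congr rfl
    intro G _
    ring
  have eR : (∑ x, ∑ y, (if Dist4 v w x y then En d v w x y f else 0)) / 8
      = ∑ G ∈ realizations d, (∑ x, ∑ y, (if Dist4 v w x y then
          (f G - f (tau v w x y G)) ^ 2 else 0)) / 8 := by
    rw [← Finset.sum_div]
    congr 1
    rw [sum3_comm]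
    apply Finset.sum_congr rfl
    intro x _
    apply Finset.sum_congr rfl
    intro y _
    split_ifs with h
    · rfl
    · simp
  rw [eL, eR]
  apply sum_le_of_fibres (realizations d) (key2 v w)
  intro G₀ hG₀
  obtain ⟨S, p, Φ, hvS, hwS, hb, hT, hM⟩ := hF v w hvw G₀ hG₀
  set F := fib (realizations d) (key2 v w) G₀ with hFdef
  have hmain := fibreG hJ F S p Φ hb (fun x y => tau v w x y) hT f
  have hD4 : ∀ x y, (x ∈ S ∧ y ∈ S ∧ x ≠ y) → Dist4 v w x y := by
    rintro x y ⟨hx, hy, hxy⟩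
    refine ⟨hvw, ?_, ?_, ?_, ?_, hxy⟩
    · rintro rfl; exact hvS hx
    · rintro rfl; exact hvS hy
    · rintro rfl; exact hwS hx
    · rintro rfl; exact hwS hy
  have e1 : ∑ G ∈ F, (f G - cE (realizations d) (key2 v w) f G) ^ 2
      = ∑ G ∈ F, (f G - (∑ G' ∈ F, f G') / (F.card : ℝ)) ^ 2 := by
    apply Finset.sum_congr rfl
    intro G hG
    rw [cE_eq hG f]
  have e2 : (∑ x ∈ S, ∑ y ∈ S.erase x, ∑ G ∈ F, (f G - f (tau v w x y G)) ^ 2) / 8
      ≤ ∑ G ∈ F, (∑ x, ∑ y, (if Dist4 v w x y then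
          (f G - f (tau v w x y G)) ^ 2 else 0)) / 8 := by
    rw [← Finset.sum_div]
    apply div_le_div_of_nonneg_right _ (by norm_num : (0:ℝ) ≤ 8)
    rw [sum_S, sum3_comm]
    apply Finset.sum_le_sum
    intro x _
    apply Finset.sum_le_sum
    intro y _
    by_cases hxy : x ∈ S ∧ y ∈ S ∧ x ≠ y
    · rw [if_pos hxy]
      simp only [if_pos (hD4 x y hxy)]
      exact le_rfl
    · rw [if_neg hxy]
      apply Finset.sum_nonneg
      intro G _
      split_ifs
      · exact sq_nonneg _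
      · exact le_rfl
  rw [e1]
  exact le_trans hmain e2

end Crest.Agent.S0453P4
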