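import Mathlib

/-!
Abstract "Johnson block" lemmas for row 299 (S0453).

`P = S.powersetCard p`, `sw x y A` = image of `A` under the transposition `(x y)`.

* `pairs_poincare` : Poincare inequality on the pairs of a finite set (pure algebra).
* `claimB`         : sum over pairs of the rank one pieces is at most one half of the swap energy.
-/

namespace Crest.Agent.S0453J

open Finset

variable {α : Type*} [DecidableEq α]

/-- swap action on finite sets -/
def sw (x y : α) (A : Finset α) : Finset α := A.image (Equiv.swap x y)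

lemma mem_sw {x y z : α} {A : Finset α} : z ∈ sw x y A ↔ Equiv.swap x y z ∈ A := by
  unfold sw
  constructor
  · intro h
    obtain ⟨w, hw, rfl⟩ := Finset.mem_image.1 h
    simpa using hw
  · intro h
    exact Finset.mem_image.2 ⟨_, h, by simp⟩

@[simp] lemma sw_sw (x y : α) (A : Finset α) : sw x y (sw x y A) = A := by
  ext z; simp [mem_sw]

lemma sw_comm (x y : α) (A : Finset α) : sw x y A = sw y x A := by
  unfold sw; rw [Equiv.swap_comm]

lemma card_sw (x y : α) (A : Finset α) : (sw x y A).card = A.card :=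
  Finset.card_image_of_injective _ (Equiv.swap x y).injective

lemma sw_mem {S : Finset α} {p : ℕ} {x y : α} (hx : x ∈ S) (hy : y ∈ S) {A : Finset α}
    (hA : A ∈ S.powersetCard p) : sw x y A ∈ S.powersetCard p := by
  rw [Finset.mem_powersetCard] at hA ⊢
  refine ⟨?_, by rw [card_sw]; exact hA.2⟩
  intro z hz
  rw [mem_sw] at hz
  by_cases h1 : z = x
  · subst h1; exact hx
  by_cases h2 : z = y
  · subst h2; exact hy
  rw [Equiv.swap_apply_of_ne_of_ne h1 h2] at hz
  exact hA.1 hz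

/-- reindexing a sum over `P` by the swap involution -/
lemma sum_sw {S : Finset α} {p : ℕ} {x y : α} (hx : x ∈ S) (hy : y ∈ S) (g : Finset α → ℝ) :
    ∑ A ∈ S.powersetCard p, g (sw x y A) = ∑ A ∈ S.powersetCard p, g A := by
  apply Finset.sum_nbij' (fun A => sw x y A) (fun A => sw x y A)
  · intro A hA; exact sw_mem hx hy hA
  · intro A hA; exact sw_mem hx hy hA
  · intro A _; simp
  · intro A _; simp
  · intro A _; rfl

/-- `x` and `y` are separated by `A` -/
def sep (x y : α) (A : Finset α) : Prop := (x ∈ A ∧ y ∉ A) ∨ (x ∉ A ∧ y ∈ A)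

instance (x y : α) (A : Finset α) : Decidable (sep x y A) := by unfold sep; infer_instance

/-- indicator of separation -/
def sg (x y : α) (A : Finset α) : ℝ := if sep x y A then 1 else 0

lemma sep_comm (x y : α) (A : Finset α) : sep x y A ↔ sep y x A := by
  unfold sep; tauto

lemma sg_comm (x y : α) (A : Finset α) : sg x y A = sg y x A := by
  unfold sg; simp only [sep_comm x y A]

lemma sep_sw_gen (u v x y : α) (A : Finset α) :
    sep x y (sw u v A) ↔ sep (Equiv.swap u v x) (Equiv.swap u v y) A := by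
  unfold sep; simp only [mem_sw]

/-- number of separating sets -/
def nsep (S : Finset α) (p : ℕ) (x y : α) : ℕ := ((S.powersetCard p).filter (sep x y)).card

lemma nsep_swap {S : Finset α} {p : ℕ} {u v : α} (hu : u ∈ S) (hv : v ∈ S) (x y : α) :
    nsep S p (Equiv.swap u v x) (Equiv.swap u v y) = nsep S p x y := by
  unfold nsep
  apply Finset.card_nbij' (fun A => sw u v A) (fun A => sw u v A)
  · intro A hA
    simp only [Finset.coe_filter, Set.mem_ofPred_eq] at hA ⊢
    refine ⟨sw_mem hu hv hA.1, ?_⟩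
    rw [sep_sw_gen]; exact hA.2
  · intro A hA
    simp only [Finset.coe_filter, Set.mem_ofPred_eq] at hA ⊢
    refine ⟨sw_mem hu hv hA.1, ?_⟩
    rw [sep_sw_gen]; simpa using hA.2
  · intro A _; simp
  · intro A _; simp

lemma nsep_eq {S : Finset α} {p : ℕ} {x y x' y' : α} (hx : x ∈ S) (hy : y ∈ S) (hxy : x ≠ y)
    (hx' : x' ∈ S) (hy' : y' ∈ S) (hxy' : x' ≠ y') : nsep S p x y = nsep S p x' y' := by
  -- first move x to x'
  have h1 := nsep_swap (p := p) hx hx' x y
  rw [Equiv.swap_apply_left] at h1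
  set y1 := Equiv.swap x x' y with hy1
  have hy1S : y1 ∈ S := by
    by_cases h : y = x'
    · rw [hy1, h, Equiv.swap_apply_right]; exact hx
    · rw [hy1, Equiv.swap_apply_of_ne_of_ne (Ne.symm hxy) h]; exact hy
  have hy1ne : y1 ≠ x' := by
    intro h
    have : Equiv.swap x x' y = Equiv.swap x x' x := by rw [Equiv.swap_apply_left]; exact h
    exact hxy ((Equiv.swap x x').injective this).symm
  have h2 := nsep_swap (p := p) hy1S hy' x' y1
  rw [Equiv.swap_apply_left, Equiv.swap_apply_of_ne_of_ne (Ne.symm hy1ne) hxy'] at h2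
  rw [← h1, ← h2]

lemma sum_erase_comm (S : Finset α) (g : α → α → ℝ) :
    ∑ x ∈ S, ∑ y ∈ S.erase x, g x y = ∑ y ∈ S, ∑ x ∈ S.erase y, g x y := by
  apply Finset.sum_comm'
  intro x y
  simp only [Finset.mem_erase]
  constructor
  · rintro ⟨hx, hne, hy⟩; exact ⟨⟨Ne.symm hne, hx⟩, hy⟩
  · rintro ⟨⟨hne, hx⟩, hy⟩; exact ⟨hx, Ne.symm hne, hy⟩

omit [DecidableEq α] in
lemma sum_sq_diff (T : Finset α) (a : α → ℝ) :
    ∑ i ∈ T, ∑ j ∈ T, (a i - a j) ^ 2 = 2 * T.card * ∑ i ∈ T, a i ^ 2 - 2 * (∑ i ∈ T, a i) ^ 2 := by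
  have h : ∀ i ∈ T, ∑ j ∈ T, (a i - a j) ^ 2
      = T.card * a i ^ 2 - 2 * a i * (∑ j ∈ T, a j) + ∑ j ∈ T, a j ^ 2 := by
    intro i _
    have : ∀ j ∈ T, (a i - a j) ^ 2 = a i ^ 2 - 2 * a i * a j + a j ^ 2 := by intro j _; ring
    rw [Finset.sum_congr rfl this, Finset.sum_add_distrib, Finset.sum_sub_distrib,
      Finset.sum_const, ← Finset.mul_sum, nsmul_eq_mul]
  rw [Finset.sum_congr rfl h, Finset.sum_add_distrib, Finset.sum_sub_distrib, Finset.sum_const,
    ← Finset.mul_sum, ← Finset.sum_mul, ← Finset.mul_sum, nsmul_eq_mul]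
  ring

/-- Poincare inequality on the pairs of a finite set. -/
lemma pairs_poincare (S : Finset α) (c : α → α → ℝ) (hsym : ∀ x y, c x y = c y x)
    (h0 : ∑ x ∈ S, ∑ y ∈ S.erase x, c x y = 0) :
    (S.card : ℝ) * ∑ x ∈ S, ∑ y ∈ S.erase x, c x y ^ 2
      ≤ ∑ x ∈ S, ∑ y ∈ S.erase x, ∑ z ∈ S.erase x, (c x y - c x z) ^ 2 := by
  set m : ℝ := (S.card : ℝ) with hm
  set r : α → ℝ := fun x => ∑ y ∈ S.erase x, c x y with hr
  set Q : ℝ := ∑ x ∈ S, ∑ y ∈ S.erase x, c x y ^ 2 with hQ
  set R : ℝ := ∑ x ∈ S, r x ^ 2 with hR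
  have hr0 : ∑ x ∈ S, r x = 0 := h0
  -- RHS
  have hT : ∑ x ∈ S, ∑ y ∈ S.erase x, ∑ z ∈ S.erase x, (c x y - c x z) ^ 2
      = 2 * (m - 1) * Q - 2 * R := by
    have : ∀ x ∈ S, ∑ y ∈ S.erase x, ∑ z ∈ S.erase x, (c x y - c x z) ^ 2
        = 2 * (m - 1) * ∑ y ∈ S.erase x, c x y ^ 2 - 2 * r x ^ 2 := by
      intro x hx
      rw [sum_sq_diff, Finset.card_erase_of_mem hx]
      have : 1 ≤ S.card := Finset.card_pos.2 ⟨x, hx⟩
      push_cast [Nat.cast_sub this]
      ring
    rw [Finset.sum_congr rfl this, Finset.sum_sub_distrib, ← Finset.mul_sum, ← Finset.mul_sum]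
  rw [hT]
  -- key inequality
  have hA : ∑ x ∈ S, ∑ y ∈ S.erase x, c x y * r x = R := by
    apply Finset.sum_congr rfl; intro x _
    rw [← Finset.sum_mul]; ring
  have hB : ∑ x ∈ S, ∑ y ∈ S.erase x, c x y * r y = R := by
    rw [sum_erase_comm]
    apply Finset.sum_congr rfl; intro y _
    rw [← Finset.sum_mul]
    have : ∑ x ∈ S.erase y, c x y = r y := by
      apply Finset.sum_congr rfl; intro x _; exact hsym x y
    rw [this]; ring
  have hC1 : ∑ x ∈ S, ∑ y ∈ S.erase x, r x ^ 2 = (m - 1) * R := by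
    have : ∀ x ∈ S, ∑ y ∈ S.erase x, r x ^ 2 = (m - 1) * r x ^ 2 := by
      intro x hx
      rw [Finset.sum_const, Finset.card_erase_of_mem hx, nsmul_eq_mul]
      have : 1 ≤ S.card := Finset.card_pos.2 ⟨x, hx⟩
      push_cast [Nat.cast_sub this]; ring
    rw [Finset.sum_congr rfl this, ← Finset.mul_sum]
  have hC2 : ∑ x ∈ S, ∑ y ∈ S.erase x, r y ^ 2 = (m - 1) * R := by
    rw [sum_erase_comm]; exact hC1
  have hC3 : ∑ x ∈ S, ∑ y ∈ S.erase x, r x * r y = - R := by
    have : ∀ x ∈ S, ∑ y ∈ S.erase x, r x * r y = r x * (0 - r x) := by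
      intro x hx
      rw [← Finset.mul_sum, ← hr0, ← Finset.add_sum_erase S r hx]; ring
    rw [Finset.sum_congr rfl this, hR, ← Finset.sum_neg_distrib]
    apply Finset.sum_congr rfl; intro x _; ring
  have hkey : 0 ≤ (m - 2) * ((m - 2) * Q - 2 * R) := by
    have h1 : 0 ≤ ∑ x ∈ S, ∑ y ∈ S.erase x, ((m - 2) * c x y - r x - r y) ^ 2 :=
      Finset.sum_nonneg fun x _ => Finset.sum_nonneg fun y _ => sq_nonneg _
    have h2 : ∑ x ∈ S, ∑ y ∈ S.erase x, ((m - 2) * c x y - r x - r y) ^ 2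
        = (m - 2) ^ 2 * (∑ x ∈ S, ∑ y ∈ S.erase x, c x y ^ 2)
          - 2 * (m - 2) * ((∑ x ∈ S, ∑ y ∈ S.erase x, c x y * r x)
              + ∑ x ∈ S, ∑ y ∈ S.erase x, c x y * r y)
          + ((∑ x ∈ S, ∑ y ∈ S.erase x, r x ^ 2) + (∑ x ∈ S, ∑ y ∈ S.erase x, r y ^ 2)
              + 2 * ∑ x ∈ S, ∑ y ∈ S.erase x, r x * r y) := by
      simp only [Finset.mul_sum, ← Finset.sum_add_distrib, ← Finset.sum_sub_distrib]
      apply Finset.sum_congr rfl; intro x _
      apply Finset.sum_congr rfl; intro y _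
      ring
    rw [hA, hB, hC1, hC2, hC3] at h2
    rw [h2] at h1
    nlinarith [h1]
  -- conclude
  rcases lt_trichotomy S.card 2 with hlt | heq | hgt
  · -- card ≤ 1 : all sums vanish
    have hQ0 : Q = 0 := by
      apply Finset.sum_eq_zero; intro x hx
      apply Finset.sum_eq_zero; intro y hy
      exfalso
      have : 1 < S.card := Finset.one_lt_card.2 ⟨x, hx, y, Finset.mem_of_mem_erase hy,
        (Finset.ne_of_mem_erase hy).symm⟩
      omega
    have hR0 : R = 0 := by
      apply Finset.sum_eq_zero; intro x hx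
      have : r x = 0 := by
        apply Finset.sum_eq_zero; intro y hy
        exfalso
        have : 1 < S.card := Finset.one_lt_card.2 ⟨x, hx, y, Finset.mem_of_mem_erase hy,
          (Finset.ne_of_mem_erase hy).symm⟩
        omega
      rw [this]; ring
    rw [hQ0, hR0]; simp
  · obtain ⟨a, b, hab, rfl⟩ := Finset.card_eq_two.1 heq
    have hm2 : m = 2 := by rw [hm, heq]; norm_num
    have ea : ({a, b} : Finset α).erase a = {b} := by
      ext z; simp only [Finset.mem_erase, Finset.mem_insert, Finset.mem_singleton]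
      constructor
      · rintro ⟨h1, h2 | h2⟩
        · exact absurd h2 h1
        · exact h2
      · rintro rfl; exact ⟨Ne.symm hab, Or.inr rfl⟩
    have eb : ({a, b} : Finset α).erase b = {a} := by
      ext z; simp only [Finset.mem_erase, Finset.mem_insert, Finset.mem_singleton]
      constructor
      · rintro ⟨h1, h2 | h2⟩
        · exact h2
        · exact absurd h2 h1
      · rintro rfl; exact ⟨hab, Or.inl rfl⟩
    have hra : r a = c a b := by simp only [hr, ea, Finset.sum_singleton]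
    have hrb : r b = c a b := by simp only [hr, eb, Finset.sum_singleton]; exact hsym b a
    have hsum : r a + r b = 0 := by rw [← hr0, Finset.sum_pair hab]
    have hc0 : c a b = 0 := by rw [hra, hrb] at hsum; linarith
    have hR0 : R = 0 := by rw [hR, Finset.sum_pair hab, hra, hrb, hc0]; ring
    rw [hR0, hm2]; linarith
  · have hm2 : 2 < m := by rw [hm]; exact_mod_cast hgt
    have : 0 ≤ (m - 2) * Q - 2 * R := by
      by_contra hneg
      rw [not_le] at hneg
      nlinarith
    linarith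


/-! ### Claim B -/

/-- sum of `f` over the sets separating `x,y` -/
noncomputable def ssep (S : Finset α) (p : ℕ) (f : Finset α → ℝ) (x y : α) : ℝ :=
  ∑ A ∈ S.powersetCard p, sg x y A * f A

/-- swap energy of the pair `x,y` -/
noncomputable def dsw (S : Finset α) (p : ℕ) (f : Finset α → ℝ) (x y : α) : ℝ :=
  ∑ A ∈ S.powersetCard p, (f A - f (sw x y A)) ^ 2

lemma dsw_nonneg (S : Finset α) (p : ℕ) (f : Finset α → ℝ) (x y : α) : 0 ≤ dsw S p f x y :=
  Finset.sum_nonneg fun _ _ => sq_nonneg _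

lemma ssep_comm (S : Finset α) (p : ℕ) (f : Finset α → ℝ) (x y : α) :
    ssep S p f x y = ssep S p f y x := by
  unfold ssep; simp only [sg_comm x y]

lemma sum_sg (S : Finset α) (p : ℕ) (x y : α) :
    ∑ A ∈ S.powersetCard p, sg x y A = (nsep S p x y : ℝ) := by
  unfold sg nsep
  rw [Finset.sum_boole]

lemma sg_sw_right {x y z : α} (hxy : x ≠ y) (hxz : x ≠ z) (A : Finset α) :
    sg x y (sw y z A) = sg x z A := by
  unfold sg
  have : sep x y (sw y z A) ↔ sep x z A := by
    rw [sep_sw_gen, Equiv.swap_apply_of_ne_of_ne hxy hxz, Equiv.swap_apply_left]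
  simp only [this]

lemma sg_sw_right' {x y z : α} (hxy : x ≠ y) (hxz : x ≠ z) (A : Finset α) :
    sg x z (sw y z A) = sg x y A := by
  unfold sg
  have : sep x z (sw y z A) ↔ sep x y A := by
    rw [sep_sw_gen, Equiv.swap_apply_of_ne_of_ne hxy hxz, Equiv.swap_apply_right]
  simp only [this]

lemma phi_sq (x y z : α) (A : Finset α) :
    (sg x y A - sg x z A) ^ 2 = sg y z A := by
  unfold sg sep
  by_cases hx : x ∈ A <;> by_cases hy : y ∈ A <;> by_cases hz : z ∈ A <;> simp [hx, hy, hz]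

lemma diff_bound {S : Finset α} {p : ℕ} (f : Finset α → ℝ) {x y z : α}
    (hy : y ∈ S) (hz : z ∈ S) (hxy : x ≠ y) (hxz : x ≠ z) :
    (ssep S p f x y - ssep S p f x z) ^ 2 ≤ (nsep S p y z : ℝ) / 4 * dsw S p f y z := by
  set φ : Finset α → ℝ := fun A => sg x y A - sg x z A with hφ
  have h1 : ssep S p f x y - ssep S p f x z = ∑ A ∈ S.powersetCard p, φ A * f A := by
    unfold ssep; rw [← Finset.sum_sub_distrib]
    apply Finset.sum_congr rfl; intro A _; simp only [hφ]; ring
  have h2 : ∑ A ∈ S.powersetCard p, φ A * f A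
      = - ∑ A ∈ S.powersetCard p, φ A * f (sw y z A) := by
    rw [← sum_sw hy hz (fun A => φ A * f A), ← Finset.sum_neg_distrib]
    apply Finset.sum_congr rfl; intro A _
    simp only [hφ, sg_sw_right hxy hxz, sg_sw_right' hxy hxz]; ring
  have h3 : 2 * (ssep S p f x y - ssep S p f x z)
      = ∑ A ∈ S.powersetCard p, φ A * (f A - f (sw y z A)) := by
    have : ∑ A ∈ S.powersetCard p, φ A * (f A - f (sw y z A))
        = ∑ A ∈ S.powersetCard p, φ A * f A - ∑ A ∈ S.powersetCard p, φ A * f (sw y z A) := by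
      rw [← Finset.sum_sub_distrib]; apply Finset.sum_congr rfl; intro A _; ring
    rw [this, h1]; linarith
  have h4 := Finset.sum_mul_sq_le_sq_mul_sq (S.powersetCard p) φ (fun A => f A - f (sw y z A))
  have h5 : ∑ A ∈ S.powersetCard p, φ A ^ 2 = (nsep S p y z : ℝ) := by
    rw [← sum_sg]; apply Finset.sum_congr rfl; intro A _; exact phi_sq x y z A
  rw [← h3, h5] at h4
  unfold dsw
  nlinarith [h4]

lemma sg_self (x : α) (A : Finset α) : sg x x A = 0 := by
  unfold sg sep; by_cases hx : x ∈ A <;> simp [hx]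

lemma sg_eq (x y : α) (A : Finset α) :
    sg x y A = (if x ∈ A then (1:ℝ) else 0) * (1 - (if y ∈ A then (1:ℝ) else 0))
      + (1 - (if x ∈ A then (1:ℝ) else 0)) * (if y ∈ A then (1:ℝ) else 0) := by
  unfold sg sep
  by_cases hx : x ∈ A <;> by_cases hy : y ∈ A <;> simp [hx, hy]

lemma sum_ind {S A : Finset α} (hA : A ⊆ S) :
    ∑ x ∈ S, (if x ∈ A then (1:ℝ) else 0) = A.card := by
  rw [Finset.sum_boole, Finset.filter_mem_eq_inter, Finset.inter_eq_right.2 hA]

/-- the number of ordered separated pairs is constant on `P` -/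
lemma sum_sg_pairs {S : Finset α} {p : ℕ} {A : Finset α} (hA : A ∈ S.powersetCard p) :
    ∑ x ∈ S, ∑ y ∈ S.erase x, sg x y A = 2 * p * ((S.card : ℝ) - p) := by
  rw [Finset.mem_powersetCard] at hA
  have h1 : ∀ x ∈ S, ∑ y ∈ S.erase x, sg x y A = ∑ y ∈ S, sg x y A := by
    intro x _; exact Finset.sum_erase _ (sg_self x A)
  rw [Finset.sum_congr rfl h1]
  set ξ : α → ℝ := fun x => if x ∈ A then (1:ℝ) else 0 with hξ
  have hs : ∑ x ∈ S, ξ x = p := by rw [hξ, sum_ind hA.1, hA.2]
  have h2 : ∀ x ∈ S, ∑ y ∈ S, sg x y A = ξ x * ((S.card : ℝ) - p) + (1 - ξ x) * p := by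
    intro x _
    have : ∀ y ∈ S, sg x y A = ξ x * (1 - ξ y) + (1 - ξ x) * ξ y := fun y _ => sg_eq x y A
    rw [Finset.sum_congr rfl this, Finset.sum_add_distrib, ← Finset.mul_sum, ← Finset.mul_sum,
      Finset.sum_sub_distrib, hs, Finset.sum_const, nsmul_eq_mul, mul_one]
  rw [Finset.sum_congr rfl h2, Finset.sum_add_distrib, ← Finset.sum_mul, ← Finset.sum_mul,
    Finset.sum_sub_distrib, hs, Finset.sum_const, nsmul_eq_mul, mul_one]
  ring

lemma sum_ssep (S : Finset α) (p : ℕ) (f : Finset α → ℝ) :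
    ∑ x ∈ S, ∑ y ∈ S.erase x, ssep S p f x y
      = 2 * p * ((S.card : ℝ) - p) * ∑ A ∈ S.powersetCard p, f A := by
  unfold ssep
  have h1 : ∀ x ∈ S, ∑ y ∈ S.erase x, ∑ A ∈ S.powersetCard p, sg x y A * f A
      = ∑ A ∈ S.powersetCard p, ∑ y ∈ S.erase x, sg x y A * f A := fun x _ => Finset.sum_comm
  rw [Finset.sum_congr rfl h1, Finset.sum_comm, Finset.mul_sum]
  apply Finset.sum_congr rfl; intro A hA
  rw [← sum_sg_pairs hA, Finset.sum_mul]
  apply Finset.sum_congr rfl; intro x _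
  rw [Finset.sum_mul]

lemma sum_nsep (S : Finset α) (p : ℕ) :
    ∑ x ∈ S, ∑ y ∈ S.erase x, (nsep S p x y : ℝ)
      = 2 * p * ((S.card : ℝ) - p) * (S.powersetCard p).card := by
  have := sum_ssep S p (fun _ => (1:ℝ))
  simp only [ssep, mul_one, sum_sg, Finset.sum_const, nsmul_eq_mul] at this
  exact this

/-- Claim B, multiplicative form: `k` is the common value of `nsep`. -/
theorem claimB_mul (S : Finset α) (p : ℕ) (f : Finset α → ℝ) (k : ℕ)
    (hk : ∀ x ∈ S, ∀ y ∈ S, x ≠ y → nsep S p x y = k) :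
    ∑ x ∈ S, ∑ y ∈ S.erase x,
        (ssep S p f x y - (k : ℝ) / (S.powersetCard p).card * ∑ A ∈ S.powersetCard p, f A) ^ 2
      ≤ (k : ℝ) / 4 * ∑ x ∈ S, ∑ y ∈ S.erase x, dsw S p f x y := by
  set N : ℝ := ((S.powersetCard p).card : ℝ) with hN
  set tot : ℝ := ∑ A ∈ S.powersetCard p, f A with htot
  set c : α → α → ℝ := fun x y => ssep S p f x y - (k : ℝ) / N * tot with hc
  set DD : ℝ := ∑ x ∈ S, ∑ y ∈ S.erase x, dsw S p f x y with hDD
  have hDD0 : 0 ≤ DD := Finset.sum_nonneg fun x _ => Finset.sum_nonneg fun y _ => dsw_nonneg _ _ _ _ _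
  have hsym : ∀ x y, c x y = c y x := by intro x y; simp only [hc, ssep_comm S p f x y]
  -- sum of c vanishes
  have hcnt : ∑ x ∈ S, ∑ y ∈ S.erase x, (k : ℝ) = 2 * p * ((S.card : ℝ) - p) * N := by
    rw [← sum_nsep]
    apply Finset.sum_congr rfl; intro x hx
    apply Finset.sum_congr rfl; intro y hy
    rw [hk x hx y (Finset.mem_of_mem_erase hy) (Finset.ne_of_mem_erase hy).symm]
  have h0 : ∑ x ∈ S, ∑ y ∈ S.erase x, c x y = 0 := by
    have e1 : ∑ x ∈ S, ∑ y ∈ S.erase x, c x y
        = ∑ x ∈ S, ∑ y ∈ S.erase x, ssep S p f x y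
          - (∑ x ∈ S, ∑ y ∈ S.erase x, (k : ℝ)) * (tot / N) := by
      rw [Finset.sum_mul, ← Finset.sum_sub_distrib]
      apply Finset.sum_congr rfl; intro x _
      rw [Finset.sum_mul, ← Finset.sum_sub_distrib]
      apply Finset.sum_congr rfl; intro y _
      simp only [hc]; ring
    rw [e1, sum_ssep, hcnt]
    by_cases hN0 : N = 0
    · have : S.powersetCard p = ∅ := by
        rw [← Finset.card_eq_zero]; rw [hN] at hN0; exact_mod_cast hN0
      have ht : tot = 0 := by rw [htot, this]; simp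
      rw [← htot, ht]; simp
    · field_simp; ring
  have hP := pairs_poincare S c hsym h0
  -- upper bound of the right-hand side
  have hU : ∀ x ∈ S, ∑ y ∈ S.erase x, ∑ z ∈ S.erase x, (c x y - c x z) ^ 2 ≤ (k : ℝ) / 4 * DD := by
    intro x hx
    have s1 : ∀ y ∈ S.erase x, ∑ z ∈ S.erase x, (c x y - c x z) ^ 2
        ≤ ∑ z ∈ S.erase y, (k : ℝ) / 4 * dsw S p f y z := by
      intro y hy
      have hyS := Finset.mem_of_mem_erase hy
      have hyx := Finset.ne_of_mem_erase hy
      have e : ∑ z ∈ (S.erase x).erase y, (c x y - c x z) ^ 2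
          = ∑ z ∈ S.erase x, (c x y - c x z) ^ 2 := Finset.sum_erase _ (by simp)
      rw [← e]
      calc ∑ z ∈ (S.erase x).erase y, (c x y - c x z) ^ 2
          ≤ ∑ z ∈ (S.erase x).erase y, (k : ℝ) / 4 * dsw S p f y z := by
            apply Finset.sum_le_sum; intro z hz
            have hz1 := Finset.mem_of_mem_erase hz
            have hzS := Finset.mem_of_mem_erase hz1
            have hzx := Finset.ne_of_mem_erase hz1
            have hzy := Finset.ne_of_mem_erase hz
            have := diff_bound (S := S) (p := p) f hyS hzS hyx.symm hzx.symm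
            rw [hk y hyS z hzS hzy.symm] at this
            have e2 : c x y - c x z = ssep S p f x y - ssep S p f x z := by simp only [hc]; ring
            rw [e2]; exact this
        _ ≤ ∑ z ∈ S.erase y, (k : ℝ) / 4 * dsw S p f y z := by
            apply Finset.sum_le_sum_of_subset_of_nonneg
            · exact Finset.erase_subset_erase _ (Finset.erase_subset _ _)
            · intro z _ _; exact mul_nonneg (by positivity) (dsw_nonneg _ _ _ _ _)
    calc ∑ y ∈ S.erase x, ∑ z ∈ S.erase x, (c x y - c x z) ^ 2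
        ≤ ∑ y ∈ S.erase x, ∑ z ∈ S.erase y, (k : ℝ) / 4 * dsw S p f y z := Finset.sum_le_sum s1
      _ ≤ ∑ y ∈ S, ∑ z ∈ S.erase y, (k : ℝ) / 4 * dsw S p f y z := by
          apply Finset.sum_le_sum_of_subset_of_nonneg (Finset.erase_subset _ _)
          intro y _ _
          exact Finset.sum_nonneg fun z _ => mul_nonneg (by positivity) (dsw_nonneg _ _ _ _ _)
      _ = (k : ℝ) / 4 * DD := by
          rw [hDD, Finset.mul_sum]; apply Finset.sum_congr rfl; intro y _; rw [Finset.mul_sum]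
  have hT : ∑ x ∈ S, ∑ y ∈ S.erase x, ∑ z ∈ S.erase x, (c x y - c x z) ^ 2
      ≤ (S.card : ℝ) * ((k : ℝ) / 4 * DD) := by
    calc _ ≤ ∑ x ∈ S, (k : ℝ) / 4 * DD := Finset.sum_le_sum hU
      _ = _ := by rw [Finset.sum_const, nsmul_eq_mul]
  by_cases hS : S.card = 0
  · have : S = ∅ := Finset.card_eq_zero.1 hS
    subst this
    simp only [Finset.sum_empty]
    positivity
  · have hpos : (0 : ℝ) < S.card := by exact_mod_cast Nat.pos_of_ne_zero hS
    have := le_trans hP hT
    exact le_of_mul_le_mul_left this hpos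

/-- **Claim B.**  -/
theorem claimB (S : Finset α) (p : ℕ) (f : Finset α → ℝ) :
    ∑ x ∈ S, ∑ y ∈ S.erase x,
        (ssep S p f x y - (nsep S p x y : ℝ) / (S.powersetCard p).card
            * ∑ A ∈ S.powersetCard p, f A) ^ 2 / (nsep S p x y : ℝ)
      ≤ 1 / 4 * ∑ x ∈ S, ∑ y ∈ S.erase x, dsw S p f x y := by
  by_cases hne : ∃ a ∈ S, ∃ b ∈ S, a ≠ b
  · obtain ⟨a, ha, b, hb, hab⟩ := hne
    set k := nsep S p a b with hkdef
    have hk : ∀ x ∈ S, ∀ y ∈ S, x ≠ y → nsep S p x y = k := fun x hx y hy hxy =>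
      nsep_eq hx hy hxy ha hb hab
    have h := claimB_mul S p f k hk
    have e : ∑ x ∈ S, ∑ y ∈ S.erase x,
        (ssep S p f x y - (nsep S p x y : ℝ) / (S.powersetCard p).card
            * ∑ A ∈ S.powersetCard p, f A) ^ 2 / (nsep S p x y : ℝ)
        = (∑ x ∈ S, ∑ y ∈ S.erase x,
        (ssep S p f x y - (k : ℝ) / (S.powersetCard p).card
            * ∑ A ∈ S.powersetCard p, f A) ^ 2) / (k : ℝ) := by
      rw [Finset.sum_div]
      apply Finset.sum_congr rfl; intro x hx
      rw [Finset.sum_div]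
      apply Finset.sum_congr rfl; intro y hy
      rw [hk x hx y (Finset.mem_of_mem_erase hy) (Finset.ne_of_mem_erase hy).symm]
    rw [e]
    by_cases hk0 : (k : ℝ) = 0
    · rw [hk0, div_zero]
      exact mul_nonneg (by norm_num)
        (Finset.sum_nonneg fun x _ => Finset.sum_nonneg fun y _ => dsw_nonneg _ _ _ _ _)
    · have hkpos : (0 : ℝ) < k := lt_of_le_of_ne (by positivity) (Ne.symm hk0)
      rw [div_le_iff₀ hkpos]
      calc _ ≤ _ := h
        _ = _ := by ring
  · have hz : ∀ x ∈ S, S.erase x = ∅ := by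
      intro x hx
      rw [Finset.eq_empty_iff_forall_notMem]
      intro y hy
      exact hne ⟨x, hx, y, Finset.mem_of_mem_erase hy, (Finset.ne_of_mem_erase hy).symm⟩
    have e1 : ∀ (g : α → α → ℝ), ∑ x ∈ S, ∑ y ∈ S.erase x, g x y = 0 := by
      intro g; apply Finset.sum_eq_zero; intro x hx; rw [hz x hx]; simp
    rw [e1, e1]; simp

end Crest.Agent.S0453J

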