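import Crest.Agent.S0453_Johnson

/-!
Row 299 (S0453), package P3, second half: the spectral gap of the Johnson block
`P = S.powersetCard p` for the swap energy, with the constant needed for `G4`.
Proof: induction on `S` (split `P` according to `a ∈ A`), total variance, Cauchy-Schwarz on the
up/down correspondence `(B, y) ↦ insert y B`.
-/
namespace Crest.Agent.S0453J
open Finset
variable {α : Type*} [DecidableEq α]

lemma cross_aux (n0 n1 e k T0 T1 X : ℝ) (h0 : 0 < n0) (h1 : 0 < n1) (he : 1 ≤ e) (hk : 1 ≤ k)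
    (hrel : n1 * e = n0 * k) (hX : (e * T1 - k * T0) ^ 2 ≤ n1 * e * X) :
    T0 ^ 2 / n0 + T1 ^ 2 / n1 - (T0 + T1) ^ 2 / (n0 + n1) ≤ X / 2 := by
  have hepos : 0 < e := by linarith
  have hX0 : 0 ≤ X := by
    have : 0 ≤ n1 * e * X := le_trans (sq_nonneg _) hX
    by_contra hneg
    rw [not_le] at hneg
    have : n1 * e * X < 0 := mul_neg_of_pos_of_neg (mul_pos h1 hepos) hneg
    linarith
  have e1 : T0 ^ 2 / n0 + T1 ^ 2 / n1 - (T0 + T1) ^ 2 / (n0 + n1)
      = (n0 * T1 - n1 * T0) ^ 2 / (n0 * n1 * (n0 + n1)) := by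
    field_simp; ring
  rw [e1, div_le_iff₀ (by positivity)]
  set D := n0 * T1 - n1 * T0 with hD
  have h2 : n0 * (e * T1 - k * T0) = e * D := by
    rw [hD]; have : n0 * k = n1 * e := hrel.symm
    calc n0 * (e * T1 - k * T0) = e * n0 * T1 - (n0 * k) * T0 := by ring
      _ = e * n0 * T1 - (n1 * e) * T0 := by rw [this]
      _ = _ := by ring
  have h3 : e ^ 2 * D ^ 2 ≤ n0 ^ 2 * (n1 * e * X) := by
    have : (e * D) ^ 2 = n0 ^ 2 * (e * T1 - k * T0) ^ 2 := by rw [← h2]; ring
    calc e ^ 2 * D ^ 2 = (e * D) ^ 2 := by ring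
      _ = n0 ^ 2 * (e * T1 - k * T0) ^ 2 := this
      _ ≤ _ := by apply mul_le_mul_of_nonneg_left hX (by positivity)
  have h4 : e * D ^ 2 ≤ n0 ^ 2 * n1 * X := by
    have : e * (e * D ^ 2) ≤ e * (n0 ^ 2 * n1 * X) := by nlinarith [h3]
    exact le_of_mul_le_mul_left this hepos
  -- target: D^2 ≤ X/2 * (n0 n1 (n0+n1))
  have h5 : e * (n0 + n1) = n0 * (e + k) := by
    calc e * (n0 + n1) = e * n0 + n1 * e := by ring
      _ = e * n0 + n0 * k := by rw [hrel]
      _ = _ := by ring
  have h6 : e * D ^ 2 ≤ e * (X / 2 * (n0 * n1 * (n0 + n1))) := by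
    have : e * (X / 2 * (n0 * n1 * (n0 + n1))) = X / 2 * (n0 * n1) * (e * (n0 + n1)) := by ring
    rw [this, h5]
    have h7 : n0 ^ 2 * n1 * X ≤ X / 2 * (n0 * n1) * (n0 * (e + k)) := by
      have : X / 2 * (n0 * n1) * (n0 * (e + k)) = n0 ^ 2 * n1 * X * ((e + k) / 2) := by ring
      rw [this]
      have hp : 0 ≤ n0 ^ 2 * n1 * X := by positivity
      nlinarith
    linarith
  exact le_of_mul_le_mul_left h6 hepos

/-- the cross bijection `(B,y) ↦ (insert y B, y)` -/
lemma cross_bij (S : Finset α) (q : ℕ) (Φ : Finset α → α → ℝ) :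
    ∑ B ∈ S.powersetCard q, ∑ y ∈ S \ B, Φ B y
      = ∑ A ∈ S.powersetCard (q + 1), ∑ y ∈ A, Φ (A.erase y) y := by
  rw [Finset.sum_sigma', Finset.sum_sigma']
  apply Finset.sum_nbij' (fun s => ⟨insert s.2 s.1, s.2⟩) (fun s => ⟨s.1.erase s.2, s.2⟩)
  · rintro ⟨B, y⟩ h
    simp only [Finset.mem_sigma, Finset.mem_powersetCard, Finset.mem_sdiff] at h ⊢
    obtain ⟨⟨hB, hc⟩, hy, hyB⟩ := h
    refine ⟨⟨Finset.insert_subset hy hB, ?_⟩, Finset.mem_insert_self _ _⟩
    rw [Finset.card_insert_of_notMem hyB, hc]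
  · rintro ⟨A, y⟩ h
    simp only [Finset.mem_sigma, Finset.mem_powersetCard, Finset.mem_sdiff] at h ⊢
    obtain ⟨⟨hA, hc⟩, hy⟩ := h
    refine ⟨⟨(Finset.erase_subset _ _).trans hA, ?_⟩, hA hy, Finset.notMem_erase _ _⟩
    rw [Finset.card_erase_of_mem hy, hc]; rfl
  · rintro ⟨B, y⟩ h
    simp only [Finset.mem_sigma, Finset.mem_powersetCard, Finset.mem_sdiff] at h
    simp [Finset.erase_insert h.2.2]
  · rintro ⟨A, y⟩ h
    simp only [Finset.mem_sigma, Finset.mem_powersetCard] at h
    simp [Finset.insert_erase h.2]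
  · rintro ⟨B, y⟩ h
    simp only [Finset.mem_sigma, Finset.mem_powersetCard, Finset.mem_sdiff] at h
    simp [Finset.erase_insert h.2.2]

lemma sw_insert_of_ne {a x y : α} (hx : a ≠ x) (hy : a ≠ y) (B : Finset α) :
    sw x y (insert a B) = insert a (sw x y B) := by
  unfold sw
  rw [Finset.image_insert, Equiv.swap_apply_of_ne_of_ne hx hy]

lemma sw_fix_both {a y : α} {A : Finset α} (ha : a ∈ A) (hy : y ∈ A) : sw a y A = A := by
  ext z
  rw [mem_sw]
  by_cases h1 : z = a
  · subst h1; rw [Equiv.swap_apply_left]; exact ⟨fun _ => ha, fun _ => hy⟩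
  by_cases h2 : z = y
  · subst h2; rw [Equiv.swap_apply_right]; exact ⟨fun _ => hy, fun _ => ha⟩
  rw [Equiv.swap_apply_of_ne_of_ne h1 h2]

lemma sw_fix_none {a y : α} {A : Finset α} (ha : a ∉ A) (hy : y ∉ A) : sw a y A = A := by
  ext z
  rw [mem_sw]
  by_cases h1 : z = a
  · subst h1; rw [Equiv.swap_apply_left]; exact ⟨fun h => absurd h hy, fun h => absurd h ha⟩
  by_cases h2 : z = y
  · subst h2; rw [Equiv.swap_apply_right]; exact ⟨fun h => absurd h ha, fun h => absurd h hy⟩
  rw [Equiv.swap_apply_of_ne_of_ne h1 h2]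

lemma sw_insert_left {a y : α} {B : Finset α} (ha : a ∉ B) (hy : y ∉ B) :
    sw a y (insert a B) = insert y B := by
  unfold sw
  rw [Finset.image_insert, Equiv.swap_apply_left]
  congr 1
  exact sw_fix_none ha hy

lemma sw_of_mem_right {a y : α} {A : Finset α} (ha : a ∉ A) (hy : y ∈ A) :
    sw a y A = insert a (A.erase y) := by
  have hay : a ≠ y := fun h => ha (h ▸ hy)
  have h1 : A = insert y (A.erase y) := (Finset.insert_erase hy).symm
  have h2 : a ∉ A.erase y := fun h => ha (Finset.mem_of_mem_erase h)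
  conv_lhs => rw [h1, sw_comm]
  exact sw_insert_left (Finset.notMem_erase _ _) h2


lemma sum_powersetCard_insert {a : α} {S : Finset α} (ha : a ∉ S) (q : ℕ) (F : Finset α → ℝ) :
    ∑ A ∈ (insert a S).powersetCard (q + 1), F A
      = ∑ A ∈ S.powersetCard (q + 1), F A + ∑ B ∈ S.powersetCard q, F (insert a B) := by
  rw [Finset.powersetCard_succ_insert ha, Finset.sum_union, Finset.sum_image]
  · intro B hB C hC h
    have hB' : a ∉ B := fun h => ha ((Finset.mem_powersetCard.1 hB).1 h)
    have hC' : a ∉ C := fun h => ha ((Finset.mem_powersetCard.1 hC).1 h)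
    rw [← Finset.erase_insert hB', ← Finset.erase_insert hC', h]
  · rw [Finset.disjoint_left]
    intro A hA hA'
    obtain ⟨B, _, rfl⟩ := Finset.mem_image.1 hA'
    exact ha ((Finset.mem_powersetCard.1 hA).1 (Finset.mem_insert_self _ _))

/-- total swap energy (ordered pairs) -/
noncomputable def en (S : Finset α) (p : ℕ) (f : Finset α → ℝ) : ℝ :=
  ∑ x ∈ S, ∑ y ∈ S.erase x, dsw S p f x y

/-- the cross energy between the two halves -/
noncomputable def crossX (S : Finset α) (q : ℕ) (a : α) (f : Finset α → ℝ) : ℝ :=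
  ∑ B ∈ S.powersetCard q, ∑ y ∈ S \ B, (f (insert a B) - f (insert y B)) ^ 2

lemma crossX_nonneg (S : Finset α) (q : ℕ) (a : α) (f : Finset α → ℝ) : 0 ≤ crossX S q a f :=
  Finset.sum_nonneg fun _ _ => Finset.sum_nonneg fun _ _ => sq_nonneg _

lemma dsw_comm (S : Finset α) (p : ℕ) (f : Finset α → ℝ) (x y : α) :
    dsw S p f x y = dsw S p f y x := by
  unfold dsw; simp only [sw_comm x y]

lemma dsw_insert_of_ne {a x y : α} {S : Finset α} (ha : a ∉ S) (hx : a ≠ x) (hy : a ≠ y)
    (q : ℕ) (f : Finset α → ℝ) :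
    dsw (insert a S) (q + 1) f x y
      = dsw S (q + 1) f x y + dsw S q (fun B => f (insert a B)) x y := by
  unfold dsw
  rw [sum_powersetCard_insert ha]
  congr 1
  apply Finset.sum_congr rfl; intro B _
  rw [sw_insert_of_ne hx hy]

lemma sum_dsw_insert {a : α} {S : Finset α} (ha : a ∉ S) (q : ℕ) (f : Finset α → ℝ) :
    ∑ y ∈ S, dsw (insert a S) (q + 1) f a y = 2 * crossX S q a f := by
  unfold dsw
  simp only [sum_powersetCard_insert ha]
  rw [Finset.sum_add_distrib, Finset.sum_comm, Finset.sum_comm (s := S) (t := S.powersetCard q)]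
  have h1 : ∑ A ∈ S.powersetCard (q + 1), ∑ y ∈ S, (f A - f (sw a y A)) ^ 2
      = crossX S q a f := by
    unfold crossX
    rw [cross_bij S q (fun B y => (f (insert a B) - f (insert y B)) ^ 2)]
    apply Finset.sum_congr rfl; intro A hA
    have hAS := (Finset.mem_powersetCard.1 hA).1
    have haA : a ∉ A := fun h => ha (hAS h)
    rw [← Finset.sum_subset hAS]
    · apply Finset.sum_congr rfl; intro y hy
      rw [sw_of_mem_right haA hy, Finset.insert_erase hy]; ring
    · intro y _ hy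
      rw [sw_fix_none haA hy]; simp
  have h2 : ∑ B ∈ S.powersetCard q, ∑ y ∈ S, (f (insert a B) - f (sw a y (insert a B))) ^ 2
      = crossX S q a f := by
    unfold crossX
    apply Finset.sum_congr rfl; intro B hB
    have hBS := (Finset.mem_powersetCard.1 hB).1
    have haB : a ∉ B := fun h => ha (hBS h)
    rw [← Finset.sum_subset (Finset.sdiff_subset (s := S) (t := B))]
    · apply Finset.sum_congr rfl; intro y hy
      rw [sw_insert_left haB (Finset.mem_sdiff.1 hy).2]
    · intro y hy hy'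
      have : y ∈ B := by by_contra h; exact hy' (Finset.mem_sdiff.2 ⟨hy, h⟩)
      rw [sw_fix_both (Finset.mem_insert_self _ _) (Finset.mem_insert_of_mem this)]; simp
  rw [h1, h2]; ring

lemma en_insert {a : α} {S : Finset α} (ha : a ∉ S) (q : ℕ) (f : Finset α → ℝ) :
    en (insert a S) (q + 1) f
      = en S (q + 1) f + en S q (fun B => f (insert a B)) + 4 * crossX S q a f := by
  unfold en
  rw [Finset.sum_insert ha, Finset.erase_insert ha, sum_dsw_insert ha]
  have h : ∀ x ∈ S, ∑ y ∈ (insert a S).erase x, dsw (insert a S) (q + 1) f x y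
      = dsw (insert a S) (q + 1) f a x + (∑ y ∈ S.erase x, dsw S (q + 1) f x y
        + ∑ y ∈ S.erase x, dsw S q (fun B => f (insert a B)) x y) := by
    intro x hx
    have hax : a ≠ x := fun h => ha (h ▸ hx)
    rw [Finset.erase_insert_of_ne hax,
      Finset.sum_insert (fun h => ha (Finset.mem_of_mem_erase h)), dsw_comm,
      ← Finset.sum_add_distrib]
    congr 1
    apply Finset.sum_congr rfl; intro y hy
    exact dsw_insert_of_ne ha hax (fun h => ha (h ▸ Finset.mem_of_mem_erase hy)) q f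
  rw [Finset.sum_congr rfl h, Finset.sum_add_distrib, sum_dsw_insert ha, Finset.sum_add_distrib]
  ring


lemma cross_ineq {a : α} {S : Finset α} (q : ℕ) (f : Finset α → ℝ) :
    (∑ A ∈ S.powersetCard (q + 1), f A) ^ 2 / ((S.powersetCard (q + 1)).card : ℝ)
      + (∑ B ∈ S.powersetCard q, f (insert a B)) ^ 2 / ((S.powersetCard q).card : ℝ)
      - (∑ A ∈ S.powersetCard (q + 1), f A + ∑ B ∈ S.powersetCard q, f (insert a B)) ^ 2
          / (((S.powersetCard (q + 1)).card : ℝ) + ((S.powersetCard q).card : ℝ))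
      ≤ crossX S q a f / 2 := by
  have hX := crossX_nonneg S q a f
  by_cases h0 : (S.powersetCard (q + 1)).card = 0
  · have h0' : S.powersetCard (q + 1) = ∅ := Finset.card_eq_zero.1 h0
    rw [h0']; simp; linarith
  by_cases h1 : (S.powersetCard q).card = 0
  · have h1' : S.powersetCard q = ∅ := Finset.card_eq_zero.1 h1
    rw [h1']; simp; linarith
  have hq : q + 1 ≤ S.card := by
    by_contra h
    apply h0; rw [Finset.card_powersetCard]; exact Nat.choose_eq_zero_of_lt (by omega)
  set P0 := S.powersetCard (q + 1) with hP0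
  set Q1 := S.powersetCard q with hQ1
  set e : ℝ := ((S.card - q : ℕ) : ℝ) with he
  set k : ℝ := ((q + 1 : ℕ) : ℝ) with hk
  have hcardB : ∀ B ∈ Q1, ((S \ B).card : ℝ) = e := by
    intro B hB
    obtain ⟨hBS, hc⟩ := Finset.mem_powersetCard.1 hB
    rw [Finset.card_sdiff_of_subset hBS, hc]
  have hL : ∀ h : Finset α → ℝ, ∑ B ∈ Q1, ∑ y ∈ S \ B, h B = e * ∑ B ∈ Q1, h B := by
    intro h; rw [Finset.mul_sum]; apply Finset.sum_congr rfl; intro B hB
    rw [Finset.sum_const, nsmul_eq_mul, hcardB B hB]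
  have hR : ∀ h : Finset α → ℝ,
      ∑ B ∈ Q1, ∑ y ∈ S \ B, h (insert y B) = k * ∑ A ∈ P0, h A := by
    intro h
    rw [hQ1, cross_bij S q (fun B y => h (insert y B)), Finset.mul_sum]
    apply Finset.sum_congr rfl; intro A hA
    have : ∀ y ∈ A, h (insert y (A.erase y)) = h A := fun y hy => by
      rw [Finset.insert_erase hy]
    rw [Finset.sum_congr rfl this, Finset.sum_const, nsmul_eq_mul,
      (Finset.mem_powersetCard.1 hA).2]
  have hrel : (Q1.card : ℝ) * e = (P0.card : ℝ) * k := by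
    have a1 := hL (fun _ => 1)
    have a2 := hR (fun _ => 1)
    rw [a1] at a2
    simp only [Finset.sum_const, nsmul_eq_mul, mul_one] at a2
    linarith
  have hcs : (e * ∑ B ∈ Q1, f (insert a B) - k * ∑ A ∈ P0, f A) ^ 2
      ≤ (Q1.card : ℝ) * e * crossX S q a f := by
    rw [← hL (fun B => f (insert a B)), ← hR f, ← Finset.sum_sub_distrib]
    simp only [← Finset.sum_sub_distrib]
    unfold crossX
    rw [Finset.sum_sigma', Finset.sum_sigma']
    have hc : (((Q1.sigma fun B => S \ B).card : ℕ) : ℝ) = (Q1.card : ℝ) * e := by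
      rw [Finset.card_sigma, Nat.cast_sum, Finset.sum_congr rfl hcardB, Finset.sum_const,
        nsmul_eq_mul]
    rw [← hc]
    exact sq_sum_le_card_mul_sum_sq
  have he1 : 1 ≤ e := by
    rw [he]; exact_mod_cast (by omega : 1 ≤ S.card - q)
  have hk1 : 1 ≤ k := by
    rw [hk]; exact_mod_cast (by omega : 1 ≤ q + 1)
  exact cross_aux _ _ e k _ _ _ (by exact_mod_cast Nat.pos_of_ne_zero h0)
    (by exact_mod_cast Nat.pos_of_ne_zero h1) he1 hk1 hrel hcs

/-- **Johnson gap** (with the constant needed for row 299). -/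
theorem johnson_gap (S : Finset α) : ∀ (p : ℕ) (f : Finset α → ℝ),
    ∑ A ∈ S.powersetCard p, f A ^ 2
        - (∑ A ∈ S.powersetCard p, f A) ^ 2 / ((S.powersetCard p).card : ℝ)
      ≤ 1 / 8 * ∑ x ∈ S, ∑ y ∈ S.erase x, dsw S p f x y := by
  have hp0 : ∀ (S : Finset α) (f : Finset α → ℝ),
      ∑ A ∈ S.powersetCard 0, f A ^ 2
        - (∑ A ∈ S.powersetCard 0, f A) ^ 2 / ((S.powersetCard 0).card : ℝ)
      ≤ 1 / 8 * en S 0 f := by
    intro S f
    have : 0 ≤ en S 0 f :=
      Finset.sum_nonneg fun x _ => Finset.sum_nonneg fun y _ => dsw_nonneg _ _ _ _ _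
    rw [Finset.powersetCard_zero]; simp; linarith
  change ∀ (p : ℕ) (f : Finset α → ℝ),
    ∑ A ∈ S.powersetCard p, f A ^ 2
        - (∑ A ∈ S.powersetCard p, f A) ^ 2 / ((S.powersetCard p).card : ℝ)
      ≤ 1 / 8 * en S p f
  induction S using Finset.induction_on with
  | empty =>
    intro p f
    rcases p with _ | q
    · exact hp0 _ _
    · rw [Finset.powersetCard_eq_empty.2 (by simp)]
      simp [en]
  | insert a S ha ih =>
    intro p f
    rcases p with _ | q
    · exact hp0 _ _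
    · have i0 := ih (q + 1) f
      have i1 := ih q (fun B => f (insert a B))
      have hc := cross_ineq (a := a) (S := S) q f
      rw [en_insert ha, sum_powersetCard_insert ha, sum_powersetCard_insert ha]
      have hcard : (((insert a S).powersetCard (q + 1)).card : ℝ)
          = ((S.powersetCard (q + 1)).card : ℝ) + ((S.powersetCard q).card : ℝ) := by
        have := sum_powersetCard_insert ha q (fun _ => (1 : ℝ))
        simpa using this
      rw [hcard]
      linarith

end Crest.Agent.S0453J
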