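import Mathlib
import Crest.Agent.S0453_P4
import Crest.Agent.S0453_Johnson
import Crest.Agent.S0453_JohnsonGap

/-!
# Row 299 (S0453), package P4: the abstract statements `JB`, `JG` of `S0453_P4` from
`S0453_Johnson`.
-/

set_option autoImplicit false
open Finset

namespace Crest.Agent.S0453P4
open Crest.Agent.S0453J

variable {ι : Type*} [DecidableEq ι]

lemma sep_iff (x y : ι) (A : Finset ι) : S0453P4.sep x y A ↔ S0453J.sep x y A := by
  unfold S0453P4.sep S0453J.sep
  tauto

lemma filter_sep (P : Finset (Finset ι)) (x y : ι) :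
    P.filter (S0453P4.sep x y) = P.filter (S0453J.sep x y) :=
  Finset.filter_congr (fun A _ => sep_iff x y A)

theorem JB_holds : JB ι := by
  intro S p f
  have h := claimB S p f
  have e1 : ∀ x y, (((S.powersetCard p).filter (S0453P4.sep x y)).card : ℝ) *
          ((∑ A ∈ (S.powersetCard p).filter (S0453P4.sep x y), f A) /
              (((S.powersetCard p).filter (S0453P4.sep x y)).card : ℝ)
            - (∑ A ∈ S.powersetCard p, f A) / ((S.powersetCard p).card : ℝ)) ^ 2
      = (ssep S p f x y - (nsep S p x y : ℝ) / (S.powersetCard p).card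
            * ∑ A ∈ S.powersetCard p, f A) ^ 2 / (nsep S p x y : ℝ) := by
    intro x y
    rw [filter_sep]
    have hs : ssep S p f x y = ∑ A ∈ (S.powersetCard p).filter (S0453J.sep x y), f A := by
      unfold ssep sg
      rw [Finset.sum_filter]
      apply Finset.sum_congr rfl
      intro A _
      split_ifs <;> simp
    rw [hs]
    change ((nsep S p x y : ℕ) : ℝ) * (_ / ((nsep S p x y : ℕ) : ℝ) - _) ^ 2 = _
    by_cases hk : ((nsep S p x y : ℕ) : ℝ) = 0
    · rw [hk]; simp
    · field_simp
  have e2 : (∑ x ∈ S, ∑ y ∈ S.erase x, ∑ A ∈ S.powersetCard p,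
          (f A - f (A.image (Equiv.swap x y))) ^ 2) / 4
      = 1 / 4 * ∑ x ∈ S, ∑ y ∈ S.erase x, dsw S p f x y := by
    unfold dsw sw
    ring
  rw [e2]
  refine le_trans (le_of_eq ?_) h
  exact Finset.sum_congr rfl (fun x _ => Finset.sum_congr rfl (fun y _ => e1 x y))

theorem JG_holds : JG ι := by
  intro S p f
  have h := johnson_gap S p f
  have e2 : (∑ x ∈ S, ∑ y ∈ S.erase x, ∑ A ∈ S.powersetCard p,
          (f A - f (A.image (Equiv.swap x y))) ^ 2) / 8
      = 1 / 8 * ∑ x ∈ S, ∑ y ∈ S.erase x, dsw S p f x y := by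
    unfold dsw sw
    ring
  rw [e2]
  refine le_trans (le_of_eq ?_) h
  set N : ℝ := ((S.powersetCard p).card : ℝ) with hN
  set s : ℝ := ∑ B ∈ S.powersetCard p, f B with hs
  have e3 : ∀ A ∈ S.powersetCard p, (f A - s / N) ^ 2 = f A ^ 2 - 2 * (s / N) * f A + (s / N) ^ 2 := by
    intro A _; ring
  rw [Finset.sum_congr rfl e3, Finset.sum_add_distrib, Finset.sum_sub_distrib, ← Finset.mul_sum,
    Finset.sum_const, nsmul_eq_mul, ← hs, ← hN]
  by_cases h0 : N = 0
  · rw [h0]; simp
  · field_simp
    ring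

end Crest.Agent.S0453P4
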