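import Mathlib
import Crest.Agent.S0453_P4
import Crest.Agent.S0453_P4b
import Crest.Agent.S0453_Jc

/-!
# Row 299 (S0453), package P4: `FibAPI` from the Johnson coordinates `S0453_Jc`, and the final
`ClaimB d`, `G4 d`.
-/

set_option autoImplicit false
open Finset

namespace Crest.Agent.S0453P4
open Crest.SwitchChain Crest.Agent.S0453Core Crest.Agent.S0453Defs Crest.Agent.S0453Jc

variable {n : ℕ}

theorem fibAPI (d : Fin n → ℕ) (v w : Fin n) (hvw : v ≠ w) : FibAPI d v w := by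
  intro G₀ hG₀
  have hsub : ∀ {A : Finset (Fin n)}, A ∈ PP v w G₀ → A ⊆ SS v w G₀ := fun hA =>
    (Finset.mem_powersetCard.mp hA).1
  have hSS : ∀ G ∈ fib (realizations d) (key2 v w) G₀, SS v w G = SS v w G₀ := by
    intro G hG
    have h1 := XX_mem_PP_of_fib hvw hG₀ hG
    have h2 := SS_mk (G := G₀) hvw (hsub h1)
    rwa [mk_XX hvw hG₀ hG] at h2
  refine ⟨SS v w G₀, (XX v w G₀).card, XX v w, ?_, ?_, ⟨?_, ?_, ?_⟩, ?_, ?_⟩
  · simp [SS]
  · simp [SS]
  · intro G hG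
    exact XX_mem_PP_of_fib hvw hG₀ hG
  · intro G hG G' hG' h
    rw [← mk_XX hvw hG₀ hG, ← mk_XX hvw hG₀ hG', h]
  · intro A hA
    exact ⟨mk v w G₀ A, mk_mem_fib hvw hG₀ hA, XX_mk hvw (hsub hA)⟩
  · intro x hx y hy hxy G hG
    have hA := XX_mem_PP_of_fib hvw hG₀ hG
    have hx' := (Finset.mem_filter.mp hx).2
    have hy' := (Finset.mem_filter.mp hy).2
    have h4 : Dist4 v w x y := ⟨hvw, hx'.1.symm, hy'.1.symm, hx'.2.1.symm, hy'.2.1.symm, hxy⟩
    have hA' : (XX v w G).image (Equiv.swap x y) ∈ PP v w G₀ := S0453J.sw_mem hx hy hA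
    have ht := tau_mk h4 hG₀ hA hx hy
    rw [mk_XX hvw hG₀ hG] at ht
    rw [ht]
    exact ⟨mk_mem_fib hvw hG₀ hA', XX_mk hvw (hsub hA')⟩
  · intro x y h4 G hG
    rw [isM_iff h4, hSS G hG]
    rfl

theorem claimB (d : Fin n → ℕ) : ClaimB d := claimB_of d JB_holds (fibAPI d)

theorem g4 (d : Fin n → ℕ) : G4 d := g4_of d JG_holds (fibAPI d)

end Crest.Agent.S0453P4
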