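import Mathlib

/-!
# Row 299 (S0453), package "K3 counting"

Number of 3-colourings of two disjoint sets of columns with prescribed class sizes
(product of two multinomial coefficients) and the push-forward of the uniform measure on the
colouring ensemble to the radial vector.  Only Mathlib is used.
-/

set_option autoImplicit false
set_option linter.unusedSectionVars false
open Finset Function
open scoped Nat

namespace Crest.Agent.S0453Count

variable {a : Type*} [Fintype a] [DecidableEq a]

/-- colourings frozen to colour `0` outside `J`. -/
def Fr (J : Finset a) : Finset (a → Fin 3) := univ.filter fun χ => ∀ x, x ∉ J → χ x = 0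

lemma mem_Fr {J : Finset a} {χ : a → Fin 3} : χ ∈ Fr J ↔ ∀ x, x ∉ J → χ x = 0 := by
  simp [Fr]

lemma Fr_empty : Fr (∅ : Finset a) = {fun _ => 0} := by
  ext χ
  simp only [mem_Fr, mem_singleton, notMem_empty, not_false_eq_true, forall_const]
  constructor
  · intro h; funext x; exact h x
  · intro h x; rw [h]

lemma sum_Fr_insert {M : Type*} [AddCommMonoid M] {x : a} {J : Finset a} (hx : x ∉ J)
    (F : (a → Fin 3) → M) :
    ∑ χ ∈ Fr (insert x J), F χ = ∑ v : Fin 3, ∑ χ ∈ Fr J, F (update χ x v) := by
  rw [← Finset.sum_product']
  refine Finset.sum_nbij' (fun χ => (χ x, update χ x 0)) (fun p => update p.2 x p.1) ?_ ?_ ?_ ?_ ?_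
  · intro χ hχ
    rw [mem_Fr] at hχ
    simp only [mem_product, mem_univ, true_and, mem_Fr]
    intro y hy
    by_cases hyx : y = x
    · subst hyx; simp
    · rw [update_of_ne hyx]
      exact hχ y (by simp [hyx, hy])
  · intro p hp
    simp only [mem_product, mem_univ, true_and, mem_Fr] at hp
    rw [mem_Fr]
    intro y hy
    simp only [mem_insert, not_or] at hy
    rw [update_of_ne hy.1]
    exact hp y hy.2
  · intro χ _
    simp
  · intro p hp
    simp only [mem_product, mem_univ, true_and, mem_Fr] at hp
    ext1
    · simp
    · simp only [update_idem]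
      funext y
      by_cases hyx : y = x
      · subst hyx; simp [hp y hx]
      · rw [update_of_ne hyx]
  · intro χ _
    simp

lemma card_filter_update {x : a} {J : Finset a} (hx : x ∉ J) (χ : a → Fin 3) (v u : Fin 3) :
    ((insert x J).filter fun y => update χ x v y = u).card
      = (J.filter fun y => χ y = u).card + if v = u then 1 else 0 := by
  rw [Finset.filter_insert]
  have h1 : (J.filter fun y => update χ x v y = u) = J.filter fun y => χ y = u := by
    apply Finset.filter_congr
    intro y hy
    have : y ≠ x := fun h => hx (h ▸ hy)
    rw [update_of_ne this]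
  rw [h1]
  simp only [update_self]
  split_ifs with h
  · rw [Finset.card_insert_of_notMem (by simp [hx])]
  · simp

lemma card_filter_update_of_notMem {x : a} {K : Finset a} (hx : x ∉ K) (χ : a → Fin 3)
    (v u : Fin 3) :
    (K.filter fun y => update χ x v y = u) = K.filter fun y => χ y = u := by
  apply Finset.filter_congr
  intro y hy
  have : y ≠ x := fun h => hx (h ▸ hy)
  rw [update_of_ne this]

/-- One induction, used twice. -/
lemma count_aux (K : Finset a) (Q : (a → Fin 3) → Prop) [DecidablePred Q]
    (hQ : ∀ χ x v, x ∉ K → (Q (update χ x v) ↔ Q χ)) (J : Finset a) :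
    Disjoint J K → ∀ c : Fin 3 → ℕ, ∑ u, c u = J.card →
    ((Fr (J ∪ K)).filter fun χ => (∀ u, (J.filter fun y => χ y = u).card = c u) ∧ Q χ).card
        * ∏ u, (c u)! = J.card ! * ((Fr K).filter Q).card := by
  induction J using Finset.induction_on with
  | empty =>
    intro _ c hc
    have hc0 : ∀ u, c u = 0 := by
      intro u
      have := (Finset.sum_eq_zero_iff (s := univ) (f := c)).1 (by simpa using hc) u (mem_univ u)
      exact this
    simp [hc0]
  | insert x J hx ih =>
    intro hd c hc
    rw [Finset.disjoint_insert_left] at hd
    obtain ⟨hxK, hd⟩ := hd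
    have hxJK : x ∉ J ∪ K := by simp [hx, hxK]
    rw [Finset.insert_union, Finset.card_filter, sum_Fr_insert hxJK, Finset.sum_mul]
    have key : ∀ v : Fin 3,
        (∑ χ ∈ Fr (J ∪ K), if ((∀ u, ((insert x J).filter fun y => update χ x v y = u).card = c u)
            ∧ Q (update χ x v)) then 1 else 0) * ∏ u, (c u)!
          = c v * (J.card ! * ((Fr K).filter Q).card) := by
      intro v
      rcases Nat.eq_zero_or_pos (c v) with h0 | hpos
      · rw [h0, zero_mul]
        have : ∀ χ ∈ Fr (J ∪ K), (if ((∀ u, ((insert x J).filter
            fun y => update χ x v y = u).card = c u) ∧ Q (update χ x v)) then 1 else 0) = 0 := by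
          intro χ _
          rw [if_neg]
          rintro ⟨h, _⟩
          have := h v
          rw [card_filter_update hx, h0] at this
          simp at this
        rw [Finset.sum_eq_zero this, zero_mul]
      · obtain ⟨m, hm⟩ : ∃ m, c v = m + 1 := ⟨c v - 1, by omega⟩
        have hsum : ∑ u, update c v m u = J.card := by
          have h1 : ∑ u, c u = c v + ∑ u ∈ univ.erase v, c u :=
            (Finset.add_sum_erase univ c (mem_univ v)).symm
          have h2 : ∑ u, update c v m u = update c v m v + ∑ u ∈ univ.erase v, update c v m u :=
            (Finset.add_sum_erase univ (update c v m) (mem_univ v)).symm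
          have h3 : ∑ u ∈ univ.erase v, update c v m u = ∑ u ∈ univ.erase v, c u := by
            apply Finset.sum_congr rfl
            intro u hu
            rw [update_of_ne (Finset.ne_of_mem_erase hu)]
          rw [Finset.card_insert_of_notMem hx] at hc
          rw [h2, h3, update_self]
          omega
        have hprod : ∏ u, (c u)! = c v * ∏ u, (update c v m u)! := by
          have h1 : ∏ u, (c u)! = (c v)! * ∏ u ∈ univ.erase v, (c u)! :=
            (Finset.mul_prod_erase univ (fun u => (c u)!) (mem_univ v)).symm
          have h2 : ∏ u, (update c v m u)!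
              = (update c v m v)! * ∏ u ∈ univ.erase v, (update c v m u)! :=
            (Finset.mul_prod_erase univ (fun u => (update c v m u)!) (mem_univ v)).symm
          have h3 : ∏ u ∈ univ.erase v, (update c v m u)! = ∏ u ∈ univ.erase v, (c u)! := by
            apply Finset.prod_congr rfl
            intro u hu
            rw [update_of_ne (Finset.ne_of_mem_erase hu)]
          rw [h1, h2, h3, update_self, hm, Nat.factorial_succ, mul_assoc]
        have hih := ih hd (update c v m) hsum
        rw [Finset.card_filter] at hih
        have hcongr : (∑ χ ∈ Fr (J ∪ K), if ((∀ u, ((insert x J).filter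
              fun y => update χ x v y = u).card = c u) ∧ Q (update χ x v)) then 1 else 0)
            = ∑ χ ∈ Fr (J ∪ K), if ((∀ u, (J.filter fun y => χ y = u).card = update c v m u)
                ∧ Q χ) then 1 else 0 := by
          apply Finset.sum_congr rfl
          intro χ _
          apply if_congr _ rfl rfl
          rw [hQ χ x v hxK]
          apply and_congr_left'
          apply forall_congr'
          intro u
          rw [card_filter_update hx]
          by_cases huv : v = u
          · subst huv
            simp [hm]
          · rw [if_neg huv, update_of_ne (Ne.symm huv), add_zero]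
        rw [hcongr, hprod, mul_left_comm, hih]
    rw [Finset.sum_congr rfl (fun v _ => key v), ← Finset.sum_mul, hc,
      Finset.card_insert_of_notMem hx, Nat.factorial_succ, mul_assoc]


/-- colourings frozen outside `A ∪ B` with prescribed class sizes on `A` and on `B`. -/
def ColAB (A B : Finset a) (ca cb : Fin 3 → ℕ) : Finset (a → Fin 3) :=
  univ.filter fun χ => (∀ x, x ∉ A → x ∉ B → χ x = 0) ∧
    (∀ u, (A.filter fun x => χ x = u).card = ca u) ∧ ∀ u, (B.filter fun x => χ x = u).card = cb u

lemma mem_ColAB {A B : Finset a} {ca cb : Fin 3 → ℕ} {χ : a → Fin 3} :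
    χ ∈ ColAB A B ca cb ↔ (∀ x, x ∉ A → x ∉ B → χ x = 0) ∧
      (∀ u, (A.filter fun x => χ x = u).card = ca u) ∧
        ∀ u, (B.filter fun x => χ x = u).card = cb u := by
  simp [ColAB]

/-- **Counting**: the number of colourings with prescribed class sizes is a product of two
multinomial coefficients. -/
theorem card_ColAB {A B : Finset a} (h : Disjoint A B) {ca cb : Fin 3 → ℕ}
    (ha : ∑ u, ca u = A.card) (hb : ∑ u, cb u = B.card) :
    (ColAB A B ca cb).card * ∏ u, ((ca u)! * (cb u)!) = A.card ! * B.card ! := by
  have h1 := count_aux B (fun χ => ∀ u, (B.filter fun x => χ x = u).card = cb u)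
    (by
      intro χ x v hx
      apply forall_congr'
      intro u
      rw [card_filter_update_of_notMem hx]) A h ca ha
  have h2 := count_aux (∅ : Finset a) (fun _ => True) (by simp) B (disjoint_empty_right B) cb hb
  have e1 : ColAB A B ca cb = (Fr (A ∪ B)).filter fun χ =>
      (∀ u, (A.filter fun y => χ y = u).card = ca u) ∧
        ∀ u, (B.filter fun x => χ x = u).card = cb u := by
    ext χ
    simp only [mem_ColAB, mem_filter, mem_Fr, mem_union, not_or, and_imp]
  have e2 : ((Fr (B ∪ ∅)).filter fun χ =>
      (∀ u, (B.filter fun y => χ y = u).card = cb u) ∧ True)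
      = (Fr B).filter fun χ => ∀ u, (B.filter fun x => χ x = u).card = cb u := by
    simp
  have e3 : ((Fr (∅ : Finset a)).filter fun _ => True).card = 1 := by
    rw [Fr_empty]; simp
  rw [e2, e3, mul_one] at h2
  rw [← e1] at h1
  rw [Finset.prod_mul_distrib, ← mul_assoc, h1, mul_assoc, h2]

end Crest.Agent.S0453Count
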