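import Mathlib

set_option autoImplicit false
open Finset

namespace Crest.Agent.S0453Radial

/-! ## Generic part: weighted inner product, power trick -/

section Generic
variable {σ : Type*}

/-- weighted inner product on a finite set -/
def ip (I : Finset σ) (w : σ → ℝ) (F G : σ → ℝ) : ℝ := ∑ s ∈ I, w s * F s * G s

lemma ip_comm (I : Finset σ) (w F G : σ → ℝ) : ip I w F G = ip I w G F := by
  unfold ip; exact Finset.sum_congr rfl (fun s _ => by ring)

lemma ip_self_nonneg (I : Finset σ) (w : σ → ℝ) (hw : ∀ s ∈ I, 0 ≤ w s) (F : σ → ℝ) :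
    0 ≤ ip I w F F := by
  unfold ip
  exact Finset.sum_nonneg (fun s hs => by
    have := hw s hs
    have h2 : w s * F s * F s = w s * (F s * F s) := by ring
    rw [h2]; exact mul_nonneg this (mul_self_nonneg _))

lemma ip_cs (I : Finset σ) (w : σ → ℝ) (hw : ∀ s ∈ I, 0 ≤ w s) (F G : σ → ℝ) :
    (ip I w F G) ^ 2 ≤ ip I w F F * ip I w G G := by
  unfold ip
  have h := Finset.sum_mul_sq_le_sq_mul_sq I (fun s => Real.sqrt (w s) * F s)
    (fun s => Real.sqrt (w s) * G s)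
  have e1 : ∑ s ∈ I, (Real.sqrt (w s) * F s) * (Real.sqrt (w s) * G s) = ∑ s ∈ I, w s * F s * G s := by
    refine Finset.sum_congr rfl (fun s hs => ?_)
    have := Real.mul_self_sqrt (hw s hs)
    calc (Real.sqrt (w s) * F s) * (Real.sqrt (w s) * G s)
        = (Real.sqrt (w s) * Real.sqrt (w s)) * F s * G s := by ring
      _ = w s * F s * G s := by rw [this]
  have e2 : ∀ H : σ → ℝ, ∑ s ∈ I, (Real.sqrt (w s) * H s) ^ 2 = ∑ s ∈ I, w s * H s * H s := by
    intro H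
    refine Finset.sum_congr rfl (fun s hs => ?_)
    have := Real.mul_self_sqrt (hw s hs)
    calc (Real.sqrt (w s) * H s) ^ 2
        = (Real.sqrt (w s) * Real.sqrt (w s)) * H s * H s := by ring
      _ = w s * H s * H s := by rw [this]
  rw [e1, e2 F, e2 G] at h
  exact h

/-- **Power trick.**  A symmetric operator which multiplies a Lipschitz-type
seminorm (controlling the sup norm of mean-zero functions) by at most `c` has norm at most `c`
on mean-zero functions. -/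
theorem power_trick_c (I : Finset σ) (w : σ → ℝ) (hw : ∀ s ∈ I, 0 ≤ w s)
    (T : (σ → ℝ) → (σ → ℝ)) (Lip : (σ → ℝ) → ℝ → Prop) (C c : ℝ) (hc : 0 < c)
    (hsym : ∀ F G, ip I w (T F) G = ip I w F (T G))
    (hmean : ∀ F, ∑ s ∈ I, w s * F s = 0 → ∑ s ∈ I, w s * T F s = 0)
    (hLip : ∀ F M, Lip F M → Lip (T F) (c * M))
    (hbd : ∀ F M, Lip F M → ∑ s ∈ I, w s * F s = 0 → ∀ s ∈ I, |F s| ≤ C * M)
    (F : σ → ℝ) (M : ℝ) (hF : Lip F M) (hF0 : ∑ s ∈ I, w s * F s = 0) :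
    ip I w (T F) (T F) ≤ c ^ 2 * ip I w F F := by
  set q : ℕ → ℝ := fun m => ip I w (T^[m] F) (T^[m] F) with hq
  have hq0 : ∀ m, 0 ≤ q m := fun m => ip_self_nonneg I w hw _
  have hcs : ∀ m, q (m + 1) ^ 2 ≤ q m * q (m + 2) := by
    intro m
    have h1 : q (m + 1) = ip I w (T^[m] F) (T^[m + 2] F) := by
      simp only [hq]
      rw [Function.iterate_succ_apply' T (m + 1) F]
      rw [← hsym]
      rw [Function.iterate_succ_apply' T m F]
    rw [h1]
    exact ip_cs I w hw _ _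
  have hLm : ∀ m, Lip (T^[m] F) (c ^ m * M) ∧ ∑ s ∈ I, w s * (T^[m] F) s = 0 := by
    intro m
    induction m with
    | zero => simpa using ⟨hF, hF0⟩
    | succ m ih =>
      rw [Function.iterate_succ_apply' T m F]
      refine ⟨?_, hmean _ ih.2⟩
      have := hLip _ _ ih.1
      have e : c * (c ^ m * M) = c ^ (m + 1) * M := by ring
      rwa [e] at this
  set Z : ℝ := ∑ s ∈ I, w s with hZ
  have hub : ∀ m, q m ≤ (Z * (C * M) ^ 2) * (c ^ 2) ^ m := by
    intro m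
    have hb := hbd _ _ (hLm m).1 (hLm m).2
    simp only [hq, ip]
    calc ∑ s ∈ I, w s * (T^[m] F) s * (T^[m] F) s
        ≤ ∑ s ∈ I, w s * (C * (c ^ m * M)) ^ 2 := by
          refine Finset.sum_le_sum (fun s hs => ?_)
          have h1 := hb s hs
          have h2 : (T^[m] F) s * (T^[m] F) s ≤ (C * (c ^ m * M)) ^ 2 := by
            have := sq_le_sq' (by linarith [abs_le.mp h1 |>.1]) (abs_le.mp h1).2
            nlinarith [this]
          have h3 := mul_le_mul_of_nonneg_left h2 (hw s hs)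
          calc w s * (T^[m] F) s * (T^[m] F) s = w s * ((T^[m] F) s * (T^[m] F) s) := by ring
            _ ≤ _ := h3
      _ = (Z * (C * M) ^ 2) * (c ^ 2) ^ m := by
          rw [← Finset.sum_mul, ← hZ]
          have : (c ^ 2) ^ m = (c ^ m) ^ 2 := by
            rw [← pow_mul, mul_comm, pow_mul]
          rw [this]; ring
  by_contra hcon
  rw [not_le] at hcon
  have hq1 : ip I w (T F) (T F) = q 1 := by simp [hq]
  have hq00 : ip I w F F = q 0 := by simp [hq]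
  rw [hq1, hq00] at hcon
  have hc2 : 0 < c ^ 2 := by positivity
  rcases (hq0 0).eq_or_lt with h0 | h0
  · have := hcs 0
    rw [← h0] at this
    have h1 : q 1 ^ 2 ≤ 0 := by simpa using this
    have h2 : q 1 = 0 := by
      have := sq_nonneg (q 1)
      exact pow_eq_zero_iff (two_ne_zero) |>.mp (le_antisymm h1 this)
    rw [h2, ← h0] at hcon
    simp at hcon
  · set r : ℝ := q 1 / q 0 with hr
    have hr4 : c ^ 2 < r := by rw [hr, lt_div_iff₀ h0]; exact hcon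
    have hstep : ∀ m, 0 < q m ∧ r * q m ≤ q (m + 1) := by
      intro m
      induction m with
      | zero =>
        refine ⟨h0, ?_⟩
        rw [hr, div_mul_cancel₀ _ h0.ne']
      | succ m ih =>
        have hpos : 0 < q (m + 1) := lt_of_lt_of_le (mul_pos (by linarith) ih.1) ih.2
        refine ⟨hpos, ?_⟩
        have h1 := hcs m
        have h2 : r * q m * q (m + 1) ≤ q m * q (m + 2) := by
          calc r * q m * q (m + 1) ≤ q (m + 1) * q (m + 1) :=
                mul_le_mul_of_nonneg_right ih.2 hpos.le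
            _ = q (m + 1) ^ 2 := by ring
            _ ≤ _ := h1
        have h3 : q m * (r * q (m + 1)) ≤ q m * q (m + 2) := by
          calc q m * (r * q (m + 1)) = r * q m * q (m + 1) := by ring
            _ ≤ _ := h2
        exact le_of_mul_le_mul_left h3 ih.1
    have hlow : ∀ m, r ^ m * q 0 ≤ q m := by
      intro m
      induction m with
      | zero => simp
      | succ m ih =>
        calc r ^ (m + 1) * q 0 = r * (r ^ m * q 0) := by ring
          _ ≤ r * q m := mul_le_mul_of_nonneg_left ih (by linarith)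
          _ ≤ q (m + 1) := (hstep m).2
    have hr1 : 1 < r / c ^ 2 := by rw [lt_div_iff₀ hc2]; linarith
    obtain ⟨m, hm⟩ := pow_unbounded_of_one_lt ((Z * (C * M) ^ 2) / q 0) hr1
    have h1 := (hlow m).trans (hub m)
    have h4 : (0 : ℝ) < (c ^ 2) ^ m := by positivity
    have h2 : (r / c ^ 2) ^ m * q 0 ≤ Z * (C * M) ^ 2 := by
      have : (r / c ^ 2) ^ m * q 0 * (c ^ 2) ^ m = r ^ m * q 0 := by
        rw [div_pow]; field_simp
      have h5 : (r / c ^ 2) ^ m * q 0 * (c ^ 2) ^ m ≤ (Z * (C * M) ^ 2) * (c ^ 2) ^ m := by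
        rw [this]; exact h1
      exact le_of_mul_le_mul_right h5 h4
    have h3 : (r / c ^ 2) ^ m ≤ (Z * (C * M) ^ 2) / q 0 := by
      rw [le_div_iff₀ h0]; exact h2
    linarith

/-- the case `c = 2` -/
theorem power_trick (I : Finset σ) (w : σ → ℝ) (hw : ∀ s ∈ I, 0 ≤ w s)
    (T : (σ → ℝ) → (σ → ℝ)) (Lip : (σ → ℝ) → ℝ → Prop) (C : ℝ)
    (hsym : ∀ F G, ip I w (T F) G = ip I w F (T G))
    (hmean : ∀ F, ∑ s ∈ I, w s * F s = 0 → ∑ s ∈ I, w s * T F s = 0)
    (hLip : ∀ F M, Lip F M → Lip (T F) (2 * M))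
    (hbd : ∀ F M, Lip F M → ∑ s ∈ I, w s * F s = 0 → ∀ s ∈ I, |F s| ≤ C * M)
    (F : σ → ℝ) (M : ℝ) (hF : Lip F M) (hF0 : ∑ s ∈ I, w s * F s = 0) :
    ip I w (T F) (T F) ≤ 4 * ip I w F F := by
  have := power_trick_c I w hw T Lip C 2 (by norm_num) hsym hmean hLip hbd F M hF hF0
  norm_num at this
  exact this

/-- quadratic-form version -/
theorem quad_of_norm (I : Finset σ) (w : σ → ℝ) (hw : ∀ s ∈ I, 0 ≤ w s) (c : ℝ) (hc : 0 ≤ c)
    (F TF : σ → ℝ) (h : ip I w TF TF ≤ c ^ 2 * ip I w F F) :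
    ip I w F TF ≤ c * ip I w F F := by
  have h2 := ip_cs I w hw F TF
  have h3 := ip_self_nonneg I w hw F
  by_contra hcon
  rw [not_le] at hcon
  have h4 : 0 ≤ c * ip I w F F := mul_nonneg hc h3
  nlinarith [mul_le_mul_of_nonneg_left h h3]

/-- In a connected graph the oscillation of a Lipschitz function is controlled. -/
lemma osc_of_conn (I : Finset σ) (R : σ → σ → Prop)
    (hconn : ∀ s ∈ I, ∀ s' ∈ I, Relation.ReflTransGen (fun a b => a ∈ I ∧ b ∈ I ∧ R a b) s s') :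
    ∃ C : ℝ, ∀ (F : σ → ℝ) (M : ℝ), 0 ≤ M → (∀ a ∈ I, ∀ b ∈ I, R a b → |F a - F b| ≤ M) →
      ∀ s ∈ I, ∀ s' ∈ I, |F s - F s'| ≤ C * M := by
  classical
  have h1 : ∀ s s', Relation.ReflTransGen (fun a b => a ∈ I ∧ b ∈ I ∧ R a b) s s' →
      ∃ C : ℝ, 0 ≤ C ∧ ∀ (F : σ → ℝ) (M : ℝ), 0 ≤ M →
        (∀ a ∈ I, ∀ b ∈ I, R a b → |F a - F b| ≤ M) → |F s - F s'| ≤ C * M := by
    intro s s' h
    induction h with
    | refl => exact ⟨0, le_refl _, fun F M _ _ => by simp⟩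
    | @tail b c' _ hbc ih =>
      obtain ⟨C, hC0, hC⟩ := ih
      refine ⟨C + 1, by linarith, fun F M hM hF => ?_⟩
      have a1 := hC F M hM hF
      have a2 := hF _ hbc.1 _ hbc.2.1 hbc.2.2
      have := abs_sub_le (F s) (F b) (F c')
      linarith
  choose! Cf hCf0 hCf using h1
  refine ⟨∑ s ∈ I, ∑ s' ∈ I, Cf s s', fun F M hM hF s hs s' hs' => ?_⟩
  have hnn : ∀ a ∈ I, ∀ b ∈ I, 0 ≤ Cf a b := fun a ha b hb => hCf0 a b (hconn a ha b hb)
  have h2 : Cf s s' ≤ ∑ s ∈ I, ∑ s' ∈ I, Cf s s' := by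
    calc Cf s s' ≤ ∑ s' ∈ I, Cf s s' :=
          Finset.single_le_sum (f := fun b => Cf s b) (fun b hb => hnn s hs b hb) hs'
      _ ≤ _ := Finset.single_le_sum (f := fun a => ∑ s' ∈ I, Cf a s')
          (fun a ha => Finset.sum_nonneg (fun b hb => hnn a ha b hb)) hs
  exact (hCf s s' (hconn s hs s' hs') F M hM hF).trans (mul_le_mul_of_nonneg_right h2 hM)

/-- mean-zero functions are bounded by their oscillation -/
lemma abs_le_of_osc (I : Finset σ) (w : σ → ℝ) (hw : ∀ s ∈ I, 0 < w s) (F : σ → ℝ) (K : ℝ)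
    (hosc : ∀ s ∈ I, ∀ s' ∈ I, |F s - F s'| ≤ K) (hF0 : ∑ s ∈ I, w s * F s = 0)
    (s : σ) (hs : s ∈ I) : |F s| ≤ K := by
  set Z := ∑ s' ∈ I, w s' with hZ
  have hZpos : 0 < Z := Finset.sum_pos hw ⟨s, hs⟩
  have h1 : Z * F s = ∑ s' ∈ I, w s' * (F s - F s') := by
    have : ∑ s' ∈ I, w s' * (F s - F s')
        = ∑ s' ∈ I, w s' * F s - ∑ s' ∈ I, w s' * F s' := by
      rw [← Finset.sum_sub_distrib]
      exact Finset.sum_congr rfl (fun _ _ => by ring)
    rw [this, hF0, ← Finset.sum_mul, sub_zero]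
  have h2 : |Z * F s| ≤ Z * K := by
    rw [h1, hZ, Finset.sum_mul]
    refine (Finset.abs_sum_le_sum_abs _ _).trans (Finset.sum_le_sum (fun s' hs' => ?_))
    rw [abs_mul, abs_of_pos (hw s' hs')]
    exact mul_le_mul_of_nonneg_left (hosc s hs s' hs') (hw s' hs').le
  rw [abs_mul, abs_of_pos hZpos] at h2
  exact le_of_mul_le_mul_left h2 hZpos

/-- **Power trick on a connected graph.**  `Lip` is any predicate which (i) is multiplied by at
most `c` under `T`, (ii) implies `M`-Lipschitz along the edges `R` of a connected graph on `I`. -/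
theorem power_trick_conn (I : Finset σ) (w : σ → ℝ) (hw : ∀ s ∈ I, 0 < w s)
    (R : σ → σ → Prop)
    (hconn : ∀ s ∈ I, ∀ s' ∈ I, Relation.ReflTransGen (fun a b => a ∈ I ∧ b ∈ I ∧ R a b) s s')
    (T : (σ → ℝ) → (σ → ℝ)) (Lip : (σ → ℝ) → ℝ → Prop) (c : ℝ) (hc : 0 < c)
    (hsym : ∀ F G, ip I w (T F) G = ip I w F (T G))
    (hmean : ∀ F, ∑ s ∈ I, w s * F s = 0 → ∑ s ∈ I, w s * T F s = 0)
    (hLip : ∀ F M, Lip F M → Lip (T F) (c * M))
    (hR : ∀ F M, Lip F M → 0 ≤ M ∧ ∀ a ∈ I, ∀ b ∈ I, R a b → |F a - F b| ≤ M)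
    (F : σ → ℝ) (M : ℝ) (hF : Lip F M) (hF0 : ∑ s ∈ I, w s * F s = 0) :
    ip I w (T F) (T F) ≤ c ^ 2 * ip I w F F ∧ ip I w F (T F) ≤ c * ip I w F F := by
  obtain ⟨C, hC⟩ := osc_of_conn I R hconn
  have h := power_trick_c I w (fun s hs => (hw s hs).le) T Lip C c hc hsym hmean hLip
    (fun F M hFM hF0 s hs => abs_le_of_osc I w hw F (C * M)
      (hC F M (hR F M hFM).1 (hR F M hFM).2) hF0 s hs) F M hF hF0
  exact ⟨h, quad_of_norm I w (fun s hs => (hw s hs).le) c hc.le F (T F) h⟩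

end Generic

/-! ## Weighted fibre averages -/

section CondExp
variable {σ τ : Type*} [DecidableEq τ]

/-- weighted fibre sum of `F` -/
def fN (I : Finset σ) (w : σ → ℝ) (π : σ → τ) (F : σ → ℝ) (t : τ) : ℝ :=
  ∑ s ∈ I.filter (fun s => π s = t), w s * F s

/-- weight of a fibre -/
def fD (I : Finset σ) (w : σ → ℝ) (π : σ → τ) (t : τ) : ℝ :=
  ∑ s ∈ I.filter (fun s => π s = t), w s

/-- weighted fibre average -/
noncomputable def cE (I : Finset σ) (w : σ → ℝ) (π : σ → τ) (F : σ → ℝ) (s : σ) : ℝ :=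
  fN I w π F (π s) / fD I w π (π s)

lemma ip_cE (I : Finset σ) (w : σ → ℝ) (π : σ → τ) (F G : σ → ℝ) :
    ip I w G (cE I w π F) = ∑ t ∈ I.image π, fN I w π G t * fN I w π F t / fD I w π t := by
  unfold ip
  rw [← Finset.sum_fiberwise_of_maps_to (g := π) (t := I.image π)
    (fun s hs => Finset.mem_image_of_mem π hs)]
  refine Finset.sum_congr rfl (fun t _ => ?_)
  have : fN I w π G t * fN I w π F t / fD I w π t
      = ∑ s ∈ I.filter (fun s => π s = t), w s * G s * (fN I w π F t / fD I w π t) := by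
    rw [← Finset.sum_mul]; unfold fN; ring
  rw [this]
  refine Finset.sum_congr rfl (fun s hs => ?_)
  have h : π s = t := (Finset.mem_filter.mp hs).2
  simp only [cE, h]

lemma cE_symm (I : Finset σ) (w : σ → ℝ) (π : σ → τ) (F G : σ → ℝ) :
    ip I w (cE I w π F) G = ip I w F (cE I w π G) := by
  rw [ip_comm, ip_cE, ip_cE]
  exact Finset.sum_congr rfl (fun t _ => by ring)

lemma fD_pos (I : Finset σ) (w : σ → ℝ) (hw : ∀ s ∈ I, 0 < w s) (π : σ → τ) (s : σ)
    (hs : s ∈ I) : 0 < fD I w π (π s) := by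
  unfold fD
  refine Finset.sum_pos (fun s' hs' => hw s' (Finset.mem_filter.mp hs').1) ⟨s, ?_⟩
  exact Finset.mem_filter.mpr ⟨hs, rfl⟩

lemma sum_fN (I : Finset σ) (w : σ → ℝ) (π : σ → τ) (F : σ → ℝ) :
    ∑ t ∈ I.image π, fN I w π F t = ∑ s ∈ I, w s * F s := by
  unfold fN
  exact Finset.sum_fiberwise_of_maps_to (g := π) (t := I.image π)
    (fun s hs => Finset.mem_image_of_mem π hs) _

lemma sum_fD (I : Finset σ) (w : σ → ℝ) (π : σ → τ) :
    ∑ t ∈ I.image π, fD I w π t = ∑ s ∈ I, w s := by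
  unfold fD
  exact Finset.sum_fiberwise_of_maps_to (g := π) (t := I.image π)
    (fun s hs => Finset.mem_image_of_mem π hs) _

lemma fN_one (I : Finset σ) (w : σ → ℝ) (π : σ → τ) (t : τ) :
    fN I w π (fun _ => 1) t = fD I w π t := by
  unfold fN fD; simp

lemma cE_mean (I : Finset σ) (w : σ → ℝ) (hw : ∀ s ∈ I, 0 < w s) (π : σ → τ) (F : σ → ℝ) :
    ∑ s ∈ I, w s * cE I w π F s = ∑ s ∈ I, w s * F s := by
  have h := ip_cE I w π F (fun _ => 1)
  unfold ip at h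
  simp only [mul_one] at h
  rw [h, ← sum_fN I w π F]
  refine Finset.sum_congr rfl (fun t ht => ?_)
  obtain ⟨s, hs, rfl⟩ := Finset.mem_image.mp ht
  have := fD_pos I w hw π s hs
  rw [fN_one]
  field_simp

lemma ip_congr (I : Finset σ) (w : σ → ℝ) {F F' G G' : σ → ℝ} (hF : ∀ s ∈ I, F s = F' s)
    (hG : ∀ s ∈ I, G s = G' s) : ip I w F G = ip I w F' G' := by
  unfold ip
  exact Finset.sum_congr rfl (fun s hs => by rw [hF s hs, hG s hs])

/-- a function of the label is fixed by the fibre average -/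
lemma cE_of_label (I : Finset σ) (w : σ → ℝ) (hw : ∀ s ∈ I, 0 < w s) (π : σ → τ) (φ : τ → ℝ)
    (s : σ) (hs : s ∈ I) : cE I w π (fun s => φ (π s)) s = φ (π s) := by
  have hD := fD_pos I w hw π s hs
  unfold cE
  rw [div_eq_iff hD.ne']
  unfold fN fD
  rw [Finset.mul_sum]
  refine Finset.sum_congr rfl (fun s' hs' => ?_)
  show w s' * φ (π s') = φ (π s) * w s'
  rw [(Finset.mem_filter.mp hs').2]; ring

lemma cE_idem (I : Finset σ) (w : σ → ℝ) (hw : ∀ s ∈ I, 0 < w s) (π : σ → τ) (F : σ → ℝ)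
    (s : σ) (hs : s ∈ I) : cE I w π (cE I w π F) s = cE I w π F s :=
  cE_of_label I w hw π (fun t => fN I w π F t / fD I w π t) s hs

lemma ip_cE_cE (I : Finset σ) (w : σ → ℝ) (hw : ∀ s ∈ I, 0 < w s) (π : σ → τ) (F : σ → ℝ) :
    ip I w (cE I w π F) (cE I w π F) = ip I w F (cE I w π F) := by
  rw [cE_symm]
  exact ip_congr I w (fun _ _ => rfl) (fun s hs => cE_idem I w hw π F s hs)

/-- unnormalised variance -/
noncomputable def Wv (I : Finset σ) (w : σ → ℝ) (F : σ → ℝ) : ℝ :=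
  ip I w F F - (∑ s ∈ I, w s * F s) ^ 2 / ∑ s ∈ I, w s

/-- unnormalised expected conditional variance -/
noncomputable def Wc (I : Finset σ) (w : σ → ℝ) (π : σ → τ) (F : σ → ℝ) : ℝ :=
  ip I w F F - ∑ t ∈ I.image π, (fN I w π F t) ^ 2 / fD I w π t

lemma Wc_eq (I : Finset σ) (w : σ → ℝ) (π : σ → τ) (F : σ → ℝ) :
    Wc I w π F = ip I w F F - ip I w F (cE I w π F) := by
  unfold Wc; rw [ip_cE]
  congr 1
  exact Finset.sum_congr rfl (fun t _ => by rw [sq])

lemma ip_shift (I : Finset σ) (w : σ → ℝ) (F : σ → ℝ) (m : ℝ) :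
    ip I w (fun s => F s - m) (fun s => F s - m)
      = ip I w F F - 2 * m * (∑ s ∈ I, w s * F s) + m ^ 2 * ∑ s ∈ I, w s := by
  unfold ip
  rw [Finset.mul_sum, Finset.mul_sum, ← Finset.sum_sub_distrib, ← Finset.sum_add_distrib]
  exact Finset.sum_congr rfl (fun s _ => by ring)

lemma sum_shift (I : Finset σ) (w : σ → ℝ) (F : σ → ℝ) (m : ℝ) :
    ∑ s ∈ I, w s * (F s - m) = (∑ s ∈ I, w s * F s) - m * ∑ s ∈ I, w s := by
  rw [Finset.mul_sum, ← Finset.sum_sub_distrib]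
  exact Finset.sum_congr rfl (fun s _ => by ring)

/-- centring -/
lemma Wv_center (I : Finset σ) (w : σ → ℝ) (hZ : 0 < ∑ s ∈ I, w s) (F : σ → ℝ) :
    (∑ s ∈ I, w s * (F s - (∑ s ∈ I, w s * F s) / ∑ s ∈ I, w s) = 0) ∧
    ip I w (fun s => F s - (∑ s ∈ I, w s * F s) / ∑ s ∈ I, w s)
      (fun s => F s - (∑ s ∈ I, w s * F s) / ∑ s ∈ I, w s) = Wv I w F := by
  constructor
  · rw [sum_shift]; field_simp; ring
  · rw [ip_shift]; unfold Wv; field_simp; ring

lemma Wc_shift (I : Finset σ) (w : σ → ℝ) (hw : ∀ s ∈ I, 0 < w s) (π : σ → τ) (F : σ → ℝ)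
    (m : ℝ) : Wc I w π (fun s => F s - m) = Wc I w π F := by
  unfold Wc
  rw [ip_shift]
  have h1 : ∀ t ∈ I.image π, (fN I w π (fun s => F s - m) t) ^ 2 / fD I w π t
      = (fN I w π F t) ^ 2 / fD I w π t - 2 * m * fN I w π F t + m ^ 2 * fD I w π t := by
    intro t ht
    obtain ⟨s, hs, rfl⟩ := Finset.mem_image.mp ht
    have hD := fD_pos I w hw π s hs
    have : fN I w π (fun s => F s - m) (π s) = fN I w π F (π s) - m * fD I w π (π s) := by
      unfold fN fD; exact sum_shift _ _ _ _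
    rw [this]; field_simp; ring
  rw [Finset.sum_congr rfl h1, Finset.sum_add_distrib, Finset.sum_sub_distrib,
    ← Finset.mul_sum, ← Finset.mul_sum, sum_fN, sum_fD]
  ring

end CondExp

/-! ## Sequences: log-concavity, monotone likelihood ratio, coupling -/

section Seq

/-- log-concave positive sequences have antitone ratios -/
lemma logconc_ratio (γ : ℕ → ℝ) (hγ : ∀ i, 0 < γ i)
    (lc : ∀ i, γ i * γ (i + 2) ≤ γ (i + 1) ^ 2) (p : ℕ) :
    ∀ d : ℕ, γ p * γ (p + d + 1) ≤ γ (p + 1) * γ (p + d) := by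
  intro d
  induction d with
  | zero => simp [mul_comm]
  | succ d ih =>
    -- γ p γ(p+d+2) γ(p+d+1) ≤ γ p γ(p+d+1)... use lc at p+d
    have h1 := lc (p + d)
    have hpos := hγ (p + d)
    have hpos1 := hγ (p + d + 1)
    have e1 : p + (d + 1) + 1 = p + d + 2 := by ring
    have e2 : p + (d + 1) = p + d + 1 := by ring
    rw [e1, e2]
    -- multiply by γ (p+d)
    have h2 : γ (p + d) * (γ p * γ (p + d + 2)) ≤ γ (p + d) * (γ (p + 1) * γ (p + d + 1)) := by
      calc γ (p + d) * (γ p * γ (p + d + 2)) = γ p * (γ (p + d) * γ (p + d + 2)) := by ring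
        _ ≤ γ p * γ (p + d + 1) ^ 2 := mul_le_mul_of_nonneg_left h1 (hγ p).le
        _ = (γ p * γ (p + d + 1)) * γ (p + d + 1) := by ring
        _ ≤ (γ (p + 1) * γ (p + d)) * γ (p + d + 1) := mul_le_mul_of_nonneg_right ih hpos1.le
        _ = γ (p + d) * (γ (p + 1) * γ (p + d + 1)) := by ring
    exact le_of_mul_le_mul_left h2 hpos

lemma logconc_ratio' (γ : ℕ → ℝ) (hγ : ∀ i, 0 < γ i)
    (lc : ∀ i, γ i * γ (i + 2) ≤ γ (i + 1) ^ 2) {p q : ℕ} (hpq : p ≤ q) :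
    γ p * γ (q + 1) ≤ γ (p + 1) * γ q := by
  obtain ⟨d, rfl⟩ := Nat.exists_eq_add_of_le hpq
  exact logconc_ratio γ hγ lc p d

/-- monotone likelihood ratio implies stochastic domination (unnormalised) -/
lemma mlr (p q : ℕ → ℝ) (N : ℕ) (h : ∀ a j, a < j → j < N → p j * q a ≤ q j * p a)
    (i : ℕ) (hi : i ≤ N) :
    (∑ j ∈ range N, p j) * (∑ a ∈ range i, q a) ≤ (∑ j ∈ range N, q j) * (∑ a ∈ range i, p a) := by
  induction N, hi using Nat.le_induction with
  | base => exact le_of_eq (mul_comm _ _)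
  | succ N hN ih =>
    have ih' := ih (fun a j haj hj => h a j haj (Nat.lt_succ_of_lt hj))
    rw [Finset.sum_range_succ, Finset.sum_range_succ, add_mul, add_mul]
    refine add_le_add ih' ?_
    rw [Finset.mul_sum, Finset.mul_sum]
    refine Finset.sum_le_sum (fun a ha => ?_)
    exact h a N (lt_of_lt_of_le (Finset.mem_range.mp ha) hN) (Nat.lt_succ_self N)

/-- abstract nearest-neighbour coupling -/
lemma coupling_abs (S : ℕ) (u v h h' : ℕ → ℝ) (M : ℝ)
    (hc : ∀ i ≤ S, ∑ a ∈ range (i + 1), u a ≤ ∑ a ∈ range (i + 1), v a)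
    (he : ∀ i ≤ S, ∑ a ∈ range i, v a ≤ ∑ a ∈ range (i + 1), u a)
    (htot : ∑ a ∈ range (S + 2), u a = ∑ a ∈ range (S + 1), v a)
    (h1 : ∀ i ≤ S, |h i - h' i| ≤ M) (h2 : ∀ i ≤ S, |h (i + 1) - h' i| ≤ M) :
    |∑ i ∈ range (S + 2), u i * h i - ∑ i ∈ range (S + 1), v i * h' i|
      ≤ M * ∑ a ∈ range (S + 1), v a := by
  set e : ℕ → ℝ := fun i => ∑ a ∈ range (i + 1), u a - ∑ a ∈ range i, v a with he_def
  set c : ℕ → ℝ := fun i => ∑ a ∈ range (i + 1), v a - ∑ a ∈ range (i + 1), u a with hc_def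
  have hv : ∀ i, v i = e i + c i := by
    intro i; simp only [he_def, hc_def, Finset.sum_range_succ]; ring
  have hu : ∀ i, u (i + 1) = e (i + 1) + c i := by
    intro i; simp only [he_def, hc_def, Finset.sum_range_succ]; ring
  have hu0 : u 0 = e 0 := by simp [he_def]
  have heS : e (S + 1) = 0 := by simp only [he_def]; rw [htot]; ring
  have key : ∑ i ∈ range (S + 2), u i * h i - ∑ i ∈ range (S + 1), v i * h' i
      = ∑ i ∈ range (S + 1), (e i * (h i - h' i) + c i * (h (i + 1) - h' i)) := by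
    have a1 : ∑ i ∈ range (S + 2), u i * h i
        = ∑ i ∈ range (S + 1), (e (i + 1) + c i) * h (i + 1) + e 0 * h 0 := by
      rw [Finset.sum_range_succ' _ (S + 1), hu0]
      congr 1
      exact Finset.sum_congr rfl (fun i _ => by rw [hu i])
    have a2 : ∑ i ∈ range (S + 1), e (i + 1) * h (i + 1) + e 0 * h 0
        = ∑ i ∈ range (S + 1), e i * h i := by
      rw [← Finset.sum_range_succ' (fun i => e i * h i) (S + 1), Finset.sum_range_succ, heS]
      ring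
    have a3 : ∑ i ∈ range (S + 1), (e (i + 1) + c i) * h (i + 1)
        = ∑ i ∈ range (S + 1), e (i + 1) * h (i + 1) + ∑ i ∈ range (S + 1), c i * h (i + 1) := by
      rw [← Finset.sum_add_distrib]
      exact Finset.sum_congr rfl (fun i _ => by ring)
    have a4 : ∑ i ∈ range (S + 1), v i * h' i
        = ∑ i ∈ range (S + 1), e i * h' i + ∑ i ∈ range (S + 1), c i * h' i := by
      rw [← Finset.sum_add_distrib]
      exact Finset.sum_congr rfl (fun i _ => by rw [hv i]; ring)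
    have a5 : ∑ i ∈ range (S + 1), (e i * (h i - h' i) + c i * (h (i + 1) - h' i))
        = ∑ i ∈ range (S + 1), e i * h i - ∑ i ∈ range (S + 1), e i * h' i
          + (∑ i ∈ range (S + 1), c i * h (i + 1) - ∑ i ∈ range (S + 1), c i * h' i) := by
      rw [← Finset.sum_sub_distrib, ← Finset.sum_sub_distrib, ← Finset.sum_add_distrib]
      exact Finset.sum_congr rfl (fun i _ => by ring)
    rw [a1, a3, a4, a5, ← a2]; ring
  rw [key, Finset.mul_sum]
  refine (Finset.abs_sum_le_sum_abs _ _).trans (Finset.sum_le_sum (fun i hi => ?_))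
  have hiS : i ≤ S := Nat.lt_succ_iff.mp (Finset.mem_range.mp hi)
  have e0 : 0 ≤ e i := by simp only [he_def]; linarith [he i hiS]
  have c0 : 0 ≤ c i := by simp only [hc_def]; linarith [hc i hiS]
  calc |e i * (h i - h' i) + c i * (h (i + 1) - h' i)|
      ≤ |e i * (h i - h' i)| + |c i * (h (i + 1) - h' i)| := abs_add_le _ _
    _ = e i * |h i - h' i| + c i * |h (i + 1) - h' i| := by
        rw [abs_mul, abs_mul, abs_of_nonneg e0, abs_of_nonneg c0]
    _ ≤ e i * M + c i * M :=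
        add_le_add (mul_le_mul_of_nonneg_left (h1 i hiS) e0)
          (mul_le_mul_of_nonneg_left (h2 i hiS) c0)
    _ = M * v i := by rw [hv i]; ring

/-- level sums on `{i + j = S}` with weights `β i * γ j` -/
def lvA (β γ : ℕ → ℝ) (S : ℕ) (h : ℕ → ℝ) : ℝ := ∑ i ∈ range (S + 1), β i * γ (S - i) * h i

def lvZ (β γ : ℕ → ℝ) (S : ℕ) : ℝ := ∑ i ∈ range (S + 1), β i * γ (S - i)

lemma lvZ_pos (β γ : ℕ → ℝ) (hβ : ∀ i, 0 < β i) (hγ : ∀ i, 0 < γ i) (S : ℕ) :
    0 < lvZ β γ S := by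
  unfold lvZ
  exact Finset.sum_pos (fun i _ => mul_pos (hβ i) (hγ _)) ⟨0, by simp⟩

/-- **Lipschitz contraction in one variable** -/
lemma coupling (β γ : ℕ → ℝ) (hβ : ∀ i, 0 < β i) (hγ : ∀ i, 0 < γ i)
    (lcβ : ∀ i, β i * β (i + 2) ≤ β (i + 1) ^ 2) (lcγ : ∀ i, γ i * γ (i + 2) ≤ γ (i + 1) ^ 2)
    (S : ℕ) (h h' : ℕ → ℝ) (M : ℝ)
    (h1 : ∀ i ≤ S, |h i - h' i| ≤ M) (h2 : ∀ i ≤ S, |h (i + 1) - h' i| ≤ M) :
    |lvA β γ (S + 1) h / lvZ β γ (S + 1) - lvA β γ S h' / lvZ β γ S| ≤ M := by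
  set p : ℕ → ℝ := fun a => β a * γ (S - a) with hp
  set q : ℕ → ℝ := fun a => β a * γ (S + 1 - a) with hq
  have hp0 : ∀ a, 0 < p a := fun a => mul_pos (hβ a) (hγ _)
  have hq0 : ∀ a, 0 < q a := fun a => mul_pos (hβ a) (hγ _)
  have Z0 : lvZ β γ S = ∑ a ∈ range (S + 1), p a := rfl
  have Z1 : lvZ β γ (S + 1) = ∑ a ∈ range (S + 2), q a := rfl
  have hZ0 := lvZ_pos β γ hβ hγ S
  have hZ1 := lvZ_pos β γ hβ hγ (S + 1)
  set z0 := lvZ β γ S with hz0
  set z1 := lvZ β γ (S + 1) with hz1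
  have hc : ∀ i ≤ S, ∑ a ∈ range (i + 1), z0 * q a ≤ ∑ a ∈ range (i + 1), z1 * p a := by
    intro i hi
    rw [← Finset.mul_sum, ← Finset.mul_sum]
    have hm := mlr p q (S + 1) (fun a j haj hj => by
      have hjS : j ≤ S := Nat.lt_succ_iff.mp hj
      have haS : a ≤ S := by omega
      have e1 : S + 1 - a = (S - a) + 1 := by omega
      have e2 : S + 1 - j = (S - j) + 1 := by omega
      have hl := logconc_ratio' γ hγ lcγ (p := S - j) (q := S - a) (by omega)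
      simp only [hp, hq, e1, e2]
      have hb : 0 ≤ β j * β a := (mul_pos (hβ j) (hβ a)).le
      calc β j * γ (S - j) * (β a * γ (S - a + 1))
          = (β j * β a) * (γ (S - j) * γ (S - a + 1)) := by ring
        _ ≤ (β j * β a) * (γ (S - j + 1) * γ (S - a)) := mul_le_mul_of_nonneg_left hl hb
        _ = β j * γ (S - j + 1) * (β a * γ (S - a)) := by ring) (i + 1) (by omega)
    rw [← Z0] at hm
    refine hm.trans ?_
    have hP : 0 ≤ ∑ a ∈ range (i + 1), p a := Finset.sum_nonneg (fun a _ => (hp0 a).le)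
    refine mul_le_mul_of_nonneg_right ?_ hP
    rw [Z1, Finset.sum_range_succ _ (S + 1)]
    linarith [hq0 (S + 1)]
  have he : ∀ i ≤ S, ∑ a ∈ range i, z1 * p a ≤ ∑ a ∈ range (i + 1), z0 * q a := by
    intro i hi
    rw [← Finset.mul_sum, ← Finset.mul_sum]
    have hm := mlr (fun a => q (a + 1)) p (S + 1) (fun a j haj hj => by
      have e1 : S + 1 - (a + 1) = S - a := by omega
      have e2 : S + 1 - (j + 1) = S - j := by omega
      have hl := logconc_ratio' β hβ lcβ (p := a) (q := j) haj.le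
      simp only [hp, hq, e1, e2]
      have hb : 0 ≤ γ (S - j) * γ (S - a) := (mul_pos (hγ _) (hγ _)).le
      calc β (j + 1) * γ (S - j) * (β a * γ (S - a))
          = (γ (S - j) * γ (S - a)) * (β a * β (j + 1)) := by ring
        _ ≤ (γ (S - j) * γ (S - a)) * (β (a + 1) * β j) := mul_le_mul_of_nonneg_left hl hb
        _ = β j * γ (S - j) * (β (a + 1) * γ (S - a)) := by ring) i (by omega)
    rw [← Z0] at hm
    rw [Z1, Finset.sum_range_succ' _ (S + 1), Finset.sum_range_succ' _ i]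
    have hsub : ∑ a ∈ range i, p a ≤ z0 := by
      rw [Z0]
      exact Finset.sum_le_sum_of_subset_of_nonneg
        (Finset.range_subset_range.mpr (by omega)) (fun a _ _ => (hp0 a).le)
    have := mul_le_mul_of_nonneg_left hsub (hq0 0).le
    nlinarith [this, hm]
  have htot : ∑ a ∈ range (S + 2), z0 * q a = ∑ a ∈ range (S + 1), z1 * p a := by
    rw [← Finset.mul_sum, ← Finset.mul_sum, ← Z0, ← Z1]; ring
  have hmain := coupling_abs S (fun a => z0 * q a) (fun a => z1 * p a) h h' M hc he htot h1 h2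
  have A1 : ∑ i ∈ range (S + 2), z0 * q i * h i = z0 * lvA β γ (S + 1) h := by
    unfold lvA; rw [Finset.mul_sum]
    exact Finset.sum_congr rfl (fun i _ => by simp only [hq]; ring)
  have A0 : ∑ i ∈ range (S + 1), z1 * p i * h' i = z1 * lvA β γ S h' := by
    unfold lvA; rw [Finset.mul_sum]
    exact Finset.sum_congr rfl (fun i _ => by simp only [hp]; ring)
  have V : ∑ a ∈ range (S + 1), z1 * p a = z1 * z0 := by
    rw [← Finset.mul_sum, ← Z0]
  rw [A1, A0, V] at hmain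
  have e : lvA β γ (S + 1) h / z1 - lvA β γ S h' / z0
      = (z0 * lvA β γ (S + 1) h - z1 * lvA β γ S h') / (z1 * z0) := by
    field_simp
  rw [e, abs_div, abs_of_pos (mul_pos hZ1 hZ0), div_le_iff₀ (mul_pos hZ1 hZ0)]
  exact hmain

end Seq

/-! ## The simplex `{s : Fin 3 → ℕ | s 0 + s 1 + s 2 = k}` -/

section Simplex

/-- the triple with value `t` at `u`, `i` at `u+1`, `j` at `u+2` -/
def mk (u : Fin 3) (t i j : ℕ) : Fin 3 → ℕ :=
  fun a => if a = u then t else if a = u + 1 then i else j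

lemma mk_self (u : Fin 3) (t i j : ℕ) : mk u t i j u = t := by simp [mk]

lemma mk_one (u : Fin 3) (t i j : ℕ) : mk u t i j (u + 1) = i := by
  have : u + 1 ≠ u := by revert u; decide
  simp [mk, this]

lemma mk_two (u : Fin 3) (t i j : ℕ) : mk u t i j (u + 2) = j := by
  have h1 : u + 2 ≠ u := by revert u; decide
  have h2 : u + 2 ≠ u + 1 := by revert u; decide
  simp [mk, h1, h2]

lemma mk_eta (u : Fin 3) (s : Fin 3 → ℕ) : mk u (s u) (s (u + 1)) (s (u + 2)) = s := by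
  funext a
  unfold mk
  split_ifs with h1 h2
  · rw [h1]
  · rw [h2]
  · have : a = u + 2 := by revert a u; decide
    rw [this]

lemma sum_cyc {A : Type*} [AddCommMonoid A] (u : Fin 3) (f : Fin 3 → A) :
    ∑ v, f v = f u + f (u + 1) + f (u + 2) := by
  rw [Fin.sum_univ_three]
  fin_cases u
  · rfl
  · show f 0 + f 1 + f 2 = f 1 + f 2 + f 0
    rw [add_comm (f 0 + f 1), add_comm (f 0), ← add_assoc, add_comm (f 2)]
  · show f 0 + f 1 + f 2 = f 2 + f 0 + f 1
    rw [add_comm (f 0 + f 1), add_assoc]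

lemma prod_cyc {A : Type*} [CommMonoid A] (u : Fin 3) (f : Fin 3 → A) :
    ∏ v, f v = f u * f (u + 1) * f (u + 2) := by
  rw [Fin.prod_univ_three]
  fin_cases u
  · rfl
  · show f 0 * f 1 * f 2 = f 1 * f 2 * f 0
    rw [mul_comm (f 0 * f 1), mul_comm (f 0), ← mul_assoc, mul_comm (f 2)]
  · show f 0 * f 1 * f 2 = f 2 * f 0 * f 1
    rw [mul_comm (f 0 * f 1), mul_assoc]

/-- the simplex -/
def Sx (k : ℕ) : Finset (Fin 3 → ℕ) := Finset.Nat.antidiagonalTuple 3 k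

lemma mem_Sx {k : ℕ} {s : Fin 3 → ℕ} : s ∈ Sx k ↔ ∑ a, s a = k :=
  Finset.Nat.mem_antidiagonalTuple

lemma mem_Sx_cyc {k : ℕ} {s : Fin 3 → ℕ} (u : Fin 3) :
    s ∈ Sx k ↔ s u + s (u + 1) + s (u + 2) = k := by
  rw [mem_Sx, sum_cyc u]

lemma mk_mem {k : ℕ} (u : Fin 3) {t i j : ℕ} (h : t + i + j = k) : mk u t i j ∈ Sx k := by
  rw [mem_Sx_cyc u, mk_self, mk_one, mk_two]; exact h

/-- product weight -/
def wt (ν : Fin 3 → ℕ → ℝ) (s : Fin 3 → ℕ) : ℝ := ∏ a, ν a (s a)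

lemma wt_pos (ν : Fin 3 → ℕ → ℝ) (hν : ∀ a i, 0 < ν a i) (s : Fin 3 → ℕ) : 0 < wt ν s :=
  Finset.prod_pos (fun a _ => hν a _)

lemma wt_mk (ν : Fin 3 → ℕ → ℝ) (u : Fin 3) (t i j : ℕ) :
    wt ν (mk u t i j) = ν u t * (ν (u + 1) i * ν (u + 2) j) := by
  unfold wt; rw [prod_cyc u, mk_self, mk_one, mk_two, mul_assoc]

/-- sums over a coordinate fibre -/
lemma sum_fibre {k : ℕ} (u : Fin 3) {t S : ℕ} (h : t + S = k) (g : (Fin 3 → ℕ) → ℝ) :
    ∑ s ∈ (Sx k).filter (fun s => s u = t), g s = ∑ i ∈ range (S + 1), g (mk u t i (S - i)) := by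
  have key : ∀ s ∈ (Sx k).filter (fun s => s u = t),
      s (u + 1) ≤ S ∧ mk u t (s (u + 1)) (S - s (u + 1)) = s := by
    intro s hs
    obtain ⟨h1, h2⟩ := Finset.mem_filter.mp hs
    rw [mem_Sx_cyc u] at h1
    have h3 : S - s (u + 1) = s (u + 2) := by omega
    refine ⟨by omega, ?_⟩
    rw [h3, ← h2]; exact mk_eta u s
  refine Finset.sum_nbij' (fun s => s (u + 1)) (fun i => mk u t i (S - i)) ?_ ?_ ?_ ?_ ?_
  · intro s hs
    exact Finset.mem_range.mpr (Nat.lt_succ_of_le (key s hs).1)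
  · intro i hi
    have : i ≤ S := Nat.lt_succ_iff.mp (Finset.mem_range.mp hi)
    exact Finset.mem_filter.mpr ⟨mk_mem u (by omega), mk_self u _ _ _⟩
  · intro s hs; exact (key s hs).2
  · intro i _; exact mk_one u _ _ _
  · intro s hs; rw [(key s hs).2]

variable (ν : Fin 3 → ℕ → ℝ) (k : ℕ)

/-- conditional expectation given coordinate `u` -/
noncomputable def E (u : Fin 3) (F : (Fin 3 → ℕ) → ℝ) : (Fin 3 → ℕ) → ℝ :=
  cE (Sx k) (wt ν) (fun s => s u) F

lemma fN_eq (u : Fin 3) {t S : ℕ} (h : t + S = k) (F : (Fin 3 → ℕ) → ℝ) :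
    fN (Sx k) (wt ν) (fun s => s u) F t
      = ν u t * lvA (ν (u + 1)) (ν (u + 2)) S (fun i => F (mk u t i (S - i))) := by
  unfold fN lvA
  rw [sum_fibre u h, Finset.mul_sum]
  exact Finset.sum_congr rfl (fun i _ => by rw [wt_mk]; ring)

lemma fD_eq (u : Fin 3) {t S : ℕ} (h : t + S = k) :
    fD (Sx k) (wt ν) (fun s => s u) t = ν u t * lvZ (ν (u + 1)) (ν (u + 2)) S := by
  unfold fD lvZ
  rw [sum_fibre u h, Finset.mul_sum]
  exact Finset.sum_congr rfl (fun i _ => by rw [wt_mk])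

lemma E_eq (hν : ∀ a i, 0 < ν a i) (u : Fin 3) {t S : ℕ} (h : t + S = k)
    (F : (Fin 3 → ℕ) → ℝ) (s : Fin 3 → ℕ) (hs : s u = t) :
    E ν k u F s = lvA (ν (u + 1)) (ν (u + 2)) S (fun i => F (mk u t i (S - i)))
      / lvZ (ν (u + 1)) (ν (u + 2)) S := by
  unfold E cE
  simp only [hs]
  rw [fN_eq ν k u h, fD_eq ν k u h]
  exact mul_div_mul_left _ _ (hν u t).ne'

lemma E_congr (u : Fin 3) (F : (Fin 3 → ℕ) → ℝ) {s s' : Fin 3 → ℕ} (h : s u = s' u) :
    E ν k u F s = E ν k u F s' := by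
  unfold E cE; simp only [h]

/-- Lipschitz for unit transfers -/
def Lip (F : (Fin 3 → ℕ) → ℝ) (M : ℝ) : Prop :=
  0 ≤ M ∧ ∀ (u : Fin 3) (t i j : ℕ), t + i + j + 1 = k →
    |F (mk u t (i + 1) j) - F (mk u (t + 1) i j)| ≤ M ∧
    |F (mk u t i (j + 1)) - F (mk u (t + 1) i j)| ≤ M

lemma E_step (hν : ∀ a i, 0 < ν a i) (lc : ∀ a i, ν a i * ν a (i + 2) ≤ ν a (i + 1) ^ 2)
    (F : (Fin 3 → ℕ) → ℝ) (M : ℝ) (hF : Lip k F M) (u : Fin 3) (s s' : Fin 3 → ℕ)
    (hs' : s' ∈ Sx k) (h : s' u = s u + 1) :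
    |E ν k u F s - E ν k u F s'| ≤ M := by
  rw [mem_Sx_cyc u] at hs'
  obtain ⟨S, hS⟩ : ∃ S, s u + 1 + S = k := ⟨s' (u + 1) + s' (u + 2), by omega⟩
  rw [E_eq ν k hν u (t := s u) (S := S + 1) (by omega) F s rfl,
    E_eq ν k hν u (t := s u + 1) (S := S) hS F s' h]
  refine coupling _ _ (hν _) (hν _) (lc _) (lc _) S _ _ M ?_ ?_
  · intro i hi
    have e : S + 1 - i = (S - i) + 1 := by omega
    simp only [e]
    exact (hF.2 u (s u) i (S - i) (by omega)).2
  · intro i hi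
    have e : S + 1 - (i + 1) = S - i := by omega
    simp only [e]
    exact (hF.2 u (s u) i (S - i) (by omega)).1

/-- the sum of the three conditional expectations -/
noncomputable def T (F : (Fin 3 → ℕ) → ℝ) : (Fin 3 → ℕ) → ℝ := fun s => ∑ u, E ν k u F s

lemma T_Lip (hν : ∀ a i, 0 < ν a i) (lc : ∀ a i, ν a i * ν a (i + 2) ≤ ν a (i + 1) ^ 2)
    (F : (Fin 3 → ℕ) → ℝ) (M : ℝ) (hF : Lip k F M) : Lip k (T ν k F) (2 * M) := by
  refine ⟨by linarith [hF.1], fun u t i j hk => ⟨?_, ?_⟩⟩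
  · unfold T
    rw [sum_cyc u, sum_cyc u (fun v => E ν k v F (mk u (t + 1) i j))]
    have a1 := E_step ν k hν lc F M hF u (mk u t (i + 1) j) (mk u (t + 1) i j)
      (mk_mem u (by omega)) (by rw [mk_self, mk_self])
    have a2 := E_step ν k hν lc F M hF (u + 1) (mk u (t + 1) i j) (mk u t (i + 1) j)
      (mk_mem u (by omega)) (by rw [mk_one, mk_one])
    have a3 : E ν k (u + 2) F (mk u t (i + 1) j) = E ν k (u + 2) F (mk u (t + 1) i j) :=
      E_congr ν k (u + 2) F (by rw [mk_two, mk_two])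
    rw [a3]
    rw [abs_le] at a1 a2 ⊢
    constructor <;> linarith [a1.1, a1.2, a2.1, a2.2]
  · unfold T
    rw [sum_cyc u, sum_cyc u (fun v => E ν k v F (mk u (t + 1) i j))]
    have a1 := E_step ν k hν lc F M hF u (mk u t i (j + 1)) (mk u (t + 1) i j)
      (mk_mem u (by omega)) (by rw [mk_self, mk_self])
    have a2 := E_step ν k hν lc F M hF (u + 2) (mk u (t + 1) i j) (mk u t i (j + 1))
      (mk_mem u (by omega)) (by rw [mk_two, mk_two])
    have a3 : E ν k (u + 1) F (mk u t i (j + 1)) = E ν k (u + 1) F (mk u (t + 1) i j) :=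
      E_congr ν k (u + 1) F (by rw [mk_one, mk_one])
    rw [a3]
    rw [abs_le] at a1 a2 ⊢
    constructor <;> linarith [a1.1, a1.2, a2.1, a2.2]

lemma T_symm (F G : (Fin 3 → ℕ) → ℝ) :
    ip (Sx k) (wt ν) (T ν k F) G = ip (Sx k) (wt ν) F (T ν k G) := by
  have h1 : ∀ F G : (Fin 3 → ℕ) → ℝ, ip (Sx k) (wt ν) F (T ν k G)
      = ∑ u, ip (Sx k) (wt ν) F (E ν k u G) := by
    intro F G
    unfold ip T
    rw [Finset.sum_comm]
    exact Finset.sum_congr rfl (fun s _ => by rw [Finset.mul_sum])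
  rw [ip_comm, h1, h1]
  refine Finset.sum_congr rfl (fun u _ => ?_)
  rw [ip_comm]
  exact cE_symm _ _ _ _ _

lemma ip_T (F G : (Fin 3 → ℕ) → ℝ) : ip (Sx k) (wt ν) F (T ν k G)
      = ∑ u, ip (Sx k) (wt ν) F (E ν k u G) := by
  unfold ip T
  rw [Finset.sum_comm]
  exact Finset.sum_congr rfl (fun s _ => by rw [Finset.mul_sum])

lemma T_mean (hν : ∀ a i, 0 < ν a i) (F : (Fin 3 → ℕ) → ℝ) :
    ∑ s ∈ Sx k, wt ν s * T ν k F s = 3 * ∑ s ∈ Sx k, wt ν s * F s := by
  unfold T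
  have : ∑ s ∈ Sx k, wt ν s * ∑ u, E ν k u F s = ∑ u, ∑ s ∈ Sx k, wt ν s * E ν k u F s := by
    rw [Finset.sum_comm]
    exact Finset.sum_congr rfl (fun s _ => by rw [Finset.mul_sum])
  rw [this]
  have h2 : ∀ u : Fin 3, ∑ s ∈ Sx k, wt ν s * E ν k u F s = ∑ s ∈ Sx k, wt ν s * F s :=
    fun u => cE_mean _ _ (fun s _ => wt_pos ν hν s) _ _
  simp only [h2]
  simp

lemma Lip_path (F : (Fin 3 → ℕ) → ℝ) (M : ℝ) (hF : Lip k F M) (s : Fin 3 → ℕ) (hs : s ∈ Sx k) :
    |F s - F (mk 0 k 0 0)| ≤ k * M := by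
  have st1 : ∀ y x z : ℕ, x + y + z = k →
      |F (mk 0 x y z) - F (mk 0 (x + y) 0 z)| ≤ y * M := by
    intro y
    induction y with
    | zero => intro x z _; simp
    | succ y ih =>
      intro x z h
      have a1 := (hF.2 0 x y z (by omega)).1
      have a2 := ih (x + 1) z (by omega)
      have e : x + 1 + y = x + (y + 1) := by ring
      rw [e] at a2
      have := abs_sub_le (F (mk 0 x (y + 1) z)) (F (mk 0 (x + 1) y z)) (F (mk 0 (x + (y + 1)) 0 z))
      push_cast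
      linarith
  have st2 : ∀ z x : ℕ, x + z = k →
      |F (mk 0 x 0 z) - F (mk 0 (x + z) 0 0)| ≤ z * M := by
    intro z
    induction z with
    | zero => intro x _; simp
    | succ z ih =>
      intro x h
      have a1 := (hF.2 0 x 0 z (by omega)).2
      have a2 := ih (x + 1) (by omega)
      have e : x + 1 + z = x + (z + 1) := by ring
      rw [e] at a2
      have := abs_sub_le (F (mk 0 x 0 (z + 1))) (F (mk 0 (x + 1) 0 z)) (F (mk 0 (x + (z + 1)) 0 0))
      push_cast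
      linarith
  have hs' := (mem_Sx_cyc (0 : Fin 3)).mp hs
  have b1 := st1 (s (0 + 1)) (s 0) (s (0 + 2)) hs'
  have b2 := st2 (s (0 + 2)) (s 0 + s (0 + 1)) hs'
  rw [mk_eta] at b1
  rw [hs'] at b2
  have := abs_sub_le (F s) (F (mk 0 (s 0 + s (0 + 1)) 0 (s (0 + 2)))) (F (mk 0 k 0 0))
  have hk : ((s (0 + 1) : ℕ) : ℝ) + ((s (0 + 2) : ℕ) : ℝ) ≤ (k : ℝ) := by
    have : s (0 + 1) + s (0 + 2) ≤ k := by omega
    exact_mod_cast this
  have := mul_le_mul_of_nonneg_right hk hF.1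
  linarith

lemma Lip_bound (hν : ∀ a i, 0 < ν a i) (F : (Fin 3 → ℕ) → ℝ) (M : ℝ) (hF : Lip k F M)
    (hF0 : ∑ s ∈ Sx k, wt ν s * F s = 0) (s : Fin 3 → ℕ) (hs : s ∈ Sx k) :
    |F s| ≤ (2 * k) * M := by
  set Z := ∑ s' ∈ Sx k, wt ν s' with hZ
  have hZpos : 0 < Z := Finset.sum_pos (fun s' _ => wt_pos ν hν s') ⟨s, hs⟩
  have h1 : Z * F s = ∑ s' ∈ Sx k, wt ν s' * (F s - F s') := by
    have : ∑ s' ∈ Sx k, wt ν s' * (F s - F s')
        = ∑ s' ∈ Sx k, wt ν s' * F s - ∑ s' ∈ Sx k, wt ν s' * F s' := by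
      rw [← Finset.sum_sub_distrib]
      exact Finset.sum_congr rfl (fun _ _ => by ring)
    rw [this, hF0, ← Finset.sum_mul, sub_zero]
  have h2 : |Z * F s| ≤ Z * ((2 * k) * M) := by
    rw [h1, hZ, Finset.sum_mul]
    refine (Finset.abs_sum_le_sum_abs _ _).trans (Finset.sum_le_sum (fun s' hs' => ?_))
    rw [abs_mul, abs_of_pos (wt_pos ν hν s')]
    refine mul_le_mul_of_nonneg_left ?_ (wt_pos ν hν s').le
    have a1 := Lip_path k F M hF s hs
    have a2 := Lip_path k F M hF s' hs'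
    rw [abs_sub_comm] at a2
    have := abs_sub_le (F s) (F (mk 0 k 0 0)) (F s')
    linarith
  rw [abs_mul, abs_of_pos hZpos] at h2
  exact le_of_mul_le_mul_left h2 hZpos

lemma exists_Lip (F : (Fin 3 → ℕ) → ℝ) : ∃ M, Lip k F M := by
  set B := ∑ s ∈ Sx k, |F s| with hB
  have hb : ∀ s ∈ Sx k, |F s| ≤ B := fun s hs =>
    Finset.single_le_sum (f := fun s => |F s|) (fun s _ => abs_nonneg _) hs
  have hB0 : 0 ≤ B := Finset.sum_nonneg (fun s _ => abs_nonneg _)
  have hd : ∀ s ∈ Sx k, ∀ s' ∈ Sx k, |F s - F s'| ≤ 2 * B := by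
    intro s hs s' hs'
    have := abs_sub (F s) (F s')
    linarith [hb s hs, hb s' hs']
  refine ⟨2 * B, by linarith, fun u t i j h => ⟨?_, ?_⟩⟩
  · exact hd _ (mk_mem u (by omega)) _ (mk_mem u (by omega))
  · exact hd _ (mk_mem u (by omega)) _ (mk_mem u (by omega))

/-- **Operator bound**: `‖(E₀+E₁+E₂) F‖ ≤ 2 ‖F‖` for mean-zero `F`. -/
theorem T_norm (hν : ∀ a i, 0 < ν a i) (lc : ∀ a i, ν a i * ν a (i + 2) ≤ ν a (i + 1) ^ 2)
    (F : (Fin 3 → ℕ) → ℝ) (hF0 : ∑ s ∈ Sx k, wt ν s * F s = 0) :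
    ip (Sx k) (wt ν) (T ν k F) (T ν k F) ≤ 4 * ip (Sx k) (wt ν) F F := by
  obtain ⟨M, hM⟩ := exists_Lip k F
  exact power_trick (Sx k) (wt ν) (fun s _ => (wt_pos ν hν s).le) (T ν k) (Lip k) (2 * k)
    (T_symm ν k) (fun F h => by rw [T_mean ν k hν, h, mul_zero])
    (T_Lip ν k hν lc) (Lip_bound ν k hν) F M hM hF0

theorem T_quad (hν : ∀ a i, 0 < ν a i) (lc : ∀ a i, ν a i * ν a (i + 2) ≤ ν a (i + 1) ^ 2)
    (F : (Fin 3 → ℕ) → ℝ) (hF0 : ∑ s ∈ Sx k, wt ν s * F s = 0) :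
    ip (Sx k) (wt ν) F (T ν k F) ≤ 2 * ip (Sx k) (wt ν) F F := by
  have hw : ∀ s ∈ Sx k, 0 ≤ wt ν s := fun s _ => (wt_pos ν hν s).le
  have h1 := T_norm ν k hν lc F hF0
  have h2 := ip_cs (Sx k) (wt ν) hw F (T ν k F)
  have h3 := ip_self_nonneg (Sx k) (wt ν) hw F
  by_contra hcon
  rw [not_le] at hcon
  nlinarith [mul_le_mul_of_nonneg_left h1 h3]

/-- **Radial lemma, primal form**: `Var F ≤ ∑ᵤ E Var(F | sᵤ)` (unnormalised). -/
theorem radial_primal (hν : ∀ a i, 0 < ν a i)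
    (lc : ∀ a i, ν a i * ν a (i + 2) ≤ ν a (i + 1) ^ 2) (F : (Fin 3 → ℕ) → ℝ) :
    Wv (Sx k) (wt ν) F ≤ ∑ u : Fin 3, Wc (Sx k) (wt ν) (fun s => s u) F := by
  have hw : ∀ s ∈ Sx k, 0 < wt ν s := fun s _ => wt_pos ν hν s
  have hZ : 0 < ∑ s ∈ Sx k, wt ν s :=
    Finset.sum_pos hw ⟨mk 0 k 0 0, mk_mem 0 (by omega)⟩
  obtain ⟨h0, h1⟩ := Wv_center (Sx k) (wt ν) hZ F
  set m := (∑ s ∈ Sx k, wt ν s * F s) / ∑ s ∈ Sx k, wt ν s with hm
  have h2 := T_quad ν k hν lc (fun s => F s - m) h0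
  rw [ip_T] at h2
  rw [← h1]
  have h3 : ∀ u : Fin 3, Wc (Sx k) (wt ν) (fun s => s u) F
      = ip (Sx k) (wt ν) (fun s => F s - m) (fun s => F s - m)
        - ip (Sx k) (wt ν) (fun s => F s - m) (E ν k u (fun s => F s - m)) := by
    intro u
    rw [← Wc_shift (Sx k) (wt ν) hw (fun s => s u) F m, Wc_eq]; rfl
  simp only [h3]
  rw [Finset.sum_sub_distrib]
  simp only [Finset.sum_const, Finset.card_univ, Fintype.card_fin, nsmul_eq_mul]
  push_cast
  linarith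

/-- **Radial lemma, dual form**: `Var(∑ᵤ gᵤ(sᵤ)) ≤ 2 ∑ᵤ Var(gᵤ(sᵤ))` (unnormalised). -/
theorem radial_dual (hν : ∀ a i, 0 < ν a i)
    (lc : ∀ a i, ν a i * ν a (i + 2) ≤ ν a (i + 1) ^ 2) (g : Fin 3 → ℕ → ℝ) :
    Wv (Sx k) (wt ν) (fun s => ∑ u, g u (s u))
      ≤ 2 * ∑ u : Fin 3, Wv (Sx k) (wt ν) (fun s => g u (s u)) := by
  have hw : ∀ s ∈ Sx k, 0 < wt ν s := fun s _ => wt_pos ν hν s
  have hw0 : ∀ s ∈ Sx k, 0 ≤ wt ν s := fun s hs => (hw s hs).le
  have hZ : 0 < ∑ s ∈ Sx k, wt ν s :=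
    Finset.sum_pos hw ⟨mk 0 k 0 0, mk_mem 0 (by omega)⟩
  set Z := ∑ s ∈ Sx k, wt ν s with hZdef
  set m : Fin 3 → ℝ := fun u => (∑ s ∈ Sx k, wt ν s * g u (s u)) / Z with hm
  -- centred functions
  set φ : Fin 3 → ℕ → ℝ := fun u x => g u x - m u with hφ
  set Gu : Fin 3 → (Fin 3 → ℕ) → ℝ := fun u s => φ u (s u) with hGu
  set G : (Fin 3 → ℕ) → ℝ := fun s => ∑ u, Gu u s with hG
  have hc : ∀ u, (∑ s ∈ Sx k, wt ν s * Gu u s = 0) ∧
      ip (Sx k) (wt ν) (Gu u) (Gu u) = Wv (Sx k) (wt ν) (fun s => g u (s u)) :=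
    fun u => Wv_center (Sx k) (wt ν) hZ (fun s => g u (s u))
  have hsum : ∑ s ∈ Sx k, wt ν s * (∑ u, g u (s u)) = (∑ u, m u) * Z := by
    have : ∑ s ∈ Sx k, wt ν s * (∑ u, g u (s u)) = ∑ u, ∑ s ∈ Sx k, wt ν s * g u (s u) := by
      rw [Finset.sum_comm]
      exact Finset.sum_congr rfl (fun s _ => by rw [Finset.mul_sum])
    rw [this, Finset.sum_mul]
    refine Finset.sum_congr rfl (fun u _ => ?_)
    simp only [hm]; field_simp
  have hGc := Wv_center (Sx k) (wt ν) hZ (fun s => ∑ u, g u (s u))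
  have hGeq : (fun s => (∑ u, g u (s u)) - (∑ s ∈ Sx k, wt ν s * (∑ u, g u (s u))) / Z) = G := by
    funext s
    rw [hsum, mul_div_assoc, div_self hZ.ne', mul_one]
    simp only [hG, hGu, hφ]
    rw [Finset.sum_sub_distrib]
  rw [← hZdef] at hGc
  have hG0 : ∑ s ∈ Sx k, wt ν s * G s = 0 := by
    have := hGc.1
    rw [← hGeq]; exact this
  have hGW : ip (Sx k) (wt ν) G G = Wv (Sx k) (wt ν) (fun s => ∑ u, g u (s u)) := by
    have := hGc.2
    rw [hGeq] at this; exact this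
  rw [← hGW]
  have hq := T_quad ν k hν lc G hG0
  rw [ip_T] at hq
  -- expand the squares
  have hsq : ∀ u : Fin 3, 0 ≤ ip (Sx k) (wt ν) G (E ν k u G) - 4 * ip (Sx k) (wt ν) G (Gu u)
      + 4 * ip (Sx k) (wt ν) (Gu u) (Gu u) := by
    intro u
    have h0 := ip_self_nonneg (Sx k) (wt ν) hw0 (fun s => E ν k u G s - 2 * Gu u s)
    have e1 : ip (Sx k) (wt ν) (fun s => E ν k u G s - 2 * Gu u s)
        (fun s => E ν k u G s - 2 * Gu u s)
        = ip (Sx k) (wt ν) (E ν k u G) (E ν k u G) - 4 * ip (Sx k) (wt ν) (E ν k u G) (Gu u)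
          + 4 * ip (Sx k) (wt ν) (Gu u) (Gu u) := by
      unfold ip
      rw [Finset.mul_sum, Finset.mul_sum, ← Finset.sum_sub_distrib, ← Finset.sum_add_distrib]
      exact Finset.sum_congr rfl (fun s _ => by ring)
    have e2 : ip (Sx k) (wt ν) (E ν k u G) (E ν k u G) = ip (Sx k) (wt ν) G (E ν k u G) :=
      ip_cE_cE _ _ hw _ _
    have e3 : ip (Sx k) (wt ν) (E ν k u G) (Gu u) = ip (Sx k) (wt ν) G (Gu u) := by
      have : ip (Sx k) (wt ν) (E ν k u G) (Gu u) = ip (Sx k) (wt ν) G (E ν k u (Gu u)) :=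
        cE_symm _ _ _ _ _
      rw [this]
      exact ip_congr _ _ (fun _ _ => rfl)
        (fun s hs => cE_of_label (Sx k) (wt ν) hw (fun s => s u) (φ u) s hs)
    rw [e1, e2, e3] at h0
    exact h0
  have hGG : ∑ u, ip (Sx k) (wt ν) G (Gu u) = ip (Sx k) (wt ν) G G := by
    unfold ip
    rw [Finset.sum_comm]
    refine Finset.sum_congr rfl (fun s _ => ?_)
    rw [← Finset.mul_sum]
  have hall := Finset.sum_nonneg (fun u (_ : u ∈ (Finset.univ : Finset (Fin 3))) => hsq u)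
  rw [Finset.sum_add_distrib, Finset.sum_sub_distrib, ← Finset.mul_sum, ← Finset.mul_sum,
    hGG] at hall
  have hfin : ∑ u, ip (Sx k) (wt ν) (Gu u) (Gu u)
      = ∑ u : Fin 3, Wv (Sx k) (wt ν) (fun s => g u (s u)) :=
    Finset.sum_congr rfl (fun u _ => (hc u).2)
  rw [← hfin]
  linarith

/-- the image of the simplex under a coordinate -/
lemma image_coord (u : Fin 3) : (Sx k).image (fun s => s u) = range (k + 1) := by
  ext t
  simp only [Finset.mem_image, Finset.mem_range]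
  constructor
  · rintro ⟨s, hs, rfl⟩
    rw [mem_Sx_cyc u] at hs; omega
  · intro ht
    exact ⟨mk u t (k - t) 0, mk_mem u (by omega), mk_self u _ _ _⟩

end Simplex

/-! ## The factorial instance -/

section Instance

/-- `x ↦ 1 / ((x+p)! (x+q)!)` -/
noncomputable def nuFac (p q : ℕ) (x : ℕ) : ℝ := 1 / (((x + p).factorial : ℝ) * ((x + q).factorial : ℝ))

lemma nuFac_pos (p q x : ℕ) : 0 < nuFac p q x := by
  unfold nuFac; positivity

lemma fac_logconv (n : ℕ) : ((n + 1).factorial : ℝ) ^ 2 ≤ (n.factorial : ℝ) * ((n + 2).factorial : ℝ) := by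
  have h1 : ((n + 1).factorial : ℝ) = (n + 1) * n.factorial := by
    rw [Nat.factorial_succ]; push_cast; ring
  have h2 : ((n + 2).factorial : ℝ) = (n + 2) * ((n + 1) * n.factorial) := by
    rw [Nat.factorial_succ, Nat.factorial_succ]; push_cast; ring
  rw [h1, h2]
  have h3 : (0 : ℝ) < n.factorial := by positivity
  have h4 : (0 : ℝ) ≤ n := Nat.cast_nonneg n
  nlinarith [mul_pos h3 h3, mul_nonneg h4 (mul_pos h3 h3).le]

lemma nuFac_logconc (p q i : ℕ) : nuFac p q i * nuFac p q (i + 2) ≤ nuFac p q (i + 1) ^ 2 := by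
  unfold nuFac
  have e1 : i + 2 + p = (i + p) + 2 := by ring
  have e2 : i + 2 + q = (i + q) + 2 := by ring
  have e3 : i + 1 + p = (i + p) + 1 := by ring
  have e4 : i + 1 + q = (i + q) + 1 := by ring
  rw [e1, e2, e3, e4]
  have hp := fac_logconv (i + p)
  have hq := fac_logconv (i + q)
  have a0 : (0 : ℝ) < (i + p).factorial := by positivity
  have a1 : (0 : ℝ) < (i + p + 1).factorial := by positivity
  have a2 : (0 : ℝ) < (i + p + 2).factorial := by positivity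
  have b0 : (0 : ℝ) < (i + q).factorial := by positivity
  have b1 : (0 : ℝ) < (i + q + 1).factorial := by positivity
  have b2 : (0 : ℝ) < (i + q + 2).factorial := by positivity
  rw [div_mul_div_comm, div_pow, one_mul, one_pow]
  refine one_div_le_one_div_of_le (by positivity) ?_
  calc (((i + p + 1).factorial : ℝ) * ((i + q + 1).factorial : ℝ)) ^ 2
      = ((i + p + 1).factorial : ℝ) ^ 2 * ((i + q + 1).factorial : ℝ) ^ 2 := by ring
    _ ≤ (((i + p).factorial : ℝ) * ((i + p + 2).factorial : ℝ))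
        * (((i + q).factorial : ℝ) * ((i + q + 2).factorial : ℝ)) :=
        mul_le_mul hp hq (by positivity) (by positivity)
    _ = _ := by ring

end Instance

end Crest.Agent.S0453Radial
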