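import Mathlib
import Crest.Agent.S0453_Core
import Crest.Agent.S0453_CoreLemmas
import Crest.Agent.S0453_K3ColDefs
import Crest.Agent.S0453_Count
import Crest.Agent.S0453_Radial

/-!
# Row 299 (S0453), K3-alpha: push-forward of the colouring ensemble to the radial vector and
the radial inequality on the ensemble.
-/

set_option autoImplicit false
set_option linter.unusedSectionVars false
open Finset Function
open scoped Nat

namespace Crest.Agent.S0453RadEns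
open Crest.Agent.S0453K3Col Crest.Agent.S0453Count

variable {α : Type} [Fintype α] [DecidableEq α]

/-- the radial vector -/
def bv (B : Finset α) (χ : α → Fin 3) : Fin 3 → ℕ := fun u => (B.filter fun x => χ x = u).card

def x0 (δ : Fin 3 → ℤ) (u : Fin 3) : ℕ := (- δ u).toNat
def y0 (δ : Fin 3 → ℤ) (u : Fin 3) : ℕ := (δ u).toNat

/-- the 1-D weights -/
noncomputable def nu (δ : Fin 3 → ℤ) (u : Fin 3) (i : ℕ) : ℝ :=
  1 / (((y0 δ u + i)! : ℝ) * ((x0 δ u + i)! : ℝ))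

def kk (B : Finset α) (δ : Fin 3 → ℤ) : ℕ := B.card - ∑ u, x0 δ u

/-- the reduced radial vector -/
def rv (B : Finset α) (δ : Fin 3 → ℤ) (χ : α → Fin 3) : Fin 3 → ℕ := fun u => bv B χ u - x0 δ u

lemma sum_bv (B : Finset α) (χ : α → Fin 3) : ∑ u, bv B χ u = B.card := by
  unfold bv
  exact (Finset.card_eq_sum_card_fiberwise (f := χ) (s := B) (t := univ)
    (fun x _ => mem_coe.2 (mem_univ _))).symm

lemma mem_Ens {A B : Finset α} {δ : Fin 3 → ℤ} {χ : α → Fin 3} :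
    χ ∈ Ens A B δ ↔ (∀ x, x ∉ A → x ∉ B → χ x = 0) ∧ ∀ u, (bv A χ u : ℤ) - (bv B χ u : ℤ) = δ u := by
  simp [Ens, bv]

lemma x0_le {A B : Finset α} {δ : Fin 3 → ℤ} {χ : α → Fin 3} (h : χ ∈ Ens A B δ) (u : Fin 3) :
    x0 δ u ≤ bv B χ u := by
  have := (mem_Ens.1 h).2 u
  unfold x0
  omega

lemma bv_eq {A B : Finset α} {δ : Fin 3 → ℤ} {χ : α → Fin 3} (h : χ ∈ Ens A B δ) (u : Fin 3) :
    bv B χ u = x0 δ u + rv B δ χ u := by
  have := x0_le h u
  unfold rv
  omega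

lemma av_eq {A B : Finset α} {δ : Fin 3 → ℤ} {χ : α → Fin 3} (h : χ ∈ Ens A B δ) (u : Fin 3) :
    bv A χ u = y0 δ u + rv B δ χ u := by
  have := (mem_Ens.1 h).2 u
  unfold rv x0 y0
  omega

lemma rv_mem {A B : Finset α} {δ : Fin 3 → ℤ} {χ : α → Fin 3} (h : χ ∈ Ens A B δ) :
    rv B δ χ ∈ Finset.Nat.antidiagonalTuple 3 (kk B δ) := by
  rw [Finset.Nat.mem_antidiagonalTuple]
  have h0 := bv_eq h 0
  have h1 := bv_eq h 1
  have h2 := bv_eq h 2
  have hs := sum_bv B χ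
  unfold kk
  rw [Fin.sum_univ_three] at hs ⊢
  rw [Fin.sum_univ_three]
  omega

lemma fibre_eq {A B : Finset α} {δ : Fin 3 → ℤ} (x : Fin 3 → ℕ) :
    (Ens A B δ).filter (fun χ => rv B δ χ = x)
      = ColAB A B (fun u => y0 δ u + x u) (fun u => x0 δ u + x u) := by
  ext χ
  rw [mem_filter, mem_ColAB]
  constructor
  · rintro ⟨h, rfl⟩
    exact ⟨(mem_Ens.1 h).1, fun u => av_eq h u, fun u => bv_eq h u⟩
  · rintro ⟨h1, h2, h3⟩
    have h2' : ∀ u, bv A χ u = y0 δ u + x u := h2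
    have h3' : ∀ u, bv B χ u = x0 δ u + x u := h3
    refine ⟨mem_Ens.2 ⟨h1, fun u => ?_⟩, ?_⟩
    · rw [h2', h3']
      unfold x0 y0
      push_cast
      omega
    · funext u
      unfold rv
      rw [h3']
      omega

lemma wt_eq (δ : Fin 3 → ℤ) (x : Fin 3 → ℕ) :
    S0453Radial.wt (nu δ) x * ((∏ u, ((y0 δ u + x u)! * (x0 δ u + x u)!) : ℕ) : ℝ) = 1 := by
  unfold S0453Radial.wt nu
  push_cast
  rw [← Finset.prod_mul_distrib]
  apply Finset.prod_eq_one
  intro u _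
  have h1 : ((y0 δ u + x u)! : ℝ) ≠ 0 := by exact_mod_cast Nat.factorial_ne_zero _
  have h2 : ((x0 δ u + x u)! : ℝ) ≠ 0 := by exact_mod_cast Nat.factorial_ne_zero _
  field_simp

/-- **Push-forward of the uniform measure on the ensemble to the reduced radial vector.** -/
theorem sum_Ens {A B : Finset α} (h : Disjoint A B) {δ : Fin 3 → ℤ} (hne : (Ens A B δ).Nonempty)
    (G : (Fin 3 → ℕ) → ℝ) :
    ∑ χ ∈ Ens A B δ, G (rv B δ χ)
      = ((A.card ! * B.card ! : ℕ) : ℝ) *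
        ∑ x ∈ S0453Radial.Sx (kk B δ), S0453Radial.wt (nu δ) x * G x := by
  obtain ⟨χ0, hχ0⟩ := hne
  rw [← Finset.sum_fiberwise_of_maps_to (g := rv B δ) (t := S0453Radial.Sx (kk B δ))
    (fun χ hχ => rv_mem hχ), Finset.mul_sum]
  apply Finset.sum_congr rfl
  intro x hx
  have hx' : ∑ u, x u = kk B δ := S0453Radial.mem_Sx.1 hx
  have e1 : ∑ χ ∈ (Ens A B δ).filter (fun χ => rv B δ χ = x), G (rv B δ χ)
      = (((Ens A B δ).filter (fun χ => rv B δ χ = x)).card : ℝ) * G x := by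
    rw [Finset.sum_congr rfl (fun χ hχ => by rw [(mem_filter.1 hχ).2]), Finset.sum_const,
      nsmul_eq_mul]
  rw [e1, fibre_eq]
  have hb : ∑ u, (x0 δ u + x u) = B.card := by
    have hs := sum_bv B χ0
    have h0 := x0_le hχ0 0
    have h1 := x0_le hχ0 1
    have h2 := x0_le hχ0 2
    unfold kk at hx'
    rw [Fin.sum_univ_three] at hs hx' ⊢
    rw [Fin.sum_univ_three] at hx'
    omega
  have ha : ∑ u, (y0 δ u + x u) = A.card := by
    have hs := sum_bv B χ0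
    have hs' := sum_bv A χ0
    have h0 := bv_eq hχ0 0
    have h1 := bv_eq hχ0 1
    have h2 := bv_eq hχ0 2
    have g0 := av_eq hχ0 0
    have g1 := av_eq hχ0 1
    have g2 := av_eq hχ0 2
    rw [Fin.sum_univ_three] at hs hs' hb ⊢
    omega
  have hc := card_ColAB h ha hb
  have hc' : ((ColAB A B (fun u => y0 δ u + x u) (fun u => x0 δ u + x u)).card : ℝ)
      * ((∏ u, ((y0 δ u + x u)! * (x0 δ u + x u)!) : ℕ) : ℝ) = ((A.card ! * B.card ! : ℕ) : ℝ) := by
    exact_mod_cast hc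
  have hw := wt_eq δ x
  calc ((ColAB A B (fun u => y0 δ u + x u) (fun u => x0 δ u + x u)).card : ℝ) * G x
      = ((ColAB A B (fun u => y0 δ u + x u) (fun u => x0 δ u + x u)).card : ℝ)
        * (S0453Radial.wt (nu δ) x * ((∏ u, ((y0 δ u + x u)! * (x0 δ u + x u)!) : ℕ) : ℝ))
        * G x := by rw [hw, mul_one]
    _ = (((ColAB A B (fun u => y0 δ u + x u) (fun u => x0 δ u + x u)).card : ℝ)
        * ((∏ u, ((y0 δ u + x u)! * (x0 δ u + x u)!) : ℕ) : ℝ))
        * (S0453Radial.wt (nu δ) x * G x) := by ring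
    _ = _ := by rw [hc']


/-! ### abstract push-forward -/

section PushForward
open Crest.Agent.S0453Core

variable {β σ τ : Type*} [DecidableEq τ]

lemma pf_ip (X : Finset β) (ρ : β → σ) (I : Finset σ) (w : σ → ℝ) (C : ℝ)
    (hpf : ∀ G : σ → ℝ, ∑ χ ∈ X, G (ρ χ) = C * ∑ x ∈ I, w x * G x) (Ψ₁ Ψ₂ : σ → ℝ) :
    ip X (fun χ => Ψ₁ (ρ χ)) (fun χ => Ψ₂ (ρ χ)) = C * S0453Radial.ip I w Ψ₁ Ψ₂ := by
  unfold ip S0453Radial.ip
  rw [hpf (fun x => Ψ₁ x * Ψ₂ x)]
  congr 1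
  exact Finset.sum_congr rfl (fun x _ => by ring)

lemma pf_cE (X : Finset β) (ρ : β → σ) (I : Finset σ) (w : σ → ℝ) (C : ℝ) (hC : C ≠ 0)
    (hpf : ∀ G : σ → ℝ, ∑ χ ∈ X, G (ρ χ) = C * ∑ x ∈ I, w x * G x) (π : σ → τ) (Ψ : σ → ℝ)
    (χ : β) :
    cE X (fun χ => π (ρ χ)) (fun χ => Ψ (ρ χ)) χ = S0453Radial.cE I w π Ψ (ρ χ) := by
  unfold cE S0453Radial.cE fib S0453Radial.fN S0453Radial.fD
  have h1 : ∑ y ∈ X.filter (fun y => π (ρ y) = π (ρ χ)), Ψ (ρ y)
      = C * ∑ s ∈ I.filter (fun s => π s = π (ρ χ)), w s * Ψ s := by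
    rw [Finset.sum_filter, hpf (fun s => if π s = π (ρ χ) then Ψ s else 0), Finset.sum_filter]
    congr 1
    exact Finset.sum_congr rfl (fun x _ => by split_ifs <;> simp)
  have h2 : ((X.filter (fun y => π (ρ y) = π (ρ χ))).card : ℝ)
      = C * ∑ s ∈ I.filter (fun s => π s = π (ρ χ)), w s := by
    rw [Finset.card_filter]
    push_cast
    rw [hpf (fun s => if π s = π (ρ χ) then 1 else 0), Finset.sum_filter]
    congr 1
    exact Finset.sum_congr rfl (fun x _ => by split_ifs <;> simp)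
  rw [h1, h2, mul_div_mul_left _ _ hC]

end PushForward

/-! ### the weights -/

lemma nu_pos (δ : Fin 3 → ℤ) (u : Fin 3) (i : ℕ) : 0 < nu δ u i := by
  unfold nu
  positivity

lemma nu_lc (δ : Fin 3 → ℤ) (u : Fin 3) (i : ℕ) :
    nu δ u i * nu δ u (i + 2) ≤ nu δ u (i + 1) ^ 2 := by
  unfold nu
  set p := y0 δ u + i with hp
  set q := x0 δ u + i with hq
  have e1 : y0 δ u + (i + 1) = p + 1 := by omega
  have e2 : y0 δ u + (i + 2) = p + 1 + 1 := by omega
  have e3 : x0 δ u + (i + 1) = q + 1 := by omega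
  have e4 : x0 δ u + (i + 2) = q + 1 + 1 := by omega
  rw [e1, e2, e3, e4]
  simp only [Nat.factorial_succ]
  push_cast
  have ha : (0 : ℝ) < (p ! : ℝ) := by exact_mod_cast Nat.factorial_pos p
  have hb : (0 : ℝ) < (q ! : ℝ) := by exact_mod_cast Nat.factorial_pos q
  have hp0 : (0 : ℝ) ≤ (p : ℝ) := Nat.cast_nonneg p
  have hq0 : (0 : ℝ) ≤ (q : ℝ) := Nat.cast_nonneg q
  generalize (p ! : ℝ) = a at ha
  generalize (q ! : ℝ) = b at hb
  generalize (p : ℝ) = P at hp0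
  generalize (q : ℝ) = Q at hq0
  have l : 1 / (a * b) * (1 / ((P + 1 + 1) * ((P + 1) * a) * ((Q + 1 + 1) * ((Q + 1) * b))))
      = 1 / ((a * b) * ((P + 1 + 1) * ((P + 1) * a) * ((Q + 1 + 1) * ((Q + 1) * b)))) := by
    field_simp
  have r : (1 / ((P + 1) * a * ((Q + 1) * b))) ^ 2 = 1 / ((P + 1) * a * ((Q + 1) * b)) ^ 2 := by
    field_simp
  rw [l, r]
  apply one_div_le_one_div_of_le (by positivity)
  have : ((a * b) * ((P + 1 + 1) * ((P + 1) * a) * ((Q + 1 + 1) * ((Q + 1) * b))))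
      - ((P + 1) * a * ((Q + 1) * b)) ^ 2 = a ^ 2 * b ^ 2 * (P + 1) * (Q + 1) * (P + Q + 3) := by
    ring
  have h2 : 0 ≤ a ^ 2 * b ^ 2 * (P + 1) * (Q + 1) * (P + Q + 3) := by positivity
  linarith

/-! ### the radial inequality on the ensemble -/

open Crest.Agent.S0453Core in
/-- helper4's hypothesis of the glue. -/
def RadialProp (A B : Finset α) (δ : Fin 3 → ℤ) : Prop := ∀ Φ : (Fin 3 → ℕ) → ℝ,
  ip (Ens A B δ) (cP (Ens A B δ) (fun _ => ()) (fun χ => Φ (bv B χ)))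
      (cP (Ens A B δ) (fun _ => ()) (fun χ => Φ (bv B χ)))
    ≤ ∑ u : Fin 3, ip (Ens A B δ) (cP (Ens A B δ) (fun χ => bv B χ u) (fun χ => Φ (bv B χ)))
        (cP (Ens A B δ) (fun χ => bv B χ u) (fun χ => Φ (bv B χ)))

open Crest.Agent.S0453Core in
theorem radialProp {A B : Finset α} (h : Disjoint A B) (δ : Fin 3 → ℤ) : RadialProp A B δ := by
  intro Φ
  rcases (Ens A B δ).eq_empty_or_nonempty with he | hne
  · rw [he]; simp [ip]
  set X := Ens A B δ with hX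
  set F : (α → Fin 3) → ℝ := fun χ => Φ (bv B χ) with hF
  set C : ℝ := ((A.card ! * B.card ! : ℕ) : ℝ) with hCdef
  have hC : C ≠ 0 := by
    rw [hCdef]
    exact_mod_cast (Nat.mul_pos (Nat.factorial_pos _) (Nat.factorial_pos _)).ne'
  have hCpos : 0 < C := by
    rw [hCdef]
    exact_mod_cast (Nat.mul_pos (Nat.factorial_pos _) (Nat.factorial_pos _))
  set k := kk B δ with hk
  have hpf : ∀ G : (Fin 3 → ℕ) → ℝ, ∑ χ ∈ X, G (rv B δ χ)
      = C * ∑ x ∈ S0453Radial.Sx k, S0453Radial.wt (nu δ) x * G x := fun G => sum_Ens h hne G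
  -- the mean and the centred function
  set m : ℝ := (∑ y ∈ X, F y) / (X.card : ℝ) with hm
  set Ψ : (Fin 3 → ℕ) → ℝ := fun x => Φ (fun u => x0 δ u + x u) - m with hΨ
  set F0 : (α → Fin 3) → ℝ := fun χ => Ψ (rv B δ χ) with hF0
  have hFF0 : ∀ χ ∈ X, F χ - m = F0 χ := by
    intro χ hχ
    simp only [hF, hF0, hΨ]
    congr 2
    funext u
    exact bv_eq hχ u
  have hL : ∀ χ ∈ X, cP X (fun _ => ()) F χ = F0 χ := by
    intro χ hχ
    rw [cP_def, cE_unit, ← hm]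
    exact hFF0 χ hχ
  have hR : ∀ u : Fin 3, ∀ χ ∈ X, cP X (fun χ => bv B χ u) F χ
      = cP X (fun χ => rv B δ χ u) F0 χ := by
    intro u χ hχ
    have e1 : cP X (fun χ => bv B χ u) F χ = cP X (fun χ => bv B χ u) (fun z => F z - m) χ := by
      rw [cP_sub, cP_of_meas (meas_const m) hχ, sub_zero]
    rw [e1, cP_congr hFF0 hχ, cP_def, cP_def]
    congr 1
    apply cE_congr_label
    intro y hy
    have h1 := bv_eq hy u
    have h2 := bv_eq hχ u
    constructor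
    · intro hh
      show rv B δ y u = rv B δ χ u
      have hh' : bv B y u = bv B χ u := hh
      omega
    · intro hh
      show bv B y u = bv B χ u
      have hh' : rv B δ y u = rv B δ χ u := hh
      omega
  rw [ip_congr hL hL]
  rw [Finset.sum_congr rfl (fun u _ => ip_congr (hR u) (hR u))]
  have hT : ∀ u : Fin 3, ip X (cP X (fun χ => rv B δ χ u) F0) (cP X (fun χ => rv B δ χ u) F0)
      = C * S0453Radial.ip (S0453Radial.Sx k) (S0453Radial.wt (nu δ)) Ψ Ψ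
        - C * S0453Radial.ip (S0453Radial.Sx k) (S0453Radial.wt (nu δ)) Ψ
            (S0453Radial.E (nu δ) k u Ψ) := by
    intro u
    rw [ip_cP_self, ← ip_cE_right]
    have e1 : ip X F0 F0 = C * S0453Radial.ip (S0453Radial.Sx k) (S0453Radial.wt (nu δ)) Ψ Ψ :=
      pf_ip X (rv B δ) _ _ C hpf Ψ Ψ
    have e2 : ip X F0 (cE X (fun χ => rv B δ χ u) F0)
        = ip X F0 (fun χ => S0453Radial.E (nu δ) k u Ψ (rv B δ χ)) := by
      apply ip_congr (fun _ _ => rfl)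
      intro χ _
      exact pf_cE X (rv B δ) _ _ C hC hpf (fun s => s u) Ψ χ
    rw [e1, e2]
    congr 1
    exact pf_ip X (rv B δ) _ _ C hpf Ψ _
  rw [Finset.sum_congr rfl (fun u _ => hT u)]
  have e1 : ip X F0 F0 = C * S0453Radial.ip (S0453Radial.Sx k) (S0453Radial.wt (nu δ)) Ψ Ψ :=
    pf_ip X (rv B δ) _ _ C hpf Ψ Ψ
  rw [e1, Finset.sum_sub_distrib, ← Finset.mul_sum, ← Finset.mul_sum, ← S0453Radial.ip_T]
  have hmean : ∑ s ∈ S0453Radial.Sx k, S0453Radial.wt (nu δ) s * Ψ s = 0 := by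
    have h1 : ∑ χ ∈ X, F0 χ = 0 := by
      rw [← Finset.sum_congr rfl hL]
      exact sum_cP F
    have h2 := hpf Ψ
    rw [h1] at h2
    rcases mul_eq_zero.1 h2.symm with h3 | h3
    · exact absurd h3 hC
    · exact h3
  have hq := S0453Radial.T_quad (nu δ) k (nu_pos δ) (nu_lc δ) Ψ hmean
  simp only [Finset.sum_const, Finset.card_univ, Fintype.card_fin, nsmul_eq_mul]
  push_cast
  nlinarith [mul_le_mul_of_nonneg_left hq hCpos.le]

end Crest.Agent.S0453RadEns
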