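import Mathlib
import Crest.Prelude.Def_SwitchChain
import Crest.Agent.S0453PM
import Crest.Agent.S0453Red

set_option autoImplicit false
open Finset

/-! Connectivity of the switch graph on the realizations of a degree vector
(Havel–Hakimi exchange argument), phrased for switch-invariant functions. -/

namespace Crest.Agent.S0453Conn
open Crest.SwitchChain Crest.Agent.S0453PM

variable {n : ℕ}

/-- neighbourhood of `v` in the graph `G`. -/
def nb (G : Finset (Edge n)) (v : Fin n) : Finset (Fin n) :=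
  univ.filter fun w => ∃ h : v ≠ w, mkE v w h ∈ G

lemma mem_nb {G : Finset (Edge n)} {v w : Fin n} :
    w ∈ nb G v ↔ ∃ h : v ≠ w, mkE v w h ∈ G := by
  simp [nb]

lemma mkE_comm {a b : Fin n} (h : a ≠ b) : mkE a b h = mkE b a h.symm := by
  rw [mkE_eq_iff]; right; exact ⟨rfl, rfl⟩

lemma nb_symm {G : Finset (Edge n)} {v w : Fin n} : w ∈ nb G v ↔ v ∈ nb G w := by
  rw [mem_nb, mem_nb]
  constructor
  · rintro ⟨h, he⟩; exact ⟨h.symm, by rwa [← mkE_comm]⟩
  · rintro ⟨h, he⟩; exact ⟨h.symm, by rwa [← mkE_comm]⟩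

lemma ne_of_mem_nb {G : Finset (Edge n)} {v w : Fin n} (h : w ∈ nb G v) : v ≠ w :=
  (mem_nb.mp h).1

lemma edge_cases (e : Edge n) : ∃ (a b : Fin n) (h : a ≠ b), e = mkE a b h := by
  obtain ⟨e, he⟩ := e
  induction e using Sym2.ind with
  | _ a b =>
    have h : a ≠ b := by simpa using he
    exact ⟨a, b, h, rfl⟩

lemma deg_eq_card_nb (G : Finset (Edge n)) (v : Fin n) : deg G v = (nb G v).card := by
  unfold deg
  symm
  apply Finset.card_bij (fun w hw => mkE v w (ne_of_mem_nb hw))
  · intro w hw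
    rw [Finset.mem_filter]
    exact ⟨(mem_nb.mp hw).2, by rw [mem_mkE]; left; rfl⟩
  · intro w hw w' hw' h
    rw [mkE_eq_iff] at h
    rcases h with ⟨-, h⟩ | ⟨h1, h2⟩
    · exact h
    · rw [h2, ← h1]
  · intro e he
    rw [Finset.mem_filter] at he
    obtain ⟨heG, hve⟩ := he
    obtain ⟨a, b, hab, rfl⟩ := edge_cases e
    rw [mem_mkE] at hve
    rcases hve with rfl | rfl
    · exact ⟨b, mem_nb.mpr ⟨hab, heG⟩, rfl⟩
    · exact ⟨a, mem_nb.mpr ⟨hab.symm, by rwa [← mkE_comm]⟩, (mkE_comm hab).symm⟩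

lemma card_nb {d : Fin n → ℕ} {G : Finset (Edge n)} (hG : G ∈ realizations d) (v : Fin n) :
    (nb G v).card = d v := by
  rw [← deg_eq_card_nb]
  unfold realizations at hG
  exact (Finset.mem_filter.mp hG).2 v

/-- `G` and `G'` agree on all slots touching `U`. -/
def Agree (U : Finset (Fin n)) (G G' : Finset (Edge n)) : Prop :=
  ∀ e : Edge n, (∃ u ∈ U, u ∈ e.1) → (e ∈ G ↔ e ∈ G')

lemma Agree.symm {U : Finset (Fin n)} {G G' : Finset (Edge n)} (h : Agree U G G') :
    Agree U G' G := fun e he => (h e he).symm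

lemma Agree.trans {U : Finset (Fin n)} {G G' G'' : Finset (Edge n)} (h : Agree U G G')
    (h' : Agree U G' G'') : Agree U G G'' := fun e he => (h e he).trans (h' e he)

lemma Agree.nb_inter {U : Finset (Fin n)} {G G' : Finset (Edge n)} (h : Agree U G G')
    (x : Fin n) : nb G x ∩ U = nb G' x ∩ U := by
  ext w
  simp only [Finset.mem_inter, mem_nb]
  constructor
  · rintro ⟨⟨hx, he⟩, hw⟩
    exact ⟨⟨hx, (h _ ⟨w, hw, by rw [mem_mkE]; right; rfl⟩).mp he⟩, hw⟩
  · rintro ⟨⟨hx, he⟩, hw⟩
    exact ⟨⟨hx, (h _ ⟨w, hw, by rw [mem_mkE]; right; rfl⟩).mpr he⟩, hw⟩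

lemma Agree.card_sdiff {d : Fin n → ℕ} {U : Finset (Fin n)} {G G' : Finset (Edge n)}
    (hG : G ∈ realizations d) (hG' : G' ∈ realizations d) (h : Agree U G G') (x : Fin n) :
    (nb G x \ U).card = (nb G' x \ U).card := by
  have h1 := Finset.card_sdiff_add_card_inter (nb G x) U
  have h2 := Finset.card_sdiff_add_card_inter (nb G' x) U
  rw [card_nb hG] at h1
  rw [card_nb hG', ← h.nb_inter x] at h2
  omega

/-- the hypothesis: `f` is invariant under every switch. -/
def SwInv (d : Fin n → ℕ) (f : Finset (Edge n) → ℝ) : Prop :=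
  ∀ G ∈ realizations d, ∀ (a b c e : Fin n) (hab : a ≠ b) (hce : c ≠ e) (hac : a ≠ c)
    (hbe : b ≠ e), a ≠ e → b ≠ c → mkE a b hab ∈ G → mkE c e hce ∈ G → mkE a c hac ∉ G →
    mkE b e hbe ∉ G →
    f (G \ {mkE a b hab, mkE c e hce} ∪ {mkE a c hac, mkE b e hbe}) = f G


lemma exists_w {G : Finset (Edge n)} {U : Finset (Fin n)} {v a b : Fin n}
    (hv : v ∉ U) (ha : a ∉ U) (hb : b ∉ U) (hva : a ∈ nb G v) (hvb : b ∉ nb G v)
    (hvb' : v ≠ b) (hcard : (nb G a \ U).card ≤ (nb G b \ U).card) :
    ∃ w, w ∈ nb G b ∧ w ∉ U ∧ w ∉ nb G a ∧ w ≠ a := by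
  by_contra hcon
  push Not at hcon
  set A := nb G a \ U with hA
  set B := nb G b \ U with hB
  have hvA : v ∈ A.erase b := by
    rw [Finset.mem_erase, hA, Finset.mem_sdiff]
    exact ⟨hvb', nb_symm.mp hva, hv⟩
  have hsub : B.erase a ⊆ (A.erase b).erase v := by
    intro w hw
    rw [Finset.mem_erase, hB, Finset.mem_sdiff] at hw
    obtain ⟨hwa, hwb, hwU⟩ := hw
    have h1 : w ∈ nb G a := by
      by_contra h
      exact hwa (hcon w hwb hwU h)
    rw [Finset.mem_erase, Finset.mem_erase, hA, Finset.mem_sdiff]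
    refine ⟨?_, (ne_of_mem_nb hwb).symm, h1, hwU⟩
    rintro rfl
    exact hvb (nb_symm.mp hwb)
  have hle := Finset.card_le_card hsub
  rw [Finset.card_erase_of_mem hvA] at hle
  have hpos : 0 < (A.erase b).card := Finset.card_pos.mpr ⟨v, hvA⟩
  have hiff : a ∈ B ↔ b ∈ A := by
    rw [hA, hB, Finset.mem_sdiff, Finset.mem_sdiff]
    constructor
    · rintro ⟨h, -⟩; exact ⟨nb_symm.mp h, hb⟩
    · rintro ⟨h, -⟩; exact ⟨nb_symm.mp h, ha⟩
  by_cases haB : a ∈ B
  · have hbA := hiff.mp haB
    rw [Finset.card_erase_of_mem haB] at hle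
    rw [Finset.card_erase_of_mem hbA] at hle hpos
    omega
  · have hbA : b ∉ A := fun h => haB (hiff.mpr h)
    rw [Finset.erase_eq_of_notMem haB] at hle
    rw [Finset.erase_eq_of_notMem hbA] at hle hpos
    omega

/-- one Havel–Hakimi exchange at `v`: replace the neighbour `a` by `b`. -/
lemma step {d : Fin n → ℕ} {f : Finset (Edge n) → ℝ} (hf : SwInv d f)
    {G : Finset (Edge n)} (hG : G ∈ realizations d) {U : Finset (Fin n)} {v a b : Fin n}
    (hv : v ∉ U) (ha : a ∉ U) (hb : b ∉ U) (hva : a ∈ nb G v) (hvb : b ∉ nb G v)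
    (hvb' : v ≠ b) (hcard : (nb G a \ U).card ≤ (nb G b \ U).card) :
    ∃ G1 ∈ realizations d, f G1 = f G ∧ Agree U G1 G ∧
      nb G1 v = insert b ((nb G v).erase a) := by
  obtain ⟨w, hwb, hwU, hwa, hwa'⟩ := exists_w hv ha hb hva hvb hvb' hcard
  have h_va : v ≠ a := ne_of_mem_nb hva
  have h_bw : b ≠ w := ne_of_mem_nb hwb
  have h_aw : a ≠ w := hwa'.symm
  have h_ab : a ≠ b := by
    rintro rfl; exact hvb hva
  have h_vw : v ≠ w := by
    rintro rfl; exact hvb (nb_symm.mp hwb)
  have e1 : mkE v a h_va ∈ G := (mem_nb.mp hva).2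
  have e2 : mkE b w h_bw ∈ G := (mem_nb.mp hwb).2
  have e3 : mkE v b hvb' ∉ G := fun h => hvb (mem_nb.mpr ⟨hvb', h⟩)
  have e4 : mkE a w h_aw ∉ G := fun h => hwa (mem_nb.mpr ⟨h_aw, h⟩)
  set G1 := G \ {mkE v a h_va, mkE b w h_bw} ∪ {mkE v b hvb', mkE a w h_aw} with hG1
  have hmem : ∀ e : Edge n, e ∈ G1 ↔
      (e ∈ G ∧ e ≠ mkE v a h_va ∧ e ≠ mkE b w h_bw) ∨ e = mkE v b hvb' ∨ e = mkE a w h_aw := by
    intro e
    simp only [hG1, Finset.mem_union, Finset.mem_sdiff, Finset.mem_insert, Finset.mem_singleton,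
      not_or]
  refine ⟨G1, ?_, hf G hG v a b w h_va h_bw hvb' h_aw h_vw h_ab e1 e2 e3 e4, ?_, ?_⟩
  · have hF : ({mkE v a h_va, mkE b w h_bw} : Finset (Edge n)) ∈
        pmSet ({v, a, b, w} : Finset (Fin n)) := pm_mem h_va hvb' h_vw h_ab h_aw h_bw
    have hF' : ({mkE v b hvb', mkE a w h_aw} : Finset (Edge n)) ∈
        pmSet ({v, a, b, w} : Finset (Fin n)) := by
      have : ({v, a, b, w} : Finset (Fin n)) = {v, b, a, w} := by
        ext x; simp only [Finset.mem_insert, Finset.mem_singleton]; tauto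
      rw [this]
      exact pm_mem hvb' h_va h_vw h_ab.symm h_bw h_aw
    have := Crest.Agent.S0453Red.switchResult_mem hG hF hF'
    unfold switchResult at this
    rw [if_pos] at this
    · exact this
    · constructor
      · intro e he
        rw [Finset.mem_insert, Finset.mem_singleton] at he
        rcases he with rfl | rfl
        · exact e1
        · exact e2
      · rw [Finset.disjoint_left]
        intro e he
        rw [Finset.mem_insert, Finset.mem_singleton] at he
        rcases he with rfl | rfl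
        · exact e3
        · exact e4
  · rintro e ⟨u, hu, hue⟩
    rw [hmem]
    have n1 : e ≠ mkE v a h_va := by
      rintro rfl; rw [mem_mkE] at hue; rcases hue with rfl | rfl
      · exact hv hu
      · exact ha hu
    have n2 : e ≠ mkE b w h_bw := by
      rintro rfl; rw [mem_mkE] at hue; rcases hue with rfl | rfl
      · exact hb hu
      · exact hwU hu
    have n3 : e ≠ mkE v b hvb' := by
      rintro rfl; rw [mem_mkE] at hue; rcases hue with rfl | rfl
      · exact hv hu
      · exact hb hu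
    have n4 : e ≠ mkE a w h_aw := by
      rintro rfl; rw [mem_mkE] at hue; rcases hue with rfl | rfl
      · exact ha hu
      · exact hwU hu
    tauto
  · ext x
    rw [Finset.mem_insert, Finset.mem_erase, mem_nb, mem_nb]
    constructor
    · rintro ⟨hx, he⟩
      rw [hmem] at he
      rcases he with ⟨h1, h2, -⟩ | h | h
      · right
        refine ⟨?_, hx, h1⟩
        rintro rfl
        exact h2 rfl
      · rw [mkE_eq_iff] at h
        rcases h with ⟨-, h⟩ | ⟨h, -⟩
        · left; exact h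
        · exact absurd h hvb'
      · rw [mkE_eq_iff] at h
        rcases h with ⟨h, -⟩ | ⟨h, -⟩
        · exact absurd h h_va
        · exact absurd h h_vw
    · rintro (rfl | ⟨hxa, hx, he⟩)
      · exact ⟨hvb', (hmem _).mpr (Or.inr (Or.inl rfl))⟩
      · refine ⟨hx, (hmem _).mpr (Or.inl ⟨he, ?_, ?_⟩)⟩
        · intro h
          rw [mkE_eq_iff] at h
          rcases h with ⟨-, h⟩ | ⟨h, -⟩
          · exact hxa h
          · exact h_va h
        · intro h
          rw [mkE_eq_iff] at h
          rcases h with ⟨h, -⟩ | ⟨h, -⟩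
          · exact hvb' h
          · exact h_vw h


lemma agree_insert {U : Finset (Fin n)} {G G' : Finset (Edge n)} {v : Fin n}
    (h : Agree U G G') (hnb : nb G v = nb G' v) : Agree (insert v U) G G' := by
  rintro e ⟨u, hu, hue⟩
  rw [Finset.mem_insert] at hu
  rcases hu with rfl | hu
  · obtain ⟨a, b, hab, rfl⟩ := edge_cases e
    rw [mem_mkE] at hue
    rcases hue with rfl | rfl
    · have h1 : mkE u b hab ∈ G ↔ b ∈ nb G u :=
        ⟨fun h => mem_nb.mpr ⟨hab, h⟩, fun h => (mem_nb.mp h).2⟩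
      have h2 : mkE u b hab ∈ G' ↔ b ∈ nb G' u :=
        ⟨fun h => mem_nb.mpr ⟨hab, h⟩, fun h => (mem_nb.mp h).2⟩
      rw [h1, h2, hnb]
    · rw [mkE_comm hab]
      have h1 : mkE u a hab.symm ∈ G ↔ a ∈ nb G u :=
        ⟨fun h => mem_nb.mpr ⟨hab.symm, h⟩, fun h => (mem_nb.mp h).2⟩
      have h2 : mkE u a hab.symm ∈ G' ↔ a ∈ nb G' u :=
        ⟨fun h => mem_nb.mpr ⟨hab.symm, h⟩, fun h => (mem_nb.mp h).2⟩
      rw [h1, h2, hnb]
  · exact h e ⟨u, hu, hue⟩

lemma notMem_U_of_diff {U : Finset (Fin n)} {G G' : Finset (Edge n)} {v a : Fin n}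
    (h : Agree U G G') (h1 : a ∈ nb G v) (h2 : a ∉ nb G' v) : a ∉ U := by
  intro haU
  obtain ⟨hva, he⟩ := mem_nb.mp h1
  exact h2 (mem_nb.mpr ⟨hva, (h _ ⟨a, haU, by rw [mem_mkE]; right; rfl⟩).mp he⟩)

/-- inner induction: make the rows of `v` equal. -/
lemma inner {d : Fin n → ℕ} {f : Finset (Edge n) → ℝ} (hf : SwInv d f)
    {U : Finset (Fin n)} {v : Fin n} (hv : v ∉ U)
    (IH : ∀ G ∈ realizations d, ∀ G' ∈ realizations d, Agree (insert v U) G G' → f G = f G') :
    ∀ k : ℕ, ∀ G ∈ realizations d, ∀ G' ∈ realizations d, Agree U G G' →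
      (nb G v \ nb G' v).card = k → f G = f G' := by
  intro k
  induction k with
  | zero =>
    intro G hG G' hG' hA hk
    apply IH G hG G' hG'
    apply agree_insert hA
    apply Finset.eq_of_subset_of_card_le
    · exact Finset.sdiff_eq_empty_iff_subset.mp (Finset.card_eq_zero.mp hk)
    · rw [card_nb hG, card_nb hG']
  | succ k ih =>
    intro G hG G' hG' hA hk
    have hcard : (nb G v).card = (nb G' v).card := by rw [card_nb hG, card_nb hG']
    have hk' : (nb G' v \ nb G v).card = k + 1 := by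
      rw [← Finset.card_sdiff_comm hcard, hk]
    obtain ⟨a, ha⟩ := Finset.card_pos.mp (by rw [hk]; exact Nat.succ_pos k)
    obtain ⟨b, hb⟩ := Finset.card_pos.mp (by rw [hk']; exact Nat.succ_pos k)
    rw [Finset.mem_sdiff] at ha hb
    have haU : a ∉ U := notMem_U_of_diff hA ha.1 ha.2
    have hbU : b ∉ U := notMem_U_of_diff hA.symm hb.1 hb.2
    have hva : v ≠ a := ne_of_mem_nb ha.1
    have hvb : v ≠ b := ne_of_mem_nb hb.1
    rcases le_total (nb G a \ U).card (nb G b \ U).card with hle | hle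
    · obtain ⟨G1, hG1, hfG1, hA1, hnb1⟩ := step hf hG hv haU hbU ha.1 hb.2 hvb hle
      rw [← hfG1]
      apply ih G1 hG1 G' hG' (hA1.trans hA)
      have : nb G1 v \ nb G' v = (nb G v \ nb G' v).erase a := by
        rw [hnb1]
        ext x
        simp only [Finset.mem_sdiff, Finset.mem_insert, Finset.mem_erase]
        constructor
        · rintro ⟨rfl | ⟨h1, h2⟩, h3⟩
          · exact absurd hb.1 h3
          · exact ⟨h1, h2, h3⟩
        · rintro ⟨h1, h2, h3⟩
          exact ⟨Or.inr ⟨h1, h2⟩, h3⟩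
      rw [this, Finset.card_erase_of_mem (Finset.mem_sdiff.mpr ha), hk]
      rfl
    · have hle' : (nb G' b \ U).card ≤ (nb G' a \ U).card := by
        rw [← hA.card_sdiff hG hG' b, ← hA.card_sdiff hG hG' a]
        exact hle
      obtain ⟨G1, hG1, hfG1, hA1, hnb1⟩ := step hf hG' hv hbU haU hb.1 ha.2 hva hle'
      rw [← hfG1]
      apply ih G hG G1 hG1 (hA.trans hA1.symm)
      have : nb G v \ nb G1 v = (nb G v \ nb G' v).erase a := by
        rw [hnb1]
        ext x
        simp only [Finset.mem_sdiff, Finset.mem_insert, Finset.mem_erase, not_or, not_and]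
        constructor
        · rintro ⟨h1, h2, h3⟩
          refine ⟨h2, h1, fun h => ?_⟩
          have hxb : x ≠ b := by
            rintro rfl; exact hb.2 h1
          exact h3 hxb h
        · rintro ⟨h1, h2, h3⟩
          exact ⟨h2, h1, fun _ h => h3 h⟩
      rw [this, Finset.card_erase_of_mem (Finset.mem_sdiff.mpr ha), hk]
      rfl

/-- outer induction on the number of unsettled vertices. -/
lemma outer {d : Fin n → ℕ} {f : Finset (Edge n) → ℝ} (hf : SwInv d f) :
    ∀ m : ℕ, ∀ U : Finset (Fin n), (univ \ U).card = m →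
      ∀ G ∈ realizations d, ∀ G' ∈ realizations d, Agree U G G' → f G = f G' := by
  intro m
  induction m with
  | zero =>
    intro U hU G _ G' _ hA
    have hU' : ∀ x : Fin n, x ∈ U := by
      intro x
      have := Finset.sdiff_eq_empty_iff_subset.mp (Finset.card_eq_zero.mp hU)
      exact this (Finset.mem_univ x)
    have : G = G' := by
      ext e
      obtain ⟨a, b, hab, rfl⟩ := edge_cases e
      exact hA _ ⟨a, hU' a, by rw [mem_mkE]; left; rfl⟩
    rw [this]
  | succ m ih =>
    intro U hU G hG G' hG' hA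
    obtain ⟨v, hv⟩ := Finset.card_pos.mp (by rw [hU]; exact Nat.succ_pos m)
    rw [Finset.mem_sdiff] at hv
    have hcard : (univ \ insert v U).card = m := by
      have : univ \ insert v U = (univ \ U).erase v := by
        ext x
        simp only [Finset.mem_sdiff, Finset.mem_univ, true_and, Finset.mem_insert,
          Finset.mem_erase, not_or]
      rw [this, Finset.card_erase_of_mem (Finset.mem_sdiff.mpr hv), hU]
      rfl
    exact inner hf hv.2 (ih (insert v U) hcard) _ G hG G' hG' hA rfl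

/-- **Connectivity of the switch graph**: a switch-invariant function is constant on the
realizations of `d`. -/
theorem const_of_swInv {d : Fin n → ℕ} {f : Finset (Edge n) → ℝ} (hf : SwInv d f)
    {G G' : Finset (Edge n)} (hG : G ∈ realizations d) (hG' : G' ∈ realizations d) :
    f G = f G' :=
  outer hf _ ∅ rfl G hG G' hG' (by rintro e ⟨u, hu, -⟩; simp at hu)

/-- version phrased with the proposals of the chain. -/
theorem const_of_switchResult_inv {d : Fin n → ℕ} {f : Finset (Edge n) → ℝ}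
    (hf : ∀ G ∈ realizations d, ∀ S ∈ (univ : Finset (Fin n)).powersetCard 4, ∀ F ∈ pmSet S,
      ∀ F' ∈ (pmSet S).erase F, f (switchResult G F F') = f G)
    {G G' : Finset (Edge n)} (hG : G ∈ realizations d) (hG' : G' ∈ realizations d) :
    f G = f G' := by
  apply const_of_swInv _ hG hG'
  intro G hG a b c e hab hce hac hbe hae hbc e1 e2 e3 e4
  have hS : ({a, b, c, e} : Finset (Fin n)) ∈ (univ : Finset (Fin n)).powersetCard 4 := by
    rw [Finset.mem_powersetCard]
    refine ⟨Finset.subset_univ _, ?_⟩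
    rw [Finset.card_insert_of_notMem, Finset.card_insert_of_notMem,
      Finset.card_insert_of_notMem, Finset.card_singleton]
    · simpa using hce
    · simp [hbc, hbe]
    · simp [hab, hac, hae]
  have hF : ({mkE a b hab, mkE c e hce} : Finset (Edge n)) ∈
      pmSet ({a, b, c, e} : Finset (Fin n)) := pm_mem hab hac hae hbc hbe hce
  have hF' : ({mkE a c hac, mkE b e hbe} : Finset (Edge n)) ∈
      pmSet ({a, b, c, e} : Finset (Fin n)) := by
    have : ({a, b, c, e} : Finset (Fin n)) = {a, c, b, e} := by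
      ext x; simp only [Finset.mem_insert, Finset.mem_singleton]; tauto
    rw [this]
    exact pm_mem hac hab hae hbc.symm hce hbe
  have hne : ({mkE a c hac, mkE b e hbe} : Finset (Edge n)) ≠ {mkE a b hab, mkE c e hce} := by
    intro h
    have : mkE a c hac ∈ ({mkE a b hab, mkE c e hce} : Finset (Edge n)) := by
      rw [← h]; simp
    rw [Finset.mem_insert, Finset.mem_singleton] at this
    rcases this with h | h
    · exact e3 (h ▸ e1)
    · exact e3 (h ▸ e2)
  have := hf G hG _ hS _ hF _ (Finset.mem_erase.mpr ⟨hne, hF'⟩)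
  unfold switchResult at this
  rw [if_pos] at this
  · exact this
  · constructor
    · intro x hx
      rw [Finset.mem_insert, Finset.mem_singleton] at hx
      rcases hx with rfl | rfl
      · exact e1
      · exact e2
    · rw [Finset.disjoint_left]
      intro x hx
      rw [Finset.mem_insert, Finset.mem_singleton] at hx
      rcases hx with rfl | rfl
      · exact e3
      · exact e4

end Crest.Agent.S0453Conn
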