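import Mathlib

/-!
# Abstract gap lemma for row 299 (S0453)

`A` symmetric, positive semidefinite on `Ω → ℝ` (dot product), `‖A f‖² ≥ c ⟨f, A f⟩`,
`A 1 = 0`, `ker A ⊆ constants`  ⟹  `c (N ∑ f² - (∑ f)²) ≤ N ⟨f, A f⟩`.
No spectral theorem: `range A = (ker A)ᗮ`, `g = A h`, `a_k = ⟨h, A^k h⟩`,
Cauchy–Schwarz `a₂² ≤ a₁ a₃`.
-/

set_option autoImplicit false
open Finset

namespace Crest.Agent.S0453AbsGap

section inner
open scoped InnerProductSpace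
variable {E : Type*} [NormedAddCommGroup E] [InnerProductSpace ℝ E]

/-- Cauchy–Schwarz for a positive semidefinite symmetric operator. -/
lemma cs_psd (T : E →ₗ[ℝ] E) (hT : T.IsSymmetric) (hpsd : ∀ x, 0 ≤ ⟪x, T x⟫_ℝ) (x y : E) :
    ⟪x, T y⟫_ℝ ^ 2 ≤ ⟪x, T x⟫_ℝ * ⟪y, T y⟫_ℝ := by
  have key : ∀ t : ℝ, 0 ≤ ⟪y, T y⟫_ℝ * (t * t) + (2 * ⟪x, T y⟫_ℝ) * t + ⟪x, T x⟫_ℝ := by
    intro t
    have h := hpsd (x + t • y)
    have e : ⟪x + t • y, T (x + t • y)⟫_ℝ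
        = ⟪y, T y⟫_ℝ * (t * t) + (2 * ⟪x, T y⟫_ℝ) * t + ⟪x, T x⟫_ℝ := by
      have hs : ⟪y, T x⟫_ℝ = ⟪x, T y⟫_ℝ := by
        rw [← hT y x, real_inner_comm]
      simp only [map_add, map_smul, inner_add_left, inner_add_right, inner_smul_left,
        inner_smul_right, hs, RCLike.conj_to_real]
      ring
    rw [e] at h
    exact h
  have hd := discrim_le_zero key
  unfold discrim at hd
  nlinarith [hd]

/-- the abstract gap lemma in a finite dimensional inner product space -/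
theorem gap_inner [FiniteDimensional ℝ E] (T : E →ₗ[ℝ] E) (hT : T.IsSymmetric) (c : ℝ)
    (hpsd : ∀ x, 0 ≤ ⟪x, T x⟫_ℝ) (hsq : ∀ x, c * ⟪x, T x⟫_ℝ ≤ ⟪T x, T x⟫_ℝ)
    (g : E) (hg : g ∈ (LinearMap.ker T)ᗮ) : c * ⟪g, g⟫_ℝ ≤ ⟪g, T g⟫_ℝ := by
  have hr : g ∈ LinearMap.range T := by
    rw [← hT.orthogonal_range, Submodule.orthogonal_orthogonal] at hg
    exact hg
  obtain ⟨h, rfl⟩ := hr
  set a1 := ⟪h, T h⟫_ℝ with ha1
  set a2 := ⟪T h, T h⟫_ℝ with ha2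
  set a3 := ⟪T h, T (T h)⟫_ℝ with ha3
  have h1 : 0 ≤ a1 := hpsd h
  have h2 : 0 ≤ a2 := real_inner_self_nonneg
  have h3 : 0 ≤ a3 := hpsd (T h)
  have hcs : a2 ^ 2 ≤ a1 * a3 := by
    have := cs_psd T hT hpsd h (T h)
    have e : ⟪h, T (T h)⟫_ℝ = a2 := by rw [ha2, hT h (T h)]
    rw [e] at this
    exact this
  have hq : c * a1 ≤ a2 := hsq h
  rcases h1.eq_or_lt with h0 | hpos
  · have : a2 ^ 2 ≤ 0 := by rw [← h0] at hcs; simpa using hcs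
    have h20 : a2 = 0 := by nlinarith
    rw [h20]; simpa using h3
  · have : c * a2 * a1 ≤ a3 * a1 := by nlinarith
    exact le_of_mul_le_mul_right this hpos

/-- local version: `T ≥ 1` at `g` implies `‖T g‖² ≥ ⟨g, T g⟩`. -/
theorem sq_ge_of_ge (T : E →ₗ[ℝ] E) (c : ℝ) (g : E)
    (hge : c * ⟪g, g⟫_ℝ ≤ ⟪g, T g⟫_ℝ) (hpos : 0 ≤ ⟪g, T g⟫_ℝ) :
    c * ⟪g, T g⟫_ℝ ≤ ⟪T g, T g⟫_ℝ := by
  have hcs : ⟪g, T g⟫_ℝ * ⟪g, T g⟫_ℝ ≤ ⟪g, g⟫_ℝ * ⟪T g, T g⟫_ℝ := real_inner_mul_inner_self_le g (T g)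
  have h0 : 0 ≤ ⟪g, g⟫_ℝ := real_inner_self_nonneg
  have h2 : 0 ≤ ⟪T g, T g⟫_ℝ := real_inner_self_nonneg
  rcases h0.eq_or_lt with h | h
  · have hg : g = 0 := by
      have := h.symm
      rwa [inner_self_eq_zero] at this
    subst hg
    simp
  · have : c * ⟪g, T g⟫_ℝ * ⟪g, g⟫_ℝ ≤ ⟪T g, T g⟫_ℝ * ⟪g, g⟫_ℝ := by nlinarith
    exact le_of_mul_le_mul_right this h

end inner

section fn
open scoped InnerProductSpace
variable {Ω : Type*} [Fintype Ω]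

/-- transport of a linear map on `Ω → ℝ` to `EuclideanSpace ℝ Ω` -/
noncomputable def toE (A : (Ω → ℝ) →ₗ[ℝ] (Ω → ℝ)) : EuclideanSpace ℝ Ω →ₗ[ℝ] EuclideanSpace ℝ Ω :=
  (WithLp.linearEquiv 2 ℝ (Ω → ℝ)).symm.toLinearMap ∘ₗ A ∘ₗ (WithLp.linearEquiv 2 ℝ (Ω → ℝ)).toLinearMap

lemma inner_toLp (f g : Ω → ℝ) :
    ⟪(WithLp.toLp 2 f : EuclideanSpace ℝ Ω), WithLp.toLp 2 g⟫_ℝ = ∑ x, f x * g x := by
  simp [PiLp.inner_apply, mul_comm]

omit [Fintype Ω] in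
lemma toE_apply (A : (Ω → ℝ) →ₗ[ℝ] (Ω → ℝ)) (f : Ω → ℝ) :
    toE A (WithLp.toLp 2 f) = WithLp.toLp 2 (A f) := rfl

/-- **Abstract gap lemma** on functions. -/
theorem gap_of_sq_ge (A : (Ω → ℝ) →ₗ[ℝ] (Ω → ℝ)) (c : ℝ)
    (hsymm : ∀ f g, ∑ x, A f x * g x = ∑ x, f x * A g x)
    (hpsd : ∀ f, 0 ≤ ∑ x, f x * A f x)
    (hsq : ∀ f, c * ∑ x, f x * A f x ≤ ∑ x, A f x * A f x)
    (hone : A (fun _ => 1) = 0)
    (hker : ∀ f, A f = 0 → ∀ x y, f x = f y) (f : Ω → ℝ) :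
    c * ((Fintype.card Ω : ℝ) * ∑ x, f x * f x - (∑ x, f x) ^ 2)
      ≤ (Fintype.card Ω : ℝ) * ∑ x, f x * A f x := by
  classical
  rcases isEmpty_or_nonempty Ω with hE | hN
  · simp
  have hNpos : (0 : ℝ) < (Fintype.card Ω : ℝ) := by exact_mod_cast Fintype.card_pos
  set N : ℝ := (Fintype.card Ω : ℝ) with hNdef
  set m : ℝ := (∑ x, f x) / N with hm
  set g : Ω → ℝ := fun x => f x - m with hg
  have surj : ∀ u : EuclideanSpace ℝ Ω, ∃ a : Ω → ℝ, u = WithLp.toLp 2 a := fun u => ⟨u.ofLp, rfl⟩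
  have hT : (toE A).IsSymmetric := by
    intro u v
    obtain ⟨a, rfl⟩ := surj u
    obtain ⟨b, rfl⟩ := surj v
    rw [toE_apply, toE_apply, inner_toLp, inner_toLp]
    exact hsymm a b
  have hP : ∀ u, 0 ≤ ⟪u, toE A u⟫_ℝ := by
    intro u
    obtain ⟨a, rfl⟩ := surj u
    rw [toE_apply, inner_toLp]
    exact hpsd a
  have hS : ∀ u, c * ⟪u, toE A u⟫_ℝ ≤ ⟪toE A u, toE A u⟫_ℝ := by
    intro u
    obtain ⟨a, rfl⟩ := surj u
    rw [toE_apply, inner_toLp, inner_toLp]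
    exact hsq a
  have hsumg : ∑ x, g x = 0 := by
    simp only [hg, Finset.sum_sub_distrib, Finset.sum_const, Finset.card_univ, nsmul_eq_mul]
    rw [hm, ← hNdef]
    field_simp
    ring
  have hgk : (WithLp.toLp 2 g : EuclideanSpace ℝ Ω) ∈ (LinearMap.ker (toE A))ᗮ := by
    rw [Submodule.mem_orthogonal]
    intro u hu
    obtain ⟨a, rfl⟩ := surj u
    rw [LinearMap.mem_ker, toE_apply] at hu
    have ha : A a = 0 := by
      have := congrArg WithLp.ofLp hu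
      simpa using this
    obtain ⟨x0⟩ := hN
    have hc : ∀ x, a x = a x0 := fun x => hker a ha x x0
    rw [inner_toLp]
    simp only [hc]
    rw [← Finset.mul_sum, hsumg, mul_zero]
  have main := gap_inner (toE A) hT c hP hS _ hgk
  rw [toE_apply, inner_toLp, inner_toLp] at main
  have hAg : A g = A f := by
    have : g = f - m • (fun _ => (1 : ℝ)) := by
      ext x; simp [hg]
    rw [this, map_sub, map_smul, hone, smul_zero, sub_zero]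
  have hAf0 : ∑ x, A f x = 0 := by
    have := hsymm f (fun _ => 1)
    rw [hone] at this
    simpa using this
  have e1 : ∑ x, g x * g x = ∑ x, f x * f x - (∑ x, f x) ^ 2 / N := by
    have : ∀ x, g x * g x = f x * f x - 2 * m * f x + m * m := by
      intro x; simp only [hg]; ring
    simp only [this, Finset.sum_add_distrib, Finset.sum_sub_distrib, ← Finset.mul_sum,
      Finset.sum_const, Finset.card_univ, nsmul_eq_mul]
    rw [← hNdef, hm]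
    field_simp
    ring
  have e2 : ∑ x, g x * A g x = ∑ x, f x * A f x := by
    rw [hAg]
    have : ∀ x, g x * A f x = f x * A f x - m * A f x := by
      intro x; simp only [hg]; ring
    simp only [this, Finset.sum_sub_distrib, ← Finset.mul_sum, hAf0, mul_zero, sub_zero]
  rw [e1, e2] at main
  have : c * (N * ∑ x, f x * f x - (∑ x, f x) ^ 2)
      = N * (c * (∑ x, f x * f x - (∑ x, f x) ^ 2 / N)) := by
    field_simp
  rw [this]
  exact mul_le_mul_of_nonneg_left main hNpos.le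

/-- local version on functions: if `c ⟨g,g⟩ ≤ ⟨g, A g⟩` then `c ⟨g, A g⟩ ≤ ‖A g‖²`
(pure Cauchy–Schwarz, `A g` may be any function `h`). -/
theorem sq_ge_of_ge_fn (c : ℝ) (g h : Ω → ℝ)
    (hge : c * ∑ x, g x * g x ≤ ∑ x, g x * h x) (hpos : 0 ≤ ∑ x, g x * h x) :
    c * ∑ x, g x * h x ≤ ∑ x, h x * h x := by
  have hcs : (∑ x, g x * h x) ^ 2 ≤ (∑ x, g x ^ 2) * ∑ x, h x ^ 2 :=
    Finset.sum_mul_sq_le_sq_mul_sq _ _ _
  simp only [pow_two] at hcs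
  have h0 : 0 ≤ ∑ x, g x * g x := Finset.sum_nonneg fun x _ => mul_self_nonneg _
  have h2 : 0 ≤ ∑ x, h x * h x := Finset.sum_nonneg fun x _ => mul_self_nonneg _
  rcases h0.eq_or_lt with hz | hz
  · have : (∑ x, g x * h x) * (∑ x, g x * h x) ≤ 0 := by rw [← hz] at hcs; simpa using hcs
    have h1 : ∑ x, g x * h x = 0 := by nlinarith
    rw [h1]; simpa using h2
  · have : c * (∑ x, g x * h x) * (∑ x, g x * g x) ≤ (∑ x, h x * h x) * ∑ x, g x * g x := by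
      nlinarith
    exact le_of_mul_le_mul_right this hz

end fn

end Crest.Agent.S0453AbsGap
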