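import Mathlib
import Crest.Prelude.Def_SwitchChain
import Crest.Agent.S0453_Core
import Crest.Agent.S0453_Defs
import Crest.Agent.S0453Red
import Crest.Agent.S0453Conn
import Crest.Agent.S0453_AbsGap

/-!
# Row 299 (S0453): top-level assembly

`gap_of_interfaces : S3 d → ClaimA d → ClaimB d → G4 d → S0453Red.Gap n d`.
-/

set_option autoImplicit false
open Finset

namespace Crest.Agent.S0453Top
open Crest.SwitchChain Crest.Agent.S0453Core Crest.Agent.S0453Defs Crest.Agent.S0453PM

/-! ### the few facts on conditional expectations that are needed -/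

section core
variable {α β : Type*} [DecidableEq β] (Ω : Finset α) (φ : α → β)

lemma fib_congr {x y : α} (h : φ x = φ y) : fib Ω φ x = fib Ω φ y := by
  unfold fib; rw [h]

lemma cE_congr (f : α → ℝ) {x y : α} (h : φ x = φ y) : cE Ω φ f x = cE Ω φ f y := by
  unfold cE; rw [fib_congr Ω φ h]

lemma mem_fib_self {x : α} (hx : x ∈ Ω) : x ∈ fib Ω φ x := by
  unfold fib; simp [hx]

lemma card_fib_pos {x : α} (hx : x ∈ Ω) : (0 : ℝ) < ((fib Ω φ x).card : ℝ) := by
  exact_mod_cast Finset.card_pos.mpr ⟨x, mem_fib_self Ω φ hx⟩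

lemma cE_ext {f g : α → ℝ} (h : ∀ x ∈ Ω, f x = g x) (x : α) : cE Ω φ f x = cE Ω φ g x := by
  unfold cE
  congr 1
  apply Finset.sum_congr rfl
  intro y hy
  exact h y (Finset.mem_filter.mp hy).1

lemma sum_mul_cE (a g : α → ℝ) (ha : ∀ x ∈ Ω, ∀ y ∈ Ω, φ x = φ y → a x = a y) :
    ∑ x ∈ Ω, a x * cE Ω φ g x = ∑ x ∈ Ω, a x * g x := by
  have h1 : ∀ x ∈ Ω, a x * cE Ω φ g x
      = ∑ y ∈ Ω, if φ y = φ x then a y * g y / ((fib Ω φ y).card : ℝ) else 0 := by
    intro x hx
    rw [← Finset.sum_filter]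
    unfold cE
    rw [Finset.sum_div, Finset.mul_sum]
    apply Finset.sum_congr rfl
    intro y hy
    have hy' := Finset.mem_filter.mp hy
    rw [fib_congr Ω φ hy'.2, ha x hx y hy'.1 hy'.2.symm]; ring
  rw [Finset.sum_congr rfl h1, Finset.sum_comm]
  apply Finset.sum_congr rfl
  intro y hy
  have h2 : (Ω.filter fun x => φ y = φ x) = fib Ω φ y := by
    unfold fib
    apply Finset.filter_congr
    intro x _
    exact eq_comm
  rw [← Finset.sum_filter, Finset.sum_const, h2, nsmul_eq_mul]
  have := card_fib_pos Ω φ hy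
  field_simp

lemma ip_comm (f g : α → ℝ) : ip Ω f g = ip Ω g f := by
  unfold ip; exact Finset.sum_congr rfl fun x _ => mul_comm _ _

lemma ip_cE_cE (f g : α → ℝ) : ip Ω (cE Ω φ f) (cE Ω φ g) = ip Ω (cE Ω φ f) g :=
  sum_mul_cE Ω φ _ g fun _ _ _ _ h => cE_congr Ω φ f h

lemma ip_cE_symm (f g : α → ℝ) : ip Ω (cE Ω φ f) g = ip Ω f (cE Ω φ g) := by
  rw [← ip_cE_cE, ip_comm, ip_cE_cE, ip_comm]

lemma ip_cP_right (f g : α → ℝ) : ip Ω f (cP Ω φ g) = ip Ω f g - ip Ω f (cE Ω φ g) := by
  unfold ip cP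
  rw [← Finset.sum_sub_distrib]
  exact Finset.sum_congr rfl fun x _ => by ring

lemma ip_cP_left (f g : α → ℝ) : ip Ω (cP Ω φ f) g = ip Ω f g - ip Ω (cE Ω φ f) g := by
  rw [ip_comm, ip_cP_right, ip_comm Ω g f, ip_comm Ω g]

lemma ip_cP_symm (f g : α → ℝ) : ip Ω (cP Ω φ f) g = ip Ω f (cP Ω φ g) := by
  rw [ip_cP_left, ip_cP_right, ip_cE_symm]

lemma ip_cP_cP (f g : α → ℝ) : ip Ω (cP Ω φ f) (cP Ω φ g) = ip Ω f (cP Ω φ g) := by
  rw [ip_cP_left, ip_cP_right Ω φ (cE Ω φ f), ip_cE_cE]; ring

lemma cE_add (f g : α → ℝ) (x : α) :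
    cE Ω φ (fun y => f y + g y) x = cE Ω φ f x + cE Ω φ g x := by
  unfold cE; rw [Finset.sum_add_distrib, add_div]

lemma cE_smul (c : ℝ) (f : α → ℝ) (x : α) :
    cE Ω φ (fun y => c * f y) x = c * cE Ω φ f x := by
  unfold cE; rw [← Finset.mul_sum, mul_div_assoc]

lemma cE_one {f : α → ℝ} (hf : ∀ x ∈ Ω, f x = 1) {x : α} (hx : x ∈ Ω) : cE Ω φ f x = 1 := by
  unfold cE
  have : ∑ y ∈ fib Ω φ x, f y = ((fib Ω φ x).card : ℝ) := by
    rw [Finset.sum_congr rfl fun y (hy : y ∈ fib Ω φ x) => hf y (Finset.mem_filter.mp hy).1]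
    simp
  rw [this]
  exact div_self (card_fib_pos Ω φ hx).ne'

lemma ip_sum_left {ι : Type*} (s : Finset ι) (a : ι → α → ℝ) (g : α → ℝ) :
    ip Ω (fun x => ∑ i ∈ s, a i x) g = ∑ i ∈ s, ip Ω (a i) g := by
  unfold ip
  rw [Finset.sum_comm]
  exact Finset.sum_congr rfl fun x _ => Finset.sum_mul _ _ _

lemma ip_sum_right {ι : Type*} (s : Finset ι) (a : ι → α → ℝ) (g : α → ℝ) :
    ip Ω g (fun x => ∑ i ∈ s, a i x) = ∑ i ∈ s, ip Ω g (a i) := by
  rw [ip_comm, ip_sum_left]
  exact Finset.sum_congr rfl fun i _ => ip_comm _ _ _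

lemma ip_self_nonneg (f : α → ℝ) : 0 ≤ ip Ω f f :=
  Finset.sum_nonneg fun _ _ => mul_self_nonneg _

lemma eq_zero_of_ip_self {f : α → ℝ} (h : ip Ω f f = 0) {x : α} (hx : x ∈ Ω) : f x = 0 := by
  have := (Finset.sum_eq_zero_iff_of_nonneg (fun x _ => mul_self_nonneg (f x))).mp h x hx
  exact mul_self_eq_zero.mp this

end core

/-! ### bookkeeping of tuple sums -/

section tuples
variable {n : ℕ}

lemma sum4_swap (g : Fin n → Fin n → Fin n → Fin n → ℝ) :
    ∑ v, ∑ w, ∑ x, ∑ y, g x y v w = ∑ v, ∑ w, ∑ x, ∑ y, g v w x y := by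
  calc ∑ v, ∑ w, ∑ x, ∑ y, g x y v w = ∑ v, ∑ x, ∑ w, ∑ y, g x y v w :=
        Finset.sum_congr rfl fun v _ => Finset.sum_comm
    _ = ∑ x, ∑ v, ∑ w, ∑ y, g x y v w := Finset.sum_comm
    _ = ∑ x, ∑ v, ∑ y, ∑ w, g x y v w :=
        Finset.sum_congr rfl fun x _ => Finset.sum_congr rfl fun v _ => Finset.sum_comm
    _ = ∑ x, ∑ y, ∑ v, ∑ w, g x y v w := Finset.sum_congr rfl fun x _ => Finset.sum_comm

variable (c : Fin n → Fin n → Fin n → Fin n → ℝ)
  (hz1 : ∀ v x y, c v v x y = 0) (hz2 : ∀ v w x, c v w x x = 0)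
  (s1 : ∀ v w x y, c v w x y = c w v x y) (s2 : ∀ v w x y, c v w x y = c v w y x)

include hz1 hz2 s1 s2 in
lemma four_sum :
    ∑ v, ∑ w, ∑ x, ∑ y, (if Dist4 v w x y then c v w x y else 0)
      = (∑ v, ∑ w, ∑ x, ∑ y, c v w x y) - 4 * (∑ a, ∑ b, ∑ e, c a b a e)
        + 2 * ∑ a, ∑ b, c a b a b := by
  have pt : ∀ v w x y, (if Dist4 v w x y then c v w x y else 0)
      = c v w x y - (if x = v then c v w x y else 0) - (if x = w then c v w x y else 0)
        - (if y = v then c v w x y else 0) - (if y = w then c v w x y else 0)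
        + (if x = v then (if y = w then c v w x y else 0) else 0)
        + (if x = w then (if y = v then c v w x y else 0) else 0) := by
    intro v w x y
    by_cases hvw : v = w
    · subst hvw
      simp [hz1, Dist4]
    by_cases hxy : x = y
    · subst hxy
      simp [hz2, Dist4]
    unfold Dist4
    by_cases h1 : x = v
    · subst h1
      have : ¬ y = x := fun h => hxy h.symm
      by_cases h2 : y = w
      · subst h2; simp [hvw, this]
      · simp [hvw, hxy, this, h2]
    by_cases h2 : x = w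
    · subst h2
      have : ¬ y = x := fun h => hxy h.symm
      by_cases h3 : y = v
      · subst h3; simp [hvw, hxy]
      · simp [hvw, hxy, this, h3, h1]
    by_cases h3 : y = v
    · subst h3
      simp [hvw, hxy, h2]
    by_cases h4 : y = w
    · subst h4
      simp [hvw, hxy, h1, h3]
    have h1' : ¬ v = x := fun h => h1 h.symm
    have h2' : ¬ w = x := fun h => h2 h.symm
    have h3' : ¬ v = y := fun h => h3 h.symm
    have h4' : ¬ w = y := fun h => h4 h.symm
    simp [hvw, hxy, h1, h2, h3, h4, h1', h2', h3', h4']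
  simp only [pt, Finset.sum_add_distrib, Finset.sum_sub_distrib]
  have e1 : ∑ v, ∑ w, ∑ x, ∑ y, (if x = v then c v w x y else 0) = ∑ a, ∑ b, ∑ e, c a b a e := by
    apply Finset.sum_congr rfl; intro v _
    apply Finset.sum_congr rfl; intro w _
    rw [Finset.sum_comm]
    apply Finset.sum_congr rfl; intro y _
    simp
  have e2 : ∑ v, ∑ w, ∑ x, ∑ y, (if x = w then c v w x y else 0) = ∑ a, ∑ b, ∑ e, c a b a e := by
    rw [Finset.sum_comm]
    apply Finset.sum_congr rfl; intro w _
    apply Finset.sum_congr rfl; intro v _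
    rw [Finset.sum_comm]
    apply Finset.sum_congr rfl; intro y _
    simp [s1 v w]
  have e3 : ∑ v, ∑ w, ∑ x, ∑ y, (if y = v then c v w x y else 0) = ∑ a, ∑ b, ∑ e, c a b a e := by
    apply Finset.sum_congr rfl; intro v _
    apply Finset.sum_congr rfl; intro w _
    apply Finset.sum_congr rfl; intro x _
    simp [s2 v w x]
  have e4 : ∑ v, ∑ w, ∑ x, ∑ y, (if y = w then c v w x y else 0) = ∑ a, ∑ b, ∑ e, c a b a e := by
    rw [Finset.sum_comm]
    apply Finset.sum_congr rfl; intro w _
    apply Finset.sum_congr rfl; intro v _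
    apply Finset.sum_congr rfl; intro x _
    simp [s2 v w x, s1 v w]
  have e5 : ∑ v, ∑ w, ∑ x, ∑ y, (if x = v then (if y = w then c v w x y else 0) else 0)
      = ∑ a, ∑ b, c a b a b := by
    apply Finset.sum_congr rfl; intro v _
    apply Finset.sum_congr rfl; intro w _
    simp
  have e6 : ∑ v, ∑ w, ∑ x, ∑ y, (if x = w then (if y = v then c v w x y else 0) else 0)
      = ∑ a, ∑ b, c a b a b := by
    apply Finset.sum_congr rfl; intro v _
    apply Finset.sum_congr rfl; intro w _
    simp [s2 v w w v]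
  rw [e1, e2, e3, e4, e5, e6]
  ring

include hz1 hz2 s1 s2 in
lemma three_sum
    (h3 : ∀ a b e, a ≠ b → a ≠ e → b ≠ e → 0 ≤ c a b a e + c a b b e + c a e b e) :
    ∑ a, ∑ b, c a b a b ≤ ∑ a, ∑ b, ∑ e, c a b a e := by
  have pt : ∀ a b e, (if b = e then c a b a b else 0) + (if a = b then c a e a e else 0)
      + (if a = e then c a b a b else 0) ≤ c a b a e + c a b b e + c a e b e := by
    intro a b e
    by_cases hab : a = b
    · subst hab
      by_cases hae : a = e
      · subst hae; simp [hz1]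
      · simp [hz1, hae]
    by_cases hae : a = e
    · subst hae
      have hba : ¬ b = a := fun h => hab h.symm
      simp [hab, hba, hz1, hz2, s2 a b b a]
    by_cases hbe : b = e
    · subst hbe
      simp [hab, hz2]
    simpa [hab, hae, hbe] using h3 a b e hab hae hbe
  have hs : ∑ a, ∑ b, ∑ e, ((if b = e then c a b a b else 0) + (if a = b then c a e a e else 0)
      + (if a = e then c a b a b else 0)) ≤ ∑ a, ∑ b, ∑ e, (c a b a e + c a b b e + c a e b e) :=
    Finset.sum_le_sum fun a _ => Finset.sum_le_sum fun b _ => Finset.sum_le_sum fun e _ => pt a b e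
  simp only [Finset.sum_add_distrib] at hs
  have e1 : ∑ a, ∑ b, ∑ e, (if b = e then c a b a b else 0) = ∑ a, ∑ b, c a b a b := by
    apply Finset.sum_congr rfl; intro a _
    apply Finset.sum_congr rfl; intro b _
    simp
  have e2 : ∑ a, ∑ b, ∑ e, (if a = b then c a e a e else 0) = ∑ a, ∑ b, c a b a b := by
    apply Finset.sum_congr rfl; intro a _
    rw [Finset.sum_comm]
    apply Finset.sum_congr rfl; intro b _
    simp
  have e3 : ∑ a, ∑ b, ∑ e, (if a = e then c a b a b else 0) = ∑ a, ∑ b, c a b a b := by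
    apply Finset.sum_congr rfl; intro a _
    apply Finset.sum_congr rfl; intro b _
    simp
  have e4 : ∑ a, ∑ b, ∑ e, c a b b e = ∑ a, ∑ b, ∑ e, c a b a e := by
    rw [Finset.sum_comm]
    apply Finset.sum_congr rfl; intro b _
    apply Finset.sum_congr rfl; intro a _
    apply Finset.sum_congr rfl; intro e _
    exact s1 _ _ _ _
  have e5 : ∑ a, ∑ b, ∑ e, c a e b e = ∑ a, ∑ b, ∑ e, c a b a e := by
    calc ∑ a, ∑ b, ∑ e, c a e b e = ∑ a, ∑ e, ∑ b, c a e b e :=
          Finset.sum_congr rfl fun a _ => Finset.sum_comm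
      _ = ∑ e, ∑ a, ∑ b, c a e b e := Finset.sum_comm
      _ = ∑ e, ∑ a, ∑ b, c e a e b := by
          apply Finset.sum_congr rfl; intro e _
          apply Finset.sum_congr rfl; intro a _
          apply Finset.sum_congr rfl; intro b _
          rw [s1, s2]
  rw [e1, e2, e3, e4, e5] at hs
  linarith

end tuples

/-! ### the operator `A = ∑_{v ≠ w} p_{vw}` -/

section graph
variable {n : ℕ} (d : Fin n → ℕ)

lemma key2_comm (v w : Fin n) : (key2 v w : Finset (Edge n) → Finset (Edge n)) = key2 w v := by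
  funext G
  unfold key2
  apply Finset.filter_congr
  intro e _
  exact and_comm

lemma p2_comm (v w : Fin n) (f : Finset (Edge n) → ℝ) : p2 d v w f = p2 d w v f := by
  unfold p2; rw [key2_comm]

/-- `p_{vw} f` for `v ≠ w`, `0` on the diagonal -/
noncomputable def U (f : Finset (Edge n) → ℝ) (v w : Fin n) : Finset (Edge n) → ℝ :=
  if v = w then (fun _ => 0) else p2 d v w f

lemma U_self (f : Finset (Edge n) → ℝ) (v : Fin n) : U d f v v = fun _ => 0 := by
  simp [U]

lemma U_of_ne (f : Finset (Edge n) → ℝ) {v w : Fin n} (h : v ≠ w) : U d f v w = p2 d v w f := by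
  simp [U, h]

lemma U_comm (f : Finset (Edge n) → ℝ) (v w : Fin n) : U d f v w = U d f w v := by
  by_cases h : v = w
  · rw [h]
  · rw [U_of_ne d f h, U_of_ne d f (Ne.symm h), p2_comm]

/-- `A f = ∑_{v ≠ w} p_{vw} f` -/
noncomputable def Af (f : Finset (Edge n) → ℝ) : Finset (Edge n) → ℝ :=
  fun G => ∑ v, ∑ w, U d f v w G

/-- Gram coefficients -/
noncomputable def cc (f : Finset (Edge n) → ℝ) (v w x y : Fin n) : ℝ :=
  ip (realizations d) (U d f v w) (U d f x y)

lemma ip_zero_left (g : Finset (Edge n) → ℝ) : ip (realizations d) (fun _ => 0) g = 0 := by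
  simp [ip]

lemma ip_zero_right (g : Finset (Edge n) → ℝ) : ip (realizations d) g (fun _ => 0) = 0 := by
  simp [ip]

lemma cc_z1 (f : Finset (Edge n) → ℝ) (v x y : Fin n) : cc d f v v x y = 0 := by
  unfold cc; rw [U_self, ip_zero_left]

lemma cc_z2 (f : Finset (Edge n) → ℝ) (v w x : Fin n) : cc d f v w x x = 0 := by
  unfold cc; rw [U_self, ip_zero_right]

lemma cc_s1 (f : Finset (Edge n) → ℝ) (v w x y : Fin n) : cc d f v w x y = cc d f w v x y := by
  unfold cc; rw [U_comm d f v w]

lemma cc_s2 (f : Finset (Edge n) → ℝ) (v w x y : Fin n) : cc d f v w x y = cc d f v w y x := by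
  unfold cc; rw [U_comm d f x y]

lemma ip_U_symm (f g : Finset (Edge n) → ℝ) (v w : Fin n) :
    ip (realizations d) (U d f v w) g = ip (realizations d) f (U d g v w) := by
  by_cases h : v = w
  · subst h; rw [U_self, U_self, ip_zero_left, ip_zero_right]
  · rw [U_of_ne d f h, U_of_ne d g h]
    exact ip_cP_symm _ _ _ _

lemma ip_U_U (f : Finset (Edge n) → ℝ) (v w : Fin n) :
    ip (realizations d) f (U d f v w) = cc d f v w v w := by
  unfold cc
  by_cases h : v = w
  · subst h; rw [U_self, ip_zero_right, ip_zero_right]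
  · rw [U_of_ne d f h]
    exact (ip_cP_cP _ _ _ _).symm

lemma ip_Af_left (f g : Finset (Edge n) → ℝ) :
    ip (realizations d) (Af d f) g = ∑ v, ∑ w, ip (realizations d) (U d f v w) g := by
  unfold Af
  rw [ip_sum_left]
  exact Finset.sum_congr rfl fun v _ => ip_sum_left _ _ _ _

lemma ip_Af_right (f g : Finset (Edge n) → ℝ) :
    ip (realizations d) g (Af d f) = ∑ v, ∑ w, ip (realizations d) g (U d f v w) := by
  unfold Af
  rw [ip_sum_right]
  exact Finset.sum_congr rfl fun v _ => ip_sum_right _ _ _ _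

lemma ip_Af_symm (f g : Finset (Edge n) → ℝ) :
    ip (realizations d) (Af d f) g = ip (realizations d) f (Af d g) := by
  rw [ip_Af_left, ip_Af_right]
  exact Finset.sum_congr rfl fun v _ => Finset.sum_congr rfl fun w _ => ip_U_symm d f g v w

lemma ip_f_Af (f : Finset (Edge n) → ℝ) :
    ip (realizations d) f (Af d f) = ∑ v, ∑ w, cc d f v w v w := by
  rw [ip_Af_right]
  exact Finset.sum_congr rfl fun v _ => Finset.sum_congr rfl fun w _ => ip_U_U d f v w

lemma ip_Af_Af (f : Finset (Edge n) → ℝ) :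
    ip (realizations d) (Af d f) (Af d f) = ∑ v, ∑ w, ∑ x, ∑ y, cc d f v w x y := by
  rw [ip_Af_left]
  exact Finset.sum_congr rfl fun v _ => Finset.sum_congr rfl fun w _ => ip_Af_right d f _

lemma cc_self_nonneg (f : Finset (Edge n) → ℝ) (v w : Fin n) : 0 ≤ cc d f v w v w :=
  ip_self_nonneg _ _

/-- disjoint pairs: Claim A + Claim B -/
lemma F4_nonneg (hA : ClaimA d) (hB : ClaimB d) (f : Finset (Edge n) → ℝ) :
    0 ≤ ∑ v, ∑ w, ∑ x, ∑ y, (if Dist4 v w x y then cc d f v w x y else 0) := by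
  set gE : Fin n → Fin n → Fin n → Fin n → ℝ :=
    fun v w x y => if Dist4 v w x y then En d v w x y f else 0 with hgE
  set gN : Fin n → Fin n → Fin n → Fin n → ℝ :=
    fun v w x y => if Dist4 v w x y then nn d v w x y f else 0 with hgN
  have hB' : ∑ v, ∑ w, ∑ x, ∑ y, gN v w x y ≤ (∑ v, ∑ w, ∑ x, ∑ y, gE v w x y) / 4 := by
    rw [Finset.sum_div]
    apply Finset.sum_le_sum; intro v _
    rw [Finset.sum_div]
    apply Finset.sum_le_sum; intro w _
    by_cases h : v = w
    · subst h
      simp [hgE, hgN, Dist4]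
    · exact hB v w h f
  have pt : ∀ v w x y, gE v w x y / 2
      ≤ 2 * (if Dist4 v w x y then cc d f v w x y else 0) + gN v w x y + gN x y v w := by
    intro v w x y
    by_cases h : Dist4 v w x y
    · have h' : Dist4 x y v w := by
        obtain ⟨h1, h2, h3, h4, h5, h6⟩ := h
        exact ⟨h6, h2.symm, h4.symm, h3.symm, h5.symm, h1⟩
      simp only [hgE, hgN, if_pos h, if_pos h']
      have := hA v w x y h f
      unfold cc
      rw [U_of_ne d f h.1, U_of_ne d f h.2.2.2.2.2]
      exact this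
    · have h' : ¬ Dist4 x y v w := by
        intro h'
        obtain ⟨h1, h2, h3, h4, h5, h6⟩ := h'
        exact h ⟨h6, h2.symm, h4.symm, h3.symm, h5.symm, h1⟩
      simp [hgE, hgN, if_neg h, if_neg h']
  have hs : ∑ v, ∑ w, ∑ x, ∑ y, gE v w x y / 2
      ≤ ∑ v, ∑ w, ∑ x, ∑ y, (2 * (if Dist4 v w x y then cc d f v w x y else 0) + gN v w x y
        + gN x y v w) :=
    Finset.sum_le_sum fun v _ => Finset.sum_le_sum fun w _ => Finset.sum_le_sum fun x _ =>
      Finset.sum_le_sum fun y _ => pt v w x y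
  simp only [Finset.sum_add_distrib, ← Finset.mul_sum, ← Finset.sum_div] at hs
  rw [sum4_swap gN] at hs
  linarith

/-- the key operator inequality `2 ⟨f, A f⟩ ≤ ‖A f‖²` -/
lemma sq_ge (h3 : S3 d) (hA : ClaimA d) (hB : ClaimB d) (f : Finset (Edge n) → ℝ) :
    2 * ip (realizations d) f (Af d f) ≤ ip (realizations d) (Af d f) (Af d f) := by
  rw [ip_f_Af, ip_Af_Af]
  have e4 := four_sum (cc d f) (cc_z1 d f) (cc_z2 d f) (cc_s1 d f) (cc_s2 d f)
  have e3 := three_sum (cc d f) (cc_z1 d f) (cc_z2 d f) (cc_s1 d f) (cc_s2 d f) (by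
    intro a b e hab hae hbe
    unfold cc
    rw [U_of_ne d f hab, U_of_ne d f hae, U_of_ne d f hbe]
    exact h3 a b e hab hae hbe f)
  have e0 := F4_nonneg d hA hB f
  linarith

end graph

/-! ### comparison of the square energies with the Dirichlet sum of the chain -/

section energy
variable {n : ℕ} (d : Fin n → ℕ)

lemma mem_M2 {a b c e : Fin n} {t : Edge n} : t ∈ M2 a b c e ↔ t.1 = s(a, b) ∨ t.1 = s(c, e) := by
  simp [M2]

lemma M2_eq {a b c e : Fin n} (hab : a ≠ b) (hce : c ≠ e) :
    M2 a b c e = {mkE a b hab, mkE c e hce} := by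
  ext t
  rw [mem_M2, Finset.mem_insert, Finset.mem_singleton]
  simp [mkE, Subtype.ext_iff]

/-- energy of one ordered proposal -/
def hh (f : Finset (Edge n) → ℝ) (F F' : Finset (Edge n)) : ℝ :=
  ∑ G ∈ realizations d, (f G - f (switchResult G F F')) ^ 2

lemma hh_nonneg (f : Finset (Edge n) → ℝ) (F F' : Finset (Edge n)) : 0 ≤ hh d f F F' :=
  Finset.sum_nonneg fun _ _ => sq_nonneg _

lemma En_le (f : Finset (Edge n) → ℝ) (v w x y : Fin n) :
    En d v w x y f ≤ hh d f (M2 v x w y) (M2 v y w x) + hh d f (M2 v y w x) (M2 v x w y) := by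
  unfold En hh
  rw [← Finset.sum_add_distrib]
  apply Finset.sum_le_sum
  intro G _
  by_cases h1 : isI v w x y G
  · have e1 : tau v w x y G = switchResult G (M2 v x w y) (M2 v y w x) := by
      unfold tau switchResult
      rw [if_pos h1]
      exact (if_pos h1).symm
    rw [e1]
    nlinarith [sq_nonneg (f G - f (switchResult G (M2 v y w x) (M2 v x w y)))]
  · have e1 : tau v w x y G = switchResult G (M2 v y w x) (M2 v x w y) := by
      unfold tau switchResult
      rw [if_neg h1]
      by_cases h2 : isI v w y x G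
      · rw [if_pos h2]
        exact (if_pos h2).symm
      · rw [if_neg h2]
        exact (if_neg h2).symm
    rw [e1]
    nlinarith [sq_nonneg (f G - f (switchResult G (M2 v x w y) (M2 v y w x)))]

/-- all proposals, as one index set -/
def props (n : ℕ) : Finset ((_ : Finset (Fin n)) × (_ : Finset (Edge n)) × Finset (Edge n)) :=
  ((univ : Finset (Fin n)).powersetCard 4).sigma fun S =>
    (pmSet S).sigma fun F => (pmSet S).erase F

lemma dir_eq (f : Finset (Edge n) → ℝ) :
    S0453Red.dir d f = ∑ z ∈ props n, hh d f z.2.1 z.2.2 := by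
  unfold S0453Red.dir props hh
  rw [Finset.sum_sigma, Finset.sum_comm]
  apply Finset.sum_congr rfl; intro S _
  rw [Finset.sum_sigma, Finset.sum_comm]
  apply Finset.sum_congr rfl; intro F _
  rw [Finset.sum_comm]

lemma mem_props {v w x y : Fin n} (h : Dist4 v w x y) :
    (⟨{v, x, w, y}, M2 v x w y, M2 v y w x⟩ :
      (_ : Finset (Fin n)) × (_ : Finset (Edge n)) × Finset (Edge n)) ∈ props n := by
  obtain ⟨hvw, hvx, hvy, hwx, hwy, hxy⟩ := h
  unfold props
  rw [Finset.mem_sigma, Finset.mem_sigma]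
  refine ⟨?_, ?_, ?_⟩
  · show ({v, x, w, y} : Finset (Fin n)) ∈ _
    rw [Finset.mem_powersetCard]
    refine ⟨Finset.subset_univ _, ?_⟩
    rw [Finset.card_insert_of_notMem, Finset.card_insert_of_notMem,
      Finset.card_insert_of_notMem, Finset.card_singleton]
    · simpa using hwy
    · simp [hwx.symm, hxy]
    · simp [hvw, hvx, hvy]
  · show M2 v x w y ∈ pmSet {v, x, w, y}
    rw [M2_eq hvx hwy]
    exact pm_mem hvx hvw hvy hwx.symm hxy hwy
  · show M2 v y w x ∈ (pmSet {v, x, w, y}).erase (M2 v x w y)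
    rw [Finset.mem_erase]
    constructor
    · intro h
      have : mkE v x hvx ∈ M2 v y w x := by
        rw [h, mem_M2]; left; rfl
      rw [mem_M2] at this
      simp only [mkE, Sym2.eq_iff] at this
      tauto
    · have : ({v, x, w, y} : Finset (Fin n)) = {v, y, w, x} := by
        ext z; simp only [Finset.mem_insert, Finset.mem_singleton]; tauto
      rw [this, M2_eq hvy hwx]
      exact pm_mem hvy hvw hvx hwy.symm hxy.symm hwx

lemma M2_inj {v w x y x' y' : Fin n} (h : Dist4 v w x y) (h' : Dist4 v w x' y')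
    (he : M2 v x w y = M2 v x' w y') : x = x' ∧ y = y' := by
  obtain ⟨hvw, hvx, hvy, hwx, hwy, hxy⟩ := h
  obtain ⟨-, hvx', hvy', hwx', hwy', hxy'⟩ := h'
  have h1 : mkE v x hvx ∈ M2 v x' w y' := by
    rw [← he, mem_M2]; left; rfl
  have h2 : mkE w y hwy ∈ M2 v x' w y' := by
    rw [← he, mem_M2]; right; rfl
  rw [mem_M2] at h1 h2
  simp only [mkE, Sym2.eq_iff] at h1 h2
  constructor
  · rcases h1 with (⟨-, h⟩ | ⟨h, -⟩) | (⟨h, -⟩ | ⟨h, -⟩)
    · exact h
    · exact absurd h hvx'
    · exact absurd h hvw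
    · exact absurd h hvy'
  · rcases h2 with (⟨h, -⟩ | ⟨h, -⟩) | (⟨-, h⟩ | ⟨h, -⟩)
    · exact absurd h.symm hvw
    · exact absurd h hwx'
    · exact h
    · exact absurd h hwy'


/-- the proposal attached to a tuple -/
def jj (v w : Fin n) (p : Fin n × Fin n) :
    (_ : Finset (Fin n)) × (_ : Finset (Edge n)) × Finset (Edge n) :=
  ⟨{v, p.1, w, p.2}, M2 v p.1 w p.2, M2 v p.2 w p.1⟩

lemma jj_injOn (v w : Fin n) :
    Set.InjOn (jj v w) ((univ : Finset (Fin n × Fin n)).filter (fun p => Dist4 v w p.1 p.2)) := by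
  intro p hp q hq hpq
  have hp' : Dist4 v w p.1 p.2 := (Finset.mem_filter.mp hp).2
  have hq' : Dist4 v w q.1 q.2 := (Finset.mem_filter.mp hq).2
  have h1 : M2 v p.1 w p.2 = M2 v q.1 w q.2 := congrArg (fun z => z.2.1) hpq
  obtain ⟨h2, h3⟩ := M2_inj hp' hq' h1
  exact Prod.ext h2 h3

lemma sum_hh_le (f : Finset (Edge n) → ℝ) (v w : Fin n) :
    ∑ x, ∑ y, (if Dist4 v w x y then hh d f (M2 v x w y) (M2 v y w x) else 0)
      ≤ S0453Red.dir d f := by
  rw [dir_eq]
  have e : ∑ x, ∑ y, (if Dist4 v w x y then hh d f (M2 v x w y) (M2 v y w x) else 0)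
      = ∑ p ∈ (univ : Finset (Fin n × Fin n)).filter (fun p => Dist4 v w p.1 p.2),
          hh d f (jj v w p).2.1 (jj v w p).2.2 := by
    rw [Finset.sum_filter, Fintype.sum_prod_type]
    rfl
  rw [e, ← Finset.sum_image (f := fun z => hh d f z.2.1 z.2.2) (jj_injOn v w)]
  apply Finset.sum_le_sum_of_subset_of_nonneg
  · intro z hz
    obtain ⟨p, hp, rfl⟩ := Finset.mem_image.mp hz
    exact mem_props (Finset.mem_filter.mp hp).2
  · intro z _ _
    exact hh_nonneg d f _ _

lemma sum_En_le (f : Finset (Edge n) → ℝ) (v w : Fin n) :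
    ∑ x, ∑ y, (if Dist4 v w x y then En d v w x y f else 0) ≤ 2 * S0453Red.dir d f := by
  set g : Fin n → Fin n → ℝ :=
    fun x y => if Dist4 v w x y then hh d f (M2 v x w y) (M2 v y w x) else 0 with hg
  have pt : ∀ x y, (if Dist4 v w x y then En d v w x y f else 0) ≤ g x y + g y x := by
    intro x y
    by_cases h : Dist4 v w x y
    · have h' : Dist4 v w y x := by
        obtain ⟨h1, h2, h3, h4, h5, h6⟩ := h
        exact ⟨h1, h3, h2, h5, h4, h6.symm⟩
      simp only [hg, if_pos h, if_pos h']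
      exact En_le d f v w x y
    · have h' : ¬ Dist4 v w y x := by
        intro h'
        obtain ⟨h1, h2, h3, h4, h5, h6⟩ := h'
        exact h ⟨h1, h3, h2, h5, h4, h6.symm⟩
      simp [hg, if_neg h, if_neg h']
  have hs : ∑ x, ∑ y, (if Dist4 v w x y then En d v w x y f else 0) ≤ ∑ x, ∑ y, (g x y + g y x) :=
    Finset.sum_le_sum fun x _ => Finset.sum_le_sum fun y _ => pt x y
  simp only [Finset.sum_add_distrib] at hs
  rw [Finset.sum_comm (f := fun x y => g y x)] at hs
  have := sum_hh_le d f v w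
  linarith

end energy

/-! ### the operator on the realizations, its kernel, and the assembly -/

section final
variable {n : ℕ} (d : Fin n → ℕ)

lemma U_add (f g : Finset (Edge n) → ℝ) (v w : Fin n) (G : Finset (Edge n)) :
    U d (fun H => f H + g H) v w G = U d f v w G + U d g v w G := by
  by_cases h : v = w
  · subst h; simp [U_self]
  · rw [U_of_ne d _ h, U_of_ne d _ h, U_of_ne d _ h]
    unfold p2 cP
    rw [cE_add]; ring

lemma U_smul (c : ℝ) (f : Finset (Edge n) → ℝ) (v w : Fin n) (G : Finset (Edge n)) :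
    U d (fun H => c * f H) v w G = c * U d f v w G := by
  by_cases h : v = w
  · subst h; simp [U_self]
  · rw [U_of_ne d _ h, U_of_ne d _ h]
    unfold p2 cP
    rw [cE_smul]; ring

lemma U_ext {f g : Finset (Edge n) → ℝ} (hfg : ∀ G ∈ realizations d, f G = g G) (v w : Fin n)
    {G : Finset (Edge n)} (hG : G ∈ realizations d) : U d f v w G = U d g v w G := by
  by_cases h : v = w
  · subst h; simp [U_self]
  · rw [U_of_ne d _ h, U_of_ne d _ h]
    unfold p2 cP
    rw [cE_ext _ _ hfg, hfg G hG]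

lemma U_one {f : Finset (Edge n) → ℝ} (hf : ∀ G ∈ realizations d, f G = 1) (v w : Fin n)
    {G : Finset (Edge n)} (hG : G ∈ realizations d) : U d f v w G = 0 := by
  by_cases h : v = w
  · subst h; simp [U_self]
  · rw [U_of_ne d _ h]
    unfold p2 cP
    rw [cE_one _ _ hf hG, hf G hG]; ring

lemma Af_add (f g : Finset (Edge n) → ℝ) (G : Finset (Edge n)) :
    Af d (fun H => f H + g H) G = Af d f G + Af d g G := by
  unfold Af
  simp only [U_add, Finset.sum_add_distrib]

lemma Af_smul (c : ℝ) (f : Finset (Edge n) → ℝ) (G : Finset (Edge n)) :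
    Af d (fun H => c * f H) G = c * Af d f G := by
  unfold Af
  simp only [U_smul, Finset.mul_sum]

lemma Af_ext {f g : Finset (Edge n) → ℝ} (hfg : ∀ G ∈ realizations d, f G = g G)
    {G : Finset (Edge n)} (hG : G ∈ realizations d) : Af d f G = Af d g G := by
  unfold Af
  exact Finset.sum_congr rfl fun v _ => Finset.sum_congr rfl fun w _ => U_ext d hfg v w hG

lemma Af_one {f : Finset (Edge n) → ℝ} (hf : ∀ G ∈ realizations d, f G = 1)
    {G : Finset (Edge n)} (hG : G ∈ realizations d) : Af d f G = 0 := by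
  unfold Af
  exact Finset.sum_eq_zero fun v _ => Finset.sum_eq_zero fun w _ => U_one d hf v w hG

/-- the kernel of `A` consists of the constants (connectivity of the switch graph) -/
lemma const_of_Af_zero {f : Finset (Edge n) → ℝ} (h : ∀ G ∈ realizations d, Af d f G = 0)
    {G G' : Finset (Edge n)} (hG : G ∈ realizations d) (hG' : G' ∈ realizations d) :
    f G = f G' := by
  have h0 : ip (realizations d) f (Af d f) = 0 :=
    Finset.sum_eq_zero fun G hG => by rw [h G hG, mul_zero]
  rw [ip_f_Af] at h0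
  have h1 : ∀ v w, cc d f v w v w = 0 := by
    have := (Finset.sum_eq_zero_iff_of_nonneg
      (fun v _ => Finset.sum_nonneg fun w _ => cc_self_nonneg d f v w)).mp h0
    intro v w
    exact (Finset.sum_eq_zero_iff_of_nonneg (fun w _ => cc_self_nonneg d f v w)).mp
      (this v (Finset.mem_univ _)) w (Finset.mem_univ _)
  have h2 : ∀ v w, v ≠ w → ∀ G ∈ realizations d, f G = cE (realizations d) (key2 v w) f G := by
    intro v w hvw G hG
    have := eq_zero_of_ip_self (realizations d) (h1 v w) hG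
    rw [U_of_ne d f hvw] at this
    unfold p2 cP at this
    linarith
  apply S0453Conn.const_of_swInv _ hG hG'
  intro G hG a b c e hab hce hac hbe hae hbc e1 e2 e3 e4
  have hF : ({mkE a b hab, mkE c e hce} : Finset (Edge n)) ∈
      pmSet ({a, b, c, e} : Finset (Fin n)) := pm_mem hab hac hae hbc hbe hce
  have hF' : ({mkE a c hac, mkE b e hbe} : Finset (Edge n)) ∈
      pmSet ({a, b, c, e} : Finset (Fin n)) := by
    have : ({a, b, c, e} : Finset (Fin n)) = {a, c, b, e} := by
      ext x; simp only [Finset.mem_insert, Finset.mem_singleton]; tauto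
    rw [this]
    exact pm_mem hac hab hae hbc.symm hce hbe
  have hmem := S0453Red.switchResult_mem hG hF hF'
  unfold switchResult at hmem
  rw [if_pos] at hmem
  swap
  · constructor
    · intro x hx
      rw [Finset.mem_insert, Finset.mem_singleton] at hx
      rcases hx with rfl | rfl
      · exact e1
      · exact e2
    · rw [Finset.disjoint_left]
      intro x hx
      rw [Finset.mem_insert, Finset.mem_singleton] at hx
      rcases hx with rfl | rfl
      · exact e3
      · exact e4
  have hk : key2 a e (G \ {mkE a b hab, mkE c e hce} ∪ {mkE a c hac, mkE b e hbe})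
      = key2 a e G := by
    ext t
    unfold key2
    simp only [Finset.mem_filter, Finset.mem_union, Finset.mem_sdiff, Finset.mem_insert,
      Finset.mem_singleton]
    constructor
    · rintro ⟨h | h, ha, he⟩
      · exact ⟨h.1, ha, he⟩
      · rcases h with rfl | rfl
        · exact absurd ((mem_mkE hac).mpr (Or.inl rfl)) ha
        · exact absurd ((mem_mkE hbe).mpr (Or.inr rfl)) he
    · rintro ⟨h, ha, he⟩
      refine ⟨Or.inl ⟨h, ?_⟩, ha, he⟩
      rintro (rfl | rfl)
      · exact ha ((mem_mkE hab).mpr (Or.inl rfl))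
      · exact he ((mem_mkE hce).mpr (Or.inr rfl))
  rw [h2 a e hae _ hmem, h2 a e hae G hG]
  exact cE_congr _ _ _ hk

/-- extension by zero of a function on the realizations -/
noncomputable def ext0 (f : {G // G ∈ realizations d} → ℝ) : Finset (Edge n) → ℝ :=
  fun G => if h : G ∈ realizations d then f ⟨G, h⟩ else 0

lemma ext0_val (f : {G // G ∈ realizations d} → ℝ) (x : {G // G ∈ realizations d}) :
    ext0 d f x.1 = f x := by
  unfold ext0
  rw [dif_pos x.2]

/-- `A` as a linear operator on the functions on the realizations -/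
noncomputable def Aop :
    ({G // G ∈ realizations d} → ℝ) →ₗ[ℝ] ({G // G ∈ realizations d} → ℝ) where
  toFun f := fun x => Af d (ext0 d f) x.1
  map_add' f g := by
    funext x
    have : ext0 d (f + g) = fun G => ext0 d f G + ext0 d g G := by
      funext G; unfold ext0; split_ifs <;> simp
    simp only [Pi.add_apply]
    rw [this, Af_add]
  map_smul' c f := by
    funext x
    have : ext0 d (c • f) = fun G => c * ext0 d f G := by
      funext G; unfold ext0; split_ifs <;> simp
    simp only [Pi.smul_apply, smul_eq_mul, RingHom.id_apply]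
    rw [this, Af_smul]

lemma Aop_apply (f : {G // G ∈ realizations d} → ℝ) (x : {G // G ∈ realizations d}) :
    Aop d f x = Af d (ext0 d f) x.1 := rfl

lemma sum_eq_ip (F F' : Finset (Edge n) → ℝ) :
    ∑ x : {G // G ∈ realizations d}, F x.1 * F' x.1 = ip (realizations d) F F' :=
  Finset.sum_coe_sort (realizations d) fun G => F G * F' G

lemma dir_nonneg (f : Finset (Edge n) → ℝ) : 0 ≤ S0453Red.dir d f := by
  rw [dir_eq]
  exact Finset.sum_nonneg fun z _ => hh_nonneg d f _ _

/-- **Assembly**: the four interface statements imply the spectral gap. -/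
theorem gap_of_interfaces (h3 : S3 d) (hA : ClaimA d) (hB : ClaimB d) (h4 : G4 d) :
    S0453Red.Gap n d := by
  intro f
  have hsymm : ∀ a b : {G // G ∈ realizations d} → ℝ,
      ∑ x, Aop d a x * b x = ∑ x, a x * Aop d b x := by
    intro a b
    have e1 : ∀ x, Aop d a x * b x = Af d (ext0 d a) x.1 * ext0 d b x.1 := fun x => by
      rw [ext0_val, Aop_apply]
    have e2 : ∀ x, a x * Aop d b x = ext0 d a x.1 * Af d (ext0 d b) x.1 := fun x => by
      rw [ext0_val, Aop_apply]
    simp only [e1, e2]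
    rw [sum_eq_ip, sum_eq_ip, ip_Af_symm]
  have hq : ∀ a : {G // G ∈ realizations d} → ℝ,
      ∑ x, a x * Aop d a x = ip (realizations d) (ext0 d a) (Af d (ext0 d a)) := by
    intro a
    have e2 : ∀ x, a x * Aop d a x = ext0 d a x.1 * Af d (ext0 d a) x.1 := fun x => by
      rw [ext0_val, Aop_apply]
    simp only [e2]
    rw [sum_eq_ip]
  have hpsd : ∀ a : {G // G ∈ realizations d} → ℝ, 0 ≤ ∑ x, a x * Aop d a x := by
    intro a
    rw [hq, ip_f_Af]
    exact Finset.sum_nonneg fun v _ => Finset.sum_nonneg fun w _ => cc_self_nonneg d _ v w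
  have hsq : ∀ a : {G // G ∈ realizations d} → ℝ,
      2 * ∑ x, a x * Aop d a x ≤ ∑ x, Aop d a x * Aop d a x := by
    intro a
    rw [hq]
    simp only [Aop_apply]
    rw [sum_eq_ip]
    exact sq_ge d h3 hA hB _
  have hone : Aop d (fun _ => 1) = 0 := by
    funext x
    rw [Aop_apply]
    exact Af_one d (fun G hG => by unfold ext0; rw [dif_pos hG]) x.2
  have hker : ∀ a : {G // G ∈ realizations d} → ℝ, Aop d a = 0 → ∀ x y, a x = a y := by
    intro a ha x y
    rw [← ext0_val d a x, ← ext0_val d a y]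
    apply const_of_Af_zero d _ x.2 y.2
    intro G hG
    have := congrFun ha ⟨G, hG⟩
    rw [Aop_apply] at this
    exact this
  have main := S0453AbsGap.gap_of_sq_ge (Aop d) 2 hsymm hpsd hsq hone hker (fun x => f x.1)
  have hagree : ∀ G ∈ realizations d, ext0 d (fun x => f x.1) G = f G := by
    intro G hG
    unfold ext0
    rw [dif_pos hG]
  have c1 : ∑ x : {G // G ∈ realizations d}, f x.1 * f x.1 = ∑ G ∈ realizations d, f G ^ 2 := by
    rw [sum_eq_ip]
    exact Finset.sum_congr rfl fun G _ => (sq (f G)).symm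
  have c2 : ∑ x : {G // G ∈ realizations d}, f x.1 = ∑ G ∈ realizations d, f G :=
    Finset.sum_coe_sort (realizations d) f
  have c3 : ∑ x : {G // G ∈ realizations d}, f x.1 * Aop d (fun x => f x.1) x
      = ip (realizations d) f (Af d f) := by
    simp only [Aop_apply]
    rw [sum_eq_ip]
    exact Finset.sum_congr rfl fun G hG => by rw [Af_ext d hagree hG]
  have c4 : (Fintype.card {G // G ∈ realizations d} : ℝ) = ((realizations d).card : ℝ) := by
    rw [Fintype.card_coe]
  rw [c1, c2, c3, c4] at main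
  have hdir := dir_nonneg d f
  have hb : ip (realizations d) f (Af d f) ≤ (n : ℝ) ^ 2 * (S0453Red.dir d f / 4) := by
    rw [ip_f_Af]
    have : ∀ v w, cc d f v w v w ≤ S0453Red.dir d f / 4 := by
      intro v w
      by_cases h : v = w
      · subst h
        rw [cc_z1]; positivity
      · have g4 := h4 v w h f
        have se := sum_En_le d f v w
        unfold cc
        rw [U_of_ne d f h]
        linarith
    calc ∑ v, ∑ w, cc d f v w v w ≤ ∑ _v : Fin n, ∑ _w : Fin n, S0453Red.dir d f / 4 :=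
          Finset.sum_le_sum fun v _ => Finset.sum_le_sum fun w _ => this v w
      _ = (n : ℝ) ^ 2 * (S0453Red.dir d f / 4) := by
          simp only [Finset.sum_const, Finset.card_univ, Fintype.card_fin, nsmul_eq_mul]
          ring
  have hN : (0 : ℝ) ≤ ((realizations d).card : ℝ) := Nat.cast_nonneg _
  have h5 : ((realizations d).card : ℝ) * ip (realizations d) f (Af d f)
      ≤ ((realizations d).card : ℝ) * ((n : ℝ) ^ 2 * (S0453Red.dir d f / 4)) :=
    mul_le_mul_of_nonneg_left hb hN
  have h6 : 0 ≤ (n : ℝ) ^ 2 * ((realizations d).card : ℝ) * S0453Red.dir d f := by positivity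
  nlinarith

end final

end Crest.Agent.S0453Top
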