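import Mathlib
import Crest.Agent.S0453_Core

/-!
# Row 299 (S0453), package P6: abstract localisation / transport lemmas for `cE`, `cP`, `ip`
-/

set_option autoImplicit false
open Finset

namespace Crest.Agent.S0453TripleAbs
open Crest.Agent.S0453Core

variable {α α' β β' γ : Type*} [DecidableEq β] [DecidableEq β'] [DecidableEq γ]

/-- `‖f - E[f|φ]‖²` -/
noncomputable def qv (Ω : Finset α) (φ : α → β) (f : α → ℝ) : ℝ :=
  ip Ω (cP Ω φ f) (cP Ω φ f)

lemma fib_local {Ω : Finset α} {φ : α → β} {κ : α → γ}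
    (href : ∀ x ∈ Ω, ∀ y ∈ Ω, φ x = φ y → κ x = κ y) {x0 x : α} (hx : x ∈ fib Ω κ x0) :
    fib (fib Ω κ x0) φ x = fib Ω φ x := by
  unfold fib at *
  rw [Finset.mem_filter] at hx
  ext y
  simp only [Finset.mem_filter]
  constructor
  · rintro ⟨⟨h1, -⟩, h3⟩; exact ⟨h1, h3⟩
  · rintro ⟨h1, h3⟩
    exact ⟨⟨h1, (href y h1 x hx.1 h3).trans hx.2⟩, h3⟩

lemma cE_local {Ω : Finset α} {φ : α → β} {κ : α → γ}
    (href : ∀ x ∈ Ω, ∀ y ∈ Ω, φ x = φ y → κ x = κ y) (f : α → ℝ) {x0 x : α}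
    (hx : x ∈ fib Ω κ x0) :
    cE (fib Ω κ x0) φ f x = cE Ω φ f x := by
  unfold cE
  rw [fib_local href hx]

/-- the trivial label on a fibre of `κ` gives `cE Ω κ`. -/
lemma cE_unit_fib {Ω : Finset α} {κ : α → γ} (f : α → ℝ) {x0 x : α}
    (hx : x ∈ fib Ω κ x0) :
    cE (fib Ω κ x0) (fun _ => ()) f x = cE Ω κ f x := by
  unfold cE
  have h1 : fib (fib Ω κ x0) (fun _ => ()) x = fib Ω κ x := by
    unfold fib at *
    rw [Finset.mem_filter] at hx
    ext y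
    simp only [Finset.mem_filter, and_true]
    rw [hx.2]
  rw [h1]

/-- to compare two sums over `Ω` it is enough to compare them on every fibre of `κ`. -/
lemma sum_le_sum_of_fib {Ω : Finset α} (κ : α → γ) (A B : α → ℝ)
    (h : ∀ x0 ∈ Ω, ∑ x ∈ fib Ω κ x0, A x ≤ ∑ x ∈ fib Ω κ x0, B x) :
    ∑ x ∈ Ω, A x ≤ ∑ x ∈ Ω, B x := by
  rw [← Finset.sum_fiberwise_of_maps_to (s := Ω) (t := Ω.image κ) (g := κ)
      (fun x hx => Finset.mem_image_of_mem κ hx) A,
    ← Finset.sum_fiberwise_of_maps_to (s := Ω) (t := Ω.image κ) (g := κ)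
      (fun x hx => Finset.mem_image_of_mem κ hx) B]
  apply Finset.sum_le_sum
  intro k hk
  obtain ⟨x0, hx0, rfl⟩ := Finset.mem_image.mp hk
  exact h x0 hx0

/-- `qv` only depends on the values of `f` on `Ω`. -/
lemma cE_congr {Ω : Finset α} {φ : α → β} {f g : α → ℝ} (h : ∀ x ∈ Ω, f x = g x) (x : α) :
    cE Ω φ f x = cE Ω φ g x := by
  unfold cE
  congr 1
  apply Finset.sum_congr rfl
  intro y hy
  exact h y (Finset.mem_filter.mp hy).1

lemma qv_congr {Ω : Finset α} {φ : α → β} {f g : α → ℝ} (h : ∀ x ∈ Ω, f x = g x) :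
    qv Ω φ f = qv Ω φ g := by
  unfold qv ip cP
  apply Finset.sum_congr rfl
  intro x hx
  rw [h x hx, cE_congr h x]

/-- transport of fibres along an injective map matching the labels -/
lemma fib_image [DecidableEq α'] {Φ : Finset α} {e : α → α'} (φ : α → β) (φ' : α' → β')
    (hm : ∀ x ∈ Φ, ∀ y ∈ Φ, φ x = φ y ↔ φ' (e x) = φ' (e y)) {x : α} (hx : x ∈ Φ) :
    fib (Φ.image e) φ' (e x) = (fib Φ φ x).image e := by
  unfold fib
  ext z
  simp only [Finset.mem_filter, Finset.mem_image]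
  constructor
  · rintro ⟨⟨y, hy, rfl⟩, h⟩
    exact ⟨y, ⟨hy, (hm y hy x hx).mpr h⟩, rfl⟩
  · rintro ⟨y, ⟨hy, h⟩, rfl⟩
    exact ⟨⟨y, hy, rfl⟩, (hm y hy x hx).mp h⟩

lemma cE_image [DecidableEq α'] {Φ : Finset α} {e : α → α'} (he : Set.InjOn e Φ)
    (φ : α → β) (φ' : α' → β')
    (hm : ∀ x ∈ Φ, ∀ y ∈ Φ, φ x = φ y ↔ φ' (e x) = φ' (e y)) (g : α' → ℝ) {x : α} (hx : x ∈ Φ) :
    cE (Φ.image e) φ' g (e x) = cE Φ φ (fun y => g (e y)) x := by
  unfold cE
  rw [fib_image φ φ' hm hx]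
  have hinj : Set.InjOn e (fib Φ φ x : Set α) := by
    intro a ha b hb hab
    exact he (Finset.mem_filter.mp ha).1 (Finset.mem_filter.mp hb).1 hab
  rw [Finset.sum_image hinj, Finset.card_image_of_injOn hinj]

lemma qv_image [DecidableEq α'] {Φ : Finset α} {e : α → α'} (he : Set.InjOn e Φ)
    (φ : α → β) (φ' : α' → β')
    (hm : ∀ x ∈ Φ, ∀ y ∈ Φ, φ x = φ y ↔ φ' (e x) = φ' (e y)) (g : α' → ℝ) :
    qv (Φ.image e) φ' g = qv Φ φ (fun y => g (e y)) := by
  unfold qv ip cP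
  rw [Finset.sum_image he]
  apply Finset.sum_congr rfl
  intro x hx
  rw [cE_image he φ φ' hm g hx]

/-- every function on `Φ` is of the form `g ∘ e` on `Φ` when `e` is injective on `Φ`. -/
lemma exists_factor [DecidableEq α'] {Φ : Finset α} {e : α → α'} (he : Set.InjOn e Φ)
    (f : α → ℝ) : ∃ g : α' → ℝ, ∀ x ∈ Φ, g (e x) = f x := by
  refine ⟨fun z => ∑ y ∈ Φ.filter (fun y => e y = z), f y, ?_⟩
  intro x hx
  have : Φ.filter (fun y => e y = e x) = {x} := by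
    ext y
    simp only [Finset.mem_filter, Finset.mem_singleton]
    constructor
    · rintro ⟨hy, h⟩; exact he hy hx h
    · rintro rfl; exact ⟨hx, rfl⟩
  simp only [this, Finset.sum_singleton]

end Crest.Agent.S0453TripleAbs
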