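import Mathlib
import Crest.Prelude.Def_SwitchChain
import Crest.Agent.S0453PM
import Crest.Agent.S0453Conn
import Crest.Agent.S0453_Core
import Crest.Agent.S0453_Defs
import Crest.Agent.S0453_P6Defs

/-!
# Row 299 (S0453), package P6: graph basics in terms of neighbourhoods
-/

set_option autoImplicit false
open Finset

namespace Crest.Agent.S0453TripleG
open Crest.SwitchChain Crest.Agent.S0453PM Crest.Agent.S0453Conn Crest.Agent.S0453Core
  Crest.Agent.S0453Defs Crest.Agent.S0453P6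

variable {n : ℕ}

lemma mkE_mem_iff {G : Finset (Edge n)} {a b : Fin n} (h : a ≠ b) :
    mkE a b h ∈ G ↔ b ∈ nb G a := by
  rw [mem_nb]
  exact ⟨fun he => ⟨h, he⟩, fun ⟨_, he⟩ => he⟩

lemma graph_ext {G G' : Finset (Edge n)} (h : ∀ a b, b ∈ nb G a ↔ b ∈ nb G' a) : G = G' := by
  ext e
  obtain ⟨a, b, hab, rfl⟩ := edge_cases e
  rw [mkE_mem_iff, mkE_mem_iff]
  exact h a b

lemma not_self_mem_nb {G : Finset (Edge n)} {a : Fin n} : a ∉ nb G a := by
  intro h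
  exact (ne_of_mem_nb h) rfl

lemma mem_realizations_iff {d : Fin n → ℕ} {G : Finset (Edge n)} :
    G ∈ realizations d ↔ ∀ v, (nb G v).card = d v := by
  unfold realizations
  simp only [Finset.mem_filter, Finset.mem_univ, true_and, deg_eq_card_nb]

lemma key2_eq_iff {v w : Fin n} {G G' : Finset (Edge n)} :
    key2 v w G = key2 v w G' ↔
      ∀ a b, a ≠ v → a ≠ w → b ≠ v → b ≠ w → (b ∈ nb G a ↔ b ∈ nb G' a) := by
  unfold key2
  constructor
  · intro h a b h1 h2 h3 h4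
    by_cases hab : a = b
    · subst hab
      exact iff_of_false not_self_mem_nb not_self_mem_nb
    · have := Finset.ext_iff.mp h (mkE a b hab)
      simp only [Finset.mem_filter, mem_mkE, mkE_mem_iff] at this
      have hp : (¬(v = a ∨ v = b) ∧ ¬(w = a ∨ w = b)) := by
        refine ⟨?_, ?_⟩ <;> rintro (h | h) <;> simp_all
      simpa [hp] using this
  · intro h
    ext e
    obtain ⟨a, b, hab, rfl⟩ := edge_cases e
    simp only [Finset.mem_filter, mem_mkE, mkE_mem_iff, not_or]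
    constructor
    · rintro ⟨h1, ⟨h2, h3⟩, h4, h5⟩
      exact ⟨(h a b (Ne.symm h2) (Ne.symm h4) (Ne.symm h3) (Ne.symm h5)).mp h1, ⟨h2, h3⟩, h4, h5⟩
    · rintro ⟨h1, ⟨h2, h3⟩, h4, h5⟩
      exact ⟨(h a b (Ne.symm h2) (Ne.symm h4) (Ne.symm h3) (Ne.symm h5)).mpr h1, ⟨h2, h3⟩, h4, h5⟩

lemma key3_eq_iff {u v w : Fin n} {G G' : Finset (Edge n)} :
    key3 u v w G = key3 u v w G' ↔
      ∀ a b, a ≠ u → a ≠ v → a ≠ w → b ≠ u → b ≠ v → b ≠ w → (b ∈ nb G a ↔ b ∈ nb G' a) := by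
  unfold key3
  constructor
  · intro h a b h1 h2 h3 h4 h5 h6
    by_cases hab : a = b
    · subst hab
      exact iff_of_false not_self_mem_nb not_self_mem_nb
    · have := Finset.ext_iff.mp h (mkE a b hab)
      simp only [Finset.mem_filter, mem_mkE, mkE_mem_iff] at this
      have hp : (¬(u = a ∨ u = b) ∧ ¬(v = a ∨ v = b) ∧ ¬(w = a ∨ w = b)) := by
        refine ⟨?_, ?_, ?_⟩ <;> rintro (h | h) <;> simp_all
      simpa [hp] using this
  · intro h
    ext e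
    obtain ⟨a, b, hab, rfl⟩ := edge_cases e
    simp only [Finset.mem_filter, mem_mkE, mkE_mem_iff, not_or]
    constructor
    · rintro ⟨h1, ⟨h2, h3⟩, ⟨h4, h5⟩, h6, h7⟩
      exact ⟨(h a b (Ne.symm h2) (Ne.symm h4) (Ne.symm h6) (Ne.symm h3) (Ne.symm h5)
        (Ne.symm h7)).mp h1, ⟨h2, h3⟩, ⟨h4, h5⟩, h6, h7⟩
    · rintro ⟨h1, ⟨h2, h3⟩, ⟨h4, h5⟩, h6, h7⟩
      exact ⟨(h a b (Ne.symm h2) (Ne.symm h4) (Ne.symm h6) (Ne.symm h3) (Ne.symm h5)
        (Ne.symm h7)).mpr h1, ⟨h2, h3⟩, ⟨h4, h5⟩, h6, h7⟩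

/-- the graph of a relation -/
def ofRel (r : Fin n → Fin n → Prop) [DecidableRel r] : Finset (Edge n) :=
  univ.filter (fun e => ∃ a b, e.1 = s(a, b) ∧ r a b)

lemma mem_nb_ofRel {r : Fin n → Fin n → Prop} [DecidableRel r] (hs : ∀ a b, r a b → r b a)
    {a b : Fin n} : b ∈ nb (ofRel r) a ↔ a ≠ b ∧ r a b := by
  rw [mem_nb]
  constructor
  · rintro ⟨h, he⟩
    refine ⟨h, ?_⟩
    unfold ofRel at he
    rw [Finset.mem_filter] at he
    obtain ⟨-, a', b', h1, h2⟩ := he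
    have h3 : s(a, b) = s(a', b') := h1
    rw [Sym2.eq_iff] at h3
    rcases h3 with ⟨rfl, rfl⟩ | ⟨rfl, rfl⟩
    · exact h2
    · exact hs _ _ h2
  · rintro ⟨h, hr⟩
    refine ⟨h, ?_⟩
    unfold ofRel
    rw [Finset.mem_filter]
    exact ⟨Finset.mem_univ _, a, b, rfl, hr⟩

end Crest.Agent.S0453TripleG
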