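import Mathlib
import Crest.Prelude.Def_SwitchChain
import Crest.Agent.S0453PM
import Crest.Agent.S0453Conn
import Crest.Agent.S0453_Core
import Crest.Agent.S0453_Defs
import Crest.Agent.S0453_P6Defs
import Crest.Agent.S0453_TripleG

/-!
# Row 299 (S0453), package P6: the three rows of a vertex triple
-/

set_option autoImplicit false
open Finset

namespace Crest.Agent.S0453TripleR
open Crest.SwitchChain Crest.Agent.S0453PM Crest.Agent.S0453Conn Crest.Agent.S0453Core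
  Crest.Agent.S0453Defs Crest.Agent.S0453P6 Crest.Agent.S0453TripleG

variable {n : ℕ}

/-- external neighbourhood of `a` (the other cluster vertices are `b`, `c`) -/
def ext3 (G : Finset (Edge n)) (a b c : Fin n) : Finset (Fin n) :=
  (nb G a).filter (fun z => z ≠ b ∧ z ≠ c)

/-- the row of `a`: external neighbours, plus the extra column `none` iff the opposite inner slot
`bc` is absent -/
def rowOf (G : Finset (Edge n)) (a b c : Fin n) : Finset (Option (Fin n)) :=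
  if c ∈ nb G b then (ext3 G a b c).map Function.Embedding.some else insertNone (ext3 G a b c)

lemma some_mem_rowOf {G : Finset (Edge n)} {a b c z : Fin n} :
    some z ∈ rowOf G a b c ↔ z ∈ nb G a ∧ z ≠ b ∧ z ≠ c := by
  unfold rowOf ext3
  split_ifs <;> simp

lemma none_mem_rowOf {G : Finset (Edge n)} {a b c : Fin n} :
    none ∈ rowOf G a b c ↔ c ∉ nb G b := by
  unfold rowOf
  split_ifs with h <;> simp [h]

lemma card_rowOf (G : Finset (Edge n)) (a b c : Fin n) :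
    (rowOf G a b c).card = (ext3 G a b c).card + (if c ∈ nb G b then 0 else 1) := by
  unfold rowOf
  split_ifs <;> simp

/-- the three rows -/
def rows (u v w : Fin n) (G : Finset (Edge n)) : Fin 3 → Finset (Option (Fin n)) :=
  ![rowOf G u v w, rowOf G v u w, rowOf G w u v]

lemma card_split (S T : Finset (Fin n)) :
    S.card = (S.filter (fun x => x ∉ T)).card + ∑ x ∈ T, (if x ∈ S then 1 else 0) := by
  rw [← Finset.card_filter]
  have h1 : T.filter (fun x => x ∈ S) = S.filter (fun x => x ∈ T) := by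
    ext x; simp only [Finset.mem_filter]; tauto
  rw [h1, add_comm]
  exact (Finset.card_filter_add_card_filter_not (s := S) (fun x => x ∈ T)).symm

lemma card_nb_ext3 (G : Finset (Edge n)) {a b c : Fin n} (hbc : b ≠ c) :
    (nb G a).card = (ext3 G a b c).card + (if b ∈ nb G a then 1 else 0)
      + (if c ∈ nb G a then 1 else 0) := by
  rw [card_split (nb G a) {b, c}, Finset.sum_pair hbc, add_assoc]
  congr 2
  unfold ext3
  apply Finset.filter_congr
  intro x _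
  simp

lemma card_nb_out (G : Finset (Edge n)) {u v w : Fin n} (huv : u ≠ v) (huw : u ≠ w) (hvw : v ≠ w)
    (z : Fin n) :
    (nb G z).card = ((nb G z).filter (fun x => x ≠ u ∧ x ≠ v ∧ x ≠ w)).card
      + ((if u ∈ nb G z then 1 else 0) + (if v ∈ nb G z then 1 else 0)
        + (if w ∈ nb G z then 1 else 0)) := by
  rw [card_split (nb G z) {u, v, w}, Finset.sum_insert (by simp [huv, huw]), Finset.sum_pair hvw,
    add_assoc]
  congr 2
  apply Finset.filter_congr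
  intro x _
  simp

/-- column sums -/
def colsum {J : Type} [DecidableEq J] (R : Fin 3 → Finset J) (j : J) : ℕ :=
  (univ.filter (fun i => j ∈ R i)).card

lemma colsum_eq {J : Type} [DecidableEq J] (R : Fin 3 → Finset J) (j : J) :
    colsum R j = (if j ∈ R 0 then 1 else 0) + (if j ∈ R 1 then 1 else 0)
      + (if j ∈ R 2 then 1 else 0) := by
  unfold colsum
  rw [Finset.card_filter, Fin.sum_univ_three]

lemma double_count {J : Type} [Fintype J] [DecidableEq J] (R : Fin 3 → Finset J) :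
    ∑ i, (R i).card = ∑ j, colsum R j := by
  unfold colsum
  simp_rw [Finset.card_filter]
  rw [Finset.sum_comm]
  apply Finset.sum_congr rfl
  intro i _
  rw [← Finset.card_filter]
  congr 1
  ext j; simp

/-- number of inner edges -/
def inn (u v w : Fin n) (G : Finset (Edge n)) : ℕ :=
  (if v ∈ nb G u then 1 else 0) + (if w ∈ nb G u then 1 else 0) + (if w ∈ nb G v then 1 else 0)

lemma row_facts (G : Finset (Edge n)) {u v w : Fin n} (huv : u ≠ v) (huw : u ≠ w) (hvw : v ≠ w) :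
    (rows u v w G 0).card + inn u v w G = (nb G u).card + 1 ∧
    (rows u v w G 1).card + inn u v w G = (nb G v).card + 1 ∧
    (rows u v w G 2).card + inn u v w G = (nb G w).card + 1 ∧
    colsum (rows u v w G) none + inn u v w G = 3 := by
  have e0 : rows u v w G 0 = rowOf G u v w := rfl
  have e1 : rows u v w G 1 = rowOf G v u w := rfl
  have e2 : rows u v w G 2 = rowOf G w u v := rfl
  rw [colsum_eq, e0, e1, e2, card_rowOf, card_rowOf, card_rowOf, card_nb_ext3 G hvw (a := u),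
    card_nb_ext3 G huw (a := v), card_nb_ext3 G huv (a := w)]
  simp only [none_mem_rowOf]
  unfold inn
  have s1 : u ∈ nb G v ↔ v ∈ nb G u := nb_symm
  have s2 : u ∈ nb G w ↔ w ∈ nb G u := nb_symm
  have s3 : v ∈ nb G w ↔ w ∈ nb G v := nb_symm
  simp only [s1, s2, s3]
  by_cases h1 : v ∈ nb G u <;> by_cases h2 : w ∈ nb G u <;> by_cases h3 : w ∈ nb G v <;>
    simp [h1, h2, h3]

lemma colsum_some_in (G : Finset (Edge n)) {u v w z : Fin n} (hz : z = u ∨ z = v ∨ z = w) :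
    colsum (rows u v w G) (some z) = 0 := by
  have e0 : rows u v w G 0 = rowOf G u v w := rfl
  have e1 : rows u v w G 1 = rowOf G v u w := rfl
  have e2 : rows u v w G 2 = rowOf G w u v := rfl
  rw [colsum_eq, e0, e1, e2]
  simp only [some_mem_rowOf]
  rcases hz with rfl | rfl | rfl <;> simp [not_self_mem_nb]

lemma colsum_some_out (G : Finset (Edge n)) {u v w z : Fin n} (h1 : z ≠ u) (h2 : z ≠ v)
    (h3 : z ≠ w) :
    colsum (rows u v w G) (some z) = (if u ∈ nb G z then 1 else 0) + (if v ∈ nb G z then 1 else 0)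
        + (if w ∈ nb G z then 1 else 0) := by
  have e0 : rows u v w G 0 = rowOf G u v w := rfl
  have e1 : rows u v w G 1 = rowOf G v u w := rfl
  have e2 : rows u v w G 2 = rowOf G w u v := rfl
  rw [colsum_eq, e0, e1, e2]
  simp only [some_mem_rowOf]
  have s1 : z ∈ nb G u ↔ u ∈ nb G z := nb_symm
  have s2 : z ∈ nb G v ↔ v ∈ nb G z := nb_symm
  have s3 : z ∈ nb G w ↔ w ∈ nb G z := nb_symm
  simp only [s1, s2, s3, h1, h2, h3, ne_eq, not_false_eq_true, and_true]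


/-! ### the graph of three rows -/

/-- adjacency relation of the graph with outer part `G0` and rows `R` -/
def relOf (G0 : Finset (Edge n)) (u v w : Fin n) (R : Fin 3 → Finset (Option (Fin n)))
    (a b : Fin n) : Prop :=
  ((a ≠ u ∧ a ≠ v ∧ a ≠ w) ∧ (b ≠ u ∧ b ≠ v ∧ b ≠ w) ∧ b ∈ nb G0 a)
  ∨ (a = u ∧ some b ∈ R 0) ∨ (b = u ∧ some a ∈ R 0)
  ∨ (a = v ∧ some b ∈ R 1) ∨ (b = v ∧ some a ∈ R 1)
  ∨ (a = w ∧ some b ∈ R 2) ∨ (b = w ∧ some a ∈ R 2)
  ∨ (none ∉ R 0 ∧ ((a = v ∧ b = w) ∨ (a = w ∧ b = v)))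
  ∨ (none ∉ R 1 ∧ ((a = u ∧ b = w) ∨ (a = w ∧ b = u)))
  ∨ (none ∉ R 2 ∧ ((a = u ∧ b = v) ∨ (a = v ∧ b = u)))

instance (G0 : Finset (Edge n)) (u v w : Fin n) (R : Fin 3 → Finset (Option (Fin n))) :
    DecidableRel (relOf G0 u v w R) := fun a b => by unfold relOf; infer_instance

lemma relOf_symm (G0 : Finset (Edge n)) (u v w : Fin n) (R : Fin 3 → Finset (Option (Fin n)))
    (a b : Fin n) (h : relOf G0 u v w R a b) : relOf G0 u v w R b a := by
  unfold relOf at *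
  rcases h with ⟨h1, h2, h3⟩ | h | h | h | h | h | h | ⟨h0, h | h⟩ | ⟨h0, h | h⟩ | ⟨h0, h | h⟩
  · exact Or.inl ⟨h2, h1, nb_symm.mp h3⟩
  · exact Or.inr (Or.inr (Or.inl h))
  · exact Or.inr (Or.inl h)
  · exact Or.inr (Or.inr (Or.inr (Or.inr (Or.inl h))))
  · exact Or.inr (Or.inr (Or.inr (Or.inl h)))
  · exact Or.inr (Or.inr (Or.inr (Or.inr (Or.inr (Or.inr (Or.inl h))))))
  · exact Or.inr (Or.inr (Or.inr (Or.inr (Or.inr (Or.inl h)))))
  · exact Or.inr (Or.inr (Or.inr (Or.inr (Or.inr (Or.inr (Or.inr (Or.inl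
      ⟨h0, Or.inr ⟨h.2, h.1⟩⟩)))))))
  · exact Or.inr (Or.inr (Or.inr (Or.inr (Or.inr (Or.inr (Or.inr (Or.inl
      ⟨h0, Or.inl ⟨h.2, h.1⟩⟩)))))))
  · exact Or.inr (Or.inr (Or.inr (Or.inr (Or.inr (Or.inr (Or.inr (Or.inr (Or.inl
      ⟨h0, Or.inr ⟨h.2, h.1⟩⟩))))))))
  · exact Or.inr (Or.inr (Or.inr (Or.inr (Or.inr (Or.inr (Or.inr (Or.inr (Or.inl
      ⟨h0, Or.inl ⟨h.2, h.1⟩⟩))))))))
  · exact Or.inr (Or.inr (Or.inr (Or.inr (Or.inr (Or.inr (Or.inr (Or.inr (Or.inr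
      ⟨h0, Or.inr ⟨h.2, h.1⟩⟩))))))))
  · exact Or.inr (Or.inr (Or.inr (Or.inr (Or.inr (Or.inr (Or.inr (Or.inr (Or.inr
      ⟨h0, Or.inl ⟨h.2, h.1⟩⟩))))))))

/-- the graph with outer part `G0` and rows `R` -/
def graphOf (G0 : Finset (Edge n)) (u v w : Fin n) (R : Fin 3 → Finset (Option (Fin n))) :
    Finset (Edge n) := ofRel (relOf G0 u v w R)

lemma mem_nb_graphOf {G0 : Finset (Edge n)} {u v w : Fin n}
    {R : Fin 3 → Finset (Option (Fin n))} {a b : Fin n} :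
    b ∈ nb (graphOf G0 u v w R) a ↔ a ≠ b ∧ relOf G0 u v w R a b :=
  mem_nb_ofRel (relOf_symm G0 u v w R)

section
variable {G0 : Finset (Edge n)} {u v w : Fin n} {R : Fin 3 → Finset (Option (Fin n))}

lemma g_out {a b : Fin n} (ha : a ≠ u ∧ a ≠ v ∧ a ≠ w) (hb : b ≠ u ∧ b ≠ v ∧ b ≠ w) :
    b ∈ nb (graphOf G0 u v w R) a ↔ b ∈ nb G0 a := by
  rw [mem_nb_graphOf]
  unfold relOf
  obtain ⟨a1, a2, a3⟩ := ha
  obtain ⟨b1, b2, b3⟩ := hb
  simp only [a1, a2, a3, b1, b2, b3, ne_eq, not_false_eq_true, and_self, true_and, false_and,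
    and_false, or_false, or_self]
  constructor
  · rintro ⟨-, h⟩; exact h
  · intro h; exact ⟨ne_of_mem_nb h, h⟩

lemma g_u (huv : u ≠ v) (huw : u ≠ w) {z : Fin n} (hz : z ≠ u ∧ z ≠ v ∧ z ≠ w) :
    z ∈ nb (graphOf G0 u v w R) u ↔ some z ∈ R 0 := by
  rw [mem_nb_graphOf]
  unfold relOf
  obtain ⟨b1, b2, b3⟩ := hz
  simp [b1, b2, b3, huv, huw, Ne.symm b1]

lemma g_v (huv : u ≠ v) (hvw : v ≠ w) {z : Fin n} (hz : z ≠ u ∧ z ≠ v ∧ z ≠ w) :
    z ∈ nb (graphOf G0 u v w R) v ↔ some z ∈ R 1 := by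
  rw [mem_nb_graphOf]
  unfold relOf
  obtain ⟨b1, b2, b3⟩ := hz
  simp [b1, b2, b3, huv.symm, hvw, Ne.symm b2]

lemma g_w (huw : u ≠ w) (hvw : v ≠ w) {z : Fin n} (hz : z ≠ u ∧ z ≠ v ∧ z ≠ w) :
    z ∈ nb (graphOf G0 u v w R) w ↔ some z ∈ R 2 := by
  rw [mem_nb_graphOf]
  unfold relOf
  obtain ⟨b1, b2, b3⟩ := hz
  simp [b1, b2, b3, huw.symm, hvw.symm, Ne.symm b3]

lemma g_vw (huv : u ≠ v) (huw : u ≠ w) (hvw : v ≠ w)
    (hR : ∀ i z, some z ∈ R i → z ≠ u ∧ z ≠ v ∧ z ≠ w) :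
    w ∈ nb (graphOf G0 u v w R) v ↔ none ∉ R 0 := by
  rw [mem_nb_graphOf]
  unfold relOf
  have h1 : some w ∉ R 1 := fun h => (hR 1 w h).2.2 rfl
  have h2 : some v ∉ R 2 := fun h => (hR 2 v h).2.1 rfl
  simp [huv, huw, hvw, huv.symm, huw.symm, hvw.symm, h1, h2]

lemma g_uw (huv : u ≠ v) (huw : u ≠ w) (hvw : v ≠ w)
    (hR : ∀ i z, some z ∈ R i → z ≠ u ∧ z ≠ v ∧ z ≠ w) :
    w ∈ nb (graphOf G0 u v w R) u ↔ none ∉ R 1 := by
  rw [mem_nb_graphOf]
  unfold relOf
  have h1 : some w ∉ R 0 := fun h => (hR 0 w h).2.2 rfl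
  have h2 : some u ∉ R 2 := fun h => (hR 2 u h).1 rfl
  simp [huv, huw, hvw, huv.symm, huw.symm, hvw.symm, h1, h2]

lemma g_uv (huv : u ≠ v) (huw : u ≠ w) (hvw : v ≠ w)
    (hR : ∀ i z, some z ∈ R i → z ≠ u ∧ z ≠ v ∧ z ≠ w) :
    v ∈ nb (graphOf G0 u v w R) u ↔ none ∉ R 2 := by
  rw [mem_nb_graphOf]
  unfold relOf
  have h1 : some v ∉ R 0 := fun h => (hR 0 v h).2.1 rfl
  have h2 : some u ∉ R 1 := fun h => (hR 1 u h).1 rfl
  simp [huv, huw, hvw, huv.symm, huw.symm, hvw.symm, h1, h2]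

lemma rows_graphOf (huv : u ≠ v) (huw : u ≠ w) (hvw : v ≠ w)
    (hR : ∀ i z, some z ∈ R i → z ≠ u ∧ z ≠ v ∧ z ≠ w) :
    rows u v w (graphOf G0 u v w R) = R := by
  funext i
  fin_cases i
  · show rowOf (graphOf G0 u v w R) u v w = R 0
    ext j
    cases j with
    | none => rw [none_mem_rowOf, g_vw huv huw hvw hR, not_not]
    | some z =>
      rw [some_mem_rowOf]
      constructor
      · rintro ⟨h1, h2, h3⟩
        exact (g_u huv huw ⟨(ne_of_mem_nb h1).symm, h2, h3⟩).mp h1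
      · intro h
        have hz := hR 0 z h
        exact ⟨(g_u huv huw hz).mpr h, hz.2.1, hz.2.2⟩
  · show rowOf (graphOf G0 u v w R) v u w = R 1
    ext j
    cases j with
    | none => rw [none_mem_rowOf, g_uw huv huw hvw hR, not_not]
    | some z =>
      rw [some_mem_rowOf]
      constructor
      · rintro ⟨h1, h2, h3⟩
        exact (g_v huv hvw ⟨h2, (ne_of_mem_nb h1).symm, h3⟩).mp h1
      · intro h
        have hz := hR 1 z h
        exact ⟨(g_v huv hvw hz).mpr h, hz.1, hz.2.2⟩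
  · show rowOf (graphOf G0 u v w R) w u v = R 2
    ext j
    cases j with
    | none => rw [none_mem_rowOf, g_uv huv huw hvw hR, not_not]
    | some z =>
      rw [some_mem_rowOf]
      constructor
      · rintro ⟨h1, h2, h3⟩
        exact (g_w huw hvw ⟨h2, h3, (ne_of_mem_nb h1).symm⟩).mp h1
      · intro h
        have hz := hR 2 z h
        exact ⟨(g_w huw hvw hz).mpr h, hz.1, hz.2.1⟩

lemma key3_graphOf : key3 u v w (graphOf G0 u v w R) = key3 u v w G0 := by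
  rw [key3_eq_iff]
  intro a b h1 h2 h3 h4 h5 h6
  exact g_out ⟨h1, h2, h3⟩ ⟨h4, h5, h6⟩

end

end Crest.Agent.S0453TripleR
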