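import Mathlib
import Crest.Prelude.Def_SwitchChain
import Crest.Agent.S0453PM
import Crest.Agent.S0453Conn
import Crest.Agent.S0453_Core
import Crest.Agent.S0453_Defs
import Crest.Agent.S0453_P6Defs
import Crest.Agent.S0453_TripleAbs
import Crest.Agent.S0453_TripleG
import Crest.Agent.S0453_TripleR

/-!
# Row 299 (S0453), package P6: `K3Rows → P3 d`
(the cluster of a vertex triple is a three-row ensemble with one extra column)
-/

set_option autoImplicit false
open Finset

namespace Crest.Agent.S0453Triple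
open Crest.SwitchChain Crest.Agent.S0453PM Crest.Agent.S0453Conn Crest.Agent.S0453Core
  Crest.Agent.S0453Defs Crest.Agent.S0453P6 Crest.Agent.S0453TripleAbs Crest.Agent.S0453TripleG
  Crest.Agent.S0453TripleR

variable {n : ℕ}

section
variable {d : Fin n → ℕ} {u v w : Fin n} {G G0 : Finset (Edge n)}

lemma out_filter_eq (hk : key3 u v w G = key3 u v w G0) {z : Fin n}
    (hz : z ≠ u ∧ z ≠ v ∧ z ≠ w) :
    (nb G z).filter (fun x => x ≠ u ∧ x ≠ v ∧ x ≠ w)
      = (nb G0 z).filter (fun x => x ≠ u ∧ x ≠ v ∧ x ≠ w) := by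
  rw [key3_eq_iff] at hk
  ext x
  simp only [Finset.mem_filter]
  constructor
  · rintro ⟨h, h1, h2, h3⟩
    exact ⟨(hk z x hz.1 hz.2.1 hz.2.2 h1 h2 h3).mp h, h1, h2, h3⟩
  · rintro ⟨h, h1, h2, h3⟩
    exact ⟨(hk z x hz.1 hz.2.1 hz.2.2 h1 h2 h3).mpr h, h1, h2, h3⟩

lemma colsum_some_eq (huv : u ≠ v) (huw : u ≠ w) (hvw : v ≠ w)
    (hk : key3 u v w G = key3 u v w G0) (z : Fin n) (hc : (nb G z).card = (nb G0 z).card) :
    colsum (rows u v w G) (some z) = colsum (rows u v w G0) (some z) := by
  by_cases hz : z = u ∨ z = v ∨ z = w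
  · rw [colsum_some_in G hz, colsum_some_in G0 hz]
  · push Not at hz
    rw [colsum_some_out G hz.1 hz.2.1 hz.2.2, colsum_some_out G0 hz.1 hz.2.1 hz.2.2]
    have h1 := card_nb_out G huv huw hvw z
    have h2 := card_nb_out G0 huv huw hvw z
    rw [out_filter_eq hk hz] at h1
    omega

lemma inn_eq (huv : u ≠ v) (huw : u ≠ w) (hvw : v ≠ w)
    (hk : key3 u v w G = key3 u v w G0) (hc : ∀ z, (nb G z).card = (nb G0 z).card) :
    inn u v w G = inn u v w G0 := by
  have h1 := double_count (rows u v w G)
  have h2 := double_count (rows u v w G0)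
  rw [Fin.sum_univ_three, Fintype.sum_option] at h1 h2
  have h3 : ∑ z, colsum (rows u v w G) (some z) = ∑ z, colsum (rows u v w G0) (some z) :=
    Finset.sum_congr rfl (fun z _ => colsum_some_eq huv huw hvw hk z (hc z))
  obtain ⟨a1, a2, a3, a4⟩ := row_facts G huv huw hvw
  obtain ⟨b1, b2, b3, b4⟩ := row_facts G0 huv huw hvw
  have c1 := hc u
  have c2 := hc v
  have c3 := hc w
  omega

/-- the ensemble attached to the fibre of `G0` -/
def ens (u v w : Fin n) (G0 : Finset (Edge n)) : Finset (Fin 3 → Finset (Option (Fin n))) :=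
  rows3 (fun i => (rows u v w G0 i).card) (fun j => colsum (rows u v w G0) j)

lemma mem_ens {R : Fin 3 → Finset (Option (Fin n))} :
    R ∈ ens u v w G0 ↔ (∀ i, (R i).card = (rows u v w G0 i).card) ∧
      ∀ j, colsum R j = colsum (rows u v w G0) j := by
  unfold ens rows3 colsum
  simp only [Finset.mem_filter, Finset.mem_univ, true_and]

lemma rows_mem_ens (huv : u ≠ v) (huw : u ≠ w) (hvw : v ≠ w)
    (hk : key3 u v w G = key3 u v w G0) (hc : ∀ z, (nb G z).card = (nb G0 z).card) :
    rows u v w G ∈ ens u v w G0 := by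
  rw [mem_ens]
  have hi := inn_eq huv huw hvw hk hc
  obtain ⟨a1, a2, a3, a4⟩ := row_facts G huv huw hvw
  obtain ⟨b1, b2, b3, b4⟩ := row_facts G0 huv huw hvw
  have c1 := hc u
  have c2 := hc v
  have c3 := hc w
  constructor
  · intro i
    fin_cases i
    · show (rows u v w G 0).card = (rows u v w G0 0).card
      omega
    · show (rows u v w G 1).card = (rows u v w G0 1).card
      omega
    · show (rows u v w G 2).card = (rows u v w G0 2).card
      omega
  · intro j
    cases j with
    | none => omega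
    | some z => exact colsum_some_eq huv huw hvw hk z (hc z)

lemma ens_avoid {R : Fin 3 → Finset (Option (Fin n))} (hR : R ∈ ens u v w G0) :
    ∀ i z, some z ∈ R i → z ≠ u ∧ z ≠ v ∧ z ≠ w := by
  intro i z hz
  by_contra hcon
  have hz' : z = u ∨ z = v ∨ z = w := by
    by_contra h
    push Not at h
    exact hcon h
  have h1 := (mem_ens.mp hR).2 (some z)
  rw [colsum_some_in G0 hz'] at h1
  unfold colsum at h1
  rw [Finset.card_eq_zero] at h1
  have : i ∈ univ.filter (fun i => some z ∈ R i) := by simp [hz]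
  rw [h1] at this
  simp at this

lemma graphOf_card (huv : u ≠ v) (huw : u ≠ w) (hvw : v ≠ w)
    {R : Fin 3 → Finset (Option (Fin n))} (hR : R ∈ ens u v w G0) (z : Fin n) :
    (nb (graphOf G0 u v w R) z).card = (nb G0 z).card := by
  have hav := ens_avoid hR
  have hrows := rows_graphOf (G0 := G0) huv huw hvw hav
  obtain ⟨a1, a2, a3, a4⟩ := row_facts (graphOf G0 u v w R) huv huw hvw
  obtain ⟨b1, b2, b3, b4⟩ := row_facts G0 huv huw hvw
  rw [hrows] at a1 a2 a3 a4
  obtain ⟨r, c⟩ := mem_ens.mp hR
  have r0 := r 0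
  have r1 := r 1
  have r2 := r 2
  have cn := c none
  by_cases hz : z = u ∨ z = v ∨ z = w
  · rcases hz with rfl | rfl | rfl <;> omega
  · push Not at hz
    have h1 := card_nb_out (graphOf G0 u v w R) huv huw hvw z
    have h2 := card_nb_out G0 huv huw hvw z
    rw [out_filter_eq key3_graphOf hz] at h1
    have h3 := colsum_some_out (graphOf G0 u v w R) hz.1 hz.2.1 hz.2.2
    have h4 := colsum_some_out G0 hz.1 hz.2.1 hz.2.2
    rw [hrows] at h3
    have h5 := c (some z)
    omega

lemma nb_iff_of_rows (hk : key3 u v w G = key3 u v w G0)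
    (hr : rows u v w G = rows u v w G0) (a b : Fin n) : b ∈ nb G a ↔ b ∈ nb G0 a := by
  have r0 : rowOf G u v w = rowOf G0 u v w := congrFun hr 0
  have r1 : rowOf G v u w = rowOf G0 v u w := congrFun hr 1
  have r2 : rowOf G w u v = rowOf G0 w u v := congrFun hr 2
  have Ivw : w ∈ nb G v ↔ w ∈ nb G0 v := by
    have := Finset.ext_iff.mp r0 none
    rw [none_mem_rowOf, none_mem_rowOf] at this
    exact not_iff_not.mp this
  have Iuw : w ∈ nb G u ↔ w ∈ nb G0 u := by
    have := Finset.ext_iff.mp r1 none
    rw [none_mem_rowOf, none_mem_rowOf] at this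
    exact not_iff_not.mp this
  have Iuv : v ∈ nb G u ↔ v ∈ nb G0 u := by
    have := Finset.ext_iff.mp r2 none
    rw [none_mem_rowOf, none_mem_rowOf] at this
    exact not_iff_not.mp this
  have Au : ∀ z, z ∈ nb G u ↔ z ∈ nb G0 u := by
    intro z
    by_cases h1 : z = v
    · subst h1; exact Iuv
    by_cases h2 : z = w
    · subst h2; exact Iuw
    have := Finset.ext_iff.mp r0 (some z)
    rw [some_mem_rowOf, some_mem_rowOf] at this
    simpa [h1, h2] using this
  have Av : ∀ z, z ∈ nb G v ↔ z ∈ nb G0 v := by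
    intro z
    by_cases h1 : z = u
    · subst h1; rw [nb_symm, Iuv, nb_symm]
    by_cases h2 : z = w
    · subst h2; exact Ivw
    have := Finset.ext_iff.mp r1 (some z)
    rw [some_mem_rowOf, some_mem_rowOf] at this
    simpa [h1, h2] using this
  have Aw : ∀ z, z ∈ nb G w ↔ z ∈ nb G0 w := by
    intro z
    by_cases h1 : z = u
    · subst h1; rw [nb_symm, Iuw, nb_symm]
    by_cases h2 : z = v
    · subst h2; rw [nb_symm, Ivw, nb_symm]
    have := Finset.ext_iff.mp r2 (some z)
    rw [some_mem_rowOf, some_mem_rowOf] at this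
    simpa [h1, h2] using this
  by_cases a1 : a = u
  · subst a1; exact Au b
  by_cases a2 : a = v
  · subst a2; exact Av b
  by_cases a3 : a = w
  · subst a3; exact Aw b
  by_cases b1 : b = u
  · subst b1; rw [nb_symm, Au, nb_symm]
  by_cases b2 : b = v
  · subst b2; rw [nb_symm, Av, nb_symm]
  by_cases b3 : b = w
  · subst b3; rw [nb_symm, Aw, nb_symm]
  exact (key3_eq_iff.mp hk) a b a1 a2 a3 b1 b2 b3

end

/-- matching of the labels: `key2 b c` versus the row of `a` -/
lemma key2_iff_row {G G' : Finset (Edge n)} {a b c : Fin n} (hab : a ≠ b) (hac : a ≠ c)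
    (hk : ∀ x y, x ≠ a → x ≠ b → x ≠ c → y ≠ a → y ≠ b → y ≠ c → (y ∈ nb G x ↔ y ∈ nb G' x))
    (hcard : (rowOf G a b c).card = (rowOf G' a b c).card) :
    key2 b c G = key2 b c G' ↔ rowOf G a b c = rowOf G' a b c := by
  constructor
  · intro h
    rw [key2_eq_iff] at h
    have he : ext3 G a b c = ext3 G' a b c := by
      unfold ext3
      ext z
      simp only [Finset.mem_filter]
      constructor
      · rintro ⟨h1, h2, h3⟩; exact ⟨(h a z hab hac h2 h3).mp h1, h2, h3⟩
      · rintro ⟨h1, h2, h3⟩; exact ⟨(h a z hab hac h2 h3).mpr h1, h2, h3⟩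
    rw [card_rowOf, card_rowOf, he] at hcard
    unfold rowOf
    rw [he]
    by_cases h1 : c ∈ nb G b <;> by_cases h2 : c ∈ nb G' b <;> simp [h1, h2] at hcard ⊢
  · intro h
    rw [key2_eq_iff]
    have A : ∀ z, z ≠ b → z ≠ c → (z ∈ nb G a ↔ z ∈ nb G' a) := by
      intro z h1 h2
      have := Finset.ext_iff.mp h (some z)
      rw [some_mem_rowOf, some_mem_rowOf] at this
      simpa [h1, h2] using this
    intro x y hx1 hx2 hy1 hy2
    by_cases hxa : x = a
    · subst hxa; exact A y hy1 hy2
    by_cases hya : y = a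
    · subst hya; rw [nb_symm, A x hx1 hx2, nb_symm]
    exact hk x y hxa hx1 hx2 hya hy1 hy2

lemma key2_refines_key3 {u v w a b : Fin n} (ha : a = u ∨ a = v ∨ a = w)
    (hb : b = u ∨ b = v ∨ b = w) {G G' : Finset (Edge n)} (h : key2 a b G = key2 a b G') :
    key3 u v w G = key3 u v w G' := by
  rw [key2_eq_iff] at h
  rw [key3_eq_iff]
  intro x y h1 h2 h3 h4 h5 h6
  apply h x y
  · rcases ha with rfl | rfl | rfl <;> assumption
  · rcases hb with rfl | rfl | rfl <;> assumption
  · rcases ha with rfl | rfl | rfl <;> assumption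
  · rcases hb with rfl | rfl | rfl <;> assumption


section
variable {d : Fin n → ℕ} {u v w : Fin n}

lemma mem_fib3 {G G0 : Finset (Edge n)} :
    G ∈ fib (realizations d) (key3 u v w) G0 ↔
      G ∈ realizations d ∧ key3 u v w G = key3 u v w G0 := by
  unfold fib
  rw [Finset.mem_filter]

lemma card_eq_of_real {G G0 : Finset (Edge n)} (hG : G ∈ realizations d)
    (hG0 : G0 ∈ realizations d) (z : Fin n) : (nb G z).card = (nb G0 z).card := by
  rw [card_nb hG, card_nb hG0]

lemma image_rows (huv : u ≠ v) (huw : u ≠ w) (hvw : v ≠ w) {G0 : Finset (Edge n)}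
    (hG0 : G0 ∈ realizations d) :
    (fib (realizations d) (key3 u v w) G0).image (rows u v w) = ens u v w G0 := by
  ext R
  rw [Finset.mem_image]
  constructor
  · rintro ⟨G, hG, rfl⟩
    rw [mem_fib3] at hG
    exact rows_mem_ens huv huw hvw hG.2 (card_eq_of_real hG.1 hG0)
  · intro hR
    refine ⟨graphOf G0 u v w R, ?_, rows_graphOf huv huw hvw (ens_avoid hR)⟩
    rw [mem_fib3]
    refine ⟨?_, key3_graphOf⟩
    rw [mem_realizations_iff]
    intro z
    rw [graphOf_card huv huw hvw hR z, card_nb hG0]

lemma injOn_rows {G0 : Finset (Edge n)} :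
    Set.InjOn (rows u v w) (fib (realizations d) (key3 u v w) G0 : Set (Finset (Edge n))) := by
  intro G hG G' hG' h
  rw [Finset.mem_coe, mem_fib3] at hG hG'
  exact graph_ext (nb_iff_of_rows (hG.2.trans hG'.2.symm) h)

/-- the fibrewise inequality -/
lemma fibre_ineq (hK : K3Rows) (huv : u ≠ v) (huw : u ≠ w) (hvw : v ≠ w) {G0 : Finset (Edge n)}
    (hG0 : G0 ∈ realizations d) (f : Finset (Edge n) → ℝ) :
    qv (fib (realizations d) (key3 u v w) G0) (fun _ => ()) f
      ≤ qv (fib (realizations d) (key3 u v w) G0) (key2 u v) f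
        + qv (fib (realizations d) (key3 u v w) G0) (key2 u w) f
        + qv (fib (realizations d) (key3 u v w) G0) (key2 v w) f := by
  set Φ := fib (realizations d) (key3 u v w) G0 with hΦ
  have hinj : Set.InjOn (rows u v w) (Φ : Set (Finset (Edge n))) := injOn_rows
  obtain ⟨g, hg⟩ := exists_factor hinj f
  have hcongr : ∀ {β : Type} [DecidableEq β] (φ : Finset (Edge n) → β),
      qv Φ φ f = qv Φ φ (fun G => g (rows u v w G)) := by
    intro β _ φ
    exact qv_congr (fun x hx => (hg x hx).symm)
  have himg : Φ.image (rows u v w) = ens u v w G0 := image_rows huv huw hvw hG0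
  -- facts on members of the fibre
  have hmem : ∀ G ∈ Φ, G ∈ realizations d ∧ key3 u v w G = key3 u v w G0 := by
    intro G hG
    exact mem_fib3.mp hG
  have hcard : ∀ G ∈ Φ, ∀ G' ∈ Φ, ∀ i, (rows u v w G i).card = (rows u v w G' i).card := by
    intro G hG G' hG' i
    have h1 := (mem_ens.mp (rows_mem_ens huv huw hvw (hmem G hG).2
      (card_eq_of_real (hmem G hG).1 hG0))).1 i
    have h2 := (mem_ens.mp (rows_mem_ens huv huw hvw (hmem G' hG').2
      (card_eq_of_real (hmem G' hG').1 hG0))).1 i
    rw [h1, h2]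
  have hkk : ∀ G ∈ Φ, ∀ G' ∈ Φ, ∀ a b, a ≠ u → a ≠ v → a ≠ w → b ≠ u → b ≠ v → b ≠ w →
      (b ∈ nb G a ↔ b ∈ nb G' a) := by
    intro G hG G' hG'
    exact key3_eq_iff.mp ((hmem G hG).2.trans (hmem G' hG').2.symm)
  -- label matching
  have m0 : ∀ G ∈ Φ, ∀ G' ∈ Φ, key2 v w G = key2 v w G' ↔
      (fun R : Fin 3 → Finset (Option (Fin n)) => R 0) (rows u v w G)
        = (fun R : Fin 3 → Finset (Option (Fin n)) => R 0) (rows u v w G') := by
    intro G hG G' hG'
    exact key2_iff_row huv huw (hkk G hG G' hG') (hcard G hG G' hG' 0)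
  have m1 : ∀ G ∈ Φ, ∀ G' ∈ Φ, key2 u w G = key2 u w G' ↔
      (fun R : Fin 3 → Finset (Option (Fin n)) => R 1) (rows u v w G)
        = (fun R : Fin 3 → Finset (Option (Fin n)) => R 1) (rows u v w G') := by
    intro G hG G' hG'
    exact key2_iff_row huv.symm hvw
      (fun a b h1 h2 h3 h4 h5 h6 => hkk G hG G' hG' a b h2 h1 h3 h5 h4 h6) (hcard G hG G' hG' 1)
  have m2 : ∀ G ∈ Φ, ∀ G' ∈ Φ, key2 u v G = key2 u v G' ↔
      (fun R : Fin 3 → Finset (Option (Fin n)) => R 2) (rows u v w G)
        = (fun R : Fin 3 → Finset (Option (Fin n)) => R 2) (rows u v w G') := by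
    intro G hG G' hG'
    exact key2_iff_row huw.symm hvw.symm
      (fun a b h1 h2 h3 h4 h5 h6 => hkk G hG G' hG' a b h2 h3 h1 h5 h6 h4) (hcard G hG G' hG' 2)
  have mu : ∀ G ∈ Φ, ∀ G' ∈ Φ, (fun _ : Finset (Edge n) => ()) G = (fun _ => ()) G' ↔
      (fun _ : Fin 3 → Finset (Option (Fin n)) => ()) (rows u v w G)
        = (fun _ => ()) (rows u v w G') := by
    intro G _ G' _
    exact Iff.rfl
  rw [hcongr (fun _ => ()), hcongr (key2 u v), hcongr (key2 u w), hcongr (key2 v w),
    ← qv_image hinj (fun _ => ()) (fun _ => ()) mu g,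
    ← qv_image hinj (key2 v w) (fun R => R 0) m0 g,
    ← qv_image hinj (key2 u w) (fun R => R 1) m1 g,
    ← qv_image hinj (key2 u v) (fun R => R 2) m2 g, himg]
  have := hK (Option (Fin n)) (fun i => (rows u v w G0 i).card)
    (fun j => colsum (rows u v w G0) j) g
  rw [Fin.sum_univ_three] at this
  unfold qv ens
  linarith

end

/-- **Package P6 (graph side)**: the three-row inequality implies the Poincare form of the
three-vertex cluster inequality. -/
theorem P3_of_K3Rows (hK : K3Rows) (d : Fin n → ℕ) : P3 d := by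
  intro u v w huv huw hvw f
  unfold p2
  have key : ∀ G0 ∈ realizations d,
      ∑ G ∈ fib (realizations d) (key3 u v w) G0,
        cP (realizations d) (key3 u v w) f G * cP (realizations d) (key3 u v w) f G
      ≤ ∑ G ∈ fib (realizations d) (key3 u v w) G0,
        (cP (realizations d) (key2 u v) f G * cP (realizations d) (key2 u v) f G
          + cP (realizations d) (key2 u w) f G * cP (realizations d) (key2 u w) f G
          + cP (realizations d) (key2 v w) f G * cP (realizations d) (key2 v w) f G) := by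
    intro G0 hG0
    have h := fibre_ineq hK huv huw hvw hG0 f
    unfold qv ip cP at h
    rw [Finset.sum_add_distrib, Finset.sum_add_distrib]
    unfold cP
    have e0 : ∀ G ∈ fib (realizations d) (key3 u v w) G0,
        cE (fib (realizations d) (key3 u v w) G0) (fun _ => ()) f G
          = cE (realizations d) (key3 u v w) f G := fun G hG => cE_unit_fib f hG
    have e1 : ∀ G ∈ fib (realizations d) (key3 u v w) G0,
        cE (fib (realizations d) (key3 u v w) G0) (key2 u v) f G
          = cE (realizations d) (key2 u v) f G := fun G hG =>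
      cE_local (fun x _ y _ hxy => key2_refines_key3 (Or.inl rfl) (Or.inr (Or.inl rfl)) hxy) f hG
    have e2 : ∀ G ∈ fib (realizations d) (key3 u v w) G0,
        cE (fib (realizations d) (key3 u v w) G0) (key2 u w) f G
          = cE (realizations d) (key2 u w) f G := fun G hG =>
      cE_local (fun x _ y _ hxy => key2_refines_key3 (Or.inl rfl) (Or.inr (Or.inr rfl)) hxy) f hG
    have e3 : ∀ G ∈ fib (realizations d) (key3 u v w) G0,
        cE (fib (realizations d) (key3 u v w) G0) (key2 v w) f G
          = cE (realizations d) (key2 v w) f G := fun G hG =>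
      cE_local (fun x _ y _ hxy => key2_refines_key3 (Or.inr (Or.inl rfl)) (Or.inr (Or.inr rfl))
        hxy) f hG
    have s0 := Finset.sum_congr (s₁ := fib (realizations d) (key3 u v w) G0) rfl
      (fun G hG => by rw [e0 G hG] :
        ∀ G ∈ fib (realizations d) (key3 u v w) G0,
          (f G - cE (fib (realizations d) (key3 u v w) G0) (fun _ => ()) f G)
            * (f G - cE (fib (realizations d) (key3 u v w) G0) (fun _ => ()) f G)
          = (f G - cE (realizations d) (key3 u v w) f G)
            * (f G - cE (realizations d) (key3 u v w) f G))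
    have s1 := Finset.sum_congr (s₁ := fib (realizations d) (key3 u v w) G0) rfl
      (fun G hG => by rw [e1 G hG] :
        ∀ G ∈ fib (realizations d) (key3 u v w) G0,
          (f G - cE (fib (realizations d) (key3 u v w) G0) (key2 u v) f G)
            * (f G - cE (fib (realizations d) (key3 u v w) G0) (key2 u v) f G)
          = (f G - cE (realizations d) (key2 u v) f G)
            * (f G - cE (realizations d) (key2 u v) f G))
    have s2 := Finset.sum_congr (s₁ := fib (realizations d) (key3 u v w) G0) rfl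
      (fun G hG => by rw [e2 G hG] :
        ∀ G ∈ fib (realizations d) (key3 u v w) G0,
          (f G - cE (fib (realizations d) (key3 u v w) G0) (key2 u w) f G)
            * (f G - cE (fib (realizations d) (key3 u v w) G0) (key2 u w) f G)
          = (f G - cE (realizations d) (key2 u w) f G)
            * (f G - cE (realizations d) (key2 u w) f G))
    have s3 := Finset.sum_congr (s₁ := fib (realizations d) (key3 u v w) G0) rfl
      (fun G hG => by rw [e3 G hG] :
        ∀ G ∈ fib (realizations d) (key3 u v w) G0,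
          (f G - cE (fib (realizations d) (key3 u v w) G0) (key2 v w) f G)
            * (f G - cE (fib (realizations d) (key3 u v w) G0) (key2 v w) f G)
          = (f G - cE (realizations d) (key2 v w) f G)
            * (f G - cE (realizations d) (key2 v w) f G))
    rw [s0, s1, s2, s3] at h
    exact h
  have := sum_le_sum_of_fib (key3 u v w) _ _ key
  rw [Finset.sum_add_distrib, Finset.sum_add_distrib] at this
  unfold ip
  exact this

end Crest.Agent.S0453Triple
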