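import Crest.Statements.S0453
import Crest.Agent.S0453Red
import Crest.Agent.S0453_Top
import Crest.Agent.S0453_K3Glue
import Crest.Agent.S0453_RadEns
import Crest.Agent.S0453_K3Rows
import Crest.Agent.S0453_Triple
import Crest.Agent.S0453_P3S3
import Crest.Agent.S0453_ClaimA
import Crest.Agent.S0453_P4c

set_option autoImplicit false
open Finset
open Crest Crest.LogicCS

namespace Crest.Agent.S0453

/-- For every n ≥ 4 and every labeled degree vector on n vertices with a simple realization: the lazy switch chain (hold with probability 1/2, else take a uniform four-vertex set and a uniform ordered pair of distinct perfect matchings on it, swapping the first for the second when the first is present and the second absent) is, from every realization, within total variation 1/4 of uniform on the realizations after some t ≤ 2n^8 steps; and Var(f) ≤ 24 n² C(n,4) ⟨f, (I − P) f⟩ for the uniform law. -/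
theorem result (n : ℕ) (hn : 4 ≤ n)
    (d : Fin n → ℕ) (hd : (Crest.SwitchChain.realizations d).Nonempty) :
    (∃ t : ℕ, t ≤ 2 * n ^ 8 ∧ ∀ G ∈ Crest.SwitchChain.realizations d,
        Crest.SwitchChain.tvDist (fun G' => (Crest.SwitchChain.kernel n ^ t) G G')
          (Crest.SwitchChain.unifOn (Crest.SwitchChain.realizations d)) ≤ 1 / 4) ∧
      ∀ f : Finset (Crest.SwitchChain.Edge n) → ℝ,
        ((Crest.SwitchChain.realizations d).card : ℝ) *
              (∑ G ∈ Crest.SwitchChain.realizations d, f G ^ 2) -
            (∑ G ∈ Crest.SwitchChain.realizations d, f G) ^ 2 ≤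
          24 * (n : ℝ) ^ 2 * (n.choose 4 : ℝ) * (Crest.SwitchChain.realizations d).card *
            ∑ G ∈ Crest.SwitchChain.realizations d,
              f G * (f G - ∑ G' ∈ Crest.SwitchChain.realizations d,
                Crest.SwitchChain.kernel n G G' * f G') := by
  have k3Col : Crest.Agent.S0453K3Col.K3Col :=
    Crest.Agent.S0453K3Glue.K3Col_of_radial
      (fun _ _ _ _ _ h dl => Crest.Agent.S0453RadEns.radialProp h dl)
  have s3 : Crest.Agent.S0453Defs.S3 d :=
    Crest.Agent.S0453P3S3.S3_of_P3 d
      (Crest.Agent.S0453Triple.P3_of_K3Rows (Crest.Agent.S0453K3Rows.K3Rows_of_K3Col k3Col) d)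
  exact Crest.Agent.S0453Red.result_of_gap n hn d hd
    (Crest.Agent.S0453Top.gap_of_interfaces d s3 (Crest.Agent.S0453ClaimA.claimA d)
      (Crest.Agent.S0453P4.claimB d) (Crest.Agent.S0453P4.g4 d))

end Crest.Agent.S0453
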