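import Mathlib
import Crest.Prelude.Def_SwitchChain
import Crest.Agent.S0453PM
import Crest.Agent.S0453Red

/-!
# S0453 (switch chain): common definitions for the gap proof (Caputo scheme)

`Ω = realizations d`.  For a vertex pair `B`, `E_B = cE Ω (del B)` is the conditional expectation
given the graph `G - B`, `pB = I - E_B`, `L' = ∑_B pB`.
The package statements (`K3Stmt`, `AStmt`, `BStmt`, `JStmt`, `ConnStmt`, `DirStmt`) are `Prop`s proved in
separate files; `S0453Asm.lean` derives `Gap n d` from them.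
-/

set_option autoImplicit false
open Finset

namespace Crest.Agent.S0453D
open Crest.SwitchChain Crest.Agent.S0453PM Crest.Agent.S0453Red

/-! ### abstract finite probability (uniform measure on a finset) -/
section Abs
variable {α : Type*} [DecidableEq α]

/-- counting inner product on `Ω`. -/
def ip (Ω : Finset α) (f g : α → ℝ) : ℝ := ∑ ω ∈ Ω, f ω * g ω

/-- the fibre of the observable `π` through `ω`. -/
def fib {β : Type*} [DecidableEq β] (Ω : Finset α) (π : α → β) (ω : α) : Finset α :=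
  Ω.filter (fun η => π η = π ω)

/-- conditional expectation of `f` given the observable `π` (uniform measure on `Ω`). -/
noncomputable def cE {β : Type*} [DecidableEq β] (Ω : Finset α) (π : α → β) (f : α → ℝ) :
    α → ℝ :=
  fun ω => (∑ η ∈ fib Ω π ω, f η) / ((fib Ω π ω).card : ℝ)

end Abs

/-! ### graphs -/
variable {n : ℕ}

/-- adjacency in the graph with edge set `G`. -/
def adj (G : Finset (Edge n)) (a b : Fin n) : Prop := ∃ e ∈ G, e.1 = s(a, b)

instance (G : Finset (Edge n)) (a b : Fin n) : Decidable (adj G a b) := by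
  unfold adj; infer_instance

/-- the graph `G - B`: edges of `G` avoiding the vertex set `B`. -/
def del (B : Finset (Fin n)) (G : Finset (Edge n)) : Finset (Edge n) :=
  G.filter (fun e => ∀ v ∈ B, v ∉ e.1)

/-- all slots with one end in `B` and one end in `B'`. -/
def cross (B B' : Finset (Fin n)) : Finset (Edge n) :=
  univ.filter (fun e => (∃ v ∈ B, v ∈ e.1) ∧ (∃ x ∈ B', x ∈ e.1))

/-- number of neighbours of `v` inside `A`. -/
def nb (G : Finset (Edge n)) (v : Fin n) (A : Finset (Fin n)) : ℕ :=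
  (A.filter (fun x => adj G v x)).card

/-- the 4 slots between the disjoint pairs `B`, `B'` form a perfect matching of `K_{B,B'}`
(the 4-cycle with diagonals `B`, `B'` is alternating). -/
def alt (B B' : Finset (Fin n)) (G : Finset (Edge n)) : Prop :=
  (∀ v ∈ B, nb G v B' = 1) ∧ (∀ x ∈ B', nb G x B = 1)

instance (B B' : Finset (Fin n)) (G : Finset (Edge n)) : Decidable (alt B B' G) := by
  unfold alt; infer_instance

/-- the switch involution on the 4-cycle with diagonals `B`, `B'`. -/
def tau (B B' : Finset (Fin n)) (G : Finset (Edge n)) : Finset (Edge n) :=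
  if alt B B' G then symmDiff G (cross B B') else G

/-- all vertex pairs. -/
def pairs (n : ℕ) : Finset (Finset (Fin n)) := (univ : Finset (Fin n)).powersetCard 2

/-- pairs disjoint from `B`. -/
def dpairs (B : Finset (Fin n)) : Finset (Finset (Fin n)) := (pairs n).filter (fun B' => Disjoint B B')

variable (d : Fin n → ℕ)

/-- `E_B f = E[f | G - B]`. -/
noncomputable def EB (B : Finset (Fin n)) (f : Finset (Edge n) → ℝ) : Finset (Edge n) → ℝ :=
  cE (realizations d) (del B) f

/-- `Ẽ_{B|B'} f = E[f | G - B, 1_alt]`. -/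
noncomputable def EBt (B B' : Finset (Fin n)) (f : Finset (Edge n) → ℝ) : Finset (Edge n) → ℝ :=
  cE (realizations d) (fun G => (del B G, decide (alt B B' G))) f

/-- `p_B f = f - E_B f`. -/
noncomputable def pB (B : Finset (Fin n)) (f : Finset (Edge n) → ℝ) : Finset (Edge n) → ℝ :=
  fun G => f G - EB d B f G

/-- `⟨f,(I-τ_{BB'})f⟩ = (1/2) ∑_G (f G - f (τ G))²`. -/
noncomputable def sw (B B' : Finset (Fin n)) (f : Finset (Edge n) → ℝ) : ℝ :=
  (1 / 2) * ∑ G ∈ realizations d, (f G - f (tau B B' G)) ^ 2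

/-- `⟨f,N_{B|B'}f⟩ = ∑_G 1_alt(G) (Ẽ_{B|B'} f - E_B f)²(G)`. -/
noncomputable def nn (B B' : Finset (Fin n)) (f : Finset (Edge n) → ℝ) : ℝ :=
  ∑ G ∈ realizations d, if alt B B' G then (EBt d B B' f G - EB d B f G) ^ 2 else 0

/-- `L' f = ∑_B p_B f`. -/
noncomputable def Lp (f : Finset (Edge n) → ℝ) : Finset (Edge n) → ℝ :=
  fun G => ∑ B ∈ pairs n, pB d B f G

/-! ### package statements -/

/-- (K3) every vertex-triple cluster satisfies `L'_T² ≥ L'_T`. -/
def K3Stmt : Prop :=
  ∀ T ∈ (univ : Finset (Fin n)).powersetCard 3, ∀ f : Finset (Edge n) → ℝ,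
    0 ≤ ∑ B ∈ T.powersetCard 2, ∑ B' ∈ (T.powersetCard 2).erase B,
      ip (realizations d) (pB d B f) (pB d B' f)

/-- (A) anticommutator bound for disjoint pairs. -/
def AStmt : Prop :=
  ∀ B ∈ pairs n, ∀ B' ∈ dpairs B, ∀ f : Finset (Edge n) → ℝ,
    sw d B B' f - nn d B B' f - nn d B' B f ≤ 2 * ip (realizations d) (pB d B f) (pB d B' f)

/-- (B) the rank-one corrections are dominated by half of `L_B`. -/
def BStmt : Prop :=
  ∀ B ∈ pairs n, ∀ f : Finset (Edge n) → ℝ,
    ∑ B' ∈ dpairs B, nn d B B' f ≤ (1 / 2) * ∑ B' ∈ dpairs B, sw d B B' f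

/-- (J) Johnson gap: `2 p_B ≤ L_B`. -/
def JStmt : Prop :=
  ∀ B ∈ pairs n, ∀ f : Finset (Edge n) → ℝ,
    ip (realizations d) (pB d B f) (pB d B f) ≤ (1 / 2) * ∑ B' ∈ dpairs B, sw d B B' f

/-- (Conn) switch connectivity. -/
def ConnStmt : Prop :=
  ∀ f : Finset (Edge n) → ℝ,
    (∀ B ∈ pairs n, ∀ B' ∈ dpairs B, ∀ G ∈ realizations d, f (tau B B' G) = f G) →
    ∀ G ∈ realizations d, ∀ G' ∈ realizations d, f G = f G'

/-- (Dir) the switch energy in the `tau` form is the `dir` of `S0453Red`. -/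
def DirStmt : Prop :=
  ∀ f : Finset (Edge n) → ℝ, ∑ B ∈ pairs n, ∑ B' ∈ dpairs B, sw d B B' f = dir d f

end Crest.Agent.S0453D
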