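import Mathlib
import Crest.Prelude.Def_SwitchChain
import Crest.Agent.S0453PM
import Crest.Agent.S0453Red
import Crest.Agent.S0453Conn

set_option autoImplicit false
open Finset

/-! Row 299 (S0453): fibres of `G ↦ G - U`, conditional expectations, the switch involution
`tau b b'`, and the top-level interface of the Caputo-type proof. -/

namespace Crest.Agent.S0453Fib
open Crest.SwitchChain Crest.Agent.S0453PM Crest.Agent.S0453Conn

/-! ### generic conditional expectations on a finite set -/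
section Generic
variable {α β : Type*} [DecidableEq β]

/-- the fibre of `κ` through `x` inside `Ω`. -/
def gfib (Ω : Finset α) (κ : α → β) (x : α) : Finset α := Ω.filter fun y => κ y = κ x

/-- conditional expectation (uniform measure on `Ω`) given `κ`. -/
noncomputable def gE (Ω : Finset α) (κ : α → β) (f : α → ℝ) (x : α) : ℝ :=
  (∑ y ∈ gfib Ω κ x, f y) / (gfib Ω κ x).card

variable {Ω : Finset α} {κ : α → β}

lemma mem_gfib {x y : α} : y ∈ gfib Ω κ x ↔ y ∈ Ω ∧ κ y = κ x := by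
  simp [gfib]

lemma self_mem_gfib {x : α} (hx : x ∈ Ω) : x ∈ gfib Ω κ x := mem_gfib.mpr ⟨hx, rfl⟩

lemma gfib_congr {x y : α} (h : κ y = κ x) : gfib Ω κ y = gfib Ω κ x := by
  unfold gfib; rw [h]

lemma gfib_eq_of_mem {x y : α} (h : y ∈ gfib Ω κ x) : gfib Ω κ y = gfib Ω κ x :=
  gfib_congr (mem_gfib.mp h).2

lemma card_gfib_pos {x : α} (hx : x ∈ Ω) : 0 < ((gfib Ω κ x).card : ℝ) := by
  exact_mod_cast Finset.card_pos.mpr ⟨x, self_mem_gfib hx⟩

lemma gE_congr {f : α → ℝ} {x y : α} (h : κ y = κ x) : gE Ω κ f y = gE Ω κ f x := by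
  unfold gE; rw [gfib_congr h]

/-- decomposition of a sum over `Ω` along the fibres. -/
lemma sum_fibres (F : α → ℝ) :
    ∑ x ∈ Ω, F x = ∑ k ∈ Ω.image κ, ∑ x ∈ Ω.filter (fun y => κ y = k), F x :=
  (Finset.sum_fiberwise_of_maps_to (fun _ hx => Finset.mem_image_of_mem κ hx) F).symm

/-- fibrewise inequalities sum up. -/
lemma sum_le_sum_of_fibres {A B : α → ℝ}
    (h : ∀ x ∈ Ω, ∑ y ∈ gfib Ω κ x, A y ≤ ∑ y ∈ gfib Ω κ x, B y) :
    ∑ x ∈ Ω, A x ≤ ∑ x ∈ Ω, B x := by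
  rw [sum_fibres (κ := κ) A, sum_fibres (κ := κ) B]
  apply Finset.sum_le_sum
  intro k hk
  obtain ⟨x, hx, rfl⟩ := Finset.mem_image.mp hk
  exact h x hx

lemma sum_eq_sum_of_fibres {A B : α → ℝ}
    (h : ∀ x ∈ Ω, ∑ y ∈ gfib Ω κ x, A y = ∑ y ∈ gfib Ω κ x, B y) :
    ∑ x ∈ Ω, A x = ∑ x ∈ Ω, B x := by
  rw [sum_fibres (κ := κ) A, sum_fibres (κ := κ) B]
  apply Finset.sum_congr rfl
  intro k hk
  obtain ⟨x, hx, rfl⟩ := Finset.mem_image.mp hk
  exact h x hx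

/-- on a fibre, `gE f` is the constant `gE f x`. -/
lemma sum_gfib_mul_gE (g f : α → ℝ) (x : α) :
    ∑ y ∈ gfib Ω κ x, g y * gE Ω κ f y = (∑ y ∈ gfib Ω κ x, g y) * gE Ω κ f x := by
  rw [Finset.sum_mul]
  apply Finset.sum_congr rfl
  intro y hy
  rw [gE_congr (mem_gfib.mp hy).2]

lemma sum_gfib_gE (f : α → ℝ) {x : α} (hx : x ∈ Ω) :
    ∑ y ∈ gfib Ω κ x, gE Ω κ f y = ∑ y ∈ gfib Ω κ x, f y := by
  have h := sum_gfib_mul_gE (Ω := Ω) (κ := κ) (fun _ => 1) f x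
  simp only [one_mul, Finset.sum_const, nsmul_eq_mul, mul_one] at h
  rw [h]
  unfold gE
  have := card_gfib_pos (κ := κ) hx
  field_simp

/-- `gE` is self-adjoint. -/
lemma gE_symm (f g : α → ℝ) :
    ∑ x ∈ Ω, g x * gE Ω κ f x = ∑ x ∈ Ω, gE Ω κ g x * f x := by
  apply sum_eq_sum_of_fibres (κ := κ)
  intro x hx
  rw [sum_gfib_mul_gE]
  have : ∑ y ∈ gfib Ω κ x, gE Ω κ g y * f y = (∑ y ∈ gfib Ω κ x, f y) * gE Ω κ g x := by
    rw [← sum_gfib_mul_gE]
    apply Finset.sum_congr rfl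
    intro y _; ring
  rw [this]
  unfold gE
  ring

/-- `gE` is idempotent (in the weak form). -/
lemma gE_gE (f : α → ℝ) {x : α} (hx : x ∈ Ω) : gE Ω κ (gE Ω κ f) x = gE Ω κ f x := by
  have : gE Ω κ (gE Ω κ f) x = (∑ y ∈ gfib Ω κ x, gE Ω κ f y) / (gfib Ω κ x).card := rfl
  rw [this, sum_gfib_gE f hx]
  rfl

lemma sum_gE (f : α → ℝ) : ∑ x ∈ Ω, gE Ω κ f x = ∑ x ∈ Ω, f x :=
  sum_eq_sum_of_fibres (κ := κ) fun _ hx => sum_gfib_gE f hx

lemma gE_mul_gE (f g : α → ℝ) :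
    ∑ x ∈ Ω, gE Ω κ g x * gE Ω κ f x = ∑ x ∈ Ω, g x * gE Ω κ f x := by
  rw [← gE_symm]
  apply Finset.sum_congr rfl
  intro x hx
  rw [gE_gE f hx]

/-- `⟨f, (I - E) f⟩ = ‖(I - E) f‖²`. -/
lemma sum_mul_sub_gE (f : α → ℝ) :
    ∑ x ∈ Ω, f x * (f x - gE Ω κ f x) = ∑ x ∈ Ω, (f x - gE Ω κ f x) ^ 2 := by
  have h := gE_mul_gE (Ω := Ω) (κ := κ) f f
  have e1 : ∑ x ∈ Ω, f x * (f x - gE Ω κ f x)
      = ∑ x ∈ Ω, f x * f x - ∑ x ∈ Ω, f x * gE Ω κ f x := by
    rw [← Finset.sum_sub_distrib]; apply Finset.sum_congr rfl; intro x _; ring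
  have e2 : ∑ x ∈ Ω, (f x - gE Ω κ f x) ^ 2
      = ∑ x ∈ Ω, f x * f x - 2 * ∑ x ∈ Ω, f x * gE Ω κ f x
        + ∑ x ∈ Ω, gE Ω κ f x * gE Ω κ f x := by
    rw [Finset.mul_sum, ← Finset.sum_sub_distrib, ← Finset.sum_add_distrib]
    apply Finset.sum_congr rfl; intro x _; ring
  rw [e1, e2, h]; ring

lemma gE_add (f g : α → ℝ) (x : α) :
    gE Ω κ (fun y => f y + g y) x = gE Ω κ f x + gE Ω κ g x := by
  unfold gE; rw [Finset.sum_add_distrib, add_div]

lemma gE_smul (c : ℝ) (f : α → ℝ) (x : α) :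
    gE Ω κ (fun y => c * f y) x = c * gE Ω κ f x := by
  unfold gE; rw [← Finset.mul_sum, mul_div_assoc]

lemma gE_const (c : ℝ) {x : α} (hx : x ∈ Ω) : gE Ω κ (fun _ => c) x = c := by
  unfold gE
  have := card_gfib_pos (κ := κ) hx
  simp only [Finset.sum_const, nsmul_eq_mul]
  field_simp

/-- fibre variance identity: `∑_fib (f - E f)² = ∑_fib f² - (∑_fib f)²/|fib|`. -/
lemma sum_gfib_sq_sub (f : α → ℝ) {x : α} (hx : x ∈ Ω) :
    ∑ y ∈ gfib Ω κ x, (f y - gE Ω κ f y) ^ 2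
      = ∑ y ∈ gfib Ω κ x, f y ^ 2 - (∑ y ∈ gfib Ω κ x, f y) ^ 2 / (gfib Ω κ x).card := by
  have hc := card_gfib_pos (κ := κ) hx
  have : ∀ y ∈ gfib Ω κ x, (f y - gE Ω κ f y) ^ 2
      = f y ^ 2 - 2 * gE Ω κ f x * f y + gE Ω κ f x ^ 2 := by
    intro y hy
    rw [gE_congr (mem_gfib.mp hy).2]; ring
  rw [Finset.sum_congr rfl this, Finset.sum_add_distrib, Finset.sum_sub_distrib,
    ← Finset.mul_sum, Finset.sum_const, nsmul_eq_mul]
  unfold gE
  field_simp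
  ring

end Generic

/-! ### definitions for graphs -/
variable {n : ℕ}

/-- `G - U`: the edges of `G` missing the vertex set `U`. -/
def key (U : Finset (Fin n)) (G : Finset (Edge n)) : Finset (Edge n) :=
  G.filter fun e => ∀ u ∈ U, u ∉ e.1

/-- the fibre of `G ↦ G - U` through `G` inside the realizations of `d`. -/
abbrev fib (d : Fin n → ℕ) (U : Finset (Fin n)) (G : Finset (Edge n)) :
    Finset (Finset (Edge n)) := gfib (realizations d) (key U) G

/-- `E[f | G - U]`. -/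
noncomputable abbrev cE (d : Fin n → ℕ) (U : Finset (Fin n)) (f : Finset (Edge n) → ℝ) :
    Finset (Edge n) → ℝ := gE (realizations d) (key U) f

/-- `p_U f = f - E[f | G - U]`. -/
noncomputable def pP (d : Fin n → ℕ) (U : Finset (Fin n)) (f : Finset (Edge n) → ℝ) :
    Finset (Edge n) → ℝ := fun G => f G - cE d U f G

/-- the slots joining `b` and `b'`. -/
def cross (b b' : Finset (Fin n)) : Finset (Edge n) :=
  univ.filter fun e => (∃ u ∈ b, u ∈ e.1) ∧ ∃ z ∈ b', z ∈ e.1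

/-- the edges of `G` between `b` and `b'` form a perfect matching of `b ∪ b'`
(for disjoint pairs: the 4-cycle on `b`, `b'` is alternating in `G`). -/
def Sep (b b' : Finset (Fin n)) (G : Finset (Edge n)) : Prop :=
  (∀ u ∈ b, (nb G u ∩ b').card = 1) ∧ ∀ z ∈ b', (nb G z ∩ b).card = 1

instance (b b' : Finset (Fin n)) (G : Finset (Edge n)) : Decidable (Sep b b' G) := by
  unfold Sep; infer_instance

/-- the switch involution on the 4-cycle `b`, `b'`. -/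
def tau (b b' : Finset (Fin n)) (G : Finset (Edge n)) : Finset (Edge n) :=
  if Sep b b' G then symmDiff G (cross b b') else G

/-- indicator of `Sep`. -/
def sig (b b' : Finset (Fin n)) (G : Finset (Edge n)) : ℝ := if Sep b b' G then 1 else 0

/-- the quadratic form of `N_{b|b'}` (fibrewise rank one):
`∑_G Cov(σ, f | G - b)² / E[σ | G - b]`. -/
noncomputable def Nform (d : Fin n → ℕ) (b b' : Finset (Fin n)) (f : Finset (Edge n) → ℝ) : ℝ :=
  ∑ G ∈ realizations d,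
    (cE d b (fun H => sig b b' H * f H) G - cE d b (sig b b') G * cE d b f G) ^ 2
      / cE d b (sig b b') G

/-- the quadratic form of `I - τ_{b|b'}` times 2. -/
noncomputable def Tform (d : Fin n → ℕ) (b b' : Finset (Fin n)) (f : Finset (Edge n) → ℝ) : ℝ :=
  ∑ G ∈ realizations d, (f G - f (tau b b' G)) ^ 2

/-- all vertex pairs. -/
abbrev P2 (n : ℕ) : Finset (Finset (Fin n)) := (univ : Finset (Fin n)).powersetCard 2

/-- all vertex triples. -/
abbrev P3 (n : ℕ) : Finset (Finset (Fin n)) := (univ : Finset (Fin n)).powersetCard 3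

/-- **K3** (vertex triple cluster): `‖L'_T f‖² ≥ ⟨f, L'_T f⟩`, `L'_T = ∑_{b ⊂ T} p_b`. -/
def K3 (d : Fin n → ℕ) : Prop :=
  ∀ T ∈ P3 n, ∀ f : Finset (Edge n) → ℝ,
    ∑ G ∈ realizations d, ∑ b ∈ T.powersetCard 2, f G * pP d b f G
      ≤ ∑ G ∈ realizations d, (∑ b ∈ T.powersetCard 2, pP d b f G) ^ 2

/-- **Claim A**. -/
def ClaimA (d : Fin n → ℕ) : Prop :=
  ∀ b ∈ P2 n, ∀ b' ∈ P2 n, Disjoint b b' → ∀ f : Finset (Edge n) → ℝ,
    Tform d b b' f / 2 - Nform d b b' f - Nform d b' b f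
      ≤ 2 * ∑ G ∈ realizations d, pP d b f G * pP d b' f G

/-- **Claim B**. -/
def ClaimB (d : Fin n → ℕ) : Prop :=
  ∀ b ∈ P2 n, ∀ f : Finset (Edge n) → ℝ,
    ∑ b' ∈ (P2 n).filter (fun b' => Disjoint b b'), Nform d b b' f
      ≤ ∑ b' ∈ (P2 n).filter (fun b' => Disjoint b b'), Tform d b b' f / 4

/-- **Johnson gap** on the pair fibres, already compared with the Dirichlet sum. -/
def PairGap (d : Fin n → ℕ) : Prop :=
  ∀ b ∈ P2 n, ∀ f : Finset (Edge n) → ℝ,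
    ∑ G ∈ realizations d, f G * pP d b f G ≤ Crest.Agent.S0453Red.dir d f

end Crest.Agent.S0453Fib
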