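import Mathlib
import Crest.Agent.S0453_CE
import Crest.Agent.S0453_ADefs
import Crest.Agent.S0453_A3

/-!
# Row 299 (S0453), package P7: the abstract Claim A

`Model Ω φ φ' W τ → ClaimAabs Ω φ φ' W τ`.
-/

set_option autoImplicit false
set_option linter.unusedSectionVars false
open Finset

namespace Crest.Agent.S0453A
open Crest.Agent.S0453CE

section abstractOp
variable {α : Type*}

/-- two commuting self-adjoint idempotents: `⟨A f, B f⟩ = ‖A B f‖²`. -/
theorem ip_proj_comm {X : Finset α} {A B : (α → ℝ) → (α → ℝ)}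
    (saA : ∀ f g : α → ℝ, ∑ x ∈ X, A f x * g x = ∑ x ∈ X, f x * A g x)
    (saB : ∀ f g : α → ℝ, ∑ x ∈ X, B f x * g x = ∑ x ∈ X, f x * B g x)
    (idA : ∀ f : α → ℝ, ∀ x ∈ X, A (A f) x = A f x)
    (idB : ∀ f : α → ℝ, ∀ x ∈ X, B (B f) x = B f x)
    (comm : ∀ f : α → ℝ, ∀ x ∈ X, A (B f) x = B (A f) x) (f : α → ℝ) :
    ∑ x ∈ X, A f x * B f x = ∑ x ∈ X, A (B f) x ^ 2 := by
  have e1 : ∑ x ∈ X, A (B f) x ^ 2 = ∑ x ∈ X, A (B f) x * A (B f) x :=
    Finset.sum_congr rfl fun x _ => by ring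
  have e2 : ∑ x ∈ X, B f x * A (A (B f)) x = ∑ x ∈ X, B f x * B (A f) x :=
    Finset.sum_congr rfl fun x hx => by rw [idA _ x hx, comm _ x hx]
  have e3 : ∑ x ∈ X, B (B f) x * A f x = ∑ x ∈ X, A f x * B f x :=
    Finset.sum_congr rfl fun x hx => by rw [idB _ x hx]; ring
  rw [e1, saA (B f) (A (B f)), e2, ← saB (B f) (A f), e3]

end abstractOp

section A1
variable {α κ κ' : Type*} [DecidableEq α] [DecidableEq κ] [DecidableEq κ']
variable {X : Finset α} {k : α → κ} {k' : α → κ'} {D : α → Bool} {τ : α → α}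

lemma coarser_fst (X : Finset α) (k : α → κ) (D : α → Bool) :
    Coarser X k (fun x => (k x, D x)) := by
  intro x _ y _ h
  exact (Prod.mk.injEq _ _ _ _ ▸ h).1

/-- the operator `I - E` -/
noncomputable def opI (X : Finset α) (k : α → κ) (f : α → ℝ) : α → ℝ := fun x => f x - ce X k f x

/-- the operator `Ẽ - E` -/
noncomputable def opQ (X : Finset α) (k : α → κ) (D : α → Bool) (f : α → ℝ) : α → ℝ :=
  fun x => ce X (fun x => (k x, D x)) f x - ce X k f x

lemma sa_opI (X : Finset α) (k : α → κ) (f g : α → ℝ) :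
    ∑ x ∈ X, opI X k f x * g x = ∑ x ∈ X, f x * opI X k g x := by
  simp only [opI, sub_mul, mul_sub, Finset.sum_sub_distrib, ce_adjoint]

lemma id_opI (X : Finset α) (k : α → κ) (f : α → ℝ) (x : α) (hx : x ∈ X) :
    opI X k (opI X k f) x = opI X k f x := by
  unfold opI
  rw [ce_sub, ce_of_meas (meas_ce X k f) hx]; ring

lemma sa_opQ (X : Finset α) (k : α → κ) (D : α → Bool) (f g : α → ℝ) :
    ∑ x ∈ X, opQ X k D f x * g x = ∑ x ∈ X, f x * opQ X k D g x := by
  simp only [opQ, sub_mul, mul_sub, Finset.sum_sub_distrib, ce_adjoint]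

lemma id_opQ (X : Finset α) (k : α → κ) (D : α → Bool) (f : α → ℝ) (x : α) (hx : x ∈ X) :
    opQ X k D (opQ X k D f) x = opQ X k D f x := by
  unfold opQ
  rw [ce_sub, ce_sub, ce_of_meas (meas_ce X _ f) hx, ce_ce_of_coarser' (coarser_fst X k D) f hx,
    ce_ce_of_coarser (coarser_fst X k D) f x, ce_of_meas (meas_ce X k f) hx]
  ring

/-- commutation of `I - E₁` and `I - E₂` from that of `E₁`, `E₂`. -/
lemma comm_opI_opI {κ1 κ2 : Type*} [DecidableEq κ1] [DecidableEq κ2] {k1 : α → κ1} {k2 : α → κ2}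
    (c : ∀ f : α → ℝ, ∀ x ∈ X, ce X k1 (ce X k2 f) x = ce X k2 (ce X k1 f) x)
    (f : α → ℝ) (x : α) (hx : x ∈ X) :
    opI X k1 (opI X k2 f) x = opI X k2 (opI X k1 f) x := by
  unfold opI
  rw [ce_sub, ce_sub, c f x hx]; ring

/-- commutation of `Ẽ - E` and `I - E₂`. -/
lemma comm_opQ_opI {κ2 : Type*} [DecidableEq κ2] {k2 : α → κ2}
    (c1 : ∀ f : α → ℝ, ∀ x ∈ X, ce X (fun x => (k x, D x)) (ce X k2 f) x
      = ce X k2 (ce X (fun x => (k x, D x)) f) x)
    (c2 : ∀ f : α → ℝ, ∀ x ∈ X, ce X k (ce X k2 f) x = ce X k2 (ce X k f) x)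
    (f : α → ℝ) (x : α) (hx : x ∈ X) :
    opQ X k D (opI X k2 f) x = opI X k2 (opQ X k D f) x := by
  unfold opI opQ
  rw [ce_sub, ce_sub, ce_sub, c1 f x hx, c2 f x hx]; ring

/-- off `D`-fibres the correction vanishes. -/
lemma opQ_eq_zero {x : α} (h : ∀ y ∈ X, k y = k x → D y = D x) (f : α → ℝ) :
    opQ X k D f x = 0 := by
  unfold opQ ce
  have : fib X (fun x => (k x, D x)) (k x, D x) = fib X k (k x) := by
    ext y
    simp only [mem_fib, Prod.mk.injEq]
    constructor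
    · rintro ⟨h1, h2, _⟩; exact ⟨h1, h2⟩
    · rintro ⟨h1, h2⟩; exact ⟨h1, h2, h y h1 h2⟩
  rw [this, sub_self]

/-- `∑ (h - h∘τ)² ≤ 4 ∑ h²` for an involution `τ` of `X`. -/
lemma sum_sub_tau_sq_le (hτm : ∀ x ∈ X, τ x ∈ X) (hττ : ∀ x ∈ X, τ (τ x) = x) (h : α → ℝ) :
    ∑ x ∈ X, (h x - h (τ x)) ^ 2 ≤ 4 * ∑ x ∈ X, h x ^ 2 := by
  have e : ∑ x ∈ X, h (τ x) ^ 2 = ∑ x ∈ X, h x ^ 2 := by
    apply Finset.sum_nbij' τ τ hτm hτm hττ hττ
    intro x _; rfl
  have : ∑ x ∈ X, (h x - h (τ x)) ^ 2 ≤ ∑ x ∈ X, (2 * h x ^ 2 + 2 * h (τ x) ^ 2) := by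
    apply Finset.sum_le_sum
    intro x _
    nlinarith [sq_nonneg (h x + h (τ x))]
  rw [Finset.sum_add_distrib, ← Finset.mul_sum, ← Finset.mul_sum, e] at this
  linarith

/-- **A1** (operator lemma). -/
theorem claimA_op
    (c1 : ∀ f : α → ℝ, ∀ x ∈ X, ce X (fun x => (k x, D x)) (ce X (fun x => (k' x, D x)) f) x
      = ce X (fun x => (k' x, D x)) (ce X (fun x => (k x, D x)) f) x)
    (c2 : ∀ f : α → ℝ, ∀ x ∈ X, ce X (fun x => (k x, D x)) (ce X k' f) x
      = ce X k' (ce X (fun x => (k x, D x)) f) x)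
    (c3 : ∀ f : α → ℝ, ∀ x ∈ X, ce X k (ce X (fun x => (k' x, D x)) f) x
      = ce X (fun x => (k' x, D x)) (ce X k f) x)
    (hτm : ∀ x ∈ X, τ x ∈ X) (hττ : ∀ x ∈ X, τ (τ x) = x)
    (hτk : ∀ x ∈ X, k (τ x) = k x) (hτk' : ∀ x ∈ X, k' (τ x) = k' x)
    (hτD : ∀ x ∈ X, D (τ x) = D x)
    (hv : ∀ x ∈ X, D x = false →
      (∀ y ∈ X, k y = k x → D y = false) ∨ (∀ y ∈ X, k' y = k' x → D y = false))
    (f : α → ℝ) :
    (∑ x ∈ X, (f x - f (τ x)) ^ 2) / 2 ≤ 2 * ∑ x ∈ X, (f x - ce X k f x) * (f x - ce X k' f x)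
      + ∑ x ∈ X.filter (fun x => D x = true), (ce X (fun x => (k x, D x)) f x - ce X k f x) ^ 2
      + ∑ x ∈ X.filter (fun x => D x = true),
          (ce X (fun x => (k' x, D x)) f x - ce X k' f x) ^ 2 := by
  set kt : α → κ × Bool := fun x => (k x, D x) with hkt
  set kt' : α → κ' × Bool := fun x => (k' x, D x) with hkt'
  -- the four pieces
  have hdec : ∀ x ∈ X, (f x - ce X k f x) * (f x - ce X k' f x)
      = opI X kt f x * opI X kt' f x + opQ X k D f x * opI X kt' f x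
        + opQ X k' D f x * opI X kt f x + opQ X k D f x * opQ X k' D f x := by
    intro x _
    simp only [opI, opQ]
    ring
  -- piece 1
  have p1 : ∑ x ∈ X, opI X kt f x * opI X kt' f x = ∑ x ∈ X, opI X kt (opI X kt' f) x ^ 2 :=
    ip_proj_comm (sa_opI X kt) (sa_opI X kt') (id_opI X kt) (id_opI X kt')
      (comm_opI_opI c1) f
  have p1' : ∑ x ∈ X, (f x - f (τ x)) ^ 2 ≤ 4 * ∑ x ∈ X, opI X kt (opI X kt' f) x ^ 2 := by
    refine le_trans (le_of_eq ?_) (sum_sub_tau_sq_le hτm hττ _)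
    apply Finset.sum_congr rfl
    intro x hx
    have a1 : kt (τ x) = kt x := by simp only [hkt, hτk x hx, hτD x hx]
    have a2 : kt' (τ x) = kt' x := by simp only [hkt', hτk' x hx, hτD x hx]
    simp only [opI]
    rw [ce_congr X kt _ a1, ce_congr X kt' _ a2]
    ring
  -- pieces 2, 3
  have p2 : 0 ≤ ∑ x ∈ X, opQ X k D f x * opI X kt' f x := by
    rw [ip_proj_comm (sa_opQ X k D) (sa_opI X kt') (id_opQ X k D) (id_opI X kt')
      (comm_opQ_opI c1 c3) f]
    exact Finset.sum_nonneg fun _ _ => sq_nonneg _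
  have p3 : 0 ≤ ∑ x ∈ X, opQ X k' D f x * opI X kt f x := by
    rw [ip_proj_comm (sa_opQ X k' D) (sa_opI X kt) (id_opQ X k' D) (id_opI X kt)
      (comm_opQ_opI (fun f x hx => (c1 f x hx).symm) (fun f x hx => (c2 f x hx).symm)) f]
    exact Finset.sum_nonneg fun _ _ => sq_nonneg _
  -- piece 4
  have p4 : -(∑ x ∈ X.filter (fun x => D x = true), opQ X k D f x ^ 2)
      - ∑ x ∈ X.filter (fun x => D x = true), opQ X k' D f x ^ 2
      ≤ 2 * ∑ x ∈ X, opQ X k D f x * opQ X k' D f x := by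
    rw [Finset.sum_filter, Finset.sum_filter, Finset.mul_sum, ← Finset.sum_neg_distrib,
      ← Finset.sum_sub_distrib]
    apply Finset.sum_le_sum
    intro x hx
    by_cases hD : D x = true
    · rw [if_pos hD, if_pos hD]
      nlinarith [sq_nonneg (opQ X k D f x + opQ X k' D f x)]
    · rw [if_neg hD, if_neg hD]
      have hD' : D x = false := by simpa using hD
      rcases hv x hx hD' with h | h
      · rw [opQ_eq_zero (fun y hy e => by rw [h y hy e, hD']) f]; simp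
      · rw [opQ_eq_zero (k := k') (fun y hy e => by rw [h y hy e, hD']) f]; simp
  rw [Finset.sum_congr rfl hdec, Finset.sum_add_distrib, Finset.sum_add_distrib,
    Finset.sum_add_distrib, p1]
  simp only [opQ] at p4 p2 p3 ⊢
  linarith

end A1

section glue
variable {α β β' : Type*} [DecidableEq α] [DecidableEq β] [DecidableEq β']
variable {Ω : Finset α} {φ : α → β} {φ' : α → β'} {W : α → Blk} {τ : α → α}

/-- **P7**: the abstract Claim A holds in every model. -/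
theorem claimAabs_of_model (M : Model Ω φ φ' W τ) : ClaimAabs Ω φ φ' W τ := by
  intro f
  have := claimA_op (X := Ω) (k := φ) (k' := φ') (D := fun x => isMB (W x)) (τ := τ)
    (fun f x hx => (M.comm1 f x hx).symm) (fun f x hx => (M.comm2 f x hx).symm)
    (fun f x hx => M.comm3 f x hx) M.tau_mem (fun x hx => M.tau_tau hx) M.tau_phi M.tau_phi'
    (fun x hx => M.tau_D hx) (fun x hx hD => M.offD hx hD) f
  exact this

end glue

end Crest.Agent.S0453A
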