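import Mathlib

/-!
# Row 299 (S0453): generic averaging lemmas (biregular correspondences, parts, up/down counting)

Only Mathlib is imported.  `avg P F = (∑ p ∈ P, F p) / |P|`.
-/

set_option autoImplicit false
open Finset

namespace Crest.Agent.S0453Avg

variable {α β γ : Type*}

/-- average of `F` over the finset `P` (`0` if `P` is empty) -/
noncomputable def avg (P : Finset α) (F : α → ℝ) : ℝ := (∑ p ∈ P, F p) / (P.card : ℝ)

lemma avg_const {P : Finset α} (hP : P.Nonempty) (c : ℝ) : avg P (fun _ => c) = c := by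
  unfold avg
  have : (P.card : ℝ) ≠ 0 := by
    exact_mod_cast (Finset.card_pos.mpr hP).ne'
  rw [Finset.sum_const, nsmul_eq_mul]
  field_simp

lemma avg_sub (P : Finset α) (F G : α → ℝ) : avg P (fun p => F p - G p) = avg P F - avg P G := by
  unfold avg
  rw [Finset.sum_sub_distrib, sub_div]

lemma abs_avg_le {P : Finset α} (F : α → ℝ) (L : ℝ) (hL : 0 ≤ L)
    (h : ∀ p ∈ P, |F p| ≤ L) : |avg P F| ≤ L := by
  unfold avg
  rcases P.eq_empty_or_nonempty with rfl | hP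
  · simpa using hL
  have hc : (0 : ℝ) < P.card := by exact_mod_cast Finset.card_pos.mpr hP
  rw [abs_div, abs_of_pos hc, div_le_iff₀ hc]
  calc |∑ p ∈ P, F p| ≤ ∑ p ∈ P, |F p| := Finset.abs_sum_le_sum_abs _ _
    _ ≤ ∑ _p ∈ P, L := Finset.sum_le_sum h
    _ = L * P.card := by rw [Finset.sum_const, nsmul_eq_mul, mul_comm]

/-- double counting for a relation between two finsets -/
lemma sum_rel_comm (P : Finset α) (Q : Finset β) (R : α → β → Prop) [∀ p q, Decidable (R p q)]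
    (H : α → β → ℝ) :
    ∑ p ∈ P, ∑ q ∈ Q.filter (fun q => R p q), H p q
      = ∑ q ∈ Q, ∑ p ∈ P.filter (fun p => R p q), H p q := by
  simp_rw [Finset.sum_filter]
  exact Finset.sum_comm

/-- **Biregular averaging, exact form.** -/
theorem avg_sub_avg_of_biregular (P : Finset α) (Q : Finset β) (R : α → β → Prop)
    [∀ p q, Decidable (R p q)] (A B : ℕ) (hA : 0 < A) (hB : 0 < B)
    (hP : ∀ p ∈ P, (Q.filter (fun q => R p q)).card = A)
    (hQ : ∀ q ∈ Q, (P.filter (fun p => R p q)).card = B)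
    (hne : P.Nonempty) (F : α → ℝ) (G : β → ℝ) :
    avg P F - avg Q G
      = (∑ p ∈ P, ∑ q ∈ Q.filter (fun q => R p q), (F p - G q)) / ((A : ℝ) * P.card) := by
  have hcount : (A : ℝ) * P.card = (B : ℝ) * Q.card := by
    have h1 := sum_rel_comm P Q R (fun _ _ => (1 : ℝ))
    simp only [Finset.sum_const, nsmul_eq_mul, mul_one] at h1
    have h2 : ∑ p ∈ P, ((Q.filter (fun q => R p q)).card : ℝ) = (A : ℝ) * P.card := by
      rw [Finset.sum_congr rfl (fun p hp => by rw [hP p hp]), Finset.sum_const, nsmul_eq_mul,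
        mul_comm]
    have h3 : ∑ q ∈ Q, ((P.filter (fun p => R p q)).card : ℝ) = (B : ℝ) * Q.card := by
      rw [Finset.sum_congr rfl (fun q hq => by rw [hQ q hq]), Finset.sum_const, nsmul_eq_mul,
        mul_comm]
    rw [← h2, ← h3, h1]
  have hPc : (0 : ℝ) < P.card := by exact_mod_cast Finset.card_pos.mpr hne
  have hAr : (0 : ℝ) < A := by exact_mod_cast hA
  have hBr : (0 : ℝ) < B := by exact_mod_cast hB
  have hQc : (0 : ℝ) < Q.card := by
    have : (0 : ℝ) < (B : ℝ) * Q.card := by rw [← hcount]; positivity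
    exact (pos_iff_pos_of_mul_pos this).mp hBr
  have hF : ∑ p ∈ P, ∑ q ∈ Q.filter (fun q => R p q), F p = (A : ℝ) * ∑ p ∈ P, F p := by
    rw [Finset.mul_sum]
    refine Finset.sum_congr rfl (fun p hp => ?_)
    rw [Finset.sum_const, hP p hp, nsmul_eq_mul]
  have hG : ∑ p ∈ P, ∑ q ∈ Q.filter (fun q => R p q), G q = (B : ℝ) * ∑ q ∈ Q, G q := by
    rw [sum_rel_comm P Q R (fun _ q => G q), Finset.mul_sum]
    refine Finset.sum_congr rfl (fun q hq => ?_)
    rw [Finset.sum_const, hQ q hq, nsmul_eq_mul]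
  simp_rw [Finset.sum_sub_distrib]
  rw [hF, hG, sub_div]
  unfold avg
  congr 1
  · field_simp
  · rw [hcount]; field_simp

/-- **Biregular averaging, Lipschitz form.** -/
theorem abs_avg_sub_avg_le_of_biregular (P : Finset α) (Q : Finset β) (R : α → β → Prop)
    [∀ p q, Decidable (R p q)] (A B : ℕ) (hA : 0 < A) (hB : 0 < B)
    (hP : ∀ p ∈ P, (Q.filter (fun q => R p q)).card = A)
    (hQ : ∀ q ∈ Q, (P.filter (fun p => R p q)).card = B)
    (hne : P.Nonempty) (F : α → ℝ) (G : β → ℝ) (L : ℝ)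
    (hL : ∀ p ∈ P, ∀ q ∈ Q, R p q → |F p - G q| ≤ L) :
    |avg P F - avg Q G| ≤ L := by
  rw [avg_sub_avg_of_biregular P Q R A B hA hB hP hQ hne F G]
  have hPc : (0 : ℝ) < P.card := by exact_mod_cast Finset.card_pos.mpr hne
  have hAr : (0 : ℝ) < A := by exact_mod_cast hA
  have hpos : (0 : ℝ) < (A : ℝ) * P.card := by positivity
  rw [abs_div, abs_of_pos hpos, div_le_iff₀ hpos]
  calc |∑ p ∈ P, ∑ q ∈ Q.filter (fun q => R p q), (F p - G q)|
      ≤ ∑ p ∈ P, |∑ q ∈ Q.filter (fun q => R p q), (F p - G q)| := Finset.abs_sum_le_sum_abs _ _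
    _ ≤ ∑ p ∈ P, ∑ q ∈ Q.filter (fun q => R p q), |F p - G q| :=
        Finset.sum_le_sum (fun p _ => Finset.abs_sum_le_sum_abs _ _)
    _ ≤ ∑ p ∈ P, ∑ _q ∈ Q.filter (fun q => R p q), L := by
        refine Finset.sum_le_sum (fun p hp => Finset.sum_le_sum (fun q hq => ?_))
        rw [Finset.mem_filter] at hq
        exact hL p hp q hq.1 hq.2
    _ = L * ((A : ℝ) * P.card) := by
        rw [Finset.sum_congr rfl (fun p hp => by rw [Finset.sum_const, hP p hp, nsmul_eq_mul])]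
        rw [Finset.sum_const, nsmul_eq_mul]; ring

/-- bijection version: `e` maps `P` bijectively onto `Q`. -/
theorem avg_eq_avg_of_bij (P : Finset α) (Q : Finset β) (e : α → β)
    (hmap : ∀ p ∈ P, e p ∈ Q) (hinj : ∀ p ∈ P, ∀ p' ∈ P, e p = e p' → p = p')
    (hsurj : ∀ q ∈ Q, ∃ p ∈ P, e p = q) (G : β → ℝ) :
    avg Q G = avg P (fun p => G (e p)) := by
  unfold avg
  have hs : ∑ p ∈ P, G (e p) = ∑ q ∈ Q, G q :=
    Finset.sum_bij (fun p _ => e p) hmap (fun p hp p' hp' h => hinj p hp p' hp' h)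
      (fun q hq => by obtain ⟨p, hp, rfl⟩ := hsurj q hq; exact ⟨p, hp, rfl⟩) (fun _ _ => rfl)
  have hc : P.card = Q.card :=
    Finset.card_bij (fun p _ => e p) hmap (fun p hp p' hp' h => hinj p hp p' hp' h)
      (fun q hq => by obtain ⟨p, hp, rfl⟩ := hsurj q hq; exact ⟨p, hp, rfl⟩)
  rw [hs, hc]

theorem abs_avg_sub_avg_le_of_bij (P : Finset α) (Q : Finset β) (e : α → β)
    (hmap : ∀ p ∈ P, e p ∈ Q) (hinj : ∀ p ∈ P, ∀ p' ∈ P, e p = e p' → p = p')
    (hsurj : ∀ q ∈ Q, ∃ p ∈ P, e p = q) (F : α → ℝ) (G : β → ℝ) (L : ℝ) (hL0 : 0 ≤ L)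
    (hL : ∀ p ∈ P, |F p - G (e p)| ≤ L) :
    |avg P F - avg Q G| ≤ L := by
  rw [avg_eq_avg_of_bij P Q e hmap hinj hsurj G, ← avg_sub]
  exact abs_avg_le _ L hL0 hL

/-- **Parts**: if `Q` is cut into parts by a label `ℓ` and the average over every nonempty part is
within `L` of `c`, then so is the average over `Q`. -/
theorem abs_avg_sub_le_of_parts [DecidableEq γ] (Q : Finset β) (ℓ : β → γ) (G : β → ℝ) (c L : ℝ)
    (hne : Q.Nonempty)
    (h : ∀ q ∈ Q, |avg (Q.filter (fun q' => ℓ q' = ℓ q)) G - c| ≤ L) :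
    |avg Q G - c| ≤ L := by
  have hQc : (0 : ℝ) < Q.card := by exact_mod_cast Finset.card_pos.mpr hne
  -- replace G by its part averages
  have key : ∑ q ∈ Q, G q = ∑ q ∈ Q, avg (Q.filter (fun q' => ℓ q' = ℓ q)) G := by
    rw [← Finset.sum_fiberwise_of_maps_to (s := Q) (t := Q.image ℓ) (g := ℓ)
        (fun q hq => Finset.mem_image_of_mem ℓ hq) G,
      ← Finset.sum_fiberwise_of_maps_to (s := Q) (t := Q.image ℓ) (g := ℓ)
        (fun q hq => Finset.mem_image_of_mem ℓ hq)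
        (fun q => avg (Q.filter (fun q' => ℓ q' = ℓ q)) G)]
    refine Finset.sum_congr rfl (fun t ht => ?_)
    have hcongr : ∑ q ∈ Q.filter (fun q => ℓ q = t), avg (Q.filter (fun q' => ℓ q' = ℓ q)) G
        = ∑ _q ∈ Q.filter (fun q => ℓ q = t), avg (Q.filter (fun q' => ℓ q' = t)) G := by
      refine Finset.sum_congr rfl (fun q hq => ?_)
      rw [Finset.mem_filter] at hq
      rw [hq.2]
    rw [hcongr, Finset.sum_const, nsmul_eq_mul]
    unfold avg
    obtain ⟨q0, hq0, rfl⟩ := Finset.mem_image.mp ht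
    have : ((Q.filter (fun q => ℓ q = ℓ q0)).card : ℝ) ≠ 0 := by
      have : 0 < (Q.filter (fun q => ℓ q = ℓ q0)).card :=
        Finset.card_pos.mpr ⟨q0, Finset.mem_filter.mpr ⟨hq0, rfl⟩⟩
      exact_mod_cast this.ne'
    field_simp
  have : avg Q G - c = avg Q (fun q => avg (Q.filter (fun q' => ℓ q' = ℓ q)) G - c) := by
    rw [avg_sub, avg_const hne]
    unfold avg
    rw [key]
    rfl
  rw [this]
  obtain ⟨q0, hq0⟩ := hne
  exact abs_avg_le _ L (le_trans (abs_nonneg _) (h q0 hq0)) h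

/-- **Up/down double counting** on `powersetCard`. -/
theorem sum_powersetCard_succ_erase [DecidableEq α] (R : Finset α) (s : ℕ)
    (g : Finset α → α → ℝ) :
    ∑ Y ∈ R.powersetCard (s + 1), ∑ y ∈ Y, g (Y.erase y) y
      = ∑ Y0 ∈ R.powersetCard s, ∑ y ∈ R \ Y0, g Y0 y := by
  rw [Finset.sum_sigma', Finset.sum_sigma']
  refine Finset.sum_bij' (fun p _ => ⟨p.1.erase p.2, p.2⟩) (fun p _ => ⟨insert p.2 p.1, p.2⟩)
    ?_ ?_ ?_ ?_ ?_
  · rintro ⟨Y, y⟩ h
    simp only [Finset.mem_sigma, Finset.mem_powersetCard] at h ⊢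
    obtain ⟨⟨hYR, hYc⟩, hy⟩ := h
    refine ⟨⟨(Finset.erase_subset _ _).trans hYR, ?_⟩, ?_⟩
    · rw [Finset.card_erase_of_mem hy, hYc]; rfl
    · rw [Finset.mem_sdiff]
      exact ⟨hYR hy, Finset.notMem_erase _ _⟩
  · rintro ⟨Y0, y⟩ h
    simp only [Finset.mem_sigma, Finset.mem_powersetCard, Finset.mem_sdiff] at h ⊢
    obtain ⟨⟨hYR, hYc⟩, hyR, hy⟩ := h
    refine ⟨⟨Finset.insert_subset hyR hYR, ?_⟩, Finset.mem_insert_self _ _⟩
    rw [Finset.card_insert_of_notMem hy, hYc]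
  · rintro ⟨Y, y⟩ h
    simp only [Finset.mem_sigma, Finset.mem_powersetCard] at h
    simp only [Finset.insert_erase h.2]
  · rintro ⟨Y0, y⟩ h
    simp only [Finset.mem_sigma, Finset.mem_powersetCard, Finset.mem_sdiff] at h
    simp only [Finset.erase_insert h.2.2]
  · rintro ⟨Y, y⟩ _
    rfl

end Crest.Agent.S0453Avg
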