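import Mathlib
import Crest.Prelude.Def_SwitchChain
import Crest.Agent.S0453_Core
import Crest.Agent.S0453_Defs

/-!
# Row 299 (S0453): tuple bookkeeping for the assembly
-/

set_option autoImplicit false
open Finset

namespace Crest.Agent.S0453Book
open Crest.Agent.S0453Defs

variable {n : ℕ}

lemma pt_split (F : Fin n → Fin n → Fin n → Fin n → ℝ) (v w x y : Fin n) :
    (if v ≠ w ∧ x ≠ y then F v w x y else 0)
      = (if x = v then (if y = w then (if v ≠ w then F v w x y else 0) else 0) else 0)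
      + (if x = w then (if y = v then (if v ≠ w then F v w x y else 0) else 0) else 0)
      + (if x = v then (if v ≠ w ∧ v ≠ y ∧ w ≠ y then F v w x y else 0) else 0)
      + (if x = w then (if v ≠ w ∧ v ≠ y ∧ w ≠ y then F v w x y else 0) else 0)
      + (if y = v then (if v ≠ w ∧ v ≠ x ∧ w ≠ x then F v w x y else 0) else 0)
      + (if y = w then (if v ≠ w ∧ v ≠ x ∧ w ≠ x then F v w x y else 0) else 0)
      + (if Dist4 v w x y then F v w x y else 0) := by
  unfold Dist4
  by_cases a : v = w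
  · simp [a]
  by_cases b : x = v
  · subst b
    by_cases g : y = w
    · subst g
      simp [a, Ne.symm a]
    · by_cases e : y = x
      · subst e
        simp [a]
      · simp [a, g, e, Ne.symm e, Ne.symm g]
  by_cases c : x = w
  · subst c
    by_cases e : y = v
    · subst e
      simp [a, Ne.symm a]
    · by_cases g : y = x
      · subst g
        simp [a, e]
      · simp [a, b, g, e, Ne.symm e, Ne.symm g]
  by_cases e : y = v
  · subst e
    simp [a, b, c, Ne.symm b, Ne.symm c]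
  by_cases g : y = w
  · subst g
    simp [a, b, c, e, Ne.symm b, Ne.symm c]
  simp [a, b, c, e, g, Ne.symm b, Ne.symm c, Ne.symm e, Ne.symm g]

theorem split4 (F : Fin n → Fin n → Fin n → Fin n → ℝ) (h1 : ∀ v w x y, F w v x y = F v w x y)
    (h2 : ∀ v w x y, F v w y x = F v w x y) :
    ∑ v, ∑ w, ∑ x, ∑ y, (if v ≠ w ∧ x ≠ y then F v w x y else 0)
      = 2 * ∑ v, ∑ w, (if v ≠ w then F v w v w else 0)
        + 4 * ∑ u, ∑ a, ∑ b, (if u ≠ a ∧ u ≠ b ∧ a ≠ b then F u a u b else 0)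
        + ∑ v, ∑ w, ∑ x, ∑ y, (if Dist4 v w x y then F v w x y else 0) := by
  have e1 : ∀ v w, ∑ x, ∑ y,
      (if x = v then (if y = w then (if v ≠ w then F v w x y else 0) else 0) else 0)
      = if v ≠ w then F v w v w else 0 := by
    intro v w
    simp [Finset.sum_ite_irrel]
  have e2 : ∀ v w, ∑ x, ∑ y,
      (if x = w then (if y = v then (if v ≠ w then F v w x y else 0) else 0) else 0)
      = if v ≠ w then F v w v w else 0 := by
    intro v w
    simp [Finset.sum_ite_irrel, h2 v w v w]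
  have e3 : ∀ v w, ∑ x, ∑ y,
      (if x = v then (if v ≠ w ∧ v ≠ y ∧ w ≠ y then F v w x y else 0) else 0)
      = ∑ y, if v ≠ w ∧ v ≠ y ∧ w ≠ y then F v w v y else 0 := by
    intro v w
    simp [Finset.sum_ite_irrel]
  have e4 : ∀ v w, ∑ x, ∑ y,
      (if x = w then (if v ≠ w ∧ v ≠ y ∧ w ≠ y then F v w x y else 0) else 0)
      = ∑ y, if w ≠ v ∧ w ≠ y ∧ v ≠ y then F w v w y else 0 := by
    intro v w
    simp only [Finset.sum_ite_irrel, Finset.sum_const_zero, Finset.sum_ite_eq', Finset.mem_univ,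
      if_true]
    apply Finset.sum_congr rfl
    intro y _
    rw [h1 v w w y]
    apply if_congr _ rfl rfl
    constructor
    · rintro ⟨a, b, c⟩; exact ⟨a.symm, c, b⟩
    · rintro ⟨a, b, c⟩; exact ⟨a.symm, c, b⟩
  have e5 : ∀ v w, ∑ x, ∑ y,
      (if y = v then (if v ≠ w ∧ v ≠ x ∧ w ≠ x then F v w x y else 0) else 0)
      = ∑ x, if v ≠ w ∧ v ≠ x ∧ w ≠ x then F v w v x else 0 := by
    intro v w
    apply Finset.sum_congr rfl
    intro x _
    simp only [Finset.sum_ite_eq', Finset.mem_univ, if_true]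
    rw [h2 v w v x]
  have e6 : ∀ v w, ∑ x, ∑ y,
      (if y = w then (if v ≠ w ∧ v ≠ x ∧ w ≠ x then F v w x y else 0) else 0)
      = ∑ x, if w ≠ v ∧ w ≠ x ∧ v ≠ x then F w v w x else 0 := by
    intro v w
    apply Finset.sum_congr rfl
    intro x _
    simp only [Finset.sum_ite_eq', Finset.mem_univ, if_true]
    rw [h2 v w w x, h1 v w w x]
    apply if_congr _ rfl rfl
    constructor
    · rintro ⟨a, b, c⟩; exact ⟨a.symm, c, b⟩
    · rintro ⟨a, b, c⟩; exact ⟨a.symm, c, b⟩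
  simp only [pt_split, Finset.sum_add_distrib, e1, e2, e3, e4, e5, e6]
  have sw : ∑ v, ∑ w, ∑ y, (if w ≠ v ∧ w ≠ y ∧ v ≠ y then F w v w y else 0)
      = ∑ v, ∑ w, ∑ y, (if v ≠ w ∧ v ≠ y ∧ w ≠ y then F v w v y else 0) := Finset.sum_comm
  rw [sw]
  ring

theorem triple_nonneg (F : Fin n → Fin n → Fin n → Fin n → ℝ)
    (h1 : ∀ v w x y, F w v x y = F v w x y) (h2 : ∀ v w x y, F v w y x = F v w x y)
    (hS3 : ∀ u v w, u ≠ v → u ≠ w → v ≠ w → 0 ≤ F u v u w + F u v v w + F u w v w) :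
    0 ≤ ∑ u, ∑ a, ∑ b, (if u ≠ a ∧ u ≠ b ∧ a ≠ b then F u a u b else 0) := by
  set T := ∑ u, ∑ a, ∑ b, (if u ≠ a ∧ u ≠ b ∧ a ≠ b then F u a u b else 0) with hT
  have hsum : 0 ≤ ∑ u, ∑ a, ∑ b,
      (if u ≠ a ∧ u ≠ b ∧ a ≠ b then F u a u b + F u a a b + F u b a b else 0) := by
    apply Finset.sum_nonneg; intro u _
    apply Finset.sum_nonneg; intro a _
    apply Finset.sum_nonneg; intro b _
    split_ifs with h
    · exact hS3 u a b h.1 h.2.1 h.2.2
    · exact le_rfl
  have hpt : ∀ u a b : Fin n,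
      (if u ≠ a ∧ u ≠ b ∧ a ≠ b then F u a u b + F u a a b + F u b a b else 0)
      = (if u ≠ a ∧ u ≠ b ∧ a ≠ b then F u a u b else 0)
        + (if a ≠ u ∧ a ≠ b ∧ u ≠ b then F a u a b else 0)
        + (if b ≠ u ∧ b ≠ a ∧ u ≠ a then F b u b a else 0) := by
    intro u a b
    by_cases h : u ≠ a ∧ u ≠ b ∧ a ≠ b
    · have h' : a ≠ u ∧ a ≠ b ∧ u ≠ b := ⟨h.1.symm, h.2.2, h.2.1⟩
      have h'' : b ≠ u ∧ b ≠ a ∧ u ≠ a := ⟨h.2.1.symm, h.2.2.symm, h.1⟩
      rw [if_pos h, if_pos h, if_pos h', if_pos h'', h1 u a a b, h1 u b b a, h2 u b a b]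
    · have h' : ¬ (a ≠ u ∧ a ≠ b ∧ u ≠ b) := fun k => h ⟨k.1.symm, k.2.2, k.2.1⟩
      have h'' : ¬ (b ≠ u ∧ b ≠ a ∧ u ≠ a) := fun k => h ⟨k.2.2, k.1.symm, k.2.1.symm⟩
      rw [if_neg h, if_neg h, if_neg h', if_neg h'']; ring
  simp only [hpt, Finset.sum_add_distrib] at hsum
  have s2 : ∑ u, ∑ a, ∑ b, (if a ≠ u ∧ a ≠ b ∧ u ≠ b then F a u a b else 0) = T :=
    Finset.sum_comm
  have s3 : ∑ u, ∑ a, ∑ b, (if b ≠ u ∧ b ≠ a ∧ u ≠ a then F b u b a else 0) = T := by
    rw [hT]
    calc ∑ u, ∑ a, ∑ b, (if b ≠ u ∧ b ≠ a ∧ u ≠ a then F b u b a else 0)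
        = ∑ u, ∑ b, ∑ a, (if b ≠ u ∧ b ≠ a ∧ u ≠ a then F b u b a else 0) := by
          apply Finset.sum_congr rfl; intro u _; exact Finset.sum_comm
      _ = ∑ b, ∑ u, ∑ a, (if b ≠ u ∧ b ≠ a ∧ u ≠ a then F b u b a else 0) := Finset.sum_comm
  rw [s2, s3] at hsum
  linarith

theorem disjoint_nonneg (F En nn : Fin n → Fin n → Fin n → Fin n → ℝ)
    (hA : ∀ v w x y, Dist4 v w x y → En v w x y / 2 ≤ 2 * F v w x y + nn v w x y + nn x y v w)
    (hB : ∀ v w, v ≠ w → ∑ x, ∑ y, (if Dist4 v w x y then nn v w x y else 0)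
      ≤ (∑ x, ∑ y, (if Dist4 v w x y then En v w x y else 0)) / 4) :
    0 ≤ ∑ v, ∑ w, ∑ x, ∑ y, (if Dist4 v w x y then F v w x y else 0) := by
  set SF := ∑ v, ∑ w, ∑ x, ∑ y, (if Dist4 v w x y then F v w x y else 0) with hSF
  set SE := ∑ v, ∑ w, ∑ x, ∑ y, (if Dist4 v w x y then En v w x y else 0) with hSE
  set SN := ∑ v, ∑ w, ∑ x, ∑ y, (if Dist4 v w x y then nn v w x y else 0) with hSN
  have hsym : ∀ v w x y : Fin n, Dist4 x y v w ↔ Dist4 v w x y := by
    intro v w x y
    unfold Dist4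
    constructor <;> rintro ⟨a, b, c, e, g, k⟩ <;>
      exact ⟨k, b.symm, e.symm, c.symm, g.symm, a⟩
  have hSN' : ∑ v, ∑ w, ∑ x, ∑ y, (if Dist4 v w x y then nn x y v w else 0) = SN := by
    rw [hSN]
    have c1 : ∀ G : Fin n → Fin n → Fin n → Fin n → ℝ,
        ∑ v, ∑ w, ∑ x, ∑ y, G v w x y = ∑ x, ∑ y, ∑ v, ∑ w, G v w x y := by
      intro G
      calc ∑ v, ∑ w, ∑ x, ∑ y, G v w x y = ∑ v, ∑ x, ∑ w, ∑ y, G v w x y := by
            apply Finset.sum_congr rfl; intro v _; exact Finset.sum_comm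
        _ = ∑ x, ∑ v, ∑ w, ∑ y, G v w x y := Finset.sum_comm
        _ = ∑ x, ∑ v, ∑ y, ∑ w, G v w x y := by
            apply Finset.sum_congr rfl; intro x _
            apply Finset.sum_congr rfl; intro v _; exact Finset.sum_comm
        _ = ∑ x, ∑ y, ∑ v, ∑ w, G v w x y := by
            apply Finset.sum_congr rfl; intro x _; exact Finset.sum_comm
    rw [c1]
    apply Finset.sum_congr rfl; intro x _
    apply Finset.sum_congr rfl; intro y _
    apply Finset.sum_congr rfl; intro v _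
    apply Finset.sum_congr rfl; intro w _
    exact if_congr (hsym x y v w) rfl rfl
  have hAs : SE / 2 ≤ 2 * SF + SN + SN := by
    have : ∑ v, ∑ w, ∑ x, ∑ y, (if Dist4 v w x y then En v w x y / 2 else 0)
        ≤ ∑ v, ∑ w, ∑ x, ∑ y,
          (if Dist4 v w x y then 2 * F v w x y + nn v w x y + nn x y v w else 0) := by
      apply Finset.sum_le_sum; intro v _
      apply Finset.sum_le_sum; intro w _
      apply Finset.sum_le_sum; intro x _
      apply Finset.sum_le_sum; intro y _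
      split_ifs with h
      · exact hA v w x y h
      · exact le_rfl
    have l : ∑ v, ∑ w, ∑ x, ∑ y, (if Dist4 v w x y then En v w x y / 2 else 0) = SE / 2 := by
      rw [hSE]
      simp only [Finset.sum_div]
      apply Finset.sum_congr rfl; intro v _
      apply Finset.sum_congr rfl; intro w _
      apply Finset.sum_congr rfl; intro x _
      apply Finset.sum_congr rfl; intro y _
      split_ifs <;> simp
    have r : ∑ v, ∑ w, ∑ x, ∑ y,
          (if Dist4 v w x y then 2 * F v w x y + nn v w x y + nn x y v w else 0)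
        = 2 * SF + SN + SN := by
      have hh : 2 * SF + SN + SN = 2 * SF + SN
          + ∑ v, ∑ w, ∑ x, ∑ y, (if Dist4 v w x y then nn x y v w else 0) := by rw [hSN']
      rw [hh, hSF, hSN]
      simp only [Finset.mul_sum, ← Finset.sum_add_distrib]
      apply Finset.sum_congr rfl; intro v _
      apply Finset.sum_congr rfl; intro w _
      apply Finset.sum_congr rfl; intro x _
      apply Finset.sum_congr rfl; intro y _
      split_ifs <;> simp
    rw [l, r] at this
    exact this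
  have hBs : SN ≤ SE / 4 := by
    rw [hSN, hSE]
    simp only [Finset.sum_div]
    apply Finset.sum_le_sum; intro v _
    apply Finset.sum_le_sum; intro w _
    by_cases hvw : v = w
    · have : ∀ x y, ¬ Dist4 v w x y := fun x y h => h.1 hvw
      simp [this]
    · have := hB v w hvw
      simp only [Finset.sum_div] at this
      exact this
  linarith

end Crest.Agent.S0453Book
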