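import Mathlib
import Crest.Prelude.Def_SwitchChain
import Crest.Agent.S0453_Defs
import Crest.Agent.S0453_Graph
import Crest.Agent.S0453D

/-!
# Row 299 (S0453): bridge between the pair language (`S0453D`) and the tuple language (`S0453_Defs`)
-/

set_option autoImplicit false
open Finset

namespace Crest.Agent.S0453Bridge
open Crest.SwitchChain Crest.Agent.S0453Core Crest.Agent.S0453Defs Crest.Agent.S0453Graph

variable {n : ℕ}

lemma cE_eq {α β : Type*} [DecidableEq α] [DecidableEq β] (Ω : Finset α) (φ : α → β) (f : α → ℝ) :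
    S0453D.cE Ω φ f = cE Ω φ f := rfl

lemma ip_eq {α : Type*} [DecidableEq α] (Ω : Finset α) (f g : α → ℝ) :
    S0453D.ip Ω f g = ip Ω f g := rfl

lemma adj_eq (G : Finset (Edge n)) (a b : Fin n) : S0453D.adj G a b ↔ adj G a b := Iff.rfl

lemma del_pair (v w : Fin n) (G : Finset (Edge n)) : S0453D.del {v, w} G = key2 v w G := by
  unfold S0453D.del key2
  congr 1
  funext e
  simp

lemma del_pair' (v w : Fin n) : S0453D.del ({v, w} : Finset (Fin n)) = key2 v w := by
  funext G; exact del_pair v w G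

lemma pB_eq (d : Fin n → ℕ) (v w : Fin n) (f : Finset (Edge n) → ℝ) :
    S0453D.pB d {v, w} f = p2 d v w f := by
  funext G
  unfold S0453D.pB S0453D.EB p2 cP
  rw [del_pair', cE_eq]


lemma card_filter_pair {x y : Fin n} (hxy : x ≠ y) (p : Fin n → Prop) [DecidablePred p] :
    (({x, y} : Finset (Fin n)).filter p).card = 1 ↔ (p x ∧ ¬ p y) ∨ (¬ p x ∧ p y) := by
  rw [Finset.filter_insert, Finset.filter_singleton]
  by_cases hx : p x <;> by_cases hy : p y <;> simp [hx, hy, hxy]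

lemma alt_iff {v w x y : Fin n} (h : Dist4 v w x y) (G : Finset (Edge n)) :
    S0453D.alt {v, w} {x, y} G ↔ isM v w x y G := by
  have h' : Dist4 v w y x := by
    obtain ⟨h1, h2, h3, h4, h5, h6⟩ := h
    exact ⟨h1, h3, h2, h5, h4, h6.symm⟩
  unfold S0453D.alt isM S0453D.nb
  rw [isI_iff h, isI_iff h']
  obtain ⟨h1, h2, h3, h4, h5, h6⟩ := h
  simp only [Finset.mem_insert, Finset.mem_singleton, forall_eq_or_imp, forall_eq]
  rw [card_filter_pair h6, card_filter_pair h6, card_filter_pair h1, card_filter_pair h1]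
  simp only [adj_eq]
  rw [@adj_comm n G x v, @adj_comm n G x w, @adj_comm n G y v, @adj_comm n G y w]
  tauto

lemma adj_symmDiff (G K : Finset (Edge n)) (a b : Fin n) :
    adj (symmDiff G K) a b ↔ (adj G a b ∧ ¬ adj K a b) ∨ (adj K a b ∧ ¬ adj G a b) := by
  constructor
  · rintro ⟨e, he, hab⟩
    rw [Finset.mem_symmDiff] at he
    rcases he with ⟨h1, h2⟩ | ⟨h1, h2⟩
    · exact Or.inl ⟨⟨e, h1, hab⟩, fun h => h2 ((mem_iff_adj hab).2 h)⟩
    · exact Or.inr ⟨⟨e, h1, hab⟩, fun h => h2 ((mem_iff_adj hab).2 h)⟩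
  · rintro (⟨⟨e, h1, hab⟩, h2⟩ | ⟨⟨e, h1, hab⟩, h2⟩)
    · exact ⟨e, Finset.mem_symmDiff.2 (Or.inl ⟨h1, fun h => h2 ⟨e, h, hab⟩⟩), hab⟩
    · exact ⟨e, Finset.mem_symmDiff.2 (Or.inr ⟨h1, fun h => h2 ⟨e, h, hab⟩⟩), hab⟩

lemma adj_cross {v w x y : Fin n} (h : Dist4 v w x y) (a b : Fin n) :
    adj (S0453D.cross {v, w} {x, y}) a b ↔
      s(a, b) = s(v, x) ∨ s(a, b) = s(v, y) ∨ s(a, b) = s(w, x) ∨ s(a, b) = s(w, y) := by
  obtain ⟨h1, h2, h3, h4, h5, h6⟩ := h
  constructor
  · rintro ⟨e, he, hab⟩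
    have hne : a ≠ b := adj_ne ⟨e, he, hab⟩
    obtain ⟨-, ⟨p, hp, hpe⟩, ⟨q, hq, hqe⟩⟩ := Finset.mem_filter.1 he
    rw [hab, Sym2.mem_iff] at hpe hqe
    simp only [Finset.mem_insert, Finset.mem_singleton] at hp hq
    simp only [Sym2.eq_iff]
    rcases hp with rfl | rfl <;> rcases hq with rfl | rfl <;> rcases hpe with rfl | rfl <;>
      rcases hqe with rfl | rfl <;> simp_all
  · intro hs
    have hne : a ≠ b := by
      rintro rfl
      simp only [Sym2.eq_iff] at hs
      rcases hs with (⟨rfl, h⟩ | ⟨rfl, h⟩) | (⟨rfl, h⟩ | ⟨rfl, h⟩) | (⟨rfl, h⟩ | ⟨rfl, h⟩) |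
        (⟨rfl, h⟩ | ⟨rfl, h⟩) <;> simp_all
    refine ⟨⟨s(a, b), by simpa [Sym2.mk_isDiag_iff] using hne⟩, ?_, rfl⟩
    unfold S0453D.cross
    rw [Finset.mem_filter]
    refine ⟨Finset.mem_univ _, ?_⟩
    simp only [Finset.mem_insert, Finset.mem_singleton]
    rcases hs with hs | hs | hs | hs <;> rw [hs]
    · exact ⟨⟨v, Or.inl rfl, by simp⟩, ⟨x, Or.inl rfl, by simp⟩⟩
    · exact ⟨⟨v, Or.inl rfl, by simp⟩, ⟨y, Or.inr rfl, by simp⟩⟩
    · exact ⟨⟨w, Or.inr rfl, by simp⟩, ⟨x, Or.inl rfl, by simp⟩⟩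
    · exact ⟨⟨w, Or.inr rfl, by simp⟩, ⟨y, Or.inr rfl, by simp⟩⟩

lemma adj_congr {G : Finset (Edge n)} {a b c e : Fin n} (h : s(a, b) = s(c, e)) :
    adj G a b ↔ adj G c e := by unfold adj; rw [h]

/-- flipping the four slots when the block is the matching `vx, wy` -/
lemma flip_eq {v w x y : Fin n} (h : Dist4 v w x y) {G : Finset (Edge n)} (hI : isI v w x y G) :
    symmDiff G (S0453D.cross {v, w} {x, y}) = G \ M2 v x w y ∪ M2 v y w x := by
  obtain ⟨a1, a2, a3, a4⟩ := (isI_iff h).1 hI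
  apply ext_adj
  intro a b
  rw [adj_symmDiff, adj_cross h, adj_sdiff_union_M2 h.2.2.1 h.2.2.2.1]
  by_cases e1 : s(a, b) = s(v, x)
  · have := (adj_congr (G := G) e1).2 a1
    have n3 : s(a, b) ≠ s(v, y) := fun e => a3 ((adj_congr (G := G) e).1 this)
    have n4 : s(a, b) ≠ s(w, x) := fun e => a4 ((adj_congr (G := G) e).1 this)
    simp [e1, this, n3, n4] at *
    exact ⟨n3, n4⟩
  by_cases e2 : s(a, b) = s(w, y)
  · have := (adj_congr (G := G) e2).2 a2
    have n3 : s(a, b) ≠ s(v, y) := fun e => a3 ((adj_congr (G := G) e).1 this)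
    have n4 : s(a, b) ≠ s(w, x) := fun e => a4 ((adj_congr (G := G) e).1 this)
    simp [e2, this, n3, n4] at *
    exact ⟨n3, n4⟩
  by_cases e3 : s(a, b) = s(v, y)
  · have : ¬ adj G a b := fun hh => a3 ((adj_congr (G := G) e3).1 hh)
    simp [e3, this]
  by_cases e4 : s(a, b) = s(w, x)
  · have : ¬ adj G a b := fun hh => a4 ((adj_congr (G := G) e4).1 hh)
    simp [e4, this]
  simp [e1, e2, e3, e4]


lemma dist4_swap {v w x y : Fin n} (h : Dist4 v w x y) : Dist4 v w y x := by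
  obtain ⟨h1, h2, h3, h4, h5, h6⟩ := h
  exact ⟨h1, h3, h2, h5, h4, h6.symm⟩

lemma tau_eq {v w x y : Fin n} (h : Dist4 v w x y) (G : Finset (Edge n)) :
    S0453D.tau {v, w} {x, y} G = tau v w x y G := by
  unfold S0453D.tau tau
  by_cases hI : isI v w x y G
  · rw [if_pos ((alt_iff h G).2 (Or.inl hI)), if_pos hI, flip_eq h hI]
  · rw [if_neg hI]
    by_cases hJ : isI v w y x G
    · rw [if_pos ((alt_iff h G).2 (Or.inr hJ)), if_pos hJ, ← flip_eq (dist4_swap h) hJ,
        Finset.pair_comm x y]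
    · rw [if_neg hJ, if_neg]
      rw [alt_iff h]
      rintro (h1 | h1)
      · exact hI h1
      · exact hJ h1

lemma sw_eq (d : Fin n → ℕ) {v w x y : Fin n} (h : Dist4 v w x y) (f : Finset (Edge n) → ℝ) :
    S0453D.sw d {v, w} {x, y} f = En d v w x y f / 2 := by
  unfold S0453D.sw En
  simp only [tau_eq h]
  ring

lemma nn_eq (d : Fin n → ℕ) {v w x y : Fin n} (h : Dist4 v w x y) (f : Finset (Edge n) → ℝ) :
    S0453D.nn d {v, w} {x, y} f = nn d v w x y f := by
  unfold S0453D.nn nn S0453D.EBt S0453D.EB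
  rw [Finset.sum_filter]
  apply Finset.sum_congr rfl
  intro G _
  have e1 : (fun G => (S0453D.del ({v, w} : Finset (Fin n)) G,
      decide (S0453D.alt {v, w} {x, y} G))) = fun G => (key2 v w G, decide (isM v w x y G)) := by
    funext G
    rw [del_pair]
    congr 1
    exact decide_eq_decide.2 (alt_iff h G)
  rw [e1, del_pair', cE_eq, cE_eq]
  by_cases hM : isM v w x y G
  · rw [if_pos hM, if_pos ((alt_iff h G).2 hM)]
  · rw [if_neg hM, if_neg (fun hh => hM ((alt_iff h G).1 hh))]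

lemma pair_mem_pairs {v w : Fin n} (h : v ≠ w) : ({v, w} : Finset (Fin n)) ∈ S0453D.pairs n := by
  unfold S0453D.pairs
  rw [Finset.mem_powersetCard]
  exact ⟨Finset.subset_univ _, Finset.card_pair h⟩

lemma pair_mem_dpairs {v w x y : Fin n} (h : Dist4 v w x y) :
    ({x, y} : Finset (Fin n)) ∈ S0453D.dpairs ({v, w} : Finset (Fin n)) := by
  obtain ⟨h1, h2, h3, h4, h5, h6⟩ := h
  unfold S0453D.dpairs
  rw [Finset.mem_filter]
  refine ⟨pair_mem_pairs h6, ?_⟩
  rw [Finset.disjoint_left]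
  intro a ha hb
  simp only [Finset.mem_insert, Finset.mem_singleton] at ha hb
  rcases ha with rfl | rfl <;> rcases hb with rfl | rfl <;> simp_all

lemma dist4_flip {v w x y : Fin n} (h : Dist4 v w x y) : Dist4 x y v w := by
  obtain ⟨h1, h2, h3, h4, h5, h6⟩ := h
  exact ⟨h6, h2.symm, h4.symm, h3.symm, h5.symm, h1⟩

/-- **Bridge for Claim A.** -/
theorem claimA_of_AStmt (d : Fin n → ℕ) (hA : S0453D.AStmt d) : ClaimA d := by
  intro v w x y h f
  have := hA {v, w} (pair_mem_pairs h.1) {x, y} (pair_mem_dpairs h) f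
  rw [sw_eq d h, nn_eq d h, nn_eq d (dist4_flip h), pB_eq, pB_eq, ip_eq] at this
  linarith


lemma mem_dpairs_iff {v w : Fin n} (hvw : v ≠ w) {B' : Finset (Fin n)} :
    B' ∈ S0453D.dpairs ({v, w} : Finset (Fin n)) ↔ ∃ a b, Dist4 v w a b ∧ B' = {a, b} := by
  constructor
  · intro h
    obtain ⟨h1, h2⟩ := Finset.mem_filter.1 h
    obtain ⟨-, hc⟩ := Finset.mem_powersetCard.1 h1
    obtain ⟨a, b, hab, rfl⟩ := Finset.card_eq_two.1 hc
    refine ⟨a, b, ?_, rfl⟩
    rw [Finset.disjoint_left] at h2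
    have hv := h2 (a := v) (by simp)
    have hw := h2 (a := w) (by simp)
    simp only [Finset.mem_insert, Finset.mem_singleton, not_or] at hv hw
    exact ⟨hvw, hv.1, hv.2, hw.1, hw.2, hab⟩
  · rintro ⟨a, b, h, rfl⟩
    exact pair_mem_dpairs h

/-- ordered sums over `(x,y)` are twice the sums over pairs disjoint from `{v,w}` -/
lemma sum_ordered {v w : Fin n} (hvw : v ≠ w) (F : Finset (Fin n) → ℝ) :
    ∑ x, ∑ y, (if Dist4 v w x y then F {x, y} else 0)
      = 2 * ∑ B' ∈ S0453D.dpairs ({v, w} : Finset (Fin n)), F B' := by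
  classical
  rw [← Finset.sum_product' (s := univ) (t := univ)
    (f := fun x y => if Dist4 v w x y then F {x, y} else 0)]
  rw [← Finset.sum_filter]
  rw [← Finset.sum_fiberwise_of_maps_to (t := S0453D.dpairs ({v, w} : Finset (Fin n)))
    (g := fun p : Fin n × Fin n => ({p.1, p.2} : Finset (Fin n)))]
  · rw [Finset.mul_sum]
    apply Finset.sum_congr rfl
    intro B' hB'
    obtain ⟨a, b, h, rfl⟩ := (mem_dpairs_iff hvw).1 hB'
    have hab : a ≠ b := h.2.2.2.2.2
    have hset : (((univ : Finset (Fin n)) ×ˢ (univ : Finset (Fin n))).filter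
        (fun p => Dist4 v w p.1 p.2)).filter
        (fun p => ({p.1, p.2} : Finset (Fin n)) = {a, b}) = {(a, b), (b, a)} := by
      ext ⟨p, q⟩
      simp only [Finset.mem_filter, Finset.mem_product, Finset.mem_univ, true_and,
        Finset.mem_insert, Finset.mem_singleton, Prod.mk.injEq]
      constructor
      · rintro ⟨hd, he⟩
        have hp : p ∈ ({a, b} : Finset (Fin n)) := by rw [← he]; simp
        have hq : q ∈ ({a, b} : Finset (Fin n)) := by rw [← he]; simp
        have hpq : p ≠ q := hd.2.2.2.2.2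
        simp only [Finset.mem_insert, Finset.mem_singleton] at hp hq
        rcases hp with rfl | rfl <;> rcases hq with rfl | rfl <;> simp_all
      · rintro (⟨rfl, rfl⟩ | ⟨rfl, rfl⟩)
        · exact ⟨h, rfl⟩
        · exact ⟨dist4_swap h, Finset.pair_comm _ _⟩
    rw [hset, Finset.sum_pair (by simp [hab])]
    simp only
    rw [Finset.pair_comm b a]
    ring
  · intro p hp
    obtain ⟨-, hd⟩ := Finset.mem_filter.1 hp
    exact pair_mem_dpairs hd

/-- **Bridge for Claim B.** -/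
theorem claimB_of_BStmt (d : Fin n → ℕ) (hB : S0453D.BStmt d) : ClaimB d := by
  intro v w hvw f
  have := hB {v, w} (pair_mem_pairs hvw) f
  have e1 : ∑ x, ∑ y, (if Dist4 v w x y then nn d v w x y f else 0)
      = ∑ x, ∑ y, (if Dist4 v w x y then S0453D.nn d {v, w} {x, y} f else 0) := by
    apply Finset.sum_congr rfl; intro x _; apply Finset.sum_congr rfl; intro y _
    split_ifs with h
    · rw [nn_eq d h]
    · rfl
  have e2 : ∑ x, ∑ y, (if Dist4 v w x y then En d v w x y f else 0)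
      = ∑ x, ∑ y, (if Dist4 v w x y then 2 * S0453D.sw d {v, w} {x, y} f else 0) := by
    apply Finset.sum_congr rfl; intro x _; apply Finset.sum_congr rfl; intro y _
    split_ifs with h
    · rw [sw_eq d h]; ring
    · rfl
  rw [e1, e2, sum_ordered hvw (fun B' => S0453D.nn d {v, w} B' f),
    sum_ordered hvw (fun B' => 2 * S0453D.sw d {v, w} B' f), ← Finset.mul_sum]
  linarith

/-- **Bridge for the Johnson gap.** -/
theorem G4_of_JStmt (d : Fin n → ℕ) (hJ : S0453D.JStmt d) : G4 d := by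
  intro v w hvw f
  have := hJ {v, w} (pair_mem_pairs hvw) f
  have e2 : ∑ x, ∑ y, (if Dist4 v w x y then En d v w x y f else 0)
      = ∑ x, ∑ y, (if Dist4 v w x y then 2 * S0453D.sw d {v, w} {x, y} f else 0) := by
    apply Finset.sum_congr rfl; intro x _; apply Finset.sum_congr rfl; intro y _
    split_ifs with h
    · rw [sw_eq d h]; ring
    · rfl
  rw [e2, sum_ordered hvw (fun B' => 2 * S0453D.sw d {v, w} B' f), ← Finset.mul_sum]
  rw [pB_eq, ip_eq] at this
  linarith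

end Crest.Agent.S0453Bridge
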