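import Mathlib
import Crest.Prelude.Def_SwitchChain

/-!
Statement-side facts on the switch chain kernel of S0453: perfect matchings of a four-set,
degree preservation, symmetry and row sums of `proposalCount`.
-/

set_option autoImplicit false
open Finset

namespace Crest.Agent.S0453K

open Crest.SwitchChain

variable {n : ℕ}

/-- the edge `xy` -/
def mkE (x y : Fin n) (h : x ≠ y) : Edge n := ⟨s(x, y), by simpa [Sym2.mk_isDiag_iff] using h⟩

lemma mem_mkE {x y v : Fin n} (h : x ≠ y) : v ∈ (mkE x y h).1 ↔ v = x ∨ v = y := Sym2.mem_iff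

lemma edge_eq_mkE (e : Edge n) {x y : Fin n} (h : x ≠ y) (hx : x ∈ e.1) (hy : y ∈ e.1) :
    e = mkE x y h := Subtype.ext ((Sym2.mem_and_mem_iff h).1 ⟨hx, hy⟩)

lemma mkE_inj {a b c d : Fin n} (h : a ≠ b) (h' : c ≠ d) :
    mkE a b h = mkE c d h' ↔ (a = c ∧ b = d) ∨ (a = d ∧ b = c) := by
  simp [mkE, Subtype.ext_iff]

lemma mem_pmSet {S : Finset (Fin n)} {F : Finset (Edge n)} :
    F ∈ pmSet S ↔ F.card = 2 ∧ (∀ e ∈ F, ∀ v : Fin n, v ∈ e.1 → v ∈ S) ∧
      ∀ v ∈ S, (F.filter fun e => v ∈ e.1).card = 1 := by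
  simp [pmSet, Finset.mem_filter, Finset.mem_powersetCard]

lemma pm_mem {S : Finset (Fin n)} {a b c d : Fin n}
    (hS : ∀ v, v ∈ S ↔ v = a ∨ v = b ∨ v = c ∨ v = d)
    (hab : a ≠ b) (hac : a ≠ c) (had : a ≠ d) (hbc : b ≠ c) (hbd : b ≠ d) (hcd : c ≠ d) :
    ({mkE a b hab, mkE c d hcd} : Finset (Edge n)) ∈ pmSet S := by
  rw [mem_pmSet]
  have hne : mkE a b hab ≠ mkE c d hcd := by
    rw [Ne, mkE_inj]; tauto
  refine ⟨Finset.card_pair hne, ?_, ?_⟩
  · intro e he v hv
    rw [hS]
    simp only [Finset.mem_insert, Finset.mem_singleton] at he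
    rcases he with rfl | rfl
    · rw [mem_mkE] at hv; tauto
    · rw [mem_mkE] at hv; tauto
  · intro v hv
    rw [hS] at hv
    rcases hv with rfl | rfl | rfl | rfl
    · rw [Finset.filter_insert, Finset.filter_singleton]
      simp [mem_mkE, hac, had]
    · rw [Finset.filter_insert, Finset.filter_singleton]
      simp [mem_mkE, hbc, hbd]
    · rw [Finset.filter_insert, Finset.filter_singleton]
      simp [mem_mkE, hac.symm, hbc.symm]
    · rw [Finset.filter_insert, Finset.filter_singleton]
      simp [mem_mkE, had.symm, hbd.symm]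

lemma pm_exists_edge {S : Finset (Fin n)} {F : Finset (Edge n)} (hF : F ∈ pmSet S) {v : Fin n}
    (hv : v ∈ S) : ∃ e ∈ F, v ∈ e.1 := by
  rw [mem_pmSet] at hF
  have h := hF.2.2 v hv
  have : (F.filter fun e => v ∈ e.1).Nonempty := by
    rw [← Finset.card_pos, h]; exact one_pos
  obtain ⟨e, he⟩ := this
  rw [Finset.mem_filter] at he
  exact ⟨e, he.1, he.2⟩

lemma pm_partner {S : Finset (Fin n)} {F : Finset (Edge n)} (hF : F ∈ pmSet S) {a : Fin n}
    (ha : a ∈ S) : ∃ x, ∃ h : a ≠ x, x ∈ S ∧ mkE a x h ∈ F := by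
  obtain ⟨e, heF, hae⟩ := pm_exists_edge hF ha
  obtain ⟨x, hx⟩ := hae
  have hne : a ≠ x := by
    intro h
    apply e.2
    rw [hx, h]
    exact Sym2.mk_isDiag_iff.2 rfl
  have hxe : x ∈ e.1 := by rw [hx]; exact Sym2.mem_mk_right a x
  refine ⟨x, hne, (mem_pmSet.1 hF).2.1 e heF x hxe, ?_⟩
  have : e = mkE a x hne := Subtype.ext hx
  rw [← this]; exact heF

lemma pm_structure {S : Finset (Fin n)} {F : Finset (Edge n)} (hF : F ∈ pmSet S) {a x y z : Fin n}
    (hyS : y ∈ S) (hzS : z ∈ S)
    (hax : a ≠ x) (hay : a ≠ y) (haz : a ≠ z) (hxy : x ≠ y) (hxz : x ≠ z) (hyz : y ≠ z)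
    (hm : mkE a x hax ∈ F) : F = {mkE a x hax, mkE y z hyz} := by
  have hcard : (F.erase (mkE a x hax)).card = 1 := by
    rw [Finset.card_erase_of_mem hm, (mem_pmSet.1 hF).1]
  obtain ⟨w, hw⟩ := Finset.card_eq_one.1 hcard
  obtain ⟨e1, he1, hy1⟩ := pm_exists_edge hF hyS
  obtain ⟨e2, he2, hz2⟩ := pm_exists_edge hF hzS
  have h1 : e1 = w := by
    have : e1 ∈ F.erase (mkE a x hax) := by
      rw [Finset.mem_erase]
      refine ⟨?_, he1⟩
      rintro rfl
      rw [mem_mkE] at hy1
      rcases hy1 with h | h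
      · exact hay h.symm
      · exact hxy h.symm
    rw [hw] at this
    exact Finset.mem_singleton.1 this
  have h2 : e2 = w := by
    have : e2 ∈ F.erase (mkE a x hax) := by
      rw [Finset.mem_erase]
      refine ⟨?_, he2⟩
      rintro rfl
      rw [mem_mkE] at hz2
      rcases hz2 with h | h
      · exact haz h.symm
      · exact hxz h.symm
    rw [hw] at this
    exact Finset.mem_singleton.1 this
  have hwe : w = mkE y z hyz := edge_eq_mkE w hyz (h1 ▸ hy1) (h2 ▸ hz2)
  rw [← Finset.insert_erase hm, hw, hwe]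

lemma card_pmSet {S : Finset (Fin n)} (hS : S.card = 4) : (pmSet S).card = 3 := by
  obtain ⟨a, T, haT, rfl, hT⟩ := Finset.card_eq_succ.1 hS
  obtain ⟨b, c, d, hbc, hbd, hcd, rfl⟩ := Finset.card_eq_three.1 hT
  simp only [Finset.mem_insert, Finset.mem_singleton, not_or] at haT
  obtain ⟨hab, hac, had⟩ := haT
  have hS1 : ∀ v, v ∈ (insert a {b, c, d} : Finset (Fin n)) ↔ v = a ∨ v = b ∨ v = c ∨ v = d := by
    intro v; simp
  rw [Finset.card_eq_three]
  refine ⟨{mkE a b hab, mkE c d hcd}, {mkE a c hac, mkE b d hbd}, {mkE a d had, mkE b c hbc},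
    ?_, ?_, ?_, ?_⟩
  · intro h
    have : mkE a b hab ∈ ({mkE a c hac, mkE b d hbd} : Finset (Edge n)) := by
      rw [← h]; simp
    simp only [Finset.mem_insert, Finset.mem_singleton, mkE_inj] at this
    tauto
  · intro h
    have : mkE a b hab ∈ ({mkE a d had, mkE b c hbc} : Finset (Edge n)) := by
      rw [← h]; simp
    simp only [Finset.mem_insert, Finset.mem_singleton, mkE_inj] at this
    tauto
  · intro h
    have : mkE a c hac ∈ ({mkE a d had, mkE b c hbc} : Finset (Edge n)) := by
      rw [← h]; simp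
    simp only [Finset.mem_insert, Finset.mem_singleton, mkE_inj] at this
    tauto
  · ext F
    simp only [Finset.mem_insert, Finset.mem_singleton]
    constructor
    · intro hF
      obtain ⟨x, hax, hxS, hm⟩ := pm_partner hF ((hS1 a).2 (Or.inl rfl))
      rw [hS1] at hxS
      rcases hxS with rfl | rfl | rfl | rfl
      · exact absurd rfl hax
      · left
        exact pm_structure hF ((hS1 c).2 (by tauto)) ((hS1 d).2 (by tauto)) hax hac had hbc hbd hcd hm
      · right; left
        exact pm_structure hF ((hS1 b).2 (by tauto)) ((hS1 d).2 (by tauto)) hax hab had hbc.symm hcd hbd hm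
      · right; right
        exact pm_structure hF ((hS1 b).2 (by tauto)) ((hS1 c).2 (by tauto)) hax hab hac hbd.symm hcd.symm hbc hm
    · rintro (rfl | rfl | rfl)
      · exact pm_mem hS1 hab hac had hbc hbd hcd
      · exact pm_mem (fun v => by rw [hS1]; tauto) hac hab had hbc.symm hcd hbd
      · exact pm_mem (fun v => by rw [hS1]; tauto) had hab hac hbd.symm hcd.symm hbc

/-- the number of edges of a perfect matching on `S` at a vertex -/
lemma pm_deg {S : Finset (Fin n)} {F : Finset (Edge n)} (hF : F ∈ pmSet S) (v : Fin n) :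
    (F.filter fun e => v ∈ e.1).card = if v ∈ S then 1 else 0 := by
  by_cases hv : v ∈ S
  · rw [if_pos hv]; exact (mem_pmSet.1 hF).2.2 v hv
  · rw [if_neg hv, Finset.card_eq_zero, Finset.filter_eq_empty_iff]
    intro e he hve
    exact hv ((mem_pmSet.1 hF).2.1 e he v hve)

lemma deg_switchResult {S : Finset (Fin n)} {F F' : Finset (Edge n)} (hF : F ∈ pmSet S)
    (hF' : F' ∈ pmSet S) (E : Finset (Edge n)) (v : Fin n) :
    deg (switchResult E F F') v = deg E v := by
  unfold switchResult
  split_ifs with h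
  · obtain ⟨h1, h2⟩ := h
    unfold deg
    have hd : Disjoint (E \ F) F' := (h2.mono_right Finset.sdiff_subset).symm
    rw [Finset.filter_union, Finset.card_union_of_disjoint
      (Finset.disjoint_filter_filter hd), pm_deg hF' v, ← pm_deg hF v]
    have e1 : (E.filter fun e => v ∈ e.1) =
        ((E \ F).filter fun e => v ∈ e.1) ∪ (F.filter fun e => v ∈ e.1) := by
      rw [← Finset.filter_union, Finset.sdiff_union_of_subset h1]
    rw [e1, Finset.card_union_of_disjoint (Finset.disjoint_filter_filter Finset.sdiff_disjoint)]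
  · rfl

lemma switchResult_mem {S : Finset (Fin n)} {F F' : Finset (Edge n)} (hF : F ∈ pmSet S)
    (hF' : F' ∈ pmSet S) {d : Fin n → ℕ} {E : Finset (Edge n)} (hE : E ∈ realizations d) :
    switchResult E F F' ∈ realizations d := by
  simp only [realizations, Finset.mem_filter, Finset.mem_univ, true_and] at hE ⊢
  intro v
  rw [deg_switchResult hF hF', hE v]

lemma switchResult_symm {E E' F F' : Finset (Edge n)} (hne : E ≠ E')
    (h : switchResult E F F' = E') : switchResult E' F' F = E := by
  unfold switchResult at h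
  split_ifs at h with hc
  · obtain ⟨h1, h2⟩ := hc
    subst h
    unfold switchResult
    have c1 : F' ⊆ E \ F ∪ F' := Finset.subset_union_right
    have c2 : Disjoint F (E \ F ∪ F') := by
      rw [Finset.disjoint_union_right]
      exact ⟨Finset.disjoint_sdiff, (h2.mono_right h1).symm⟩
    rw [if_pos ⟨c1, c2⟩]
    ext e
    simp only [Finset.mem_union, Finset.mem_sdiff]
    constructor
    · rintro (⟨(⟨h3, _⟩ | h3), h4⟩ | h3)
      · exact h3
      · exact absurd h3 h4
      · exact h1 h3
    · intro he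
      by_cases heF : e ∈ F
      · right; exact heF
      · left
        exact ⟨Or.inl ⟨he, heF⟩, fun h5 => (Finset.disjoint_left.1 h2 h5) he⟩
  · exact absurd h hne

lemma switchResult_eq_iff {E E' F F' : Finset (Edge n)} (hne : E ≠ E') :
    switchResult E F F' = E' ↔ switchResult E' F' F = E :=
  ⟨switchResult_symm hne, switchResult_symm hne.symm⟩

lemma sum_erase_comm {β : Type*} [DecidableEq β] (P : Finset β) (g : β → β → ℕ) :
    ∑ F ∈ P, ∑ F' ∈ P.erase F, g F F' = ∑ F ∈ P, ∑ F' ∈ P.erase F, g F' F := by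
  have e : ∀ (g : β → β → ℕ), ∑ F ∈ P, ∑ F' ∈ P.erase F, g F F'
      = ∑ F ∈ P, ∑ F' ∈ P, if F' ≠ F then g F F' else 0 := by
    intro g
    apply Finset.sum_congr rfl
    intro F _
    rw [← Finset.sum_filter]
    apply Finset.sum_congr _ (fun _ _ => rfl)
    ext x; simp [Finset.mem_erase, and_comm]
  rw [e, e, Finset.sum_comm]
  apply Finset.sum_congr rfl
  intro F _
  apply Finset.sum_congr rfl
  intro F' _
  by_cases h : F = F'
  · simp [h]
  · simp [h, Ne.symm h]

lemma proposalCount_symm (E E' : Finset (Edge n)) : proposalCount E E' = proposalCount E' E := by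
  by_cases hne : E = E'
  · rw [hne]
  · unfold proposalCount
    apply Finset.sum_congr rfl
    intro S _
    rw [sum_erase_comm]
    apply Finset.sum_congr rfl
    intro F _
    apply Finset.sum_congr rfl
    intro F' _
    simp only [switchResult_eq_iff hne]

lemma sum_proposalCount (E : Finset (Edge n)) :
    ∑ E', proposalCount E E' = 6 * n.choose 4 := by
  unfold proposalCount
  rw [Finset.sum_comm]
  have h : ∀ S ∈ (univ : Finset (Fin n)).powersetCard 4,
      ∑ E' : Finset (Edge n), ∑ F ∈ pmSet S, ∑ F' ∈ (pmSet S).erase F,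
        (if switchResult E F F' = E' then 1 else 0) = 6 := by
    intro S hS
    have hc := card_pmSet (Finset.mem_powersetCard.1 hS).2
    rw [Finset.sum_comm]
    have h2 : ∀ F ∈ pmSet S, ∑ E' : Finset (Edge n), ∑ F' ∈ (pmSet S).erase F,
        (if switchResult E F F' = E' then 1 else 0) = 2 := by
      intro F hF
      rw [Finset.sum_comm]
      simp only [Finset.sum_ite_eq, Finset.mem_univ, if_true, Finset.sum_const, smul_eq_mul, mul_one]
      rw [Finset.card_erase_of_mem hF, hc]
    rw [Finset.sum_congr rfl h2, Finset.sum_const, hc]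
    rfl
  rw [Finset.sum_congr rfl h, Finset.sum_const, Finset.card_powersetCard, Finset.card_univ,
    Fintype.card_fin, smul_eq_mul, mul_comm]

lemma proposalCount_eq_zero {d : Fin n → ℕ} {E E' : Finset (Edge n)} (hE : E ∈ realizations d)
    (hE' : E' ∉ realizations d) : proposalCount E E' = 0 := by
  unfold proposalCount
  apply Finset.sum_eq_zero
  intro S _
  apply Finset.sum_eq_zero
  intro F hF
  apply Finset.sum_eq_zero
  intro F' hF'
  rw [if_neg]
  intro h
  exact hE' (h ▸ switchResult_mem hF (Finset.mem_of_mem_erase hF') hE)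

/-- the non-lazy half of the kernel -/
noncomputable def Qk (n : ℕ) : Matrix (Finset (Edge n)) (Finset (Edge n)) ℝ :=
  fun E E' => (proposalCount E E' : ℝ) / (12 * (n.choose 4 : ℝ))

lemma kernel_dec (E E' : Finset (Edge n)) :
    kernel n E E' = (if E = E' then 1 / 2 else 0) + Qk n E E' := rfl

lemma Qk_nonneg (E E' : Finset (Edge n)) : 0 ≤ Qk n E E' := by
  unfold Qk; positivity

lemma Qk_symm (E E' : Finset (Edge n)) : Qk n E E' = Qk n E' E := by
  unfold Qk; rw [proposalCount_symm]

lemma choose_pos (hn : 4 ≤ n) : (0 : ℝ) < (n.choose 4 : ℝ) := by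
  exact_mod_cast Nat.choose_pos hn

lemma Qk_row (hn : 4 ≤ n) (E : Finset (Edge n)) : ∑ E', Qk n E E' = 1 / 2 := by
  unfold Qk
  rw [← Finset.sum_div, ← Nat.cast_sum, sum_proposalCount]
  have := choose_pos hn
  push_cast
  field_simp
  ring

lemma Qk_supp {d : Fin n → ℕ} (E : Finset (Edge n)) (hE : E ∈ realizations d)
    (E' : Finset (Edge n)) (hE' : E' ∉ realizations d) : Qk n E E' = 0 := by
  unfold Qk; rw [proposalCount_eq_zero hE hE']; simp

/-- sum of `φ` over the outcomes of all proposals at `G` -/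
noncomputable def propSum (G : Finset (Edge n)) (φ : Finset (Edge n) → ℝ) : ℝ :=
  ∑ S ∈ (univ : Finset (Fin n)).powersetCard 4, ∑ F ∈ pmSet S, ∑ F' ∈ (pmSet S).erase F,
    φ (switchResult G F F')

lemma sum_pc_mul (G : Finset (Edge n)) (φ : Finset (Edge n) → ℝ) :
    ∑ G', (proposalCount G G' : ℝ) * φ G' = propSum G φ := by
  unfold proposalCount propSum
  push_cast
  simp only [Finset.sum_mul]
  rw [Finset.sum_comm]
  apply Finset.sum_congr rfl
  intro S _
  rw [Finset.sum_comm]
  apply Finset.sum_congr rfl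
  intro F _
  rw [Finset.sum_comm]
  apply Finset.sum_congr rfl
  intro F' _
  simp [ite_mul]

lemma sum_pc_mul_restrict {d : Fin n → ℕ} {G : Finset (Edge n)} (hG : G ∈ realizations d)
    (φ : Finset (Edge n) → ℝ) :
    ∑ G' ∈ realizations d, (proposalCount G G' : ℝ) * φ G' = propSum G φ := by
  rw [← sum_pc_mul]
  apply Finset.sum_subset (Finset.subset_univ _)
  intro G' _ h
  rw [proposalCount_eq_zero hG h]; simp

lemma propSum_one (G : Finset (Edge n)) : propSum G (fun _ => 1) = 6 * (n.choose 4 : ℝ) := by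
  rw [← sum_pc_mul]
  simp only [mul_one]
  rw [← Nat.cast_sum, sum_proposalCount]
  push_cast; ring

lemma sum_propSum (d : Fin n → ℕ) (φ : Finset (Edge n) → ℝ) :
    ∑ G ∈ realizations d, propSum G φ = 6 * (n.choose 4 : ℝ) * ∑ G ∈ realizations d, φ G := by
  calc ∑ G ∈ realizations d, propSum G φ
      = ∑ G ∈ realizations d, ∑ G' ∈ realizations d, (proposalCount G G' : ℝ) * φ G' :=
        Finset.sum_congr rfl (fun G hG => (sum_pc_mul_restrict hG φ).symm)
    _ = ∑ G' ∈ realizations d, ∑ G ∈ realizations d, (proposalCount G G' : ℝ) * φ G' :=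
        Finset.sum_comm
    _ = ∑ G' ∈ realizations d, (6 * (n.choose 4 : ℝ)) * φ G' := by
        apply Finset.sum_congr rfl
        intro G' hG'
        rw [← Finset.sum_mul]
        congr 1
        rw [← propSum_one G', ← sum_pc_mul_restrict hG']
        apply Finset.sum_congr rfl
        intro G _
        rw [proposalCount_symm, mul_one]
    _ = 6 * (n.choose 4 : ℝ) * ∑ G ∈ realizations d, φ G := by rw [Finset.mul_sum]

lemma propSum_add (G : Finset (Edge n)) (φ ψ : Finset (Edge n) → ℝ) :
    propSum G (fun x => φ x + ψ x) = propSum G φ + propSum G ψ := by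
  unfold propSum; simp only [Finset.sum_add_distrib]

lemma propSum_smul (G : Finset (Edge n)) (c : ℝ) (φ : Finset (Edge n) → ℝ) :
    propSum G (fun x => c * φ x) = c * propSum G φ := by
  unfold propSum; simp only [Finset.mul_sum]

/-- the switch energy: sum over realizations and proposals of the squared increments -/
noncomputable def energy (d : Fin n → ℕ) (f : Finset (Edge n) → ℝ) : ℝ :=
  ∑ G ∈ realizations d, propSum G (fun G' => (f G - f G') ^ 2)

lemma energy_eq (d : Fin n → ℕ) (f : Finset (Edge n) → ℝ) :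
    energy d f = 12 * (n.choose 4 : ℝ) * ∑ G ∈ realizations d, f G ^ 2
      - 2 * ∑ G ∈ realizations d, f G * propSum G f := by
  unfold energy
  have e : ∀ G : Finset (Edge n), propSum G (fun G' => (f G - f G') ^ 2)
      = f G ^ 2 * (6 * (n.choose 4 : ℝ)) + (-(2 * f G)) * propSum G f
        + propSum G (fun G' => f G' ^ 2) := by
    intro G
    rw [← propSum_one G, ← propSum_smul, ← propSum_smul, ← propSum_add, ← propSum_add]
    congr 1
    funext G'
    ring
  simp only [e, Finset.sum_add_distrib]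
  have a1 : ∑ G ∈ realizations d, f G ^ 2 * (6 * (n.choose 4 : ℝ))
      = 6 * (n.choose 4 : ℝ) * ∑ G ∈ realizations d, f G ^ 2 := by
    rw [← Finset.sum_mul]; ring
  have a2 : ∑ G ∈ realizations d, -(2 * f G) * propSum G f
      = -2 * ∑ G ∈ realizations d, f G * propSum G f := by
    rw [Finset.mul_sum]
    apply Finset.sum_congr rfl
    intro G _; ring
  rw [a1, a2, sum_propSum d (fun G' => f G' ^ 2)]
  ring

/-- The Dirichlet form of the statement in terms of the switch energy. -/
lemma dirichlet_eq (hn : 4 ≤ n) (d : Fin n → ℕ) (f : Finset (Edge n) → ℝ) :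
    ∑ G ∈ realizations d, f G * (f G - ∑ G' ∈ realizations d, kernel n G G' * f G')
      = energy d f / (24 * (n.choose 4 : ℝ)) := by
  have hc := choose_pos hn
  have e : ∀ G ∈ realizations d, ∑ G' ∈ realizations d, kernel n G G' * f G'
      = f G / 2 + propSum G f / (12 * (n.choose 4 : ℝ)) := by
    intro G hG
    rw [← sum_pc_mul_restrict hG f, Finset.sum_div]
    simp only [kernel_dec, Qk, add_mul, Finset.sum_add_distrib]
    congr 1
    · simp [ite_mul, hG]; ring
    · apply Finset.sum_congr rfl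
      intro G' _; ring
  rw [energy_eq]
  have e2 : ∑ G ∈ realizations d, f G * (f G - ∑ G' ∈ realizations d, kernel n G G' * f G')
      = ∑ G ∈ realizations d, ((1 / 2) * f G ^ 2 - (f G * propSum G f) / (12 * (n.choose 4 : ℝ))) := by
    apply Finset.sum_congr rfl
    intro G hG
    rw [e G hG]; ring
  rw [e2, Finset.sum_sub_distrib, ← Finset.mul_sum, ← Finset.sum_div]
  field_simp
  ring

/-- The Poincare half of S0453 in terms of the switch energy
(`λ₂ ≥ 1/(2n²)` for the unweighted switch graph; every switch is counted twice in `energy`). -/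
theorem poincare_of_energy (hn : 4 ≤ n) (d : Fin n → ℕ)
    (h : ∀ f : Finset (Edge n) → ℝ,
      ((realizations d).card : ℝ) * (∑ G ∈ realizations d, f G ^ 2) -
          (∑ G ∈ realizations d, f G) ^ 2 ≤ (n : ℝ) ^ 2 * (realizations d).card * energy d f)
    (f : Finset (Edge n) → ℝ) :
    ((realizations d).card : ℝ) * (∑ G ∈ realizations d, f G ^ 2) -
        (∑ G ∈ realizations d, f G) ^ 2 ≤
      24 * (n : ℝ) ^ 2 * (n.choose 4 : ℝ) * (realizations d).card *
        ∑ G ∈ realizations d, f G * (f G - ∑ G' ∈ realizations d, kernel n G G' * f G') := by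
  have hc := choose_pos hn
  rw [dirichlet_eq hn]
  refine le_trans (h f) (le_of_eq ?_)
  field_simp

end Crest.Agent.S0453K
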