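import Mathlib
import Crest.Prelude.Def_SwitchChain
import Crest.Agent.S0453_Kernel

/-!
S0453: connectivity of the switch graph, in the form "a function on the realizations which is
invariant under all proposals is constant".
-/

set_option autoImplicit false
open Finset

namespace Crest.Agent.S0453C

open Crest.SwitchChain Crest.Agent.S0453K
open scoped Classical

variable {n : ℕ}

/-- adjacency in the graph with edge set `G` -/
def adj (G : Finset (Edge n)) (x y : Fin n) : Prop := ∃ h : x ≠ y, mkE x y h ∈ G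

lemma adj_iff {G : Finset (Edge n)} {x y : Fin n} (h : x ≠ y) : adj G x y ↔ mkE x y h ∈ G :=
  ⟨fun ⟨_, hm⟩ => hm, fun hm => ⟨h, hm⟩⟩

lemma mkE_comm {x y : Fin n} (h : x ≠ y) : mkE x y h = mkE y x h.symm := Subtype.ext Sym2.eq_swap

lemma adj_symm {G : Finset (Edge n)} {x y : Fin n} : adj G x y → adj G y x :=
  fun ⟨h, hm⟩ => ⟨h.symm, by rw [← mkE_comm]; exact hm⟩

lemma adj_comm {G : Finset (Edge n)} {x y : Fin n} : adj G x y ↔ adj G y x := ⟨adj_symm, adj_symm⟩

lemma adj_ne {G : Finset (Edge n)} {x y : Fin n} : adj G x y → x ≠ y := fun ⟨h, _⟩ => h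

lemma exists_mkE (e : Edge n) : ∃ x y, ∃ h : x ≠ y, e = mkE x y h := by
  obtain ⟨s, hs⟩ := e
  induction s using Sym2.ind with
  | _ x y => exact ⟨x, y, by simpa [Sym2.mk_isDiag_iff] using hs, rfl⟩

lemma ext_adj {G G' : Finset (Edge n)} (h : ∀ x y, adj G x y ↔ adj G' x y) : G = G' := by
  ext e
  obtain ⟨x, y, hxy, rfl⟩ := exists_mkE e
  rw [← adj_iff, ← adj_iff]; exact h x y

/-- neighbourhood -/
noncomputable def nb (G : Finset (Edge n)) (v : Fin n) : Finset (Fin n) :=
  univ.filter (fun x => adj G v x)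

lemma mem_nb {G : Finset (Edge n)} {v x : Fin n} : x ∈ nb G v ↔ adj G v x := by
  simp [nb]

lemma deg_eq_card_nb (G : Finset (Edge n)) (v : Fin n) : deg G v = (nb G v).card := by
  symm
  unfold deg
  apply Finset.card_bij (fun x hx => mkE v x (adj_ne (mem_nb.1 hx)))
  · intro x hx
    rw [Finset.mem_filter]
    exact ⟨(adj_iff _).1 (mem_nb.1 hx), (mem_mkE _).2 (Or.inl rfl)⟩
  · intro x hx x' hx' h
    rw [mkE_inj] at h
    rcases h with h | h
    · exact h.2
    · exact absurd h.2.symm (adj_ne (mem_nb.1 hx))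
  · intro e he
    rw [Finset.mem_filter] at he
    obtain ⟨heG, x, hx⟩ := he
    have hne : v ≠ x := by
      intro h
      apply e.2
      rw [hx, h]
      exact Sym2.mk_isDiag_iff.2 rfl
    have he' : e = mkE v x hne := Subtype.ext hx
    refine ⟨x, mem_nb.2 ⟨hne, he' ▸ heG⟩, he'.symm⟩

/-- invariance of `f` under all proposals from realizations of `d` -/
def Inv (d : Fin n → ℕ) (f : Finset (Edge n) → ℝ) : Prop :=
  ∀ G ∈ realizations d, ∀ S ∈ (univ : Finset (Fin n)).powersetCard 4, ∀ F ∈ pmSet S,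
    ∀ F' ∈ (pmSet S).erase F, f (switchResult G F F') = f G

lemma switch_exists {d : Fin n → ℕ} {f : Finset (Edge n) → ℝ} (hf : Inv d f)
    {G : Finset (Edge n)} (hG : G ∈ realizations d) {w x y z : Fin n}
    (hwx : w ≠ x) (hwy : w ≠ y) (hwz : w ≠ z) (hxy : x ≠ y) (hxz : x ≠ z) (hyz : y ≠ z)
    (h1 : adj G w y) (h2 : adj G x z) (h3 : ¬ adj G w x) (h4 : ¬ adj G y z) :
    ∃ G1 ∈ realizations d, f G1 = f G ∧ ∀ p q, adj G1 p q ↔
      (adj G p q ∧ ¬ ((p = w ∧ q = y) ∨ (p = y ∧ q = w)) ∧ ¬ ((p = x ∧ q = z) ∨ (p = z ∧ q = x)))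
        ∨ ((p = w ∧ q = x) ∨ (p = x ∧ q = w)) ∨ ((p = y ∧ q = z) ∨ (p = z ∧ q = y)) := by
  set S : Finset (Fin n) := {w, y, x, z} with hSdef
  have hS1 : ∀ v, v ∈ S ↔ v = w ∨ v = y ∨ v = x ∨ v = z := by intro v; simp [hSdef]
  have hS2 : ∀ v, v ∈ S ↔ v = w ∨ v = x ∨ v = y ∨ v = z := by intro v; rw [hS1]; tauto
  have hcard : S.card = 4 := by
    rw [hSdef, Finset.card_insert_of_notMem, Finset.card_insert_of_notMem,
      Finset.card_insert_of_notMem, Finset.card_singleton]
    · simp [hxz]
    · simp [hxy.symm, hyz]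
    · simp [hwy, hwx, hwz]
  set F : Finset (Edge n) := {mkE w y hwy, mkE x z hxz} with hF
  set F' : Finset (Edge n) := {mkE w x hwx, mkE y z hyz} with hF'
  have hFm : F ∈ pmSet S := pm_mem hS1 hwy hwx hwz hxy.symm hyz hxz
  have hF'm : F' ∈ pmSet S := pm_mem hS2 hwx hwy hwz hxy hxz hyz
  have hne : F' ≠ F := by
    intro h
    have : mkE w x hwx ∈ F := by rw [← h, hF']; simp
    rw [hF] at this
    simp only [Finset.mem_insert, Finset.mem_singleton, mkE_inj] at this
    tauto
  have hsub : F ⊆ G := by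
    intro e he
    rw [hF] at he
    simp only [Finset.mem_insert, Finset.mem_singleton] at he
    rcases he with rfl | rfl
    · exact (adj_iff _).1 h1
    · exact (adj_iff _).1 h2
  have hdis : Disjoint F' G := by
    rw [Finset.disjoint_left]
    intro e he heG
    rw [hF'] at he
    simp only [Finset.mem_insert, Finset.mem_singleton] at he
    rcases he with rfl | rfl
    · exact h3 ((adj_iff _).2 heG)
    · exact h4 ((adj_iff _).2 heG)
  have hSm : S ∈ (univ : Finset (Fin n)).powersetCard 4 :=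
    Finset.mem_powersetCard.2 ⟨Finset.subset_univ _, hcard⟩
  refine ⟨switchResult G F F', switchResult_mem hFm hF'm hG,
    hf G hG S hSm F hFm F' (Finset.mem_erase.2 ⟨hne, hF'm⟩), ?_⟩
  intro p q
  have hsr : switchResult G F F' = G \ F ∪ F' := by
    unfold switchResult; rw [if_pos ⟨hsub, hdis⟩]
  rw [hsr]
  by_cases hpq : p = q
  · subst hpq
    constructor
    · intro h; exact absurd rfl (adj_ne h)
    · rintro (⟨h, _⟩ | (⟨h, h'⟩ | ⟨h, h'⟩) | (⟨h, h'⟩ | ⟨h, h'⟩))
      · exact absurd rfl (adj_ne h)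
      · exact absurd (h.symm.trans h') hwx
      · exact absurd (h'.symm.trans h) hwx
      · exact absurd (h.symm.trans h') hyz
      · exact absurd (h'.symm.trans h) hyz
  · rw [adj_iff hpq, adj_iff hpq, hF, hF']
    simp only [Finset.mem_union, Finset.mem_sdiff, Finset.mem_insert, Finset.mem_singleton, mkE_inj,
      not_or]

/-- the rows of all vertices of index `< k` agree -/
def AgreeBelow (k : ℕ) (G G' : Finset (Edge n)) : Prop :=
  ∀ z : Fin n, z.val < k → ∀ x, adj G z x ↔ adj G' z x

lemma AgreeBelow.symm {k : ℕ} {G G' : Finset (Edge n)} (h : AgreeBelow k G G') :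
    AgreeBelow k G' G := fun z hz x => (h z hz x).symm

noncomputable def lo (k : ℕ) (G : Finset (Edge n)) (x : Fin n) : Finset (Fin n) :=
  (nb G x).filter (fun z => z.val < k)

noncomputable def up (k : ℕ) (G : Finset (Edge n)) (x : Fin n) : Finset (Fin n) :=
  (nb G x).filter (fun z => ¬ z.val < k)

lemma mem_up {k : ℕ} {G : Finset (Edge n)} {x z : Fin n} :
    z ∈ up k G x ↔ adj G x z ∧ ¬ z.val < k := by
  simp [up, mem_nb]

lemma card_lo_add_up (k : ℕ) (G : Finset (Edge n)) (x : Fin n) :
    (lo k G x).card + (up k G x).card = (nb G x).card :=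
  Finset.card_filter_add_card_filter_not _

lemma lo_eq {k : ℕ} {G G' : Finset (Edge n)} (h : AgreeBelow k G G') (x : Fin n) :
    lo k G x = lo k G' x := by
  ext z
  simp only [lo, Finset.mem_filter, mem_nb]
  constructor
  · rintro ⟨h1, h2⟩; exact ⟨adj_symm ((h z h2 x).1 (adj_symm h1)), h2⟩
  · rintro ⟨h1, h2⟩; exact ⟨adj_symm ((h z h2 x).2 (adj_symm h1)), h2⟩

lemma card_nb_of_mem {d : Fin n → ℕ} {G : Finset (Edge n)} (hG : G ∈ realizations d) (x : Fin n) :
    (nb G x).card = d x := by
  rw [← deg_eq_card_nb]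
  simp only [realizations, Finset.mem_filter, Finset.mem_univ, true_and] at hG
  exact hG x

lemma card_up_eq {d : Fin n → ℕ} {k : ℕ} {G G' : Finset (Edge n)} (hG : G ∈ realizations d)
    (hG' : G' ∈ realizations d) (h : AgreeBelow k G G') (x : Fin n) :
    (up k G x).card = (up k G' x).card := by
  have h1 := card_lo_add_up k G x
  have h2 := card_lo_add_up k G' x
  rw [card_nb_of_mem hG] at h1
  rw [card_nb_of_mem hG', ← lo_eq h x] at h2
  omega

lemma find_z (G : Finset (Edge n)) (k : ℕ) {w x y : Fin n} (hw : ¬ w.val < k) (hx : ¬ x.val < k)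
    (hwx : w ≠ x) (h1 : adj G w y) (h3 : ¬ adj G w x)
    (hcard : (up k G y).card ≤ (up k G x).card) :
    ∃ z, ¬ z.val < k ∧ adj G x z ∧ ¬ adj G y z ∧ z ≠ y ∧ z ≠ w ∧ z ≠ x := by
  by_contra hcon
  have hcon' : ∀ z, ¬ z.val < k → adj G x z → z ≠ y → adj G y z := by
    intro z hz hxz hzy
    by_contra hyz
    apply hcon
    refine ⟨z, hz, hxz, hyz, hzy, ?_, (adj_ne hxz).symm⟩
    rintro rfl
    exact h3 (adj_symm hxz)
  have hwmem : w ∈ up k G y := mem_up.2 ⟨adj_symm h1, hw⟩
  have hle : (up k G x).card ≤ ((up k G y).erase w).card := by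
    apply Finset.card_le_card_of_injOn (fun z => if z = y then x else z)
    · intro z hz
      have hz' := mem_up.1 hz
      show (if z = y then x else z) ∈ ((up k G y).erase w : Finset (Fin n))
      by_cases hzy : z = y
      · rw [if_pos hzy, Finset.mem_erase]
        refine ⟨hwx.symm, mem_up.2 ⟨?_, hx⟩⟩
        rw [← hzy]; exact adj_symm hz'.1
      · rw [if_neg hzy, Finset.mem_erase]
        refine ⟨?_, mem_up.2 ⟨hcon' z hz'.2 hz'.1 hzy, hz'.2⟩⟩
        rintro rfl
        exact h3 (adj_symm hz'.1)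
    · intro z hz z' hz' heq
      have hz1 := (mem_up.1 hz).1
      have hz2 := (mem_up.1 hz').1
      simp only at heq
      by_cases h : z = y <;> by_cases h' : z' = y
      · rw [h, h']
      · rw [if_pos h, if_neg h'] at heq
        exact absurd heq (adj_ne hz2)
      · rw [if_neg h, if_pos h'] at heq
        exact absurd heq.symm (adj_ne hz1)
      · rw [if_neg h, if_neg h'] at heq
        exact heq
  rw [Finset.card_erase_of_mem hwmem] at hle
  have : 0 < (up k G y).card := Finset.card_pos.2 ⟨w, hwmem⟩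
  omega

/-- the places where the rows of `w` differ -/
noncomputable def dif (w : Fin n) (G G' : Finset (Edge n)) : Finset (Fin n) :=
  univ.filter (fun q => ¬ (adj G w q ↔ adj G' w q))

lemma mem_dif {w q : Fin n} {G G' : Finset (Edge n)} :
    q ∈ dif w G G' ↔ ¬ (adj G w q ↔ adj G' w q) := by simp [dif]

lemma dif_comm (w : Fin n) (G G' : Finset (Edge n)) : dif w G G' = dif w G' G := by
  ext q; rw [mem_dif, mem_dif]; exact not_congr iff_comm

lemma reduce {d : Fin n → ℕ} {f : Finset (Edge n) → ℝ} (hf : Inv d f) (k : ℕ) (w : Fin n)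
    (hwk : w.val = k) {G G' : Finset (Edge n)} (hG : G ∈ realizations d)
    (hag : AgreeBelow k G G') {x y : Fin n}
    (hy : adj G w y) (hy' : ¬ adj G' w y) (hx : adj G' w x) (hx' : ¬ adj G w x)
    (hc : (up k G y).card ≤ (up k G x).card) :
    ∃ G1 ∈ realizations d, f G1 = f G ∧ AgreeBelow k G1 G' ∧
      (dif w G1 G').card < (dif w G G').card := by
  have hwk' : ¬ w.val < k := by omega
  have hyk : ¬ y.val < k := by
    intro h
    exact hy' (adj_symm ((hag y h w).1 (adj_symm hy)))
  have hxk : ¬ x.val < k := by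
    intro h
    exact hx' (adj_symm ((hag x h w).2 (adj_symm hx)))
  have hwy : w ≠ y := adj_ne hy
  have hwx : w ≠ x := adj_ne hx
  have hxy : x ≠ y := by rintro rfl; exact hx' hy
  obtain ⟨z, hzk, hxz, hyz, hzy, hzw, hzx⟩ := find_z G k hwk' hxk hwx hy hx' hc
  obtain ⟨G1, hG1, hfG1, hadj⟩ :=
    switch_exists hf hG hwx hwy hzw.symm hxy hzx.symm hzy.symm hy hxz hx' hyz
  refine ⟨G1, hG1, hfG1, ?_, ?_⟩
  · intro p hp q
    have p1 : p ≠ w := by rintro rfl; exact hwk' hp
    have p2 : p ≠ x := by rintro rfl; exact hxk hp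
    have p3 : p ≠ y := by rintro rfl; exact hyk hp
    have p4 : p ≠ z := by rintro rfl; exact hzk hp
    rw [hadj p q, ← hag p hp q]
    simp [p1, p2, p3, p4]
  · have hw1 : ∀ q, adj G1 w q ↔ (adj G w q ∧ q ≠ y) ∨ q = x := by
      intro q
      rw [hadj w q]
      simp [hwx, hwy, hzw.symm]
    apply Finset.card_lt_card
    rw [Finset.ssubset_iff_of_subset]
    · refine ⟨y, mem_dif.2 (fun h => hy' (h.1 hy)), ?_⟩
      rw [mem_dif, hw1 y]
      simp [hxy.symm, hy']
    · intro q hq
      rw [mem_dif, hw1 q] at hq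
      rw [mem_dif]
      intro h
      apply hq
      by_cases hqy : q = y
      · subst hqy
        simp [hxy.symm, hy']
      · by_cases hqx : q = x
        · subst hqx
          simp [hx]
        · simp [hqy, hqx, h]

lemma inner {d : Fin n → ℕ} {f : Finset (Edge n) → ℝ} (hf : Inv d f) (k : ℕ) (w : Fin n)
    (hwk : w.val = k)
    (ih : ∀ G ∈ realizations d, ∀ G' ∈ realizations d, AgreeBelow (k + 1) G G' → f G = f G') :
    ∀ m : ℕ, ∀ G ∈ realizations d, ∀ G' ∈ realizations d, AgreeBelow k G G' →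
      (dif w G G').card = m → f G = f G' := by
  intro m
  induction m using Nat.strong_induction_on with
  | _ m IH =>
    intro G hG G' hG' hag hm
    by_cases hemp : dif w G G' = ∅
    · apply ih G hG G' hG'
      intro z hz x
      by_cases hzk : z.val < k
      · exact hag z hzk x
      · have hzw : z = w := Fin.ext (by omega)
        subst hzw
        by_contra hne
        have : x ∈ dif z G G' := mem_dif.2 hne
        rw [hemp] at this
        exact absurd this (Finset.notMem_empty x)
    · have hcard : (nb G w).card = (nb G' w).card := by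
        rw [card_nb_of_mem hG, card_nb_of_mem hG']
      have hsd : (nb G w \ nb G' w).card = (nb G' w \ nb G w).card := Finset.card_sdiff_comm hcard
      obtain ⟨q, hq⟩ := Finset.nonempty_iff_ne_empty.2 hemp
      rw [mem_dif] at hq
      have hpos : 0 < (nb G w \ nb G' w).card := by
        by_cases h1 : adj G w q
        · have h2 : ¬ adj G' w q := fun h2 => hq ⟨fun _ => h2, fun _ => h1⟩
          exact Finset.card_pos.2 ⟨q, Finset.mem_sdiff.2 ⟨mem_nb.2 h1, fun h => h2 (mem_nb.1 h)⟩⟩
        · have h2 : adj G' w q := by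
            by_contra h2
            exact hq ⟨fun h => absurd h h1, fun h => absurd h h2⟩
          rw [hsd]
          exact Finset.card_pos.2 ⟨q, Finset.mem_sdiff.2 ⟨mem_nb.2 h2, fun h => h1 (mem_nb.1 h)⟩⟩
      obtain ⟨y, hyy⟩ := Finset.card_pos.1 hpos
      obtain ⟨x, hxx⟩ := Finset.card_pos.1 (hsd ▸ hpos)
      rw [Finset.mem_sdiff, mem_nb, mem_nb] at hyy hxx
      rcases le_total (up k G y).card (up k G x).card with hc | hc
      · obtain ⟨G1, hG1, hf1, hag1, hlt⟩ := reduce hf k w hwk hG hag hyy.1 hyy.2 hxx.1 hxx.2 hc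
        rw [← hf1]
        exact IH _ (hm ▸ hlt) G1 hG1 G' hG' hag1 rfl
      · rw [card_up_eq hG hG' hag x, card_up_eq hG hG' hag y] at hc
        obtain ⟨G1, hG1, hf1, hag1, hlt⟩ :=
          reduce hf k w hwk hG' hag.symm hxx.1 hxx.2 hyy.1 hyy.2 hc
        rw [← hf1]
        rw [dif_comm w G' G] at hlt
        exact (IH _ (hm ▸ hlt) G1 hG1 G hG hag1 rfl).symm

/-- Connectivity of the switch graph: a function invariant under all proposals is constant on
the realizations. -/
theorem const_of_switch_invariant (d : Fin n → ℕ) (f : Finset (Edge n) → ℝ)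
    (hf : ∀ G ∈ realizations d, ∀ S ∈ (univ : Finset (Fin n)).powersetCard 4, ∀ F ∈ pmSet S,
      ∀ F' ∈ (pmSet S).erase F, f (switchResult G F F') = f G) :
    ∀ G ∈ realizations d, ∀ G' ∈ realizations d, f G = f G' := by
  have key : ∀ j : ℕ, ∀ G ∈ realizations d, ∀ G' ∈ realizations d,
      AgreeBelow (n - j) G G' → f G = f G' := by
    intro j
    induction j with
    | zero =>
      intro G _ G' _ h
      have : G = G' := ext_adj (fun x y => h x (by simp) y)
      rw [this]
    | succ j ih =>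
      intro G hG G' hG' h
      by_cases hj : j < n
      · have hk : n - (j + 1) < n := by omega
        have ih' : ∀ G ∈ realizations d, ∀ G' ∈ realizations d,
            AgreeBelow (n - (j + 1) + 1) G G' → f G = f G' := by
          have e : n - (j + 1) + 1 = n - j := by omega
          rw [e]; exact ih
        exact inner hf (n - (j + 1)) ⟨n - (j + 1), hk⟩ rfl ih' _ G hG G' hG' h rfl
      · have e : n - (j + 1) = n - j := by omega
        rw [e] at h
        exact ih G hG G' hG' h
  intro G hG G' hG'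
  apply key n G hG G' hG'
  intro z hz
  simp at hz

end Crest.Agent.S0453C
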