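import Mathlib
import Crest.Agent.S0453_CoreLemmas
import Crest.Agent.S0453D
import Crest.Agent.S0453_CE

/-!
# Row 299 (S0453): the three copies of `fib / cE / ip` are the same objects (all `rfl`)
-/

set_option autoImplicit false
set_option linter.unusedSectionVars false
open Finset

namespace Crest.Agent.S0453CoreBridge

variable {α β : Type*} [DecidableEq α] [DecidableEq β]

lemma D_ip (Ω : Finset α) (f g : α → ℝ) : S0453D.ip Ω f g = S0453Core.ip Ω f g := rfl

lemma D_fib (Ω : Finset α) (π : α → β) (ω : α) : S0453D.fib Ω π ω = S0453Core.fib Ω π ω := rfl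

lemma D_cE (Ω : Finset α) (π : α → β) (f : α → ℝ) : S0453D.cE Ω π f = S0453Core.cE Ω π f := rfl

lemma D_cE_apply (Ω : Finset α) (π : α → β) (f : α → ℝ) (ω : α) :
    S0453D.cE Ω π f ω = S0453Core.cE Ω π f ω := rfl

omit [DecidableEq α] in
lemma CE_fib (X : Finset α) (k : α → β) (x : α) : S0453CE.fib X k (k x) = S0453Core.fib X k x := rfl

omit [DecidableEq α] in
lemma CE_ce (X : Finset α) (k : α → β) (F : α → ℝ) : S0453CE.ce X k F = S0453Core.cE X k F := rfl

omit [DecidableEq α] in
lemma CE_ce_apply (X : Finset α) (k : α → β) (F : α → ℝ) (x : α) :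
    S0453CE.ce X k F x = S0453Core.cE X k F x := rfl

omit [DecidableEq α] in
lemma CE_Meas (X : Finset α) (k : α → β) (G : α → ℝ) :
    S0453CE.Meas X k G ↔ S0453Core.Meas X k G := Iff.rfl

end Crest.Agent.S0453CoreBridge
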