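import Mathlib
import Crest.Agent.S0453_Defs
import Crest.Agent.S0453PM
import Crest.Agent.S0453Red

/-!
# Row 299 (S0453): `∑_{Dist4} En = 8 * dir`
-/

set_option autoImplicit false
open Finset

namespace Crest.Agent.S0453Dir
open Crest.SwitchChain Crest.Agent.S0453Core Crest.Agent.S0453Defs Crest.Agent.S0453PM

section count
variable {α : Type*} [Fintype α] [DecidableEq α]

/-- double counting of pairs `(S, a)`, `a ∉ S`. -/
lemma sum_insert_powersetCard (k : ℕ) (g : Finset α → ℝ) :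
    ∑ S ∈ (univ : Finset α).powersetCard k, ∑ a ∈ univ \ S, g (insert a S)
      = ((k : ℝ) + 1) * ∑ S ∈ (univ : Finset α).powersetCard (k + 1), g S := by
  have h1 : ∑ S ∈ (univ : Finset α).powersetCard (k + 1), ∑ _a ∈ S, g S
      = ((k : ℝ) + 1) * ∑ S ∈ (univ : Finset α).powersetCard (k + 1), g S := by
    rw [Finset.mul_sum]
    apply Finset.sum_congr rfl
    intro S hS
    rw [Finset.sum_const, (Finset.mem_powersetCard.mp hS).2, nsmul_eq_mul]
    push_cast
    ring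
  rw [← h1, Finset.sum_sigma', Finset.sum_sigma']
  refine Finset.sum_nbij' (fun p => ⟨insert p.2 p.1, p.2⟩) (fun p => ⟨p.1.erase p.2, p.2⟩)
    ?_ ?_ ?_ ?_ ?_
  · rintro ⟨S, a⟩ h
    simp only [Finset.mem_sigma, Finset.mem_powersetCard, Finset.mem_sdiff, Finset.mem_univ,
      true_and, Finset.subset_univ] at h ⊢
    exact ⟨by rw [Finset.card_insert_of_notMem h.2, h.1], Finset.mem_insert_self _ _⟩
  · rintro ⟨S, a⟩ h
    simp only [Finset.mem_sigma, Finset.mem_powersetCard, Finset.mem_sdiff, Finset.mem_univ,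
      true_and, Finset.subset_univ] at h ⊢
    exact ⟨by rw [Finset.card_erase_of_mem h.2, h.1]; rfl, Finset.notMem_erase _ _⟩
  · rintro ⟨S, a⟩ h
    simp only [Finset.mem_sigma, Finset.mem_powersetCard, Finset.mem_sdiff, Finset.mem_univ,
      true_and, Finset.subset_univ] at h
    simp [Finset.erase_insert h.2]
  · rintro ⟨S, a⟩ h
    simp only [Finset.mem_sigma, Finset.mem_powersetCard, Finset.mem_sdiff, Finset.mem_univ,
      true_and, Finset.subset_univ] at h
    simp [Finset.insert_erase h.2]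
  · rintro ⟨S, a⟩ h
    rfl

lemma sum_sdiff_eq_ite (S : Finset α) (h : α → ℝ) :
    ∑ a ∈ univ \ S, h a = ∑ a, if a ∉ S then h a else 0 := by
  rw [Finset.sdiff_eq_filter, Finset.sum_filter]

lemma sum_insert_powersetCard' (k : ℕ) (g : Finset α → ℝ) (c : ℝ) (hc : c = (k : ℝ) + 1) :
    ∑ S ∈ (univ : Finset α).powersetCard k, ∑ a ∈ univ \ S, g (insert a S)
      = c * ∑ S ∈ (univ : Finset α).powersetCard (k + 1), g S := by
  rw [hc]; exact sum_insert_powersetCard k g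

/-- every 4-set is enumerated by 24 ordered tuples. -/
lemma sum_tuples (g : Finset α → ℝ) :
    ∑ v : α, ∑ w : α, ∑ x : α, ∑ y : α,
      (if (v ≠ w ∧ v ≠ x ∧ v ≠ y ∧ w ≠ x ∧ w ≠ y ∧ x ≠ y) then g {v, w, x, y} else 0)
      = 24 * ∑ S ∈ (univ : Finset α).powersetCard 4, g S := by
  set g3 : Finset α → ℝ := fun S => ∑ a ∈ univ \ S, g (insert a S) with hg3
  set g2 : Finset α → ℝ := fun S => ∑ a ∈ univ \ S, g3 (insert a S) with hg2
  set g1 : Finset α → ℝ := fun S => ∑ a ∈ univ \ S, g2 (insert a S) with hg1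
  have h3 : ∑ S ∈ (univ : Finset α).powersetCard 3, g3 S
      = 4 * ∑ S ∈ (univ : Finset α).powersetCard 4, g S :=
    sum_insert_powersetCard' 3 g 4 (by norm_num)
  have h2 : ∑ S ∈ (univ : Finset α).powersetCard 2, g2 S
      = 3 * ∑ S ∈ (univ : Finset α).powersetCard 3, g3 S :=
    sum_insert_powersetCard' 2 g3 3 (by norm_num)
  have h1 : ∑ S ∈ (univ : Finset α).powersetCard 1, g1 S
      = 2 * ∑ S ∈ (univ : Finset α).powersetCard 2, g2 S :=
    sum_insert_powersetCard' 1 g2 2 (by norm_num)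
  have h0 : ∑ S ∈ (univ : Finset α).powersetCard 0, ∑ a ∈ univ \ S, g1 (insert a S)
      = 1 * ∑ S ∈ (univ : Finset α).powersetCard 1, g1 S :=
    sum_insert_powersetCard' 0 g1 1 (by norm_num)
  rw [Finset.powersetCard_zero, Finset.sum_singleton, Finset.sdiff_empty] at h0
  have key : ∑ v : α, g1 (insert v ∅) = 24 * ∑ S ∈ (univ : Finset α).powersetCard 4, g S := by
    rw [h0, h1, h2, h3]; ring
  rw [← key]
  apply Finset.sum_congr rfl
  intro v _
  rw [hg1]
  simp only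
  rw [sum_sdiff_eq_ite]
  apply Finset.sum_congr rfl
  intro w _
  by_cases hvw : v = w
  · subst hvw
    simp
  rw [if_pos (by simpa using fun h => hvw h.symm), hg2]
  simp only
  rw [sum_sdiff_eq_ite]
  apply Finset.sum_congr rfl
  intro x _
  by_cases hx : x ∈ insert w (insert v (∅ : Finset α))
  · rw [if_neg (not_not.mpr hx)]
    apply Finset.sum_eq_zero
    intro y _
    rw [if_neg]
    simp only [Finset.mem_insert, Finset.notMem_empty, or_false] at hx
    rcases hx with rfl | rfl <;> tauto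
  rw [if_pos hx, hg3]
  simp only
  rw [sum_sdiff_eq_ite]
  apply Finset.sum_congr rfl
  intro y _
  simp only [Finset.mem_insert, Finset.notMem_empty, or_false, not_or] at hx
  by_cases hy : y ∈ insert x (insert w (insert v (∅ : Finset α)))
  · rw [if_neg (not_not.mpr hy), if_neg]
    simp only [Finset.mem_insert, Finset.notMem_empty, or_false] at hy
    rcases hy with rfl | rfl | rfl <;> tauto
  · rw [if_pos hy]
    simp only [Finset.mem_insert, Finset.notMem_empty, or_false, not_or] at hy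
    rw [if_pos ⟨hvw, fun h => hx.2 h.symm, fun h => hy.2.2 h.symm, fun h => hx.1 h.symm,
      fun h => hy.2.1 h.symm, fun h => hy.1 h.symm⟩]
    congr 1
    ext z
    simp only [Finset.mem_insert, Finset.mem_singleton, Finset.notMem_empty, or_false]
    tauto

end count

section perm
variable {α : Type*} [Fintype α]

lemma perm_bec (B : α → α → α → ℝ) :
    ∑ b, ∑ c, ∑ e, B b e c = ∑ b, ∑ c, ∑ e, B b c e :=
  Finset.sum_congr rfl fun _ _ => Finset.sum_comm

lemma perm_cbe (B : α → α → α → ℝ) :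
    ∑ b, ∑ c, ∑ e, B c b e = ∑ b, ∑ c, ∑ e, B b c e := Finset.sum_comm

lemma perm_ceb (B : α → α → α → ℝ) :
    ∑ b, ∑ c, ∑ e, B c e b = ∑ b, ∑ c, ∑ e, B b c e := by
  rw [Finset.sum_comm]
  exact Finset.sum_congr rfl fun _ _ => Finset.sum_comm

lemma perm_ebc (B : α → α → α → ℝ) :
    ∑ b, ∑ c, ∑ e, B e b c = ∑ b, ∑ c, ∑ e, B b c e := by
  rw [show ∑ b, ∑ c, ∑ e, B e b c = ∑ b, ∑ e, ∑ c, B e b c from
    Finset.sum_congr rfl fun _ _ => Finset.sum_comm]
  exact Finset.sum_comm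

lemma perm_ecb (B : α → α → α → ℝ) :
    ∑ b, ∑ c, ∑ e, B e c b = ∑ b, ∑ c, ∑ e, B b c e := by
  rw [show ∑ b, ∑ c, ∑ e, B e c b = ∑ b, ∑ e, ∑ c, B e c b from
    Finset.sum_congr rfl fun _ _ => Finset.sum_comm, Finset.sum_comm]
  exact Finset.sum_congr rfl fun _ _ => Finset.sum_comm

lemma sum4_comm {β : Type*} (Ω : Finset β) (F : α → α → α → α → β → ℝ) :
    ∑ v, ∑ w, ∑ x, ∑ y, ∑ G ∈ Ω, F v w x y G = ∑ G ∈ Ω, ∑ v, ∑ w, ∑ x, ∑ y, F v w x y G := by
  calc ∑ v, ∑ w, ∑ x, ∑ y, ∑ G ∈ Ω, F v w x y G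
      = ∑ v, ∑ w, ∑ x, ∑ G ∈ Ω, ∑ y, F v w x y G :=
        Finset.sum_congr rfl fun _ _ => Finset.sum_congr rfl fun _ _ =>
          Finset.sum_congr rfl fun _ _ => Finset.sum_comm
    _ = ∑ v, ∑ w, ∑ G ∈ Ω, ∑ x, ∑ y, F v w x y G :=
        Finset.sum_congr rfl fun _ _ => Finset.sum_congr rfl fun _ _ => Finset.sum_comm
    _ = ∑ v, ∑ G ∈ Ω, ∑ w, ∑ x, ∑ y, F v w x y G :=
        Finset.sum_congr rfl fun _ _ => Finset.sum_comm
    _ = ∑ G ∈ Ω, ∑ v, ∑ w, ∑ x, ∑ y, F v w x y G := Finset.sum_comm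

end perm

variable {n : ℕ}

lemma mem_M2 {a b c e : Fin n} {t : Edge n} :
    t ∈ M2 a b c e ↔ t.1 = s(a, b) ∨ t.1 = s(c, e) := by simp [M2]

lemma M2_eq {a b c e : Fin n} (hab : a ≠ b) (hce : c ≠ e) :
    M2 a b c e = {mkE a b hab, mkE c e hce} := by
  ext t
  simp [M2, mkE, Subtype.ext_iff]

lemma M2_swap34 (a b c e : Fin n) : M2 a b c e = M2 a b e c := by
  ext t
  rw [mem_M2, mem_M2, Sym2.eq_swap (a := c)]

lemma mkE_mem_M2 {a b c e : Fin n} (hab : a ≠ b) : mkE a b hab ∈ M2 a b c e := by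
  rw [mem_M2]; left; rfl

lemma switchResult_self (G F : Finset (Edge n)) : switchResult G F F = G := by
  unfold switchResult
  split_ifs with h
  · exact Finset.sdiff_union_of_subset h.1
  · rfl

/-- one proposal term. -/
noncomputable def Psi (f : Finset (Edge n) → ℝ) (G F F' : Finset (Edge n)) : ℝ :=
  (f G - f (switchResult G F F')) ^ 2

lemma Psi_self (f : Finset (Edge n) → ℝ) (G F : Finset (Edge n)) : Psi f G F F = 0 := by
  simp [Psi, switchResult_self]

noncomputable def AA (f : Finset (Edge n) → ℝ) (G : Finset (Edge n)) (v w x y : Fin n) : ℝ :=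
  if Dist4 v w x y then Psi f G (M2 v x w y) (M2 v y w x) else 0

lemma tau_term (f : Finset (Edge n) → ℝ) (G : Finset (Edge n)) {v w x y : Fin n}
    (h : Dist4 v w x y) :
    (f G - f (tau v w x y G)) ^ 2
      = Psi f G (M2 v x w y) (M2 v y w x) + Psi f G (M2 v y w x) (M2 v x w y) := by
  obtain ⟨hvw, hvx, hvy, hwx, hwy, hxy⟩ := h
  unfold tau Psi switchResult
  by_cases h1 : isI v w x y G
  · have h1' : M2 v x w y ⊆ G ∧ Disjoint (M2 v y w x) G := h1
    have h2 : ¬ (M2 v y w x ⊆ G ∧ Disjoint (M2 v x w y) G) := by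
      rintro ⟨_, hd⟩
      exact (Finset.disjoint_left.mp hd (mkE_mem_M2 hvx)) (h1'.1 (mkE_mem_M2 hvx))
    rw [if_pos h1, if_pos h1', if_neg h2]
    simp
  · have h1' : ¬ (M2 v x w y ⊆ G ∧ Disjoint (M2 v y w x) G) := h1
    rw [if_neg h1, if_neg h1']
    by_cases h2 : isI v w y x G
    · have h2' : M2 v y w x ⊆ G ∧ Disjoint (M2 v x w y) G := h2
      rw [if_pos h2, if_pos h2']; simp
    · have h2' : ¬ (M2 v y w x ⊆ G ∧ Disjoint (M2 v x w y) G) := h2
      rw [if_neg h2, if_neg h2']; simp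

lemma M2_ne {a b c e p q r t : Fin n} (hab : a ≠ b) (h1 : s(a, b) ≠ s(p, q))
    (h2 : s(a, b) ≠ s(r, t)) : M2 a b c e ≠ M2 p q r t := by
  intro h
  have : mkE a b hab ∈ M2 p q r t := h ▸ mkE_mem_M2 hab
  rw [mem_M2] at this
  rcases this with h | h
  · exact h1 h
  · exact h2 h

/-- the six proposals on a 4-set. -/
lemma R_eq (f : Finset (Edge n) → ℝ) (G : Finset (Edge n)) {a b c e : Fin n}
    (h : Dist4 a b c e) :
    ∑ F ∈ pmSet ({a, b, c, e} : Finset (Fin n)), ∑ F' ∈ (pmSet ({a, b, c, e} : Finset (Fin n))).erase F,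
        Psi f G F F'
      = AA f G a e b c + AA f G a c b e + AA f G a e c b + AA f G a b c e + AA f G a c e b
        + AA f G a b e c := by
  obtain ⟨hab, hac, hae, hbc, hbe, hce⟩ := h
  have e1 : ∀ F ∈ pmSet ({a, b, c, e} : Finset (Fin n)),
      ∑ F' ∈ (pmSet ({a, b, c, e} : Finset (Fin n))).erase F, Psi f G F F'
        = ∑ F' ∈ pmSet ({a, b, c, e} : Finset (Fin n)), Psi f G F F' := by
    intro F _
    exact Finset.sum_erase _ (Psi_self f G F)
  rw [Finset.sum_congr rfl e1, pmSet_eq hab hac hae hbc hbe hce, ← M2_eq hab hce, ← M2_eq hac hbe,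
    ← M2_eq hae hbc]
  have n12 : M2 a b c e ≠ M2 a c b e := M2_ne hab (by simp [Sym2.eq_iff]; tauto)
    (by simp [Sym2.eq_iff]; tauto)
  have n13 : M2 a b c e ≠ M2 a e b c := M2_ne hab (by simp [Sym2.eq_iff]; tauto)
    (by simp [Sym2.eq_iff]; tauto)
  have n23 : M2 a c b e ≠ M2 a e b c := M2_ne hac (by simp [Sym2.eq_iff]; tauto)
    (by simp [Sym2.eq_iff]; tauto)
  have d1 : Dist4 a e b c := ⟨hae, hab, hac, hbe.symm, hce.symm, hbc⟩
  have d2 : Dist4 a c b e := ⟨hac, hab, hae, hbc.symm, hce, hbe⟩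
  have d3 : Dist4 a e c b := ⟨hae, hac, hab, hce.symm, hbe.symm, hbc.symm⟩
  have d4 : Dist4 a b c e := ⟨hab, hac, hae, hbc, hbe, hce⟩
  have d5 : Dist4 a c e b := ⟨hac, hae, hab, hce, hbc.symm, hbe.symm⟩
  have d6 : Dist4 a b e c := ⟨hab, hae, hac, hbe, hbc, hce.symm⟩
  unfold AA
  rw [if_pos d1, if_pos d2, if_pos d3, if_pos d4, if_pos d5, if_pos d6]
  rw [M2_swap34 a b e c, M2_swap34 a c e b, M2_swap34 a e c b]
  have s3 : ∀ φ : Finset (Edge n) → ℝ,
      ∑ F ∈ ({M2 a b c e, M2 a c b e, M2 a e b c} : Finset (Finset (Edge n))), φ F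
        = φ (M2 a b c e) + φ (M2 a c b e) + φ (M2 a e b c) := by
    intro φ
    rw [Finset.sum_insert (by simp [n12, n13]), Finset.sum_insert (by simp [n23]),
      Finset.sum_singleton]
    ring
  rw [s3]
  simp only [s3, Psi_self]
  ring

/-- fixed `G`. -/
lemma sum_tau_eq (f : Finset (Edge n) → ℝ) (G : Finset (Edge n)) :
    ∑ v, ∑ w, ∑ x, ∑ y, (if Dist4 v w x y then (f G - f (tau v w x y G)) ^ 2 else 0)
      = 8 * ∑ S ∈ (univ : Finset (Fin n)).powersetCard 4, ∑ F ∈ pmSet S,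
          ∑ F' ∈ (pmSet S).erase F, (f G - f (switchResult G F F')) ^ 2 := by
  set T : ℝ := ∑ v, ∑ w, ∑ x, ∑ y, AA f G v w x y with hT
  have h24 := sum_tuples (fun S : Finset (Fin n) => ∑ F ∈ pmSet S,
          ∑ F' ∈ (pmSet S).erase F, Psi f G F F')
  have h6 : ∑ v : Fin n, ∑ w : Fin n, ∑ x : Fin n, ∑ y : Fin n,
      (if (v ≠ w ∧ v ≠ x ∧ v ≠ y ∧ w ≠ x ∧ w ≠ y ∧ x ≠ y) then
        (fun S : Finset (Fin n) => ∑ F ∈ pmSet S, ∑ F' ∈ (pmSet S).erase F, Psi f G F F')
          {v, w, x, y} else 0) = 6 * T := by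
    have : ∀ a b c e : Fin n, (if (a ≠ b ∧ a ≠ c ∧ a ≠ e ∧ b ≠ c ∧ b ≠ e ∧ c ≠ e) then
        (fun S : Finset (Fin n) => ∑ F ∈ pmSet S, ∑ F' ∈ (pmSet S).erase F, Psi f G F F')
          {a, b, c, e} else 0)
        = AA f G a e b c + AA f G a c b e + AA f G a e c b + AA f G a b c e + AA f G a c e b
        + AA f G a b e c := by
      intro a b c e
      by_cases h : Dist4 a b c e
      · have h0 : a ≠ b ∧ a ≠ c ∧ a ≠ e ∧ b ≠ c ∧ b ≠ e ∧ c ≠ e := h
        rw [if_pos h0]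
        exact R_eq f G h
      · have h0 : ¬ (a ≠ b ∧ a ≠ c ∧ a ≠ e ∧ b ≠ c ∧ b ≠ e ∧ c ≠ e) := h
        rw [if_neg h0]
        unfold AA
        rw [if_neg, if_neg, if_neg, if_neg h, if_neg, if_neg]
        · simp
        all_goals (unfold Dist4 at h ⊢; intro h'; apply h; tauto)
    simp only [this, Finset.sum_add_distrib]
    have q : ∀ a : Fin n, (∑ b, ∑ c, ∑ e, AA f G a e b c) + (∑ b, ∑ c, ∑ e, AA f G a c b e)
        + (∑ b, ∑ c, ∑ e, AA f G a e c b) + (∑ b, ∑ c, ∑ e, AA f G a b c e)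
        + (∑ b, ∑ c, ∑ e, AA f G a c e b) + (∑ b, ∑ c, ∑ e, AA f G a b e c)
        = 6 * ∑ b, ∑ c, ∑ e, AA f G a b c e := by
      intro a
      rw [perm_ebc (AA f G a), perm_cbe (AA f G a), perm_ecb (AA f G a), perm_ceb (AA f G a),
        perm_bec (AA f G a)]
      ring
    rw [hT, Finset.mul_sum, ← Finset.sum_congr rfl (fun a _ => q a)]
    simp only [Finset.sum_add_distrib]
  have h2 : ∑ v, ∑ w, ∑ x, ∑ y, (if Dist4 v w x y then (f G - f (tau v w x y G)) ^ 2 else 0)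
      = 2 * T := by
    have : ∀ v w x y : Fin n, (if Dist4 v w x y then (f G - f (tau v w x y G)) ^ 2 else 0)
        = AA f G v w x y + AA f G v w y x := by
      intro v w x y
      by_cases h : Dist4 v w x y
      · have h' : Dist4 v w y x := by unfold Dist4 at h ⊢; tauto
        unfold AA
        rw [if_pos h, if_pos h, if_pos h', tau_term f G h]
      · have h' : ¬ Dist4 v w y x := by unfold Dist4 at h ⊢; tauto
        unfold AA
        rw [if_neg h, if_neg h, if_neg h']; simp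
    simp only [this, Finset.sum_add_distrib]
    have : ∑ v, ∑ w, ∑ x, ∑ y, AA f G v w y x = T :=
      Finset.sum_congr rfl fun _ _ => Finset.sum_congr rfl fun _ _ => Finset.sum_comm
    rw [this]; ring
  rw [h2]
  have : ∑ S ∈ (univ : Finset (Fin n)).powersetCard 4, ∑ F ∈ pmSet S,
          ∑ F' ∈ (pmSet S).erase F, (f G - f (switchResult G F F')) ^ 2
      = ∑ S ∈ (univ : Finset (Fin n)).powersetCard 4, ∑ F ∈ pmSet S,
          ∑ F' ∈ (pmSet S).erase F, Psi f G F F' := rfl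
  rw [this]
  linarith

/-- **`∑_{Dist4} En = 8 dir`.** -/
theorem sum_En (d : Fin n → ℕ) (f : Finset (Edge n) → ℝ) :
    ∑ v, ∑ w, ∑ x, ∑ y, (if Dist4 v w x y then En d v w x y f else 0)
      = 8 * Crest.Agent.S0453Red.dir d f := by
  have e : ∀ v w x y : Fin n, (if Dist4 v w x y then En d v w x y f else 0)
      = ∑ G ∈ realizations d, (if Dist4 v w x y then (f G - f (tau v w x y G)) ^ 2 else 0) := by
    intro v w x y
    unfold En
    split_ifs <;> simp
  simp only [e]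
  rw [sum4_comm, Crest.Agent.S0453Red.dir, Finset.mul_sum]
  exact Finset.sum_congr rfl fun G _ => sum_tau_eq f G

end Crest.Agent.S0453Dir
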