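import Mathlib
import Crest.Agent.S0453_CE
import Crest.Agent.S0453_K3ColDefs

/-!
# K3-alpha, piece G2: conditional independence (row 299, S0453)

In the colouring ensemble `Ens A B δ` the class `cls · u` and the radial vector
`bv = (v ↦ #{x ∈ B | χ x = v})` are conditionally independent given `b_u`:
`E[ E[F | cls u] | bv ] = E[F | b_u]`.
Proof: double counting (recolour one `A`-column and one `B`-column from `w` to `v`).
-/

set_option autoImplicit false
set_option linter.unusedSectionVars false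
open Finset

namespace Crest.Agent.S0453K3CI
open Crest.Agent.S0453CE Crest.Agent.S0453K3Col

variable {α : Type} [Fintype α] [DecidableEq α]

omit [Fintype α] in
lemma card_filter_update (T : Finset α) (χ : α → Fin 3) (j : α) (v c : Fin 3) :
    ((T.filter fun x => Function.update χ j v x = c).card : ℤ)
      = ((T.filter fun x => χ x = c).card : ℤ)
        + (if j ∈ T then (if v = c then 1 else 0) - (if χ j = c then 1 else 0) else 0) := by
  rw [Finset.card_filter, Finset.card_filter]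
  push_cast
  by_cases hj : j ∈ T
  · rw [if_pos hj, ← Finset.add_sum_erase T _ hj, ← Finset.add_sum_erase T _ hj]
    have : ∑ x ∈ T.erase j, (if Function.update χ j v x = c then (1 : ℤ) else 0)
        = ∑ x ∈ T.erase j, (if χ x = c then (1 : ℤ) else 0) := by
      apply Finset.sum_congr rfl
      intro x hx
      rw [Function.update_of_ne (Finset.ne_of_mem_erase hx)]
    rw [this, Function.update_self]
    ring
  · rw [if_neg hj, add_zero]
    apply Finset.sum_congr rfl
    intro x hx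
    have : x ≠ j := fun e => hj (e ▸ hx)
    rw [Function.update_of_ne this]

/-- single step double counting: recolour one column of `T` from `w` to `v` -/
lemma dc1 (T : Finset α) (P Q : (α → Fin 3) → Prop) [DecidablePred P] [DecidablePred Q]
    (v w : Fin 3) (G : (α → Fin 3) → ℝ)
    (h1 : ∀ χ, ∀ i ∈ T, χ i = w → P χ → Q (Function.update χ i v))
    (h2 : ∀ χ, ∀ i ∈ T, χ i = v → Q χ → P (Function.update χ i w))
    (hG : ∀ χ, ∀ i ∈ T, χ i = w → P χ → G (Function.update χ i v) = G χ) :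
    ∑ χ ∈ univ.filter P, G χ * ((T.filter fun x => χ x = w).card : ℝ)
      = ∑ χ ∈ univ.filter Q, G χ * ((T.filter fun x => χ x = v).card : ℝ) := by
  have expand : ∀ (R : (α → Fin 3) → Prop) [DecidablePred R] (c : Fin 3),
      ∑ χ ∈ univ.filter R, G χ * ((T.filter fun x => χ x = c).card : ℝ)
      = ∑ i ∈ T, ∑ χ : α → Fin 3, if (R χ ∧ χ i = c) then G χ else 0 := by
    intro R _ c
    rw [Finset.sum_comm, Finset.sum_filter]
    apply Finset.sum_congr rfl
    intro χ _
    by_cases hR : R χ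
    · rw [if_pos hR, Finset.card_filter]
      push_cast
      rw [Finset.mul_sum]
      apply Finset.sum_congr rfl
      intro i _
      by_cases hc : χ i = c
      · rw [if_pos hc, if_pos ⟨hR, hc⟩, mul_one]
      · rw [if_neg hc, if_neg (fun h => hc h.2), mul_zero]
    · rw [if_neg hR]
      symm
      apply Finset.sum_eq_zero
      intro i _
      rw [if_neg (fun h => hR h.1)]
  rw [expand P w, expand Q v]
  apply Finset.sum_congr rfl
  intro i hi
  rw [← Finset.sum_filter, ← Finset.sum_filter]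
  apply Finset.sum_nbij' (fun χ => Function.update χ i v) (fun χ => Function.update χ i w)
  · intro χ hχ
    simp only [Finset.mem_filter, Finset.mem_univ, true_and] at hχ ⊢
    exact ⟨h1 χ i hi hχ.2 hχ.1, Function.update_self ..⟩
  · intro χ hχ
    simp only [Finset.mem_filter, Finset.mem_univ, true_and] at hχ ⊢
    exact ⟨h2 χ i hi hχ.2 hχ.1, Function.update_self ..⟩
  · intro χ hχ
    simp only [Finset.mem_filter, Finset.mem_univ, true_and] at hχ
    rw [Function.update_idem, ← hχ.2, Function.update_eq_self]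
  · intro χ hχ
    simp only [Finset.mem_filter, Finset.mem_univ, true_and] at hχ
    rw [Function.update_idem, ← hχ.2, Function.update_eq_self]
  · intro χ hχ
    simp only [Finset.mem_filter, Finset.mem_univ, true_and] at hχ
    exact (hG χ i hi hχ.2 hχ.1).symm

/-- level sets: frozen outside `A ∪ B`, class sizes `a` in `A` and `b` in `B` -/
def Lev (A B : Finset α) (a b : Fin 3 → ℤ) (χ : α → Fin 3) : Prop :=
  (∀ x, x ∉ A → x ∉ B → χ x = 0) ∧ (∀ c, ((A.filter fun x => χ x = c).card : ℤ) = a c) ∧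
    ∀ c, ((B.filter fun x => χ x = c).card : ℤ) = b c

instance (A B : Finset α) (a b : Fin 3 → ℤ) : DecidablePred (Lev A B a b) := fun χ => by
  unfold Lev; infer_instance

/-- shift one unit from colour `w` to colour `v` -/
def sh (a : Fin 3 → ℤ) (v w : Fin 3) : Fin 3 → ℤ :=
  fun c => a c + ((if v = c then 1 else 0) - (if w = c then 1 else 0))

lemma sh_sh (a : Fin 3 → ℤ) (v w : Fin 3) : sh (sh a v w) w v = a := by
  ext c; unfold sh; ring

lemma lev_updateA {A B : Finset α} (hAB : Disjoint A B) {a b : Fin 3 → ℤ} {χ : α → Fin 3}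
    {i : α} (hi : i ∈ A) {v w : Fin 3} (hw : χ i = w) (h : Lev A B a b χ) :
    Lev A B (sh a v w) b (Function.update χ i v) := by
  obtain ⟨h0, hA, hB⟩ := h
  have hiB : i ∉ B := Finset.disjoint_left.mp hAB hi
  refine ⟨?_, ?_, ?_⟩
  · intro x hxA hxB
    have : x ≠ i := fun e => hxA (e ▸ hi)
    rw [Function.update_of_ne this]
    exact h0 x hxA hxB
  · intro c
    rw [card_filter_update, if_pos hi, hA c, hw]
    rfl
  · intro c
    rw [card_filter_update, if_neg hiB, hB c, add_zero]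

lemma lev_updateB {A B : Finset α} (hAB : Disjoint A B) {a b : Fin 3 → ℤ} {χ : α → Fin 3}
    {i : α} (hi : i ∈ B) {v w : Fin 3} (hw : χ i = w) (h : Lev A B a b χ) :
    Lev A B a (sh b v w) (Function.update χ i v) := by
  obtain ⟨h0, hA, hB⟩ := h
  have hiA : i ∉ A := Finset.disjoint_right.mp hAB hi
  refine ⟨?_, ?_, ?_⟩
  · intro x hxA hxB
    have : x ≠ i := fun e => hxB (e ▸ hi)
    rw [Function.update_of_ne this]
    exact h0 x hxA hxB
  · intro c
    rw [card_filter_update, if_neg hiA, hA c, add_zero]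
  · intro c
    rw [card_filter_update, if_pos hi, hB c, hw]
    rfl

lemma cls_update {χ : α → Fin 3} {i : α} {u v : Fin 3} (hv : v ≠ u) (hi : χ i ≠ u) :
    cls (Function.update χ i v) u = cls χ u := by
  ext x
  simp only [cls, Finset.mem_filter, Finset.mem_univ, true_and]
  by_cases hx : x = i
  · subst hx
    rw [Function.update_self]
    exact ⟨fun h => absurd h hv, fun h => absurd h hi⟩
  · rw [Function.update_of_ne hx]

/-- two step double counting between adjacent levels -/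
lemma dc2 {A B : Finset α} (hAB : Disjoint A B) (a b : Fin 3 → ℤ) {u v w : Fin 3}
    (hv : v ≠ u) (hw : w ≠ u) (G : (α → Fin 3) → ℝ)
    (hG : ∀ χ χ', cls χ u = cls χ' u → G χ = G χ') :
    ((a w : ℤ) : ℝ) * ((b w : ℤ) : ℝ) * ∑ χ ∈ univ.filter (Lev A B a b), G χ
      = ((sh a v w v : ℤ) : ℝ) * ((sh b v w v : ℤ) : ℝ)
        * ∑ χ ∈ univ.filter (Lev A B (sh a v w) (sh b v w)), G χ := by
  have s1 := dc1 A (Lev A B a b) (Lev A B (sh a v w) b) v w G
    (fun χ i hi hc h => lev_updateA hAB hi hc h)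
    (fun χ i hi hc h => by
      have := lev_updateA (v := w) hAB hi hc h
      rwa [sh_sh] at this)
    (fun χ i _ hc _ => hG _ _ (cls_update hv (by rw [hc]; exact hw)))
  have s2 := dc1 B (Lev A B (sh a v w) b) (Lev A B (sh a v w) (sh b v w)) v w G
    (fun χ i hi hc h => lev_updateB hAB hi hc h)
    (fun χ i hi hc h => by
      have := lev_updateB (v := w) hAB hi hc h
      rwa [sh_sh] at this)
    (fun χ i _ hc _ => hG _ _ (cls_update hv (by rw [hc]; exact hw)))
  have cA : ∀ (a' b' : Fin 3 → ℤ) (c : Fin 3),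
      ∑ χ ∈ univ.filter (Lev A B a' b'), G χ * ((A.filter fun x => χ x = c).card : ℝ)
        = ((a' c : ℤ) : ℝ) * ∑ χ ∈ univ.filter (Lev A B a' b'), G χ := by
    intro a' b' c
    rw [Finset.mul_sum]
    apply Finset.sum_congr rfl
    intro χ hχ
    have := (Finset.mem_filter.mp hχ).2.2.1 c
    rw [← this]
    push_cast
    ring
  have cB : ∀ (a' b' : Fin 3 → ℤ) (c : Fin 3),
      ∑ χ ∈ univ.filter (Lev A B a' b'), G χ * ((B.filter fun x => χ x = c).card : ℝ)
        = ((b' c : ℤ) : ℝ) * ∑ χ ∈ univ.filter (Lev A B a' b'), G χ := by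
    intro a' b' c
    rw [Finset.mul_sum]
    apply Finset.sum_congr rfl
    intro χ hχ
    have := (Finset.mem_filter.mp hχ).2.2.2 c
    rw [← this]
    push_cast
    ring
  rw [cA, cA] at s1
  rw [cB, cB] at s2
  calc ((a w : ℤ) : ℝ) * ((b w : ℤ) : ℝ) * ∑ χ ∈ univ.filter (Lev A B a b), G χ
      = ((b w : ℤ) : ℝ) * (((a w : ℤ) : ℝ) * ∑ χ ∈ univ.filter (Lev A B a b), G χ) := by ring
    _ = ((b w : ℤ) : ℝ) * (((sh a v w v : ℤ) : ℝ)
          * ∑ χ ∈ univ.filter (Lev A B (sh a v w) b), G χ) := by rw [s1]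
    _ = ((sh a v w v : ℤ) : ℝ) * (((b w : ℤ) : ℝ)
          * ∑ χ ∈ univ.filter (Lev A B (sh a v w) b), G χ) := by ring
    _ = ((sh a v w v : ℤ) : ℝ) * (((sh b v w v : ℤ) : ℝ)
          * ∑ χ ∈ univ.filter (Lev A B (sh a v w) (sh b v w)), G χ) := by rw [s2]
    _ = _ := by ring

/-- class sizes as integer vectors -/
def aZ (A : Finset α) (χ : α → Fin 3) : Fin 3 → ℤ := fun c => ((A.filter fun x => χ x = c).card : ℤ)

/-- the radial key -/
def bv (B : Finset α) (χ : α → Fin 3) : Fin 3 → ℕ := fun v => (B.filter fun x => χ x = v).card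

lemma mem_Ens {A B : Finset α} {δ : Fin 3 → ℤ} {χ : α → Fin 3} : χ ∈ Ens A B δ ↔
    (∀ x, x ∉ A → x ∉ B → χ x = 0) ∧ ∀ u, aZ A χ u - aZ B χ u = δ u := by
  simp [Ens, aZ]

lemma lev_self {A B : Finset α} {δ : Fin 3 → ℤ} {χ : α → Fin 3} (h : χ ∈ Ens A B δ) :
    Lev A B (aZ A χ) (aZ B χ) χ :=
  ⟨(mem_Ens.mp h).1, fun _ => rfl, fun _ => rfl⟩

lemma fib_eq_lev {A B : Finset α} {δ : Fin 3 → ℤ} {χ₁ : α → Fin 3} (h : χ₁ ∈ Ens A B δ) :
    fib (Ens A B δ) (bv B) (bv B χ₁) = univ.filter (Lev A B (aZ A χ₁) (aZ B χ₁)) := by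
  have h1 := (mem_Ens.mp h).2
  ext χ
  simp only [mem_fib, Finset.mem_filter, Finset.mem_univ, true_and, mem_Ens]
  constructor
  · rintro ⟨⟨h0, hd⟩, hb⟩
    have hb' : ∀ c, aZ B χ c = aZ B χ₁ c := by
      intro c
      have := congrFun hb c
      simp only [bv] at this
      simp only [aZ, this]
    refine ⟨h0, ?_, hb'⟩
    intro c
    have e1 := hd c
    have e2 := h1 c
    have e3 := hb' c
    show aZ A χ c = aZ A χ₁ c
    linarith
  · rintro ⟨h0, hA, hB⟩
    refine ⟨⟨h0, ?_⟩, ?_⟩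
    · intro c
      have e1 : aZ A χ c = aZ A χ₁ c := hA c
      have e2 : aZ B χ c = aZ B χ₁ c := hB c
      rw [e1, e2]
      exact h1 c
    · ext c
      have e2 := hB c
      simp only [aZ] at e2
      simp only [bv]
      exact_mod_cast e2

/-- adjacent levels have the same conditional mean -/
lemma adj {A B : Finset α} (hAB : Disjoint A B) {δ : Fin 3 → ℤ} {u v w : Fin 3}
    (hv : v ≠ u) (hw : w ≠ u) (G : (α → Fin 3) → ℝ)
    (hG : ∀ χ χ', cls χ u = cls χ' u → G χ = G χ')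
    {χ₁ χ₂ : α → Fin 3} (h1 : χ₁ ∈ Ens A B δ) (h2 : χ₂ ∈ Ens A B δ)
    (hA : aZ A χ₂ = sh (aZ A χ₁) v w) (hB : aZ B χ₂ = sh (aZ B χ₁) v w)
    (pA : 0 < aZ A χ₁ w) (pB : 0 < aZ B χ₁ w) :
    ce (Ens A B δ) (bv B) G χ₁ = ce (Ens A B δ) (bv B) G χ₂ := by
  unfold ce
  rw [fib_eq_lev h1, fib_eq_lev h2, hA, hB]
  have dG := dc2 hAB (aZ A χ₁) (aZ B χ₁) hv hw G hG
  have d1 := dc2 hAB (aZ A χ₁) (aZ B χ₁) hv hw (fun _ => (1 : ℝ)) (fun _ _ _ => rfl)
  simp only [Finset.sum_const, nsmul_eq_mul, mul_one] at d1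
  set S := ∑ χ ∈ univ.filter (Lev A B (aZ A χ₁) (aZ B χ₁)), G χ
  set S' := ∑ χ ∈ univ.filter (Lev A B (sh (aZ A χ₁) v w) (sh (aZ B χ₁) v w)), G χ
  set N := ((univ.filter (Lev A B (aZ A χ₁) (aZ B χ₁))).card : ℝ)
  set N' := ((univ.filter (Lev A B (sh (aZ A χ₁) v w) (sh (aZ B χ₁) v w))).card : ℝ)
  set p := ((aZ A χ₁ w : ℤ) : ℝ) * ((aZ B χ₁ w : ℤ) : ℝ)
  set q := ((sh (aZ A χ₁) v w v : ℤ) : ℝ) * ((sh (aZ B χ₁) v w v : ℤ) : ℝ)
  have hp : 0 < p := by
    have e1 : (0 : ℝ) < ((aZ A χ₁ w : ℤ) : ℝ) := by exact_mod_cast pA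
    have e2 : (0 : ℝ) < ((aZ B χ₁ w : ℤ) : ℝ) := by exact_mod_cast pB
    positivity
  have hN : 0 < N := by
    have : 0 < (univ.filter (Lev A B (aZ A χ₁) (aZ B χ₁))).card :=
      Finset.card_pos.mpr ⟨χ₁, Finset.mem_filter.mpr ⟨Finset.mem_univ _, lev_self h1⟩⟩
    exact Nat.cast_pos.mpr this
  have hN' : 0 < N' := by
    have : 0 < (univ.filter (Lev A B (sh (aZ A χ₁) v w) (sh (aZ B χ₁) v w))).card :=
      Finset.card_pos.mpr ⟨χ₂, Finset.mem_filter.mpr ⟨Finset.mem_univ _, by
        have := lev_self h2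
        rwa [hA, hB] at this⟩⟩
    exact Nat.cast_pos.mpr this
  rw [div_eq_div_iff hN.ne' hN'.ne']
  apply mul_left_cancel₀ hp.ne'
  calc p * (S * N') = (p * S) * N' := by ring
    _ = (q * S') * N' := by rw [dG]
    _ = S' * (q * N') := by ring
    _ = S' * (p * N) := by rw [d1]
    _ = p * (S' * N) := by ring

lemma sum_aZ (T : Finset α) (χ : α → Fin 3) : ∑ c, aZ T χ c = (T.card : ℤ) := by
  unfold aZ
  rw [← Nat.cast_sum]
  congr 1
  exact (Finset.card_eq_sum_card_fiberwise (f := χ) (t := Finset.univ)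
    (fun _ _ => Finset.mem_coe.mpr (Finset.mem_univ _))).symm

lemma cover3 : ∀ u v w : Fin 3, v ≠ u → w ≠ u → v ≠ w → ∀ c, c = u ∨ c = v ∨ c = w := by decide

lemma sum_three (f : Fin 3 → ℤ) {u v w : Fin 3} (hv : v ≠ u) (hw : w ≠ u) (hvw : v ≠ w) :
    ∑ c, f c = f u + f v + f w := by
  have : (Finset.univ : Finset (Fin 3)) = {u, v, w} := by
    ext c
    simp only [Finset.mem_univ, Finset.mem_insert, Finset.mem_singleton, true_iff]
    exact cover3 u v w hv hw hvw c
  rw [this, Finset.sum_insert, Finset.sum_insert, Finset.sum_singleton]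
  · ring
  · simpa using hvw
  · simp only [Finset.mem_insert, Finset.mem_singleton, not_or]
    exact ⟨hv.symm, hw.symm⟩

lemma aZ_nonneg (T : Finset α) (χ : α → Fin 3) (c : Fin 3) : 0 ≤ aZ T χ c := by
  unfold aZ; positivity

lemma exists_of_aZ_pos {T : Finset α} {χ : α → Fin 3} {c : Fin 3} (h : 0 < aZ T χ c) :
    ∃ i ∈ T, χ i = c := by
  unfold aZ at h
  have : 0 < (T.filter fun x => χ x = c).card := by exact_mod_cast h
  obtain ⟨i, hi⟩ := Finset.card_pos.mp this
  exact ⟨i, (Finset.mem_filter.mp hi).1, (Finset.mem_filter.mp hi).2⟩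

lemma chain {A B : Finset α} (hAB : Disjoint A B) {δ : Fin 3 → ℤ} {u v w : Fin 3}
    (hv : v ≠ u) (hw : w ≠ u) (hvw : v ≠ w) (G : (α → Fin 3) → ℝ)
    (hG : ∀ χ χ', cls χ u = cls χ' u → G χ = G χ') :
    ∀ (k : ℕ) (χ₁ χ₂ : α → Fin 3), χ₁ ∈ Ens A B δ → χ₂ ∈ Ens A B δ →
      aZ B χ₁ u = aZ B χ₂ u → aZ B χ₂ v = aZ B χ₁ v + k →
      ce (Ens A B δ) (bv B) G χ₁ = ce (Ens A B δ) (bv B) G χ₂ := by
  intro k
  induction k with
  | zero =>
    intro χ₁ χ₂ h1 h2 hu hk
    apply ce_congr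
    have s1 := sum_aZ B χ₁
    have s2 := sum_aZ B χ₂
    rw [sum_three _ hv hw hvw] at s1 s2
    have hvv : aZ B χ₁ v = aZ B χ₂ v := by simpa using hk.symm
    have hww : aZ B χ₁ w = aZ B χ₂ w := by linarith
    ext c
    have : aZ B χ₁ c = aZ B χ₂ c := by
      rcases cover3 u v w hv hw hvw c with rfl | rfl | rfl
      · exact hu
      · exact hvv
      · exact hww
    simp only [aZ] at this
    simp only [bv]
    exact_mod_cast this
  | succ k ih =>
    intro χ₁ χ₂ h1 h2 hu hk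
    have s1 := sum_aZ B χ₁
    have s2 := sum_aZ B χ₂
    rw [sum_three _ hv hw hvw] at s1 s2
    push_cast at hk
    have d1 := (mem_Ens.mp h1).2 w
    have d2 := (mem_Ens.mp h2).2 w
    have n1 := aZ_nonneg B χ₂ w
    have n2 := aZ_nonneg A χ₂ w
    have pB : 0 < aZ B χ₁ w := by linarith
    have pA : 0 < aZ A χ₁ w := by linarith
    obtain ⟨i, hiA, hiw⟩ := exists_of_aZ_pos pA
    obtain ⟨i', hiB, hiw'⟩ := exists_of_aZ_pos pB
    have hne : i' ≠ i := fun e => (Finset.disjoint_left.mp hAB hiA) (e ▸ hiB)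
    have L1 := lev_updateA (v := v) hAB hiA hiw (lev_self h1)
    have hiw'' : Function.update χ₁ i v i' = w := by rw [Function.update_of_ne hne]; exact hiw'
    have L2 := lev_updateB (v := v) hAB hiB hiw'' L1
    set χ' := Function.update (Function.update χ₁ i v) i' v with hχ'
    have eA : aZ A χ' = sh (aZ A χ₁) v w := by ext c; exact L2.2.1 c
    have eB : aZ B χ' = sh (aZ B χ₁) v w := by ext c; exact L2.2.2 c
    have h' : χ' ∈ Ens A B δ := by
      rw [mem_Ens]
      refine ⟨L2.1, fun c => ?_⟩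
      rw [eA, eB]
      have := (mem_Ens.mp h1).2 c
      unfold sh
      linarith
    rw [adj hAB hv hw G hG h1 h' eA eB pA pB]
    apply ih χ' χ₂ h' h2
    · rw [eB]
      unfold sh
      rw [if_neg hv, if_neg hw, ← hu]
      ring
    · rw [eB]
      unfold sh
      rw [if_pos rfl, if_neg hvw.symm, hk]
      ring

lemma others (u : Fin 3) : ∃ v w : Fin 3, v ≠ u ∧ w ≠ u ∧ v ≠ w := by
  revert u; decide

/-- the conditional mean of a `cls u`-measurable function given `bv` only depends on `b_u` -/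
lemma meas_bu {A B : Finset α} (hAB : Disjoint A B) {δ : Fin 3 → ℤ} (u : Fin 3)
    (G : (α → Fin 3) → ℝ) (hG : ∀ χ χ', cls χ u = cls χ' u → G χ = G χ') :
    Meas (Ens A B δ) (fun χ => (B.filter fun x => χ x = u).card) (ce (Ens A B δ) (bv B) G) := by
  intro χ₁ h1 χ₂ h2 hb
  obtain ⟨v, w, hv, hw, hvw⟩ := others u
  have hu : aZ B χ₁ u = aZ B χ₂ u := by
    simp only [aZ]
    exact_mod_cast hb
  rcases le_total (aZ B χ₁ v) (aZ B χ₂ v) with hle | hle
  · apply chain hAB hv hw hvw G hG (aZ B χ₂ v - aZ B χ₁ v).toNat χ₁ χ₂ h1 h2 hu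
    rw [Int.toNat_of_nonneg (by linarith)]
    ring
  · symm
    apply chain hAB hv hw hvw G hG (aZ B χ₁ v - aZ B χ₂ v).toNat χ₂ χ₁ h2 h1 hu.symm
    rw [Int.toNat_of_nonneg (by linarith)]
    ring

/-- **G2: conditional independence**, in the shape of the hypothesis `hcs` of
`S0453CE.commuting_square`. -/
theorem condIndep (A B : Finset α) (hAB : Disjoint A B) (δ : Fin 3 → ℤ) (u : Fin 3)
    (F : (α → Fin 3) → ℝ) : ∀ χ ∈ Ens A B δ,
    ce (Ens A B δ) (fun χ => (fun v => (B.filter fun x => χ x = v).card))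
        (ce (Ens A B δ) (fun χ => cls χ u) F) χ
      = ce (Ens A B δ) (fun χ => (B.filter fun x => χ x = u).card) F χ := by
  intro χ hχ
  set X := Ens A B δ
  set G := ce X (fun χ => cls χ u) F with hGdef
  have hG : ∀ χ χ', cls χ u = cls χ' u → G χ = G χ' := fun χ χ' h =>
    ce_congr X (fun χ => cls χ u) F h
  have hm := meas_bu (δ := δ) hAB u G hG
  have c1 : Coarser X (fun χ => (B.filter fun x => χ x = u).card) (fun χ => cls χ u) := by
    intro a _ b _ hab
    have : ∀ x, a x = u ↔ b x = u := by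
      intro x
      have := congrArg (fun s => x ∈ s) hab
      simpa [cls] using this
    simp only [this]
  have c2 : Coarser X (fun χ => (B.filter fun x => χ x = u).card) (bv B) := by
    intro a _ b _ hab
    exact congrFun hab u
  have e1 : ce X (fun χ => (B.filter fun x => χ x = u).card) F χ
      = ce X (fun χ => (B.filter fun x => χ x = u).card) G χ := (ce_ce_of_coarser c1 F χ).symm
  have e2 : ce X (fun χ => (B.filter fun x => χ x = u).card) G χ
      = ce X (fun χ => (B.filter fun x => χ x = u).card) (ce X (bv B) G) χ :=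
    (ce_ce_of_coarser c2 G χ).symm
  rw [e1, e2, ce_of_meas hm hχ]
  rfl

end Crest.Agent.S0453K3CI
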