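import Mathlib
import Crest.Agent.S0453_CE
import Crest.Agent.S0453_Core

/-!
# K3, fixed class sizes (row 299, S0453)

`K3prop X k`: `∑_u ‖E[F | k u]‖² ≤ 2 ‖F‖² + ‖E F‖²`, i.e. `Var F ≤ ∑_u E Var(F | k u)`.
* `K3prop_step`: abstract induction step (condition on a three-valued statistic `Y`).
* `K3prop_Col`: colourings `χ : J → Fin 3` with fixed class sizes in every species.
-/

set_option autoImplicit false
open Finset

namespace Crest.Agent.S0453K3N
open Crest.Agent.S0453CE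

/-! ### a real inequality on three points -/

lemma pair_id (n₁ n₂ m₁ m₂ : ℝ) (h₁ : 0 ≤ n₁) (h₂ : 0 ≤ n₂) :
    (n₁ * m₁ + n₂ * m₂) ^ 2 / (n₁ + n₂)
      = n₁ * m₁ ^ 2 + n₂ * m₂ ^ 2 - n₁ * n₂ * (m₁ - m₂) ^ 2 / (n₁ + n₂) := by
  rcases eq_or_ne (n₁ + n₂) 0 with h | h
  · have e1 : n₁ = 0 := by linarith
    have e2 : n₂ = 0 := by linarith
    simp [e1, e2]
  · field_simp
    ring

lemma triple_id (n₀ n₁ n₂ m₀ m₁ m₂ : ℝ) (h₀ : 0 ≤ n₀) (h₁ : 0 ≤ n₁) (h₂ : 0 ≤ n₂) :
    (n₀ * m₀ + n₁ * m₁ + n₂ * m₂) ^ 2 / (n₀ + n₁ + n₂)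
      = n₀ * m₀ ^ 2 + n₁ * m₁ ^ 2 + n₂ * m₂ ^ 2
        - (n₀ * n₁ * (m₀ - m₁) ^ 2 / (n₀ + n₁ + n₂) + n₀ * n₂ * (m₀ - m₂) ^ 2 / (n₀ + n₁ + n₂)
          + n₁ * n₂ * (m₁ - m₂) ^ 2 / (n₀ + n₁ + n₂)) := by
  rcases eq_or_ne (n₀ + n₁ + n₂) 0 with h | h
  · have e0 : n₀ = 0 := by linarith
    have e1 : n₁ = 0 := by linarith
    have e2 : n₂ = 0 := by linarith
    simp [e0, e1, e2]
  · field_simp
    ring

lemma div_mono_aux (t a b : ℝ) (ht : 0 ≤ t) (ha : 0 ≤ a) (hab : a ≤ b) (h0 : a = 0 → t = 0) :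
    t / b ≤ t / a := by
  rcases eq_or_lt_of_le ha with h | h
  · rw [h0 h.symm]; simp
  · exact div_le_div_of_nonneg_left ht h hab

/-- the three point inequality in the variables `n_i` (sizes), `s_i` (sums) -/
lemma three_point (n₀ n₁ n₂ s₀ s₁ s₂ : ℝ) (h₀ : 0 ≤ n₀) (h₁ : 0 ≤ n₁) (h₂ : 0 ≤ n₂)
    (z₀ : n₀ = 0 → s₀ = 0) (z₁ : n₁ = 0 → s₁ = 0) (z₂ : n₂ = 0 → s₂ = 0) :
    (s₁ + s₂) ^ 2 / (n₁ + n₂) + (s₀ + s₂) ^ 2 / (n₀ + n₂) + (s₀ + s₁) ^ 2 / (n₀ + n₁)
      ≤ (s₀ + s₁ + s₂) ^ 2 / (n₀ + n₁ + n₂) + (s₀ ^ 2 / n₀ + s₁ ^ 2 / n₁ + s₂ ^ 2 / n₂) := by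
  have key : ∀ n s : ℝ, (n = 0 → s = 0) → ∃ m, s = n * m := by
    intro n s hz
    rcases eq_or_ne n 0 with h | h
    · exact ⟨0, by rw [hz h]; simp⟩
    · exact ⟨s / n, by field_simp⟩
  obtain ⟨m₀, rfl⟩ := key n₀ s₀ z₀
  obtain ⟨m₁, rfl⟩ := key n₁ s₁ z₁
  obtain ⟨m₂, rfl⟩ := key n₂ s₂ z₂
  have sq : ∀ n m : ℝ, (n * m) ^ 2 / n = n * m ^ 2 := by
    intro n m
    rcases eq_or_ne n 0 with h | h
    · simp [h]
    · field_simp
  rw [pair_id n₁ n₂ m₁ m₂ h₁ h₂, pair_id n₀ n₂ m₀ m₂ h₀ h₂, pair_id n₀ n₁ m₀ m₁ h₀ h₁,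
    triple_id n₀ n₁ n₂ m₀ m₁ m₂ h₀ h₁ h₂, sq, sq, sq]
  have a1 := div_mono_aux (n₁ * n₂ * (m₁ - m₂) ^ 2) (n₁ + n₂) (n₀ + n₁ + n₂) (by positivity)
    (by positivity) (by linarith) (by
      intro h; have : n₁ = 0 := by linarith
      simp [this])
  have a2 := div_mono_aux (n₀ * n₂ * (m₀ - m₂) ^ 2) (n₀ + n₂) (n₀ + n₁ + n₂) (by positivity)
    (by positivity) (by linarith) (by
      intro h; have : n₀ = 0 := by linarith
      simp [this])
  have a3 := div_mono_aux (n₀ * n₁ * (m₀ - m₁) ^ 2) (n₀ + n₁) (n₀ + n₁ + n₂) (by positivity)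
    (by positivity) (by linarith) (by
      intro h; have : n₀ = 0 := by linarith
      simp [this])
  linarith

/-! ### the property and the abstract induction step -/

section abstract
variable {α κ : Type*} [DecidableEq κ]

/-- `∑_u ‖E[F | k u]‖² ≤ 2 ‖F‖² + ‖E F‖²` -/
def K3prop (X : Finset α) (k : Fin 3 → α → κ) : Prop :=
  ∀ F : α → ℝ, ∑ u, ∑ x ∈ X, ce X (k u) F x ^ 2
    ≤ 2 * ∑ x ∈ X, F x ^ 2 + ∑ x ∈ X, ce X (fun _ => ()) F x ^ 2

lemma K3prop_subsingleton (X : Finset α) (k : Fin 3 → α → κ) (h : ∀ x ∈ X, ∀ y ∈ X, x = y) :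
    K3prop X k := by
  intro F
  have e1 : ∀ u, ∑ x ∈ X, ce X (k u) F x ^ 2 = ∑ x ∈ X, F x ^ 2 := by
    intro u
    apply Finset.sum_congr rfl
    intro x hx
    rw [ce_of_meas (fun a ha b hb _ => by rw [h a ha b hb]) hx]
  have e2 : ∑ x ∈ X, ce X (fun _ => ()) F x ^ 2 = ∑ x ∈ X, F x ^ 2 := by
    apply Finset.sum_congr rfl
    intro x hx
    rw [ce_of_meas (fun a ha b hb _ => by rw [h a ha b hb]) hx]
  simp only [e1, e2, Finset.sum_const, Finset.card_univ, Fintype.card_fin, nsmul_eq_mul]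
  norm_num
  linarith

lemma ce_filter_unit (X : Finset α) (Y : α → Fin 3) (F : α → ℝ) {x : α} {c : Fin 3}
    (hx : Y x = c) :
    ce (X.filter (fun y => Y y = c)) (fun _ => ()) F x = ce X Y F x := by
  unfold ce fib
  simp [hx]

lemma ce_filter' (X : Finset α) (k : α → κ) (Y : α → Fin 3) (F : α → ℝ) {x : α} {c : Fin 3}
    (hx : Y x = c) :
    ce (X.filter (fun y => Y y = c)) k F x = ce X (fun y => (k y, Y y)) F x := by
  have := ce_filter X k Y F x
  rw [hx] at this
  exact this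

/-- summing the property over the level sets of `Y` -/
lemma K3prop_levels (X : Finset α) (k : Fin 3 → α → κ) (Y : α → Fin 3)
    (h1 : ∀ c, K3prop (X.filter (fun x => Y x = c)) k) (F : α → ℝ) :
    ∑ u, ∑ x ∈ X, ce X (fun y => (k u y, Y y)) F x ^ 2
      ≤ 2 * ∑ x ∈ X, F x ^ 2 + ∑ x ∈ X, ce X Y F x ^ 2 := by
  have h : ∀ c, ∑ u, ∑ x ∈ X.filter (fun x => Y x = c), ce X (fun y => (k u y, Y y)) F x ^ 2
      ≤ 2 * ∑ x ∈ X.filter (fun x => Y x = c), F x ^ 2
        + ∑ x ∈ X.filter (fun x => Y x = c), ce X Y F x ^ 2 := by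
    intro c
    have := h1 c F
    have e1 : ∀ u, ∑ x ∈ X.filter (fun x => Y x = c),
        ce (X.filter (fun x => Y x = c)) (k u) F x ^ 2
        = ∑ x ∈ X.filter (fun x => Y x = c), ce X (fun y => (k u y, Y y)) F x ^ 2 := by
      intro u
      apply Finset.sum_congr rfl
      intro x hx
      rw [ce_filter' X (k u) Y F (Finset.mem_filter.mp hx).2]
    have e2 : ∑ x ∈ X.filter (fun x => Y x = c),
        ce (X.filter (fun x => Y x = c)) (fun _ => ()) F x ^ 2
        = ∑ x ∈ X.filter (fun x => Y x = c), ce X Y F x ^ 2 := by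
      apply Finset.sum_congr rfl
      intro x hx
      rw [ce_filter_unit X Y F (Finset.mem_filter.mp hx).2]
    simp only [e1, e2] at this
    exact this
  have hs := Finset.sum_le_sum (s := (Finset.univ : Finset (Fin 3))) (fun c _ => h c)
  rw [Finset.sum_comm, Finset.sum_add_distrib, ← Finset.mul_sum] at hs
  simp only [Finset.sum_fiberwise] at hs
  exact hs

lemma third (u v : Fin 3) (h : v ≠ u) : ∃ w, w ≠ u ∧ w ≠ v ∧ ∀ c, c = u ∨ c = v ∨ c = w := by
  revert u v; decide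

/-- the commuting square of the induction step -/
lemma cs_aux (X : Finset α) (k1 : α → κ) (Y : α → Fin 3) (u : Fin 3)
    (h2 : ∀ x ∈ X, ∀ y ∈ X, k1 x = k1 y → (Y x = u ↔ Y y = u))
    (h3 : ∀ v w, v ≠ u → w ≠ u → ∀ G, Meas X k1 G →
      (∑ x ∈ X.filter (fun x => Y x = v), G x) * ((X.filter (fun x => Y x = w)).card : ℝ)
        = (∑ x ∈ X.filter (fun x => Y x = w), G x) * ((X.filter (fun x => Y x = v)).card : ℝ))
    (F : α → ℝ) (x : α) (hx : x ∈ X) :
    ce X Y (ce X k1 F) x = ce X (fun y => decide (Y y = u)) F x := by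
  classical
  have hco : Coarser X (fun y => decide (Y y = u)) k1 := by
    intro a ha b hb hab
    exact decide_eq_decide.mpr (h2 a ha b hb hab)
  rw [← ce_ce_of_coarser hco F x]
  set G := ce X k1 F with hGdef
  have hG : Meas X k1 G := meas_ce X k1 F
  by_cases hxu : Y x = u
  · have : fib X Y (Y x) = fib X (fun y => decide (Y y = u)) (decide (Y x = u)) := by
      ext y
      simp [fib, hxu]
    unfold ce
    rw [this]
  · obtain ⟨w, hwu, hwv, hall⟩ := third u (Y x) hxu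
    have hfib : fib X (fun y => decide (Y y = u)) (decide (Y x = u))
        = X.filter (fun y => Y y = Y x) ∪ X.filter (fun y => Y y = w) := by
      ext y
      simp only [fib, Finset.mem_filter, Finset.mem_union, hxu, decide_false, decide_eq_false_iff_not]
      constructor
      · rintro ⟨hy, hne⟩
        rcases hall (Y y) with h | h | h
        · exact absurd h hne
        · exact Or.inl ⟨hy, h⟩
        · exact Or.inr ⟨hy, h⟩
      · rintro (⟨hy, h⟩ | ⟨hy, h⟩)
        · exact ⟨hy, by rw [h]; exact hxu⟩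
        · exact ⟨hy, by rw [h]; exact hwu⟩
    have hdisj : Disjoint (X.filter (fun y => Y y = Y x)) (X.filter (fun y => Y y = w)) := by
      rw [Finset.disjoint_filter]
      intro y _ h1 h2'
      exact hwv (h2'.symm.trans h1)
    have hpos : 0 < (X.filter (fun y => Y y = Y x)).card :=
      Finset.card_pos.mpr ⟨x, Finset.mem_filter.mpr ⟨hx, rfl⟩⟩
    have hposR : (0 : ℝ) < ((X.filter (fun y => Y y = Y x)).card : ℝ) := by exact_mod_cast hpos
    have h3' := h3 (Y x) w hxu hwu G hG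
    have e1 : ce X Y G x = (∑ y ∈ X.filter (fun y => Y y = Y x), G y)
        / ((X.filter (fun y => Y y = Y x)).card : ℝ) := rfl
    have e2 : ce X (fun y => decide (Y y = u)) G x
        = ((∑ y ∈ X.filter (fun y => Y y = Y x), G y) + ∑ y ∈ X.filter (fun y => Y y = w), G y)
          / (((X.filter (fun y => Y y = Y x)).card : ℝ) + ((X.filter (fun y => Y y = w)).card : ℝ)) := by
      unfold ce
      rw [hfib, Finset.sum_union hdisj, Finset.card_union_of_disjoint hdisj]
      push_cast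
      rfl
    rw [e1, e2]
    have hw0 : (0 : ℝ) ≤ ((X.filter (fun y => Y y = w)).card : ℝ) := Nat.cast_nonneg _
    rw [div_eq_div_iff hposR.ne' (by positivity)]
    linarith

/-- the three point inequality for conditional expectations -/
lemma three_point_ce (X : Finset α) (Y : α → Fin 3) (F : α → ℝ) :
    ∑ u, ∑ x ∈ X, ce X (fun y => decide (Y y = u)) F x ^ 2
      ≤ ∑ x ∈ X, ce X (fun _ => ()) F x ^ 2 + 2 * ∑ x ∈ X, ce X Y F x ^ 2 := by
  set S : Fin 3 → ℝ := fun c => ∑ x ∈ X.filter (fun x => Y x = c), F x with hS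
  set N : Fin 3 → ℝ := fun c => ((X.filter (fun x => Y x = c)).card : ℝ) with hN
  have hStot : ∑ x ∈ X, F x = S 0 + S 1 + S 2 := by
    rw [← Finset.sum_fiberwise X Y, Fin.sum_univ_three]
  have hNtot : (X.card : ℝ) = N 0 + N 1 + N 2 := by
    have : X.card = ∑ c, (X.filter (fun x => Y x = c)).card := by
      rw [Finset.card_eq_sum_card_fiberwise (f := Y) (t := Finset.univ) (fun _ _ => Finset.mem_coe.mpr (Finset.mem_univ _))]
    rw [this, Fin.sum_univ_three]
    push_cast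
    rfl
  have hY : ∑ x ∈ X, ce X Y F x ^ 2 = S 0 ^ 2 / N 0 + S 1 ^ 2 / N 1 + S 2 ^ 2 / N 2 := by
    rw [sum_ce_sq_eq, Fin.sum_univ_three]
    rfl
  have hU : ∀ u, ∑ x ∈ X, ce X (fun y => decide (Y y = u)) F x ^ 2
      = S u ^ 2 / N u + (S 0 + S 1 + S 2 - S u) ^ 2 / (N 0 + N 1 + N 2 - N u) := by
    intro u
    rw [sum_ce_sq_eq, Fintype.sum_bool]
    have ft : fib X (fun y => decide (Y y = u)) true = X.filter (fun x => Y x = u) := by
      ext y; simp [fib]
    have ff : fib X (fun y => decide (Y y = u)) false = X.filter (fun x => ¬ Y x = u) := by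
      ext y; simp [fib]
    rw [ft, ff]
    have s1 : ∑ x ∈ X.filter (fun x => ¬ Y x = u), F x = S 0 + S 1 + S 2 - S u := by
      rw [← hStot, ← Finset.sum_filter_add_sum_filter_not X (fun x => Y x = u)]
      simp only [hS]
      ring
    have c1 : ((X.filter (fun x => ¬ Y x = u)).card : ℝ) = N 0 + N 1 + N 2 - N u := by
      rw [← hNtot, ← Finset.card_filter_add_card_filter_not (s := X) (fun x => Y x = u)]
      simp only [hN]
      push_cast
      ring
    rw [s1, c1]
  have hz : ∀ c, N c = 0 → S c = 0 := by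
    intro c hc
    simp only [hN, Nat.cast_eq_zero, Finset.card_eq_zero] at hc
    simp only [hS, hc, Finset.sum_empty]
  have hn : ∀ c, 0 ≤ N c := fun c => Nat.cast_nonneg _
  have tp := three_point (N 0) (N 1) (N 2) (S 0) (S 1) (S 2) (hn 0) (hn 1) (hn 2) (hz 0) (hz 1) (hz 2)
  rw [Fin.sum_univ_three, hU 0, hU 1, hU 2, hY, sum_ce_unit_sq, hStot, hNtot]
  have r0 : S 0 + S 1 + S 2 - S 0 = S 1 + S 2 := by ring
  have r1 : S 0 + S 1 + S 2 - S 1 = S 0 + S 2 := by ring
  have r2 : S 0 + S 1 + S 2 - S 2 = S 0 + S 1 := by ring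
  have q0 : N 0 + N 1 + N 2 - N 0 = N 1 + N 2 := by ring
  have q1 : N 0 + N 1 + N 2 - N 1 = N 0 + N 2 := by ring
  have q2 : N 0 + N 1 + N 2 - N 2 = N 0 + N 1 := by ring
  rw [r0, r1, r2, q0, q1, q2]
  linarith

/-- **Induction step**: condition on a three-valued statistic `Y`. -/
theorem K3prop_step (X : Finset α) (k : Fin 3 → α → κ) (Y : α → Fin 3)
    (h1 : ∀ c, K3prop (X.filter (fun x => Y x = c)) k)
    (h2 : ∀ u, ∀ x ∈ X, ∀ y ∈ X, k u x = k u y → (Y x = u ↔ Y y = u))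
    (h3 : ∀ u v w, v ≠ u → w ≠ u → ∀ G, Meas X (k u) G →
      (∑ x ∈ X.filter (fun x => Y x = v), G x) * ((X.filter (fun x => Y x = w)).card : ℝ)
        = (∑ x ∈ X.filter (fun x => Y x = w), G x) * ((X.filter (fun x => Y x = v)).card : ℝ)) :
    K3prop X k := by
  intro F
  have hA := K3prop_levels X k Y h1 F
  have hB : ∀ u, ∑ x ∈ X, ce X Y F x ^ 2 - ∑ x ∈ X, ce X (fun y => decide (Y y = u)) F x ^ 2
      ≤ ∑ x ∈ X, ce X (fun y => (k u y, Y y)) F x ^ 2 - ∑ x ∈ X, ce X (k u) F x ^ 2 := by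
    intro u
    apply commuting_square (k0 := fun y => decide (Y y = u)) (k1 := k u) (k2 := Y)
      (k3 := fun y => (k u y, Y y))
    · intro a _ b _ hab
      exact (Prod.mk.inj hab).1
    · intro a _ b _ hab
      exact (Prod.mk.inj hab).2
    · intro a _ b _ hab
      simp only [hab]
    · intro x hx
      exact cs_aux X (k u) Y u (h2 u) (h3 u) F x hx
  have hC := three_point_ce X Y F
  have hBs := Finset.sum_le_sum (s := (Finset.univ : Finset (Fin 3))) (fun u _ => hB u)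
  simp only [Finset.sum_sub_distrib, Finset.sum_const, Finset.card_univ, Fintype.card_fin,
    nsmul_eq_mul] at hBs
  push_cast at hBs
  linarith

end abstract

/-! ### conversion to the Poincare form with the definitions of `S0453_Core` -/

section convert
variable {α κ : Type*} [DecidableEq κ]
open Crest.Agent.S0453Core

lemma ce_eq_cE (X : Finset α) (k : α → κ) (F : α → ℝ) (x : α) : ce X k F x = cE X k F x := rfl

lemma ip_cP (X : Finset α) (k : α → κ) (F : α → ℝ) :
    ip X (cP X k F) (cP X k F) = ∑ x ∈ X, F x ^ 2 - ∑ x ∈ X, ce X k F x ^ 2 := by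
  rw [← sum_sub_ce_sq]
  unfold ip cP
  apply Finset.sum_congr rfl
  intro x _
  rw [← ce_eq_cE]; ring

/-- `K3prop` is the Poincare inequality `Var F ≤ ∑_u E Var(F | k u)` -/
lemma K3prop_iff (X : Finset α) (k : Fin 3 → α → κ) :
    K3prop X k ↔ ∀ F : α → ℝ, ip X (cP X (fun _ => ()) F) (cP X (fun _ => ()) F)
      ≤ ∑ u, ip X (cP X (k u) F) (cP X (k u) F) := by
  unfold K3prop
  apply forall_congr'
  intro F
  simp only [ip_cP, Finset.sum_sub_distrib, Finset.sum_const, Finset.card_univ, Fintype.card_fin,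
    nsmul_eq_mul]
  push_cast
  constructor <;> intro h <;> linarith

end convert

/-! ### colourings with fixed class sizes -/

section colourings
variable {J S : Type*} [Fintype J] [DecidableEq J] [DecidableEq S]

/-- colour class -/
def cls (u : Fin 3) (χ : J → Fin 3) : Finset J := univ.filter (fun j => χ j = u)

omit [DecidableEq J] in
lemma mem_cls {u : Fin 3} {χ : J → Fin 3} {j : J} : j ∈ cls u χ ↔ χ j = u := by
  simp [cls]

open scoped Classical in
/-- colourings with class sizes `a s u` (species `s`, colour `u`), frozen to `π` on `D` -/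
noncomputable def Col (sp : J → S) (a : S → Fin 3 → ℕ) (D : Finset J) (π : J → Fin 3) :
    Finset (J → Fin 3) :=
  univ.filter (fun χ => (∀ s u, (univ.filter (fun j => sp j = s ∧ χ j = u)).card = a s u)
    ∧ ∀ j ∈ D, χ j = π j)

variable {sp : J → S} {a : S → Fin 3 → ℕ} {D : Finset J} {π : J → Fin 3}

lemma mem_Col {χ : J → Fin 3} : χ ∈ Col sp a D π ↔
    (∀ s u, (univ.filter (fun j => sp j = s ∧ χ j = u)).card = a s u) ∧ ∀ j ∈ D, χ j = π j := by
  simp [Col]

lemma swap_mem {χ : J → Fin 3} (h : χ ∈ Col sp a D π) {i j : J} (hi : i ∉ D) (hj : j ∉ D)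
    (hs : sp i = sp j) : (χ ∘ Equiv.swap j i) ∈ Col sp a D π := by
  rw [mem_Col] at h ⊢
  refine ⟨fun s u => ?_, fun l hl => ?_⟩
  · rw [← h.1 s u]
    apply Finset.card_equiv (Equiv.swap j i)
    intro l
    simp only [Finset.mem_filter, Finset.mem_univ, true_and, Function.comp_apply]
    have : sp (Equiv.swap j i l) = sp l := by
      by_cases h1 : l = j
      · subst h1; rw [Equiv.swap_apply_left, hs]
      · by_cases h2 : l = i
        · subst h2; rw [Equiv.swap_apply_right, hs]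
        · rw [Equiv.swap_apply_of_ne_of_ne h1 h2]
    rw [this]
  · have h1 : l ≠ j := fun e => hj (e ▸ hl)
    have h2 : l ≠ i := fun e => hi (e ▸ hl)
    simp only [Function.comp_apply, Equiv.swap_apply_of_ne_of_ne h1 h2]
    exact h.2 l hl

lemma cls_swap {χ : J → Fin 3} {u : Fin 3} {i j : J} (hi : χ i ≠ u) (hj : χ j ≠ u) :
    cls u (χ ∘ Equiv.swap j i) = cls u χ := by
  ext l
  simp only [mem_cls, Function.comp_apply]
  by_cases h1 : l = j
  · subst h1; rw [Equiv.swap_apply_left]; exact ⟨fun h => absurd h hi, fun h => absurd h hj⟩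
  · by_cases h2 : l = i
    · subst h2; rw [Equiv.swap_apply_right]; exact ⟨fun h => absurd h hj, fun h => absurd h hi⟩
    · rw [Equiv.swap_apply_of_ne_of_ne h1 h2]

/-- the number of free columns of the species of `j` with colour `c` is constant -/
lemma count_free (sp : J → S) (a : S → Fin 3 → ℕ) (D : Finset J) (π : J → Fin 3) (j : J) :
    ∃ A : Fin 3 → ℕ, ∀ χ ∈ Col sp a D π, ∀ c,
      (univ.filter (fun i => i ∉ D ∧ sp i = sp j ∧ χ i = c)).card = A c := by
  refine ⟨fun c => a (sp j) c - (D.filter (fun i => sp i = sp j ∧ π i = c)).card, ?_⟩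
  intro χ hχ c
  rw [mem_Col] at hχ
  have h1 := hχ.1 (sp j) c
  have h2 := Finset.card_filter_add_card_filter_not
    (s := univ.filter (fun i => sp i = sp j ∧ χ i = c)) (fun i => i ∈ D)
  have e1 : (univ.filter (fun i => sp i = sp j ∧ χ i = c)).filter (fun i => i ∈ D)
      = D.filter (fun i => sp i = sp j ∧ π i = c) := by
    ext i
    simp only [Finset.mem_filter, Finset.mem_univ, true_and]
    constructor
    · rintro ⟨⟨h, h'⟩, hD⟩
      exact ⟨hD, h, by rw [← hχ.2 i hD]; exact h'⟩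
    · rintro ⟨hD, h, h'⟩
      exact ⟨⟨h, by rw [hχ.2 i hD]; exact h'⟩, hD⟩
  have e2 : (univ.filter (fun i => sp i = sp j ∧ χ i = c)).filter (fun i => ¬ i ∈ D)
      = univ.filter (fun i => i ∉ D ∧ sp i = sp j ∧ χ i = c) := by
    ext i
    simp only [Finset.mem_filter, Finset.mem_univ, true_and]
    tauto
  rw [e1, e2, h1] at h2
  show _ = a (sp j) c - (D.filter (fun i => sp i = sp j ∧ π i = c)).card
  omega

/-- double counting with colour swaps -/
lemma dc (A : Fin 3 → ℕ) {j : J} (hj : j ∉ D)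
    (hA : ∀ χ ∈ Col sp a D π, ∀ c,
      (univ.filter (fun i => i ∉ D ∧ sp i = sp j ∧ χ i = c)).card = A c)
    {v w : Fin 3} (G : (J → Fin 3) → ℝ)
    (hG : ∀ χ ∈ Col sp a D π, ∀ i, i ∉ D → sp i = sp j → χ j = v → χ i = w →
      G (χ ∘ Equiv.swap j i) = G χ) :
    (∑ χ ∈ (Col sp a D π).filter (fun χ => χ j = v), G χ) * (A w : ℝ)
      = (∑ χ ∈ (Col sp a D π).filter (fun χ => χ j = w), G χ) * (A v : ℝ) := by
  have expand : ∀ p q : Fin 3,
      (∑ χ ∈ (Col sp a D π).filter (fun χ => χ j = p), G χ) * (A q : ℝ)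
      = ∑ i, ∑ χ ∈ Col sp a D π,
          if (χ j = p ∧ i ∉ D ∧ sp i = sp j ∧ χ i = q) then G χ else 0 := by
    intro p q
    rw [Finset.sum_comm, Finset.sum_mul, Finset.sum_filter]
    apply Finset.sum_congr rfl
    intro χ hχ
    by_cases hp : χ j = p
    · rw [if_pos hp, ← hA χ hχ q, Finset.card_eq_sum_ones, Finset.sum_filter]
      push_cast
      rw [Finset.mul_sum]
      apply Finset.sum_congr rfl
      intro i _
      by_cases hc : i ∉ D ∧ sp i = sp j ∧ χ i = q
      · rw [if_pos hc, if_pos ⟨hp, hc⟩]; ring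
      · rw [if_neg hc, if_neg (fun h => hc h.2)]; ring
    · rw [if_neg hp]
      symm
      apply Finset.sum_eq_zero
      intro i _
      rw [if_neg (fun h => hp h.1)]
  rw [expand v w, expand w v]
  apply Finset.sum_congr rfl
  intro i _
  by_cases hi : i ∉ D ∧ sp i = sp j
  · apply Finset.sum_nbij' (fun χ => χ ∘ Equiv.swap j i) (fun χ => χ ∘ Equiv.swap j i)
    · intro χ hχ; exact swap_mem hχ hi.1 hj hi.2
    · intro χ hχ; exact swap_mem hχ hi.1 hj hi.2
    · intro χ _; ext l; simp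
    · intro χ _; ext l; simp
    · intro χ hχ
      simp only [Function.comp_apply, Equiv.swap_apply_left, Equiv.swap_apply_right]
      by_cases hc : χ j = v ∧ χ i = w
      · rw [if_pos ⟨hc.1, hi.1, hi.2, hc.2⟩, if_pos ⟨hc.2, hi.1, hi.2, hc.1⟩,
          hG χ hχ i hi.1 hi.2 hc.1 hc.2]
      · rw [if_neg (fun h => hc ⟨h.1, h.2.2.2⟩), if_neg (fun h => hc ⟨h.2.2.2, h.1⟩)]
  · rw [Finset.sum_eq_zero, Finset.sum_eq_zero]
    · intro χ _; rw [if_neg (fun h => hi ⟨h.2.1, h.2.2.1⟩)]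
    · intro χ _; rw [if_neg (fun h => hi ⟨h.2.1, h.2.2.1⟩)]

lemma Col_filter {j : J} (hj : j ∉ D) (c : Fin 3) :
    (Col sp a D π).filter (fun χ => χ j = c) = Col sp a (insert j D) (Function.update π j c) := by
  ext χ
  simp only [Finset.mem_filter, mem_Col, Finset.mem_insert]
  constructor
  · rintro ⟨⟨h1, h2⟩, h3⟩
    refine ⟨h1, ?_⟩
    rintro l (rfl | hl)
    · simp [h3]
    · have : l ≠ j := fun e => hj (e ▸ hl)
      rw [Function.update_of_ne this]
      exact h2 l hl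
  · rintro ⟨h1, h2⟩
    refine ⟨⟨h1, ?_⟩, ?_⟩
    · intro l hl
      have : l ≠ j := fun e => hj (e ▸ hl)
      have h := h2 l (Or.inr hl)
      rwa [Function.update_of_ne this] at h
    · have h := h2 j (Or.inl rfl)
      simpa using h

lemma prop_Col {j : J} (hj : j ∉ D) (u v w : Fin 3) (hv : v ≠ u) (hw : w ≠ u)
    (G : (J → Fin 3) → ℝ) (hG : Meas (Col sp a D π) (cls u) G) :
    (∑ χ ∈ (Col sp a D π).filter (fun χ => χ j = v), G χ)
        * (((Col sp a D π).filter (fun χ => χ j = w)).card : ℝ)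
      = (∑ χ ∈ (Col sp a D π).filter (fun χ => χ j = w), G χ)
        * (((Col sp a D π).filter (fun χ => χ j = v)).card : ℝ) := by
  obtain ⟨A, hA⟩ := count_free sp a D π j
  have d1 := dc (v := v) (w := w) A hj hA G (by
    intro χ hχ i hi hs hjv hiw
    exact hG _ (swap_mem hχ hi hj hs) χ hχ
      (cls_swap (by rw [hiw]; exact hw) (by rw [hjv]; exact hv)))
  have d2 := dc (v := v) (w := w) A hj hA (fun _ => (1 : ℝ)) (by intros; rfl)
  simp only [Finset.sum_const, nsmul_eq_mul, mul_one] at d2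
  by_cases hAw : A w = 0
  · have hemp : (Col sp a D π).filter (fun χ => χ j = w) = ∅ := by
      rw [Finset.filter_eq_empty_iff]
      intro χ hχ hjw
      have := hA χ hχ w
      rw [hAw, Finset.card_eq_zero, Finset.filter_eq_empty_iff] at this
      exact this (Finset.mem_univ j) ⟨hj, rfl, hjw⟩
    rw [hemp]
    simp
  · have hAw' : (A w : ℝ) ≠ 0 := by exact_mod_cast hAw
    apply mul_right_cancel₀ hAw'
    set Sv := ∑ χ ∈ (Col sp a D π).filter (fun χ => χ j = v), G χ
    set Sw := ∑ χ ∈ (Col sp a D π).filter (fun χ => χ j = w), G χ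
    set Nv := (((Col sp a D π).filter (fun χ => χ j = v)).card : ℝ)
    set Nw := (((Col sp a D π).filter (fun χ => χ j = w)).card : ℝ)
    calc Sv * Nw * (A w : ℝ) = (Sv * (A w : ℝ)) * Nw := by ring
      _ = (Sw * (A v : ℝ)) * Nw := by rw [d1]
      _ = Sw * (Nw * (A v : ℝ)) := by ring
      _ = Sw * (Nv * (A w : ℝ)) := by rw [d2]
      _ = Sw * Nv * (A w : ℝ) := by ring

theorem K3prop_Col_aux (sp : J → S) (a : S → Fin 3 → ℕ) :
    ∀ (m : ℕ) (D : Finset J) (π : J → Fin 3), (univ \ D).card = m →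
      K3prop (Col sp a D π) cls := by
  intro m
  induction m with
  | zero =>
    intro D π hD
    apply K3prop_subsingleton
    intro χ hχ χ' hχ'
    have hall : ∀ j, j ∈ D := by
      intro j
      by_contra hj
      have : j ∈ univ \ D := Finset.mem_sdiff.mpr ⟨Finset.mem_univ j, hj⟩
      rw [Finset.card_eq_zero] at hD
      rw [hD] at this
      simp at this
    ext1 j
    rw [(mem_Col.mp hχ).2 j (hall j), (mem_Col.mp hχ').2 j (hall j)]
  | succ m ih =>
    intro D π hD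
    have hne : (univ \ D).Nonempty := by
      rw [← Finset.card_pos, hD]; omega
    obtain ⟨j, hjm⟩ := hne
    have hj : j ∉ D := (Finset.mem_sdiff.mp hjm).2
    apply K3prop_step (Col sp a D π) cls (fun χ => χ j)
    · intro c
      rw [Col_filter hj c]
      apply ih
      rw [Finset.sdiff_insert, Finset.card_erase_of_mem hjm, hD]
      rfl
    · intro u χ _ χ' _ h
      rw [← mem_cls, ← mem_cls, h]
    · intro u v w hv hw G hG
      exact prop_Col hj u v w hv hw G hG

/-- **K3 for fixed class sizes** (any number of species). -/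
theorem K3prop_Col (sp : J → S) (a : S → Fin 3 → ℕ) (D : Finset J) (π : J → Fin 3) :
    K3prop (Col sp a D π) cls :=
  K3prop_Col_aux sp a _ D π rfl

/-- version for an arbitrary finset described by its membership -/
theorem K3prop_fixed (sp : J → S) (a : S → Fin 3 → ℕ) (X : Finset (J → Fin 3))
    (hX : ∀ χ, χ ∈ X ↔ ∀ s u, (univ.filter (fun j => sp j = s ∧ χ j = u)).card = a s u) :
    K3prop X cls := by
  have : X = Col sp a ∅ (fun _ => 0) := by
    ext χ
    rw [hX, mem_Col]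
    simp
  rw [this]
  exact K3prop_Col sp a ∅ _

end colourings

end Crest.Agent.S0453K3N
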