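import Mathlib
import Crest.Agent.S0453_Core
import Crest.Agent.S0453_CoreLemmas
import Crest.Agent.S0453_K3ColDefs
import Crest.Agent.S0453_Radial

/-!
# Row 299 (S0453), K3-alpha: transfer of the one-dimensional (radial) lemma to an ensemble

If the push-forward of the uniform measure on `X` under `π : α → (Fin 3 → ℕ)` is (up to a constant)
the product weight `wt ν` on the simplex `Sx k`, with `ν` positive and log-concave, then the
Poincare form of K3 holds on `X` for functions of `π`.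
-/

set_option autoImplicit false
open Finset

namespace Crest.Agent.S0453K3RadEns
open Crest.Agent.S0453Core

section Abstract
variable {α : Type*} (X : Finset α) (π : α → Fin 3 → ℕ) (k : ℕ) (ν : Fin 3 → ℕ → ℝ) (c : ℝ)

local notation "Sx" => Crest.Agent.S0453Radial.Sx
local notation "wt" => Crest.Agent.S0453Radial.wt

/-- conditional expectations are transported -/
lemma cE_transfer {τ : Type*} [DecidableEq τ] (hc : c ≠ 0)
    (hsum : ∀ G : (Fin 3 → ℕ) → ℝ, ∑ x ∈ X, G (π x) = c * ∑ s ∈ Sx k, wt ν s * G s)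
    (κ : (Fin 3 → ℕ) → τ) (Ψ : (Fin 3 → ℕ) → ℝ) (x : α) :
    cE X (fun y => κ (π y)) (fun y => Ψ (π y)) x
      = Crest.Agent.S0453Radial.cE (Sx k) (wt ν) κ Ψ (π x) := by
  unfold cE fib Crest.Agent.S0453Radial.cE Crest.Agent.S0453Radial.fN Crest.Agent.S0453Radial.fD
  have h1 : ∑ y ∈ X.filter (fun y => κ (π y) = κ (π x)), Ψ (π y)
      = c * ∑ s ∈ (Sx k).filter (fun s => κ s = κ (π x)), wt ν s * Ψ s := by
    rw [Finset.sum_filter, hsum (fun s => if κ s = κ (π x) then Ψ s else 0), Finset.sum_filter]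
    congr 1
    exact Finset.sum_congr rfl (fun s _ => by split_ifs <;> simp)
  have h2 : ((X.filter (fun y => κ (π y) = κ (π x))).card : ℝ)
      = c * ∑ s ∈ (Sx k).filter (fun s => κ s = κ (π x)), wt ν s := by
    rw [Finset.card_eq_sum_ones, Nat.cast_sum, Finset.sum_filter]
    have := hsum (fun s => if κ s = κ (π x) then 1 else 0)
    simp only [Nat.cast_one]
    rw [this, Finset.sum_filter]
    congr 1
    exact Finset.sum_congr rfl (fun s _ => by split_ifs <;> simp)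
  rw [h1, h2]
  exact mul_div_mul_left _ _ hc

lemma ip_transfer
    (hsum : ∀ G : (Fin 3 → ℕ) → ℝ, ∑ x ∈ X, G (π x) = c * ∑ s ∈ Sx k, wt ν s * G s)
    (G₁ G₂ : (Fin 3 → ℕ) → ℝ) :
    ip X (fun y => G₁ (π y)) (fun y => G₂ (π y))
      = c * Crest.Agent.S0453Radial.ip (Sx k) (wt ν) G₁ G₂ := by
  unfold ip Crest.Agent.S0453Radial.ip
  rw [hsum (fun s => G₁ s * G₂ s)]
  congr 1
  exact Finset.sum_congr rfl (fun s _ => by ring)

/-- **Transfer of the radial lemma.** -/
theorem transfer (hν : ∀ a i, 0 < ν a i) (lc : ∀ a i, ν a i * ν a (i + 2) ≤ ν a (i + 1) ^ 2)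
    (hc : 0 < c)
    (hsum : ∀ G : (Fin 3 → ℕ) → ℝ, ∑ x ∈ X, G (π x) = c * ∑ s ∈ Sx k, wt ν s * G s)
    (Ψ : (Fin 3 → ℕ) → ℝ) :
    ip X (cP X (fun _ => ()) (fun x => Ψ (π x))) (cP X (fun _ => ()) (fun x => Ψ (π x)))
      ≤ ∑ u : Fin 3, ip X (cP X (fun x => π x u) (fun x => Ψ (π x)))
          (cP X (fun x => π x u) (fun x => Ψ (π x))) := by
  set m : ℝ := (∑ y ∈ X, Ψ (π y)) / (X.card : ℝ) with hm
  set Ψ₀ : (Fin 3 → ℕ) → ℝ := fun s => Ψ s - m with hΨ₀
  have e0 : ∀ x, cP X (fun _ => ()) (fun x => Ψ (π x)) x = Ψ₀ (π x) := by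
    intro x
    rw [cP_def, cE_unit]
  have e0' : cP X (fun _ => ()) (fun x => Ψ (π x)) = fun x => Ψ₀ (π x) := funext e0
  have eu : ∀ u : Fin 3, ∀ x ∈ X, cP X (fun x => π x u) (fun x => Ψ (π x)) x
      = cP X (fun x => π x u) (fun x => Ψ₀ (π x)) x := by
    intro u x hx
    have := cP_sub (Ω := X) (φ := fun x => π x u) (fun x => Ψ (π x)) (fun _ => m) x
    rw [cP_of_meas (meas_const m) hx, sub_zero] at this
    exact this.symm
  have mean0 : ∑ s ∈ Sx k, wt ν s * Ψ₀ s = 0 := by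
    have h1 := hsum Ψ₀
    have h2 : ∑ x ∈ X, Ψ₀ (π x) = 0 := by
      rw [← sum_cP (Ω := X) (φ := fun _ => ()) (fun x => Ψ (π x))]
      exact Finset.sum_congr rfl (fun x _ => (e0 x).symm)
    rw [h2] at h1
    rcases mul_eq_zero.mp h1.symm with h | h
    · exact absurd h hc.ne'
    · exact h
  have key := Crest.Agent.S0453Radial.T_quad ν k hν lc Ψ₀ mean0
  rw [Crest.Agent.S0453Radial.ip_T] at key
  have hu : ∀ u : Fin 3, ip X (cP X (fun x => π x u) (fun x => Ψ (π x)))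
      (cP X (fun x => π x u) (fun x => Ψ (π x)))
      = c * Crest.Agent.S0453Radial.ip (Sx k) (wt ν) Ψ₀ Ψ₀
        - c * Crest.Agent.S0453Radial.ip (Sx k) (wt ν) Ψ₀ (Crest.Agent.S0453Radial.E ν k u Ψ₀) := by
    intro u
    rw [ip_congr (eu u) (eu u), ip_cP_self, ← ip_cE_right, ip_transfer X π k ν c hsum]
    congr 1
    have : cE X (fun x => π x u) (fun x => Ψ₀ (π x))
        = fun y => Crest.Agent.S0453Radial.E ν k u Ψ₀ (π y) := by
      funext y
      exact cE_transfer X π k ν c hc.ne' hsum (fun s => s u) Ψ₀ y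
    rw [this, ip_transfer X π k ν c hsum]
  rw [e0', ip_transfer X π k ν c hsum]
  simp only [hu]
  rw [Finset.sum_sub_distrib, ← Finset.mul_sum (f := fun u => Crest.Agent.S0453Radial.ip (Sx k) (wt ν) Ψ₀
    (Crest.Agent.S0453Radial.E ν k u Ψ₀))]
  simp only [Finset.sum_const, Finset.card_univ, Fintype.card_fin, nsmul_eq_mul]
  have := mul_le_mul_of_nonneg_left key hc.le
  push_cast
  linarith

/-- the same with a shift `x0` of the radial vector `b` -/
theorem transfer_shift (b : α → Fin 3 → ℕ) (x0 : Fin 3 → ℕ)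
    (hν : ∀ a i, 0 < ν a i) (lc : ∀ a i, ν a i * ν a (i + 2) ≤ ν a (i + 1) ^ 2)
    (hc : 0 < c)
    (hsum : ∀ G : (Fin 3 → ℕ) → ℝ,
      ∑ x ∈ X, G (b x) = c * ∑ s ∈ Sx k, wt ν s * G (fun u => x0 u + s u))
    (Φ : (Fin 3 → ℕ) → ℝ) :
    ip X (cP X (fun _ => ()) (fun x => Φ (b x))) (cP X (fun _ => ()) (fun x => Φ (b x)))
      ≤ ∑ u : Fin 3, ip X (cP X (fun x => b x u) (fun x => Φ (b x)))
          (cP X (fun x => b x u) (fun x => Φ (b x))) := by
  classical
  -- `x0 ≤ b x` on `X`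
  have hx0 : ∀ x ∈ X, ∀ u, x0 u ≤ b x u := by
    have h := hsum (fun t => if ∀ u, x0 u ≤ t u then 0 else 1)
    have hz : ∑ s ∈ Sx k, wt ν s * (if ∀ u, x0 u ≤ x0 u + s u then (0 : ℝ) else 1) = 0 := by
      refine Finset.sum_eq_zero (fun s _ => ?_)
      rw [if_pos (fun u => Nat.le_add_right _ _), mul_zero]
    rw [hz, mul_zero] at h
    intro x hx
    by_contra hcon
    have h2 := (Finset.sum_eq_zero_iff_of_nonneg (fun y _ => by split_ifs <;> norm_num)).mp h x hx
    rw [if_neg hcon] at h2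
    exact one_ne_zero h2
  set π : α → Fin 3 → ℕ := fun x u => b x u - x0 u with hπ
  set Ψ : (Fin 3 → ℕ) → ℝ := fun s => Φ (fun u => x0 u + s u) with hΨ
  have hb : ∀ x ∈ X, (fun u => x0 u + π x u) = b x := by
    intro x hx
    funext u
    have := hx0 x hx u
    simp only [hπ]
    omega
  have hf : ∀ x ∈ X, Φ (b x) = Ψ (π x) := by
    intro x hx
    simp only [hΨ]
    rw [hb x hx]
  have hsum' : ∀ G : (Fin 3 → ℕ) → ℝ, ∑ x ∈ X, G (π x) = c * ∑ s ∈ Sx k, wt ν s * G s := by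
    intro G
    have := hsum (fun t => G (fun u => t u - x0 u))
    simp only [Nat.add_sub_cancel_left] at this
    exact this
  have key := transfer X π k ν c hν lc hc hsum' Ψ
  have e0 : ∀ x ∈ X, cP X (fun _ => ()) (fun x => Φ (b x)) x
      = cP X (fun _ => ()) (fun x => Ψ (π x)) x := fun x hx => cP_congr hf hx
  have eu : ∀ u : Fin 3, ∀ x ∈ X, cP X (fun x => b x u) (fun x => Φ (b x)) x
      = cP X (fun x => π x u) (fun x => Ψ (π x)) x := by
    intro u x hx
    rw [cP_congr hf hx, cP_def, cP_def]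
    congr 1
    apply cE_congr_label
    intro y hy
    have h1 := hx0 x hx u
    have h2 := hx0 y hy u
    simp only [hπ]
    omega
  rw [ip_congr e0 e0]
  refine key.trans (le_of_eq ?_)
  exact Finset.sum_congr rfl (fun u _ => (ip_congr (eu u) (eu u)).symm)

end Abstract

/-! ### the weights `1 / ((p+i)! (q+i)!)` -/

lemma nu_pos (p q i : ℕ) : (0 : ℝ) < 1 / (((p + i).factorial : ℝ) * ((q + i).factorial : ℝ)) := by
  have h1 : (0 : ℝ) < ((p + i).factorial : ℝ) := by exact_mod_cast Nat.factorial_pos _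
  have h2 : (0 : ℝ) < ((q + i).factorial : ℝ) := by exact_mod_cast Nat.factorial_pos _
  positivity

lemma nu_lc (p q i : ℕ) :
    (1 / (((p + i).factorial : ℝ) * ((q + i).factorial : ℝ)))
        * (1 / (((p + (i + 2)).factorial : ℝ) * ((q + (i + 2)).factorial : ℝ)))
      ≤ (1 / (((p + (i + 1)).factorial : ℝ) * ((q + (i + 1)).factorial : ℝ))) ^ 2 := by
  have h1 : (0 : ℝ) < ((p + i).factorial : ℝ) := by exact_mod_cast Nat.factorial_pos _
  have h2 : (0 : ℝ) < ((q + i).factorial : ℝ) := by exact_mod_cast Nat.factorial_pos _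
  have e1 : ((p + (i + 1)).factorial : ℝ) = ((p + i : ℕ) + 1 : ℝ) * ((p + i).factorial : ℝ) := by
    rw [← add_assoc, Nat.factorial_succ]; push_cast; ring
  have e2 : ((q + (i + 1)).factorial : ℝ) = ((q + i : ℕ) + 1 : ℝ) * ((q + i).factorial : ℝ) := by
    rw [← add_assoc, Nat.factorial_succ]; push_cast; ring
  have e3 : ((p + (i + 2)).factorial : ℝ)
      = ((p + i : ℕ) + 2 : ℝ) * (((p + i : ℕ) + 1 : ℝ) * ((p + i).factorial : ℝ)) := by
    have : p + (i + 2) = (p + i + 1) + 1 := by ring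
    rw [this, Nat.factorial_succ, Nat.factorial_succ]; push_cast; ring
  have e4 : ((q + (i + 2)).factorial : ℝ)
      = ((q + i : ℕ) + 2 : ℝ) * (((q + i : ℕ) + 1 : ℝ) * ((q + i).factorial : ℝ)) := by
    have : q + (i + 2) = (q + i + 1) + 1 := by ring
    rw [this, Nat.factorial_succ, Nat.factorial_succ]; push_cast; ring
  rw [e1, e2, e3, e4]
  set P : ℝ := ((p + i : ℕ) : ℝ) with hP
  set Q : ℝ := ((q + i : ℕ) : ℝ) with hQ
  have hP0 : 0 ≤ P := Nat.cast_nonneg _
  have hQ0 : 0 ≤ Q := Nat.cast_nonneg _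
  set a : ℝ := ((p + i).factorial : ℝ)
  set b : ℝ := ((q + i).factorial : ℝ)
  rw [div_mul_div_comm, div_pow, one_mul, one_pow]
  apply one_div_le_one_div_of_le (by positivity)
  have : ((P + 1) * a * ((Q + 1) * b)) ^ 2 = (a * b) ^ 2 * (((P + 1) * (Q + 1)) * ((P + 1) * (Q + 1))) := by
    ring
  rw [this]
  have : a * b * ((P + 2) * ((P + 1) * a) * ((Q + 2) * ((Q + 1) * b)))
      = (a * b) ^ 2 * (((P + 1) * (Q + 1)) * ((P + 2) * (Q + 2))) := by ring
  rw [this]
  apply mul_le_mul_of_nonneg_left _ (by positivity)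
  apply mul_le_mul_of_nonneg_left _ (by positivity)
  nlinarith

end Crest.Agent.S0453K3RadEns
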