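import Mathlib
import Crest.Agent.S0453_K3Glue
import Crest.Agent.S0453_RadEns
import Crest.Agent.S0453_K3Rows
import Crest.Agent.S0453_Triple
import Crest.Agent.S0453_P3S3

/-!
# Row 299 (S0453): K3 (alpha route) assembled: `K3Col`, `K3Rows`.
-/

set_option autoImplicit false

namespace Crest.Agent.S0453K3alpha

theorem k3Col : S0453K3Col.K3Col :=
  S0453K3Glue.K3Col_of_radial (fun _ _ _ _ _ h dl => S0453RadEns.radialProp h dl)

theorem k3Rows : S0453P6.K3Rows := S0453K3Rows.K3Rows_of_K3Col k3Col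

theorem s3 {n : ℕ} (d : Fin n → ℕ) : S0453Defs.S3 d :=
  S0453P3S3.S3_of_P3 d (S0453Triple.P3_of_K3Rows k3Rows d)

end Crest.Agent.S0453K3alpha
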