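import Mathlib
import Crest.Agent.S0453_Core

/-!
# Row 299 (S0453), K3-beta: definitions (colouring model, moves, two-scale Lipschitz classes)
-/

set_option autoImplicit false
open Finset

namespace Crest.Agent.S0453K3b
open Crest.Agent.S0453Core

variable {J : Type*} [Fintype J] [DecidableEq J]

/-- sign of a column: `+1` for species `true` (column sum 1), `-1` for species `false`. -/
def eps (sgn : J → Bool) (j : J) : ℤ := if sgn j = true then 1 else -1

/-- signed size of the colour class `u`. -/
def cnt (sgn : J → Bool) (χ : J → Fin 3) (u : Fin 3) : ℤ :=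
  ∑ j, if χ j = u then eps sgn j else 0

/-- the ensemble: colourings with prescribed signed class sizes. -/
def Ens (sgn : J → Bool) (δ : Fin 3 → ℤ) : Finset (J → Fin 3) :=
  univ.filter (fun χ => ∀ u, cnt sgn χ u = δ u)

/-- colour class -/
def cls (u : Fin 3) (χ : J → Fin 3) : Finset J := univ.filter (fun j => χ j = u)

/-- move (i): swap the colours of two columns -/
def sw (χ : J → Fin 3) (x y : J) : J → Fin 3 := fun j => χ (Equiv.swap x y j)

/-- move (ii): recolour two columns with `v` -/
def rc (χ : J → Fin 3) (x y : J) (v : Fin 3) : J → Fin 3 :=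
  fun j => if j = x ∨ j = y then v else χ j

/-- two-scale Lipschitz class -/
structure Lip (Ω : Finset (J → Fin 3)) (sgn : J → Bool) (a l : ℝ) (h : (J → Fin 3) → ℝ) : Prop where
  one : ∀ χ ∈ Ω, ∀ x y, sgn x = sgn y → |h χ - h (sw χ x y)| ≤ a
  two : ∀ χ ∈ Ω, ∀ x y v, sgn x = true → sgn y = false → χ x = χ y → |h χ - h (rc χ x y v)| ≤ l

/-- the averaged heat-bath operator -/
noncomputable def Kop (Ω : Finset (J → Fin 3)) (h : (J → Fin 3) → ℝ) : (J → Fin 3) → ℝ :=
  fun χ => (∑ u : Fin 3, cE Ω (cls u) h χ) / 3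

end Crest.Agent.S0453K3b
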