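import Mathlib
import Crest.Agent.S0453_Core
import Crest.Agent.S0453_K3b

/-!
# Row 299 (S0453), K3-beta: the moves preserve the ensemble; the four-part correspondence
-/

set_option autoImplicit false
set_option linter.unusedSectionVars false
open Finset

namespace Crest.Agent.S0453K3b
open Crest.Agent.S0453Core

variable {J : Type*} [Fintype J] [DecidableEq J] {sgn : J → Bool} {δ : Fin 3 → ℤ}

theorem mem_Ens {χ : J → Fin 3} : χ ∈ Ens sgn δ ↔ ∀ u, cnt sgn χ u = δ u := by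
  simp [Ens]

theorem mem_cls {u : Fin 3} {χ : J → Fin 3} {j : J} : j ∈ cls u χ ↔ χ j = u := by
  simp [cls]

theorem cnt_sw (χ : J → Fin 3) {x y : J} (hxy : sgn x = sgn y) (u : Fin 3) :
    cnt sgn (sw χ x y) u = cnt sgn χ u := by
  unfold cnt sw
  rw [← Equiv.sum_comp (Equiv.swap x y)]
  apply Finset.sum_congr rfl
  intro j _
  simp only [Equiv.swap_apply_self]
  have : eps sgn (Equiv.swap x y j) = eps sgn j := by
    unfold eps
    rcases eq_or_ne j x with rfl | hjx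
    · simp [hxy]
    · rcases eq_or_ne j y with rfl | hjy
      · simp [hxy]
      · rw [Equiv.swap_apply_of_ne_of_ne hjx hjy]
  rw [this]

theorem sw_mem {χ : J → Fin 3} (hχ : χ ∈ Ens sgn δ) {x y : J} (hxy : sgn x = sgn y) :
    sw χ x y ∈ Ens sgn δ := by
  rw [mem_Ens] at hχ ⊢
  intro u
  rw [cnt_sw χ hxy, hχ]

theorem cnt_rc (χ : J → Fin 3) {x y : J} (hx : sgn x = true) (hy : sgn y = false)
    (hc : χ x = χ y) (v u : Fin 3) : cnt sgn (rc χ x y v) u = cnt sgn χ u := by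
  have hne : x ≠ y := by
    rintro rfl
    rw [hx] at hy
    exact Bool.noConfusion hy
  unfold cnt
  rw [← sub_eq_zero, ← Finset.sum_sub_distrib]
  have hsplit : ∀ j : J, ((if rc χ x y v j = u then eps sgn j else 0) - (if χ j = u then eps sgn j else 0))
      = (if j = x then ((if v = u then (1:ℤ) else 0) - (if χ x = u then 1 else 0)) else 0)
        + (if j = y then ((if χ x = u then (1:ℤ) else 0) - (if v = u then 1 else 0)) else 0) := by
    intro j
    rcases eq_or_ne j x with rfl | hjx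
    · simp only [rc, true_or, if_true, eps, hx, if_neg hne, add_zero]
    · rcases eq_or_ne j y with rfl | hjy
      · simp only [rc, or_true, if_true, eps, hy, if_neg hjx, zero_add, ← hc]
        split_ifs <;> simp_all
      · simp [rc, hjx, hjy]
  rw [Finset.sum_congr rfl (fun j _ => hsplit j), Finset.sum_add_distrib]
  simp

theorem rc_mem {χ : J → Fin 3} (hχ : χ ∈ Ens sgn δ) {x y : J} (hx : sgn x = true) (hy : sgn y = false)
    (hc : χ x = χ y) (v : Fin 3) : rc χ x y v ∈ Ens sgn δ := by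
  rw [mem_Ens] at hχ ⊢
  intro u
  rw [cnt_rc χ hx hy hc, hχ]


/-! ### the sets `Zset` and their cardinalities -/

/-- columns of species `true` coloured `p` or of species `false` coloured `q` -/
def Zset (sgn : J → Bool) (p q : Fin 3) (ζ : J → Fin 3) : Finset J :=
  univ.filter (fun z => (sgn z = true ∧ ζ z = p) ∨ (sgn z = false ∧ ζ z = q))

theorem mem_Zset {p q : Fin 3} {ζ : J → Fin 3} {z : J} :
    z ∈ Zset sgn p q ζ ↔ (sgn z = true ∧ ζ z = p) ∨ (sgn z = false ∧ ζ z = q) := by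
  simp [Zset]

theorem card_Zset {c p q : Fin 3} (hpc : p ≠ c) (hqc : q ≠ c) (hpq : p ≠ q)
    (hall : ∀ t : Fin 3, t = c ∨ t = p ∨ t = q) (ζ : J → Fin 3) :
    ((Zset sgn p q ζ).card : ℤ)
      = cnt sgn ζ p + ((univ.filter (fun j => sgn j = false ∧ j ∉ cls c ζ)).card : ℤ) := by
  unfold Zset cnt
  rw [Finset.card_filter, Finset.card_filter]
  push_cast
  rw [← Finset.sum_add_distrib]
  apply Finset.sum_congr rfl
  intro j _
  simp only [mem_cls]
  unfold eps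
  rcases hall (ζ j) with h | h | h <;> cases hs : sgn j <;>
    simp [h, hpc, hqc, hpq, hpc.symm, hqc.symm, hpq.symm]

/-! ### abstract averaging lemma -/

theorem part_bound {α ι : Type*} (A B : Finset α) (Z : α → Finset ι) (T : α → ι → α)
    (k m : ℝ) (hk : 0 < k) (hZ : ∀ ζ ∈ A, ((Z ζ).card : ℝ) = m)
    (hT : ∀ F : α → ℝ, k * ∑ ζ' ∈ B, F ζ' = ∑ ζ ∈ A, ∑ z ∈ Z ζ, F (T ζ z))
    (h : α → ℝ) (cst : ℝ) (hd : ∀ ζ ∈ A, ∀ z ∈ Z ζ, |h (T ζ z) - h ζ| ≤ cst) :
    |(A.card : ℝ) * ∑ ζ' ∈ B, h ζ' - (B.card : ℝ) * ∑ ζ ∈ A, h ζ| ≤ A.card * B.card * cst := by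
  have h1 : k * (B.card : ℝ) = m * A.card := by
    have := hT (fun _ => 1)
    simp only [Finset.sum_const, nsmul_eq_mul, mul_one] at this
    rw [this, Finset.sum_congr rfl hZ]
    simp [mul_comm]
  have hm : 0 ≤ m * A.card := by rw [← h1]; positivity
  have h2 : k * ((A.card : ℝ) * ∑ ζ' ∈ B, h ζ' - (B.card : ℝ) * ∑ ζ ∈ A, h ζ)
      = A.card * ∑ ζ ∈ A, ∑ z ∈ Z ζ, (h (T ζ z) - h ζ) := by
    have e1 : ∑ ζ ∈ A, ∑ z ∈ Z ζ, (h (T ζ z) - h ζ)
        = (∑ ζ ∈ A, ∑ z ∈ Z ζ, h (T ζ z)) - m * ∑ ζ ∈ A, h ζ := by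
      simp only [Finset.sum_sub_distrib, Finset.sum_const, nsmul_eq_mul]
      congr 1
      rw [Finset.mul_sum]
      exact Finset.sum_congr rfl (fun ζ hζ => by rw [hZ ζ hζ])
    rw [e1, ← hT h]
    linear_combination (-(∑ ζ ∈ A, h ζ)) * h1
  have h3 : |∑ ζ ∈ A, ∑ z ∈ Z ζ, (h (T ζ z) - h ζ)| ≤ (m * A.card) * cst := by
    calc |∑ ζ ∈ A, ∑ z ∈ Z ζ, (h (T ζ z) - h ζ)|
        ≤ ∑ ζ ∈ A, ∑ z ∈ Z ζ, |h (T ζ z) - h ζ| := by
          refine (Finset.abs_sum_le_sum_abs _ _).trans (Finset.sum_le_sum fun ζ _ => ?_)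
          exact Finset.abs_sum_le_sum_abs _ _
      _ ≤ ∑ ζ ∈ A, ∑ _z ∈ Z ζ, cst :=
          Finset.sum_le_sum fun ζ hζ => Finset.sum_le_sum fun z hz => hd ζ hζ z hz
      _ = (m * A.card) * cst := by
          simp only [Finset.sum_const, nsmul_eq_mul]
          rw [Finset.sum_congr rfl (fun ζ hζ => by rw [hZ ζ hζ])]
          simp only [Finset.sum_const, nsmul_eq_mul]
          ring
  have h4 : k * |(A.card : ℝ) * ∑ ζ' ∈ B, h ζ' - (B.card : ℝ) * ∑ ζ ∈ A, h ζ|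
      ≤ k * (A.card * B.card * cst) := by
    rw [← abs_of_pos hk, ← abs_mul, abs_of_pos hk, h2, abs_mul, Nat.abs_cast]
    calc (A.card : ℝ) * |∑ ζ ∈ A, ∑ z ∈ Z ζ, (h (T ζ z) - h ζ)|
        ≤ A.card * ((m * A.card) * cst) := by gcongr
      _ = k * (A.card * B.card * cst) := by rw [← h1]; ring
  exact le_of_mul_le_mul_left h4 hk


/-! ### the correspondence, part 1: both columns get the same new colour -/

theorem cls_rc_ne {c p : Fin 3} (hpc : p ≠ c) (ζ : J → Fin 3) (x y : J) :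
    cls c (rc ζ x y p) = cls c ζ \ {x, y} := by
  ext j
  simp only [mem_cls, rc, mem_sdiff, mem_insert, mem_singleton]
  by_cases hj : j = x ∨ j = y
  · simp [hj, hpc]
  · simp [hj]

theorem cls_rc_self (c : Fin 3) (ζ : J → Fin 3) (x y : J) :
    cls c (rc ζ x y c) = cls c ζ ∪ {x, y} := by
  ext j
  simp only [mem_cls, rc, mem_union, mem_insert, mem_singleton]
  by_cases hj : j = x ∨ j = y
  · simp [hj]
  · simp [hj]

theorem rc_rc {ζ : J → Fin 3} {x y : J} {c : Fin 3} (hx : ζ x = c) (hy : ζ y = c) (p : Fin 3) :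
    rc (rc ζ x y p) x y c = ζ := by
  funext j
  simp only [rc]
  by_cases hj : j = x ∨ j = y
  · rcases hj with rfl | rfl
    · simp [hx]
    · simp [hy]
  · simp [hj]

theorem E1 {c p : Fin 3} (hpc : p ≠ c) {x y : J} (hx : sgn x = true) (hy : sgn y = false)
    {C : Finset J} (hxC : x ∈ C) (hyC : y ∈ C) (F : (J → Fin 3) → ℝ) :
    ∑ ζ' ∈ ((Ens sgn δ).filter (fun ζ => cls c ζ = C \ {x, y})).filter
        (fun ζ' => ζ' x = p ∧ ζ' y = p), F ζ'
      = ∑ ζ ∈ (Ens sgn δ).filter (fun ζ => cls c ζ = C), F (rc ζ x y p) := by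
  symm
  refine Finset.sum_bij' (fun ζ _ => rc ζ x y p) (fun ζ' _ => rc ζ' x y c) ?_ ?_ ?_ ?_ ?_
  · intro ζ hζ
    rw [mem_filter] at hζ
    have hxc : ζ x = c := by rw [← mem_cls, hζ.2]; exact hxC
    have hyc : ζ y = c := by rw [← mem_cls, hζ.2]; exact hyC
    simp only [mem_filter]
    refine ⟨⟨rc_mem hζ.1 hx hy (hxc.trans hyc.symm) p, ?_⟩, ?_, ?_⟩
    · rw [cls_rc_ne hpc, hζ.2]
    · simp [rc]
    · simp [rc]
  · intro ζ' hζ'
    simp only [mem_filter] at hζ'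
    obtain ⟨⟨h1, h2⟩, h3, h4⟩ := hζ'
    simp only [mem_filter]
    refine ⟨rc_mem h1 hx hy (h3.trans h4.symm) c, ?_⟩
    rw [cls_rc_self, h2]
    ext j
    simp only [mem_union, mem_sdiff, mem_insert, mem_singleton]
    constructor
    · rintro (h | h | h)
      · exact h.1
      · rw [h]; exact hxC
      · rw [h]; exact hyC
    · intro h
      by_cases hj : j = x ∨ j = y
      · exact Or.inr hj
      · exact Or.inl ⟨h, hj⟩
  · intro ζ hζ
    rw [mem_filter] at hζ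
    have hxc : ζ x = c := by rw [← mem_cls, hζ.2]; exact hxC
    have hyc : ζ y = c := by rw [← mem_cls, hζ.2]; exact hyC
    exact rc_rc hxc hyc p
  · intro ζ' hζ'
    simp only [mem_filter] at hζ'
    exact rc_rc hζ'.2.1 hζ'.2.2 c
  · intro ζ _
    rfl


/-! ### the correspondence, part 2: the two columns get different colours, a third column flips -/

/-- `x ↦ q`, `y ↦ p`, `z` flips (`q ↦ p` for species `true`, `p ↦ q` for species `false`) -/
def T3 (sgn : J → Bool) (p q : Fin 3) (x y : J) (ζ : J → Fin 3) (z : J) : J → Fin 3 :=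
  fun j => if j = x then q else if j = y then p else
    if j = z then (if sgn z = true then p else q) else ζ j

/-- inverse of `T3` -/
def T3i (sgn : J → Bool) (c p q : Fin 3) (x y : J) (ζ : J → Fin 3) (z : J) : J → Fin 3 :=
  fun j => if j = x then c else if j = y then c else
    if j = z then (if sgn z = true then q else p) else ζ j

theorem T3_eq_true {p q : Fin 3} {x y z : J} {ζ : J → Fin 3} (hz : sgn z = true) (hζz : ζ z = q)
    (hxy : x ≠ y) (hzx : z ≠ x) (hzy : z ≠ y) :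
    T3 sgn p q x y ζ z = rc (sw ζ x z) z y p := by
  funext j
  simp only [T3, rc, sw, hz, if_true]
  by_cases h1 : j = x
  · subst h1
    simp [hzx.symm, hxy, hζz]
  · by_cases h2 : j = y
    · subst h2
      simp [h1]
    · by_cases h3 : j = z
      · subst h3
        simp [h1, h2]
      · simp [h1, h2, h3, Equiv.swap_apply_of_ne_of_ne h1 h3]

theorem T3_eq_false {p q : Fin 3} {x y z : J} {ζ : J → Fin 3} (hz : sgn z = false) (hζz : ζ z = p)
    (hxy : x ≠ y) (hzx : z ≠ x) (hzy : z ≠ y) :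
    T3 sgn p q x y ζ z = rc (sw ζ y z) x z q := by
  funext j
  simp only [T3, rc, sw, hz]
  by_cases h1 : j = x
  · subst h1
    simp
  · by_cases h2 : j = y
    · subst h2
      simp [h1, hzy.symm, hζz]
    · by_cases h3 : j = z
      · subst h3
        simp [h1, h2]
      · simp [h1, h2, h3, Equiv.swap_apply_of_ne_of_ne h2 h3]

theorem T3i_eq_true {c p q : Fin 3} {x y z : J} {ζ : J → Fin 3} (hz : sgn z = true) (hζx : ζ x = q)
    (hxy : x ≠ y) (hzx : z ≠ x) (hzy : z ≠ y) :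
    T3i sgn c p q x y ζ z = sw (rc ζ z y c) x z := by
  funext j
  simp only [T3i, rc, sw, hz, if_true]
  by_cases h1 : j = x
  · subst h1
    simp
  · by_cases h2 : j = y
    · subst h2
      simp [h1, Equiv.swap_apply_of_ne_of_ne h1 hzy.symm]
    · by_cases h3 : j = z
      · subst h3
        simp [h1, h2, hzx.symm, hxy, hζx]
      · simp [h1, h2, h3, Equiv.swap_apply_of_ne_of_ne h1 h3]

theorem T3i_eq_false {c p q : Fin 3} {x y z : J} {ζ : J → Fin 3} (hz : sgn z = false) (hζy : ζ y = p)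
    (hxy : x ≠ y) (hzx : z ≠ x) (hzy : z ≠ y) :
    T3i sgn c p q x y ζ z = sw (rc ζ x z c) y z := by
  funext j
  simp only [T3i, rc, sw, hz]
  by_cases h1 : j = x
  · subst h1
    simp [Equiv.swap_apply_of_ne_of_ne hxy hzx.symm]
  · by_cases h2 : j = y
    · subst h2
      simp [h1]
    · by_cases h3 : j = z
      · subst h3
        simp [h1, h2, hxy.symm, hzy.symm, hζy]
      · simp [h1, h2, h3, Equiv.swap_apply_of_ne_of_ne h2 h3]


section E3
variable {c p q : Fin 3} {x y : J} {C : Finset J}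

theorem T3_mem (hx : sgn x = true) (hy : sgn y = false) {ζ : J → Fin 3} (hΩ : ζ ∈ Ens sgn δ)
    (hxc : ζ x = c) (hyc : ζ y = c) (hpc : p ≠ c) (hqc : q ≠ c) {z : J}
    (hz : z ∈ Zset sgn q p ζ) :
    z ≠ x ∧ z ≠ y ∧ T3 sgn p q x y ζ z ∈ Ens sgn δ := by
  have hxy : x ≠ y := by
    rintro rfl
    rw [hx] at hy
    exact Bool.noConfusion hy
  rw [mem_Zset] at hz
  have hzc : ζ z ≠ c := by
    rcases hz with h | h
    · rw [h.2]; exact hqc
    · rw [h.2]; exact hpc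
  have hzx : z ≠ x := by rintro rfl; exact hzc hxc
  have hzy : z ≠ y := by rintro rfl; exact hzc hyc
  refine ⟨hzx, hzy, ?_⟩
  rcases hz with h | h
  · rw [T3_eq_true h.1 h.2 hxy hzx hzy]
    refine rc_mem (sw_mem hΩ (hx.trans h.1.symm)) h.1 hy ?_ p
    simp only [sw, Equiv.swap_apply_right, Equiv.swap_apply_of_ne_of_ne hxy.symm hzy.symm, hxc, hyc]
  · rw [T3_eq_false h.1 h.2 hxy hzx hzy]
    refine rc_mem (sw_mem hΩ (hy.trans h.1.symm)) hx h.1 ?_ q
    simp only [sw, Equiv.swap_apply_right, Equiv.swap_apply_of_ne_of_ne hxy hzx.symm, hxc, hyc]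

theorem T3i_mem (hx : sgn x = true) (hy : sgn y = false) {ζ : J → Fin 3} (hΩ : ζ ∈ Ens sgn δ)
    (hxq : ζ x = q) (hyp : ζ y = p) (hpq : p ≠ q) {z : J}
    (hz : z ∈ Zset sgn p q ζ) :
    z ≠ x ∧ z ≠ y ∧ T3i sgn c p q x y ζ z ∈ Ens sgn δ := by
  have hxy : x ≠ y := by
    rintro rfl
    rw [hx] at hy
    exact Bool.noConfusion hy
  rw [mem_Zset] at hz
  have hzx : z ≠ x := by
    rintro rfl
    rcases hz with h | h
    · exact hpq (h.2.symm.trans hxq)
    · rw [hx] at h; exact Bool.noConfusion h.1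
  have hzy : z ≠ y := by
    rintro rfl
    rcases hz with h | h
    · rw [hy] at h; exact Bool.noConfusion h.1
    · exact hpq (hyp.symm.trans h.2)
  refine ⟨hzx, hzy, ?_⟩
  rcases hz with h | h
  · rw [T3i_eq_true h.1 hxq hxy hzx hzy]
    exact sw_mem (rc_mem hΩ h.1 hy (h.2.trans hyp.symm) c) (hx.trans h.1.symm)
  · rw [T3i_eq_false h.1 hyp hxy hzx hzy]
    exact sw_mem (rc_mem hΩ hx h.1 (hxq.trans h.2.symm) c) (hy.trans h.1.symm)

theorem E3 (hpc : p ≠ c) (hqc : q ≠ c) (hpq : p ≠ q) (hx : sgn x = true) (hy : sgn y = false)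
    (hxC : x ∈ C) (hyC : y ∈ C) (F : (J → Fin 3) → ℝ) :
    ∑ ζ' ∈ ((Ens sgn δ).filter (fun ζ => cls c ζ = C \ {x, y})).filter
        (fun ζ' => ζ' x = q ∧ ζ' y = p), ∑ _z ∈ Zset sgn p q ζ', F ζ'
      = ∑ ζ ∈ (Ens sgn δ).filter (fun ζ => cls c ζ = C), ∑ z ∈ Zset sgn q p ζ,
          F (T3 sgn p q x y ζ z) := by
  have hxy : x ≠ y := by
    rintro rfl
    rw [hx] at hy
    exact Bool.noConfusion hy
  rw [Finset.sum_sigma', Finset.sum_sigma']
  symm
  refine Finset.sum_bij' (fun s _ => ⟨T3 sgn p q x y s.1 s.2, s.2⟩)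
    (fun s _ => ⟨T3i sgn c p q x y s.1 s.2, s.2⟩) ?_ ?_ ?_ ?_ ?_
  · rintro ⟨ζ, z⟩ hs
    simp only [mem_sigma, mem_filter] at hs
    obtain ⟨⟨hΩ, hcl⟩, hz⟩ := hs
    have hxc : ζ x = c := by rw [← mem_cls, hcl]; exact hxC
    have hyc : ζ y = c := by rw [← mem_cls, hcl]; exact hyC
    obtain ⟨hzx, hzy, hm⟩ := T3_mem hx hy hΩ hxc hyc hpc hqc hz
    simp only [mem_sigma, mem_filter]
    refine ⟨⟨⟨hm, ?_⟩, ?_, ?_⟩, ?_⟩
    · ext j
      simp only [mem_cls, T3, mem_sdiff, mem_insert, mem_singleton, ← hcl]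
      by_cases h1 : j = x
      · simp [h1, hqc]
      · by_cases h2 : j = y
        · simp [h2, hpc, hxy.symm]
        · by_cases h3 : j = z
          · subst h3
            rw [mem_Zset] at hz
            rcases hz with h | h
            · simp [h1, h2, h.1, h.2, hpc, hqc]
            · simp [h1, h2, h.1, h.2, hpc, hqc]
          · simp [h1, h2, h3]
    · simp [T3]
    · simp [T3, hxy.symm]
    · rw [mem_Zset]
      simp only [T3, if_neg hzx, if_neg hzy, if_true]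
      cases hs : sgn z <;> simp
  · rintro ⟨ζ, z⟩ hs
    simp only [mem_sigma, mem_filter] at hs
    obtain ⟨⟨⟨hΩ, hcl⟩, hxq, hyp⟩, hz⟩ := hs
    obtain ⟨hzx, hzy, hm⟩ := T3i_mem (c := c) hx hy hΩ hxq hyp hpq hz
    simp only [mem_sigma, mem_filter]
    refine ⟨⟨hm, ?_⟩, ?_⟩
    · ext j
      simp only [mem_cls, T3i]
      by_cases h1 : j = x
      · simp [h1, hxC]
      · by_cases h2 : j = y
        · simp [h2, hyC, hxy.symm]
        · have hj : j ∈ C ↔ ζ j = c := by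
            rw [← mem_cls, hcl]
            simp [h1, h2]
          by_cases h3 : j = z
          · subst h3
            rw [mem_Zset] at hz
            rcases hz with h | h
            · simp [h1, h2, h.1, hj, h.2, hpc, hqc]
            · simp [h1, h2, h.1, hj, h.2, hpc, hqc]
          · simp [h1, h2, h3, hj]
    · rw [mem_Zset]
      simp only [T3i, if_neg hzx, if_neg hzy, if_true]
      cases hs : sgn z <;> simp
  · rintro ⟨ζ, z⟩ hs
    simp only [mem_sigma, mem_filter] at hs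
    obtain ⟨⟨hΩ, hcl⟩, hz⟩ := hs
    have hxc : ζ x = c := by rw [← mem_cls, hcl]; exact hxC
    have hyc : ζ y = c := by rw [← mem_cls, hcl]; exact hyC
    simp only [Sigma.mk.injEq, heq_eq_eq, and_true]
    funext j
    simp only [T3i, T3]
    by_cases h1 : j = x
    · simp [h1, hxc]
    · by_cases h2 : j = y
      · simp [h2, hyc, hxy.symm]
      · by_cases h3 : j = z
        · subst h3
          rw [mem_Zset] at hz
          rcases hz with h | h
          · simp [h1, h2, h.1, h.2]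
          · simp [h1, h2, h.1, h.2]
        · simp [h1, h2, h3]
  · rintro ⟨ζ, z⟩ hs
    simp only [mem_sigma, mem_filter] at hs
    obtain ⟨⟨⟨hΩ, hcl⟩, hxq, hyp⟩, hz⟩ := hs
    simp only [Sigma.mk.injEq, heq_eq_eq, and_true]
    funext j
    simp only [T3i, T3]
    by_cases h1 : j = x
    · simp [h1, hxq]
    · by_cases h2 : j = y
      · simp [h2, hyp, hxy.symm]
      · by_cases h3 : j = z
        · subst h3
          rw [mem_Zset] at hz
          rcases hz with h | h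
          · simp [h1, h2, h.1, h.2]
          · simp [h1, h2, h.1, h.2]
        · simp [h1, h2, h3]
  · rintro ⟨ζ, z⟩ _
    rfl

end E3


/-! ### Lipschitz bounds along the correspondence, constants, and the final estimate -/

theorem Lip.a_nonneg {Ω : Finset (J → Fin 3)} {a l : ℝ} {h : (J → Fin 3) → ℝ}
    (hL : Lip Ω sgn a l h) {χ : J → Fin 3} (hχ : χ ∈ Ω) (x : J) : 0 ≤ a :=
  (abs_nonneg _).trans (hL.one χ hχ x x rfl)

theorem lip_T3 {a l : ℝ} {h : (J → Fin 3) → ℝ} (hL : Lip (Ens sgn δ) sgn a l h)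
    {c p q : Fin 3} {x y : J} (hx : sgn x = true) (hy : sgn y = false) {ζ : J → Fin 3}
    (hΩ : ζ ∈ Ens sgn δ) (hxc : ζ x = c) (hyc : ζ y = c) (hpc : p ≠ c) (hqc : q ≠ c) {z : J}
    (hz : z ∈ Zset sgn q p ζ) : |h (T3 sgn p q x y ζ z) - h ζ| ≤ l + a := by
  have hxy : x ≠ y := by
    rintro rfl
    rw [hx] at hy
    exact Bool.noConfusion hy
  obtain ⟨hzx, hzy, -⟩ := T3_mem hx hy hΩ hxc hyc hpc hqc hz
  rw [mem_Zset] at hz
  rcases hz with hh | hh
  · rw [T3_eq_true hh.1 hh.2 hxy hzx hzy]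
    have h1 := hL.one ζ hΩ x z (hx.trans hh.1.symm)
    have h2 := hL.two (sw ζ x z) (sw_mem hΩ (hx.trans hh.1.symm)) z y p hh.1 hy (by
      simp only [sw, Equiv.swap_apply_right, Equiv.swap_apply_of_ne_of_ne hxy.symm hzy.symm,
        hxc, hyc])
    rw [abs_le] at h1 h2 ⊢
    constructor <;> linarith [h1.1, h1.2, h2.1, h2.2]
  · rw [T3_eq_false hh.1 hh.2 hxy hzx hzy]
    have h1 := hL.one ζ hΩ y z (hy.trans hh.1.symm)
    have h2 := hL.two (sw ζ y z) (sw_mem hΩ (hy.trans hh.1.symm)) x z q hx hh.1 (by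
      simp only [sw, Equiv.swap_apply_right, Equiv.swap_apply_of_ne_of_ne hxy hzx.symm,
        hxc, hyc])
    rw [abs_le] at h1 h2 ⊢
    constructor <;> linarith [h1.1, h1.2, h2.1, h2.2]

theorem card_n2 {x y : J} (hx : sgn x = true) (hy : sgn y = false) {C : Finset J} (hyC : y ∈ C) :
    (univ.filter (fun j => sgn j = false ∧ j ∉ C \ {x, y})).card
      = (univ.filter (fun j => sgn j = false ∧ j ∉ C)).card + 1 := by
  have : univ.filter (fun j => sgn j = false ∧ j ∉ C \ {x, y})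
      = insert y (univ.filter (fun j => sgn j = false ∧ j ∉ C)) := by
    ext j
    simp only [mem_filter, mem_univ, true_and, mem_sdiff, mem_insert, mem_singleton, not_and,
      not_not]
    constructor
    · rintro ⟨h1, h2⟩
      by_cases hj : j ∈ C
      · rcases h2 hj with rfl | rfl
        · rw [hx] at h1; exact Bool.noConfusion h1
        · exact Or.inl rfl
      · exact Or.inr ⟨h1, hj⟩
    · rintro (rfl | ⟨h1, h2⟩)
      · exact ⟨hy, fun _ => Or.inr rfl⟩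
      · exact ⟨h1, fun h => absurd h h2⟩
  rw [this, Finset.card_insert_of_notMem]
  simp [hyC]

/-- the cardinality of `Zset p q` is constant on the fibres of `cls c`, and grows by one when
`x, y` leave the class `c` -/
theorem card_Zset_fib {c p q : Fin 3} (hpc : p ≠ c) (hqc : q ≠ c) (hpq : p ≠ q)
    (hall : ∀ t : Fin 3, t = c ∨ t = p ∨ t = q) {ζ ζ₁ : J → Fin 3} (hζ : ζ ∈ Ens sgn δ)
    (hζ₁ : ζ₁ ∈ Ens sgn δ) (hcl : cls c ζ₁ = cls c ζ) :
    (Zset sgn p q ζ₁).card = (Zset sgn p q ζ).card := by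
  have h1 := card_Zset (sgn := sgn) hpc hqc hpq hall ζ
  have h2 := card_Zset (sgn := sgn) hpc hqc hpq hall ζ₁
  rw [mem_Ens] at hζ hζ₁
  rw [hζ p] at h1
  rw [hζ₁ p, hcl] at h2
  exact_mod_cast h2.trans h1.symm

theorem card_Zset_fib' {c p q : Fin 3} (hpc : p ≠ c) (hqc : q ≠ c) (hpq : p ≠ q)
    (hall : ∀ t : Fin 3, t = c ∨ t = p ∨ t = q) {x y : J} (hx : sgn x = true) (hy : sgn y = false)
    {ζ ζ₁ : J → Fin 3} (hζ : ζ ∈ Ens sgn δ)
    (hζ₁ : ζ₁ ∈ Ens sgn δ) (hyc : ζ y = c) (hcl : cls c ζ₁ = cls c ζ \ {x, y}) :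
    (Zset sgn p q ζ₁).card = (Zset sgn p q ζ).card + 1 := by
  have h1 := card_Zset (sgn := sgn) hpc hqc hpq hall ζ
  have h2 := card_Zset (sgn := sgn) hpc hqc hpq hall ζ₁
  rw [mem_Ens] at hζ hζ₁
  rw [hζ p] at h1
  rw [hζ₁ p, hcl, card_n2 hx hy (mem_cls.2 hyc)] at h2
  push_cast at h2
  have : ((Zset sgn p q ζ₁).card : ℤ) = ((Zset sgn p q ζ).card : ℤ) + 1 := by linarith
  exact_mod_cast this

theorem avg_diff_le {α : Type*} (A A' : Finset α) (hA : A.Nonempty) (hA' : A'.Nonempty)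
    (h : α → ℝ) (cst : ℝ)
    (H : |(A.card : ℝ) * ∑ ζ' ∈ A', h ζ' - (A'.card : ℝ) * ∑ ζ ∈ A, h ζ| ≤ A.card * A'.card * cst) :
    |(∑ ζ ∈ A, h ζ) / (A.card : ℝ) - (∑ ζ' ∈ A', h ζ') / (A'.card : ℝ)| ≤ cst := by
  have ha : (0 : ℝ) < A.card := by exact_mod_cast hA.card_pos
  have hb : (0 : ℝ) < A'.card := by exact_mod_cast hA'.card_pos
  have e : (∑ ζ ∈ A, h ζ) / (A.card : ℝ) - (∑ ζ' ∈ A', h ζ') / (A'.card : ℝ)
      = -((A.card : ℝ) * ∑ ζ' ∈ A', h ζ' - (A'.card : ℝ) * ∑ ζ ∈ A, h ζ) / (A.card * A'.card) := by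
    field_simp
    ring
  rw [e, abs_div, abs_neg, abs_of_pos (mul_pos ha hb), div_le_iff₀ (mul_pos ha hb)]
  linarith


/-- splitting a sum over the second fibre into the four parts -/
theorem sum_four {c p q : Fin 3} (hpq : p ≠ q)
    (hall : ∀ t : Fin 3, t = c ∨ t = p ∨ t = q) {x y : J} {C : Finset J}
    (A' : Finset (J → Fin 3)) (hA' : ∀ ζ' ∈ A', cls c ζ' = C \ {x, y}) (g : (J → Fin 3) → ℝ) :
    ∑ ζ' ∈ A', g ζ' = ∑ ζ' ∈ A'.filter (fun ζ' => ζ' x = p ∧ ζ' y = p), g ζ'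
      + ∑ ζ' ∈ A'.filter (fun ζ' => ζ' x = q ∧ ζ' y = q), g ζ'
      + ∑ ζ' ∈ A'.filter (fun ζ' => ζ' x = q ∧ ζ' y = p), g ζ'
      + ∑ ζ' ∈ A'.filter (fun ζ' => ζ' x = p ∧ ζ' y = q), g ζ' := by
  simp only [Finset.sum_filter]
  rw [← Finset.sum_add_distrib, ← Finset.sum_add_distrib, ← Finset.sum_add_distrib]
  apply Finset.sum_congr rfl
  intro ζ' hζ'
  have hx : ζ' x ≠ c := by
    intro h
    have : x ∈ cls c ζ' := mem_cls.2 h
    rw [hA' ζ' hζ'] at this
    simp at this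
  have hy : ζ' y ≠ c := by
    intro h
    have : y ∈ cls c ζ' := mem_cls.2 h
    rw [hA' ζ' hζ'] at this
    simp at this
  rcases hall (ζ' x) with h1 | h1 | h1
  · exact absurd h1 hx
  · rcases hall (ζ' y) with h2 | h2 | h2
    · exact absurd h2 hy
    · simp [h1, h2, hpq]
    · simp [h1, h2, hpq, hpq.symm]
  · rcases hall (ζ' y) with h2 | h2 | h2
    · exact absurd h2 hy
    · simp [h1, h2, hpq, hpq.symm]
    · simp [h1, h2, hpq.symm]

theorem cE_rc_le_aux {a l : ℝ} {h : (J → Fin 3) → ℝ} (hL : Lip (Ens sgn δ) sgn a l h)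
    {ζ ζ' : J → Fin 3} (hζ : ζ ∈ Ens sgn δ) (hζ' : ζ' ∈ Ens sgn δ) {x y : J} {c p q : Fin 3}
    (hpc : p ≠ c) (hqc : q ≠ c) (hpq : p ≠ q) (hall : ∀ t : Fin 3, t = c ∨ t = p ∨ t = q)
    (hx : sgn x = true) (hy : sgn y = false) (hxc : ζ x = c) (hyc : ζ y = c)
    (hcls : cls c ζ' = cls c ζ \ {x, y}) :
    |cE (Ens sgn δ) (cls c) h ζ - cE (Ens sgn δ) (cls c) h ζ'| ≤ l + a := by
  have ha : 0 ≤ a := hL.a_nonneg hζ x
  set C := cls c ζ with hC
  have hxC : x ∈ C := mem_cls.2 hxc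
  have hyC : y ∈ C := mem_cls.2 hyc
  set A := (Ens sgn δ).filter (fun ξ => cls c ξ = C) with hA
  set A' := (Ens sgn δ).filter (fun ξ => cls c ξ = C \ {x, y}) with hA'
  have hAne : A.Nonempty := ⟨ζ, by simp [hA, hζ, hC]⟩
  have hA'ne : A'.Nonempty := ⟨ζ', by simp [hA', hζ', hcls]⟩
  have hmemA : ∀ ξ ∈ A, ξ ∈ Ens sgn δ ∧ ξ x = c ∧ ξ y = c ∧ cls c ξ = C := by
    intro ξ hξ
    rw [hA, mem_filter] at hξ
    refine ⟨hξ.1, ?_, ?_, hξ.2⟩
    · rw [← mem_cls, hξ.2]; exact hxC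
    · rw [← mem_cls, hξ.2]; exact hyC
  have e1 : cE (Ens sgn δ) (cls c) h ζ = (∑ ξ ∈ A, h ξ) / (A.card : ℝ) := rfl
  have e2 : cE (Ens sgn δ) (cls c) h ζ' = (∑ ξ ∈ A', h ξ) / (A'.card : ℝ) := by
    unfold cE fib
    rw [hcls]
  rw [e1, e2]
  apply avg_diff_le A A' hAne hA'ne
  -- the four parts
  have pure : ∀ r : Fin 3, r ≠ c →
      |(A.card : ℝ) * ∑ ξ ∈ A'.filter (fun ξ => ξ x = r ∧ ξ y = r), h ξ
        - ((A'.filter (fun ξ => ξ x = r ∧ ξ y = r)).card : ℝ) * ∑ ξ ∈ A, h ξ|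
        ≤ A.card * (A'.filter (fun ξ => ξ x = r ∧ ξ y = r)).card * (l + a) := by
    intro r hr
    refine part_bound A _ (fun _ => ({()} : Finset Unit)) (fun ξ _ => rc ξ x y r) 1 1 one_pos
      (by simp) ?_ h (l + a) ?_
    · intro F
      rw [one_mul, E1 hr hx hy hxC hyC F]
      simp only [Finset.sum_singleton]
      rfl
    · intro ξ hξ _ _
      obtain ⟨h1, h2, h3, -⟩ := hmemA ξ hξ
      have := hL.two ξ h1 x y r hx hy (h2.trans h3.symm)
      rw [abs_sub_comm]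
      linarith
  have mixed : ∀ r s : Fin 3, r ≠ c → s ≠ c → r ≠ s → (∀ t : Fin 3, t = c ∨ t = r ∨ t = s) →
      |(A.card : ℝ) * ∑ ξ ∈ A'.filter (fun ξ => ξ x = s ∧ ξ y = r), h ξ
        - ((A'.filter (fun ξ => ξ x = s ∧ ξ y = r)).card : ℝ) * ∑ ξ ∈ A, h ξ|
        ≤ A.card * (A'.filter (fun ξ => ξ x = s ∧ ξ y = r)).card * (l + a) := by
    intro r s hr hs hrs hall'
    have hall'' : ∀ t : Fin 3, t = c ∨ t = s ∨ t = r := fun t => by
      rcases hall' t with h | h | h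
      · exact Or.inl h
      · exact Or.inr (Or.inr h)
      · exact Or.inr (Or.inl h)
    refine part_bound A _ (Zset sgn s r) (T3 sgn r s x y) (((Zset sgn r s ζ).card : ℝ) + 1)
      ((Zset sgn s r ζ).card : ℝ) (by positivity) ?_ ?_ h (l + a) ?_
    · intro ξ hξ
      obtain ⟨h1, -, -, h4⟩ := hmemA ξ hξ
      rw [card_Zset_fib hs hr hrs.symm hall'' hζ h1 h4]
    · intro F
      rw [← E3 hr hs hrs hx hy hxC hyC F, Finset.mul_sum]
      apply Finset.sum_congr rfl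
      intro ξ hξ
      simp only [hA', mem_filter] at hξ
      rw [Finset.sum_const, nsmul_eq_mul,
        card_Zset_fib' hr hs hrs hall' hx hy hζ hξ.1.1 hyc hξ.1.2]
      push_cast
      ring
    · intro ξ hξ z hz
      obtain ⟨h1, h2, h3, -⟩ := hmemA ξ hξ
      exact lip_T3 hL hx hy h1 h2 h3 hr hs hz
  have hA'cl : ∀ ξ ∈ A', cls c ξ = C \ {x, y} := fun ξ hξ => by
    rw [hA', mem_filter] at hξ
    exact hξ.2
  have s1 := sum_four hpq hall A' hA'cl h
  have s2 := sum_four hpq hall A' hA'cl (fun _ => 1)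
  simp only [Finset.sum_const, nsmul_eq_mul, mul_one] at s2
  have b1 := pure p hpc
  have b2 := pure q hqc
  have b3 := mixed p q hpc hqc hpq hall
  have b4 := mixed q p hqc hpc hpq.symm (fun t => by
    rcases hall t with h | h | h
    · exact Or.inl h
    · exact Or.inr (Or.inr h)
    · exact Or.inr (Or.inl h))
  rw [s1, s2]
  rw [abs_le] at b1 b2 b3 b4 ⊢
  constructor <;> nlinarith [b1.1, b1.2, b2.1, b2.2, b3.1, b3.2, b4.1, b4.2]

theorem fin3_others (c : Fin 3) : ∃ p q : Fin 3, p ≠ c ∧ q ≠ c ∧ p ≠ q ∧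
    ∀ t : Fin 3, t = c ∨ t = p ∨ t = q := by
  revert c
  decide

/-- **L4**: the `(ii)`-move step. -/
theorem cE_rc_le {a l : ℝ} {h : (J → Fin 3) → ℝ} (hL : Lip (Ens sgn δ) sgn a l h)
    {ζ ζ' : J → Fin 3} (hζ : ζ ∈ Ens sgn δ) (hζ' : ζ' ∈ Ens sgn δ) {x y : J} {c : Fin 3}
    (hx : sgn x = true) (hy : sgn y = false) (hxc : ζ x = c) (hyc : ζ y = c)
    (hcls : cls c ζ' = cls c ζ \ {x, y}) :
    |cE (Ens sgn δ) (cls c) h ζ - cE (Ens sgn δ) (cls c) h ζ'| ≤ l + a := by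
  obtain ⟨p, q, hpc, hqc, hpq, hall⟩ := fin3_others c
  exact cE_rc_le_aux hL hζ hζ' hpc hqc hpq hall hx hy hxc hyc hcls

end Crest.Agent.S0453K3b
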