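import Mathlib
import Crest.Agent.S0453_Core
import Crest.Agent.S0453_CoreLemmas
import Crest.Agent.S0453_K3b

/-!
# Row 299 (S0453), K3-beta, L3: behaviour of the class averages under a column swap
-/

set_option autoImplicit false
set_option linter.unusedSectionVars false
open Finset

namespace Crest.Agent.S0453K3b
open Crest.Agent.S0453Core

variable {J : Type*} [Fintype J] [DecidableEq J] {sgn : J → Bool} {δ : Fin 3 → ℤ}

namespace L3

lemma sw_sw (χ : J → Fin 3) (x y : J) : sw (sw χ x y) x y = χ := by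
  funext j; simp [sw]

lemma eps_swap {x y : J} (hxy : sgn x = sgn y) (j : J) :
    eps sgn (Equiv.swap x y j) = eps sgn j := by
  unfold eps
  rcases eq_or_ne j x with rfl | hx
  · rw [Equiv.swap_apply_left, hxy]
  · rcases eq_or_ne j y with rfl | hy
    · rw [Equiv.swap_apply_right, hxy]
    · rw [Equiv.swap_apply_of_ne_of_ne hx hy]

lemma cnt_sw (χ : J → Fin 3) {x y : J} (hxy : sgn x = sgn y) (u : Fin 3) :
    cnt sgn (sw χ x y) u = cnt sgn χ u := by
  unfold cnt sw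
  rw [← Equiv.sum_comp (Equiv.swap x y) (fun j => if χ j = u then eps sgn j else 0)]
  exact Finset.sum_congr rfl fun j _ => by rw [eps_swap hxy]

/-- L1 (local copy) -/
lemma sw_mem' {χ : J → Fin 3} (hχ : χ ∈ Ens sgn δ) {x y : J} (hxy : sgn x = sgn y) :
    sw χ x y ∈ Ens sgn δ := by
  simp only [Ens, Finset.mem_filter, Finset.mem_univ, true_and] at hχ ⊢
  intro u
  rw [cnt_sw χ hxy, hχ u]

lemma mem_cls {u : Fin 3} {χ : J → Fin 3} {j : J} : j ∈ cls u χ ↔ χ j = u := by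
  simp [cls]

lemma cls_sw_eq_iff (u : Fin 3) (χ χ' : J → Fin 3) (x y : J) :
    cls u (sw χ x y) = cls u (sw χ' x y) ↔ cls u χ = cls u χ' := by
  constructor
  · intro h
    ext j
    have := Finset.ext_iff.mp h (Equiv.swap x y j)
    simpa [mem_cls, sw] using this
  · intro h
    ext j
    have := Finset.ext_iff.mp h (Equiv.swap x y j)
    simpa [mem_cls, sw] using this

lemma abs_cE_le {α β : Type*} [DecidableEq β] (Ω : Finset α) (φ : α → β) (g : α → ℝ) (a : ℝ)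
    (ha : 0 ≤ a) (hg : ∀ z ∈ Ω, |g z| ≤ a) (x : α) : |cE Ω φ g x| ≤ a := by
  unfold cE
  rcases Nat.eq_zero_or_pos (fib Ω φ x).card with h0 | hpos
  · rw [h0]; simpa using ha
  · have hc : (0 : ℝ) < ((fib Ω φ x).card : ℝ) := by exact_mod_cast hpos
    rw [abs_div, abs_of_pos hc, div_le_iff₀ hc]
    calc |∑ y ∈ fib Ω φ x, g y| ≤ ∑ y ∈ fib Ω φ x, |g y| := Finset.abs_sum_le_sum_abs _ _
      _ ≤ ∑ _y ∈ fib Ω φ x, a := Finset.sum_le_sum fun y hy => hg y (fib_subset hy)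
      _ = a * ((fib Ω φ x).card : ℝ) := by rw [Finset.sum_const, nsmul_eq_mul, mul_comm]

lemma a_nonneg {a l : ℝ} {h : (J → Fin 3) → ℝ} (hL : Lip (Ens sgn δ) sgn a l h)
    {χ : J → Fin 3} (hχ : χ ∈ Ens sgn δ) (x : J) : 0 ≤ a :=
  (abs_nonneg _).trans (hL.one χ hχ x x rfl)

end L3
open L3

/-- L3 (C1) -/
theorem cE_sw_le {a l : ℝ} {h : (J → Fin 3) → ℝ} (hL : Lip (Ens sgn δ) sgn a l h)
    {χ : J → Fin 3} (hχ : χ ∈ Ens sgn δ) {x y : J} (hxy : sgn x = sgn y) (u : Fin 3) :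
    |cE (Ens sgn δ) (cls u) h χ - cE (Ens sgn δ) (cls u) h (sw χ x y)| ≤ a := by
  have hinj : Set.InjOn (fun ζ : J → Fin 3 => sw ζ x y) (Ens sgn δ) := by
    intro ζ _ ζ' _ he
    have := congrArg (fun η => sw η x y) he
    simpa [sw_sw] using this
  have hb := cE_comp_bij (Ω := Ens sgn δ) (φ := cls u) (t := fun ζ => sw ζ x y) hinj
    (fun z hz => sw_mem' hz hxy) (fun ζ _ ζ' _ => cls_sw_eq_iff u ζ ζ' x y) hχ h
  rw [← hb, ← cE_sub]
  exact abs_cE_le _ _ _ a (a_nonneg hL hχ x) (fun z hz => hL.one z hz x y hxy) χ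

theorem cE_sw_eq (h : (J → Fin 3) → ℝ) (χ : J → Fin 3) {x y : J} {u : Fin 3}
    (hx : χ x ≠ u) (hy : χ y ≠ u) :
    cE (Ens sgn δ) (cls u) h (sw χ x y) = cE (Ens sgn δ) (cls u) h χ := by
  apply cE_eq
  ext j
  simp only [mem_cls, sw]
  rcases eq_or_ne j x with rfl | hjx
  · rw [Equiv.swap_apply_left]; exact ⟨fun h => absurd h hy, fun h => absurd h hx⟩
  · rcases eq_or_ne j y with rfl | hjy
    · rw [Equiv.swap_apply_right]; exact ⟨fun h => absurd h hx, fun h => absurd h hy⟩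
    · rw [Equiv.swap_apply_of_ne_of_ne hjx hjy]

end Crest.Agent.S0453K3b
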