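import Mathlib
import Crest.Agent.S0453_Core
import Crest.Agent.S0453_CoreLemmas
import Crest.Agent.S0453_K3b
import Crest.Agent.S0453_K3b3

/-!
# Row 299 (S0453), K3-beta, L5: the heat-bath operator contracts the two-scale Lipschitz classes
(`L4 = cE_rc_le` enters as the hypothesis `RcLe`).
-/

set_option autoImplicit false
set_option linter.unusedSectionVars false
open Finset

namespace Crest.Agent.S0453K3b
open Crest.Agent.S0453Core

variable {J : Type*} [Fintype J] [DecidableEq J] {sgn : J → Bool} {δ : Fin 3 → ℤ}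

/-- the statement of L4 (`cE_rc_le`). -/
def RcLe (sgn : J → Bool) (δ : Fin 3 → ℤ) : Prop :=
  ∀ {a l : ℝ} {h : (J → Fin 3) → ℝ}, Lip (Ens sgn δ) sgn a l h →
    ∀ {ζ ζ' : J → Fin 3}, ζ ∈ Ens sgn δ → ζ' ∈ Ens sgn δ → ∀ {x y : J} {c : Fin 3},
      sgn x = true → sgn y = false → ζ x = c → ζ y = c → cls c ζ' = cls c ζ \ {x, y} →
      |cE (Ens sgn δ) (cls c) h ζ - cE (Ens sgn δ) (cls c) h ζ'| ≤ l + a

/-- the statement of L2 (`rc_mem`). -/
def RcMem (sgn : J → Bool) (δ : Fin 3 → ℤ) : Prop :=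
  ∀ {χ : J → Fin 3}, χ ∈ Ens sgn δ → ∀ {x y : J}, sgn x = true → sgn y = false → χ x = χ y →
    ∀ v : Fin 3, rc χ x y v ∈ Ens sgn δ

namespace L5

lemma third (a b : Fin 3) : ∃ w : Fin 3, a ≠ w ∧ b ≠ w := by
  revert a b; decide

lemma two_of_three : ∀ (v w u c : Fin 3), v ≠ c → c ≠ w → v ≠ w → u ≠ w → u = c ∨ u = v := by
  decide

/-- three numbers, one of them zero, the others bounded by `B`. -/
lemma abs_sum3_le (t : Fin 3 → ℝ) (B : ℝ) (w : Fin 3) (hw : t w = 0)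
    (hB : ∀ u, u ≠ w → |t u| ≤ B) : |(∑ u, t u) / 3| ≤ 2 / 3 * B := by
  have h1 : ∑ u, t u = ∑ u ∈ (univ : Finset (Fin 3)).erase w, t u := by
    rw [← Finset.add_sum_erase _ _ (Finset.mem_univ w), hw, zero_add]
  have h2 : |∑ u ∈ (univ : Finset (Fin 3)).erase w, t u| ≤ 2 * B := by
    calc |∑ u ∈ (univ : Finset (Fin 3)).erase w, t u|
        ≤ ∑ u ∈ (univ : Finset (Fin 3)).erase w, |t u| := Finset.abs_sum_le_sum_abs _ _
      _ ≤ ∑ _u ∈ (univ : Finset (Fin 3)).erase w, B :=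
          Finset.sum_le_sum fun u hu => hB u (Finset.ne_of_mem_erase hu)
      _ = 2 * B := by
          rw [Finset.sum_const, Finset.card_erase_of_mem (Finset.mem_univ w)]
          simp
  rw [h1, abs_div]
  have : |(3 : ℝ)| = 3 := by norm_num
  rw [this]
  linarith

lemma Kop_sub (Ω : Finset (J → Fin 3)) (h : (J → Fin 3) → ℝ) (χ χ' : J → Fin 3) :
    Kop Ω h χ - Kop Ω h χ' = (∑ u : Fin 3, (cE Ω (cls u) h χ - cE Ω (cls u) h χ')) / 3 := by
  unfold Kop
  rw [Finset.sum_sub_distrib]; ring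

lemma rc_self (χ : J → Fin 3) {x y : J} (hc : χ x = χ y) : rc χ x y (χ x) = χ := by
  funext j
  unfold rc
  split_ifs with hj
  · rcases hj with rfl | rfl
    · rfl
    · exact hc
  · rfl

lemma l_nonneg {a l : ℝ} {h : (J → Fin 3) → ℝ} (hL : Lip (Ens sgn δ) sgn a l h)
    {χ : J → Fin 3} (hχ : χ ∈ Ens sgn δ) {x y : J} (hx : sgn x = true) (hy : sgn y = false)
    (hc : χ x = χ y) : 0 ≤ l :=
  (abs_nonneg _).trans (hL.two χ hχ x y (χ x) hx hy hc)

lemma cls_rc_other (χ : J → Fin 3) (x y : J) {v w : Fin 3} (hx : χ x ≠ w) (hy : χ y ≠ w)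
    (hv : v ≠ w) : cls w (rc χ x y v) = cls w χ := by
  ext j
  simp only [L3.mem_cls, rc]
  split_ifs with hj
  · rcases hj with rfl | rfl
    · exact ⟨fun h => absurd h hv, fun h => absurd h hx⟩
    · exact ⟨fun h => absurd h hv, fun h => absurd h hy⟩
  · rfl

lemma cls_rc_old (χ : J → Fin 3) (x y : J) {v c : Fin 3} (hv : v ≠ c) :
    cls c (rc χ x y v) = cls c χ \ {x, y} := by
  ext j
  simp only [L3.mem_cls, rc, Finset.mem_sdiff, Finset.mem_insert, Finset.mem_singleton]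
  split_ifs with hj
  · exact ⟨fun h => absurd h hv, fun h => absurd hj h.2⟩
  · exact ⟨fun h => ⟨h, hj⟩, fun h => h.1⟩

lemma cls_rc_new (χ : J → Fin 3) (x y : J) {v : Fin 3} (hx : χ x ≠ v) (hy : χ y ≠ v) :
    cls v χ = cls v (rc χ x y v) \ {x, y} := by
  ext j
  simp only [L3.mem_cls, rc, Finset.mem_sdiff, Finset.mem_insert, Finset.mem_singleton]
  split_ifs with hj
  · constructor
    · intro h
      rcases hj with rfl | rfl
      · exact absurd h hx
      · exact absurd h hy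
    · intro h; exact absurd hj h.2
  · exact ⟨fun h => ⟨h, hj⟩, fun h => h.1⟩

end L5
open L5

/-- L5 -/
theorem lip_Kop_of (H2 : RcMem sgn δ) (H4 : RcLe sgn δ) {a l : ℝ} {h : (J → Fin 3) → ℝ}
    (hL : Lip (Ens sgn δ) sgn a l h) :
    Lip (Ens sgn δ) sgn (2 / 3 * a) (2 / 3 * (l + a)) (Kop (Ens sgn δ) h) := by
  constructor
  · intro χ hχ x y hxy
    obtain ⟨w, hw1, hw2⟩ := third (χ x) (χ y)
    rw [Kop_sub]
    apply abs_sum3_le _ a w
    · rw [cE_sw_eq h χ hw1 hw2, sub_self]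
    · intro u _
      exact cE_sw_le hL hχ hxy u
  · intro χ hχ x y v hx hy hc
    have ha : 0 ≤ a := L3.a_nonneg hL hχ x
    have hl : 0 ≤ l := l_nonneg hL hχ hx hy hc
    rcases eq_or_ne v (χ x) with rfl | hv
    · rw [rc_self χ hc, sub_self, abs_zero]
      positivity
    · obtain ⟨w, hw1, hw2⟩ := third (χ x) v
      have hmem : rc χ x y v ∈ Ens sgn δ := H2 hχ hx hy hc v
      rw [Kop_sub]
      apply abs_sum3_le _ (l + a) w
      · rw [cE_eq (cls_rc_other χ x y hw1 (hc ▸ hw1) hw2), sub_self]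
      · intro u hu
        have hu' : u = χ x ∨ u = v := two_of_three _ _ _ _ hv hw1 hw2 hu
        rcases hu' with rfl | rfl
        · exact H4 hL hχ hmem hx hy rfl hc.symm (cls_rc_old χ x y hv)
        · rw [abs_sub_comm]
          refine H4 hL hmem hχ hx hy ?_ ?_ (cls_rc_new χ x y (Ne.symm hv) (hc ▸ Ne.symm hv))
          · simp [rc]
          · simp [rc]

end Crest.Agent.S0453K3b
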