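import Mathlib
import Crest.Agent.S0453_Core
import Crest.Agent.S0453_CoreLemmas
import Crest.Agent.S0453_K3b
import Crest.Agent.S0453_K3b3

/-!
# Row 299 (S0453), K3-beta: L5 (`lip_Kop`) from the statement of L4 (helper11)
-/

set_option autoImplicit false
open Finset

namespace Crest.Agent.S0453K3b.X5
open Crest.Agent.S0453Core Crest.Agent.S0453K3b

variable {J : Type*} [Fintype J] [DecidableEq J] {sgn : J → Bool} {δ : Fin 3 → ℤ}

lemma mem_cls {u : Fin 3} {χ : J → Fin 3} {j : J} : j ∈ cls u χ ↔ χ j = u := by simp [cls]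

lemma cnt_rc (χ : J → Fin 3) {x y : J} (hx : sgn x = true) (hy : sgn y = false)
    (hc : χ x = χ y) (v u : Fin 3) : cnt sgn (rc χ x y v) u = cnt sgn χ u := by
  have hxy : x ≠ y := by
    intro h; rw [h, hy] at hx; exact absurd hx (by simp)
  have hyx : y ∈ (univ : Finset J).erase x := Finset.mem_erase.mpr ⟨hxy.symm, Finset.mem_univ _⟩
  unfold cnt
  rw [← Finset.add_sum_erase univ _ (Finset.mem_univ x), ← Finset.add_sum_erase _ _ hyx,
    ← Finset.add_sum_erase univ (fun j => if χ j = u then eps sgn j else 0) (Finset.mem_univ x),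
    ← Finset.add_sum_erase _ (fun j => if χ j = u then eps sgn j else 0) hyx]
  have e1 : ∑ j ∈ ((univ : Finset J).erase x).erase y, (if rc χ x y v j = u then eps sgn j else 0)
      = ∑ j ∈ ((univ : Finset J).erase x).erase y, (if χ j = u then eps sgn j else 0) := by
    apply Finset.sum_congr rfl
    intro j hj
    rw [Finset.mem_erase, Finset.mem_erase] at hj
    have : rc χ x y v j = χ j := by
      unfold rc
      rw [if_neg]
      rintro (h | h)
      · exact hj.2.1 h
      · exact hj.1 h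
    rw [this]
  rw [e1]
  have ex : eps sgn x = 1 := by simp [eps, hx]
  have ey : eps sgn y = -1 := by simp [eps, hy]
  have rx : rc χ x y v x = v := by simp [rc]
  have ry : rc χ x y v y = v := by simp [rc]
  simp only [rx, ry, ex, ey, ← hc]
  split_ifs <;> simp

/-- L2 (local copy). -/
lemma rc_mem3 {χ : J → Fin 3} (hχ : χ ∈ Ens sgn δ) {x y : J} (hx : sgn x = true)
    (hy : sgn y = false) (hc : χ x = χ y) (v : Fin 3) : rc χ x y v ∈ Ens sgn δ := by
  unfold Ens at hχ ⊢
  rw [Finset.mem_filter] at hχ ⊢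
  exact ⟨Finset.mem_univ _, fun u => by rw [cnt_rc χ hx hy hc, hχ.2 u]⟩

/-- the statement of L4 (`cE_rc_le`), as a hypothesis. -/
def RcLe (sgn : J → Bool) (δ : Fin 3 → ℤ) : Prop :=
  ∀ (a l : ℝ) (h : (J → Fin 3) → ℝ), Lip (Ens sgn δ) sgn a l h →
    ∀ (ζ ζ' : J → Fin 3), ζ ∈ Ens sgn δ → ζ' ∈ Ens sgn δ → ∀ (x y : J) (c : Fin 3),
      sgn x = true → sgn y = false → ζ x = c → ζ y = c → cls c ζ' = cls c ζ \ {x, y} →
      |cE (Ens sgn δ) (cls c) h ζ - cE (Ens sgn δ) (cls c) h ζ'| ≤ l + a

lemma three_bound (A B : Fin 3 → ℝ) (b : ℝ) (hb : ∀ u, |A u - B u| ≤ b) (u₀ : Fin 3)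
    (hz : A u₀ = B u₀) : |(∑ u, A u) / 3 - (∑ u, B u) / 3| ≤ 2 / 3 * b := by
  rw [Fin.sum_univ_three, Fin.sum_univ_three]
  have h0 := abs_le.mp (hb 0)
  have h1 := abs_le.mp (hb 1)
  have h2 := abs_le.mp (hb 2)
  rw [abs_le]
  fin_cases u₀
  · have hz' : A 0 = B 0 := hz
    constructor <;> linarith
  · have hz' : A 1 = B 1 := hz
    constructor <;> linarith
  · have hz' : A 2 = B 2 := hz
    constructor <;> linarith

lemma a_nonneg {a l : ℝ} {h : (J → Fin 3) → ℝ} (hL : Lip (Ens sgn δ) sgn a l h)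
    {χ : J → Fin 3} (hχ : χ ∈ Ens sgn δ) (x : J) : 0 ≤ a := by
  have := hL.one χ hχ x x rfl
  have e : sw χ x x = χ := by funext j; simp [sw]
  rw [e, sub_self, abs_zero] at this
  exact this

lemma rc_self (χ : J → Fin 3) {x y : J} (hc : χ x = χ y) : rc χ x y (χ x) = χ := by
  funext j
  unfold rc
  split_ifs with h
  · rcases h with rfl | rfl
    · rfl
    · exact hc
  · rfl

/-- L5, from L4. -/
theorem lip_Kop_of (H : RcLe sgn δ) {a l : ℝ} {h : (J → Fin 3) → ℝ}
    (hL : Lip (Ens sgn δ) sgn a l h) :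
    Lip (Ens sgn δ) sgn (2 / 3 * a) (2 / 3 * (l + a)) (Kop (Ens sgn δ) h) := by
  constructor
  · intro χ hχ x y hxy
    obtain ⟨u₀, h1, h2⟩ : ∃ u₀ : Fin 3, χ x ≠ u₀ ∧ χ y ≠ u₀ := by
      generalize χ x = p
      generalize χ y = q
      revert p q
      decide
    exact three_bound _ _ a (fun u => cE_sw_le hL hχ hxy u) u₀ (cE_sw_eq h χ h1 h2).symm
  · intro χ hχ x y v hx hy hc
    have ha : 0 ≤ a := a_nonneg hL hχ x
    have hl : 0 ≤ l := by
      have := hL.two χ hχ x y (χ x) hx hy hc
      rw [rc_self χ hc, sub_self, abs_zero] at this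
      exact this
    by_cases hv : v = χ x
    · rw [hv, rc_self χ hc, sub_self, abs_zero]
      positivity
    have hχ' : rc χ x y v ∈ Ens sgn δ := rc_mem3 hχ hx hy hc v
    obtain ⟨w, hw1, hw2, hall⟩ : ∃ w : Fin 3, w ≠ χ x ∧ w ≠ v ∧ ∀ u, u = χ x ∨ u = v ∨ u = w := by
      have gen : ∀ c v : Fin 3, v ≠ c → ∃ w : Fin 3, w ≠ c ∧ w ≠ v ∧ ∀ u, u = c ∨ u = v ∨ u = w := by
        decide
      exact gen (χ x) v hv
    have rx : rc χ x y v x = v := by simp [rc]
    have ry : rc χ x y v y = v := by simp [rc]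
    have rj : ∀ j, j ≠ x → j ≠ y → rc χ x y v j = χ j := by
      intro j h1 h2
      unfold rc
      rw [if_neg]
      rintro (h | h)
      · exact h1 h
      · exact h2 h
    -- the third colour
    have ew : cE (Ens sgn δ) (cls w) h χ = cE (Ens sgn δ) (cls w) h (rc χ x y v) := by
      apply cE_eq
      ext j
      rw [mem_cls, mem_cls]
      by_cases h1 : j = x
      · subst h1; rw [rx]; constructor
        · intro h; exact absurd h.symm hw1
        · intro h; exact absurd h.symm hw2
      by_cases h2 : j = y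
      · subst h2; rw [ry, ← hc]; constructor
        · intro h; exact absurd h.symm hw1
        · intro h; exact absurd h.symm hw2
      rw [rj j h1 h2]
    have ec : |cE (Ens sgn δ) (cls (χ x)) h χ - cE (Ens sgn δ) (cls (χ x)) h (rc χ x y v)|
        ≤ l + a := by
      apply H a l h hL χ (rc χ x y v) hχ hχ' x y (χ x) hx hy rfl hc.symm
      ext j
      rw [Finset.mem_sdiff, mem_cls, mem_cls, Finset.mem_insert, Finset.mem_singleton]
      by_cases h1 : j = x
      · subst h1; rw [rx]; constructor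
        · intro h; exact absurd h hv
        · intro h; exact absurd (Or.inl rfl) h.2
      by_cases h2 : j = y
      · subst h2; rw [ry]; constructor
        · intro h; exact absurd h hv
        · intro h; exact absurd (Or.inr rfl) h.2
      rw [rj j h1 h2]
      tauto
    have ev : |cE (Ens sgn δ) (cls v) h χ - cE (Ens sgn δ) (cls v) h (rc χ x y v)| ≤ l + a := by
      rw [abs_sub_comm]
      apply H a l h hL (rc χ x y v) χ hχ' hχ x y v hx hy rx ry
      ext j
      rw [Finset.mem_sdiff, mem_cls, mem_cls, Finset.mem_insert, Finset.mem_singleton]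
      by_cases h1 : j = x
      · subst h1; constructor
        · intro h; exact absurd h.symm hv
        · intro h; exact absurd (Or.inl rfl) h.2
      by_cases h2 : j = y
      · subst h2; rw [← hc]; constructor
        · intro h; exact absurd h.symm hv
        · intro h; exact absurd (Or.inr rfl) h.2
      rw [rj j h1 h2]
      tauto
    refine three_bound _ _ (l + a) (fun u => ?_) w ew
    rcases hall u with rfl | rfl | rfl
    · exact ec
    · exact ev
    · rw [ew, sub_self, abs_zero]; positivity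

end Crest.Agent.S0453K3b.X5
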