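import Mathlib
import Crest.Agent.S0453_Core
import Crest.Agent.S0453_K3b

/-!
# Row 299 (S0453), K3-beta, L6: connectivity of the colouring ensemble under the two moves,
in the form of an oscillation bound for two-scale Lipschitz functions.
-/

set_option autoImplicit false
set_option linter.unusedSectionVars false
open Finset

namespace Crest.Agent.S0453K3b6
open Crest.Agent.S0453Core Crest.Agent.S0453K3b

variable {J : Type*} [Fintype J] [DecidableEq J] {sgn : J → Bool} {δ : Fin 3 → ℤ}

/-- number of disagreements -/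
def dis (χ χ' : J → Fin 3) : ℕ := (univ.filter (fun j => χ j ≠ χ' j)).card

lemma eps_swap {x y : J} (hxy : sgn x = sgn y) (j : J) :
    eps sgn (Equiv.swap x y j) = eps sgn j := by
  unfold eps
  by_cases h1 : j = x
  · subst h1; rw [Equiv.swap_apply_left, hxy]
  · by_cases h2 : j = y
    · subst h2; rw [Equiv.swap_apply_right, hxy]
    · rw [Equiv.swap_apply_of_ne_of_ne h1 h2]

lemma sw_mem' {χ : J → Fin 3} (hχ : χ ∈ Ens sgn δ) {x y : J} (hxy : sgn x = sgn y) :
    sw χ x y ∈ Ens sgn δ := by
  rw [Ens, Finset.mem_filter] at hχ ⊢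
  refine ⟨Finset.mem_univ _, fun u => ?_⟩
  rw [← hχ.2 u]
  unfold cnt sw
  refine Fintype.sum_equiv (Equiv.swap x y) _ _ (fun j => ?_)
  rw [eps_swap hxy]

lemma rc_mem' {χ : J → Fin 3} (hχ : χ ∈ Ens sgn δ) {x y : J} (hx : sgn x = true)
    (hy : sgn y = false) (hc : χ x = χ y) (v : Fin 3) : rc χ x y v ∈ Ens sgn δ := by
  have hne : x ≠ y := by
    intro h; rw [h, hy] at hx; exact Bool.noConfusion hx
  rw [Ens, Finset.mem_filter] at hχ ⊢
  refine ⟨Finset.mem_univ _, fun u => ?_⟩
  rw [← hχ.2 u]
  unfold cnt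
  have key : ∀ (ψ : J → Fin 3), ψ x = ψ y →
      ∑ j, (if ψ j = u then eps sgn j else 0)
        = ∑ j ∈ (univ.erase x).erase y, (if ψ j = u then eps sgn j else 0) := by
    intro ψ hψ
    rw [← Finset.add_sum_erase univ _ (Finset.mem_univ x),
      ← Finset.add_sum_erase (univ.erase x) _ (Finset.mem_erase.2 ⟨hne.symm, Finset.mem_univ y⟩),
      ← add_assoc, hψ]
    have : (if ψ y = u then eps sgn x else 0) + (if ψ y = u then eps sgn y else 0) = 0 := by
      have ex : eps sgn x = 1 := by unfold eps; rw [if_pos hx]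
      have ey : eps sgn y = -1 := by unfold eps; rw [hy]; rfl
      rw [ex, ey]; split_ifs <;> simp
    rw [this, zero_add]
  rw [key χ hc, key (rc χ x y v) (by simp [rc])]
  refine Finset.sum_congr rfl (fun j hj => ?_)
  have h1 : j ≠ y := (Finset.mem_erase.1 hj).1
  have h2 : j ≠ x := (Finset.mem_erase.1 (Finset.mem_erase.1 hj).2).1
  simp [rc, h1, h2]

/-- the counting step -/
lemma exists_partner {χ χ' : J → Fin 3} (hχ : χ ∈ Ens sgn δ) (hχ' : χ' ∈ Ens sgn δ) {j : J}
    {q : Fin 3} (h1 : χ j ≠ q) (h2 : χ' j = q) :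
    (∃ j', sgn j' = sgn j ∧ χ j' = q ∧ χ' j' ≠ q) ∨
      (∃ j2, sgn j2 ≠ sgn j ∧ χ' j2 = q ∧ χ j2 ≠ q) := by
  by_contra hcon
  push Not at hcon
  obtain ⟨hA, hB⟩ := hcon
  have e1 : cnt sgn χ q = δ q := (Finset.mem_filter.1 hχ).2 q
  have e2 : cnt sgn χ' q = δ q := (Finset.mem_filter.1 hχ').2 q
  have hsum : ∑ i, eps sgn j * ((if χ' i = q then eps sgn i else 0)
      - (if χ i = q then eps sgn i else 0)) = 0 := by
    rw [← Finset.mul_sum, Finset.sum_sub_distrib]
    unfold cnt at e1 e2
    rw [e1, e2]; simp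
  have hnn : ∀ i ∈ (univ : Finset J), 0 ≤ eps sgn j * ((if χ' i = q then eps sgn i else 0)
      - (if χ i = q then eps sgn i else 0)) := by
    intro i _
    by_cases hs : sgn i = sgn j
    · have hA' := hA i hs
      have he : eps sgn i = eps sgn j := by unfold eps; rw [hs]
      rw [he]
      have hsq : eps sgn j * eps sgn j = 1 := by unfold eps; split_ifs <;> simp
      by_cases c1 : χ i = q
      · rw [if_pos c1, if_pos (hA' c1)]; simp
      · rw [if_neg c1]
        by_cases c2 : χ' i = q
        · rw [if_pos c2, sub_zero, hsq]; exact zero_le_one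
        · rw [if_neg c2]; simp
    · have hB' := hB i hs
      have he : eps sgn j * eps sgn i = -1 := by
        unfold eps
        cases hi : sgn i <;> cases hj : sgn j <;> simp_all
      by_cases c2 : χ' i = q
      · rw [if_pos c2, if_pos (hB' c2)]; simp
      · rw [if_neg c2]
        by_cases c1 : χ i = q
        · rw [if_pos c1, zero_sub, mul_neg, he]; simp
        · rw [if_neg c1]; simp
  have h0 := (Finset.sum_eq_zero_iff_of_nonneg hnn).1 hsum j (Finset.mem_univ j)
  rw [if_pos h2, if_neg h1, sub_zero] at h0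
  have hsq : eps sgn j * eps sgn j = 1 := by unfold eps; split_ifs <;> simp
  rw [hsq] at h0
  exact one_ne_zero h0

lemma dis_eq_zero {χ χ' : J → Fin 3} (h : dis χ χ' = 0) : χ = χ' := by
  unfold dis at h
  rw [Finset.card_eq_zero, Finset.filter_eq_empty_iff] at h
  funext j
  have := h (Finset.mem_univ j)
  simpa using this

/-- if `ψ` agrees with `χ'` at `j`, where `χ` did not, and all new disagreements are old ones,
the number of disagreements drops -/
lemma dis_lt {χ ψ χ' ψ' : J → Fin 3} {j : J} (hj : χ j ≠ χ' j) (hj' : ψ j = ψ' j)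
    (hsub : ∀ i, ψ i ≠ ψ' i → χ i ≠ χ' i) : dis ψ ψ' < dis χ χ' := by
  unfold dis
  apply Finset.card_lt_card
  rw [Finset.ssubset_iff_of_subset]
  · exact ⟨j, by simp [hj], by simp [hj']⟩
  · intro i hi
    rw [Finset.mem_filter] at hi ⊢
    exact ⟨hi.1, hsub i hi.2⟩

theorem osc_le_dis {a l : ℝ} {h : (J → Fin 3) → ℝ} (hL : Lip (Ens sgn δ) sgn a l h)
    (ha : 0 ≤ a) (hl : 0 ≤ l) : ∀ (N : ℕ) (χ χ' : J → Fin 3), χ ∈ Ens sgn δ → χ' ∈ Ens sgn δ →
      dis χ χ' ≤ N → |h χ - h χ'| ≤ (N : ℝ) * (a + l) := by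
  intro N
  induction N with
  | zero =>
    intro χ χ' _ _ hd
    have : χ = χ' := dis_eq_zero (Nat.le_zero.1 hd)
    rw [this]; simp
  | succ N ih =>
    intro χ χ' hχ hχ' hd
    by_cases h0 : dis χ χ' = 0
    · have : χ = χ' := dis_eq_zero h0
      rw [this, sub_self, abs_zero]
      positivity
    · -- pick a disagreement
      have hne : (univ.filter (fun j => χ j ≠ χ' j)).Nonempty := by
        rw [← Finset.card_pos]; exact Nat.pos_of_ne_zero h0
      obtain ⟨j, hj⟩ := hne
      have hj : χ j ≠ χ' j := (Finset.mem_filter.1 hj).2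
      push_cast
      rcases exists_partner hχ hχ' hj rfl with ⟨j', hs, c1, c2⟩ | ⟨j2, hs, c1, c2⟩
      · -- swap `j`, `j'` in `χ`
        have hm : sw χ j j' ∈ Ens sgn δ := sw_mem' hχ hs.symm
        have hlt : dis (sw χ j j') χ' < dis χ χ' := by
          apply dis_lt hj
          · unfold sw; rw [Equiv.swap_apply_left, c1]
          · intro i hi
            by_cases e1 : i = j
            · rw [e1]; exact hj
            · by_cases e2 : i = j'
              · rw [e2, c1]; exact fun e => c2 e.symm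
              · unfold sw at hi; rwa [Equiv.swap_apply_of_ne_of_ne e1 e2] at hi
        have h1 := ih (sw χ j j') χ' hm hχ' (by omega)
        have h2 := hL.one χ hχ j j' hs.symm
        have h3 : |h χ - h χ'| ≤ |h χ - h (sw χ j j')| + |h (sw χ j j') - h χ'| := abs_sub_le _ _ _
        nlinarith
      · -- recolour `j`, `j2` in `χ'`
        have hstep : ∃ ψ' ∈ Ens sgn δ, |h χ' - h ψ'| ≤ l ∧ ψ' j = χ j ∧
            ∀ i, i ≠ j → i ≠ j2 → ψ' i = χ' i := by
          cases hsj : sgn j with
          | true =>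
            have hs2 : sgn j2 = false := by
              cases h2 : sgn j2 with
              | true => exact absurd (h2.trans hsj.symm) hs
              | false => rfl
            refine ⟨rc χ' j j2 (χ j), rc_mem' hχ' hsj hs2 c1.symm _,
              hL.two χ' hχ' j j2 _ hsj hs2 c1.symm, by simp [rc], ?_⟩
            intro i e1 e2; simp [rc, e1, e2]
          | false =>
            have hs2 : sgn j2 = true := by
              cases h2 : sgn j2 with
              | false => exact absurd (h2.trans hsj.symm) hs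
              | true => rfl
            refine ⟨rc χ' j2 j (χ j), rc_mem' hχ' hs2 hsj c1 _,
              hL.two χ' hχ' j2 j _ hs2 hsj c1, by simp [rc], ?_⟩
            intro i e1 e2; simp [rc, e1, e2]
        obtain ⟨ψ', hm, hstepl, hψj, hψ⟩ := hstep
        have hlt : dis χ ψ' < dis χ χ' := by
          apply dis_lt hj hψj.symm
          intro i hi
          by_cases e1 : i = j
          · rw [e1]; exact hj
          · by_cases e2 : i = j2
            · rw [e2, c1]; exact c2
            · rwa [hψ i e1 e2] at hi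
        have h1 := ih χ ψ' hχ hm (by omega)
        have h3 : |h χ - h χ'| ≤ |h χ - h ψ'| + |h ψ' - h χ'| := abs_sub_le _ _ _
        rw [abs_sub_comm (h ψ') (h χ')] at h3
        nlinarith

lemma dis_le_card (χ χ' : J → Fin 3) : dis χ χ' ≤ Fintype.card J := by
  unfold dis
  exact Finset.card_le_univ _

end Crest.Agent.S0453K3b6

namespace Crest.Agent.S0453K3b
open Crest.Agent.S0453Core

variable {J : Type*} [Fintype J] [DecidableEq J] {sgn : J → Bool} {δ : Fin 3 → ℤ}

/-- **L6** (connectivity): a two-scale Lipschitz function has oscillation at most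
`card J * (a + l)` on the ensemble. -/
theorem osc_le {a l : ℝ} {h : (J → Fin 3) → ℝ} (hL : Lip (Ens sgn δ) sgn a l h)
    (ha : 0 ≤ a) (hl : 0 ≤ l) {χ χ' : J → Fin 3} (hχ : χ ∈ Ens sgn δ) (hχ' : χ' ∈ Ens sgn δ) :
    |h χ - h χ'| ≤ (Fintype.card J : ℝ) * (a + l) :=
  S0453K3b6.osc_le_dis hL ha hl (Fintype.card J) χ χ' hχ hχ' (S0453K3b6.dis_le_card χ χ')

end Crest.Agent.S0453K3b
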