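import Mathlib
import Crest.Agent.S0453_Core
import Crest.Agent.S0453_CoreLemmas
import Crest.Agent.S0453_K3b
import Crest.Agent.S0453_K3b3
import Crest.Agent.S0453_K3b5
import Crest.Agent.S0453_K3b6
import Crest.Agent.S0453_Radial

/-!
# Row 299 (S0453), K3-beta, L8: the colouring form of K3 from the Lipschitz contraction (L5),
connectivity (L6) and the power trick.  `L4 = cE_rc_le` enters as the hypothesis `RcLe`.
-/

set_option autoImplicit false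
set_option linter.unusedSectionVars false
open Finset

namespace Crest.Agent.S0453K3b
open Crest.Agent.S0453Core

variable {J : Type*} [Fintype J] [DecidableEq J] {sgn : J → Bool} {δ : Fin 3 → ℤ}

namespace L8

lemma rip_eq {α : Type*} (Ω : Finset α) (F G : α → ℝ) :
    S0453Radial.ip Ω (fun _ => 1) F G = ip Ω F G := by
  simp [S0453Radial.ip, ip]

lemma ip_Kop_left (Ω : Finset (J → Fin 3)) (F G : (J → Fin 3) → ℝ) :
    ip Ω (Kop Ω F) G = (∑ u : Fin 3, ip Ω (cE Ω (cls u) F) G) / 3 := by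
  unfold Kop ip
  rw [Finset.sum_comm, Finset.sum_div]
  refine Finset.sum_congr rfl fun χ _ => ?_
  rw [← Finset.sum_mul]; ring

lemma ip_Kop_right (Ω : Finset (J → Fin 3)) (F G : (J → Fin 3) → ℝ) :
    ip Ω G (Kop Ω F) = (∑ u : Fin 3, ip Ω G (cE Ω (cls u) F)) / 3 := by
  rw [ip_comm, ip_Kop_left]
  congr 1
  exact Finset.sum_congr rfl fun u _ => ip_comm _ _

lemma ip_Kop_symm (Ω : Finset (J → Fin 3)) (F G : (J → Fin 3) → ℝ) :
    ip Ω (Kop Ω F) G = ip Ω F (Kop Ω G) := by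
  rw [ip_Kop_left, ip_Kop_right]
  congr 1
  exact Finset.sum_congr rfl fun u _ => ip_cE_symm _ _

lemma sum_Kop (Ω : Finset (J → Fin 3)) (F : (J → Fin 3) → ℝ) :
    ∑ χ ∈ Ω, Kop Ω F χ = ∑ χ ∈ Ω, F χ := by
  unfold Kop
  rw [← Finset.sum_div, Finset.sum_comm]
  simp only [sum_cE]
  simp

lemma Lip_mono {Ω : Finset (J → Fin 3)} {a l a' l' : ℝ} {h : (J → Fin 3) → ℝ}
    (hL : Lip Ω sgn a l h) (ha : a ≤ a') (hl : l ≤ l') : Lip Ω sgn a' l' h :=
  ⟨fun χ hχ x y hxy => (hL.one χ hχ x y hxy).trans ha,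
   fun χ hχ x y v hx hy hc => (hL.two χ hχ x y v hx hy hc).trans hl⟩

/-- contraction for a fixed `ε`. -/
lemma norm_le_eps (H4 : RcLe sgn δ) (φ : (J → Fin 3) → ℝ) (hφ : ∑ χ ∈ Ens sgn δ, φ χ = 0)
    (ε : ℝ) (hε : 0 < ε) (hε1 : ε ≤ 1) :
    ip (Ens sgn δ) (Kop (Ens sgn δ) φ) (Kop (Ens sgn δ) φ)
      ≤ (2 / 3 * (1 + ε)) ^ 2 * ip (Ens sgn δ) φ φ := by
  set Ω := Ens sgn δ with hΩ
  have H2 : RcMem sgn δ := fun hχ _ _ hx hy hc v => S0453K3b6.rc_mem' hχ hx hy hc v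
  set B : ℝ := ∑ s ∈ Ω, |φ s| with hB
  have hB0 : 0 ≤ B := Finset.sum_nonneg fun _ _ => abs_nonneg _
  have hle : ∀ s ∈ Ω, |φ s| ≤ B := fun s hs =>
    Finset.single_le_sum (f := fun s => |φ s|) (fun _ _ => abs_nonneg _) hs
  have hdiff : ∀ s ∈ Ω, ∀ s' ∈ Ω, |φ s - φ s'| ≤ 2 * B := by
    intro s hs s' hs'
    have := abs_sub (φ s) (φ s')
    have h1 := hle s hs
    have h2 := hle s' hs'
    linarith
  have key := S0453Radial.power_trick_c Ω (fun _ => (1 : ℝ)) (fun _ _ => zero_le_one)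
    (Kop Ω) (fun F M => 0 ≤ M ∧ Lip Ω sgn (ε * M) M F)
    ((Fintype.card J : ℝ) * (ε + 1)) (2 / 3 * (1 + ε)) (by positivity)
    (fun F G => by rw [rip_eq, rip_eq]; exact ip_Kop_symm Ω F G)
    (fun F hF => by
      simp only [one_mul] at hF ⊢
      rw [sum_Kop, hF])
    (fun F M hFM => by
      obtain ⟨hM, hL⟩ := hFM
      refine ⟨by positivity, ?_⟩
      refine Lip_mono (lip_Kop_of H2 H4 hL) ?_ (le_of_eq (by ring))
      have : 0 ≤ ε * ε * M := by positivity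
      nlinarith)
    (fun F M hFM hF0 s hs => by
      obtain ⟨hM, hL⟩ := hFM
      have hosc : ∀ s ∈ Ω, ∀ s' ∈ Ω, |F s - F s'| ≤ (Fintype.card J : ℝ) * (ε + 1) * M := by
        intro s hs s' hs'
        have := osc_le hL (by positivity) hM hs hs'
        calc |F s - F s'| ≤ (Fintype.card J : ℝ) * (ε * M + M) := this
          _ = (Fintype.card J : ℝ) * (ε + 1) * M := by ring
      exact S0453Radial.abs_le_of_osc Ω (fun _ => (1 : ℝ)) (fun _ _ => zero_lt_one) F _ hosc hF0 s hs)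
    φ (2 * B / ε)
    ⟨by positivity, by
      constructor
      · intro χ hχ x y hxy
        have h1 := hdiff χ hχ _ (L3.sw_mem' hχ hxy)
        have h2 : ε * (2 * B / ε) = 2 * B := by field_simp
        rw [h2]; exact h1
      · intro χ hχ x y v hx hy hc
        have h1 := hdiff χ hχ _ (H2 hχ hx hy hc v)
        have h2 : 2 * B ≤ 2 * B / ε := by
          rw [le_div_iff₀ hε]
          nlinarith
        exact h1.trans h2⟩
    (by simpa using hφ)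
  rw [rip_eq, rip_eq] at key
  exact key

/-- `‖K φ‖² ≤ (4/9) ‖φ‖²` for mean-zero `φ`. -/
lemma norm_le (H4 : RcLe sgn δ) (φ : (J → Fin 3) → ℝ) (hφ : ∑ χ ∈ Ens sgn δ, φ χ = 0) :
    ip (Ens sgn δ) (Kop (Ens sgn δ) φ) (Kop (Ens sgn δ) φ) ≤ 4 / 9 * ip (Ens sgn δ) φ φ := by
  set A := ip (Ens sgn δ) (Kop (Ens sgn δ) φ) (Kop (Ens sgn δ) φ) with hA
  set Q := ip (Ens sgn δ) φ φ with hQ
  have hQ0 : 0 ≤ Q := ip_self_nonneg _
  apply le_of_forall_pos_le_add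
  intro η hη
  set ε : ℝ := min 1 (η / (4 / 3 * Q + 1)) with hε
  have hden : 0 < 4 / 3 * Q + 1 := by positivity
  have hεpos : 0 < ε := lt_min zero_lt_one (div_pos hη hden)
  have hε1 : ε ≤ 1 := min_le_left _ _
  have hε2 : ε ≤ η / (4 / 3 * Q + 1) := min_le_right _ _
  have h := norm_le_eps H4 φ hφ ε hεpos hε1
  have h3 : ε * (4 / 3 * Q + 1) ≤ η := by rwa [le_div_iff₀ hden] at hε2
  have h4 : (2 / 3 * (1 + ε)) ^ 2 * Q ≤ 4 / 9 * Q + 4 / 3 * ε * Q := by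
    have : ε * ε ≤ ε := by nlinarith
    have h5 : (2 / 3 * (1 + ε)) ^ 2 = 4 / 9 + 8 / 9 * ε + 4 / 9 * (ε * ε) := by ring
    rw [h5]
    nlinarith
  nlinarith

/-- `⟨φ, K φ⟩ ≤ (2/3) ‖φ‖²` for mean-zero `φ`. -/
lemma quad_le (H4 : RcLe sgn δ) (φ : (J → Fin 3) → ℝ) (hφ : ∑ χ ∈ Ens sgn δ, φ χ = 0) :
    ip (Ens sgn δ) φ (Kop (Ens sgn δ) φ) ≤ 2 / 3 * ip (Ens sgn δ) φ φ := by
  have h1 := norm_le H4 φ hφ
  have h2 := ip_sq_le (Ω := Ens sgn δ) φ (Kop (Ens sgn δ) φ)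
  have h3 : 0 ≤ ip (Ens sgn δ) φ φ := ip_self_nonneg _
  by_contra hcon
  rw [not_le] at hcon
  nlinarith [mul_le_mul_of_nonneg_left h1 h3]

end L8
open L8

/-- L8: the colouring form of K3, given L4. -/
theorem K3col_of (H4 : RcLe sgn δ) (f : (J → Fin 3) → ℝ) :
    ip (Ens sgn δ) (cP (Ens sgn δ) (fun _ => ()) f) (cP (Ens sgn δ) (fun _ => ()) f)
      ≤ ∑ u : Fin 3, ip (Ens sgn δ) (cP (Ens sgn δ) (cls u) f) (cP (Ens sgn δ) (cls u) f) := by
  set Ω := Ens sgn δ with hΩ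
  set φ := cP Ω (fun _ => ()) f with hφ
  have hmean : ∑ χ ∈ Ω, φ χ = 0 := sum_cP f
  have hq := quad_le H4 φ hmean
  -- `cP_u f = cP_u φ` on `Ω`
  have hcP : ∀ u : Fin 3, ∀ χ ∈ Ω, cP Ω (cls u) f χ = cP Ω (cls u) φ χ := by
    intro u χ hχ
    have h1 : cP Ω (cls u) φ χ
        = cP Ω (cls u) f χ - cP Ω (cls u) (cE Ω (fun _ => ()) f) χ := by
      rw [← cP_sub]; rfl
    rw [h1, cP_of_meas (Meas.of_finer finer_unit (meas_cE f)) hχ, sub_zero]
  have hterm : ∀ u : Fin 3, ip Ω (cP Ω (cls u) f) (cP Ω (cls u) f)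
      = ip Ω φ φ - ip Ω φ (cE Ω (cls u) φ) := by
    intro u
    rw [ip_congr (hcP u) (hcP u), ← ip_cP_right]
    unfold cP
    rw [ip_sub_right]
  simp only [hterm]
  rw [Finset.sum_sub_distrib]
  have h3 : ∑ u : Fin 3, ip Ω φ (cE Ω (cls u) φ) = 3 * ip Ω φ (Kop Ω φ) := by
    rw [ip_Kop_right]; ring
  rw [h3]
  simp only [Finset.sum_const, Finset.card_univ, Fintype.card_fin, nsmul_eq_mul]
  push_cast
  linarith

end Crest.Agent.S0453K3b
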