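import Mathlib
import Crest.Prelude.Def_SwitchChain
import Crest.Agent.S0453_Core
import Crest.Agent.S0453_K3ColDefs
import Crest.Agent.S0453_K3b
import Crest.Agent.S0453_K3Rows

/-!
# Row 299 (S0453): bridge from the K3-beta colouring model (no frozen columns, `sgn : J → Bool`)
to `K3Col` (ambient column type, frozen columns) and hence to `K3Rows`.
-/

set_option autoImplicit false
open Finset

namespace Crest.Agent.S0453K3bBridge
open Crest.Agent.S0453Core Crest.Agent.S0453K3Col

/-- the statement delivered by K3-beta -/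
def K3bStmt : Prop := ∀ (J : Type) [Fintype J] [DecidableEq J] (sgn : J → Bool) (δ : Fin 3 → ℤ)
  (f : (J → Fin 3) → ℝ),
    ip (S0453K3b.Ens sgn δ) (cP (S0453K3b.Ens sgn δ) (fun _ => ()) f)
        (cP (S0453K3b.Ens sgn δ) (fun _ => ()) f)
      ≤ ∑ u : Fin 3, ip (S0453K3b.Ens sgn δ) (cP (S0453K3b.Ens sgn δ) (S0453K3b.cls u) f)
          (cP (S0453K3b.Ens sgn δ) (S0453K3b.cls u) f)

variable {α : Type} [Fintype α] [DecidableEq α]

/-- extension of a colouring of `A ∪ B` by the colour `0` -/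
def ext (S : Finset α) (χ : {x // x ∈ S} → Fin 3) : α → Fin 3 :=
  fun x => if h : x ∈ S then χ ⟨x, h⟩ else 0

omit [Fintype α] in
lemma ext_coe (S : Finset α) (χ : {x // x ∈ S} → Fin 3) (j : {x // x ∈ S}) :
    ext S χ j.1 = χ j := by
  simp [ext, j.2]

omit [Fintype α] in
lemma ext_injective (S : Finset α) : Function.Injective (ext S) := by
  intro χ χ' h
  funext j
  rw [← ext_coe S χ j, ← ext_coe S χ' j, h]

lemma cnt_eq (A B : Finset α) (hAB : Disjoint A B) (χ : {x // x ∈ A ∪ B} → Fin 3) (u : Fin 3) :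
    S0453K3b.cnt (fun j : {x // x ∈ A ∪ B} => decide (j.1 ∈ A)) χ u
      = ((A.filter fun x => ext (A ∪ B) χ x = u).card : ℤ)
        - ((B.filter fun x => ext (A ∪ B) χ x = u).card : ℤ) := by
  unfold S0453K3b.cnt S0453K3b.eps
  have h1 : ∀ j : {x // x ∈ A ∪ B},
      (if χ j = u then (if decide (j.1 ∈ A) = true then (1 : ℤ) else -1) else 0)
        = (fun x : α => if ext (A ∪ B) χ x = u then (if x ∈ A then (1 : ℤ) else -1) else 0) j.1 := by
    intro j
    simp only [ext_coe, decide_eq_true_eq]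
  rw [Finset.sum_congr rfl (fun j _ => h1 j),
    Finset.sum_coe_sort (A ∪ B)
      (fun x : α => if ext (A ∪ B) χ x = u then (if x ∈ A then (1 : ℤ) else -1) else 0),
    Finset.sum_union hAB]
  have hA : ∑ x ∈ A, (if ext (A ∪ B) χ x = u then (if x ∈ A then (1 : ℤ) else -1) else 0)
      = ((A.filter fun x => ext (A ∪ B) χ x = u).card : ℤ) := by
    rw [Finset.card_filter]
    push_cast
    apply Finset.sum_congr rfl
    intro x hx
    simp [hx]
  have hB : ∑ x ∈ B, (if ext (A ∪ B) χ x = u then (if x ∈ A then (1 : ℤ) else -1) else 0)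
      = - ((B.filter fun x => ext (A ∪ B) χ x = u).card : ℤ) := by
    rw [Finset.card_filter]
    push_cast
    rw [← Finset.sum_neg_distrib]
    apply Finset.sum_congr rfl
    intro x hx
    have : x ∉ A := fun h => (Finset.disjoint_left.mp hAB h hx)
    by_cases h : ext (A ∪ B) χ x = u <;> simp [this, h]
  rw [hA, hB]; ring

lemma image_ext (A B : Finset α) (hAB : Disjoint A B) (δ : Fin 3 → ℤ) :
    (S0453K3b.Ens (fun j : {x // x ∈ A ∪ B} => decide (j.1 ∈ A)) δ).image (ext (A ∪ B))
      = Ens A B δ := by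
  ext ψ
  simp only [Finset.mem_image, S0453K3b.Ens, Ens, Finset.mem_filter, Finset.mem_univ, true_and]
  constructor
  · rintro ⟨χ, hχ, rfl⟩
    refine ⟨fun x hx hx' => ?_, fun u => ?_⟩
    · have : x ∉ A ∪ B := by simp [hx, hx']
      simp [ext, this]
    · rw [← cnt_eq A B hAB χ u]; exact hχ u
  · rintro ⟨h0, h1⟩
    have he : ext (A ∪ B) (fun j => ψ j.1) = ψ := by
      funext x
      by_cases hx : x ∈ A ∪ B
      · simp [ext, hx]
      · have hx' := hx
        simp only [Finset.mem_union, not_or] at hx'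
        simp [ext, hx, h0 x hx'.1 hx'.2]
    refine ⟨fun j => ψ j.1, fun u => ?_, he⟩
    rw [cnt_eq A B hAB, he]; exact h1 u

lemma cls_iff (S : Finset α) (χ χ' : {x // x ∈ S} → Fin 3) (u : Fin 3) :
    S0453K3b.cls u χ = S0453K3b.cls u χ' ↔ cls (ext S χ) u = cls (ext S χ') u := by
  constructor
  · intro e
    ext x
    simp only [cls, Finset.mem_filter, Finset.mem_univ, true_and]
    by_cases hx : x ∈ S
    · have := Finset.ext_iff.mp e ⟨x, hx⟩
      simp only [S0453K3b.cls, Finset.mem_filter, Finset.mem_univ, true_and] at this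
      simpa [ext, hx] using this
    · simp [ext, hx]
  · intro e
    ext j
    have := Finset.ext_iff.mp e j.1
    simp only [cls, Finset.mem_filter, Finset.mem_univ, true_and, ext_coe] at this
    simpa [S0453K3b.cls] using this

/-- K3-beta's statement implies `K3Col`. -/
theorem K3Col_of_K3b (h : K3bStmt) : K3Col := by
  intro α _ _ A B hAB δ f
  have key := h {x // x ∈ A ∪ B} (fun j => decide (j.1 ∈ A)) δ (fun χ => f (ext (A ∪ B) χ))
  have hinj : Set.InjOn (ext (A ∪ B))
      (S0453K3b.Ens (fun j : {x // x ∈ A ∪ B} => decide (j.1 ∈ A)) δ :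
        Set ({x // x ∈ A ∪ B} → Fin 3)) := (ext_injective (A ∪ B)).injOn
  rw [S0453K3Rows.ip_cP_transport (ext (A ∪ B)) _ hinj (fun _ => ()) (fun _ => ())
    (fun _ _ _ _ => by simp) f] at key
  have e : ∀ u : Fin 3, _ = _ := fun u =>
    S0453K3Rows.ip_cP_transport (ext (A ∪ B)) _ hinj (S0453K3b.cls u) (fun χ => cls χ u)
      (fun χ _ χ' _ => cls_iff (A ∪ B) χ χ' u) f
  rw [Finset.sum_congr rfl (fun u _ => e u), image_ext A B hAB δ] at key
  exact key

/-- K3-beta's statement implies `K3Rows`. -/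
theorem K3Rows_of_K3b (h : K3bStmt) : S0453P6.K3Rows :=
  S0453K3Rows.K3Rows_of_K3Col (K3Col_of_K3b h)

end Crest.Agent.S0453K3bBridge
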