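import Mathlib
import Crest.Agent.S0453_Core
import Crest.Agent.S0453_K3b
import Crest.Agent.S0453_K3b2
import Crest.Agent.S0453_K3b5
import Crest.Agent.S0453_K3b8
import Crest.Agent.S0453_K3bBridge
import Crest.Agent.S0453_P6Defs

/-!
# Row 299 (S0453), K3-beta: final statements `K3col` and `K3Rows`.
-/

set_option autoImplicit false
open Finset

namespace Crest.Agent.S0453K3b
open Crest.Agent.S0453Core

/-- L4 in the packaged form. -/
theorem rcLe {J : Type*} [Fintype J] [DecidableEq J] (sgn : J → Bool) (δ : Fin 3 → ℤ) :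
    RcLe sgn δ :=
  fun hL _ _ hz hz' _ _ _ hx hy hxc hyc hcls => cE_rc_le hL hz hz' hx hy hxc hyc hcls

/-- **K3 for colourings** (K3-beta). -/
theorem K3col {J : Type*} [Fintype J] [DecidableEq J] (sgn : J → Bool) (δ : Fin 3 → ℤ)
    (f : (J → Fin 3) → ℝ) :
    ip (Ens sgn δ) (cP (Ens sgn δ) (fun _ => ()) f) (cP (Ens sgn δ) (fun _ => ()) f)
      ≤ ∑ u : Fin 3, ip (Ens sgn δ) (cP (Ens sgn δ) (cls u) f) (cP (Ens sgn δ) (cls u) f) :=
  K3col_of (rcLe sgn δ) f

/-- **K3 for three-row 0/1 matrices.** -/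
theorem k3Rows : S0453P6.K3Rows :=
  S0453K3bBridge.K3Rows_of_K3b (fun _ _ _ sgn δ f => K3col sgn δ f)

end Crest.Agent.S0453K3b
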