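import Mathlib
import Crest.Prelude.Def_SwitchChain

/-!
Abstract part of S0453: for a lazy symmetric stochastic kernel `K = 1/2 I + Q` on a finite type that
does not leave a finite set `Ω`, a Poincare inequality on `Ω` gives an `L²` contraction, hence a
total variation bound.
-/

set_option autoImplicit false
set_option linter.unusedSectionVars false
open Finset

namespace Crest.Agent.S0453Mix

variable {α : Type*} [Fintype α] [DecidableEq α]

/-- one step of the chain acting on a row vector -/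
noncomputable def stepv (K : Matrix α α ℝ) (x : α → ℝ) : α → ℝ := fun b => ∑ c, x c * K c b

section
variable (Ω : Finset α) (K Q : Matrix α α ℝ)
  (hdec : ∀ a b, K a b = (if a = b then 1 / 2 else 0) + Q a b)
  (hnn : ∀ a b, 0 ≤ Q a b)
  (hsymm : ∀ a b, Q a b = Q b a)
  (hrow : ∀ a, ∑ b, Q a b = 1 / 2)
  (hsupp : ∀ a ∈ Ω, ∀ b, b ∉ Ω → Q a b = 0)

include hdec in
lemma stepv_eq (x : α → ℝ) (b : α) :
    stepv K x b = x b / 2 + ∑ c, x c * Q c b := by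
  unfold stepv
  simp only [hdec, mul_add, Finset.sum_add_distrib]
  congr 1
  rw [Finset.sum_eq_single b]
  · simp; ring
  · intro c _ hc; simp [hc]
  · intro h; exact absurd (Finset.mem_univ b) h

include hdec hsupp in
lemma stepv_supp (x : α → ℝ) (hx : ∀ b, b ∉ Ω → x b = 0) (b : α) (hb : b ∉ Ω) :
    stepv K x b = 0 := by
  rw [stepv_eq K Q hdec, hx b hb]
  simp only [zero_div, zero_add]
  apply Finset.sum_eq_zero
  intro c _
  by_cases hc : c ∈ Ω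
  · rw [hsupp c hc b hb, mul_zero]
  · rw [hx c hc, zero_mul]

include hdec hrow in
lemma stepv_sum (x : α → ℝ) : ∑ b, stepv K x b = ∑ b, x b := by
  simp only [stepv_eq K Q hdec, Finset.sum_add_distrib]
  rw [Finset.sum_comm]
  simp only [← Finset.mul_sum, hrow]
  rw [← Finset.sum_add_distrib]
  apply Finset.sum_congr rfl
  intro b _; ring

include hnn hsymm hrow in
lemma sum_Q_sq_le (x : α → ℝ) :
    ∑ b, (∑ c, x c * Q c b) ^ 2 ≤ (1 / 4) * ∑ c, x c ^ 2 := by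
  have h1 : ∀ b, (∑ c, x c * Q c b) ^ 2 ≤ (1 / 2) * ∑ c, Q c b * x c ^ 2 := by
    intro b
    have h := Finset.sum_mul_sq_le_sq_mul_sq (Finset.univ : Finset α)
      (fun c => Real.sqrt (Q c b)) (fun c => Real.sqrt (Q c b) * x c)
    have e1 : ∀ c, Real.sqrt (Q c b) * (Real.sqrt (Q c b) * x c) = x c * Q c b := by
      intro c
      rw [← mul_assoc, Real.mul_self_sqrt (hnn c b)]; ring
    have e2 : ∀ c, Real.sqrt (Q c b) ^ 2 = Q c b := fun c => Real.sq_sqrt (hnn c b)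
    have e3 : ∀ c, (Real.sqrt (Q c b) * x c) ^ 2 = Q c b * x c ^ 2 := by
      intro c; rw [mul_pow, e2]
    simp only [e1, e2, e3] at h
    have e4 : ∑ c, Q c b = 1 / 2 := by
      rw [← hrow b]; exact Finset.sum_congr rfl (fun c _ => hsymm c b)
    rw [e4] at h
    exact h
  calc ∑ b, (∑ c, x c * Q c b) ^ 2 ≤ ∑ b, (1 / 2) * ∑ c, Q c b * x c ^ 2 :=
        Finset.sum_le_sum (fun b _ => h1 b)
    _ = (1 / 2) * ∑ c, (∑ b, Q c b) * x c ^ 2 := by
        rw [← Finset.mul_sum, Finset.sum_comm]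
        congr 1
        apply Finset.sum_congr rfl
        intro c _
        rw [Finset.sum_mul]
    _ = (1 / 4) * ∑ c, x c ^ 2 := by
        simp only [hrow]
        rw [← Finset.mul_sum]; ring

include hdec hnn hsymm hrow in
/-- laziness: `‖xK‖² ≤ ⟨x, xK⟩`. -/
lemma stepv_sq_le (x : α → ℝ) :
    ∑ b, (stepv K x b) ^ 2 ≤ ∑ b, x b * stepv K x b := by
  have h := sum_Q_sq_le Q hnn hsymm hrow x
  simp only [stepv_eq K Q hdec]
  have e1 : ∀ b, (x b / 2 + ∑ c, x c * Q c b) ^ 2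
      = (1 / 4) * x b ^ 2 + x b * (∑ c, x c * Q c b) + (∑ c, x c * Q c b) ^ 2 := by
    intro b; ring
  have e2 : ∀ b, x b * (x b / 2 + ∑ c, x c * Q c b)
      = (1 / 2) * x b ^ 2 + x b * (∑ c, x c * Q c b) := by
    intro b; ring
  simp only [e1, e2, Finset.sum_add_distrib, ← Finset.mul_sum]
  linarith

include hdec hsymm in
lemma stepv_eq_restrict (x : α → ℝ) (hx : ∀ b, b ∉ Ω → x b = 0) (a : α) :
    stepv K x a = ∑ b ∈ Ω, K a b * x b := by
  unfold stepv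
  have hK : ∀ c, K c a = K a c := by
    intro c
    rw [hdec, hdec, hsymm c a]
    by_cases h : c = a
    · simp [h]
    · simp [h, Ne.symm h]
  rw [← Finset.sum_subset (Finset.subset_univ Ω)]
  · apply Finset.sum_congr rfl
    intro c _; rw [hK c]; ring
  · intro c _ hc; rw [hx c hc, zero_mul]

include hdec hnn hsymm hrow in
/-- one-step `L²` contraction from the Poincare inequality -/
lemma stepv_contract (C : ℝ) (hC : 0 < C) (hΩ : Ω.Nonempty)
    (hP : ∀ f : α → ℝ, (Ω.card : ℝ) * (∑ a ∈ Ω, f a ^ 2) - (∑ a ∈ Ω, f a) ^ 2 ≤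
      C * Ω.card * ∑ a ∈ Ω, f a * (f a - ∑ b ∈ Ω, K a b * f b))
    (x : α → ℝ) (hx : ∀ b, b ∉ Ω → x b = 0) (hx0 : ∑ b, x b = 0) :
    ∑ b, (stepv K x b) ^ 2 ≤ (1 - 1 / C) * ∑ b, x b ^ 2 := by
  have hN : (0 : ℝ) < Ω.card := by exact_mod_cast hΩ.card_pos
  have s1 : ∑ a ∈ Ω, x a = 0 := by
    rw [← hx0]
    exact Finset.sum_subset (Finset.subset_univ Ω) (fun c _ hc => hx c hc)
  have s2 : ∑ a ∈ Ω, x a ^ 2 = ∑ a, x a ^ 2 :=
    Finset.sum_subset (Finset.subset_univ Ω) (fun c _ hc => by rw [hx c hc]; ring)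
  have s3 : ∑ a ∈ Ω, x a * (x a - ∑ b ∈ Ω, K a b * x b) = ∑ a, x a ^ 2 - ∑ a, x a * stepv K x a := by
    rw [← Finset.sum_sub_distrib]
    rw [Finset.sum_subset (Finset.subset_univ Ω) (fun c _ hc => by rw [hx c hc]; ring)]
    apply Finset.sum_congr rfl
    intro a _
    rw [stepv_eq_restrict Ω K Q hdec hsymm x hx a]; ring
  have h := hP x
  rw [s1, s2, s3] at h
  have h2 : ∑ a, x a ^ 2 ≤ C * (∑ a, x a ^ 2 - ∑ a, x a * stepv K x a) := by
    have : (Ω.card : ℝ) * (∑ a, x a ^ 2) ≤ (Ω.card : ℝ) * (C * (∑ a, x a ^ 2 - ∑ a, x a * stepv K x a)) := by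
      nlinarith
    exact le_of_mul_le_mul_left this hN
  have h3 := stepv_sq_le K Q hdec hnn hsymm hrow x
  have h4 : (1 / C) * ∑ a, x a ^ 2 ≤ ∑ a, x a ^ 2 - ∑ a, x a * stepv K x a := by
    rw [div_mul_eq_mul_div, one_mul, div_le_iff₀ hC]; linarith
  linarith

include hdec hsymm hrow hsupp in
lemma stepv_unif (b : α) :
    stepv K (Crest.SwitchChain.unifOn Ω) b = Crest.SwitchChain.unifOn Ω b := by
  by_cases hb : b ∈ Ω
  · rw [stepv_eq K Q hdec]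
    have h1 : ∑ c, Crest.SwitchChain.unifOn Ω c * Q c b = (1 / (Ω.card : ℝ)) * (1 / 2) := by
      rw [← hrow b, Finset.mul_sum]
      apply Finset.sum_congr rfl
      intro c _
      unfold Crest.SwitchChain.unifOn
      by_cases hc : c ∈ Ω
      · simp [hc, hsymm c b]
      · simp [hc, hsupp b hb c hc]
    rw [h1]
    simp only [Crest.SwitchChain.unifOn, hb, if_true]
    ring
  · rw [stepv_supp Ω K Q hdec hsupp _ (fun c hc => by simp [Crest.SwitchChain.unifOn, hc]) b hb]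
    simp [Crest.SwitchChain.unifOn, hb]

/-- deviation from the uniform law after `t` steps from `a` -/
noncomputable def dev (a : α) (t : ℕ) : α → ℝ :=
  fun b => (K ^ t) a b - Crest.SwitchChain.unifOn Ω b

include hdec hsymm hrow hsupp in
lemma dev_succ (a : α) (t : ℕ) : dev Ω K a (t + 1) = stepv K (dev Ω K a t) := by
  funext b
  have h := stepv_unif Ω K Q hdec hsymm hrow hsupp b
  unfold dev
  rw [pow_succ, Matrix.mul_apply, ← h]
  unfold stepv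
  rw [← Finset.sum_sub_distrib]
  apply Finset.sum_congr rfl
  intro c _; ring

lemma sum_unifOn (hΩ : Ω.Nonempty) : ∑ b, Crest.SwitchChain.unifOn Ω b = 1 := by
  have hN : (Ω.card : ℝ) ≠ 0 := by exact_mod_cast hΩ.card_pos.ne'
  unfold Crest.SwitchChain.unifOn
  rw [Finset.sum_ite_mem, Finset.univ_inter, Finset.sum_const, nsmul_eq_mul]
  field_simp

lemma dev_zero_supp (a : α) (ha : a ∈ Ω) (b : α) (hb : b ∉ Ω) : dev Ω K a 0 b = 0 := by
  have hab : a ≠ b := fun h => hb (h ▸ ha)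
  simp [dev, hab, Crest.SwitchChain.unifOn, hb]

lemma dev_zero_sum (hΩ : Ω.Nonempty) (a : α) : ∑ b, dev Ω K a 0 b = 0 := by
  unfold dev
  rw [Finset.sum_sub_distrib, sum_unifOn Ω hΩ]
  simp [Matrix.one_apply]

lemma dev_zero_sq (hΩ : Ω.Nonempty) (a : α) (ha : a ∈ Ω) : ∑ b, (dev Ω K a 0 b) ^ 2 ≤ 1 := by
  have hN : (0 : ℝ) < Ω.card := by exact_mod_cast hΩ.card_pos
  have e : ∀ b, (dev Ω K a 0 b) ^ 2 = (if a = b then (1 : ℝ) else 0)
      - 2 * ((if a = b then (1 : ℝ) else 0) * Crest.SwitchChain.unifOn Ω b)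
      + (1 / (Ω.card : ℝ)) * Crest.SwitchChain.unifOn Ω b := by
    intro b
    unfold dev Crest.SwitchChain.unifOn
    rw [pow_zero, Matrix.one_apply]
    by_cases h1 : a = b <;> by_cases h2 : b ∈ Ω <;> simp [h1, h2] <;> ring
  simp only [e, Finset.sum_add_distrib, Finset.sum_sub_distrib, ← Finset.mul_sum, sum_unifOn Ω hΩ]
  have e2 : ∑ b, (if a = b then (1 : ℝ) else 0) = 1 := by simp
  have e3 : ∑ b, (if a = b then (1 : ℝ) else 0) * Crest.SwitchChain.unifOn Ω b = 1 / (Ω.card : ℝ) := by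
    simp [Crest.SwitchChain.unifOn, ha]
  rw [e2, e3]
  have : 0 < 1 / (Ω.card : ℝ) := by positivity
  linarith

include hdec hnn hsymm hrow hsupp in
lemma dev_bound (C : ℝ) (hC : 1 ≤ C) (hΩ : Ω.Nonempty)
    (hP : ∀ f : α → ℝ, (Ω.card : ℝ) * (∑ a ∈ Ω, f a ^ 2) - (∑ a ∈ Ω, f a) ^ 2 ≤
      C * Ω.card * ∑ a ∈ Ω, f a * (f a - ∑ b ∈ Ω, K a b * f b))
    (a : α) (ha : a ∈ Ω) (t : ℕ) :
    (∀ b, b ∉ Ω → dev Ω K a t b = 0) ∧ ∑ b, dev Ω K a t b = 0 ∧
      ∑ b, (dev Ω K a t b) ^ 2 ≤ (1 - 1 / C) ^ t := by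
  have hC0 : 0 < C := by linarith
  have hq : 0 ≤ 1 - 1 / C := by
    have : 1 / C ≤ 1 := by rw [div_le_one hC0]; exact hC
    linarith
  induction t with
  | zero =>
    refine ⟨dev_zero_supp Ω K a ha, dev_zero_sum Ω K hΩ a, ?_⟩
    simpa using dev_zero_sq Ω K hΩ a ha
  | succ t ih =>
    obtain ⟨h1, h2, h3⟩ := ih
    rw [dev_succ Ω K Q hdec hsymm hrow hsupp]
    refine ⟨stepv_supp Ω K Q hdec hsupp _ h1, ?_, ?_⟩
    · rw [stepv_sum K Q hdec hrow, h2]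
    · calc ∑ b, (stepv K (dev Ω K a t) b) ^ 2 ≤ (1 - 1 / C) * ∑ b, (dev Ω K a t b) ^ 2 :=
            stepv_contract Ω K Q hdec hnn hsymm hrow C hC0 hΩ hP _ h1 h2
        _ ≤ (1 - 1 / C) * (1 - 1 / C) ^ t := mul_le_mul_of_nonneg_left h3 hq
        _ = (1 - 1 / C) ^ (t + 1) := by ring

include hdec hnn hsymm hrow hsupp in
/-- total variation bound -/
theorem tv_le_quarter (C : ℝ) (hC : 1 ≤ C) (hΩ : Ω.Nonempty)
    (hP : ∀ f : α → ℝ, (Ω.card : ℝ) * (∑ a ∈ Ω, f a ^ 2) - (∑ a ∈ Ω, f a) ^ 2 ≤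
      C * Ω.card * ∑ a ∈ Ω, f a * (f a - ∑ b ∈ Ω, K a b * f b))
    (a : α) (ha : a ∈ Ω) (t : ℕ) (ht : (Ω.card : ℝ) * (1 - 1 / C) ^ t ≤ 1 / 4) :
    Crest.SwitchChain.tvDist (fun b => (K ^ t) a b) (Crest.SwitchChain.unifOn Ω) ≤ 1 / 4 := by
  obtain ⟨h1, _, h3⟩ := dev_bound Ω K Q hdec hnn hsymm hrow hsupp C hC hΩ hP a ha t
  have hN : (0 : ℝ) ≤ Ω.card := by positivity
  unfold Crest.SwitchChain.tvDist
  have e0 : ∑ b, |(K ^ t) a b - Crest.SwitchChain.unifOn Ω b| = ∑ b ∈ Ω, |dev Ω K a t b| := by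
    symm
    apply Finset.sum_subset (Finset.subset_univ Ω)
    intro c _ hc
    rw [h1 c hc, abs_zero]
  rw [e0]
  have e1 : (∑ b ∈ Ω, |dev Ω K a t b|) ^ 2 ≤ (Ω.card : ℝ) * ∑ b ∈ Ω, |dev Ω K a t b| ^ 2 :=
    sq_sum_le_card_mul_sum_sq
  have e2 : ∑ b ∈ Ω, |dev Ω K a t b| ^ 2 ≤ ∑ b, (dev Ω K a t b) ^ 2 := by
    simp only [sq_abs]
    exact Finset.sum_le_sum_of_subset_of_nonneg (Finset.subset_univ Ω) (fun i _ _ => sq_nonneg _)
  have e3 : (∑ b ∈ Ω, |dev Ω K a t b|) ^ 2 ≤ 1 / 4 := by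
    calc (∑ b ∈ Ω, |dev Ω K a t b|) ^ 2 ≤ (Ω.card : ℝ) * ∑ b ∈ Ω, |dev Ω K a t b| ^ 2 := e1
      _ ≤ (Ω.card : ℝ) * (1 - 1 / C) ^ t := mul_le_mul_of_nonneg_left (le_trans e2 h3) hN
      _ ≤ 1 / 4 := ht
  have e4 : 0 ≤ ∑ b ∈ Ω, |dev Ω K a t b| := Finset.sum_nonneg (fun _ _ => abs_nonneg _)
  nlinarith

end

end Crest.Agent.S0453Mix
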