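import Mathlib
import Crest.Prelude.Def_SwitchChain
import Crest.Agent.S0453_Mix
import Crest.Agent.S0453_Kernel

/-!
S0453: the mixing-time half follows from the Poincare half.
-/

set_option autoImplicit false
open Finset

namespace Crest.Agent.S0453R

open Crest.SwitchChain Crest.Agent.S0453K Crest.Agent.S0453Mix

variable {n : ℕ}

lemma card_edge_le (hn : 1 ≤ n) : Fintype.card (Edge n) ≤ n ^ 2 := by
  calc Fintype.card (Edge n) ≤ Fintype.card (Sym2 (Fin n)) := Fintype.card_subtype_le _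
    _ = (n + 1).choose 2 := by rw [Sym2.card, Fintype.card_fin]
    _ = (n + 1) * n / 2 := by rw [Nat.choose_two_right]; simp
    _ ≤ n ^ 2 := by
        apply Nat.div_le_of_le_mul
        nlinarith

lemma card_real_le (hn : 1 ≤ n) (d : Fin n → ℕ) : ((realizations d).card : ℝ) ≤ 2 ^ (n ^ 2) := by
  have h1 : (realizations d).card ≤ 2 ^ (n ^ 2) := by
    calc (realizations d).card ≤ Fintype.card (Finset (Edge n)) := Finset.card_le_univ _
      _ = 2 ^ Fintype.card (Edge n) := Fintype.card_finset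
      _ ≤ 2 ^ (n ^ 2) := Nat.pow_le_pow_right (by norm_num) (card_edge_le hn)
  exact_mod_cast h1

lemma const_le (n : ℕ) : 24 * (n : ℝ) ^ 2 * (n.choose 4 : ℝ) ≤ (n : ℝ) ^ 6 := by
  have h1 : 24 * n.choose 4 ≤ n ^ 4 := by
    have := Nat.descFactorial_eq_factorial_mul_choose n 4
    have h2 := Nat.descFactorial_le_pow n 4
    have h3 : Nat.factorial 4 = 24 := by decide
    rw [this, h3] at h2
    exact h2
  have h2 : (24 : ℝ) * (n.choose 4 : ℝ) ≤ (n : ℝ) ^ 4 := by exact_mod_cast h1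
  have h3 : (0 : ℝ) ≤ (n : ℝ) ^ 2 := by positivity
  nlinarith

lemma one_le_const (hn : 4 ≤ n) : 1 ≤ 24 * (n : ℝ) ^ 2 * (n.choose 4 : ℝ) := by
  have h1 : (1 : ℝ) ≤ (n.choose 4 : ℝ) := by exact_mod_cast Nat.choose_pos hn
  have h2 : (4 : ℝ) ≤ (n : ℝ) := by exact_mod_cast hn
  have h3 : (1 : ℝ) ≤ (n : ℝ) ^ 2 := by nlinarith
  nlinarith

lemma numeric (hn : 4 ≤ n) (d : Fin n → ℕ) :
    ((realizations d).card : ℝ) * (1 - 1 / (24 * (n : ℝ) ^ 2 * (n.choose 4 : ℝ))) ^ (2 * n ^ 8)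
      ≤ 1 / 4 := by
  set C : ℝ := 24 * (n : ℝ) ^ 2 * (n.choose 4 : ℝ) with hCdef
  have hC1 : 1 ≤ C := one_le_const hn
  have hC0 : 0 < C := by linarith
  have hC6 : C ≤ (n : ℝ) ^ 6 := const_le n
  have hn4 : (4 : ℝ) ≤ (n : ℝ) := by exact_mod_cast hn
  have hn0 : (0 : ℝ) < (n : ℝ) := by linarith
  have hq : 0 ≤ 1 - 1 / C := by
    have : 1 / C ≤ 1 := by rw [div_le_one hC0]; exact hC1
    linarith
  -- (1-1/C)^t ≤ exp(-2 n^2)
  have h1 : (1 - 1 / C) ^ (2 * n ^ 8) ≤ Real.exp (-(2 * (n : ℝ) ^ 2)) := by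
    have a1 : 1 - 1 / C ≤ Real.exp (-(1 / C)) := Real.one_sub_le_exp_neg _
    have a2 : (1 - 1 / C) ^ (2 * n ^ 8) ≤ Real.exp (-(1 / C)) ^ (2 * n ^ 8) :=
      pow_le_pow_left₀ hq a1 _
    have a3 : Real.exp (-(1 / C)) ^ (2 * n ^ 8) = Real.exp (((2 * n ^ 8 : ℕ) : ℝ) * (-(1 / C))) := by
      rw [Real.exp_nat_mul]
    rw [a3] at a2
    refine le_trans a2 (Real.exp_le_exp.2 ?_)
    have a4 : 2 * (n : ℝ) ^ 2 ≤ (2 * (n : ℝ) ^ 8) * (1 / C) := by
      rw [mul_one_div, le_div_iff₀ hC0]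
      have : 2 * (n : ℝ) ^ 2 * C ≤ 2 * (n : ℝ) ^ 2 * (n : ℝ) ^ 6 :=
        mul_le_mul_of_nonneg_left hC6 (by positivity)
      calc 2 * (n : ℝ) ^ 2 * C ≤ 2 * (n : ℝ) ^ 2 * (n : ℝ) ^ 6 := this
        _ = 2 * (n : ℝ) ^ 8 := by ring
    push_cast
    linarith
  -- N ≤ exp(n^2)
  have h2 : ((realizations d).card : ℝ) ≤ Real.exp ((n : ℝ) ^ 2) := by
    refine le_trans (card_real_le (by omega) d) ?_
    have b1 : (2 : ℝ) ≤ Real.exp 1 := by
      have := Real.add_one_le_exp (1 : ℝ); linarith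
    have b2 : (2 : ℝ) ^ (n ^ 2) ≤ Real.exp 1 ^ (n ^ 2) := pow_le_pow_left₀ (by norm_num) b1 _
    have b3 : Real.exp 1 ^ (n ^ 2) = Real.exp ((n : ℝ) ^ 2) := by
      rw [← Real.exp_nat_mul]; push_cast; ring_nf
    rw [b3] at b2
    exact b2
  have h3 : ((realizations d).card : ℝ) * (1 - 1 / C) ^ (2 * n ^ 8)
      ≤ Real.exp ((n : ℝ) ^ 2) * Real.exp (-(2 * (n : ℝ) ^ 2)) :=
    mul_le_mul h2 h1 (pow_nonneg hq _) (Real.exp_pos _).le
  refine le_trans h3 ?_
  rw [← Real.exp_add]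
  have e : (n : ℝ) ^ 2 + -(2 * (n : ℝ) ^ 2) = -((n : ℝ) ^ 2) := by ring
  rw [e, Real.exp_neg]
  have h4 : (4 : ℝ) ≤ Real.exp ((n : ℝ) ^ 2) := by
    have := Real.add_one_le_exp ((n : ℝ) ^ 2)
    nlinarith
  rw [one_div]
  exact inv_anti₀ (by norm_num) h4

/-- The mixing half of S0453 follows from the Poincare half. -/
theorem mixing_of_poincare (n : ℕ) (hn : 4 ≤ n) (d : Fin n → ℕ) (hd : (realizations d).Nonempty)
    (hP : ∀ f : Finset (Edge n) → ℝ,
        ((realizations d).card : ℝ) * (∑ G ∈ realizations d, f G ^ 2) -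
            (∑ G ∈ realizations d, f G) ^ 2 ≤
          24 * (n : ℝ) ^ 2 * (n.choose 4 : ℝ) * (realizations d).card *
            ∑ G ∈ realizations d, f G * (f G - ∑ G' ∈ realizations d, kernel n G G' * f G')) :
    ∃ t : ℕ, t ≤ 2 * n ^ 8 ∧ ∀ G ∈ realizations d,
        tvDist (fun G' => (kernel n ^ t) G G') (unifOn (realizations d)) ≤ 1 / 4 :=
  ⟨2 * n ^ 8, le_rfl, fun G hG =>
    tv_le_quarter (realizations d) (kernel n) (Qk n) kernel_dec Qk_nonneg Qk_symm (Qk_row hn)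
      Qk_supp (24 * (n : ℝ) ^ 2 * (n.choose 4 : ℝ)) (one_le_const hn) hd hP G hG _ (numeric hn d)⟩

/-- The whole statement S0453 from the spectral gap bound `λ₂ ≥ 1/(2n²)` of the unweighted switch
graph, written with the switch energy (`energy` counts every switch twice). -/
theorem statement_of_energy (n : ℕ) (hn : 4 ≤ n) (d : Fin n → ℕ) (hd : (realizations d).Nonempty)
    (h : ∀ f : Finset (Edge n) → ℝ,
      ((realizations d).card : ℝ) * (∑ G ∈ realizations d, f G ^ 2) -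
          (∑ G ∈ realizations d, f G) ^ 2 ≤ (n : ℝ) ^ 2 * (realizations d).card * energy d f) :
    (∃ t : ℕ, t ≤ 2 * n ^ 8 ∧ ∀ G ∈ realizations d,
        tvDist (fun G' => (kernel n ^ t) G G') (unifOn (realizations d)) ≤ 1 / 4) ∧
      ∀ f : Finset (Edge n) → ℝ,
        ((realizations d).card : ℝ) * (∑ G ∈ realizations d, f G ^ 2) -
            (∑ G ∈ realizations d, f G) ^ 2 ≤
          24 * (n : ℝ) ^ 2 * (n.choose 4 : ℝ) * (realizations d).card *
            ∑ G ∈ realizations d, f G * (f G - ∑ G' ∈ realizations d, kernel n G G' * f G') :=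
  ⟨mixing_of_poincare n hn d hd (poincare_of_energy hn d h), poincare_of_energy hn d h⟩

end Crest.Agent.S0453R
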