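import Mathlib
import Crest.Prelude.Def_SwitchChain
import Crest.Agent.S0453_CoreLemmas
import Crest.Agent.S0453_Defs
import Crest.Agent.S0453_Graph
import Crest.Agent.S0453_P6Defs

/-!
# Row 299 (S0453), P6 graph side (second attempt): `K3Rows → P3 d`
-/

set_option autoImplicit false
set_option linter.unusedSectionVars false
set_option linter.unusedVariables false
open Finset

namespace Crest.Agent.S0453Triple2
open Crest.SwitchChain Crest.Agent.S0453Core Crest.Agent.S0453Defs Crest.Agent.S0453Graph
  Crest.Agent.S0453P6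

variable {n : ℕ}

/-- `z` is outside the triple -/
def out (u v w z : Fin n) : Prop := z ≠ u ∧ z ≠ v ∧ z ≠ w

instance (u v w : Fin n) : DecidablePred (out u v w) := fun z => by unfold out; infer_instance

/-- adjacency indicator -/
def ai (G : Finset (Edge n)) (x y : Fin n) : ℕ := if adj G x y then 1 else 0

lemma ai_comm (G : Finset (Edge n)) (x y : Fin n) : ai G x y = ai G y x := by
  unfold ai; simp only [adj_comm (a := x) (b := y)]

lemma ai_self (G : Finset (Edge n)) (x : Fin n) : ai G x x = 0 := by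
  unfold ai; simp [not_adj_self]

lemma ai_le_one (G : Finset (Edge n)) (x y : Fin n) : ai G x y ≤ 1 := by
  unfold ai; split_ifs <;> simp

lemma ai_eq_iff {G G' : Finset (Edge n)} {x y x' y' : Fin n} :
    ai G x y = ai G' x' y' ↔ (adj G x y ↔ adj G' x' y') := by
  unfold ai; split_ifs <;> simp_all

lemma card_nb (G : Finset (Edge n)) (x : Fin n) : (nb G x).card = ∑ y, ai G x y := by
  unfold nb ai; rw [Finset.card_filter]

lemma sum_split3 {u v w : Fin n} (huv : u ≠ v) (huw : u ≠ w) (hvw : v ≠ w) (F : Fin n → ℕ) :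
    ∑ z, F z = F u + F v + F w + ∑ z, if out u v w z then F z else 0 := by
  rw [← Finset.sum_filter]
  have h : (univ : Finset (Fin n)) = {u, v, w} ∪ univ.filter (fun z => out u v w z) := by
    ext z
    simp only [Finset.mem_univ, Finset.mem_union, Finset.mem_insert, Finset.mem_singleton,
      Finset.mem_filter, true_and, true_iff]
    unfold out
    tauto
  have hd : Disjoint ({u, v, w} : Finset (Fin n)) (univ.filter (fun z => out u v w z)) := by
    rw [Finset.disjoint_left]
    intro z hz hz'
    simp only [Finset.mem_insert, Finset.mem_singleton] at hz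
    simp only [Finset.mem_filter, Finset.mem_univ, true_and] at hz'
    unfold out at hz'
    tauto
  conv_lhs => rw [h]
  rw [Finset.sum_union hd, Finset.sum_insert (by simp [huv, huw]),
    Finset.sum_insert (by simp [hvw]), Finset.sum_singleton]
  ring

/-- number of neighbours of `t` outside the triple -/
def inS (u v w : Fin n) (G : Finset (Edge n)) (t : Fin n) : ℕ :=
  ∑ z, if out u v w z then ai G t z else 0

/-- number of edges inside the triple -/
def eps (u v w : Fin n) (G : Finset (Edge n)) : ℕ := ai G u v + ai G u w + ai G v w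

/-- membership predicate of a row -/
def rowP (u v w : Fin n) (G : Finset (Edge n)) (t p q : Fin n) : Option (Fin n) → Prop
  | some z => out u v w z ∧ adj G t z
  | none => ¬ adj G p q

instance (u v w : Fin n) (G : Finset (Edge n)) (t p q : Fin n) :
    DecidablePred (rowP u v w G t p q) := fun j => by
  cases j <;> simp only [rowP] <;> infer_instance

/-- the row of `t` (`p q` = the two other vertices of the triple) -/
def row (u v w : Fin n) (G : Finset (Edge n)) (t p q : Fin n) : Finset (Option (Fin n)) :=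
  univ.filter (rowP u v w G t p q)

lemma some_mem_row {u v w : Fin n} {G : Finset (Edge n)} {t p q z : Fin n} :
    some z ∈ row u v w G t p q ↔ out u v w z ∧ adj G t z := by
  simp [row, rowP]

lemma none_mem_row {u v w : Fin n} {G : Finset (Edge n)} {t p q : Fin n} :
    none ∈ row u v w G t p q ↔ ¬ adj G p q := by
  simp [row, rowP]

lemma card_row (u v w : Fin n) (G : Finset (Edge n)) (t p q : Fin n) :
    (row u v w G t p q).card + ai G p q = 1 + inS u v w G t := by
  unfold row
  rw [Finset.card_filter, Fintype.sum_option]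
  have h1 : ∑ z : Fin n, (if rowP u v w G t p q (some z) then 1 else 0) = inS u v w G t := by
    unfold inS
    apply Finset.sum_congr rfl
    intro z _
    simp only [rowP, ai]
    by_cases h1 : out u v w z <;> by_cases h2 : adj G t z <;> simp [h1, h2]
  rw [h1]
  simp only [rowP, ai]
  by_cases h : adj G p q <;> simp [h, add_comm]

/-- the three rows -/
def Th (u v w : Fin n) (G : Finset (Edge n)) : Fin 3 → Finset (Option (Fin n)) :=
  ![row u v w G u v w, row u v w G v u w, row u v w G w u v]

lemma Th_zero (u v w : Fin n) (G : Finset (Edge n)) : Th u v w G 0 = row u v w G u v w := rfl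
lemma Th_one (u v w : Fin n) (G : Finset (Edge n)) : Th u v w G 1 = row u v w G v u w := rfl
lemma Th_two (u v w : Fin n) (G : Finset (Edge n)) : Th u v w G 2 = row u v w G w u v := rfl

/-- column sums -/
def colsum (R : Fin 3 → Finset (Option (Fin n))) (j : Option (Fin n)) : ℕ :=
  (univ.filter (fun i => j ∈ R i)).card

lemma colsum_eq (R : Fin 3 → Finset (Option (Fin n))) (j : Option (Fin n)) :
    colsum R j = (if j ∈ R 0 then 1 else 0) + (if j ∈ R 1 then 1 else 0)
      + (if j ∈ R 2 then 1 else 0) := by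
  unfold colsum
  rw [Finset.card_filter, Fin.sum_univ_three]

/-- (I5) double counting -/
lemma sum_card_eq_sum_colsum (R : Fin 3 → Finset (Option (Fin n))) :
    ∑ i, (R i).card = ∑ j, colsum R j := by
  unfold colsum
  simp only [Finset.card_filter]
  rw [Finset.sum_comm]
  apply Finset.sum_congr rfl
  intro i _
  rw [← Finset.card_filter]
  congr 1
  ext j; simp

lemma colsum_some_out {u v w : Fin n} (G : Finset (Edge n)) {z : Fin n} (hz : out u v w z) :
    colsum (Th u v w G) (some z) = ai G z u + ai G z v + ai G z w := by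
  rw [colsum_eq]
  simp only [Th_zero, Th_one, Th_two, some_mem_row, hz, true_and]
  rw [ai_comm G z u, ai_comm G z v, ai_comm G z w]
  rfl

lemma colsum_some_not_out {u v w : Fin n} (G : Finset (Edge n)) {z : Fin n} (hz : ¬ out u v w z) :
    colsum (Th u v w G) (some z) = 0 := by
  rw [colsum_eq]
  simp only [Th_zero, Th_one, Th_two, some_mem_row, hz, false_and]
  rfl

/-- (I3) -/
lemma colsum_none (u v w : Fin n) (G : Finset (Edge n)) :
    colsum (Th u v w G) none + eps u v w G = 3 := by
  rw [colsum_eq]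
  simp only [Th_zero, Th_one, Th_two, none_mem_row, eps, ai]
  by_cases h1 : adj G u v <;> by_cases h2 : adj G u w <;> by_cases h3 : adj G v w <;>
    simp [h1, h2, h3]

/-- (I1) -/
lemma card_nb_out {u v w : Fin n} (huv : u ≠ v) (huw : u ≠ w) (hvw : v ≠ w)
    (G : Finset (Edge n)) {z : Fin n} (hz : out u v w z) :
    (nb G z).card = colsum (Th u v w G) (some z) + inS u v w G z := by
  rw [card_nb, sum_split3 huv huw hvw, colsum_some_out G hz]
  rfl

/-- (I2) -/
lemma card_nb_u {u v w : Fin n} (huv : u ≠ v) (huw : u ≠ w) (hvw : v ≠ w)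
    (G : Finset (Edge n)) : (nb G u).card + 1 = (Th u v w G 0).card + eps u v w G := by
  have h := card_row u v w G u v w
  rw [card_nb, sum_split3 huv huw hvw, ai_self]
  simp only [Th_zero, eps]
  unfold inS at h
  omega

lemma card_nb_v {u v w : Fin n} (huv : u ≠ v) (huw : u ≠ w) (hvw : v ≠ w)
    (G : Finset (Edge n)) : (nb G v).card + 1 = (Th u v w G 1).card + eps u v w G := by
  have h := card_row u v w G v u w
  rw [card_nb, sum_split3 huv huw hvw, ai_self, ai_comm G v u]
  simp only [Th_one, eps]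
  unfold inS at h
  omega

lemma card_nb_w {u v w : Fin n} (huv : u ≠ v) (huw : u ≠ w) (hvw : v ≠ w)
    (G : Finset (Edge n)) : (nb G w).card + 1 = (Th u v w G 2).card + eps u v w G := by
  have h := card_row u v w G w u v
  rw [card_nb, sum_split3 huv huw hvw, ai_self, ai_comm G w u, ai_comm G w v]
  simp only [Th_two, eps]
  unfold inS at h
  omega


/-! ### key3 -/

lemma adj_key3 {u v w a b : Fin n} {G : Finset (Edge n)} :
    adj (key3 u v w G) a b ↔ adj G a b ∧ out u v w a ∧ out u v w b := by
  unfold out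
  constructor
  · rintro ⟨e, he, hab⟩
    obtain ⟨heG, h1, h2, h3⟩ := Finset.mem_filter.1 he
    rw [hab] at h1 h2 h3
    simp only [Sym2.mem_iff, not_or] at h1 h2 h3
    exact ⟨⟨e, heG, hab⟩, ⟨Ne.symm h1.1, Ne.symm h2.1, Ne.symm h3.1⟩,
      ⟨Ne.symm h1.2, Ne.symm h2.2, Ne.symm h3.2⟩⟩
  · rintro ⟨⟨e, heG, hab⟩, ⟨h1, h2, h3⟩, ⟨h4, h5, h6⟩⟩
    refine ⟨e, Finset.mem_filter.2 ⟨heG, ?_, ?_, ?_⟩, hab⟩
    · rw [hab]; simp only [Sym2.mem_iff, not_or]; exact ⟨h1.symm, h4.symm⟩
    · rw [hab]; simp only [Sym2.mem_iff, not_or]; exact ⟨h2.symm, h5.symm⟩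
    · rw [hab]; simp only [Sym2.mem_iff, not_or]; exact ⟨h3.symm, h6.symm⟩

lemma key3_eq_iff {u v w : Fin n} {G G' : Finset (Edge n)} :
    key3 u v w G = key3 u v w G' ↔
      ∀ a b, out u v w a → out u v w b → (adj G a b ↔ adj G' a b) := by
  constructor
  · intro h a b ha hb
    have h1 := @adj_key3 n u v w a b G
    have h2 := @adj_key3 n u v w a b G'
    rw [h] at h1
    constructor
    · intro hG; exact (h2.1 (h1.2 ⟨hG, ha, hb⟩)).1
    · intro hG; exact (h1.1 (h2.2 ⟨hG, ha, hb⟩)).1
  · intro h
    apply ext_adj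
    intro a b
    rw [adj_key3, adj_key3]
    constructor
    · rintro ⟨hG, ha, hb⟩; exact ⟨(h a b ha hb).1 hG, ha, hb⟩
    · rintro ⟨hG, ha, hb⟩; exact ⟨(h a b ha hb).2 hG, ha, hb⟩

lemma inS_eq_of_key3 {u v w : Fin n} {G G' : Finset (Edge n)}
    (h : key3 u v w G = key3 u v w G') {z : Fin n} (hz : out u v w z) :
    inS u v w G z = inS u v w G' z := by
  unfold inS
  apply Finset.sum_congr rfl
  intro z' _
  split_ifs with hz'
  · exact ai_eq_iff.2 (key3_eq_iff.1 h z z' hz hz')
  · rfl

/-- `key2` of two vertices of the triple is finer than `key3`. -/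
lemma key3_of_key2 {u v w p q : Fin n} {G G' : Finset (Edge n)}
    (hp : ∀ z, out u v w z → z ≠ p ∧ z ≠ q) (h : key2 p q G = key2 p q G') :
    key3 u v w G = key3 u v w G' := by
  rw [key3_eq_iff]
  intro a b ha hb
  exact key2_eq_iff.1 h a b (hp a ha).1 (hp a ha).2 (hp b hb).1 (hp b hb).2

/-! ### margins are constant on a `key3`-fibre -/

lemma margins {u v w : Fin n} (huv : u ≠ v) (huw : u ≠ w) (hvw : v ≠ w) {d : Fin n → ℕ}
    {G G' : Finset (Edge n)} (hG : G ∈ realizations d) (hG' : G' ∈ realizations d)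
    (h : key3 u v w G = key3 u v w G') :
    (∀ i, (Th u v w G i).card = (Th u v w G' i).card) ∧
      ∀ j, colsum (Th u v w G) j = colsum (Th u v w G') j := by
  rw [mem_realizations] at hG hG'
  have hz : ∀ z, colsum (Th u v w G) (some z) = colsum (Th u v w G') (some z) := by
    intro z
    by_cases hz : out u v w z
    · have h1 := card_nb_out huv huw hvw G hz
      have h2 := card_nb_out huv huw hvw G' hz
      rw [hG z] at h1
      rw [hG' z, ← inS_eq_of_key3 h hz] at h2
      omega
    · rw [colsum_some_not_out G hz, colsum_some_not_out G' hz]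
  have hC : ∑ z, colsum (Th u v w G) (some z) = ∑ z, colsum (Th u v w G') (some z) :=
    Finset.sum_congr rfl (fun z _ => hz z)
  have a1 := card_nb_u huv huw hvw G
  have a2 := card_nb_v huv huw hvw G
  have a3 := card_nb_w huv huw hvw G
  have b1 := card_nb_u huv huw hvw G'
  have b2 := card_nb_v huv huw hvw G'
  have b3 := card_nb_w huv huw hvw G'
  rw [hG] at a1 a2 a3
  rw [hG'] at b1 b2 b3
  have c1 := sum_card_eq_sum_colsum (Th u v w G)
  have c2 := sum_card_eq_sum_colsum (Th u v w G')
  rw [Fin.sum_univ_three, Fintype.sum_option] at c1 c2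
  have e1 := colsum_none u v w G
  have e2 := colsum_none u v w G'
  have heps : eps u v w G = eps u v w G' := by omega
  constructor
  · intro i
    fin_cases i
    · show (Th u v w G 0).card = (Th u v w G' 0).card
      omega
    · show (Th u v w G 1).card = (Th u v w G' 1).card
      omega
    · show (Th u v w G 2).card = (Th u v w G' 2).card
      omega
  · intro j
    cases j with
    | none => omega
    | some z => exact hz z

/-! ### labels -/

lemma label_iff {u v w t p q : Fin n} (hout : ∀ z, out u v w z ↔ (z ≠ t ∧ z ≠ p ∧ z ≠ q))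
    (htp : t ≠ p) (htq : t ≠ q) {G G' : Finset (Edge n)}
    (h3 : key3 u v w G = key3 u v w G')
    (hc : (row u v w G t p q).card = (row u v w G' t p q).card) :
    key2 p q G = key2 p q G' ↔ row u v w G t p q = row u v w G' t p q := by
  constructor
  · intro h
    have hadj : ∀ z, out u v w z → (adj G t z ↔ adj G' t z) := by
      intro z hz
      have := (hout z).1 hz
      exact key2_eq_iff.1 h t z htp htq this.2.1 this.2.2
    have hS : inS u v w G t = inS u v w G' t := by
      unfold inS
      apply Finset.sum_congr rfl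
      intro z _
      split_ifs with hz
      · exact ai_eq_iff.2 (hadj z hz)
      · rfl
    have c1 := card_row u v w G t p q
    have c2 := card_row u v w G' t p q
    have hpq : ai G p q = ai G' p q := by omega
    ext j
    cases j with
    | none => rw [none_mem_row, none_mem_row, ai_eq_iff.1 hpq]
    | some z =>
      rw [some_mem_row, some_mem_row]
      constructor
      · rintro ⟨hz, ha⟩; exact ⟨hz, (hadj z hz).1 ha⟩
      · rintro ⟨hz, ha⟩; exact ⟨hz, (hadj z hz).2 ha⟩
  · intro h
    have hadj : ∀ z, out u v w z → (adj G t z ↔ adj G' t z) := by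
      intro z hz
      have h1 := @some_mem_row n u v w G t p q z
      have h2 := @some_mem_row n u v w G' t p q z
      rw [h] at h1
      constructor
      · intro ha; exact (h2.1 (h1.2 ⟨hz, ha⟩)).2
      · intro ha; exact (h1.1 (h2.2 ⟨hz, ha⟩)).2
    rw [key2_eq_iff]
    intro a b ha1 ha2 hb1 hb2
    by_cases hat : a = t
    · by_cases hbt : b = t
      · subst hat; subst hbt
        exact ⟨fun h => absurd h (not_adj_self _ _), fun h => absurd h (not_adj_self _ _)⟩
      · subst hat
        exact hadj b ((hout b).2 ⟨hbt, hb1, hb2⟩)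
    · by_cases hbt : b = t
      · subst hbt
        rw [adj_comm (a := a), adj_comm (a := a)]
        exact hadj a ((hout a).2 ⟨hat, ha1, ha2⟩)
      · exact key3_eq_iff.1 h3 a b ((hout a).2 ⟨hat, ha1, ha2⟩) ((hout b).2 ⟨hbt, hb1, hb2⟩)


lemma out_perm1 (u v w z : Fin n) : out u v w z ↔ (z ≠ u ∧ z ≠ v ∧ z ≠ w) := Iff.rfl
lemma out_perm2 (u v w z : Fin n) : out u v w z ↔ (z ≠ v ∧ z ≠ u ∧ z ≠ w) := by
  unfold out; tauto
lemma out_perm3 (u v w z : Fin n) : out u v w z ↔ (z ≠ w ∧ z ≠ u ∧ z ≠ v) := by
  unfold out; tauto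

/-! ### injectivity -/

lemma Th_inj {u v w : Fin n} (huv : u ≠ v) (huw : u ≠ w) (hvw : v ≠ w)
    {G G' : Finset (Edge n)} (h3 : key3 u v w G = key3 u v w G')
    (h : Th u v w G = Th u v w G') : G = G' := by
  have h0 : row u v w G u v w = row u v w G' u v w := congrFun h 0
  have h1 : row u v w G v u w = row u v w G' v u w := congrFun h 1
  have h2 : row u v w G w u v = row u v w G' w u v := congrFun h 2
  have F1 := key2_eq_iff.1 ((label_iff (out_perm1 u v w) huv huw h3 (by rw [h0])).2 h0)
  have F2 := key2_eq_iff.1 ((label_iff (out_perm2 u v w) huv.symm hvw h3 (by rw [h1])).2 h1)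
  have F3 := key2_eq_iff.1 ((label_iff (out_perm3 u v w) huw.symm hvw.symm h3 (by rw [h2])).2 h2)
  have I3 : adj G v w ↔ adj G' v w := by
    have a1 := @none_mem_row n u v w G u v w
    have a2 := @none_mem_row n u v w G' u v w
    rw [h0] at a1
    have : ¬ adj G v w ↔ ¬ adj G' v w := a1.symm.trans a2
    tauto
  have I2 : adj G u w ↔ adj G' u w := by
    have a1 := @none_mem_row n u v w G v u w
    have a2 := @none_mem_row n u v w G' v u w
    rw [h1] at a1
    have : ¬ adj G u w ↔ ¬ adj G' u w := a1.symm.trans a2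
    tauto
  have I1 : adj G u v ↔ adj G' u v := by
    have a1 := @none_mem_row n u v w G w u v
    have a2 := @none_mem_row n u v w G' w u v
    rw [h2] at a1
    have : ¬ adj G u v ↔ ¬ adj G' u v := a1.symm.trans a2
    tauto
  have self : ∀ a, adj G a a ↔ adj G' a a := fun a =>
    ⟨fun h => absurd h (not_adj_self _ _), fun h => absurd h (not_adj_self _ _)⟩
  apply ext_adj
  intro a b
  by_cases hau : a = u
  · subst hau
    by_cases hb1 : b = a
    · subst hb1; exact self _
    · by_cases hb2 : b = v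
      · subst hb2; exact I1
      · by_cases hb3 : b = w
        · subst hb3; exact I2
        · exact F1 a b huv huw hb2 hb3
  · by_cases hav : a = v
    · subst hav
      by_cases hb1 : b = u
      · subst hb1; rw [adj_comm (a := a), adj_comm (a := a)]; exact I1
      · by_cases hb2 : b = a
        · subst hb2; exact self _
        · by_cases hb3 : b = w
          · subst hb3; exact I3
          · exact F2 a b huv.symm hvw hb1 hb3
    · by_cases haw : a = w
      · subst haw
        by_cases hb1 : b = u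
        · subst hb1; rw [adj_comm (a := a), adj_comm (a := a)]; exact I2
        · by_cases hb2 : b = v
          · subst hb2; rw [adj_comm (a := a), adj_comm (a := a)]; exact I3
          · exact F3 a b huw.symm hvw.symm hb1 hb2
      · by_cases hb1 : b = u
        · subst hb1; exact F1 a b hav haw huv huw
        · by_cases hb2 : b = v
          · subst hb2; exact F2 a b hau haw huv.symm hvw
          · exact F3 a b hau hav hb1 hb2

/-! ### surjectivity: a graph from three rows -/

/-- the adjacency relation of the graph built from `G0 - T` and the rows `R`. -/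
def rel (u v w : Fin n) (G0 : Finset (Edge n)) (R : Fin 3 → Finset (Option (Fin n)))
    (x y : Fin n) : Prop :=
  (out u v w x ∧ out u v w y ∧ adj G0 x y) ∨ (x = u ∧ some y ∈ R 0) ∨ (x = v ∧ some y ∈ R 1) ∨
    (x = w ∧ some y ∈ R 2) ∨ (x = v ∧ y = w ∧ none ∉ R 0) ∨ (x = u ∧ y = w ∧ none ∉ R 1) ∨
    (x = u ∧ y = v ∧ none ∉ R 2)

instance (u v w : Fin n) (G0 : Finset (Edge n)) (R : Fin 3 → Finset (Option (Fin n))) :
    DecidableRel (rel u v w G0 R) := fun x y => by unfold rel; infer_instance

def mk (u v w : Fin n) (G0 : Finset (Edge n)) (R : Fin 3 → Finset (Option (Fin n))) :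
    Finset (Edge n) := ofAdj (rel u v w G0 R)

section mk
variable {u v w : Fin n} (huv : u ≠ v) (huw : u ≠ w) (hvw : v ≠ w) {G0 : Finset (Edge n)}
  {R : Fin 3 → Finset (Option (Fin n))} (hR : ∀ i z, some z ∈ R i → out u v w z)
include huv huw hvw hR

lemma not_out_u : ¬ out u v w u := fun h => h.1 rfl
lemma not_out_v : ¬ out u v w v := fun h => h.2.1 rfl
lemma not_out_w : ¬ out u v w w := fun h => h.2.2 rfl

lemma adj_mk_out {a b : Fin n} (ha : out u v w a) (hb : out u v w b) :
    adj (mk u v w G0 R) a b ↔ adj G0 a b := by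
  unfold mk
  rw [adj_ofAdj]
  obtain ⟨a1, a2, a3⟩ := ha
  obtain ⟨b1, b2, b3⟩ := hb
  unfold rel out
  constructor
  · rintro ⟨_, h | h⟩
    · rcases h with h | h | h | h | h | h | h
      · exact h.2.2
      all_goals (first | exact absurd h.1 a1 | exact absurd h.1 a2 | exact absurd h.1 a3)
    · rcases h with h | h | h | h | h | h | h
      · exact adj_symm h.2.2
      all_goals (first | exact absurd h.1 b1 | exact absurd h.1 b2 | exact absurd h.1 b3)
  · intro h
    exact ⟨adj_ne h, Or.inl (Or.inl ⟨⟨a1, a2, a3⟩, ⟨b1, b2, b3⟩, h⟩)⟩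

lemma adj_mk_u {z : Fin n} (hz : out u v w z) : adj (mk u v w G0 R) u z ↔ some z ∈ R 0 := by
  unfold mk
  rw [adj_ofAdj]
  obtain ⟨z1, z2, z3⟩ := hz
  unfold rel
  constructor
  · rintro ⟨_, h | h⟩
    · rcases h with h | h | h | h | h | h | h
      · exact absurd h.1 (fun h => h.1 rfl)
      · exact h.2
      · exact absurd h.1 huv
      · exact absurd h.1 huw
      · exact absurd h.1 huv
      · exact absurd h.2.1 z3
      · exact absurd h.2.1 z2
    · rcases h with h | h | h | h | h | h | h
      · exact absurd h.2.1 (fun h => h.1 rfl)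
      all_goals (first | exact absurd h.1 z1 | exact absurd h.1 z2 | exact absurd h.1 z3)
  · intro h
    exact ⟨Ne.symm z1, Or.inl (Or.inr (Or.inl ⟨rfl, h⟩))⟩

lemma adj_mk_v {z : Fin n} (hz : out u v w z) : adj (mk u v w G0 R) v z ↔ some z ∈ R 1 := by
  unfold mk
  rw [adj_ofAdj]
  obtain ⟨z1, z2, z3⟩ := hz
  unfold rel
  constructor
  · rintro ⟨_, h | h⟩
    · rcases h with h | h | h | h | h | h | h
      · exact absurd h.1 (fun h => h.2.1 rfl)
      · exact absurd h.1 huv.symm
      · exact h.2
      · exact absurd h.1 hvw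
      · exact absurd h.2.1 z3
      · exact absurd h.1 huv.symm
      · exact absurd h.1 huv.symm
    · rcases h with h | h | h | h | h | h | h
      · exact absurd h.2.1 (fun h => h.2.1 rfl)
      all_goals (first | exact absurd h.1 z1 | exact absurd h.1 z2 | exact absurd h.1 z3)
  · intro h
    exact ⟨Ne.symm z2, Or.inl (Or.inr (Or.inr (Or.inl ⟨rfl, h⟩)))⟩

lemma adj_mk_w {z : Fin n} (hz : out u v w z) : adj (mk u v w G0 R) w z ↔ some z ∈ R 2 := by
  unfold mk
  rw [adj_ofAdj]
  obtain ⟨z1, z2, z3⟩ := hz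
  unfold rel
  constructor
  · rintro ⟨_, h | h⟩
    · rcases h with h | h | h | h | h | h | h
      · exact absurd h.1 (fun h => h.2.2 rfl)
      · exact absurd h.1 huw.symm
      · exact absurd h.1 hvw.symm
      · exact h.2
      · exact absurd h.1 hvw.symm
      · exact absurd h.1 huw.symm
      · exact absurd h.1 huw.symm
    · rcases h with h | h | h | h | h | h | h
      · exact absurd h.2.1 (fun h => h.2.2 rfl)
      all_goals (first | exact absurd h.1 z1 | exact absurd h.1 z2 | exact absurd h.1 z3)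
  · intro h
    exact ⟨Ne.symm z3, Or.inl (Or.inr (Or.inr (Or.inr (Or.inl ⟨rfl, h⟩))))⟩

lemma adj_mk_vw : adj (mk u v w G0 R) v w ↔ none ∉ R 0 := by
  unfold mk
  rw [adj_ofAdj]
  unfold rel
  constructor
  · rintro ⟨_, h | h⟩
    · rcases h with h | h | h | h | h | h | h
      · exact absurd h.1 (fun h => h.2.1 rfl)
      · exact absurd h.1 huv.symm
      · exact absurd (hR 1 w h.2) (fun h => h.2.2 rfl)
      · exact absurd h.1 hvw
      · exact h.2.2
      · exact absurd h.1 huv.symm
      · exact absurd h.1 huv.symm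
    · rcases h with h | h | h | h | h | h | h
      · exact absurd h.1 (fun h => h.2.2 rfl)
      · exact absurd h.1 huw.symm
      · exact absurd h.1 hvw.symm
      · exact absurd (hR 2 v h.2) (fun h => h.2.1 rfl)
      · exact absurd h.1 hvw.symm
      · exact absurd h.1 huw.symm
      · exact absurd h.1 huw.symm
  · intro h
    exact ⟨hvw, Or.inl (Or.inr (Or.inr (Or.inr (Or.inr (Or.inl ⟨rfl, rfl, h⟩)))))⟩

lemma adj_mk_uw : adj (mk u v w G0 R) u w ↔ none ∉ R 1 := by
  unfold mk
  rw [adj_ofAdj]
  unfold rel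
  constructor
  · rintro ⟨_, h | h⟩
    · rcases h with h | h | h | h | h | h | h
      · exact absurd h.1 (fun h => h.1 rfl)
      · exact absurd (hR 0 w h.2) (fun h => h.2.2 rfl)
      · exact absurd h.1 huv
      · exact absurd h.1 huw
      · exact absurd h.1 huv
      · exact h.2.2
      · exact absurd h.2.1 hvw.symm
    · rcases h with h | h | h | h | h | h | h
      · exact absurd h.1 (fun h => h.2.2 rfl)
      · exact absurd h.1 huw.symm
      · exact absurd h.1 hvw.symm
      · exact absurd (hR 2 u h.2) (fun h => h.1 rfl)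
      · exact absurd h.1 hvw.symm
      · exact absurd h.1 huw.symm
      · exact absurd h.1 huw.symm
  · intro h
    exact ⟨huw, Or.inl (Or.inr (Or.inr (Or.inr (Or.inr (Or.inr (Or.inl ⟨rfl, rfl, h⟩))))))⟩

lemma adj_mk_uv : adj (mk u v w G0 R) u v ↔ none ∉ R 2 := by
  unfold mk
  rw [adj_ofAdj]
  unfold rel
  constructor
  · rintro ⟨_, h | h⟩
    · rcases h with h | h | h | h | h | h | h
      · exact absurd h.1 (fun h => h.1 rfl)
      · exact absurd (hR 0 v h.2) (fun h => h.2.1 rfl)
      · exact absurd h.1 huv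
      · exact absurd h.1 huw
      · exact absurd h.1 huv
      · exact absurd h.2.1 hvw
      · exact h.2.2
    · rcases h with h | h | h | h | h | h | h
      · exact absurd h.1 (fun h => h.2.1 rfl)
      · exact absurd h.1 huv.symm
      · exact absurd (hR 1 u h.2) (fun h => h.1 rfl)
      · exact absurd h.1 hvw
      · exact absurd h.2.1 huw
      · exact absurd h.1 huv.symm
      · exact absurd h.1 huv.symm
  · intro h
    exact ⟨huv, Or.inl (Or.inr (Or.inr (Or.inr (Or.inr (Or.inr (Or.inr ⟨rfl, rfl, h⟩))))))⟩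

lemma Th_mk : Th u v w (mk u v w G0 R) = R := by
  funext i
  fin_cases i
  · show row u v w (mk u v w G0 R) u v w = R 0
    ext j
    cases j with
    | none => rw [none_mem_row, adj_mk_vw huv huw hvw hR, not_not]
    | some z =>
      rw [some_mem_row]
      constructor
      · rintro ⟨hz, h⟩; exact (adj_mk_u huv huw hvw hR hz).1 h
      · intro h; exact ⟨hR 0 z h, (adj_mk_u huv huw hvw hR (hR 0 z h)).2 h⟩
  · show row u v w (mk u v w G0 R) v u w = R 1
    ext j
    cases j with
    | none => rw [none_mem_row, adj_mk_uw huv huw hvw hR, not_not]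
    | some z =>
      rw [some_mem_row]
      constructor
      · rintro ⟨hz, h⟩; exact (adj_mk_v huv huw hvw hR hz).1 h
      · intro h; exact ⟨hR 1 z h, (adj_mk_v huv huw hvw hR (hR 1 z h)).2 h⟩
  · show row u v w (mk u v w G0 R) w u v = R 2
    ext j
    cases j with
    | none => rw [none_mem_row, adj_mk_uv huv huw hvw hR, not_not]
    | some z =>
      rw [some_mem_row]
      constructor
      · rintro ⟨hz, h⟩; exact (adj_mk_w huv huw hvw hR hz).1 h
      · intro h; exact ⟨hR 2 z h, (adj_mk_w huv huw hvw hR (hR 2 z h)).2 h⟩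

lemma key3_mk : key3 u v w (mk u v w G0 R) = key3 u v w G0 := by
  rw [key3_eq_iff]
  intro a b ha hb
  exact adj_mk_out huv huw hvw hR ha hb

end mk

lemma mk_mem {u v w : Fin n} (huv : u ≠ v) (huw : u ≠ w) (hvw : v ≠ w) {d : Fin n → ℕ}
    {G0 : Finset (Edge n)} (hG0 : G0 ∈ realizations d) {R : Fin 3 → Finset (Option (Fin n))}
    (hr : ∀ i, (R i).card = (Th u v w G0 i).card)
    (hc : ∀ j, colsum R j = colsum (Th u v w G0) j) :
    (∀ i z, some z ∈ R i → out u v w z) ∧ mk u v w G0 R ∈ realizations d := by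
  have hR : ∀ i z, some z ∈ R i → out u v w z := by
    intro i z hz
    by_contra hout
    have h0 := hc (some z)
    rw [colsum_some_not_out G0 hout] at h0
    unfold colsum at h0
    rw [Finset.card_eq_zero, Finset.filter_eq_empty_iff] at h0
    exact h0 (Finset.mem_univ i) hz
  refine ⟨hR, ?_⟩
  have hT := Th_mk huv huw hvw (G0 := G0) hR
  have h3 := key3_mk huv huw hvw (G0 := G0) hR
  have hG0' := mem_realizations.1 hG0
  rw [mem_realizations]
  have e1 := colsum_none u v w (mk u v w G0 R)
  have e2 := colsum_none u v w G0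
  rw [hT, hc none] at e1
  have heps : eps u v w (mk u v w G0 R) = eps u v w G0 := by omega
  intro x
  by_cases hx : out u v w x
  · have h1 := card_nb_out huv huw hvw (mk u v w G0 R) hx
    have h2 := card_nb_out huv huw hvw G0 hx
    rw [hT, hc, inS_eq_of_key3 h3 hx] at h1
    rw [h1, ← h2, hG0']
  · have hx' : x = u ∨ x = v ∨ x = w := by
      unfold out at hx; tauto
    rcases hx' with rfl | rfl | rfl
    · have h1 := card_nb_u huv huw hvw (mk x v w G0 R)
      have h2 := card_nb_u huv huw hvw G0
      rw [hT, hr 0, heps] at h1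
      rw [hG0'] at h2
      omega
    · have h1 := card_nb_v huv huw hvw (mk u x w G0 R)
      have h2 := card_nb_v huv huw hvw G0
      rw [hT, hr 1, heps] at h1
      rw [hG0'] at h2
      omega
    · have h1 := card_nb_w huv huw hvw (mk u v x G0 R)
      have h2 := card_nb_w huv huw hvw G0
      rw [hT, hr 2, heps] at h1
      rw [hG0'] at h2
      omega

/-- the image of a `key3`-fibre is a three-row ensemble. -/
lemma image_eq {u v w : Fin n} (huv : u ≠ v) (huw : u ≠ w) (hvw : v ≠ w) {d : Fin n → ℕ}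
    {G0 : Finset (Edge n)} (hG0 : G0 ∈ realizations d) :
    (fib (realizations d) (key3 u v w) G0).image (Th u v w)
      = rows3 (fun i => (Th u v w G0 i).card) (fun j => colsum (Th u v w G0) j) := by
  ext R
  unfold rows3
  rw [Finset.mem_image, Finset.mem_filter]
  constructor
  · rintro ⟨G, hG, rfl⟩
    obtain ⟨hGΩ, h3⟩ := mem_fib.1 hG
    obtain ⟨m1, m2⟩ := margins huv huw hvw hGΩ hG0 h3
    exact ⟨Finset.mem_univ _, m1, m2⟩
  · rintro ⟨_, hr, hc⟩
    obtain ⟨hR, hmem⟩ := mk_mem huv huw hvw hG0 hr hc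
    exact ⟨mk u v w G0 R, mem_fib.2 ⟨hmem, key3_mk huv huw hvw hR⟩, Th_mk huv huw hvw hR⟩


/-! ### transport of the quadratic forms -/

lemma ip_cP_transport {α α' β β' : Type*} [DecidableEq β] [DecidableEq β'] [DecidableEq α']
    {Φ : Finset α} {e : α → α'} {φ : α → β} {φ' : α' → β'} (he : Set.InjOn e Φ)
    (hl : ∀ y ∈ Φ, ∀ z ∈ Φ, (φ' (e y) = φ' (e z) ↔ φ y = φ z)) (g : α' → ℝ) (f : α → ℝ)
    (hgf : ∀ x ∈ Φ, g (e x) = f x) :
    ip (Φ.image e) (cP (Φ.image e) φ' g) (cP (Φ.image e) φ' g) = ip Φ (cP Φ φ f) (cP Φ φ f) := by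
  rw [ip_image he]
  apply ip_congr
  · intro x hx
    rw [cP_image he hl hx]
    exact cP_congr hgf hx
  · intro x hx
    rw [cP_image he hl hx]
    exact cP_congr hgf hx

theorem P3_of_K3Rows (d : Fin n → ℕ) (hK : K3Rows) : P3 d := by
  intro u v w huv huw hvw f
  unfold p2
  simp only [ip_def]
  rw [← Finset.sum_add_distrib, ← Finset.sum_add_distrib]
  apply sum_le_sum_of_fib (key3 u v w)
  intro G0 hG0
  set Ω := realizations d with hΩ
  set Φ := fib Ω (key3 u v w) G0 with hΦ
  -- finer labels
  have f1 : Finer Ω (key2 u v) (key3 u v w) := fun y _ z _ h =>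
    key3_of_key2 (fun z hz => ⟨hz.1, hz.2.1⟩) h
  have f2 : Finer Ω (key2 u w) (key3 u v w) := fun y _ z _ h =>
    key3_of_key2 (fun z hz => ⟨hz.1, hz.2.2⟩) h
  have f3 : Finer Ω (key2 v w) (key3 u v w) := fun y _ z _ h =>
    key3_of_key2 (fun z hz => ⟨hz.2.1, hz.2.2⟩) h
  -- localise
  have e0 : ∀ G ∈ Φ, cP Ω (key3 u v w) f G = cP Φ (fun _ => ()) f G := by
    intro G hG
    unfold cP
    rw [cE_fib_label hG]
  have e1 : ∀ G ∈ Φ, cP Ω (key2 u v) f G = cP Φ (key2 u v) f G :=
    fun G hG => (cP_fib f1 hG f).symm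
  have e2 : ∀ G ∈ Φ, cP Ω (key2 u w) f G = cP Φ (key2 u w) f G :=
    fun G hG => (cP_fib f2 hG f).symm
  have e3 : ∀ G ∈ Φ, cP Ω (key2 v w) f G = cP Φ (key2 v w) f G :=
    fun G hG => (cP_fib f3 hG f).symm
  have L : ∑ G ∈ Φ, cP Ω (key3 u v w) f G * cP Ω (key3 u v w) f G
      = ip Φ (cP Φ (fun _ => ()) f) (cP Φ (fun _ => ()) f) :=
    Finset.sum_congr rfl (fun G hG => by rw [e0 G hG])
  have Rr : ∑ G ∈ Φ, (cP Ω (key2 u v) f G * cP Ω (key2 u v) f G
        + cP Ω (key2 u w) f G * cP Ω (key2 u w) f G + cP Ω (key2 v w) f G * cP Ω (key2 v w) f G)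
      = ip Φ (cP Φ (key2 u v) f) (cP Φ (key2 u v) f) + ip Φ (cP Φ (key2 u w) f) (cP Φ (key2 u w) f)
        + ip Φ (cP Φ (key2 v w) f) (cP Φ (key2 v w) f) := by
    simp only [ip_def]
    rw [← Finset.sum_add_distrib, ← Finset.sum_add_distrib]
    exact Finset.sum_congr rfl (fun G hG => by rw [e1 G hG, e2 G hG, e3 G hG])
  rw [L, Rr]
  -- transport
  have he : Set.InjOn (Th u v w) Φ := by
    intro G hG G' hG' h
    have a1 := (mem_fib.1 (Finset.mem_coe.1 hG)).2
    have a2 := (mem_fib.1 (Finset.mem_coe.1 hG')).2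
    exact Th_inj huv huw hvw (a1.trans a2.symm) h
  have himg := image_eq huv huw hvw hG0
  rw [← hΩ, ← hΦ] at himg
  have : Nonempty (Finset (Edge n)) := ⟨G0⟩
  set g : (Fin 3 → Finset (Option (Fin n))) → ℝ :=
    fun R => f (Function.invFunOn (Th u v w) (Φ : Set (Finset (Edge n))) R) with hg
  have hgf : ∀ G ∈ Φ, g (Th u v w G) = f G := by
    intro G hG
    show f _ = f G
    rw [he.leftInvOn_invFunOn (Finset.mem_coe.2 hG)]
  have key := hK (Option (Fin n)) (fun i => (Th u v w G0 i).card)
    (fun j => colsum (Th u v w G0) j) g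
  rw [← himg, Fin.sum_univ_three] at key
  have h33 : ∀ G ∈ Φ, ∀ G' ∈ Φ, key3 u v w G = key3 u v w G' := by
    intro G hG G' hG'
    exact (mem_fib.1 hG).2.trans (mem_fib.1 hG').2.symm
  have hcard : ∀ G ∈ Φ, ∀ G' ∈ Φ, ∀ i, (Th u v w G i).card = (Th u v w G' i).card := by
    intro G hG G' hG' i
    exact (margins huv huw hvw (mem_fib.1 hG).1 (mem_fib.1 hG').1 (h33 G hG G' hG')).1 i
  rw [ip_cP_transport (φ := fun _ : Finset (Edge n) => ()) he
      (fun _ _ _ _ => ⟨fun _ => rfl, fun _ => rfl⟩) g f hgf,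
    ip_cP_transport (φ := key2 v w) he (fun G hG G' hG' =>
      (label_iff (out_perm1 u v w) huv huw (h33 G hG G' hG') (hcard G hG G' hG' 0)).symm) g f hgf,
    ip_cP_transport (φ := key2 u w) he (fun G hG G' hG' =>
      (label_iff (out_perm2 u v w) huv.symm hvw (h33 G hG G' hG') (hcard G hG G' hG' 1)).symm)
      g f hgf,
    ip_cP_transport (φ := key2 u v) he (fun G hG G' hG' =>
      (label_iff (out_perm3 u v w) huw.symm hvw.symm (h33 G hG G' hG')
        (hcard G hG G' hG' 2)).symm) g f hgf] at key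
  linarith

end Crest.Agent.S0453Triple2
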